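import Vale.Agent.P154H.D.D10
import Vale.Agent.P154H.FinalD
import Vale.Agent.P154H.OriginW

open Filter Topology

set_option maxRecDepth 100000

/-!
Nonreconstruction at the Kesten-Stigum bound for `d = 10`, negative eigenvalue.
-/

namespace Vale.Agent.P154H.Tm.D10

open Vale.Agent.P154 Vale.Agent.P154H

/-- A chord cell. -/
noncomputable def C0 : Cell := ⟨(5243 / 1048576 : ℝ), (195 / 32768 : ℝ), (-54015501 / 4194304 : ℝ), (-531920175 / 4194304 : ℝ), (-478930263 / 4194304 : ℝ), (-156523 / 268435456 : ℝ)⟩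

/-- A chord cell. -/
noncomputable def C1 : Cell := ⟨(195 / 32768 : ℝ), (1857 / 262144 : ℝ), (-53660877 / 4194304 : ℝ), (-131873847 / 1048576 : ℝ), (-474434033 / 4194304 : ℝ), (-245711 / 268435456 : ℝ)⟩

/-- A chord cell. -/
noncomputable def C2 : Cell := ⟨(1857 / 262144 : ℝ), (2211 / 262144 : ℝ), (-26612781 / 2097152 : ℝ), (-522163859 / 4194304 : ℝ), (-117281189 / 1048576 : ℝ), (-161569 / 134217728 : ℝ)⟩

/-- A chord cell. -/
noncomputable def C3 : Cell := ⟨(2211 / 262144 : ℝ), (329 / 32768 : ℝ), (-26345649 / 2097152 : ℝ), (-516022187 / 4194304 : ℝ), (-462873259 / 4194304 : ℝ), (-491823 / 268435456 : ℝ)⟩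

/-- A chord cell. -/
noncomputable def C4 : Cell := ⟨(329 / 32768 : ℝ), (1567 / 131072 : ℝ), (-52026573 / 4194304 : ℝ), (-63588597 / 524288 : ℝ), (-227762443 / 2097152 : ℝ), (-658431 / 268435456 : ℝ)⟩

/-- A chord cell. -/
noncomputable def C5 : Cell := ⟨(1567 / 131072 : ℝ), (1865 / 131072 : ℝ), (-3209803 / 262144 : ℝ), (-499991867 / 4194304 : ℝ), (-223459373 / 2097152 : ℝ), (-422247 / 134217728 : ℝ)⟩

/-- A chord cell. -/
noncomputable def C6 : Cell := ⟨(1865 / 131072 : ℝ), (4441 / 262144 : ℝ), (-25254271 / 2097152 : ℝ), (-245071855 / 2097152 : ℝ), (-109215911 / 1048576 : ℝ), (-84075 / 16777216 : ℝ)⟩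

/-- A chord cell. -/
noncomputable def C7 : Cell := ⟨(4441 / 262144 : ℝ), (2643 / 131072 : ℝ), (-12361257 / 1048576 : ℝ), (-478393429 / 4194304 : ℝ), (-425156077 / 4194304 : ℝ), (-858495 / 134217728 : ℝ)⟩

/-- A chord cell. -/
noncomputable def C8 : Cell := ⟨(2643 / 131072 : ℝ), (6293 / 262144 : ℝ), (-24175409 / 2097152 : ℝ), (-465115759 / 4194304 : ℝ), (-51448311 / 524288 : ℝ), (-2793645 / 268435456 : ℝ)⟩

/-- A chord cell. -/
noncomputable def C9 : Cell := ⟨(6293 / 262144 : ℝ), (1873 / 65536 : ℝ), (-23545797 / 2097152 : ℝ), (-449268069 / 4194304 : ℝ), (-12372743 / 131072 : ℝ), (-1799999 / 134217728 : ℝ)⟩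

/-- A chord cell. -/
noncomputable def C10 : Cell := ⟨(1873 / 65536 : ℝ), (4459 / 131072 : ℝ), (-711247 / 65536 : ℝ), (-431214513 / 4194304 : ℝ), (-188994093 / 2097152 : ℝ), (-2350757 / 134217728 : ℝ)⟩

/-- A chord cell. -/
noncomputable def C11 : Cell := ⟨(4459 / 131072 : ℝ), (10617 / 262144 : ℝ), (-43917307 / 4194304 : ℝ), (-12851913 / 131072 : ℝ), (-178789399 / 2097152 : ℝ), (-3896581 / 134217728 : ℝ)⟩

/-- A chord cell. -/
noncomputable def C12 : Cell := ⟨(10617 / 262144 : ℝ), (6319 / 131072 : ℝ), (-21016607 / 2097152 : ℝ), (-193990943 / 2097152 : ℝ), (-334567927 / 4194304 : ℝ), (-638899 / 16777216 : ℝ)⟩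

/-- A chord cell. -/
noncomputable def C13 : Cell := ⟨(6319 / 131072 : ℝ), (15045 / 262144 : ℝ), (-19734147 / 2097152 : ℝ), (-362173991 / 4194304 : ℝ), (-308904865 / 4194304 : ℝ), (-12965085 / 268435456 : ℝ)⟩

/-- A chord cell. -/
noncomputable def C14 : Cell := ⟨(15045 / 262144 : ℝ), (8955 / 131072 : ℝ), (-9297549 / 1048576 : ℝ), (-335776029 / 4194304 : ℝ), (-280648755 / 4194304 : ℝ), (-3183135 / 33554432 : ℝ)⟩

/-- A chord cell. -/
noncomputable def C15 : Cell := ⟨(8955 / 131072 : ℝ), (21321 / 262144 : ℝ), (-34617557 / 4194304 : ℝ), (-38138113 / 524288 : ℝ), (-31253971 / 524288 : ℝ), (-17359631 / 134217728 : ℝ)⟩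

/-- A chord cell. -/
noncomputable def C16 : Cell := ⟨(21321 / 262144 : ℝ), (25381 / 262144 : ℝ), (-31615371 / 4194304 : ℝ), (-137119569 / 2097152 : ℝ), (-217492029 / 4194304 : ℝ), (-55033265 / 268435456 : ℝ)⟩

/-- A chord cell. -/
noncomputable def C17 : Cell := ⟨(25381 / 262144 : ℝ), (30215 / 262144 : ℝ), (-1814157 / 262144 : ℝ), (-243932299 / 4194304 : ℝ), (-183714971 / 4194304 : ℝ), (-47751535 / 134217728 : ℝ)⟩

/-- A chord cell. -/
noncomputable def C18 : Cell := ⟨(30215 / 262144 : ℝ), (143 / 1024 : ℝ), (-13226293 / 2097152 : ℝ), (-108974207 / 2097152 : ℝ), (-147856495 / 4194304 : ℝ), (-192871481 / 268435456 : ℝ)⟩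

/-- The chord cells. -/
noncomputable def cellsL : List Cell := [C0, C1, C2, C3, C4, C5, C6, C7, C8, C9, C10, C11, C12, C13, C14, C15, C16, C17, C18]

lemma hcover : ∀ x : ℝ, (5243 / 1048576 : ℝ) ≤ x → x ≤ (143 / 1024 : ℝ) → ∃ D ∈ cellsL, D.l ≤ x ∧ x ≤ D.u := by
  refine cover_of_chain ?_ (by norm_num [C0])
  simp only [ChainP, C0, C1, C2, C3, C4, C5, C6, C7, C8, C9, C10, C11, C12, C13, C14, C15, C16, C17, C18]
  norm_num

lemma hch : ((Nat.choose 10 2 : ℕ) : ℝ) = 45 := by norm_num [Nat.choose]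

lemma rTa : Rw4 P.r1 (393216 : ℝ) (coTa 10 (87579 / 65536 : ℝ) (868797 / 65536 : ℝ) (379421 / 32768 : ℝ) (107 / 256 : ℝ) (93 / 4096 : ℝ)) := by
  refine ⟨⟨Ra, List.mem_cons_self, ?_⟩, by norm_num⟩
  constructor <;> norm_num [Ra, coTa, hch]

lemma rTb : Rw4 P.r1 (3298534883328 : ℝ) (coTb 10 (87579 / 65536 : ℝ) (868797 / 65536 : ℝ) (379421 / 32768 : ℝ) (107 / 256 : ℝ) (93 / 4096 : ℝ) (45 / 512 : ℝ) (4233 / 4096 : ℝ) (1807 / 4096 : ℝ)) := by
  refine ⟨⟨Rb, List.mem_cons_of_mem _ (List.mem_cons_self), ?_⟩, by norm_num⟩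
  constructor <;> norm_num [Rb, coTb, hch]

lemma rc1 : Rw4 P.r2 (16777216 : ℝ) ⟨0, 0, 0, -(87579 / 65536 : ℝ), 0, 0, 0, 0, (379421 / 32768 : ℝ) * (45 / 512 : ℝ)⟩ := by
  refine ⟨⟨Q0, List.mem_cons_self, ?_⟩, by norm_num⟩
  constructor <;> norm_num [Q0]

lemma rc2 : Rw4 P.r2 (134217728 : ℝ) ⟨0, 0, 0, 0, -(868797 / 65536 : ℝ), 0, 0, 0, (379421 / 32768 : ℝ) * (4233 / 4096 : ℝ)⟩ := by
  refine ⟨⟨Q1, List.mem_cons_of_mem _ (List.mem_cons_self), ?_⟩, by norm_num⟩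
  constructor <;> norm_num [Q1]

lemma rc3 : Rw4 P.r2 (3072 : ℝ) ⟨0, 0, 0, 0, 0, -1, 0, 0, (143 / 1024 : ℝ)⟩ := by
  refine ⟨⟨Q2, List.mem_cons_of_mem _ (List.mem_cons_of_mem _ (List.mem_cons_self)), ?_⟩, by norm_num⟩
  constructor <;> norm_num [Q2]

lemma rcell0 : ∃ N : ℝ, Rw4 P.r2 N (coCell (87579 / 65536 : ℝ) (868797 / 65536 : ℝ) ((379421 / 32768 : ℝ) + (107 / 256 : ℝ)) (93 / 4096 : ℝ) C0) := by
  refine ⟨(805306368 : ℝ), ⟨Q3, List.mem_cons_of_mem _ (List.mem_cons_of_mem _ (List.mem_cons_of_mem _ (List.mem_cons_self))), ?_⟩, by norm_num⟩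
  constructor <;> norm_num [Q3, coCell, C0]

lemma lcell0 : ∀ x1 x2 xc : ℝ, 0 ≤ x1 → x1 ≤ 1 → 0 ≤ x2 → x2 ≤ 1 → C0.l ≤ xc → xc ≤ C0.u →
    (87579 / 65536 : ℝ) * (1 - (1 - x1) ^ 10) + (868797 / 65536 : ℝ) * (1 - (1 - x2) ^ 10) - ((379421 / 32768 : ℝ) + (107 / 256 : ℝ)) * (1 - (1 - xc) ^ 10)
      ≤ - C0.a1 * x1 - C0.a2 * x2 + C0.e * xc + C0.f := by
  have h := cell_lines 10 (α1 := (87579 / 65536 : ℝ)) (α2 := (868797 / 65536 : ℝ)) (c := (379421 / 32768 : ℝ) + (107 / 256 : ℝ)) (y1 := (1075 / 262144 : ℝ)) (y2 := (161 / 32768 : ℝ))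
    (A1 := (54015501 / 4194304 : ℝ)) (B1 := (265595 / 268435456 : ℝ)) (A2 := (531920175 / 4194304 : ℝ)) (B2 := (3765855 / 268435456 : ℝ)) (l := (5243 / 1048576 : ℝ)) (u := (195 / 32768 : ℝ))
    (E := (-478930263 / 4194304 : ℝ)) (F := (-4187973 / 268435456 : ℝ)) (by norm_num) (by norm_num) (by norm_num) (by norm_num) (by norm_num)
    (by norm_num) (by norm_num) (by norm_num) (by norm_num) (by norm_num) (by norm_num) (by norm_num) (by norm_num) (by norm_num) (by norm_num)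
  have e1 : C0.l = (5243 / 1048576 : ℝ) := rfl
  have e2 : C0.u = (195 / 32768 : ℝ) := rfl
  have e3 : C0.a1 = -(54015501 / 4194304 : ℝ) := by norm_num [C0]
  have e4 : C0.a2 = -(531920175 / 4194304 : ℝ) := by norm_num [C0]
  have e5 : C0.e = (-478930263 / 4194304 : ℝ) := rfl
  have e6 : C0.f = (265595 / 268435456 : ℝ) + (3765855 / 268435456 : ℝ) + (-4187973 / 268435456 : ℝ) := by norm_num [C0]
  rw [e1, e2, e3, e4, e5, e6]
  exact h

lemma rcell1 : ∃ N : ℝ, Rw4 P.r2 N (coCell (87579 / 65536 : ℝ) (868797 / 65536 : ℝ) ((379421 / 32768 : ℝ) + (107 / 256 : ℝ)) (93 / 4096 : ℝ) C1) := by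
  refine ⟨(805306368 : ℝ), ⟨Q4, List.mem_cons_of_mem _ (List.mem_cons_of_mem _ (List.mem_cons_of_mem _ (List.mem_cons_of_mem _ (List.mem_cons_self)))), ?_⟩, by norm_num⟩
  constructor <;> norm_num [Q4, coCell, C1]

lemma lcell1 : ∀ x1 x2 xc : ℝ, 0 ≤ x1 → x1 ≤ 1 → 0 ≤ x2 → x2 ≤ 1 → C1.l ≤ xc → xc ≤ C1.u →
    (87579 / 65536 : ℝ) * (1 - (1 - x1) ^ 10) + (868797 / 65536 : ℝ) * (1 - (1 - x2) ^ 10) - ((379421 / 32768 : ℝ) + (107 / 256 : ℝ)) * (1 - (1 - xc) ^ 10)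
      ≤ - C1.a1 * x1 - C1.a2 * x2 + C1.e * xc + C1.f := by
  have h := cell_lines 10 (α1 := (87579 / 65536 : ℝ)) (α2 := (868797 / 65536 : ℝ)) (c := (379421 / 32768 : ℝ) + (107 / 256 : ℝ)) (y1 := (633 / 131072 : ℝ)) (y2 := (765 / 131072 : ℝ))
    (A1 := (53660877 / 4194304 : ℝ)) (B1 := (366921 / 268435456 : ℝ)) (A2 := (131873847 / 1048576 : ℝ)) (B2 := (5287773 / 268435456 : ℝ)) (l := (195 / 32768 : ℝ)) (u := (1857 / 262144 : ℝ))
    (E := (-474434033 / 4194304 : ℝ)) (F := (-5900405 / 268435456 : ℝ)) (by norm_num) (by norm_num) (by norm_num) (by norm_num) (by norm_num)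
    (by norm_num) (by norm_num) (by norm_num) (by norm_num) (by norm_num) (by norm_num) (by norm_num) (by norm_num) (by norm_num) (by norm_num)
  have e1 : C1.l = (195 / 32768 : ℝ) := rfl
  have e2 : C1.u = (1857 / 262144 : ℝ) := rfl
  have e3 : C1.a1 = -(53660877 / 4194304 : ℝ) := by norm_num [C1]
  have e4 : C1.a2 = -(131873847 / 1048576 : ℝ) := by norm_num [C1]
  have e5 : C1.e = (-474434033 / 4194304 : ℝ) := rfl
  have e6 : C1.f = (366921 / 268435456 : ℝ) + (5287773 / 268435456 : ℝ) + (-5900405 / 268435456 : ℝ) := by norm_num [C1]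
  rw [e1, e2, e3, e4, e5, e6]
  exact h

lemma rcell2 : ∃ N : ℝ, Rw4 P.r2 N (coCell (87579 / 65536 : ℝ) (868797 / 65536 : ℝ) ((379421 / 32768 : ℝ) + (107 / 256 : ℝ)) (93 / 4096 : ℝ) C2) := by
  refine ⟨(402653184 : ℝ), ⟨Q5, List.mem_cons_of_mem _ (List.mem_cons_of_mem _ (List.mem_cons_of_mem _ (List.mem_cons_of_mem _ (List.mem_cons_of_mem _ (List.mem_cons_self))))), ?_⟩, by norm_num⟩
  constructor <;> norm_num [Q5, coCell, C2]

lemma lcell2 : ∀ x1 x2 xc : ℝ, 0 ≤ x1 → x1 ≤ 1 → 0 ≤ x2 → x2 ≤ 1 → C2.l ≤ xc → xc ≤ C2.u →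
    (87579 / 65536 : ℝ) * (1 - (1 - x1) ^ 10) + (868797 / 65536 : ℝ) * (1 - (1 - x2) ^ 10) - ((379421 / 32768 : ℝ) + (107 / 256 : ℝ)) * (1 - (1 - xc) ^ 10)
      ≤ - C2.a1 * x1 - C2.a2 * x2 + C2.e * xc + C2.f := by
  have h := cell_lines 10 (α1 := (87579 / 65536 : ℝ)) (α2 := (868797 / 65536 : ℝ)) (c := (379421 / 32768 : ℝ) + (107 / 256 : ℝ)) (y1 := (751 / 131072 : ℝ)) (y2 := (57 / 8192 : ℝ))
    (A1 := (26612781 / 2097152 : ℝ)) (B1 := (513995 / 268435456 : ℝ)) (A2 := (522163859 / 4194304 : ℝ)) (B2 := (3735167 / 134217728 : ℝ)) (l := (1857 / 262144 : ℝ)) (u := (2211 / 262144 : ℝ))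
    (E := (-117281189 / 1048576 : ℝ)) (F := (-8307467 / 268435456 : ℝ)) (by norm_num) (by norm_num) (by norm_num) (by norm_num) (by norm_num)
    (by norm_num) (by norm_num) (by norm_num) (by norm_num) (by norm_num) (by norm_num) (by norm_num) (by norm_num) (by norm_num) (by norm_num)
  have e1 : C2.l = (1857 / 262144 : ℝ) := rfl
  have e2 : C2.u = (2211 / 262144 : ℝ) := rfl
  have e3 : C2.a1 = -(26612781 / 2097152 : ℝ) := by norm_num [C2]
  have e4 : C2.a2 = -(522163859 / 4194304 : ℝ) := by norm_num [C2]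
  have e5 : C2.e = (-117281189 / 1048576 : ℝ) := rfl
  have e6 : C2.f = (513995 / 268435456 : ℝ) + (3735167 / 134217728 : ℝ) + (-8307467 / 268435456 : ℝ) := by norm_num [C2]
  rw [e1, e2, e3, e4, e5, e6]
  exact h

lemma rcell3 : ∃ N : ℝ, Rw4 P.r2 N (coCell (87579 / 65536 : ℝ) (868797 / 65536 : ℝ) ((379421 / 32768 : ℝ) + (107 / 256 : ℝ)) (93 / 4096 : ℝ) C3) := by
  refine ⟨(805306368 : ℝ), ⟨Q6, List.mem_cons_of_mem _ (List.mem_cons_of_mem _ (List.mem_cons_of_mem _ (List.mem_cons_of_mem _ (List.mem_cons_of_mem _ (List.mem_cons_of_mem _ (List.mem_cons_self)))))), ?_⟩, by norm_num⟩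
  constructor <;> norm_num [Q6, coCell, C3]

lemma lcell3 : ∀ x1 x2 xc : ℝ, 0 ≤ x1 → x1 ≤ 1 → 0 ≤ x2 → x2 ≤ 1 → C3.l ≤ xc → xc ≤ C3.u →
    (87579 / 65536 : ℝ) * (1 - (1 - x1) ^ 10) + (868797 / 65536 : ℝ) * (1 - (1 - x2) ^ 10) - ((379421 / 32768 : ℝ) + (107 / 256 : ℝ)) * (1 - (1 - xc) ^ 10)
      ≤ - C3.a1 * x1 - C3.a2 * x2 + C3.e * xc + C3.f := by
  have h := cell_lines 10 (α1 := (87579 / 65536 : ℝ)) (α2 := (868797 / 65536 : ℝ)) (c := (379421 / 32768 : ℝ) + (107 / 256 : ℝ)) (y1 := (897 / 131072 : ℝ)) (y2 := (1083 / 131072 : ℝ))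
    (A1 := (26345649 / 2097152 : ℝ)) (B1 := (182231 / 67108864 : ℝ)) (A2 := (516022187 / 4194304 : ℝ)) (B2 := (10461247 / 268435456 : ℝ)) (l := (2211 / 262144 : ℝ)) (u := (329 / 32768 : ℝ))
    (E := (-462873259 / 4194304 : ℝ)) (F := (-5840997 / 134217728 : ℝ)) (by norm_num) (by norm_num) (by norm_num) (by norm_num) (by norm_num)
    (by norm_num) (by norm_num) (by norm_num) (by norm_num) (by norm_num) (by norm_num) (by norm_num) (by norm_num) (by norm_num) (by norm_num)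
  have e1 : C3.l = (2211 / 262144 : ℝ) := rfl
  have e2 : C3.u = (329 / 32768 : ℝ) := rfl
  have e3 : C3.a1 = -(26345649 / 2097152 : ℝ) := by norm_num [C3]
  have e4 : C3.a2 = -(516022187 / 4194304 : ℝ) := by norm_num [C3]
  have e5 : C3.e = (-462873259 / 4194304 : ℝ) := rfl
  have e6 : C3.f = (182231 / 67108864 : ℝ) + (10461247 / 268435456 : ℝ) + (-5840997 / 134217728 : ℝ) := by norm_num [C3]
  rw [e1, e2, e3, e4, e5, e6]
  exact h

lemma rcell4 : ∃ N : ℝ, Rw4 P.r2 N (coCell (87579 / 65536 : ℝ) (868797 / 65536 : ℝ) ((379421 / 32768 : ℝ) + (107 / 256 : ℝ)) (93 / 4096 : ℝ) C4) := by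
  refine ⟨(805306368 : ℝ), ⟨Q7, List.mem_cons_of_mem _ (List.mem_cons_of_mem _ (List.mem_cons_of_mem _ (List.mem_cons_of_mem _ (List.mem_cons_of_mem _ (List.mem_cons_of_mem _ (List.mem_cons_of_mem _ (List.mem_cons_self))))))), ?_⟩, by norm_num⟩
  constructor <;> norm_num [Q7, coCell, C4]

lemma lcell4 : ∀ x1 x2 xc : ℝ, 0 ≤ x1 → x1 ≤ 1 → 0 ≤ x2 → x2 ≤ 1 → C4.l ≤ xc → xc ≤ C4.u →
    (87579 / 65536 : ℝ) * (1 - (1 - x1) ^ 10) + (868797 / 65536 : ℝ) * (1 - (1 - x2) ^ 10) - ((379421 / 32768 : ℝ) + (107 / 256 : ℝ)) * (1 - (1 - xc) ^ 10)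
      ≤ - C4.a1 * x1 - C4.a2 * x2 + C4.e * xc + C4.f := by
  have h := cell_lines 10 (α1 := (87579 / 65536 : ℝ)) (α2 := (868797 / 65536 : ℝ)) (c := (379421 / 32768 : ℝ) + (107 / 256 : ℝ)) (y1 := (2161 / 262144 : ℝ)) (y2 := (1289 / 131072 : ℝ))
    (A1 := (52026573 / 4194304 : ℝ)) (B1 := (1049789 / 268435456 : ℝ)) (A2 := (63588597 / 524288 : ℝ)) (B2 := (14695677 / 268435456 : ℝ)) (l := (329 / 32768 : ℝ)) (u := (1567 / 131072 : ℝ))
    (E := (-227762443 / 2097152 : ℝ)) (F := (-16403897 / 268435456 : ℝ)) (by norm_num) (by norm_num) (by norm_num) (by norm_num) (by norm_num)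
    (by norm_num) (by norm_num) (by norm_num) (by norm_num) (by norm_num) (by norm_num) (by norm_num) (by norm_num) (by norm_num) (by norm_num)
  have e1 : C4.l = (329 / 32768 : ℝ) := rfl
  have e2 : C4.u = (1567 / 131072 : ℝ) := rfl
  have e3 : C4.a1 = -(52026573 / 4194304 : ℝ) := by norm_num [C4]
  have e4 : C4.a2 = -(63588597 / 524288 : ℝ) := by norm_num [C4]
  have e5 : C4.e = (-227762443 / 2097152 : ℝ) := rfl
  have e6 : C4.f = (1049789 / 268435456 : ℝ) + (14695677 / 268435456 : ℝ) + (-16403897 / 268435456 : ℝ) := by norm_num [C4]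
  rw [e1, e2, e3, e4, e5, e6]
  exact h

lemma rcell5 : ∃ N : ℝ, Rw4 P.r2 N (coCell (87579 / 65536 : ℝ) (868797 / 65536 : ℝ) ((379421 / 32768 : ℝ) + (107 / 256 : ℝ)) (93 / 4096 : ℝ) C5) := by
  refine ⟨(402653184 : ℝ), ⟨Q8, List.mem_cons_of_mem _ (List.mem_cons_of_mem _ (List.mem_cons_of_mem _ (List.mem_cons_of_mem _ (List.mem_cons_of_mem _ (List.mem_cons_of_mem _ (List.mem_cons_of_mem _ (List.mem_cons_of_mem _ (List.mem_cons_self)))))))), ?_⟩, by norm_num⟩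
  constructor <;> norm_num [Q8, coCell, C5]

lemma lcell5 : ∀ x1 x2 xc : ℝ, 0 ≤ x1 → x1 ≤ 1 → 0 ≤ x2 → x2 ≤ 1 → C5.l ≤ xc → xc ≤ C5.u →
    (87579 / 65536 : ℝ) * (1 - (1 - x1) ^ 10) + (868797 / 65536 : ℝ) * (1 - (1 - x2) ^ 10) - ((379421 / 32768 : ℝ) + (107 / 256 : ℝ)) * (1 - (1 - xc) ^ 10)
      ≤ - C5.a1 * x1 - C5.a2 * x2 + C5.e * xc + C5.f := by
  have h := cell_lines 10 (α1 := (87579 / 65536 : ℝ)) (α2 := (868797 / 65536 : ℝ)) (c := (379421 / 32768 : ℝ) + (107 / 256 : ℝ)) (y1 := (2535 / 262144 : ℝ)) (y2 := (769 / 65536 : ℝ))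
    (A1 := (3209803 / 262144 : ℝ)) (B1 := (1433645 / 268435456 : ℝ)) (A2 := (499991867 / 4194304 : ℝ)) (B2 := (2588829 / 33554432 : ℝ)) (l := (1567 / 131072 : ℝ)) (u := (1865 / 131072 : ℝ))
    (E := (-223459373 / 2097152 : ℝ)) (F := (-22988771 / 268435456 : ℝ)) (by norm_num) (by norm_num) (by norm_num) (by norm_num) (by norm_num)
    (by norm_num) (by norm_num) (by norm_num) (by norm_num) (by norm_num) (by norm_num) (by norm_num) (by norm_num) (by norm_num) (by norm_num)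
  have e1 : C5.l = (1567 / 131072 : ℝ) := rfl
  have e2 : C5.u = (1865 / 131072 : ℝ) := rfl
  have e3 : C5.a1 = -(3209803 / 262144 : ℝ) := by norm_num [C5]
  have e4 : C5.a2 = -(499991867 / 4194304 : ℝ) := by norm_num [C5]
  have e5 : C5.e = (-223459373 / 2097152 : ℝ) := rfl
  have e6 : C5.f = (1433645 / 268435456 : ℝ) + (2588829 / 33554432 : ℝ) + (-22988771 / 268435456 : ℝ) := by norm_num [C5]
  rw [e1, e2, e3, e4, e5, e6]
  exact h

lemma rcell6 : ∃ N : ℝ, Rw4 P.r2 N (coCell (87579 / 65536 : ℝ) (868797 / 65536 : ℝ) ((379421 / 32768 : ℝ) + (107 / 256 : ℝ)) (93 / 4096 : ℝ) C6) := by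
  refine ⟨(50331648 : ℝ), ⟨Q9, List.mem_cons_of_mem _ (List.mem_cons_of_mem _ (List.mem_cons_of_mem _ (List.mem_cons_of_mem _ (List.mem_cons_of_mem _ (List.mem_cons_of_mem _ (List.mem_cons_of_mem _ (List.mem_cons_of_mem _ (List.mem_cons_of_mem _ (List.mem_cons_self))))))))), ?_⟩, by norm_num⟩
  constructor <;> norm_num [Q9, coCell, C6]

lemma lcell6 : ∀ x1 x2 xc : ℝ, 0 ≤ x1 → x1 ≤ 1 → 0 ≤ x2 → x2 ≤ 1 → C6.l ≤ xc → xc ≤ C6.u →
    (87579 / 65536 : ℝ) * (1 - (1 - x1) ^ 10) + (868797 / 65536 : ℝ) * (1 - (1 - x2) ^ 10) - ((379421 / 32768 : ℝ) + (107 / 256 : ℝ)) * (1 - (1 - xc) ^ 10)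
      ≤ - C6.a1 * x1 - C6.a2 * x2 + C6.e * xc + C6.f := by
  have h := cell_lines 10 (α1 := (87579 / 65536 : ℝ)) (α2 := (868797 / 65536 : ℝ)) (c := (379421 / 32768 : ℝ) + (107 / 256 : ℝ)) (y1 := (3015 / 262144 : ℝ)) (y2 := (57 / 4096 : ℝ))
    (A1 := (25254271 / 2097152 : ℝ)) (B1 := (1004121 / 134217728 : ℝ)) (A2 := (245071855 / 2097152 : ℝ)) (B2 := (28791953 / 268435456 : ℝ)) (l := (1865 / 131072 : ℝ)) (u := (4441 / 262144 : ℝ))
    (E := (-109215911 / 1048576 : ℝ)) (F := (-32145395 / 268435456 : ℝ)) (by norm_num) (by norm_num) (by norm_num) (by norm_num) (by norm_num)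
    (by norm_num) (by norm_num) (by norm_num) (by norm_num) (by norm_num) (by norm_num) (by norm_num) (by norm_num) (by norm_num) (by norm_num)
  have e1 : C6.l = (1865 / 131072 : ℝ) := rfl
  have e2 : C6.u = (4441 / 262144 : ℝ) := rfl
  have e3 : C6.a1 = -(25254271 / 2097152 : ℝ) := by norm_num [C6]
  have e4 : C6.a2 = -(245071855 / 2097152 : ℝ) := by norm_num [C6]
  have e5 : C6.e = (-109215911 / 1048576 : ℝ) := rfl
  have e6 : C6.f = (1004121 / 134217728 : ℝ) + (28791953 / 268435456 : ℝ) + (-32145395 / 268435456 : ℝ) := by norm_num [C6]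
  rw [e1, e2, e3, e4, e5, e6]
  exact h

lemma rcell7 : ∃ N : ℝ, Rw4 P.r2 N (coCell (87579 / 65536 : ℝ) (868797 / 65536 : ℝ) ((379421 / 32768 : ℝ) + (107 / 256 : ℝ)) (93 / 4096 : ℝ) C7) := by
  refine ⟨(402653184 : ℝ), ⟨Q10, List.mem_cons_of_mem _ (List.mem_cons_of_mem _ (List.mem_cons_of_mem _ (List.mem_cons_of_mem _ (List.mem_cons_of_mem _ (List.mem_cons_of_mem _ (List.mem_cons_of_mem _ (List.mem_cons_of_mem _ (List.mem_cons_of_mem _ (List.mem_cons_of_mem _ (List.mem_cons_self)))))))))), ?_⟩, by norm_num⟩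
  constructor <;> norm_num [Q10, coCell, C7]

lemma lcell7 : ∀ x1 x2 xc : ℝ, 0 ≤ x1 → x1 ≤ 1 → 0 ≤ x2 → x2 ≤ 1 → C7.l ≤ xc → xc ≤ C7.u →
    (87579 / 65536 : ℝ) * (1 - (1 - x1) ^ 10) + (868797 / 65536 : ℝ) * (1 - (1 - x2) ^ 10) - ((379421 / 32768 : ℝ) + (107 / 256 : ℝ)) * (1 - (1 - xc) ^ 10)
      ≤ - C7.a1 * x1 - C7.a2 * x2 + C7.e * xc + C7.f := by
  have h := cell_lines 10 (α1 := (87579 / 65536 : ℝ)) (α2 := (868797 / 65536 : ℝ)) (c := (379421 / 32768 : ℝ) + (107 / 256 : ℝ)) (y1 := (3627 / 262144 : ℝ)) (y2 := (543 / 32768 : ℝ))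
    (A1 := (12361257 / 1048576 : ℝ)) (B1 := (2870279 / 268435456 : ℝ)) (A2 := (478393429 / 4194304 : ℝ)) (B2 := (10062951 / 67108864 : ℝ)) (l := (4441 / 262144 : ℝ)) (u := (2643 / 131072 : ℝ))
    (E := (-425156077 / 4194304 : ℝ)) (F := (-44839073 / 268435456 : ℝ)) (by norm_num) (by norm_num) (by norm_num) (by norm_num) (by norm_num)
    (by norm_num) (by norm_num) (by norm_num) (by norm_num) (by norm_num) (by norm_num) (by norm_num) (by norm_num) (by norm_num) (by norm_num)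
  have e1 : C7.l = (4441 / 262144 : ℝ) := rfl
  have e2 : C7.u = (2643 / 131072 : ℝ) := rfl
  have e3 : C7.a1 = -(12361257 / 1048576 : ℝ) := by norm_num [C7]
  have e4 : C7.a2 = -(478393429 / 4194304 : ℝ) := by norm_num [C7]
  have e5 : C7.e = (-425156077 / 4194304 : ℝ) := rfl
  have e6 : C7.f = (2870279 / 268435456 : ℝ) + (10062951 / 67108864 : ℝ) + (-44839073 / 268435456 : ℝ) := by norm_num [C7]
  rw [e1, e2, e3, e4, e5, e6]
  exact h

lemma rcell8 : ∃ N : ℝ, Rw4 P.r2 N (coCell (87579 / 65536 : ℝ) (868797 / 65536 : ℝ) ((379421 / 32768 : ℝ) + (107 / 256 : ℝ)) (93 / 4096 : ℝ) C8) := by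
  refine ⟨(805306368 : ℝ), ⟨Q11, List.mem_cons_of_mem _ (List.mem_cons_of_mem _ (List.mem_cons_of_mem _ (List.mem_cons_of_mem _ (List.mem_cons_of_mem _ (List.mem_cons_of_mem _ (List.mem_cons_of_mem _ (List.mem_cons_of_mem _ (List.mem_cons_of_mem _ (List.mem_cons_of_mem _ (List.mem_cons_of_mem _ (List.mem_cons_self))))))))))), ?_⟩, by norm_num⟩
  constructor <;> norm_num [Q11, coCell, C8]

lemma lcell8 : ∀ x1 x2 xc : ℝ, 0 ≤ x1 → x1 ≤ 1 → 0 ≤ x2 → x2 ≤ 1 → C8.l ≤ xc → xc ≤ C8.u →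
    (87579 / 65536 : ℝ) * (1 - (1 - x1) ^ 10) + (868797 / 65536 : ℝ) * (1 - (1 - x2) ^ 10) - ((379421 / 32768 : ℝ) + (107 / 256 : ℝ)) * (1 - (1 - xc) ^ 10)
      ≤ - C8.a1 * x1 - C8.a2 * x2 + C8.e * xc + C8.f := by
  have h := cell_lines 10 (α1 := (87579 / 65536 : ℝ)) (α2 := (868797 / 65536 : ℝ)) (c := (379421 / 32768 : ℝ) + (107 / 256 : ℝ)) (y1 := (4269 / 262144 : ℝ)) (y2 := (5149 / 262144 : ℝ))
    (A1 := (24175409 / 2097152 : ℝ)) (B1 := (3924677 / 268435456 : ℝ)) (A2 := (465115759 / 4194304 : ℝ)) (B2 := (13908169 / 67108864 : ℝ)) (l := (2643 / 131072 : ℝ)) (u := (6293 / 262144 : ℝ))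
    (E := (-51448311 / 524288 : ℝ)) (F := (-31175499 / 134217728 : ℝ)) (by norm_num) (by norm_num) (by norm_num) (by norm_num) (by norm_num)
    (by norm_num) (by norm_num) (by norm_num) (by norm_num) (by norm_num) (by norm_num) (by norm_num) (by norm_num) (by norm_num) (by norm_num)
  have e1 : C8.l = (2643 / 131072 : ℝ) := rfl
  have e2 : C8.u = (6293 / 262144 : ℝ) := rfl
  have e3 : C8.a1 = -(24175409 / 2097152 : ℝ) := by norm_num [C8]
  have e4 : C8.a2 = -(465115759 / 4194304 : ℝ) := by norm_num [C8]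
  have e5 : C8.e = (-51448311 / 524288 : ℝ) := rfl
  have e6 : C8.f = (3924677 / 268435456 : ℝ) + (13908169 / 67108864 : ℝ) + (-31175499 / 134217728 : ℝ) := by norm_num [C8]
  rw [e1, e2, e3, e4, e5, e6]
  exact h

lemma rcell9 : ∃ N : ℝ, Rw4 P.r2 N (coCell (87579 / 65536 : ℝ) (868797 / 65536 : ℝ) ((379421 / 32768 : ℝ) + (107 / 256 : ℝ)) (93 / 4096 : ℝ) C9) := by
  refine ⟨(402653184 : ℝ), ⟨Q12, List.mem_cons_of_mem _ (List.mem_cons_of_mem _ (List.mem_cons_of_mem _ (List.mem_cons_of_mem _ (List.mem_cons_of_mem _ (List.mem_cons_of_mem _ (List.mem_cons_of_mem _ (List.mem_cons_of_mem _ (List.mem_cons_of_mem _ (List.mem_cons_of_mem _ (List.mem_cons_of_mem _ (List.mem_cons_of_mem _ (List.mem_cons_self)))))))))))), ?_⟩, by norm_num⟩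
  constructor <;> norm_num [Q12, coCell, C9]

lemma lcell9 : ∀ x1 x2 xc : ℝ, 0 ≤ x1 → x1 ≤ 1 → 0 ≤ x2 → x2 ≤ 1 → C9.l ≤ xc → xc ≤ C9.u →
    (87579 / 65536 : ℝ) * (1 - (1 - x1) ^ 10) + (868797 / 65536 : ℝ) * (1 - (1 - x2) ^ 10) - ((379421 / 32768 : ℝ) + (107 / 256 : ℝ)) * (1 - (1 - xc) ^ 10)
      ≤ - C9.a1 * x1 - C9.a2 * x2 + C9.e * xc + C9.f := by
  have h := cell_lines 10 (α1 := (87579 / 65536 : ℝ)) (α2 := (868797 / 65536 : ℝ)) (c := (379421 / 32768 : ℝ) + (107 / 256 : ℝ)) (y1 := (157 / 8192 : ℝ)) (y2 := (6137 / 262144 : ℝ))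
    (A1 := (23545797 / 2097152 : ℝ)) (B1 := (5352691 / 268435456 : ℝ)) (A2 := (449268069 / 4194304 : ℝ)) (B2 := (38727997 / 134217728 : ℝ)) (l := (6293 / 262144 : ℝ)) (u := (1873 / 65536 : ℝ))
    (E := (-12372743 / 131072 : ℝ)) (F := (-86408683 / 268435456 : ℝ)) (by norm_num) (by norm_num) (by norm_num) (by norm_num) (by norm_num)
    (by norm_num) (by norm_num) (by norm_num) (by norm_num) (by norm_num) (by norm_num) (by norm_num) (by norm_num) (by norm_num) (by norm_num)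
  have e1 : C9.l = (6293 / 262144 : ℝ) := rfl
  have e2 : C9.u = (1873 / 65536 : ℝ) := rfl
  have e3 : C9.a1 = -(23545797 / 2097152 : ℝ) := by norm_num [C9]
  have e4 : C9.a2 = -(449268069 / 4194304 : ℝ) := by norm_num [C9]
  have e5 : C9.e = (-12372743 / 131072 : ℝ) := rfl
  have e6 : C9.f = (5352691 / 268435456 : ℝ) + (38727997 / 134217728 : ℝ) + (-86408683 / 268435456 : ℝ) := by norm_num [C9]
  rw [e1, e2, e3, e4, e5, e6]
  exact h

lemma rcell10 : ∃ N : ℝ, Rw4 P.r2 N (coCell (87579 / 65536 : ℝ) (868797 / 65536 : ℝ) ((379421 / 32768 : ℝ) + (107 / 256 : ℝ)) (93 / 4096 : ℝ) C10) := by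
  refine ⟨(402653184 : ℝ), ⟨Q13, List.mem_cons_of_mem _ (List.mem_cons_of_mem _ (List.mem_cons_of_mem _ (List.mem_cons_of_mem _ (List.mem_cons_of_mem _ (List.mem_cons_of_mem _ (List.mem_cons_of_mem _ (List.mem_cons_of_mem _ (List.mem_cons_of_mem _ (List.mem_cons_of_mem _ (List.mem_cons_of_mem _ (List.mem_cons_of_mem _ (List.mem_cons_of_mem _ (List.mem_cons_self))))))))))))), ?_⟩, by norm_num⟩
  constructor <;> norm_num [Q13, coCell, C10]

lemma lcell10 : ∀ x1 x2 xc : ℝ, 0 ≤ x1 → x1 ≤ 1 → 0 ≤ x2 → x2 ≤ 1 → C10.l ≤ xc → xc ≤ C10.u →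
    (87579 / 65536 : ℝ) * (1 - (1 - x1) ^ 10) + (868797 / 65536 : ℝ) * (1 - (1 - x2) ^ 10) - ((379421 / 32768 : ℝ) + (107 / 256 : ℝ)) * (1 - (1 - xc) ^ 10)
      ≤ - C10.a1 * x1 - C10.a2 * x2 + C10.e * xc + C10.f := by
  have h := cell_lines 10 (α1 := (87579 / 65536 : ℝ)) (α2 := (868797 / 65536 : ℝ)) (c := (379421 / 32768 : ℝ) + (107 / 256 : ℝ)) (y1 := (749 / 32768 : ℝ)) (y2 := (7301 / 262144 : ℝ))
    (A1 := (711247 / 65536 : ℝ)) (B1 := (7465365 / 268435456 : ℝ)) (A2 := (431214513 / 4194304 : ℝ)) (B2 := (3345473 / 8388608 : ℝ)) (l := (1873 / 65536 : ℝ)) (u := (4459 / 131072 : ℝ))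
    (E := (-188994093 / 2097152 : ℝ)) (F := (-119222015 / 268435456 : ℝ)) (by norm_num) (by norm_num) (by norm_num) (by norm_num) (by norm_num)
    (by norm_num) (by norm_num) (by norm_num) (by norm_num) (by norm_num) (by norm_num) (by norm_num) (by norm_num) (by norm_num) (by norm_num)
  have e1 : C10.l = (1873 / 65536 : ℝ) := rfl
  have e2 : C10.u = (4459 / 131072 : ℝ) := rfl
  have e3 : C10.a1 = -(711247 / 65536 : ℝ) := by norm_num [C10]
  have e4 : C10.a2 = -(431214513 / 4194304 : ℝ) := by norm_num [C10]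
  have e5 : C10.e = (-188994093 / 2097152 : ℝ) := rfl
  have e6 : C10.f = (7465365 / 268435456 : ℝ) + (3345473 / 8388608 : ℝ) + (-119222015 / 268435456 : ℝ) := by norm_num [C10]
  rw [e1, e2, e3, e4, e5, e6]
  exact h

lemma rcell11 : ∃ N : ℝ, Rw4 P.r2 N (coCell (87579 / 65536 : ℝ) (868797 / 65536 : ℝ) ((379421 / 32768 : ℝ) + (107 / 256 : ℝ)) (93 / 4096 : ℝ) C11) := by
  refine ⟨(402653184 : ℝ), ⟨Q14, List.mem_cons_of_mem _ (List.mem_cons_of_mem _ (List.mem_cons_of_mem _ (List.mem_cons_of_mem _ (List.mem_cons_of_mem _ (List.mem_cons_of_mem _ (List.mem_cons_of_mem _ (List.mem_cons_of_mem _ (List.mem_cons_of_mem _ (List.mem_cons_of_mem _ (List.mem_cons_of_mem _ (List.mem_cons_of_mem _ (List.mem_cons_of_mem _ (List.mem_cons_of_mem _ (List.mem_cons_self)))))))))))))), ?_⟩, by norm_num⟩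
  constructor <;> norm_num [Q14, coCell, C11]

lemma lcell11 : ∀ x1 x2 xc : ℝ, 0 ≤ x1 → x1 ≤ 1 → 0 ≤ x2 → x2 ≤ 1 → C11.l ≤ xc → xc ≤ C11.u →
    (87579 / 65536 : ℝ) * (1 - (1 - x1) ^ 10) + (868797 / 65536 : ℝ) * (1 - (1 - x2) ^ 10) - ((379421 / 32768 : ℝ) + (107 / 256 : ℝ)) * (1 - (1 - xc) ^ 10)
      ≤ - C11.a1 * x1 - C11.a2 * x2 + C11.e * xc + C11.f := by
  have h := cell_lines 10 (α1 := (87579 / 65536 : ℝ)) (α2 := (868797 / 65536 : ℝ)) (c := (379421 / 32768 : ℝ) + (107 / 256 : ℝ)) (y1 := (3505 / 131072 : ℝ)) (y2 := (8639 / 262144 : ℝ))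
    (A1 := (43917307 / 4194304 : ℝ)) (B1 := (5003865 / 134217728 : ℝ)) (A2 := (12851913 / 131072 : ℝ)) (B2 := (145857383 / 268435456 : ℝ)) (l := (4459 / 131072 : ℝ)) (u := (10617 / 262144 : ℝ))
    (E := (-178789399 / 2097152 : ℝ)) (F := (-163658275 / 268435456 : ℝ)) (by norm_num) (by norm_num) (by norm_num) (by norm_num) (by norm_num)
    (by norm_num) (by norm_num) (by norm_num) (by norm_num) (by norm_num) (by norm_num) (by norm_num) (by norm_num) (by norm_num) (by norm_num)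
  have e1 : C11.l = (4459 / 131072 : ℝ) := rfl
  have e2 : C11.u = (10617 / 262144 : ℝ) := rfl
  have e3 : C11.a1 = -(43917307 / 4194304 : ℝ) := by norm_num [C11]
  have e4 : C11.a2 = -(12851913 / 131072 : ℝ) := by norm_num [C11]
  have e5 : C11.e = (-178789399 / 2097152 : ℝ) := rfl
  have e6 : C11.f = (5003865 / 134217728 : ℝ) + (145857383 / 268435456 : ℝ) + (-163658275 / 268435456 : ℝ) := by norm_num [C11]
  rw [e1, e2, e3, e4, e5, e6]
  exact h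

lemma rcell12 : ∃ N : ℝ, Rw4 P.r2 N (coCell (87579 / 65536 : ℝ) (868797 / 65536 : ℝ) ((379421 / 32768 : ℝ) + (107 / 256 : ℝ)) (93 / 4096 : ℝ) C12) := by
  refine ⟨(50331648 : ℝ), ⟨Q15, List.mem_cons_of_mem _ (List.mem_cons_of_mem _ (List.mem_cons_of_mem _ (List.mem_cons_of_mem _ (List.mem_cons_of_mem _ (List.mem_cons_of_mem _ (List.mem_cons_of_mem _ (List.mem_cons_of_mem _ (List.mem_cons_of_mem _ (List.mem_cons_of_mem _ (List.mem_cons_of_mem _ (List.mem_cons_of_mem _ (List.mem_cons_of_mem _ (List.mem_cons_of_mem _ (List.mem_cons_of_mem _ (List.mem_cons_self))))))))))))))), ?_⟩, by norm_num⟩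
  constructor <;> norm_num [Q15, coCell, C12]

lemma lcell12 : ∀ x1 x2 xc : ℝ, 0 ≤ x1 → x1 ≤ 1 → 0 ≤ x2 → x2 ≤ 1 → C12.l ≤ xc → xc ≤ C12.u →
    (87579 / 65536 : ℝ) * (1 - (1 - x1) ^ 10) + (868797 / 65536 : ℝ) * (1 - (1 - x2) ^ 10) - ((379421 / 32768 : ℝ) + (107 / 256 : ℝ)) * (1 - (1 - xc) ^ 10)
      ≤ - C12.a1 * x1 - C12.a2 * x2 + C12.e * xc + C12.f := by
  have h := cell_lines 10 (α1 := (87579 / 65536 : ℝ)) (α2 := (868797 / 65536 : ℝ)) (c := (379421 / 32768 : ℝ) + (107 / 256 : ℝ)) (y1 := (4125 / 131072 : ℝ)) (y2 := (10275 / 262144 : ℝ))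
    (A1 := (21016607 / 2097152 : ℝ)) (B1 := (13515553 / 268435456 : ℝ)) (A2 := (193990943 / 2097152 : ℝ)) (B2 := (199565459 / 268435456 : ℝ)) (l := (10617 / 262144 : ℝ)) (u := (6319 / 131072 : ℝ))
    (E := (-334567927 / 4194304 : ℝ)) (F := (-55825849 / 67108864 : ℝ)) (by norm_num) (by norm_num) (by norm_num) (by norm_num) (by norm_num)
    (by norm_num) (by norm_num) (by norm_num) (by norm_num) (by norm_num) (by norm_num) (by norm_num) (by norm_num) (by norm_num) (by norm_num)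
  have e1 : C12.l = (10617 / 262144 : ℝ) := rfl
  have e2 : C12.u = (6319 / 131072 : ℝ) := rfl
  have e3 : C12.a1 = -(21016607 / 2097152 : ℝ) := by norm_num [C12]
  have e4 : C12.a2 = -(193990943 / 2097152 : ℝ) := by norm_num [C12]
  have e5 : C12.e = (-334567927 / 4194304 : ℝ) := rfl
  have e6 : C12.f = (13515553 / 268435456 : ℝ) + (199565459 / 268435456 : ℝ) + (-55825849 / 67108864 : ℝ) := by norm_num [C12]
  rw [e1, e2, e3, e4, e5, e6]
  exact h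

lemma rcell13 : ∃ N : ℝ, Rw4 P.r2 N (coCell (87579 / 65536 : ℝ) (868797 / 65536 : ℝ) ((379421 / 32768 : ℝ) + (107 / 256 : ℝ)) (93 / 4096 : ℝ) C13) := by
  refine ⟨(805306368 : ℝ), ⟨Q16, List.mem_cons_of_mem _ (List.mem_cons_of_mem _ (List.mem_cons_of_mem _ (List.mem_cons_of_mem _ (List.mem_cons_of_mem _ (List.mem_cons_of_mem _ (List.mem_cons_of_mem _ (List.mem_cons_of_mem _ (List.mem_cons_of_mem _ (List.mem_cons_of_mem _ (List.mem_cons_of_mem _ (List.mem_cons_of_mem _ (List.mem_cons_of_mem _ (List.mem_cons_of_mem _ (List.mem_cons_of_mem _ (List.mem_cons_of_mem _ (List.mem_cons_self)))))))))))))))), ?_⟩, by norm_num⟩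
  constructor <;> norm_num [Q16, coCell, C13]

lemma lcell13 : ∀ x1 x2 xc : ℝ, 0 ≤ x1 → x1 ≤ 1 → 0 ≤ x2 → x2 ≤ 1 → C13.l ≤ xc → xc ≤ C13.u →
    (87579 / 65536 : ℝ) * (1 - (1 - x1) ^ 10) + (868797 / 65536 : ℝ) * (1 - (1 - x2) ^ 10) - ((379421 / 32768 : ℝ) + (107 / 256 : ℝ)) * (1 - (1 - xc) ^ 10)
      ≤ - C13.a1 * x1 - C13.a2 * x2 + C13.e * xc + C13.f := by
  have h := cell_lines 10 (α1 := (87579 / 65536 : ℝ)) (α2 := (868797 / 65536 : ℝ)) (c := (379421 / 32768 : ℝ) + (107 / 256 : ℝ)) (y1 := (2505 / 65536 : ℝ)) (y2 := (6097 / 131072 : ℝ))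
    (A1 := (19734147 / 2097152 : ℝ)) (B1 := (9615371 / 134217728 : ℝ)) (A2 := (362173991 / 4194304 : ℝ)) (B2 := (67572411 / 67108864 : ℝ)) (l := (6319 / 131072 : ℝ)) (u := (15045 / 262144 : ℝ))
    (E := (-308904865 / 4194304 : ℝ)) (F := (-302485471 / 268435456 : ℝ)) (by norm_num) (by norm_num) (by norm_num) (by norm_num) (by norm_num)
    (by norm_num) (by norm_num) (by norm_num) (by norm_num) (by norm_num) (by norm_num) (by norm_num) (by norm_num) (by norm_num) (by norm_num)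
  have e1 : C13.l = (6319 / 131072 : ℝ) := rfl
  have e2 : C13.u = (15045 / 262144 : ℝ) := rfl
  have e3 : C13.a1 = -(19734147 / 2097152 : ℝ) := by norm_num [C13]
  have e4 : C13.a2 = -(362173991 / 4194304 : ℝ) := by norm_num [C13]
  have e5 : C13.e = (-308904865 / 4194304 : ℝ) := rfl
  have e6 : C13.f = (9615371 / 134217728 : ℝ) + (67572411 / 67108864 : ℝ) + (-302485471 / 268435456 : ℝ) := by norm_num [C13]
  rw [e1, e2, e3, e4, e5, e6]
  exact h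

lemma rcell14 : ∃ N : ℝ, Rw4 P.r2 N (coCell (87579 / 65536 : ℝ) (868797 / 65536 : ℝ) ((379421 / 32768 : ℝ) + (107 / 256 : ℝ)) (93 / 4096 : ℝ) C14) := by
  refine ⟨(100663296 : ℝ), ⟨Q17, List.mem_cons_of_mem _ (List.mem_cons_of_mem _ (List.mem_cons_of_mem _ (List.mem_cons_of_mem _ (List.mem_cons_of_mem _ (List.mem_cons_of_mem _ (List.mem_cons_of_mem _ (List.mem_cons_of_mem _ (List.mem_cons_of_mem _ (List.mem_cons_of_mem _ (List.mem_cons_of_mem _ (List.mem_cons_of_mem _ (List.mem_cons_of_mem _ (List.mem_cons_of_mem _ (List.mem_cons_of_mem _ (List.mem_cons_of_mem _ (List.mem_cons_of_mem _ (List.mem_cons_self))))))))))))))))), ?_⟩, by norm_num⟩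
  constructor <;> norm_num [Q17, coCell, C14]

lemma lcell14 : ∀ x1 x2 xc : ℝ, 0 ≤ x1 → x1 ≤ 1 → 0 ≤ x2 → x2 ≤ 1 → C14.l ≤ xc → xc ≤ C14.u →
    (87579 / 65536 : ℝ) * (1 - (1 - x1) ^ 10) + (868797 / 65536 : ℝ) * (1 - (1 - x2) ^ 10) - ((379421 / 32768 : ℝ) + (107 / 256 : ℝ)) * (1 - (1 - xc) ^ 10)
      ≤ - C14.a1 * x1 - C14.a2 * x2 + C14.e * xc + C14.f := by
  have h := cell_lines 10 (α1 := (87579 / 65536 : ℝ)) (α2 := (868797 / 65536 : ℝ)) (c := (379421 / 32768 : ℝ) + (107 / 256 : ℝ)) (y1 := (365 / 8192 : ℝ)) (y2 := (14287 / 262144 : ℝ))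
    (A1 := (9297549 / 1048576 : ℝ)) (B1 := (25261181 / 268435456 : ℝ)) (A2 := (335776029 / 4194304 : ℝ)) (B2 := (177773303 / 134217728 : ℝ)) (l := (15045 / 262144 : ℝ)) (u := (8955 / 131072 : ℝ))
    (E := (-280648755 / 4194304 : ℝ)) (F := (-406272867 / 268435456 : ℝ)) (by norm_num) (by norm_num) (by norm_num) (by norm_num) (by norm_num)
    (by norm_num) (by norm_num) (by norm_num) (by norm_num) (by norm_num) (by norm_num) (by norm_num) (by norm_num) (by norm_num) (by norm_num)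
  have e1 : C14.l = (15045 / 262144 : ℝ) := rfl
  have e2 : C14.u = (8955 / 131072 : ℝ) := rfl
  have e3 : C14.a1 = -(9297549 / 1048576 : ℝ) := by norm_num [C14]
  have e4 : C14.a2 = -(335776029 / 4194304 : ℝ) := by norm_num [C14]
  have e5 : C14.e = (-280648755 / 4194304 : ℝ) := rfl
  have e6 : C14.f = (25261181 / 268435456 : ℝ) + (177773303 / 134217728 : ℝ) + (-406272867 / 268435456 : ℝ) := by norm_num [C14]
  rw [e1, e2, e3, e4, e5, e6]
  exact h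

lemma rcell15 : ∃ N : ℝ, Rw4 P.r2 N (coCell (87579 / 65536 : ℝ) (868797 / 65536 : ℝ) ((379421 / 32768 : ℝ) + (107 / 256 : ℝ)) (93 / 4096 : ℝ) C15) := by
  refine ⟨(402653184 : ℝ), ⟨Q18, List.mem_cons_of_mem _ (List.mem_cons_of_mem _ (List.mem_cons_of_mem _ (List.mem_cons_of_mem _ (List.mem_cons_of_mem _ (List.mem_cons_of_mem _ (List.mem_cons_of_mem _ (List.mem_cons_of_mem _ (List.mem_cons_of_mem _ (List.mem_cons_of_mem _ (List.mem_cons_of_mem _ (List.mem_cons_of_mem _ (List.mem_cons_of_mem _ (List.mem_cons_of_mem _ (List.mem_cons_of_mem _ (List.mem_cons_of_mem _ (List.mem_cons_of_mem _ (List.mem_cons_of_mem _ (List.mem_cons_self)))))))))))))))))), ?_⟩, by norm_num⟩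
  constructor <;> norm_num [Q18, coCell, C15]

lemma lcell15 : ∀ x1 x2 xc : ℝ, 0 ≤ x1 → x1 ≤ 1 → 0 ≤ x2 → x2 ≤ 1 → C15.l ≤ xc → xc ≤ C15.u →
    (87579 / 65536 : ℝ) * (1 - (1 - x1) ^ 10) + (868797 / 65536 : ℝ) * (1 - (1 - x2) ^ 10) - ((379421 / 32768 : ℝ) + (107 / 256 : ℝ)) * (1 - (1 - xc) ^ 10)
      ≤ - C15.a1 * x1 - C15.a2 * x2 + C15.e * xc + C15.f := by
  have h := cell_lines 10 (α1 := (87579 / 65536 : ℝ)) (α2 := (868797 / 65536 : ℝ)) (c := (379421 / 32768 : ℝ) + (107 / 256 : ℝ)) (y1 := (13667 / 262144 : ℝ)) (y2 := (16911 / 262144 : ℝ))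
    (A1 := (34617557 / 4194304 : ℝ)) (B1 := (33214597 / 268435456 : ℝ)) (A2 := (38138113 / 524288 : ℝ)) (B2 := (472213577 / 268435456 : ℝ)) (l := (8955 / 131072 : ℝ)) (u := (21321 / 262144 : ℝ))
    (E := (-31253971 / 524288 : ℝ)) (F := (-135036859 / 67108864 : ℝ)) (by norm_num) (by norm_num) (by norm_num) (by norm_num) (by norm_num)
    (by norm_num) (by norm_num) (by norm_num) (by norm_num) (by norm_num) (by norm_num) (by norm_num) (by norm_num) (by norm_num) (by norm_num)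
  have e1 : C15.l = (8955 / 131072 : ℝ) := rfl
  have e2 : C15.u = (21321 / 262144 : ℝ) := rfl
  have e3 : C15.a1 = -(34617557 / 4194304 : ℝ) := by norm_num [C15]
  have e4 : C15.a2 = -(38138113 / 524288 : ℝ) := by norm_num [C15]
  have e5 : C15.e = (-31253971 / 524288 : ℝ) := rfl
  have e6 : C15.f = (33214597 / 268435456 : ℝ) + (472213577 / 268435456 : ℝ) + (-135036859 / 67108864 : ℝ) := by norm_num [C15]
  rw [e1, e2, e3, e4, e5, e6]
  exact h

lemma rcell16 : ∃ N : ℝ, Rw4 P.r2 N (coCell (87579 / 65536 : ℝ) (868797 / 65536 : ℝ) ((379421 / 32768 : ℝ) + (107 / 256 : ℝ)) (93 / 4096 : ℝ) C16) := by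
  refine ⟨(805306368 : ℝ), ⟨Q19, List.mem_cons_of_mem _ (List.mem_cons_of_mem _ (List.mem_cons_of_mem _ (List.mem_cons_of_mem _ (List.mem_cons_of_mem _ (List.mem_cons_of_mem _ (List.mem_cons_of_mem _ (List.mem_cons_of_mem _ (List.mem_cons_of_mem _ (List.mem_cons_of_mem _ (List.mem_cons_of_mem _ (List.mem_cons_of_mem _ (List.mem_cons_of_mem _ (List.mem_cons_of_mem _ (List.mem_cons_of_mem _ (List.mem_cons_of_mem _ (List.mem_cons_of_mem _ (List.mem_cons_of_mem _ (List.mem_cons_of_mem _ (List.mem_cons_self))))))))))))))))))), ?_⟩, by norm_num⟩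
  constructor <;> norm_num [Q19, coCell, C16]

lemma lcell16 : ∀ x1 x2 xc : ℝ, 0 ≤ x1 → x1 ≤ 1 → 0 ≤ x2 → x2 ≤ 1 → C16.l ≤ xc → xc ≤ C16.u →
    (87579 / 65536 : ℝ) * (1 - (1 - x1) ^ 10) + (868797 / 65536 : ℝ) * (1 - (1 - x2) ^ 10) - ((379421 / 32768 : ℝ) + (107 / 256 : ℝ)) * (1 - (1 - xc) ^ 10)
      ≤ - C16.a1 * x1 - C16.a2 * x2 + C16.e * xc + C16.f := by
  have h := cell_lines 10 (α1 := (87579 / 65536 : ℝ)) (α2 := (868797 / 65536 : ℝ)) (c := (379421 / 32768 : ℝ) + (107 / 256 : ℝ)) (y1 := (16159 / 262144 : ℝ)) (y2 := (2475 / 32768 : ℝ))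
    (A1 := (31615371 / 4194304 : ℝ)) (B1 := (44132891 / 268435456 : ℝ)) (A2 := (137119569 / 2097152 : ℝ)) (B2 := (152590277 / 67108864 : ℝ)) (l := (21321 / 262144 : ℝ)) (u := (25381 / 262144 : ℝ))
    (E := (-217492029 / 4194304 : ℝ)) (F := (-22172727 / 8388608 : ℝ)) (by norm_num) (by norm_num) (by norm_num) (by norm_num) (by norm_num)
    (by norm_num) (by norm_num) (by norm_num) (by norm_num) (by norm_num) (by norm_num) (by norm_num) (by norm_num) (by norm_num) (by norm_num)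
  have e1 : C16.l = (21321 / 262144 : ℝ) := rfl
  have e2 : C16.u = (25381 / 262144 : ℝ) := rfl
  have e3 : C16.a1 = -(31615371 / 4194304 : ℝ) := by norm_num [C16]
  have e4 : C16.a2 = -(137119569 / 2097152 : ℝ) := by norm_num [C16]
  have e5 : C16.e = (-217492029 / 4194304 : ℝ) := rfl
  have e6 : C16.f = (44132891 / 268435456 : ℝ) + (152590277 / 67108864 : ℝ) + (-22172727 / 8388608 : ℝ) := by norm_num [C16]
  rw [e1, e2, e3, e4, e5, e6]
  exact h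

lemma rcell17 : ∃ N : ℝ, Rw4 P.r2 N (coCell (87579 / 65536 : ℝ) (868797 / 65536 : ℝ) ((379421 / 32768 : ℝ) + (107 / 256 : ℝ)) (93 / 4096 : ℝ) C17) := by
  refine ⟨(402653184 : ℝ), ⟨Q20, List.mem_cons_of_mem _ (List.mem_cons_of_mem _ (List.mem_cons_of_mem _ (List.mem_cons_of_mem _ (List.mem_cons_of_mem _ (List.mem_cons_of_mem _ (List.mem_cons_of_mem _ (List.mem_cons_of_mem _ (List.mem_cons_of_mem _ (List.mem_cons_of_mem _ (List.mem_cons_of_mem _ (List.mem_cons_of_mem _ (List.mem_cons_of_mem _ (List.mem_cons_of_mem _ (List.mem_cons_of_mem _ (List.mem_cons_of_mem _ (List.mem_cons_of_mem _ (List.mem_cons_of_mem _ (List.mem_cons_of_mem _ (List.mem_cons_of_mem _ (List.mem_cons_self)))))))))))))))))))), ?_⟩, by norm_num⟩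
  constructor <;> norm_num [Q20, coCell, C17]

lemma lcell17 : ∀ x1 x2 xc : ℝ, 0 ≤ x1 → x1 ≤ 1 → 0 ≤ x2 → x2 ≤ 1 → C17.l ≤ xc → xc ≤ C17.u →
    (87579 / 65536 : ℝ) * (1 - (1 - x1) ^ 10) + (868797 / 65536 : ℝ) * (1 - (1 - x2) ^ 10) - ((379421 / 32768 : ℝ) + (107 / 256 : ℝ)) * (1 - (1 - xc) ^ 10)
      ≤ - C17.a1 * x1 - C17.a2 * x2 + C17.e * xc + C17.f := by
  have h := cell_lines 10 (α1 := (87579 / 65536 : ℝ)) (α2 := (868797 / 65536 : ℝ)) (c := (379421 / 32768 : ℝ) + (107 / 256 : ℝ)) (y1 := (18483 / 262144 : ℝ)) (y2 := (22933 / 262144 : ℝ))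
    (A1 := (1814157 / 262144 : ℝ)) (B1 := (55071287 / 268435456 : ℝ)) (A2 := (243932299 / 4194304 : ℝ)) (B2 := (6001981 / 2097152 : ℝ)) (l := (25381 / 262144 : ℝ)) (u := (30215 / 262144 : ℝ))
    (E := (-183714971 / 4194304 : ℝ)) (F := (-918827925 / 268435456 : ℝ)) (by norm_num) (by norm_num) (by norm_num) (by norm_num) (by norm_num)
    (by norm_num) (by norm_num) (by norm_num) (by norm_num) (by norm_num) (by norm_num) (by norm_num) (by norm_num) (by norm_num) (by norm_num)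
  have e1 : C17.l = (25381 / 262144 : ℝ) := rfl
  have e2 : C17.u = (30215 / 262144 : ℝ) := rfl
  have e3 : C17.a1 = -(1814157 / 262144 : ℝ) := by norm_num [C17]
  have e4 : C17.a2 = -(243932299 / 4194304 : ℝ) := by norm_num [C17]
  have e5 : C17.e = (-183714971 / 4194304 : ℝ) := rfl
  have e6 : C17.f = (55071287 / 268435456 : ℝ) + (6001981 / 2097152 : ℝ) + (-918827925 / 268435456 : ℝ) := by norm_num [C17]
  rw [e1, e2, e3, e4, e5, e6]
  exact h

lemma rcell18 : ∃ N : ℝ, Rw4 P.r2 N (coCell (87579 / 65536 : ℝ) (868797 / 65536 : ℝ) ((379421 / 32768 : ℝ) + (107 / 256 : ℝ)) (93 / 4096 : ℝ) C18) := by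
  refine ⟨(805306368 : ℝ), ⟨Q21, List.mem_cons_of_mem _ (List.mem_cons_of_mem _ (List.mem_cons_of_mem _ (List.mem_cons_of_mem _ (List.mem_cons_of_mem _ (List.mem_cons_of_mem _ (List.mem_cons_of_mem _ (List.mem_cons_of_mem _ (List.mem_cons_of_mem _ (List.mem_cons_of_mem _ (List.mem_cons_of_mem _ (List.mem_cons_of_mem _ (List.mem_cons_of_mem _ (List.mem_cons_of_mem _ (List.mem_cons_of_mem _ (List.mem_cons_of_mem _ (List.mem_cons_of_mem _ (List.mem_cons_of_mem _ (List.mem_cons_of_mem _ (List.mem_cons_of_mem _ (List.mem_cons_of_mem _ (List.mem_cons_self))))))))))))))))))))), ?_⟩, by norm_num⟩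
  constructor <;> norm_num [Q21, coCell, C18]

lemma lcell18 : ∀ x1 x2 xc : ℝ, 0 ≤ x1 → x1 ≤ 1 → 0 ≤ x2 → x2 ≤ 1 → C18.l ≤ xc → xc ≤ C18.u →
    (87579 / 65536 : ℝ) * (1 - (1 - x1) ^ 10) + (868797 / 65536 : ℝ) * (1 - (1 - x2) ^ 10) - ((379421 / 32768 : ℝ) + (107 / 256 : ℝ)) * (1 - (1 - xc) ^ 10)
      ≤ - C18.a1 * x1 - C18.a2 * x2 + C18.e * xc + C18.f := by
  have h := cell_lines 10 (α1 := (87579 / 65536 : ℝ)) (α2 := (868797 / 65536 : ℝ)) (c := (379421 / 32768 : ℝ) + (107 / 256 : ℝ)) (y1 := (2623 / 32768 : ℝ)) (y2 := (6477 / 65536 : ℝ))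
    (A1 := (13226293 / 2097152 : ℝ)) (B1 := (16865245 / 67108864 : ℝ)) (A2 := (108974207 / 2097152 : ℝ)) (B2 := (461506503 / 134217728 : ℝ)) (l := (30215 / 262144 : ℝ)) (u := (143 / 1024 : ℝ))
    (E := (-147856495 / 4194304 : ℝ)) (F := (-1183345467 / 268435456 : ℝ)) (by norm_num) (by norm_num) (by norm_num) (by norm_num) (by norm_num)
    (by norm_num) (by norm_num) (by norm_num) (by norm_num) (by norm_num) (by norm_num) (by norm_num) (by norm_num) (by norm_num) (by norm_num)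
  have e1 : C18.l = (30215 / 262144 : ℝ) := rfl
  have e2 : C18.u = (143 / 1024 : ℝ) := rfl
  have e3 : C18.a1 = -(13226293 / 2097152 : ℝ) := by norm_num [C18]
  have e4 : C18.a2 = -(108974207 / 2097152 : ℝ) := by norm_num [C18]
  have e5 : C18.e = (-147856495 / 4194304 : ℝ) := rfl
  have e6 : C18.f = (16865245 / 67108864 : ℝ) + (461506503 / 134217728 : ℝ) + (-1183345467 / 268435456 : ℝ) := by norm_num [C18]
  rw [e1, e2, e3, e4, e5, e6]
  exact h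

/-- The hypotheses at the origin. -/
lemma horig (lam : ℝ) (hd : (10 : ℝ) * lam ^ 2 = 1) (hb : |lam| ≤ (173848052881 / 549755813888 : ℝ)) :
    OriginH 10 lam (87579 / 65536 : ℝ) (868797 / 65536 : ℝ) (379421 / 32768 : ℝ) (107 / 256 : ℝ) (93 / 4096 : ℝ) (45 / 512 : ℝ) (4233 / 4096 : ℝ) (1 / 256 : ℝ) 3298534883328 := by
  refine originH_of_num (d := 10) (by push_cast; exact hd) hb (by norm_num) (by norm_num) (by norm_num) (by norm_num)
    (by norm_num) (by norm_num) (by norm_num) (by norm_num) (by norm_num) (by norm_num) (by norm_num [S]) (by norm_num) ?_ ?_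
  · rw [hch]
    norm_num [abs_of_pos, abs_of_neg]
  · norm_num [abs_of_pos, abs_of_neg]

/-- Nonreconstruction at the bound. -/
theorem main : Tendsto (reconError 3 10 (-(1 / Real.sqrt 10))) atTop (𝓝 0) := by
  have hsq : Real.sqrt ((10 : ℕ) : ℝ) ^ 2 = 10 := by
    rw [Real.sq_sqrt (by positivity)]; norm_num
  have hsq' : Real.sqrt (10 : ℝ) ^ 2 = 10 := by
    rw [Real.sq_sqrt (by positivity)]
  have hs0 : 0 < Real.sqrt (10 : ℝ) := Real.sqrt_pos.2 (by norm_num)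
  have hl2 : ((10 : ℝ)) * (-(1 / Real.sqrt 10)) ^ 2 = 1 := by
    have : (-(1 / Real.sqrt (10 : ℝ))) ^ 2 = 1 / 10 := by
      rw [neg_sq, div_pow, hsq']; norm_num
    rw [this]; norm_num
  have hb : |(-(1 / Real.sqrt (10 : ℝ)))| ≤ (173848052881 / 549755813888 : ℝ) := by
    rw [abs_neg, abs_of_pos (by positivity)]
    rw [div_le_iff₀ hs0]
    have h1 : (1 : ℝ) ^ 2 ≤ ((173848052881 / 549755813888 : ℝ) * Real.sqrt 10) ^ 2 := by
      rw [mul_pow, hsq']; norm_num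
    exact le_of_sq_le_sq h1 (by positivity)
  have hb2 : (-(1 / 2) : ℝ) < -(1 / Real.sqrt (10 : ℝ)) := by
    have h2 := (abs_le.1 hb).1
    have h3 : ((173848052881 / 549755813888 : ℝ) : ℝ) < 1 / 2 := by norm_num
    linarith
  have h1 : (-(1 / Real.sqrt (10 : ℝ))) < 1 := by
    have : 0 < 1 / Real.sqrt (10 : ℝ) := by positivity
    linarith
  have hlam : |(S : ℝ) * (-(1 / Real.sqrt (10 : ℝ))) - ((P.lp : ℝ) - P.ln)| ≤ ((1 : ℕ) : ℝ) := by
    have h := lam_enc 10 22786611987162171 (by norm_num) (by norm_num [S]) (by norm_num [S])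
    have e : ((10 : ℕ) : ℝ) = (10 : ℝ) := by norm_num
    rw [e] at h
    exact h
  obtain ⟨hOa, hON⟩ := horig _ hl2 hb
  refine final_of_box (d := 10) (by norm_num) hb2 h1 (box hlam) (87579 / 65536 : ℝ) (868797 / 65536 : ℝ) (379421 / 32768 : ℝ) (107 / 256 : ℝ) (45 / 512 : ℝ) (4233 / 4096 : ℝ) (5243 / 1048576 : ℝ) (1807 / 4096 : ℝ) (93 / 4096 : ℝ) (143 / 1024 : ℝ) cellsL
    (by norm_num) (by norm_num) (by norm_num) (by norm_num) (by norm_num) (by norm_num) (by norm_num) (by norm_num) (by norm_num)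
    (by norm_num) (by norm_num) (by norm_num) (by norm_num) (by norm_num) hOa hON rTa rTb rc1 rc2 rc3
    (forall_cons rcell0 (forall_cons rcell1 (forall_cons rcell2 (forall_cons rcell3 (forall_cons rcell4 (forall_cons rcell5 (forall_cons rcell6 (forall_cons rcell7 (forall_cons rcell8 (forall_cons rcell9 (forall_cons rcell10 (forall_cons rcell11 (forall_cons rcell12 (forall_cons rcell13 (forall_cons rcell14 (forall_cons rcell15 (forall_cons rcell16 (forall_cons rcell17 (forall_cons rcell18 (forall_nil)))))))))))))))))))) hcover (forall_cons lcell0 (forall_cons lcell1 (forall_cons lcell2 (forall_cons lcell3 (forall_cons lcell4 (forall_cons lcell5 (forall_cons lcell6 (forall_cons lcell7 (forall_cons lcell8 (forall_cons lcell9 (forall_cons lcell10 (forall_cons lcell11 (forall_cons lcell12 (forall_cons lcell13 (forall_cons lcell14 (forall_cons lcell15 (forall_cons lcell16 (forall_cons lcell17 (forall_cons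 lcell18 (forall_nil))))))))))))))))))))

end Vale.Agent.P154H.Tm.D10
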