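import Vale.Agent.P154H.D.D11
import Vale.Agent.P154H.FinalD
import Vale.Agent.P154H.OriginW

open Filter Topology

set_option maxRecDepth 100000

/-!
Nonreconstruction at the Kesten-Stigum bound for `d = 11`, negative eigenvalue.
-/

namespace Vale.Agent.P154H.Tm.D11

open Vale.Agent.P154 Vale.Agent.P154H

/-- A chord cell. -/
noncomputable def C0 : Cell := ⟨(5243 / 1048576 : ℝ), (1565 / 262144 : ℝ), (-7393275 / 524288 : ℝ), (-36391229 / 262144 : ℝ), (-523888849 / 4194304 : ℝ), (-204493 / 268435456 : ℝ)⟩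

/-- A chord cell. -/
noncomputable def C1 : Cell := ⟨(1565 / 262144 : ℝ), (1869 / 262144 : ℝ), (-58687881 / 4194304 : ℝ), (-576637027 / 4194304 : ℝ), (-129576895 / 1048576 : ℝ), (-263953 / 268435456 : ℝ)⟩

/-- A chord cell. -/
noncomputable def C2 : Cell := ⟨(1869 / 262144 : ℝ), (2231 / 262144 : ℝ), (-58138995 / 4194304 : ℝ), (-570142729 / 4194304 : ℝ), (-511719247 / 4194304 : ℝ), (-405799 / 268435456 : ℝ)⟩

/-- A chord cell. -/
noncomputable def C3 : Cell := ⟨(2231 / 262144 : ℝ), (333 / 32768 : ℝ), (-14374921 / 1048576 : ℝ), (-281164169 / 2097152 : ℝ), (-251976917 / 2097152 : ℝ), (-530825 / 268435456 : ℝ)⟩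

/-- A chord cell. -/
noncomputable def C4 : Cell := ⟨(333 / 32768 : ℝ), (3181 / 262144 : ℝ), (-28313303 / 2097152 : ℝ), (-138369795 / 1048576 : ℝ), (-494813947 / 4194304 : ℝ), (-430225 / 134217728 : ℝ)⟩

/-- A chord cell. -/
noncomputable def C5 : Cell := ⟨(3181 / 262144 : ℝ), (3799 / 262144 : ℝ), (-6980629 / 524288 : ℝ), (-33909511 / 262144 : ℝ), (-242045243 / 2097152 : ℝ), (-1090607 / 268435456 : ℝ)⟩

/-- A chord cell. -/
noncomputable def C6 : Cell := ⟨(3799 / 262144 : ℝ), (567 / 32768 : ℝ), (-3418641 / 262144 : ℝ), (-265170155 / 2097152 : ℝ), (-471563319 / 4194304 : ℝ), (-1725479 / 268435456 : ℝ)⟩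

/-- A chord cell. -/
noncomputable def C7 : Cell := ⟨(567 / 32768 : ℝ), (677 / 32768 : ℝ), (-53576863 / 4194304 : ℝ), (-515548637 / 4194304 : ℝ), (-114249317 / 1048576 : ℝ), (-552855 / 67108864 : ℝ)⟩

/-- A chord cell. -/
noncomputable def C8 : Cell := ⟨(677 / 32768 : ℝ), (6467 / 262144 : ℝ), (-13020719 / 1048576 : ℝ), (-499182583 / 4194304 : ℝ), (-220067699 / 2097152 : ℝ), (-3642553 / 268435456 : ℝ)⟩

/-- A chord cell. -/
noncomputable def C9 : Cell := ⟨(6467 / 262144 : ℝ), (3861 / 131072 : ℝ), (-25172763 / 2097152 : ℝ), (-239808761 / 2097152 : ℝ), (-420735789 / 4194304 : ℝ), (-2305737 / 134217728 : ℝ)⟩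

/-- A chord cell. -/
noncomputable def C10 : Cell := ⟨(3861 / 131072 : ℝ), (2305 / 65536 : ℝ), (-48495399 / 4194304 : ℝ), (-457141873 / 4194304 : ℝ), (-199294129 / 2097152 : ℝ), (-2942203 / 134217728 : ℝ)⟩

/-- A chord cell. -/
noncomputable def C11 : Cell := ⟨(2305 / 65536 : ℝ), (11009 / 262144 : ℝ), (-11685377 / 1048576 : ℝ), (-432585339 / 4194304 : ℝ), (-373526221 / 4194304 : ℝ), (-10171055 / 268435456 : ℝ)⟩

/-- A chord cell. -/
noncomputable def C12 : Cell := ⟨(11009 / 262144 : ℝ), (6573 / 131072 : ℝ), (-43734327 / 4194304 : ℝ), (-12645209 / 131072 : ℝ), (-86365313 / 1048576 : ℝ), (-13172291 / 268435456 : ℝ)⟩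

/-- A chord cell. -/
noncomputable def C13 : Cell := ⟨(6573 / 131072 : ℝ), (15697 / 262144 : ℝ), (-41287685 / 4194304 : ℝ), (-373330227 / 4194304 : ℝ), (-157225321 / 2097152 : ℝ), (-18249549 / 268435456 : ℝ)⟩

/-- A chord cell. -/
noncomputable def C14 : Cell := ⟨(15697 / 262144 : ℝ), (18743 / 262144 : ℝ), (-595275 / 65536 : ℝ), (-171301149 / 2097152 : ℝ), (-280731109 / 4194304 : ℝ), (-9010665 / 67108864 : ℝ)⟩

/-- A chord cell. -/
noncomputable def C15 : Cell := ⟨(18743 / 262144 : ℝ), (5595 / 65536 : ℝ), (-35158033 / 4194304 : ℝ), (-308401997 / 4194304 : ℝ), (-61191205 / 1048576 : ℝ), (-28593663 / 134217728 : ℝ)⟩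

/-- A chord cell. -/
noncomputable def C16 : Cell := ⟨(5595 / 65536 : ℝ), (13361 / 131072 : ℝ), (-32299111 / 4194304 : ℝ), (-34348215 / 524288 : ℝ), (-207302897 / 4194304 : ℝ), (-97446455 / 268435456 : ℝ)⟩

/-- A chord cell. -/
noncomputable def C17 : Cell := ⟨(13361 / 131072 : ℝ), (127 / 1024 : ℝ), (-29782847 / 4194304 : ℝ), (-7693945 / 131072 : ℝ), (-167289309 / 4194304 : ℝ), (-49522037 / 67108864 : ℝ)⟩

/-- The chord cells. -/
noncomputable def cellsL : List Cell := [C0, C1, C2, C3, C4, C5, C6, C7, C8, C9, C10, C11, C12, C13, C14, C15, C16, C17]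

lemma hcover : ∀ x : ℝ, (5243 / 1048576 : ℝ) ≤ x → x ≤ (127 / 1024 : ℝ) → ∃ D ∈ cellsL, D.l ≤ x ∧ x ≤ D.u := by
  refine cover_of_chain ?_ (by norm_num [C0])
  simp only [ChainP, C0, C1, C2, C3, C4, C5, C6, C7, C8, C9, C10, C11, C12, C13, C14, C15, C16, C17]
  norm_num

lemma hch : ((Nat.choose 11 2 : ℕ) : ℝ) = 55 := by norm_num [Nat.choose]

lemma rTa : Rw4 P.r1 (1179648 : ℝ) (coTa 11 (87579 / 65536 : ℝ) (868797 / 65536 : ℝ) (379421 / 32768 : ℝ) (107 / 256 : ℝ) (13 / 512 : ℝ)) := by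
  refine ⟨⟨Ra, List.mem_cons_self, ?_⟩, by norm_num⟩
  constructor <;> norm_num [Ra, coTa, hch]

lemma rTb : Rw4 P.r1 (9895604649984 : ℝ) (coTb 11 (87579 / 65536 : ℝ) (868797 / 65536 : ℝ) (379421 / 32768 : ℝ) (107 / 256 : ℝ) (13 / 512 : ℝ) (45 / 512 : ℝ) (4233 / 4096 : ℝ) (2203 / 4096 : ℝ)) := by
  refine ⟨⟨Rb, List.mem_cons_of_mem _ (List.mem_cons_self), ?_⟩, by norm_num⟩
  constructor <;> norm_num [Rb, coTb, hch]

lemma rc1 : Rw4 P.r2 (16777216 : ℝ) ⟨0, 0, 0, -(87579 / 65536 : ℝ), 0, 0, 0, 0, (379421 / 32768 : ℝ) * (45 / 512 : ℝ)⟩ := by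
  refine ⟨⟨Q0, List.mem_cons_self, ?_⟩, by norm_num⟩
  constructor <;> norm_num [Q0]

lemma rc2 : Rw4 P.r2 (134217728 : ℝ) ⟨0, 0, 0, 0, -(868797 / 65536 : ℝ), 0, 0, 0, (379421 / 32768 : ℝ) * (4233 / 4096 : ℝ)⟩ := by
  refine ⟨⟨Q1, List.mem_cons_of_mem _ (List.mem_cons_self), ?_⟩, by norm_num⟩
  constructor <;> norm_num [Q1]

lemma rc3 : Rw4 P.r2 (3072 : ℝ) ⟨0, 0, 0, 0, 0, -1, 0, 0, (127 / 1024 : ℝ)⟩ := by
  refine ⟨⟨Q2, List.mem_cons_of_mem _ (List.mem_cons_of_mem _ (List.mem_cons_self)), ?_⟩, by norm_num⟩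
  constructor <;> norm_num [Q2]

lemma rcell0 : ∃ N : ℝ, Rw4 P.r2 N (coCell (87579 / 65536 : ℝ) (868797 / 65536 : ℝ) ((379421 / 32768 : ℝ) + (107 / 256 : ℝ)) (13 / 512 : ℝ) C0) := by
  refine ⟨(2415919104 : ℝ), ⟨Q3, List.mem_cons_of_mem _ (List.mem_cons_of_mem _ (List.mem_cons_of_mem _ (List.mem_cons_self))), ?_⟩, by norm_num⟩
  constructor <;> norm_num [Q3, coCell, C0]

lemma lcell0 : ∀ x1 x2 xc : ℝ, 0 ≤ x1 → x1 ≤ 1 → 0 ≤ x2 → x2 ≤ 1 → C0.l ≤ xc → xc ≤ C0.u →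
    (87579 / 65536 : ℝ) * (1 - (1 - x1) ^ 11) + (868797 / 65536 : ℝ) * (1 - (1 - x2) ^ 11) - ((379421 / 32768 : ℝ) + (107 / 256 : ℝ)) * (1 - (1 - xc) ^ 11)
      ≤ - C0.a1 * x1 - C0.a2 * x2 + C0.e * xc + C0.f := by
  have h := cell_lines 11 (α1 := (87579 / 65536 : ℝ)) (α2 := (868797 / 65536 : ℝ)) (c := (379421 / 32768 : ℝ) + (107 / 256 : ℝ)) (y1 := (1087 / 262144 : ℝ)) (y2 := (1287 / 262144 : ℝ))
    (A1 := (7393275 / 524288 : ℝ)) (B1 := (20683 / 16777216 : ℝ)) (A2 := (36391229 / 262144 : ℝ)) (B2 := (4580653 / 268435456 : ℝ)) (l := (5243 / 1048576 : ℝ)) (u := (1565 / 262144 : ℝ))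
    (E := (-523888849 / 4194304 : ℝ)) (F := (-2558037 / 134217728 : ℝ)) (by norm_num) (by norm_num) (by norm_num) (by norm_num) (by norm_num)
    (by norm_num) (by norm_num) (by norm_num) (by norm_num) (by norm_num) (by norm_num) (by norm_num) (by norm_num) (by norm_num) (by norm_num)
  have e1 : C0.l = (5243 / 1048576 : ℝ) := rfl
  have e2 : C0.u = (1565 / 262144 : ℝ) := rfl
  have e3 : C0.a1 = -(7393275 / 524288 : ℝ) := by norm_num [C0]
  have e4 : C0.a2 = -(36391229 / 262144 : ℝ) := by norm_num [C0]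
  have e5 : C0.e = (-523888849 / 4194304 : ℝ) := rfl
  have e6 : C0.f = (20683 / 16777216 : ℝ) + (4580653 / 268435456 : ℝ) + (-2558037 / 134217728 : ℝ) := by norm_num [C0]
  rw [e1, e2, e3, e4, e5, e6]
  exact h

lemma rcell1 : ∃ N : ℝ, Rw4 P.r2 N (coCell (87579 / 65536 : ℝ) (868797 / 65536 : ℝ) ((379421 / 32768 : ℝ) + (107 / 256 : ℝ)) (13 / 512 : ℝ) C1) := by
  refine ⟨(2415919104 : ℝ), ⟨Q4, List.mem_cons_of_mem _ (List.mem_cons_of_mem _ (List.mem_cons_of_mem _ (List.mem_cons_of_mem _ (List.mem_cons_self)))), ?_⟩, by norm_num⟩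
  constructor <;> norm_num [Q4, coCell, C1]

lemma lcell1 : ∀ x1 x2 xc : ℝ, 0 ≤ x1 → x1 ≤ 1 → 0 ≤ x2 → x2 ≤ 1 → C1.l ≤ xc → xc ≤ C1.u →
    (87579 / 65536 : ℝ) * (1 - (1 - x1) ^ 11) + (868797 / 65536 : ℝ) * (1 - (1 - x2) ^ 11) - ((379421 / 32768 : ℝ) + (107 / 256 : ℝ)) * (1 - (1 - xc) ^ 11)
      ≤ - C1.a1 * x1 - C1.a2 * x2 + C1.e * xc + C1.f := by
  have h := cell_lines 11 (α1 := (87579 / 65536 : ℝ)) (α2 := (868797 / 65536 : ℝ)) (c := (379421 / 32768 : ℝ) + (107 / 256 : ℝ)) (y1 := (645 / 131072 : ℝ)) (y2 := (385 / 65536 : ℝ))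
    (A1 := (58687881 / 4194304 : ℝ)) (B1 := (231937 / 134217728 : ℝ)) (A2 := (576637027 / 4194304 : ℝ)) (B2 := (3260369 / 134217728 : ℝ)) (l := (1565 / 262144 : ℝ)) (u := (1869 / 262144 : ℝ))
    (E := (-129576895 / 1048576 : ℝ)) (F := (-7248565 / 268435456 : ℝ)) (by norm_num) (by norm_num) (by norm_num) (by norm_num) (by norm_num)
    (by norm_num) (by norm_num) (by norm_num) (by norm_num) (by norm_num) (by norm_num) (by norm_num) (by norm_num) (by norm_num) (by norm_num)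
  have e1 : C1.l = (1565 / 262144 : ℝ) := rfl
  have e2 : C1.u = (1869 / 262144 : ℝ) := rfl
  have e3 : C1.a1 = -(58687881 / 4194304 : ℝ) := by norm_num [C1]
  have e4 : C1.a2 = -(576637027 / 4194304 : ℝ) := by norm_num [C1]
  have e5 : C1.e = (-129576895 / 1048576 : ℝ) := rfl
  have e6 : C1.f = (231937 / 134217728 : ℝ) + (3260369 / 134217728 : ℝ) + (-7248565 / 268435456 : ℝ) := by norm_num [C1]
  rw [e1, e2, e3, e4, e5, e6]
  exact h

lemma rcell2 : ∃ N : ℝ, Rw4 P.r2 N (coCell (87579 / 65536 : ℝ) (868797 / 65536 : ℝ) ((379421 / 32768 : ℝ) + (107 / 256 : ℝ)) (13 / 512 : ℝ) C2) := by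
  refine ⟨(2415919104 : ℝ), ⟨Q5, List.mem_cons_of_mem _ (List.mem_cons_of_mem _ (List.mem_cons_of_mem _ (List.mem_cons_of_mem _ (List.mem_cons_of_mem _ (List.mem_cons_self))))), ?_⟩, by norm_num⟩
  constructor <;> norm_num [Q5, coCell, C2]

lemma lcell2 : ∀ x1 x2 xc : ℝ, 0 ≤ x1 → x1 ≤ 1 → 0 ≤ x2 → x2 ≤ 1 → C2.l ≤ xc → xc ≤ C2.u →
    (87579 / 65536 : ℝ) * (1 - (1 - x1) ^ 11) + (868797 / 65536 : ℝ) * (1 - (1 - x2) ^ 11) - ((379421 / 32768 : ℝ) + (107 / 256 : ℝ)) * (1 - (1 - xc) ^ 11)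
      ≤ - C2.a1 * x1 - C2.a2 * x2 + C2.e * xc + C2.f := by
  have h := cell_lines 11 (α1 := (87579 / 65536 : ℝ)) (α2 := (868797 / 65536 : ℝ)) (c := (379421 / 32768 : ℝ) + (107 / 256 : ℝ)) (y1 := (1535 / 262144 : ℝ)) (y2 := (1835 / 262144 : ℝ))
    (A1 := (58138995 / 4194304 : ℝ)) (B1 := (653133 / 268435456 : ℝ)) (A2 := (570142729 / 4194304 : ℝ)) (B2 := (4597941 / 134217728 : ℝ)) (l := (1869 / 262144 : ℝ)) (u := (2231 / 262144 : ℝ))
    (E := (-511719247 / 4194304 : ℝ)) (F := (-5127407 / 134217728 : ℝ)) (by norm_num) (by norm_num) (by norm_num) (by norm_num) (by norm_num)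
    (by norm_num) (by norm_num) (by norm_num) (by norm_num) (by norm_num) (by norm_num) (by norm_num) (by norm_num) (by norm_num) (by norm_num)
  have e1 : C2.l = (1869 / 262144 : ℝ) := rfl
  have e2 : C2.u = (2231 / 262144 : ℝ) := rfl
  have e3 : C2.a1 = -(58138995 / 4194304 : ℝ) := by norm_num [C2]
  have e4 : C2.a2 = -(570142729 / 4194304 : ℝ) := by norm_num [C2]
  have e5 : C2.e = (-511719247 / 4194304 : ℝ) := rfl
  have e6 : C2.f = (653133 / 268435456 : ℝ) + (4597941 / 134217728 : ℝ) + (-5127407 / 134217728 : ℝ) := by norm_num [C2]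
  rw [e1, e2, e3, e4, e5, e6]
  exact h

lemma rcell3 : ∃ N : ℝ, Rw4 P.r2 N (coCell (87579 / 65536 : ℝ) (868797 / 65536 : ℝ) ((379421 / 32768 : ℝ) + (107 / 256 : ℝ)) (13 / 512 : ℝ) C3) := by
  refine ⟨(2415919104 : ℝ), ⟨Q6, List.mem_cons_of_mem _ (List.mem_cons_of_mem _ (List.mem_cons_of_mem _ (List.mem_cons_of_mem _ (List.mem_cons_of_mem _ (List.mem_cons_of_mem _ (List.mem_cons_self)))))), ?_⟩, by norm_num⟩
  constructor <;> norm_num [Q6, coCell, C3]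

lemma lcell3 : ∀ x1 x2 xc : ℝ, 0 ≤ x1 → x1 ≤ 1 → 0 ≤ x2 → x2 ≤ 1 → C3.l ≤ xc → xc ≤ C3.u →
    (87579 / 65536 : ℝ) * (1 - (1 - x1) ^ 11) + (868797 / 65536 : ℝ) * (1 - (1 - x2) ^ 11) - ((379421 / 32768 : ℝ) + (107 / 256 : ℝ)) * (1 - (1 - xc) ^ 11)
      ≤ - C3.a1 * x1 - C3.a2 * x2 + C3.e * xc + C3.f := by
  have h := cell_lines 11 (α1 := (87579 / 65536 : ℝ)) (α2 := (868797 / 65536 : ℝ)) (c := (379421 / 32768 : ℝ) + (107 / 256 : ℝ)) (y1 := (1823 / 262144 : ℝ)) (y2 := (1097 / 131072 : ℝ))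
    (A1 := (14374921 / 1048576 : ℝ)) (B1 := (228795 / 67108864 : ℝ)) (A2 := (281164169 / 2097152 : ℝ)) (B2 := (13038457 / 268435456 : ℝ)) (l := (2231 / 262144 : ℝ)) (u := (333 / 32768 : ℝ))
    (E := (-251976917 / 2097152 : ℝ)) (F := (-7242231 / 134217728 : ℝ)) (by norm_num) (by norm_num) (by norm_num) (by norm_num) (by norm_num)
    (by norm_num) (by norm_num) (by norm_num) (by norm_num) (by norm_num) (by norm_num) (by norm_num) (by norm_num) (by norm_num) (by norm_num)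
  have e1 : C3.l = (2231 / 262144 : ℝ) := rfl
  have e2 : C3.u = (333 / 32768 : ℝ) := rfl
  have e3 : C3.a1 = -(14374921 / 1048576 : ℝ) := by norm_num [C3]
  have e4 : C3.a2 = -(281164169 / 2097152 : ℝ) := by norm_num [C3]
  have e5 : C3.e = (-251976917 / 2097152 : ℝ) := rfl
  have e6 : C3.f = (228795 / 67108864 : ℝ) + (13038457 / 268435456 : ℝ) + (-7242231 / 134217728 : ℝ) := by norm_num [C3]
  rw [e1, e2, e3, e4, e5, e6]
  exact h

lemma rcell4 : ∃ N : ℝ, Rw4 P.r2 N (coCell (87579 / 65536 : ℝ) (868797 / 65536 : ℝ) ((379421 / 32768 : ℝ) + (107 / 256 : ℝ)) (13 / 512 : ℝ) C4) := by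
  refine ⟨(1207959552 : ℝ), ⟨Q7, List.mem_cons_of_mem _ (List.mem_cons_of_mem _ (List.mem_cons_of_mem _ (List.mem_cons_of_mem _ (List.mem_cons_of_mem _ (List.mem_cons_of_mem _ (List.mem_cons_of_mem _ (List.mem_cons_self))))))), ?_⟩, by norm_num⟩
  constructor <;> norm_num [Q7, coCell, C4]

lemma lcell4 : ∀ x1 x2 xc : ℝ, 0 ≤ x1 → x1 ≤ 1 → 0 ≤ x2 → x2 ≤ 1 → C4.l ≤ xc → xc ≤ C4.u →
    (87579 / 65536 : ℝ) * (1 - (1 - x1) ^ 11) + (868797 / 65536 : ℝ) * (1 - (1 - x2) ^ 11) - ((379421 / 32768 : ℝ) + (107 / 256 : ℝ)) * (1 - (1 - xc) ^ 11)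
      ≤ - C4.a1 * x1 - C4.a2 * x2 + C4.e * xc + C4.f := by
  have h := cell_lines 11 (α1 := (87579 / 65536 : ℝ)) (α2 := (868797 / 65536 : ℝ)) (c := (379421 / 32768 : ℝ) + (107 / 256 : ℝ)) (y1 := (2221 / 262144 : ℝ)) (y2 := (1303 / 131072 : ℝ))
    (A1 := (28313303 / 2097152 : ℝ)) (B1 := (1346057 / 268435456 : ℝ)) (A2 := (138369795 / 1048576 : ℝ)) (B2 := (18222451 / 268435456 : ℝ)) (l := (333 / 32768 : ℝ)) (u := (3181 / 262144 : ℝ))
    (E := (-494813947 / 4194304 : ℝ)) (F := (-10214479 / 134217728 : ℝ)) (by norm_num) (by norm_num) (by norm_num) (by norm_num) (by norm_num)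
    (by norm_num) (by norm_num) (by norm_num) (by norm_num) (by norm_num) (by norm_num) (by norm_num) (by norm_num) (by norm_num) (by norm_num)
  have e1 : C4.l = (333 / 32768 : ℝ) := rfl
  have e2 : C4.u = (3181 / 262144 : ℝ) := rfl
  have e3 : C4.a1 = -(28313303 / 2097152 : ℝ) := by norm_num [C4]
  have e4 : C4.a2 = -(138369795 / 1048576 : ℝ) := by norm_num [C4]
  have e5 : C4.e = (-494813947 / 4194304 : ℝ) := rfl
  have e6 : C4.f = (1346057 / 268435456 : ℝ) + (18222451 / 268435456 : ℝ) + (-10214479 / 134217728 : ℝ) := by norm_num [C4]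
  rw [e1, e2, e3, e4, e5, e6]
  exact h

lemma rcell5 : ∃ N : ℝ, Rw4 P.r2 N (coCell (87579 / 65536 : ℝ) (868797 / 65536 : ℝ) ((379421 / 32768 : ℝ) + (107 / 256 : ℝ)) (13 / 512 : ℝ) C5) := by
  refine ⟨(2415919104 : ℝ), ⟨Q8, List.mem_cons_of_mem _ (List.mem_cons_of_mem _ (List.mem_cons_of_mem _ (List.mem_cons_of_mem _ (List.mem_cons_of_mem _ (List.mem_cons_of_mem _ (List.mem_cons_of_mem _ (List.mem_cons_of_mem _ (List.mem_cons_self)))))))), ?_⟩, by norm_num⟩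
  constructor <;> norm_num [Q8, coCell, C5]

lemma lcell5 : ∀ x1 x2 xc : ℝ, 0 ≤ x1 → x1 ≤ 1 → 0 ≤ x2 → x2 ≤ 1 → C5.l ≤ xc → xc ≤ C5.u →
    (87579 / 65536 : ℝ) * (1 - (1 - x1) ^ 11) + (868797 / 65536 : ℝ) * (1 - (1 - x2) ^ 11) - ((379421 / 32768 : ℝ) + (107 / 256 : ℝ)) * (1 - (1 - xc) ^ 11)
      ≤ - C5.a1 * x1 - C5.a2 * x2 + C5.e * xc + C5.f := by
  have h := cell_lines 11 (α1 := (87579 / 65536 : ℝ)) (α2 := (868797 / 65536 : ℝ)) (c := (379421 / 32768 : ℝ) + (107 / 256 : ℝ)) (y1 := (1291 / 131072 : ℝ)) (y2 := (3123 / 262144 : ℝ))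
    (A1 := (6980629 / 524288 : ℝ)) (B1 := (1804225 / 268435456 : ℝ)) (A2 := (33909511 / 262144 : ℝ)) (B2 := (3232761 / 33554432 : ℝ)) (l := (3181 / 262144 : ℝ)) (u := (3799 / 262144 : ℝ))
    (E := (-242045243 / 2097152 : ℝ)) (F := (-3594615 / 33554432 : ℝ)) (by norm_num) (by norm_num) (by norm_num) (by norm_num) (by norm_num)
    (by norm_num) (by norm_num) (by norm_num) (by norm_num) (by norm_num) (by norm_num) (by norm_num) (by norm_num) (by norm_num) (by norm_num)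
  have e1 : C5.l = (3181 / 262144 : ℝ) := rfl
  have e2 : C5.u = (3799 / 262144 : ℝ) := rfl
  have e3 : C5.a1 = -(6980629 / 524288 : ℝ) := by norm_num [C5]
  have e4 : C5.a2 = -(33909511 / 262144 : ℝ) := by norm_num [C5]
  have e5 : C5.e = (-242045243 / 2097152 : ℝ) := rfl
  have e6 : C5.f = (1804225 / 268435456 : ℝ) + (3232761 / 33554432 : ℝ) + (-3594615 / 33554432 : ℝ) := by norm_num [C5]
  rw [e1, e2, e3, e4, e5, e6]
  exact h

lemma rcell6 : ∃ N : ℝ, Rw4 P.r2 N (coCell (87579 / 65536 : ℝ) (868797 / 65536 : ℝ) ((379421 / 32768 : ℝ) + (107 / 256 : ℝ)) (13 / 512 : ℝ) C6) := by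
  refine ⟨(2415919104 : ℝ), ⟨Q9, List.mem_cons_of_mem _ (List.mem_cons_of_mem _ (List.mem_cons_of_mem _ (List.mem_cons_of_mem _ (List.mem_cons_of_mem _ (List.mem_cons_of_mem _ (List.mem_cons_of_mem _ (List.mem_cons_of_mem _ (List.mem_cons_of_mem _ (List.mem_cons_self))))))))), ?_⟩, by norm_num⟩
  constructor <;> norm_num [Q9, coCell, C6]

lemma lcell6 : ∀ x1 x2 xc : ℝ, 0 ≤ x1 → x1 ≤ 1 → 0 ≤ x2 → x2 ≤ 1 → C6.l ≤ xc → xc ≤ C6.u →
    (87579 / 65536 : ℝ) * (1 - (1 - x1) ^ 11) + (868797 / 65536 : ℝ) * (1 - (1 - x2) ^ 11) - ((379421 / 32768 : ℝ) + (107 / 256 : ℝ)) * (1 - (1 - xc) ^ 11)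
      ≤ - C6.a1 * x1 - C6.a2 * x2 + C6.e * xc + C6.f := by
  have h := cell_lines 11 (α1 := (87579 / 65536 : ℝ)) (α2 := (868797 / 65536 : ℝ)) (c := (379421 / 32768 : ℝ) + (107 / 256 : ℝ)) (y1 := (195 / 16384 : ℝ)) (y2 := (29 / 2048 : ℝ))
    (A1 := (3418641 / 262144 : ℝ)) (B1 := (1301099 / 134217728 : ℝ)) (A2 := (265170155 / 2097152 : ℝ)) (B2 := (9012017 / 67108864 : ℝ)) (l := (3799 / 262144 : ℝ)) (u := (567 / 32768 : ℝ))
    (E := (-471563319 / 4194304 : ℝ)) (F := (-40375745 / 268435456 : ℝ)) (by norm_num) (by norm_num) (by norm_num) (by norm_num) (by norm_num)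
    (by norm_num) (by norm_num) (by norm_num) (by norm_num) (by norm_num) (by norm_num) (by norm_num) (by norm_num) (by norm_num) (by norm_num)
  have e1 : C6.l = (3799 / 262144 : ℝ) := rfl
  have e2 : C6.u = (567 / 32768 : ℝ) := rfl
  have e3 : C6.a1 = -(3418641 / 262144 : ℝ) := by norm_num [C6]
  have e4 : C6.a2 = -(265170155 / 2097152 : ℝ) := by norm_num [C6]
  have e5 : C6.e = (-471563319 / 4194304 : ℝ) := rfl
  have e6 : C6.f = (1301099 / 134217728 : ℝ) + (9012017 / 67108864 : ℝ) + (-40375745 / 268435456 : ℝ) := by norm_num [C6]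
  rw [e1, e2, e3, e4, e5, e6]
  exact h

lemma rcell7 : ∃ N : ℝ, Rw4 P.r2 N (coCell (87579 / 65536 : ℝ) (868797 / 65536 : ℝ) ((379421 / 32768 : ℝ) + (107 / 256 : ℝ)) (13 / 512 : ℝ) C7) := by
  refine ⟨(603979776 : ℝ), ⟨Q10, List.mem_cons_of_mem _ (List.mem_cons_of_mem _ (List.mem_cons_of_mem _ (List.mem_cons_of_mem _ (List.mem_cons_of_mem _ (List.mem_cons_of_mem _ (List.mem_cons_of_mem _ (List.mem_cons_of_mem _ (List.mem_cons_of_mem _ (List.mem_cons_of_mem _ (List.mem_cons_self)))))))))), ?_⟩, by norm_num⟩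
  constructor <;> norm_num [Q10, coCell, C7]

lemma lcell7 : ∀ x1 x2 xc : ℝ, 0 ≤ x1 → x1 ≤ 1 → 0 ≤ x2 → x2 ≤ 1 → C7.l ≤ xc → xc ≤ C7.u →
    (87579 / 65536 : ℝ) * (1 - (1 - x1) ^ 11) + (868797 / 65536 : ℝ) * (1 - (1 - x2) ^ 11) - ((379421 / 32768 : ℝ) + (107 / 256 : ℝ)) * (1 - (1 - xc) ^ 11)
      ≤ - C7.a1 * x1 - C7.a2 * x2 + C7.e * xc + C7.f := by
  have h := cell_lines 11 (α1 := (87579 / 65536 : ℝ)) (α2 := (868797 / 65536 : ℝ)) (c := (379421 / 32768 : ℝ) + (107 / 256 : ℝ)) (y1 := (457 / 32768 : ℝ)) (y2 := (2221 / 131072 : ℝ))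
    (A1 := (53576863 / 4194304 : ℝ)) (B1 := (220597 / 16777216 : ℝ)) (A2 := (515548637 / 4194304 : ℝ)) (B2 := (1586423 / 8388608 : ℝ)) (l := (567 / 32768 : ℝ)) (u := (677 / 32768 : ℝ))
    (E := (-114249317 / 1048576 : ℝ)) (F := (-14126627 / 67108864 : ℝ)) (by norm_num) (by norm_num) (by norm_num) (by norm_num) (by norm_num)
    (by norm_num) (by norm_num) (by norm_num) (by norm_num) (by norm_num) (by norm_num) (by norm_num) (by norm_num) (by norm_num) (by norm_num)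
  have e1 : C7.l = (567 / 32768 : ℝ) := rfl
  have e2 : C7.u = (677 / 32768 : ℝ) := rfl
  have e3 : C7.a1 = -(53576863 / 4194304 : ℝ) := by norm_num [C7]
  have e4 : C7.a2 = -(515548637 / 4194304 : ℝ) := by norm_num [C7]
  have e5 : C7.e = (-114249317 / 1048576 : ℝ) := rfl
  have e6 : C7.f = (220597 / 16777216 : ℝ) + (1586423 / 8388608 : ℝ) + (-14126627 / 67108864 : ℝ) := by norm_num [C7]
  rw [e1, e2, e3, e4, e5, e6]
  exact h

lemma rcell8 : ∃ N : ℝ, Rw4 P.r2 N (coCell (87579 / 65536 : ℝ) (868797 / 65536 : ℝ) ((379421 / 32768 : ℝ) + (107 / 256 : ℝ)) (13 / 512 : ℝ) C8) := by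
  refine ⟨(2415919104 : ℝ), ⟨Q11, List.mem_cons_of_mem _ (List.mem_cons_of_mem _ (List.mem_cons_of_mem _ (List.mem_cons_of_mem _ (List.mem_cons_of_mem _ (List.mem_cons_of_mem _ (List.mem_cons_of_mem _ (List.mem_cons_of_mem _ (List.mem_cons_of_mem _ (List.mem_cons_of_mem _ (List.mem_cons_of_mem _ (List.mem_cons_self))))))))))), ?_⟩, by norm_num⟩
  constructor <;> norm_num [Q11, coCell, C8]

lemma lcell8 : ∀ x1 x2 xc : ℝ, 0 ≤ x1 → x1 ≤ 1 → 0 ≤ x2 → x2 ≤ 1 → C8.l ≤ xc → xc ≤ C8.u →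
    (87579 / 65536 : ℝ) * (1 - (1 - x1) ^ 11) + (868797 / 65536 : ℝ) * (1 - (1 - x2) ^ 11) - ((379421 / 32768 : ℝ) + (107 / 256 : ℝ)) * (1 - (1 - xc) ^ 11)
      ≤ - C8.a1 * x1 - C8.a2 * x2 + C8.e * xc + C8.f := by
  have h := cell_lines 11 (α1 := (87579 / 65536 : ℝ)) (α2 := (868797 / 65536 : ℝ)) (c := (379421 / 32768 : ℝ) + (107 / 256 : ℝ)) (y1 := (2193 / 131072 : ℝ)) (y2 := (659 / 32768 : ℝ))
    (A1 := (13020719 / 1048576 : ℝ)) (B1 := (1248899 / 67108864 : ℝ)) (A2 := (499182583 / 4194304 : ℝ)) (B2 := (35082115 / 134217728 : ℝ)) (l := (677 / 32768 : ℝ)) (u := (6467 / 262144 : ℝ))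
    (E := (-220067699 / 2097152 : ℝ)) (F := (-78802379 / 268435456 : ℝ)) (by norm_num) (by norm_num) (by norm_num) (by norm_num) (by norm_num)
    (by norm_num) (by norm_num) (by norm_num) (by norm_num) (by norm_num) (by norm_num) (by norm_num) (by norm_num) (by norm_num) (by norm_num)
  have e1 : C8.l = (677 / 32768 : ℝ) := rfl
  have e2 : C8.u = (6467 / 262144 : ℝ) := rfl
  have e3 : C8.a1 = -(13020719 / 1048576 : ℝ) := by norm_num [C8]
  have e4 : C8.a2 = -(499182583 / 4194304 : ℝ) := by norm_num [C8]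
  have e5 : C8.e = (-220067699 / 2097152 : ℝ) := rfl
  have e6 : C8.f = (1248899 / 67108864 : ℝ) + (35082115 / 134217728 : ℝ) + (-78802379 / 268435456 : ℝ) := by norm_num [C8]
  rw [e1, e2, e3, e4, e5, e6]
  exact h

lemma rcell9 : ∃ N : ℝ, Rw4 P.r2 N (coCell (87579 / 65536 : ℝ) (868797 / 65536 : ℝ) ((379421 / 32768 : ℝ) + (107 / 256 : ℝ)) (13 / 512 : ℝ) C9) := by
  refine ⟨(1207959552 : ℝ), ⟨Q12, List.mem_cons_of_mem _ (List.mem_cons_of_mem _ (List.mem_cons_of_mem _ (List.mem_cons_of_mem _ (List.mem_cons_of_mem _ (List.mem_cons_of_mem _ (List.mem_cons_of_mem _ (List.mem_cons_of_mem _ (List.mem_cons_of_mem _ (List.mem_cons_of_mem _ (List.mem_cons_of_mem _ (List.mem_cons_of_mem _ (List.mem_cons_self)))))))))))), ?_⟩, by norm_num⟩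
  constructor <;> norm_num [Q12, coCell, C9]

lemma lcell9 : ∀ x1 x2 xc : ℝ, 0 ≤ x1 → x1 ≤ 1 → 0 ≤ x2 → x2 ≤ 1 → C9.l ≤ xc → xc ≤ C9.u →
    (87579 / 65536 : ℝ) * (1 - (1 - x1) ^ 11) + (868797 / 65536 : ℝ) * (1 - (1 - x2) ^ 11) - ((379421 / 32768 : ℝ) + (107 / 256 : ℝ)) * (1 - (1 - xc) ^ 11)
      ≤ - C9.a1 * x1 - C9.a2 * x2 + C9.e * xc + C9.f := by
  have h := cell_lines 11 (α1 := (87579 / 65536 : ℝ)) (α2 := (868797 / 65536 : ℝ)) (c := (379421 / 32768 : ℝ) + (107 / 256 : ℝ)) (y1 := (5259 / 262144 : ℝ)) (y2 := (6297 / 262144 : ℝ))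
    (A1 := (25172763 / 2097152 : ℝ)) (B1 := (3520077 / 134217728 : ℝ)) (A2 := (239808761 / 2097152 : ℝ)) (B2 := (381953 / 1048576 : ℝ)) (l := (6467 / 262144 : ℝ)) (u := (3861 / 131072 : ℝ))
    (E := (-420735789 / 4194304 : ℝ)) (F := (-27357899 / 67108864 : ℝ)) (by norm_num) (by norm_num) (by norm_num) (by norm_num) (by norm_num)
    (by norm_num) (by norm_num) (by norm_num) (by norm_num) (by norm_num) (by norm_num) (by norm_num) (by norm_num) (by norm_num) (by norm_num)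
  have e1 : C9.l = (6467 / 262144 : ℝ) := rfl
  have e2 : C9.u = (3861 / 131072 : ℝ) := rfl
  have e3 : C9.a1 = -(25172763 / 2097152 : ℝ) := by norm_num [C9]
  have e4 : C9.a2 = -(239808761 / 2097152 : ℝ) := by norm_num [C9]
  have e5 : C9.e = (-420735789 / 4194304 : ℝ) := rfl
  have e6 : C9.f = (3520077 / 134217728 : ℝ) + (381953 / 1048576 : ℝ) + (-27357899 / 67108864 : ℝ) := by norm_num [C9]
  rw [e1, e2, e3, e4, e5, e6]
  exact h

lemma rcell10 : ∃ N : ℝ, Rw4 P.r2 N (coCell (87579 / 65536 : ℝ) (868797 / 65536 : ℝ) ((379421 / 32768 : ℝ) + (107 / 256 : ℝ)) (13 / 512 : ℝ) C10) := by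
  refine ⟨(1207959552 : ℝ), ⟨Q13, List.mem_cons_of_mem _ (List.mem_cons_of_mem _ (List.mem_cons_of_mem _ (List.mem_cons_of_mem _ (List.mem_cons_of_mem _ (List.mem_cons_of_mem _ (List.mem_cons_of_mem _ (List.mem_cons_of_mem _ (List.mem_cons_of_mem _ (List.mem_cons_of_mem _ (List.mem_cons_of_mem _ (List.mem_cons_of_mem _ (List.mem_cons_of_mem _ (List.mem_cons_self))))))))))))), ?_⟩, by norm_num⟩
  constructor <;> norm_num [Q13, coCell, C10]

lemma lcell10 : ∀ x1 x2 xc : ℝ, 0 ≤ x1 → x1 ≤ 1 → 0 ≤ x2 → x2 ≤ 1 → C10.l ≤ xc → xc ≤ C10.u →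
    (87579 / 65536 : ℝ) * (1 - (1 - x1) ^ 11) + (868797 / 65536 : ℝ) * (1 - (1 - x2) ^ 11) - ((379421 / 32768 : ℝ) + (107 / 256 : ℝ)) * (1 - (1 - xc) ^ 11)
      ≤ - C10.a1 * x1 - C10.a2 * x2 + C10.e * xc + C10.f := by
  have h := cell_lines 11 (α1 := (87579 / 65536 : ℝ)) (α2 := (868797 / 65536 : ℝ)) (c := (379421 / 32768 : ℝ) + (107 / 256 : ℝ)) (y1 := (6219 / 262144 : ℝ)) (y2 := (3761 / 131072 : ℝ))
    (A1 := (48495399 / 4194304 : ℝ)) (B1 := (4815611 / 134217728 : ℝ)) (A2 := (457141873 / 4194304 : ℝ)) (B2 := (135669687 / 268435456 : ℝ)) (l := (3861 / 131072 : ℝ)) (u := (2305 / 65536 : ℝ))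
    (E := (-199294129 / 2097152 : ℝ)) (F := (-151185315 / 268435456 : ℝ)) (by norm_num) (by norm_num) (by norm_num) (by norm_num) (by norm_num)
    (by norm_num) (by norm_num) (by norm_num) (by norm_num) (by norm_num) (by norm_num) (by norm_num) (by norm_num) (by norm_num) (by norm_num)
  have e1 : C10.l = (3861 / 131072 : ℝ) := rfl
  have e2 : C10.u = (2305 / 65536 : ℝ) := rfl
  have e3 : C10.a1 = -(48495399 / 4194304 : ℝ) := by norm_num [C10]
  have e4 : C10.a2 = -(457141873 / 4194304 : ℝ) := by norm_num [C10]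
  have e5 : C10.e = (-199294129 / 2097152 : ℝ) := rfl
  have e6 : C10.f = (4815611 / 134217728 : ℝ) + (135669687 / 268435456 : ℝ) + (-151185315 / 268435456 : ℝ) := by norm_num [C10]
  rw [e1, e2, e3, e4, e5, e6]
  exact h

lemma rcell11 : ∃ N : ℝ, Rw4 P.r2 N (coCell (87579 / 65536 : ℝ) (868797 / 65536 : ℝ) ((379421 / 32768 : ℝ) + (107 / 256 : ℝ)) (13 / 512 : ℝ) C11) := by
  refine ⟨(2415919104 : ℝ), ⟨Q14, List.mem_cons_of_mem _ (List.mem_cons_of_mem _ (List.mem_cons_of_mem _ (List.mem_cons_of_mem _ (List.mem_cons_of_mem _ (List.mem_cons_of_mem _ (List.mem_cons_of_mem _ (List.mem_cons_of_mem _ (List.mem_cons_of_mem _ (List.mem_cons_of_mem _ (List.mem_cons_of_mem _ (List.mem_cons_of_mem _ (List.mem_cons_of_mem _ (List.mem_cons_of_mem _ (List.mem_cons_self)))))))))))))), ?_⟩, by norm_num⟩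
  constructor <;> norm_num [Q14, coCell, C11]

lemma lcell11 : ∀ x1 x2 xc : ℝ, 0 ≤ x1 → x1 ≤ 1 → 0 ≤ x2 → x2 ≤ 1 → C11.l ≤ xc → xc ≤ C11.u →
    (87579 / 65536 : ℝ) * (1 - (1 - x1) ^ 11) + (868797 / 65536 : ℝ) * (1 - (1 - x2) ^ 11) - ((379421 / 32768 : ℝ) + (107 / 256 : ℝ)) * (1 - (1 - xc) ^ 11)
      ≤ - C11.a1 * x1 - C11.a2 * x2 + C11.e * xc + C11.f := by
  have h := cell_lines 11 (α1 := (87579 / 65536 : ℝ)) (α2 := (868797 / 65536 : ℝ)) (c := (379421 / 32768 : ℝ) + (107 / 256 : ℝ)) (y1 := (895 / 32768 : ℝ)) (y2 := (2231 / 65536 : ℝ))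
    (A1 := (11685377 / 1048576 : ℝ)) (B1 := (390453 / 8388608 : ℝ)) (A2 := (432585339 / 4194304 : ℝ)) (B2 := (92466911 / 134217728 : ℝ)) (l := (2305 / 65536 : ℝ)) (u := (11009 / 262144 : ℝ))
    (E := (-373526221 / 4194304 : ℝ)) (F := (-207599373 / 268435456 : ℝ)) (by norm_num) (by norm_num) (by norm_num) (by norm_num) (by norm_num)
    (by norm_num) (by norm_num) (by norm_num) (by norm_num) (by norm_num) (by norm_num) (by norm_num) (by norm_num) (by norm_num) (by norm_num)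
  have e1 : C11.l = (2305 / 65536 : ℝ) := rfl
  have e2 : C11.u = (11009 / 262144 : ℝ) := rfl
  have e3 : C11.a1 = -(11685377 / 1048576 : ℝ) := by norm_num [C11]
  have e4 : C11.a2 = -(432585339 / 4194304 : ℝ) := by norm_num [C11]
  have e5 : C11.e = (-373526221 / 4194304 : ℝ) := rfl
  have e6 : C11.f = (390453 / 8388608 : ℝ) + (92466911 / 134217728 : ℝ) + (-207599373 / 268435456 : ℝ) := by norm_num [C11]
  rw [e1, e2, e3, e4, e5, e6]
  exact h

lemma rcell12 : ∃ N : ℝ, Rw4 P.r2 N (coCell (87579 / 65536 : ℝ) (868797 / 65536 : ℝ) ((379421 / 32768 : ℝ) + (107 / 256 : ℝ)) (13 / 512 : ℝ) C12) := by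
  refine ⟨(2415919104 : ℝ), ⟨Q15, List.mem_cons_of_mem _ (List.mem_cons_of_mem _ (List.mem_cons_of_mem _ (List.mem_cons_of_mem _ (List.mem_cons_of_mem _ (List.mem_cons_of_mem _ (List.mem_cons_of_mem _ (List.mem_cons_of_mem _ (List.mem_cons_of_mem _ (List.mem_cons_of_mem _ (List.mem_cons_of_mem _ (List.mem_cons_of_mem _ (List.mem_cons_of_mem _ (List.mem_cons_of_mem _ (List.mem_cons_of_mem _ (List.mem_cons_self))))))))))))))), ?_⟩, by norm_num⟩
  constructor <;> norm_num [Q15, coCell, C12]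

lemma lcell12 : ∀ x1 x2 xc : ℝ, 0 ≤ x1 → x1 ≤ 1 → 0 ≤ x2 → x2 ≤ 1 → C12.l ≤ xc → xc ≤ C12.u →
    (87579 / 65536 : ℝ) * (1 - (1 - x1) ^ 11) + (868797 / 65536 : ℝ) * (1 - (1 - x2) ^ 11) - ((379421 / 32768 : ℝ) + (107 / 256 : ℝ)) * (1 - (1 - xc) ^ 11)
      ≤ - C12.a1 * x1 - C12.a2 * x2 + C12.e * xc + C12.f := by
  have h := cell_lines 11 (α1 := (87579 / 65536 : ℝ)) (α2 := (868797 / 65536 : ℝ)) (c := (379421 / 32768 : ℝ) + (107 / 256 : ℝ)) (y1 := (4425 / 131072 : ℝ)) (y2 := (10609 / 262144 : ℝ))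
    (A1 := (43734327 / 4194304 : ℝ)) (B1 := (4591345 / 67108864 : ℝ)) (A2 := (12645209 / 131072 : ℝ)) (B2 := (125746579 / 134217728 : ℝ)) (l := (11009 / 262144 : ℝ)) (u := (6573 / 131072 : ℝ))
    (E := (-86365313 / 1048576 : ℝ)) (F := (-283030829 / 268435456 : ℝ)) (by norm_num) (by norm_num) (by norm_num) (by norm_num) (by norm_num)
    (by norm_num) (by norm_num) (by norm_num) (by norm_num) (by norm_num) (by norm_num) (by norm_num) (by norm_num) (by norm_num) (by norm_num)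
  have e1 : C12.l = (11009 / 262144 : ℝ) := rfl
  have e2 : C12.u = (6573 / 131072 : ℝ) := rfl
  have e3 : C12.a1 = -(43734327 / 4194304 : ℝ) := by norm_num [C12]
  have e4 : C12.a2 = -(12645209 / 131072 : ℝ) := by norm_num [C12]
  have e5 : C12.e = (-86365313 / 1048576 : ℝ) := rfl
  have e6 : C12.f = (4591345 / 67108864 : ℝ) + (125746579 / 134217728 : ℝ) + (-283030829 / 268435456 : ℝ) := by norm_num [C12]
  rw [e1, e2, e3, e4, e5, e6]
  exact h

lemma rcell13 : ∃ N : ℝ, Rw4 P.r2 N (coCell (87579 / 65536 : ℝ) (868797 / 65536 : ℝ) ((379421 / 32768 : ℝ) + (107 / 256 : ℝ)) (13 / 512 : ℝ) C13) := by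
  refine ⟨(2415919104 : ℝ), ⟨Q16, List.mem_cons_of_mem _ (List.mem_cons_of_mem _ (List.mem_cons_of_mem _ (List.mem_cons_of_mem _ (List.mem_cons_of_mem _ (List.mem_cons_of_mem _ (List.mem_cons_of_mem _ (List.mem_cons_of_mem _ (List.mem_cons_of_mem _ (List.mem_cons_of_mem _ (List.mem_cons_of_mem _ (List.mem_cons_of_mem _ (List.mem_cons_of_mem _ (List.mem_cons_of_mem _ (List.mem_cons_of_mem _ (List.mem_cons_of_mem _ (List.mem_cons_self)))))))))))))))), ?_⟩, by norm_num⟩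
  constructor <;> norm_num [Q16, coCell, C13]

lemma lcell13 : ∀ x1 x2 xc : ℝ, 0 ≤ x1 → x1 ≤ 1 → 0 ≤ x2 → x2 ≤ 1 → C13.l ≤ xc → xc ≤ C13.u →
    (87579 / 65536 : ℝ) * (1 - (1 - x1) ^ 11) + (868797 / 65536 : ℝ) * (1 - (1 - x2) ^ 11) - ((379421 / 32768 : ℝ) + (107 / 256 : ℝ)) * (1 - (1 - xc) ^ 11)
      ≤ - C13.a1 * x1 - C13.a2 * x2 + C13.e * xc + C13.f := by
  have h := cell_lines 11 (α1 := (87579 / 65536 : ℝ)) (α2 := (868797 / 65536 : ℝ)) (c := (379421 / 32768 : ℝ) + (107 / 256 : ℝ)) (y1 := (161 / 4096 : ℝ)) (y2 := (12627 / 262144 : ℝ))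
    (A1 := (41287685 / 4194304 : ℝ)) (B1 := (24082209 / 268435456 : ℝ)) (A2 := (373330227 / 4194304 : ℝ)) (B2 := (42528347 / 33554432 : ℝ)) (l := (6573 / 131072 : ℝ)) (u := (15697 / 262144 : ℝ))
    (E := (-157225321 / 2097152 : ℝ)) (F := (-191279267 / 134217728 : ℝ)) (by norm_num) (by norm_num) (by norm_num) (by norm_num) (by norm_num)
    (by norm_num) (by norm_num) (by norm_num) (by norm_num) (by norm_num) (by norm_num) (by norm_num) (by norm_num) (by norm_num) (by norm_num)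
  have e1 : C13.l = (6573 / 131072 : ℝ) := rfl
  have e2 : C13.u = (15697 / 262144 : ℝ) := rfl
  have e3 : C13.a1 = -(41287685 / 4194304 : ℝ) := by norm_num [C13]
  have e4 : C13.a2 = -(373330227 / 4194304 : ℝ) := by norm_num [C13]
  have e5 : C13.e = (-157225321 / 2097152 : ℝ) := rfl
  have e6 : C13.f = (24082209 / 268435456 : ℝ) + (42528347 / 33554432 : ℝ) + (-191279267 / 134217728 : ℝ) := by norm_num [C13]
  rw [e1, e2, e3, e4, e5, e6]
  exact h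

lemma rcell14 : ∃ N : ℝ, Rw4 P.r2 N (coCell (87579 / 65536 : ℝ) (868797 / 65536 : ℝ) ((379421 / 32768 : ℝ) + (107 / 256 : ℝ)) (13 / 512 : ℝ) C14) := by
  refine ⟨(603979776 : ℝ), ⟨Q17, List.mem_cons_of_mem _ (List.mem_cons_of_mem _ (List.mem_cons_of_mem _ (List.mem_cons_of_mem _ (List.mem_cons_of_mem _ (List.mem_cons_of_mem _ (List.mem_cons_of_mem _ (List.mem_cons_of_mem _ (List.mem_cons_of_mem _ (List.mem_cons_of_mem _ (List.mem_cons_of_mem _ (List.mem_cons_of_mem _ (List.mem_cons_of_mem _ (List.mem_cons_of_mem _ (List.mem_cons_of_mem _ (List.mem_cons_of_mem _ (List.mem_cons_of_mem _ (List.mem_cons_self))))))))))))))))), ?_⟩, by norm_num⟩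
  constructor <;> norm_num [Q17, coCell, C14]

lemma lcell14 : ∀ x1 x2 xc : ℝ, 0 ≤ x1 → x1 ≤ 1 → 0 ≤ x2 → x2 ≤ 1 → C14.l ≤ xc → xc ≤ C14.u →
    (87579 / 65536 : ℝ) * (1 - (1 - x1) ^ 11) + (868797 / 65536 : ℝ) * (1 - (1 - x2) ^ 11) - ((379421 / 32768 : ℝ) + (107 / 256 : ℝ)) * (1 - (1 - xc) ^ 11)
      ≤ - C14.a1 * x1 - C14.a2 * x2 + C14.e * xc + C14.f := by
  have h := cell_lines 11 (α1 := (87579 / 65536 : ℝ)) (α2 := (868797 / 65536 : ℝ)) (c := (379421 / 32768 : ℝ) + (107 / 256 : ℝ)) (y1 := (12321 / 262144 : ℝ)) (y2 := (14761 / 262144 : ℝ))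
    (A1 := (595275 / 65536 : ℝ)) (B1 := (32883243 / 268435456 : ℝ)) (A2 := (171301149 / 2097152 : ℝ)) (B2 := (442855167 / 268435456 : ℝ)) (l := (15697 / 262144 : ℝ)) (u := (18743 / 262144 : ℝ))
    (E := (-280731109 / 4194304 : ℝ)) (F := (-255890535 / 134217728 : ℝ)) (by norm_num) (by norm_num) (by norm_num) (by norm_num) (by norm_num)
    (by norm_num) (by norm_num) (by norm_num) (by norm_num) (by norm_num) (by norm_num) (by norm_num) (by norm_num) (by norm_num) (by norm_num)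
  have e1 : C14.l = (15697 / 262144 : ℝ) := rfl
  have e2 : C14.u = (18743 / 262144 : ℝ) := rfl
  have e3 : C14.a1 = -(595275 / 65536 : ℝ) := by norm_num [C14]
  have e4 : C14.a2 = -(171301149 / 2097152 : ℝ) := by norm_num [C14]
  have e5 : C14.e = (-280731109 / 4194304 : ℝ) := rfl
  have e6 : C14.f = (32883243 / 268435456 : ℝ) + (442855167 / 268435456 : ℝ) + (-255890535 / 134217728 : ℝ) := by norm_num [C14]
  rw [e1, e2, e3, e4, e5, e6]
  exact h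

lemma rcell15 : ∃ N : ℝ, Rw4 P.r2 N (coCell (87579 / 65536 : ℝ) (868797 / 65536 : ℝ) ((379421 / 32768 : ℝ) + (107 / 256 : ℝ)) (13 / 512 : ℝ) C15) := by
  refine ⟨(1207959552 : ℝ), ⟨Q18, List.mem_cons_of_mem _ (List.mem_cons_of_mem _ (List.mem_cons_of_mem _ (List.mem_cons_of_mem _ (List.mem_cons_of_mem _ (List.mem_cons_of_mem _ (List.mem_cons_of_mem _ (List.mem_cons_of_mem _ (List.mem_cons_of_mem _ (List.mem_cons_of_mem _ (List.mem_cons_of_mem _ (List.mem_cons_of_mem _ (List.mem_cons_of_mem _ (List.mem_cons_of_mem _ (List.mem_cons_of_mem _ (List.mem_cons_of_mem _ (List.mem_cons_of_mem _ (List.mem_cons_of_mem _ (List.mem_cons_self)))))))))))))))))), ?_⟩, by norm_num⟩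
  constructor <;> norm_num [Q18, coCell, C15]

lemma lcell15 : ∀ x1 x2 xc : ℝ, 0 ≤ x1 → x1 ≤ 1 → 0 ≤ x2 → x2 ≤ 1 → C15.l ≤ xc → xc ≤ C15.u →
    (87579 / 65536 : ℝ) * (1 - (1 - x1) ^ 11) + (868797 / 65536 : ℝ) * (1 - (1 - x2) ^ 11) - ((379421 / 32768 : ℝ) + (107 / 256 : ℝ)) * (1 - (1 - xc) ^ 11)
      ≤ - C15.a1 * x1 - C15.a2 * x2 + C15.e * xc + C15.f := by
  have h := cell_lines 11 (α1 := (87579 / 65536 : ℝ)) (α2 := (868797 / 65536 : ℝ)) (c := (379421 / 32768 : ℝ) + (107 / 256 : ℝ)) (y1 := (14319 / 262144 : ℝ)) (y2 := (17349 / 262144 : ℝ))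
    (A1 := (35158033 / 4194304 : ℝ)) (B1 := (42433945 / 268435456 : ℝ)) (A2 := (308401997 / 4194304 : ℝ)) (B2 := (576738939 / 268435456 : ℝ)) (l := (18743 / 262144 : ℝ)) (u := (5595 / 65536 : ℝ))
    (E := (-61191205 / 1048576 : ℝ)) (F := (-338180105 / 134217728 : ℝ)) (by norm_num) (by norm_num) (by norm_num) (by norm_num) (by norm_num)
    (by norm_num) (by norm_num) (by norm_num) (by norm_num) (by norm_num) (by norm_num) (by norm_num) (by norm_num) (by norm_num) (by norm_num)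
  have e1 : C15.l = (18743 / 262144 : ℝ) := rfl
  have e2 : C15.u = (5595 / 65536 : ℝ) := rfl
  have e3 : C15.a1 = -(35158033 / 4194304 : ℝ) := by norm_num [C15]
  have e4 : C15.a2 = -(308401997 / 4194304 : ℝ) := by norm_num [C15]
  have e5 : C15.e = (-61191205 / 1048576 : ℝ) := rfl
  have e6 : C15.f = (42433945 / 268435456 : ℝ) + (576738939 / 268435456 : ℝ) + (-338180105 / 134217728 : ℝ) := by norm_num [C15]
  rw [e1, e2, e3, e4, e5, e6]
  exact h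

lemma rcell16 : ∃ N : ℝ, Rw4 P.r2 N (coCell (87579 / 65536 : ℝ) (868797 / 65536 : ℝ) ((379421 / 32768 : ℝ) + (107 / 256 : ℝ)) (13 / 512 : ℝ) C16) := by
  refine ⟨(2415919104 : ℝ), ⟨Q19, List.mem_cons_of_mem _ (List.mem_cons_of_mem _ (List.mem_cons_of_mem _ (List.mem_cons_of_mem _ (List.mem_cons_of_mem _ (List.mem_cons_of_mem _ (List.mem_cons_of_mem _ (List.mem_cons_of_mem _ (List.mem_cons_of_mem _ (List.mem_cons_of_mem _ (List.mem_cons_of_mem _ (List.mem_cons_of_mem _ (List.mem_cons_of_mem _ (List.mem_cons_of_mem _ (List.mem_cons_of_mem _ (List.mem_cons_of_mem _ (List.mem_cons_of_mem _ (List.mem_cons_of_mem _ (List.mem_cons_of_mem _ (List.mem_cons_self))))))))))))))))))), ?_⟩, by norm_num⟩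
  constructor <;> norm_num [Q19, coCell, C16]

lemma lcell16 : ∀ x1 x2 xc : ℝ, 0 ≤ x1 → x1 ≤ 1 → 0 ≤ x2 → x2 ≤ 1 → C16.l ≤ xc → xc ≤ C16.u →
    (87579 / 65536 : ℝ) * (1 - (1 - x1) ^ 11) + (868797 / 65536 : ℝ) * (1 - (1 - x2) ^ 11) - ((379421 / 32768 : ℝ) + (107 / 256 : ℝ)) * (1 - (1 - xc) ^ 11)
      ≤ - C16.a1 * x1 - C16.a2 * x2 + C16.e * xc + C16.f := by
  have h := cell_lines 11 (α1 := (87579 / 65536 : ℝ)) (α2 := (868797 / 65536 : ℝ)) (c := (379421 / 32768 : ℝ) + (107 / 256 : ℝ)) (y1 := (4103 / 65536 : ℝ)) (y2 := (10079 / 131072 : ℝ))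
    (A1 := (32299111 / 4194304 : ℝ)) (B1 := (53149475 / 268435456 : ℝ)) (A2 := (34348215 / 524288 : ℝ)) (B2 := (730451251 / 268435456 : ℝ)) (l := (5595 / 65536 : ℝ)) (u := (13361 / 131072 : ℝ))
    (E := (-207302897 / 4194304 : ℝ)) (F := (-881047181 / 268435456 : ℝ)) (by norm_num) (by norm_num) (by norm_num) (by norm_num) (by norm_num)
    (by norm_num) (by norm_num) (by norm_num) (by norm_num) (by norm_num) (by norm_num) (by norm_num) (by norm_num) (by norm_num) (by norm_num)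
  have e1 : C16.l = (5595 / 65536 : ℝ) := rfl
  have e2 : C16.u = (13361 / 131072 : ℝ) := rfl
  have e3 : C16.a1 = -(32299111 / 4194304 : ℝ) := by norm_num [C16]
  have e4 : C16.a2 = -(34348215 / 524288 : ℝ) := by norm_num [C16]
  have e5 : C16.e = (-207302897 / 4194304 : ℝ) := rfl
  have e6 : C16.f = (53149475 / 268435456 : ℝ) + (730451251 / 268435456 : ℝ) + (-881047181 / 268435456 : ℝ) := by norm_num [C16]
  rw [e1, e2, e3, e4, e5, e6]
  exact h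

lemma rcell17 : ∃ N : ℝ, Rw4 P.r2 N (coCell (87579 / 65536 : ℝ) (868797 / 65536 : ℝ) ((379421 / 32768 : ℝ) + (107 / 256 : ℝ)) (13 / 512 : ℝ) C17) := by
  refine ⟨(603979776 : ℝ), ⟨Q20, List.mem_cons_of_mem _ (List.mem_cons_of_mem _ (List.mem_cons_of_mem _ (List.mem_cons_of_mem _ (List.mem_cons_of_mem _ (List.mem_cons_of_mem _ (List.mem_cons_of_mem _ (List.mem_cons_of_mem _ (List.mem_cons_of_mem _ (List.mem_cons_of_mem _ (List.mem_cons_of_mem _ (List.mem_cons_of_mem _ (List.mem_cons_of_mem _ (List.mem_cons_of_mem _ (List.mem_cons_of_mem _ (List.mem_cons_of_mem _ (List.mem_cons_of_mem _ (List.mem_cons_of_mem _ (List.mem_cons_of_mem _ (List.mem_cons_of_mem _ (List.mem_cons_self)))))))))))))))))))), ?_⟩, by norm_num⟩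
  constructor <;> norm_num [Q20, coCell, C17]

lemma lcell17 : ∀ x1 x2 xc : ℝ, 0 ≤ x1 → x1 ≤ 1 → 0 ≤ x2 → x2 ≤ 1 → C17.l ≤ xc → xc ≤ C17.u →
    (87579 / 65536 : ℝ) * (1 - (1 - x1) ^ 11) + (868797 / 65536 : ℝ) * (1 - (1 - x2) ^ 11) - ((379421 / 32768 : ℝ) + (107 / 256 : ℝ)) * (1 - (1 - xc) ^ 11)
      ≤ - C17.a1 * x1 - C17.a2 * x2 + C17.e * xc + C17.f := by
  have h := cell_lines 11 (α1 := (87579 / 65536 : ℝ)) (α2 := (868797 / 65536 : ℝ)) (c := (379421 / 32768 : ℝ) + (107 / 256 : ℝ)) (y1 := (18397 / 262144 : ℝ)) (y2 := (22801 / 262144 : ℝ))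
    (A1 := (29782847 / 4194304 : ℝ)) (B1 := (63834013 / 268435456 : ℝ)) (A2 := (7693945 / 131072 : ℝ)) (B2 := (880170699 / 268435456 : ℝ)) (l := (13361 / 131072 : ℝ)) (u := (127 / 1024 : ℝ))
    (E := (-167289309 / 4194304 : ℝ)) (F := (-285523215 / 67108864 : ℝ)) (by norm_num) (by norm_num) (by norm_num) (by norm_num) (by norm_num)
    (by norm_num) (by norm_num) (by norm_num) (by norm_num) (by norm_num) (by norm_num) (by norm_num) (by norm_num) (by norm_num) (by norm_num)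
  have e1 : C17.l = (13361 / 131072 : ℝ) := rfl
  have e2 : C17.u = (127 / 1024 : ℝ) := rfl
  have e3 : C17.a1 = -(29782847 / 4194304 : ℝ) := by norm_num [C17]
  have e4 : C17.a2 = -(7693945 / 131072 : ℝ) := by norm_num [C17]
  have e5 : C17.e = (-167289309 / 4194304 : ℝ) := rfl
  have e6 : C17.f = (63834013 / 268435456 : ℝ) + (880170699 / 268435456 : ℝ) + (-285523215 / 67108864 : ℝ) := by norm_num [C17]
  rw [e1, e2, e3, e4, e5, e6]
  exact h

/-- The hypotheses at the origin. -/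
lemma horig (lam : ℝ) (hd : (11 : ℝ) * lam ^ 2 = 1) (hb : |lam| ≤ (165757614635 / 549755813888 : ℝ)) :
    OriginH 11 lam (87579 / 65536 : ℝ) (868797 / 65536 : ℝ) (379421 / 32768 : ℝ) (107 / 256 : ℝ) (13 / 512 : ℝ) (45 / 512 : ℝ) (4233 / 4096 : ℝ) (1 / 256 : ℝ) 3298534883328 := by
  refine originH_of_num (d := 11) (by push_cast; exact hd) hb (by norm_num) (by norm_num) (by norm_num) (by norm_num)
    (by norm_num) (by norm_num) (by norm_num) (by norm_num) (by norm_num) (by norm_num) (by norm_num [S]) (by norm_num) ?_ ?_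
  · rw [hch]
    norm_num [abs_of_pos, abs_of_neg]
  · norm_num [abs_of_pos, abs_of_neg]

/-- Nonreconstruction at the bound. -/
theorem main : Tendsto (reconError 3 11 (-(1 / Real.sqrt 11))) atTop (𝓝 0) := by
  have hsq : Real.sqrt ((11 : ℕ) : ℝ) ^ 2 = 11 := by
    rw [Real.sq_sqrt (by positivity)]; norm_num
  have hsq' : Real.sqrt (11 : ℝ) ^ 2 = 11 := by
    rw [Real.sq_sqrt (by positivity)]
  have hs0 : 0 < Real.sqrt (11 : ℝ) := Real.sqrt_pos.2 (by norm_num)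
  have hl2 : ((11 : ℝ)) * (-(1 / Real.sqrt 11)) ^ 2 = 1 := by
    have : (-(1 / Real.sqrt (11 : ℝ))) ^ 2 = 1 / 11 := by
      rw [neg_sq, div_pow, hsq']; norm_num
    rw [this]; norm_num
  have hb : |(-(1 / Real.sqrt (11 : ℝ)))| ≤ (165757614635 / 549755813888 : ℝ) := by
    rw [abs_neg, abs_of_pos (by positivity)]
    rw [div_le_iff₀ hs0]
    have h1 : (1 : ℝ) ^ 2 ≤ ((165757614635 / 549755813888 : ℝ) * Real.sqrt 11) ^ 2 := by
      rw [mul_pow, hsq']; norm_num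
    exact le_of_sq_le_sq h1 (by positivity)
  have hb2 : (-(1 / 2) : ℝ) < -(1 / Real.sqrt (11 : ℝ)) := by
    have h2 := (abs_le.1 hb).1
    have h3 : ((165757614635 / 549755813888 : ℝ) : ℝ) < 1 / 2 := by norm_num
    linarith
  have h1 : (-(1 / Real.sqrt (11 : ℝ))) < 1 := by
    have : 0 < 1 / Real.sqrt (11 : ℝ) := by positivity
    linarith
  have hlam : |(S : ℝ) * (-(1 / Real.sqrt (11 : ℝ))) - ((P.lp : ℝ) - P.ln)| ≤ ((1 : ℕ) : ℝ) := by
    have h := lam_enc 11 21726182065414295 (by norm_num) (by norm_num [S]) (by norm_num [S])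
    have e : ((11 : ℕ) : ℝ) = (11 : ℝ) := by norm_num
    rw [e] at h
    exact h
  obtain ⟨hOa, hON⟩ := horig _ hl2 hb
  refine final_of_box (d := 11) (by norm_num) hb2 h1 (box hlam) (87579 / 65536 : ℝ) (868797 / 65536 : ℝ) (379421 / 32768 : ℝ) (107 / 256 : ℝ) (45 / 512 : ℝ) (4233 / 4096 : ℝ) (5243 / 1048576 : ℝ) (2203 / 4096 : ℝ) (13 / 512 : ℝ) (127 / 1024 : ℝ) cellsL
    (by norm_num) (by norm_num) (by norm_num) (by norm_num) (by norm_num) (by norm_num) (by norm_num) (by norm_num) (by norm_num)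
    (by norm_num) (by norm_num) (by norm_num) (by norm_num) (by norm_num) hOa hON rTa rTb rc1 rc2 rc3
    (forall_cons rcell0 (forall_cons rcell1 (forall_cons rcell2 (forall_cons rcell3 (forall_cons rcell4 (forall_cons rcell5 (forall_cons rcell6 (forall_cons rcell7 (forall_cons rcell8 (forall_cons rcell9 (forall_cons rcell10 (forall_cons rcell11 (forall_cons rcell12 (forall_cons rcell13 (forall_cons rcell14 (forall_cons rcell15 (forall_cons rcell16 (forall_cons rcell17 (forall_nil))))))))))))))))))) hcover (forall_cons lcell0 (forall_cons lcell1 (forall_cons lcell2 (forall_cons lcell3 (forall_cons lcell4 (forall_cons lcell5 (forall_cons lcell6 (forall_cons lcell7 (forall_cons lcell8 (forall_cons lcell9 (forall_cons lcell10 (forall_cons lcell11 (forall_cons lcell12 (forall_cons lcell13 (forall_cons lcell14 (forall_cons lcell15 (forall_cons lcell16 (forall_cons lcell17 (forall_nil)))))))))))))))))))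

end Vale.Agent.P154H.Tm.D11
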