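import Vale.Agent.P154H.D.D12
import Vale.Agent.P154H.FinalD
import Vale.Agent.P154H.OriginW

open Filter Topology

set_option maxRecDepth 100000

/-!
Nonreconstruction at the Kesten-Stigum bound for `d = 12`, negative eigenvalue.
-/

namespace Vale.Agent.P154H.Tm.D12

open Vale.Agent.P154 Vale.Agent.P154H

/-- A chord cell. -/
noncomputable def C0 : Cell := ⟨(5243 / 1048576 : ℝ), (393 / 65536 : ℝ), (-64334139 / 4194304 : ℝ), (-315996959 / 2097152 : ℝ), (-568296973 / 4194304 : ℝ), (-264347 / 268435456 : ℝ)⟩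

/-- A chord cell. -/
noncomputable def C1 : Cell := ⟨(393 / 65536 : ℝ), (471 / 65536 : ℝ), (-15920307 / 1048576 : ℝ), (-156287987 / 1048576 : ℝ), (-140365723 / 1048576 : ℝ), (-329325 / 268435456 : ℝ)⟩

/-- A chord cell. -/
noncomputable def C2 : Cell := ⟨(471 / 65536 : ℝ), (2259 / 262144 : ℝ), (-7880291 / 524288 : ℝ), (-617176549 / 4194304 : ℝ), (-138342877 / 1048576 : ℝ), (-260069 / 134217728 : ℝ)⟩

/-- A chord cell. -/
noncomputable def C3 : Cell := ⟨(2259 / 262144 : ℝ), (2709 / 262144 : ℝ), (-62190765 / 4194304 : ℝ), (-37973049 / 262144 : ℝ), (-271897655 / 2097152 : ℝ), (-669933 / 268435456 : ℝ)⟩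

/-- A chord cell. -/
noncomputable def C4 : Cell := ⟨(2709 / 262144 : ℝ), (203 / 16384 : ℝ), (-479051 / 32768 : ℝ), (-596451625 / 4194304 : ℝ), (-266257335 / 2097152 : ℝ), (-1075335 / 268435456 : ℝ)⟩

/-- A chord cell. -/
noncomputable def C5 : Cell := ⟨(203 / 16384 : ℝ), (1947 / 131072 : ℝ), (-60107411 / 4194304 : ℝ), (-583211595 / 4194304 : ℝ), (-519279573 / 4194304 : ℝ), (-1404825 / 268435456 : ℝ)⟩

/-- A chord cell. -/
noncomputable def C6 : Cell := ⟨(1947 / 131072 : ℝ), (4669 / 262144 : ℝ), (-58635941 / 4194304 : ℝ), (-568203723 / 4194304 : ℝ), (-503804401 / 4194304 : ℝ), (-2255025 / 268435456 : ℝ)⟩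

/-- A chord cell. -/
noncomputable def C7 : Cell := ⟨(4669 / 262144 : ℝ), (2799 / 131072 : ℝ), (-57426667 / 4194304 : ℝ), (-17177671 / 131072 : ℝ), (-121450539 / 1048576 : ℝ), (-1405943 / 134217728 : ℝ)⟩

/-- A chord cell. -/
noncomputable def C8 : Cell := ⟨(2799 / 131072 : ℝ), (839 / 32768 : ℝ), (-55583989 / 4194304 : ℝ), (-529466931 / 4194304 : ℝ), (-464992487 / 4194304 : ℝ), (-2325563 / 134217728 : ℝ)⟩

/-- A chord cell. -/
noncomputable def C9 : Cell := ⟨(839 / 32768 : ℝ), (8047 / 262144 : ℝ), (-6691075 / 524288 : ℝ), (-252670477 / 2097152 : ℝ), (-110279957 / 1048576 : ℝ), (-1497421 / 67108864 : ℝ)⟩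

/-- A chord cell. -/
noncomputable def C10 : Cell := ⟨(8047 / 262144 : ℝ), (9649 / 262144 : ℝ), (-51156101 / 4194304 : ℝ), (-239136755 / 2097152 : ℝ), (-103491617 / 1048576 : ℝ), (-2128199 / 67108864 : ℝ)⟩

/-- A chord cell. -/
noncomputable def C11 : Cell := ⟨(9649 / 262144 : ℝ), (11569 / 262144 : ℝ), (-48814169 / 4194304 : ℝ), (-448221653 / 4194304 : ℝ), (-383418027 / 4194304 : ℝ), (-13705267 / 268435456 : ℝ)⟩

/-- A chord cell. -/
noncomputable def C12 : Cell := ⟨(11569 / 262144 : ℝ), (13871 / 262144 : ℝ), (-45344397 / 4194304 : ℝ), (-207126273 / 2097152 : ℝ), (-174756795 / 2097152 : ℝ), (-8877411 / 134217728 : ℝ)⟩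

/-- A chord cell. -/
noncomputable def C13 : Cell := ⟨(13871 / 262144 : ℝ), (16631 / 262144 : ℝ), (-21288255 / 2097152 : ℝ), (-380349539 / 4194304 : ℝ), (-312477789 / 4194304 : ℝ), (-36509619 / 268435456 : ℝ)⟩

/-- A chord cell. -/
noncomputable def C14 : Cell := ⟨(16631 / 262144 : ℝ), (4985 / 65536 : ℝ), (-38958511 / 4194304 : ℝ), (-343130693 / 4194304 : ℝ), (-272808057 / 4194304 : ℝ), (-58237633 / 268435456 : ℝ)⟩

/-- A chord cell. -/
noncomputable def C15 : Cell := ⟨(4985 / 65536 : ℝ), (5977 / 65536 : ℝ), (-35714161 / 4194304 : ℝ), (-306425635 / 4194304 : ℝ), (-115661175 / 2097152 : ℝ), (-100439183 / 268435456 : ℝ)⟩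

/-- A chord cell. -/
noncomputable def C16 : Cell := ⟨(5977 / 65536 : ℝ), (57 / 512 : ℝ), (-32933441 / 4194304 : ℝ), (-274684275 / 4194304 : ℝ), (-93503751 / 2097152 : ℝ), (-200588895 / 268435456 : ℝ)⟩

/-- The chord cells. -/
noncomputable def cellsL : List Cell := [C0, C1, C2, C3, C4, C5, C6, C7, C8, C9, C10, C11, C12, C13, C14, C15, C16]

lemma hcover : ∀ x : ℝ, (5243 / 1048576 : ℝ) ≤ x → x ≤ (57 / 512 : ℝ) → ∃ D ∈ cellsL, D.l ≤ x ∧ x ≤ D.u := by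
  refine cover_of_chain ?_ (by norm_num [C0])
  simp only [ChainP, C0, C1, C2, C3, C4, C5, C6, C7, C8, C9, C10, C11, C12, C13, C14, C15, C16]
  norm_num

lemma hch : ((Nat.choose 12 2 : ℕ) : ℝ) = 66 := by norm_num [Nat.choose]

lemma rTa : Rw4 P.r1 (1179648 : ℝ) (coTa 12 (87579 / 65536 : ℝ) (868797 / 65536 : ℝ) (379421 / 32768 : ℝ) (107 / 256 : ℝ) (7 / 256 : ℝ)) := by
  refine ⟨⟨Ra, List.mem_cons_self, ?_⟩, by norm_num⟩
  constructor <;> norm_num [Ra, coTa, hch]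

lemma rTb : Rw4 P.r1 (9895604649984 : ℝ) (coTb 12 (87579 / 65536 : ℝ) (868797 / 65536 : ℝ) (379421 / 32768 : ℝ) (107 / 256 : ℝ) (7 / 256 : ℝ) (45 / 512 : ℝ) (4233 / 4096 : ℝ) (2637 / 4096 : ℝ)) := by
  refine ⟨⟨Rb, List.mem_cons_of_mem _ (List.mem_cons_self), ?_⟩, by norm_num⟩
  constructor <;> norm_num [Rb, coTb, hch]

lemma rc1 : Rw4 P.r2 (16777216 : ℝ) ⟨0, 0, 0, -(87579 / 65536 : ℝ), 0, 0, 0, 0, (379421 / 32768 : ℝ) * (45 / 512 : ℝ)⟩ := by
  refine ⟨⟨Q0, List.mem_cons_self, ?_⟩, by norm_num⟩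
  constructor <;> norm_num [Q0]

lemma rc2 : Rw4 P.r2 (134217728 : ℝ) ⟨0, 0, 0, 0, -(868797 / 65536 : ℝ), 0, 0, 0, (379421 / 32768 : ℝ) * (4233 / 4096 : ℝ)⟩ := by
  refine ⟨⟨Q1, List.mem_cons_of_mem _ (List.mem_cons_self), ?_⟩, by norm_num⟩
  constructor <;> norm_num [Q1]

lemma rc3 : Rw4 P.r2 (1536 : ℝ) ⟨0, 0, 0, 0, 0, -1, 0, 0, (57 / 512 : ℝ)⟩ := by
  refine ⟨⟨Q2, List.mem_cons_of_mem _ (List.mem_cons_of_mem _ (List.mem_cons_self)), ?_⟩, by norm_num⟩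
  constructor <;> norm_num [Q2]

lemma rcell0 : ∃ N : ℝ, Rw4 P.r2 N (coCell (87579 / 65536 : ℝ) (868797 / 65536 : ℝ) ((379421 / 32768 : ℝ) + (107 / 256 : ℝ)) (7 / 256 : ℝ) C0) := by
  refine ⟨(2415919104 : ℝ), ⟨Q3, List.mem_cons_of_mem _ (List.mem_cons_of_mem _ (List.mem_cons_of_mem _ (List.mem_cons_self))), ?_⟩, by norm_num⟩
  constructor <;> norm_num [Q3, coCell, C0]

lemma lcell0 : ∀ x1 x2 xc : ℝ, 0 ≤ x1 → x1 ≤ 1 → 0 ≤ x2 → x2 ≤ 1 → C0.l ≤ xc → xc ≤ C0.u →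
    (87579 / 65536 : ℝ) * (1 - (1 - x1) ^ 12) + (868797 / 65536 : ℝ) * (1 - (1 - x2) ^ 12) - ((379421 / 32768 : ℝ) + (107 / 256 : ℝ)) * (1 - (1 - xc) ^ 12)
      ≤ - C0.a1 * x1 - C0.a2 * x2 + C0.e * xc + C0.f := by
  have h := cell_lines 12 (α1 := (87579 / 65536 : ℝ)) (α2 := (868797 / 65536 : ℝ)) (c := (379421 / 32768 : ℝ) + (107 / 256 : ℝ)) (y1 := (529 / 131072 : ℝ)) (y2 := (645 / 131072 : ℝ))
    (A1 := (64334139 / 4194304 : ℝ)) (B1 := (46927 / 33554432 : ℝ)) (A2 := (315996959 / 2097152 : ℝ)) (B2 := (5503985 / 268435456 : ℝ)) (l := (5243 / 1048576 : ℝ)) (u := (393 / 65536 : ℝ))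
    (E := (-568296973 / 4194304 : ℝ)) (F := (-1535937 / 67108864 : ℝ)) (by norm_num) (by norm_num) (by norm_num) (by norm_num) (by norm_num)
    (by norm_num) (by norm_num) (by norm_num) (by norm_num) (by norm_num) (by norm_num) (by norm_num) (by norm_num) (by norm_num) (by norm_num)
  have e1 : C0.l = (5243 / 1048576 : ℝ) := rfl
  have e2 : C0.u = (393 / 65536 : ℝ) := rfl
  have e3 : C0.a1 = -(64334139 / 4194304 : ℝ) := by norm_num [C0]
  have e4 : C0.a2 = -(315996959 / 2097152 : ℝ) := by norm_num [C0]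
  have e5 : C0.e = (-568296973 / 4194304 : ℝ) := rfl
  have e6 : C0.f = (46927 / 33554432 : ℝ) + (5503985 / 268435456 : ℝ) + (-1535937 / 67108864 : ℝ) := by norm_num [C0]
  rw [e1, e2, e3, e4, e5, e6]
  exact h

lemma rcell1 : ∃ N : ℝ, Rw4 P.r2 N (coCell (87579 / 65536 : ℝ) (868797 / 65536 : ℝ) ((379421 / 32768 : ℝ) + (107 / 256 : ℝ)) (7 / 256 : ℝ) C1) := by
  refine ⟨(2415919104 : ℝ), ⟨Q4, List.mem_cons_of_mem _ (List.mem_cons_of_mem _ (List.mem_cons_of_mem _ (List.mem_cons_of_mem _ (List.mem_cons_self)))), ?_⟩, by norm_num⟩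
  constructor <;> norm_num [Q4, coCell, C1]

lemma lcell1 : ∀ x1 x2 xc : ℝ, 0 ≤ x1 → x1 ≤ 1 → 0 ≤ x2 → x2 ≤ 1 → C1.l ≤ xc → xc ≤ C1.u →
    (87579 / 65536 : ℝ) * (1 - (1 - x1) ^ 12) + (868797 / 65536 : ℝ) * (1 - (1 - x2) ^ 12) - ((379421 / 32768 : ℝ) + (107 / 256 : ℝ)) * (1 - (1 - xc) ^ 12)
      ≤ - C1.a1 * x1 - C1.a2 * x2 + C1.e * xc + C1.f := by
  have h := cell_lines 12 (α1 := (87579 / 65536 : ℝ)) (α2 := (868797 / 65536 : ℝ)) (c := (379421 / 32768 : ℝ) + (107 / 256 : ℝ)) (y1 := (325 / 65536 : ℝ)) (y2 := (387 / 65536 : ℝ))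
    (A1 := (15920307 / 1048576 : ℝ)) (B1 := (563321 / 268435456 : ℝ)) (A2 := (156287987 / 1048576 : ℝ)) (B2 := (1968487 / 67108864 : ℝ)) (l := (393 / 65536 : ℝ)) (u := (471 / 65536 : ℝ))
    (E := (-140365723 / 1048576 : ℝ)) (F := (-4383297 / 134217728 : ℝ)) (by norm_num) (by norm_num) (by norm_num) (by norm_num) (by norm_num)
    (by norm_num) (by norm_num) (by norm_num) (by norm_num) (by norm_num) (by norm_num) (by norm_num) (by norm_num) (by norm_num) (by norm_num)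
  have e1 : C1.l = (393 / 65536 : ℝ) := rfl
  have e2 : C1.u = (471 / 65536 : ℝ) := rfl
  have e3 : C1.a1 = -(15920307 / 1048576 : ℝ) := by norm_num [C1]
  have e4 : C1.a2 = -(156287987 / 1048576 : ℝ) := by norm_num [C1]
  have e5 : C1.e = (-140365723 / 1048576 : ℝ) := rfl
  have e6 : C1.f = (563321 / 268435456 : ℝ) + (1968487 / 67108864 : ℝ) + (-4383297 / 134217728 : ℝ) := by norm_num [C1]
  rw [e1, e2, e3, e4, e5, e6]
  exact h

lemma rcell2 : ∃ N : ℝ, Rw4 P.r2 N (coCell (87579 / 65536 : ℝ) (868797 / 65536 : ℝ) ((379421 / 32768 : ℝ) + (107 / 256 : ℝ)) (7 / 256 : ℝ) C2) := by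
  refine ⟨(1207959552 : ℝ), ⟨Q5, List.mem_cons_of_mem _ (List.mem_cons_of_mem _ (List.mem_cons_of_mem _ (List.mem_cons_of_mem _ (List.mem_cons_of_mem _ (List.mem_cons_self))))), ?_⟩, by norm_num⟩
  constructor <;> norm_num [Q5, coCell, C2]

lemma lcell2 : ∀ x1 x2 xc : ℝ, 0 ≤ x1 → x1 ≤ 1 → 0 ≤ x2 → x2 ≤ 1 → C2.l ≤ xc → xc ≤ C2.u →
    (87579 / 65536 : ℝ) * (1 - (1 - x1) ^ 12) + (868797 / 65536 : ℝ) * (1 - (1 - x2) ^ 12) - ((379421 / 32768 : ℝ) + (107 / 256 : ℝ)) * (1 - (1 - xc) ^ 12)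
      ≤ - C2.a1 * x1 - C2.a2 * x2 + C2.e * xc + C2.f := by
  have h := cell_lines 12 (α1 := (87579 / 65536 : ℝ)) (α2 := (868797 / 65536 : ℝ)) (c := (379421 / 32768 : ℝ) + (107 / 256 : ℝ)) (y1 := (1539 / 262144 : ℝ)) (y2 := (463 / 65536 : ℝ))
    (A1 := (7880291 / 524288 : ℝ)) (B1 := (392359 / 134217728 : ℝ)) (A2 := (617176549 / 4194304 : ℝ)) (B2 := (5591729 / 134217728 : ℝ)) (l := (471 / 65536 : ℝ)) (u := (2259 / 262144 : ℝ))
    (E := (-138342877 / 1048576 : ℝ)) (F := (-6244157 / 134217728 : ℝ)) (by norm_num) (by norm_num) (by norm_num) (by norm_num) (by norm_num)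
    (by norm_num) (by norm_num) (by norm_num) (by norm_num) (by norm_num) (by norm_num) (by norm_num) (by norm_num) (by norm_num) (by norm_num)
  have e1 : C2.l = (471 / 65536 : ℝ) := rfl
  have e2 : C2.u = (2259 / 262144 : ℝ) := rfl
  have e3 : C2.a1 = -(7880291 / 524288 : ℝ) := by norm_num [C2]
  have e4 : C2.a2 = -(617176549 / 4194304 : ℝ) := by norm_num [C2]
  have e5 : C2.e = (-138342877 / 1048576 : ℝ) := rfl
  have e6 : C2.f = (392359 / 134217728 : ℝ) + (5591729 / 134217728 : ℝ) + (-6244157 / 134217728 : ℝ) := by norm_num [C2]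
  rw [e1, e2, e3, e4, e5, e6]
  exact h

lemma rcell3 : ∃ N : ℝ, Rw4 P.r2 N (coCell (87579 / 65536 : ℝ) (868797 / 65536 : ℝ) ((379421 / 32768 : ℝ) + (107 / 256 : ℝ)) (7 / 256 : ℝ) C3) := by
  refine ⟨(2415919104 : ℝ), ⟨Q6, List.mem_cons_of_mem _ (List.mem_cons_of_mem _ (List.mem_cons_of_mem _ (List.mem_cons_of_mem _ (List.mem_cons_of_mem _ (List.mem_cons_of_mem _ (List.mem_cons_self)))))), ?_⟩, by norm_num⟩
  constructor <;> norm_num [Q6, coCell, C3]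

lemma lcell3 : ∀ x1 x2 xc : ℝ, 0 ≤ x1 → x1 ≤ 1 → 0 ≤ x2 → x2 ≤ 1 → C3.l ≤ xc → xc ≤ C3.u →
    (87579 / 65536 : ℝ) * (1 - (1 - x1) ^ 12) + (868797 / 65536 : ℝ) * (1 - (1 - x2) ^ 12) - ((379421 / 32768 : ℝ) + (107 / 256 : ℝ)) * (1 - (1 - xc) ^ 12)
      ≤ - C3.a1 * x1 - C3.a2 * x2 + C3.e * xc + C3.f := by
  have h := cell_lines 12 (α1 := (87579 / 65536 : ℝ)) (α2 := (868797 / 65536 : ℝ)) (c := (379421 / 32768 : ℝ) + (107 / 256 : ℝ)) (y1 := (1861 / 262144 : ℝ)) (y2 := (2223 / 262144 : ℝ))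
    (A1 := (62190765 / 4194304 : ℝ)) (B1 := (1138095 / 268435456 : ℝ)) (A2 := (37973049 / 262144 : ℝ)) (B2 := (7980845 / 134217728 : ℝ)) (l := (2259 / 262144 : ℝ)) (u := (2709 / 262144 : ℝ))
    (E := (-271897655 / 2097152 : ℝ)) (F := (-8884859 / 134217728 : ℝ)) (by norm_num) (by norm_num) (by norm_num) (by norm_num) (by norm_num)
    (by norm_num) (by norm_num) (by norm_num) (by norm_num) (by norm_num) (by norm_num) (by norm_num) (by norm_num) (by norm_num) (by norm_num)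
  have e1 : C3.l = (2259 / 262144 : ℝ) := rfl
  have e2 : C3.u = (2709 / 262144 : ℝ) := rfl
  have e3 : C3.a1 = -(62190765 / 4194304 : ℝ) := by norm_num [C3]
  have e4 : C3.a2 = -(37973049 / 262144 : ℝ) := by norm_num [C3]
  have e5 : C3.e = (-271897655 / 2097152 : ℝ) := rfl
  have e6 : C3.f = (1138095 / 268435456 : ℝ) + (7980845 / 134217728 : ℝ) + (-8884859 / 134217728 : ℝ) := by norm_num [C3]
  rw [e1, e2, e3, e4, e5, e6]
  exact h

lemma rcell4 : ∃ N : ℝ, Rw4 P.r2 N (coCell (87579 / 65536 : ℝ) (868797 / 65536 : ℝ) ((379421 / 32768 : ℝ) + (107 / 256 : ℝ)) (7 / 256 : ℝ) C4) := by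
  refine ⟨(2415919104 : ℝ), ⟨Q7, List.mem_cons_of_mem _ (List.mem_cons_of_mem _ (List.mem_cons_of_mem _ (List.mem_cons_of_mem _ (List.mem_cons_of_mem _ (List.mem_cons_of_mem _ (List.mem_cons_of_mem _ (List.mem_cons_self))))))), ?_⟩, by norm_num⟩
  constructor <;> norm_num [Q7, coCell, C4]

lemma lcell4 : ∀ x1 x2 xc : ℝ, 0 ≤ x1 → x1 ≤ 1 → 0 ≤ x2 → x2 ≤ 1 → C4.l ≤ xc → xc ≤ C4.u →
    (87579 / 65536 : ℝ) * (1 - (1 - x1) ^ 12) + (868797 / 65536 : ℝ) * (1 - (1 - x2) ^ 12) - ((379421 / 32768 : ℝ) + (107 / 256 : ℝ)) * (1 - (1 - xc) ^ 12)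
      ≤ - C4.a1 * x1 - C4.a2 * x2 + C4.e * xc + C4.f := by
  have h := cell_lines 12 (α1 := (87579 / 65536 : ℝ)) (α2 := (868797 / 65536 : ℝ)) (c := (379421 / 32768 : ℝ) + (107 / 256 : ℝ)) (y1 := (2195 / 262144 : ℝ)) (y2 := (2659 / 262144 : ℝ))
    (A1 := (479051 / 32768 : ℝ)) (B1 := (784935 / 134217728 : ℝ)) (A2 := (596451625 / 4194304 : ℝ)) (B2 := (22585269 / 268435456 : ℝ)) (l := (2709 / 262144 : ℝ)) (u := (203 / 16384 : ℝ))
    (E := (-266257335 / 2097152 : ℝ)) (F := (-12615237 / 134217728 : ℝ)) (by norm_num) (by norm_num) (by norm_num) (by norm_num) (by norm_num)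
    (by norm_num) (by norm_num) (by norm_num) (by norm_num) (by norm_num) (by norm_num) (by norm_num) (by norm_num) (by norm_num) (by norm_num)
  have e1 : C4.l = (2709 / 262144 : ℝ) := rfl
  have e2 : C4.u = (203 / 16384 : ℝ) := rfl
  have e3 : C4.a1 = -(479051 / 32768 : ℝ) := by norm_num [C4]
  have e4 : C4.a2 = -(596451625 / 4194304 : ℝ) := by norm_num [C4]
  have e5 : C4.e = (-266257335 / 2097152 : ℝ) := rfl
  have e6 : C4.f = (784935 / 134217728 : ℝ) + (22585269 / 268435456 : ℝ) + (-12615237 / 134217728 : ℝ) := by norm_num [C4]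
  rw [e1, e2, e3, e4, e5, e6]
  exact h

lemma rcell5 : ∃ N : ℝ, Rw4 P.r2 N (coCell (87579 / 65536 : ℝ) (868797 / 65536 : ℝ) ((379421 / 32768 : ℝ) + (107 / 256 : ℝ)) (7 / 256 : ℝ) C5) := by
  refine ⟨(2415919104 : ℝ), ⟨Q8, List.mem_cons_of_mem _ (List.mem_cons_of_mem _ (List.mem_cons_of_mem _ (List.mem_cons_of_mem _ (List.mem_cons_of_mem _ (List.mem_cons_of_mem _ (List.mem_cons_of_mem _ (List.mem_cons_of_mem _ (List.mem_cons_self)))))))), ?_⟩, by norm_num⟩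
  constructor <;> norm_num [Q8, coCell, C5]

lemma lcell5 : ∀ x1 x2 xc : ℝ, 0 ≤ x1 → x1 ≤ 1 → 0 ≤ x2 → x2 ≤ 1 → C5.l ≤ xc → xc ≤ C5.u →
    (87579 / 65536 : ℝ) * (1 - (1 - x1) ^ 12) + (868797 / 65536 : ℝ) * (1 - (1 - x2) ^ 12) - ((379421 / 32768 : ℝ) + (107 / 256 : ℝ)) * (1 - (1 - xc) ^ 12)
      ≤ - C5.a1 * x1 - C5.a2 * x2 + C5.e * xc + C5.f := by
  have h := cell_lines 12 (α1 := (87579 / 65536 : ℝ)) (α2 := (868797 / 65536 : ℝ)) (c := (379421 / 32768 : ℝ) + (107 / 256 : ℝ)) (y1 := (1333 / 131072 : ℝ)) (y2 := (797 / 65536 : ℝ))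
    (A1 := (60107411 / 4194304 : ℝ)) (B1 := (1144151 / 134217728 : ℝ)) (A2 := (583211595 / 4194304 : ℝ)) (B2 := (32032365 / 268435456 : ℝ)) (l := (203 / 16384 : ℝ)) (u := (1947 / 131072 : ℝ))
    (E := (-519279573 / 4194304 : ℝ)) (F := (-8931373 / 67108864 : ℝ)) (by norm_num) (by norm_num) (by norm_num) (by norm_num) (by norm_num)
    (by norm_num) (by norm_num) (by norm_num) (by norm_num) (by norm_num) (by norm_num) (by norm_num) (by norm_num) (by norm_num) (by norm_num)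
  have e1 : C5.l = (203 / 16384 : ℝ) := rfl
  have e2 : C5.u = (1947 / 131072 : ℝ) := rfl
  have e3 : C5.a1 = -(60107411 / 4194304 : ℝ) := by norm_num [C5]
  have e4 : C5.a2 = -(583211595 / 4194304 : ℝ) := by norm_num [C5]
  have e5 : C5.e = (-519279573 / 4194304 : ℝ) := rfl
  have e6 : C5.f = (1144151 / 134217728 : ℝ) + (32032365 / 268435456 : ℝ) + (-8931373 / 67108864 : ℝ) := by norm_num [C5]
  rw [e1, e2, e3, e4, e5, e6]
  exact h

lemma rcell6 : ∃ N : ℝ, Rw4 P.r2 N (coCell (87579 / 65536 : ℝ) (868797 / 65536 : ℝ) ((379421 / 32768 : ℝ) + (107 / 256 : ℝ)) (7 / 256 : ℝ) C6) := by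
  refine ⟨(2415919104 : ℝ), ⟨Q9, List.mem_cons_of_mem _ (List.mem_cons_of_mem _ (List.mem_cons_of_mem _ (List.mem_cons_of_mem _ (List.mem_cons_of_mem _ (List.mem_cons_of_mem _ (List.mem_cons_of_mem _ (List.mem_cons_of_mem _ (List.mem_cons_of_mem _ (List.mem_cons_self))))))))), ?_⟩, by norm_num⟩
  constructor <;> norm_num [Q9, coCell, C6]

lemma lcell6 : ∀ x1 x2 xc : ℝ, 0 ≤ x1 → x1 ≤ 1 → 0 ≤ x2 → x2 ≤ 1 → C6.l ≤ xc → xc ≤ C6.u →
    (87579 / 65536 : ℝ) * (1 - (1 - x1) ^ 12) + (868797 / 65536 : ℝ) * (1 - (1 - x2) ^ 12) - ((379421 / 32768 : ℝ) + (107 / 256 : ℝ)) * (1 - (1 - xc) ^ 12)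
      ≤ - C6.a1 * x1 - C6.a2 * x2 + C6.e * xc + C6.f := by
  have h := cell_lines 12 (α1 := (87579 / 65536 : ℝ)) (α2 := (868797 / 65536 : ℝ)) (c := (379421 / 32768 : ℝ) + (107 / 256 : ℝ)) (y1 := (1625 / 131072 : ℝ)) (y2 := (3801 / 262144 : ℝ))
    (A1 := (58635941 / 4194304 : ℝ)) (B1 := (3350577 / 268435456 : ℝ)) (A2 := (568203723 / 4194304 : ℝ)) (B2 := (22415941 / 134217728 : ℝ)) (l := (1947 / 131072 : ℝ)) (u := (4669 / 262144 : ℝ))
    (E := (-503804401 / 4194304 : ℝ)) (F := (-12609371 / 67108864 : ℝ)) (by norm_num) (by norm_num) (by norm_num) (by norm_num) (by norm_num)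
    (by norm_num) (by norm_num) (by norm_num) (by norm_num) (by norm_num) (by norm_num) (by norm_num) (by norm_num) (by norm_num) (by norm_num)
  have e1 : C6.l = (1947 / 131072 : ℝ) := rfl
  have e2 : C6.u = (4669 / 262144 : ℝ) := rfl
  have e3 : C6.a1 = -(58635941 / 4194304 : ℝ) := by norm_num [C6]
  have e4 : C6.a2 = -(568203723 / 4194304 : ℝ) := by norm_num [C6]
  have e5 : C6.e = (-503804401 / 4194304 : ℝ) := rfl
  have e6 : C6.f = (3350577 / 268435456 : ℝ) + (22415941 / 134217728 : ℝ) + (-12609371 / 67108864 : ℝ) := by norm_num [C6]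
  rw [e1, e2, e3, e4, e5, e6]
  exact h

lemma rcell7 : ∃ N : ℝ, Rw4 P.r2 N (coCell (87579 / 65536 : ℝ) (868797 / 65536 : ℝ) ((379421 / 32768 : ℝ) + (107 / 256 : ℝ)) (7 / 256 : ℝ) C7) := by
  refine ⟨(1207959552 : ℝ), ⟨Q10, List.mem_cons_of_mem _ (List.mem_cons_of_mem _ (List.mem_cons_of_mem _ (List.mem_cons_of_mem _ (List.mem_cons_of_mem _ (List.mem_cons_of_mem _ (List.mem_cons_of_mem _ (List.mem_cons_of_mem _ (List.mem_cons_of_mem _ (List.mem_cons_of_mem _ (List.mem_cons_self)))))))))), ?_⟩, by norm_num⟩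
  constructor <;> norm_num [Q10, coCell, C7]

lemma lcell7 : ∀ x1 x2 xc : ℝ, 0 ≤ x1 → x1 ≤ 1 → 0 ≤ x2 → x2 ≤ 1 → C7.l ≤ xc → xc ≤ C7.u →
    (87579 / 65536 : ℝ) * (1 - (1 - x1) ^ 12) + (868797 / 65536 : ℝ) * (1 - (1 - x2) ^ 12) - ((379421 / 32768 : ℝ) + (107 / 256 : ℝ)) * (1 - (1 - xc) ^ 12)
      ≤ - C7.a1 * x1 - C7.a2 * x2 + C7.e * xc + C7.f := by
  have h := cell_lines 12 (α1 := (87579 / 65536 : ℝ)) (α2 := (868797 / 65536 : ℝ)) (c := (379421 / 32768 : ℝ) + (107 / 256 : ℝ)) (y1 := (935 / 65536 : ℝ)) (y2 := (2289 / 131072 : ℝ))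
    (A1 := (57426667 / 4194304 : ℝ)) (B1 := (4382189 / 268435456 : ℝ)) (A2 := (17177671 / 131072 : ℝ)) (B2 := (63764035 / 268435456 : ℝ)) (l := (4669 / 262144 : ℝ)) (u := (2799 / 131072 : ℝ))
    (E := (-121450539 / 1048576 : ℝ)) (F := (-35479055 / 134217728 : ℝ)) (by norm_num) (by norm_num) (by norm_num) (by norm_num) (by norm_num)
    (by norm_num) (by norm_num) (by norm_num) (by norm_num) (by norm_num) (by norm_num) (by norm_num) (by norm_num) (by norm_num) (by norm_num)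
  have e1 : C7.l = (4669 / 262144 : ℝ) := rfl
  have e2 : C7.u = (2799 / 131072 : ℝ) := rfl
  have e3 : C7.a1 = -(57426667 / 4194304 : ℝ) := by norm_num [C7]
  have e4 : C7.a2 = -(17177671 / 131072 : ℝ) := by norm_num [C7]
  have e5 : C7.e = (-121450539 / 1048576 : ℝ) := rfl
  have e6 : C7.f = (4382189 / 268435456 : ℝ) + (63764035 / 268435456 : ℝ) + (-35479055 / 134217728 : ℝ) := by norm_num [C7]
  rw [e1, e2, e3, e4, e5, e6]
  exact h

lemma rcell8 : ∃ N : ℝ, Rw4 P.r2 N (coCell (87579 / 65536 : ℝ) (868797 / 65536 : ℝ) ((379421 / 32768 : ℝ) + (107 / 256 : ℝ)) (7 / 256 : ℝ) C8) := by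
  refine ⟨(1207959552 : ℝ), ⟨Q11, List.mem_cons_of_mem _ (List.mem_cons_of_mem _ (List.mem_cons_of_mem _ (List.mem_cons_of_mem _ (List.mem_cons_of_mem _ (List.mem_cons_of_mem _ (List.mem_cons_of_mem _ (List.mem_cons_of_mem _ (List.mem_cons_of_mem _ (List.mem_cons_of_mem _ (List.mem_cons_of_mem _ (List.mem_cons_self))))))))))), ?_⟩, by norm_num⟩
  constructor <;> norm_num [Q11, coCell, C8]

lemma lcell8 : ∀ x1 x2 xc : ℝ, 0 ≤ x1 → x1 ≤ 1 → 0 ≤ x2 → x2 ≤ 1 → C8.l ≤ xc → xc ≤ C8.u →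
    (87579 / 65536 : ℝ) * (1 - (1 - x1) ^ 12) + (868797 / 65536 : ℝ) * (1 - (1 - x2) ^ 12) - ((379421 / 32768 : ℝ) + (107 / 256 : ℝ)) * (1 - (1 - xc) ^ 12)
      ≤ - C8.a1 * x1 - C8.a2 * x2 + C8.e * xc + C8.f := by
  have h := cell_lines 12 (α1 := (87579 / 65536 : ℝ)) (α2 := (868797 / 65536 : ℝ)) (c := (379421 / 32768 : ℝ) + (107 / 256 : ℝ)) (y1 := (4505 / 262144 : ℝ)) (y2 := (2727 / 131072 : ℝ))
    (A1 := (55583989 / 4194304 : ℝ)) (B1 := (3117969 / 134217728 : ℝ)) (A2 := (529466931 / 4194304 : ℝ)) (B2 := (22127901 / 67108864 : ℝ)) (l := (2799 / 131072 : ℝ)) (u := (839 / 32768 : ℝ))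
    (E := (-464992487 / 4194304 : ℝ)) (F := (-24849667 / 67108864 : ℝ)) (by norm_num) (by norm_num) (by norm_num) (by norm_num) (by norm_num)
    (by norm_num) (by norm_num) (by norm_num) (by norm_num) (by norm_num) (by norm_num) (by norm_num) (by norm_num) (by norm_num) (by norm_num)
  have e1 : C8.l = (2799 / 131072 : ℝ) := rfl
  have e2 : C8.u = (839 / 32768 : ℝ) := rfl
  have e3 : C8.a1 = -(55583989 / 4194304 : ℝ) := by norm_num [C8]
  have e4 : C8.a2 = -(529466931 / 4194304 : ℝ) := by norm_num [C8]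
  have e5 : C8.e = (-464992487 / 4194304 : ℝ) := rfl
  have e6 : C8.f = (3117969 / 134217728 : ℝ) + (22127901 / 67108864 : ℝ) + (-24849667 / 67108864 : ℝ) := by norm_num [C8]
  rw [e1, e2, e3, e4, e5, e6]
  exact h

lemma rcell9 : ∃ N : ℝ, Rw4 P.r2 N (coCell (87579 / 65536 : ℝ) (868797 / 65536 : ℝ) ((379421 / 32768 : ℝ) + (107 / 256 : ℝ)) (7 / 256 : ℝ) C9) := by
  refine ⟨(603979776 : ℝ), ⟨Q12, List.mem_cons_of_mem _ (List.mem_cons_of_mem _ (List.mem_cons_of_mem _ (List.mem_cons_of_mem _ (List.mem_cons_of_mem _ (List.mem_cons_of_mem _ (List.mem_cons_of_mem _ (List.mem_cons_of_mem _ (List.mem_cons_of_mem _ (List.mem_cons_of_mem _ (List.mem_cons_of_mem _ (List.mem_cons_of_mem _ (List.mem_cons_self)))))))))))), ?_⟩, by norm_num⟩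
  constructor <;> norm_num [Q12, coCell, C9]

lemma lcell9 : ∀ x1 x2 xc : ℝ, 0 ≤ x1 → x1 ≤ 1 → 0 ≤ x2 → x2 ≤ 1 → C9.l ≤ xc → xc ≤ C9.u →
    (87579 / 65536 : ℝ) * (1 - (1 - x1) ^ 12) + (868797 / 65536 : ℝ) * (1 - (1 - x2) ^ 12) - ((379421 / 32768 : ℝ) + (107 / 256 : ℝ)) * (1 - (1 - xc) ^ 12)
      ≤ - C9.a1 * x1 - C9.a2 * x2 + C9.e * xc + C9.f := by
  have h := cell_lines 12 (α1 := (87579 / 65536 : ℝ)) (α2 := (868797 / 65536 : ℝ)) (c := (379421 / 32768 : ℝ) + (107 / 256 : ℝ)) (y1 := (2693 / 131072 : ℝ)) (y2 := (1635 / 65536 : ℝ))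
    (A1 := (6691075 / 524288 : ℝ)) (B1 := (8716333 / 268435456 : ℝ)) (A2 := (252670477 / 2097152 : ℝ)) (B2 := (61906053 / 134217728 : ℝ)) (l := (839 / 32768 : ℝ)) (u := (8047 / 262144 : ℝ))
    (E := (-110279957 / 1048576 : ℝ)) (F := (-138518123 / 268435456 : ℝ)) (by norm_num) (by norm_num) (by norm_num) (by norm_num) (by norm_num)
    (by norm_num) (by norm_num) (by norm_num) (by norm_num) (by norm_num) (by norm_num) (by norm_num) (by norm_num) (by norm_num) (by norm_num)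
  have e1 : C9.l = (839 / 32768 : ℝ) := rfl
  have e2 : C9.u = (8047 / 262144 : ℝ) := rfl
  have e3 : C9.a1 = -(6691075 / 524288 : ℝ) := by norm_num [C9]
  have e4 : C9.a2 = -(252670477 / 2097152 : ℝ) := by norm_num [C9]
  have e5 : C9.e = (-110279957 / 1048576 : ℝ) := rfl
  have e6 : C9.f = (8716333 / 268435456 : ℝ) + (61906053 / 134217728 : ℝ) + (-138518123 / 268435456 : ℝ) := by norm_num [C9]
  rw [e1, e2, e3, e4, e5, e6]
  exact h

lemma rcell10 : ∃ N : ℝ, Rw4 P.r2 N (coCell (87579 / 65536 : ℝ) (868797 / 65536 : ℝ) ((379421 / 32768 : ℝ) + (107 / 256 : ℝ)) (7 / 256 : ℝ) C10) := by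
  refine ⟨(603979776 : ℝ), ⟨Q13, List.mem_cons_of_mem _ (List.mem_cons_of_mem _ (List.mem_cons_of_mem _ (List.mem_cons_of_mem _ (List.mem_cons_of_mem _ (List.mem_cons_of_mem _ (List.mem_cons_of_mem _ (List.mem_cons_of_mem _ (List.mem_cons_of_mem _ (List.mem_cons_of_mem _ (List.mem_cons_of_mem _ (List.mem_cons_of_mem _ (List.mem_cons_of_mem _ (List.mem_cons_self))))))))))))), ?_⟩, by norm_num⟩
  constructor <;> norm_num [Q13, coCell, C10]

lemma lcell10 : ∀ x1 x2 xc : ℝ, 0 ≤ x1 → x1 ≤ 1 → 0 ≤ x2 → x2 ≤ 1 → C10.l ≤ xc → xc ≤ C10.u →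
    (87579 / 65536 : ℝ) * (1 - (1 - x1) ^ 12) + (868797 / 65536 : ℝ) * (1 - (1 - x2) ^ 12) - ((379421 / 32768 : ℝ) + (107 / 256 : ℝ)) * (1 - (1 - xc) ^ 12)
      ≤ - C10.a1 * x1 - C10.a2 * x2 + C10.e * xc + C10.f := by
  have h := cell_lines 12 (α1 := (87579 / 65536 : ℝ)) (α2 := (868797 / 65536 : ℝ)) (c := (379421 / 32768 : ℝ) + (107 / 256 : ℝ)) (y1 := (3221 / 131072 : ℝ)) (y2 := (977 / 32768 : ℝ))
    (A1 := (51156101 / 4194304 : ℝ)) (B1 := (1517469 / 33554432 : ℝ)) (A2 := (239136755 / 2097152 : ℝ)) (B2 := (171211055 / 268435456 : ℝ)) (l := (8047 / 262144 : ℝ)) (u := (9649 / 262144 : ℝ))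
    (E := (-103491617 / 1048576 : ℝ)) (F := (-191863603 / 268435456 : ℝ)) (by norm_num) (by norm_num) (by norm_num) (by norm_num) (by norm_num)
    (by norm_num) (by norm_num) (by norm_num) (by norm_num) (by norm_num) (by norm_num) (by norm_num) (by norm_num) (by norm_num) (by norm_num)
  have e1 : C10.l = (8047 / 262144 : ℝ) := rfl
  have e2 : C10.u = (9649 / 262144 : ℝ) := rfl
  have e3 : C10.a1 = -(51156101 / 4194304 : ℝ) := by norm_num [C10]
  have e4 : C10.a2 = -(239136755 / 2097152 : ℝ) := by norm_num [C10]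
  have e5 : C10.e = (-103491617 / 1048576 : ℝ) := rfl
  have e6 : C10.f = (1517469 / 33554432 : ℝ) + (171211055 / 268435456 : ℝ) + (-191863603 / 268435456 : ℝ) := by norm_num [C10]
  rw [e1, e2, e3, e4, e5, e6]
  exact h

lemma rcell11 : ∃ N : ℝ, Rw4 P.r2 N (coCell (87579 / 65536 : ℝ) (868797 / 65536 : ℝ) ((379421 / 32768 : ℝ) + (107 / 256 : ℝ)) (7 / 256 : ℝ) C11) := by
  refine ⟨(2415919104 : ℝ), ⟨Q14, List.mem_cons_of_mem _ (List.mem_cons_of_mem _ (List.mem_cons_of_mem _ (List.mem_cons_of_mem _ (List.mem_cons_of_mem _ (List.mem_cons_of_mem _ (List.mem_cons_of_mem _ (List.mem_cons_of_mem _ (List.mem_cons_of_mem _ (List.mem_cons_of_mem _ (List.mem_cons_of_mem _ (List.mem_cons_of_mem _ (List.mem_cons_of_mem _ (List.mem_cons_of_mem _ (List.mem_cons_self)))))))))))))), ?_⟩, by norm_num⟩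
  constructor <;> norm_num [Q14, coCell, C11]

lemma lcell11 : ∀ x1 x2 xc : ℝ, 0 ≤ x1 → x1 ≤ 1 → 0 ≤ x2 → x2 ≤ 1 → C11.l ≤ xc → xc ≤ C11.u →
    (87579 / 65536 : ℝ) * (1 - (1 - x1) ^ 12) + (868797 / 65536 : ℝ) * (1 - (1 - x2) ^ 12) - ((379421 / 32768 : ℝ) + (107 / 256 : ℝ)) * (1 - (1 - xc) ^ 12)
      ≤ - C11.a1 * x1 - C11.a2 * x2 + C11.e * xc + C11.f := by
  have h := cell_lines 12 (α1 := (87579 / 65536 : ℝ)) (α2 := (868797 / 65536 : ℝ)) (c := (379421 / 32768 : ℝ) + (107 / 256 : ℝ)) (y1 := (7529 / 262144 : ℝ)) (y2 := (291 / 8192 : ℝ))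
    (A1 := (48814169 / 4194304 : ℝ)) (B1 := (16131581 / 268435456 : ℝ)) (A2 := (448221653 / 4194304 : ℝ)) (B2 := (7312191 / 8388608 : ℝ)) (l := (9649 / 262144 : ℝ)) (u := (11569 / 262144 : ℝ))
    (E := (-383418027 / 4194304 : ℝ)) (F := (-16489185 / 16777216 : ℝ)) (by norm_num) (by norm_num) (by norm_num) (by norm_num) (by norm_num)
    (by norm_num) (by norm_num) (by norm_num) (by norm_num) (by norm_num) (by norm_num) (by norm_num) (by norm_num) (by norm_num) (by norm_num)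
  have e1 : C11.l = (9649 / 262144 : ℝ) := rfl
  have e2 : C11.u = (11569 / 262144 : ℝ) := rfl
  have e3 : C11.a1 = -(48814169 / 4194304 : ℝ) := by norm_num [C11]
  have e4 : C11.a2 = -(448221653 / 4194304 : ℝ) := by norm_num [C11]
  have e5 : C11.e = (-383418027 / 4194304 : ℝ) := rfl
  have e6 : C11.f = (16131581 / 268435456 : ℝ) + (7312191 / 8388608 : ℝ) + (-16489185 / 16777216 : ℝ) := by norm_num [C11]
  rw [e1, e2, e3, e4, e5, e6]
  exact h

lemma rcell12 : ∃ N : ℝ, Rw4 P.r2 N (coCell (87579 / 65536 : ℝ) (868797 / 65536 : ℝ) ((379421 / 32768 : ℝ) + (107 / 256 : ℝ)) (7 / 256 : ℝ) C12) := by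
  refine ⟨(1207959552 : ℝ), ⟨Q15, List.mem_cons_of_mem _ (List.mem_cons_of_mem _ (List.mem_cons_of_mem _ (List.mem_cons_of_mem _ (List.mem_cons_of_mem _ (List.mem_cons_of_mem _ (List.mem_cons_of_mem _ (List.mem_cons_of_mem _ (List.mem_cons_of_mem _ (List.mem_cons_of_mem _ (List.mem_cons_of_mem _ (List.mem_cons_of_mem _ (List.mem_cons_of_mem _ (List.mem_cons_of_mem _ (List.mem_cons_of_mem _ (List.mem_cons_self))))))))))))))), ?_⟩, by norm_num⟩
  constructor <;> norm_num [Q15, coCell, C12]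

lemma lcell12 : ∀ x1 x2 xc : ℝ, 0 ≤ x1 → x1 ≤ 1 → 0 ≤ x2 → x2 ≤ 1 → C12.l ≤ xc → xc ≤ C12.u →
    (87579 / 65536 : ℝ) * (1 - (1 - x1) ^ 12) + (868797 / 65536 : ℝ) * (1 - (1 - x2) ^ 12) - ((379421 / 32768 : ℝ) + (107 / 256 : ℝ)) * (1 - (1 - xc) ^ 12)
      ≤ - C12.a1 * x1 - C12.a2 * x2 + C12.e * xc + C12.f := by
  have h := cell_lines 12 (α1 := (87579 / 65536 : ℝ)) (α2 := (868797 / 65536 : ℝ)) (c := (379421 / 32768 : ℝ) + (107 / 256 : ℝ)) (y1 := (4615 / 131072 : ℝ)) (y2 := (11117 / 262144 : ℝ))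
    (A1 := (45344397 / 4194304 : ℝ)) (B1 := (2902741 / 33554432 : ℝ)) (A2 := (207126273 / 2097152 : ℝ)) (B2 := (159306017 / 134217728 : ℝ)) (l := (11569 / 262144 : ℝ)) (u := (13871 / 262144 : ℝ))
    (E := (-174756795 / 2097152 : ℝ)) (F := (-22474299 / 16777216 : ℝ)) (by norm_num) (by norm_num) (by norm_num) (by norm_num) (by norm_num)
    (by norm_num) (by norm_num) (by norm_num) (by norm_num) (by norm_num) (by norm_num) (by norm_num) (by norm_num) (by norm_num) (by norm_num)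
  have e1 : C12.l = (11569 / 262144 : ℝ) := rfl
  have e2 : C12.u = (13871 / 262144 : ℝ) := rfl
  have e3 : C12.a1 = -(45344397 / 4194304 : ℝ) := by norm_num [C12]
  have e4 : C12.a2 = -(207126273 / 2097152 : ℝ) := by norm_num [C12]
  have e5 : C12.e = (-174756795 / 2097152 : ℝ) := rfl
  have e6 : C12.f = (2902741 / 33554432 : ℝ) + (159306017 / 134217728 : ℝ) + (-22474299 / 16777216 : ℝ) := by norm_num [C12]
  rw [e1, e2, e3, e4, e5, e6]
  exact h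

lemma rcell13 : ∃ N : ℝ, Rw4 P.r2 N (coCell (87579 / 65536 : ℝ) (868797 / 65536 : ℝ) ((379421 / 32768 : ℝ) + (107 / 256 : ℝ)) (7 / 256 : ℝ) C13) := by
  refine ⟨(2415919104 : ℝ), ⟨Q16, List.mem_cons_of_mem _ (List.mem_cons_of_mem _ (List.mem_cons_of_mem _ (List.mem_cons_of_mem _ (List.mem_cons_of_mem _ (List.mem_cons_of_mem _ (List.mem_cons_of_mem _ (List.mem_cons_of_mem _ (List.mem_cons_of_mem _ (List.mem_cons_of_mem _ (List.mem_cons_of_mem _ (List.mem_cons_of_mem _ (List.mem_cons_of_mem _ (List.mem_cons_of_mem _ (List.mem_cons_of_mem _ (List.mem_cons_of_mem _ (List.mem_cons_self)))))))))))))))), ?_⟩, by norm_num⟩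
  constructor <;> norm_num [Q16, coCell, C13]

lemma lcell13 : ∀ x1 x2 xc : ℝ, 0 ≤ x1 → x1 ≤ 1 → 0 ≤ x2 → x2 ≤ 1 → C13.l ≤ xc → xc ≤ C13.u →
    (87579 / 65536 : ℝ) * (1 - (1 - x1) ^ 12) + (868797 / 65536 : ℝ) * (1 - (1 - x2) ^ 12) - ((379421 / 32768 : ℝ) + (107 / 256 : ℝ)) * (1 - (1 - xc) ^ 12)
      ≤ - C13.a1 * x1 - C13.a2 * x2 + C13.e * xc + C13.f := by
  have h := cell_lines 12 (α1 := (87579 / 65536 : ℝ)) (α2 := (868797 / 65536 : ℝ)) (c := (379421 / 32768 : ℝ) + (107 / 256 : ℝ)) (y1 := (5337 / 131072 : ℝ)) (y2 := (6529 / 131072 : ℝ))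
    (A1 := (21288255 / 2097152 : ℝ)) (B1 := (3742795 / 33554432 : ℝ)) (A2 := (380349539 / 4194304 : ℝ)) (B2 := (104639401 / 67108864 : ℝ)) (l := (13871 / 262144 : ℝ)) (u := (16631 / 262144 : ℝ))
    (E := (-312477789 / 4194304 : ℝ)) (F := (-485009583 / 268435456 : ℝ)) (by norm_num) (by norm_num) (by norm_num) (by norm_num) (by norm_num)
    (by norm_num) (by norm_num) (by norm_num) (by norm_num) (by norm_num) (by norm_num) (by norm_num) (by norm_num) (by norm_num) (by norm_num)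
  have e1 : C13.l = (13871 / 262144 : ℝ) := rfl
  have e2 : C13.u = (16631 / 262144 : ℝ) := rfl
  have e3 : C13.a1 = -(21288255 / 2097152 : ℝ) := by norm_num [C13]
  have e4 : C13.a2 = -(380349539 / 4194304 : ℝ) := by norm_num [C13]
  have e5 : C13.e = (-312477789 / 4194304 : ℝ) := rfl
  have e6 : C13.f = (3742795 / 33554432 : ℝ) + (104639401 / 67108864 : ℝ) + (-485009583 / 268435456 : ℝ) := by norm_num [C13]
  rw [e1, e2, e3, e4, e5, e6]
  exact h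

lemma rcell14 : ∃ N : ℝ, Rw4 P.r2 N (coCell (87579 / 65536 : ℝ) (868797 / 65536 : ℝ) ((379421 / 32768 : ℝ) + (107 / 256 : ℝ)) (7 / 256 : ℝ) C14) := by
  refine ⟨(2415919104 : ℝ), ⟨Q17, List.mem_cons_of_mem _ (List.mem_cons_of_mem _ (List.mem_cons_of_mem _ (List.mem_cons_of_mem _ (List.mem_cons_of_mem _ (List.mem_cons_of_mem _ (List.mem_cons_of_mem _ (List.mem_cons_of_mem _ (List.mem_cons_of_mem _ (List.mem_cons_of_mem _ (List.mem_cons_of_mem _ (List.mem_cons_of_mem _ (List.mem_cons_of_mem _ (List.mem_cons_of_mem _ (List.mem_cons_of_mem _ (List.mem_cons_of_mem _ (List.mem_cons_of_mem _ (List.mem_cons_self))))))))))))))))), ?_⟩, by norm_num⟩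
  constructor <;> norm_num [Q17, coCell, C14]

lemma lcell14 : ∀ x1 x2 xc : ℝ, 0 ≤ x1 → x1 ≤ 1 → 0 ≤ x2 → x2 ≤ 1 → C14.l ≤ xc → xc ≤ C14.u →
    (87579 / 65536 : ℝ) * (1 - (1 - x1) ^ 12) + (868797 / 65536 : ℝ) * (1 - (1 - x2) ^ 12) - ((379421 / 32768 : ℝ) + (107 / 256 : ℝ)) * (1 - (1 - xc) ^ 12)
      ≤ - C14.a1 * x1 - C14.a2 * x2 + C14.e * xc + C14.f := by
  have h := cell_lines 12 (α1 := (87579 / 65536 : ℝ)) (α2 := (868797 / 65536 : ℝ)) (c := (379421 / 32768 : ℝ) + (107 / 256 : ℝ)) (y1 := (1587 / 32768 : ℝ)) (y2 := (15379 / 262144 : ℝ))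
    (A1 := (38958511 / 4194304 : ℝ)) (B1 := (40251707 / 268435456 : ℝ)) (A2 := (343130693 / 4194304 : ℝ)) (B2 := (547591365 / 268435456 : ℝ)) (l := (16631 / 262144 : ℝ)) (u := (4985 / 65536 : ℝ))
    (E := (-272808057 / 4194304 : ℝ)) (F := (-646080705 / 268435456 : ℝ)) (by norm_num) (by norm_num) (by norm_num) (by norm_num) (by norm_num)
    (by norm_num) (by norm_num) (by norm_num) (by norm_num) (by norm_num) (by norm_num) (by norm_num) (by norm_num) (by norm_num) (by norm_num)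
  have e1 : C14.l = (16631 / 262144 : ℝ) := rfl
  have e2 : C14.u = (4985 / 65536 : ℝ) := rfl
  have e3 : C14.a1 = -(38958511 / 4194304 : ℝ) := by norm_num [C14]
  have e4 : C14.a2 = -(343130693 / 4194304 : ℝ) := by norm_num [C14]
  have e5 : C14.e = (-272808057 / 4194304 : ℝ) := rfl
  have e6 : C14.f = (40251707 / 268435456 : ℝ) + (547591365 / 268435456 : ℝ) + (-646080705 / 268435456 : ℝ) := by norm_num [C14]
  rw [e1, e2, e3, e4, e5, e6]
  exact h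

lemma rcell15 : ∃ N : ℝ, Rw4 P.r2 N (coCell (87579 / 65536 : ℝ) (868797 / 65536 : ℝ) ((379421 / 32768 : ℝ) + (107 / 256 : ℝ)) (7 / 256 : ℝ) C15) := by
  refine ⟨(2415919104 : ℝ), ⟨Q18, List.mem_cons_of_mem _ (List.mem_cons_of_mem _ (List.mem_cons_of_mem _ (List.mem_cons_of_mem _ (List.mem_cons_of_mem _ (List.mem_cons_of_mem _ (List.mem_cons_of_mem _ (List.mem_cons_of_mem _ (List.mem_cons_of_mem _ (List.mem_cons_of_mem _ (List.mem_cons_of_mem _ (List.mem_cons_of_mem _ (List.mem_cons_of_mem _ (List.mem_cons_of_mem _ (List.mem_cons_of_mem _ (List.mem_cons_of_mem _ (List.mem_cons_of_mem _ (List.mem_cons_of_mem _ (List.mem_cons_self)))))))))))))))))), ?_⟩, by norm_num⟩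
  constructor <;> norm_num [Q18, coCell, C15]

lemma lcell15 : ∀ x1 x2 xc : ℝ, 0 ≤ x1 → x1 ≤ 1 → 0 ≤ x2 → x2 ≤ 1 → C15.l ≤ xc → xc ≤ C15.u →
    (87579 / 65536 : ℝ) * (1 - (1 - x1) ^ 12) + (868797 / 65536 : ℝ) * (1 - (1 - x2) ^ 12) - ((379421 / 32768 : ℝ) + (107 / 256 : ℝ)) * (1 - (1 - xc) ^ 12)
      ≤ - C15.a1 * x1 - C15.a2 * x2 + C15.e * xc + C15.f := by
  have h := cell_lines 12 (α1 := (87579 / 65536 : ℝ)) (α2 := (868797 / 65536 : ℝ)) (c := (379421 / 32768 : ℝ) + (107 / 256 : ℝ)) (y1 := (3665 / 65536 : ℝ)) (y2 := (1119 / 16384 : ℝ))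
    (A1 := (35714161 / 4194304 : ℝ)) (B1 := (51075513 / 268435456 : ℝ)) (A2 := (306425635 / 4194304 : ℝ)) (B2 := (174131309 / 67108864 : ℝ)) (l := (4985 / 65536 : ℝ)) (u := (5977 / 65536 : ℝ))
    (E := (-115661175 / 2097152 : ℝ)) (F := (-212009983 / 67108864 : ℝ)) (by norm_num) (by norm_num) (by norm_num) (by norm_num) (by norm_num)
    (by norm_num) (by norm_num) (by norm_num) (by norm_num) (by norm_num) (by norm_num) (by norm_num) (by norm_num) (by norm_num) (by norm_num)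
  have e1 : C15.l = (4985 / 65536 : ℝ) := rfl
  have e2 : C15.u = (5977 / 65536 : ℝ) := rfl
  have e3 : C15.a1 = -(35714161 / 4194304 : ℝ) := by norm_num [C15]
  have e4 : C15.a2 = -(306425635 / 4194304 : ℝ) := by norm_num [C15]
  have e5 : C15.e = (-115661175 / 2097152 : ℝ) := rfl
  have e6 : C15.f = (51075513 / 268435456 : ℝ) + (174131309 / 67108864 : ℝ) + (-212009983 / 67108864 : ℝ) := by norm_num [C15]
  rw [e1, e2, e3, e4, e5, e6]
  exact h

lemma rcell16 : ∃ N : ℝ, Rw4 P.r2 N (coCell (87579 / 65536 : ℝ) (868797 / 65536 : ℝ) ((379421 / 32768 : ℝ) + (107 / 256 : ℝ)) (7 / 256 : ℝ) C16) := by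
  refine ⟨(2415919104 : ℝ), ⟨Q19, List.mem_cons_of_mem _ (List.mem_cons_of_mem _ (List.mem_cons_of_mem _ (List.mem_cons_of_mem _ (List.mem_cons_of_mem _ (List.mem_cons_of_mem _ (List.mem_cons_of_mem _ (List.mem_cons_of_mem _ (List.mem_cons_of_mem _ (List.mem_cons_of_mem _ (List.mem_cons_of_mem _ (List.mem_cons_of_mem _ (List.mem_cons_of_mem _ (List.mem_cons_of_mem _ (List.mem_cons_of_mem _ (List.mem_cons_of_mem _ (List.mem_cons_of_mem _ (List.mem_cons_of_mem _ (List.mem_cons_of_mem _ (List.mem_cons_self))))))))))))))))))), ?_⟩, by norm_num⟩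
  constructor <;> norm_num [Q19, coCell, C16]

lemma lcell16 : ∀ x1 x2 xc : ℝ, 0 ≤ x1 → x1 ≤ 1 → 0 ≤ x2 → x2 ≤ 1 → C16.l ≤ xc → xc ≤ C16.u →
    (87579 / 65536 : ℝ) * (1 - (1 - x1) ^ 12) + (868797 / 65536 : ℝ) * (1 - (1 - x2) ^ 12) - ((379421 / 32768 : ℝ) + (107 / 256 : ℝ)) * (1 - (1 - xc) ^ 12)
      ≤ - C16.a1 * x1 - C16.a2 * x2 + C16.e * xc + C16.f := by
  have h := cell_lines 12 (α1 := (87579 / 65536 : ℝ)) (α2 := (868797 / 65536 : ℝ)) (c := (379421 / 32768 : ℝ) + (107 / 256 : ℝ)) (y1 := (16477 / 262144 : ℝ)) (y2 := (635 / 8192 : ℝ))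
    (A1 := (32933441 / 4194304 : ℝ)) (B1 := (30818587 / 134217728 : ℝ)) (A2 := (274684275 / 4194304 : ℝ)) (B2 := (844475823 / 268435456 : ℝ)) (l := (5977 / 65536 : ℝ)) (u := (57 / 512 : ℝ))
    (E := (-93503751 / 2097152 : ℝ)) (F := (-276675473 / 67108864 : ℝ)) (by norm_num) (by norm_num) (by norm_num) (by norm_num) (by norm_num)
    (by norm_num) (by norm_num) (by norm_num) (by norm_num) (by norm_num) (by norm_num) (by norm_num) (by norm_num) (by norm_num) (by norm_num)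
  have e1 : C16.l = (5977 / 65536 : ℝ) := rfl
  have e2 : C16.u = (57 / 512 : ℝ) := rfl
  have e3 : C16.a1 = -(32933441 / 4194304 : ℝ) := by norm_num [C16]
  have e4 : C16.a2 = -(274684275 / 4194304 : ℝ) := by norm_num [C16]
  have e5 : C16.e = (-93503751 / 2097152 : ℝ) := rfl
  have e6 : C16.f = (30818587 / 134217728 : ℝ) + (844475823 / 268435456 : ℝ) + (-276675473 / 67108864 : ℝ) := by norm_num [C16]
  rw [e1, e2, e3, e4, e5, e6]
  exact h

/-- The hypotheses at the origin. -/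
lemma horig (lam : ℝ) (hd : (12 : ℝ) * lam ^ 2 = 1) (hb : |lam| ≤ (317401667137 / 1099511627776 : ℝ)) :
    OriginH 12 lam (87579 / 65536 : ℝ) (868797 / 65536 : ℝ) (379421 / 32768 : ℝ) (107 / 256 : ℝ) (7 / 256 : ℝ) (45 / 512 : ℝ) (4233 / 4096 : ℝ) (1 / 256 : ℝ) 3298534883328 := by
  refine originH_of_num (d := 12) (by push_cast; exact hd) hb (by norm_num) (by norm_num) (by norm_num) (by norm_num)
    (by norm_num) (by norm_num) (by norm_num) (by norm_num) (by norm_num) (by norm_num) (by norm_num [S]) (by norm_num) ?_ ?_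
  · rw [hch]
    norm_num [abs_of_pos, abs_of_neg]
  · norm_num [abs_of_pos, abs_of_neg]

/-- Nonreconstruction at the bound. -/
theorem main : Tendsto (reconError 3 12 (-(1 / Real.sqrt 12))) atTop (𝓝 0) := by
  have hsq : Real.sqrt ((12 : ℕ) : ℝ) ^ 2 = 12 := by
    rw [Real.sq_sqrt (by positivity)]; norm_num
  have hsq' : Real.sqrt (12 : ℝ) ^ 2 = 12 := by
    rw [Real.sq_sqrt (by positivity)]
  have hs0 : 0 < Real.sqrt (12 : ℝ) := Real.sqrt_pos.2 (by norm_num)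
  have hl2 : ((12 : ℝ)) * (-(1 / Real.sqrt 12)) ^ 2 = 1 := by
    have : (-(1 / Real.sqrt (12 : ℝ))) ^ 2 = 1 / 12 := by
      rw [neg_sq, div_pow, hsq']; norm_num
    rw [this]; norm_num
  have hb : |(-(1 / Real.sqrt (12 : ℝ)))| ≤ (317401667137 / 1099511627776 : ℝ) := by
    rw [abs_neg, abs_of_pos (by positivity)]
    rw [div_le_iff₀ hs0]
    have h1 : (1 : ℝ) ^ 2 ≤ ((317401667137 / 1099511627776 : ℝ) * Real.sqrt 12) ^ 2 := by
      rw [mul_pow, hsq']; norm_num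
    exact le_of_sq_le_sq h1 (by positivity)
  have hb2 : (-(1 / 2) : ℝ) < -(1 / Real.sqrt (12 : ℝ)) := by
    have h2 := (abs_le.1 hb).1
    have h3 : ((317401667137 / 1099511627776 : ℝ) : ℝ) < 1 / 2 := by norm_num
    linarith
  have h1 : (-(1 / Real.sqrt (12 : ℝ))) < 1 := by
    have : 0 < 1 / Real.sqrt (12 : ℝ) := by positivity
    linarith
  have hlam : |(S : ℝ) * (-(1 / Real.sqrt (12 : ℝ))) - ((P.lp : ℝ) - P.ln)| ≤ ((1 : ℕ) : ℝ) := by
    have h := lam_enc 12 20801235657477233 (by norm_num) (by norm_num [S]) (by norm_num [S])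
    have e : ((12 : ℕ) : ℝ) = (12 : ℝ) := by norm_num
    rw [e] at h
    exact h
  obtain ⟨hOa, hON⟩ := horig _ hl2 hb
  refine final_of_box (d := 12) (by norm_num) hb2 h1 (box hlam) (87579 / 65536 : ℝ) (868797 / 65536 : ℝ) (379421 / 32768 : ℝ) (107 / 256 : ℝ) (45 / 512 : ℝ) (4233 / 4096 : ℝ) (5243 / 1048576 : ℝ) (2637 / 4096 : ℝ) (7 / 256 : ℝ) (57 / 512 : ℝ) cellsL
    (by norm_num) (by norm_num) (by norm_num) (by norm_num) (by norm_num) (by norm_num) (by norm_num) (by norm_num) (by norm_num)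
    (by norm_num) (by norm_num) (by norm_num) (by norm_num) (by norm_num) hOa hON rTa rTb rc1 rc2 rc3
    (forall_cons rcell0 (forall_cons rcell1 (forall_cons rcell2 (forall_cons rcell3 (forall_cons rcell4 (forall_cons rcell5 (forall_cons rcell6 (forall_cons rcell7 (forall_cons rcell8 (forall_cons rcell9 (forall_cons rcell10 (forall_cons rcell11 (forall_cons rcell12 (forall_cons rcell13 (forall_cons rcell14 (forall_cons rcell15 (forall_cons rcell16 (forall_nil)))))))))))))))))) hcover (forall_cons lcell0 (forall_cons lcell1 (forall_cons lcell2 (forall_cons lcell3 (forall_cons lcell4 (forall_cons lcell5 (forall_cons lcell6 (forall_cons lcell7 (forall_cons lcell8 (forall_cons lcell9 (forall_cons lcell10 (forall_cons lcell11 (forall_cons lcell12 (forall_cons lcell13 (forall_cons lcell14 (forall_cons lcell15 (forall_cons lcell16 (forall_nil))))))))))))))))))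

end Vale.Agent.P154H.Tm.D12
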