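import Vale.Agent.P154H.D.D13
import Vale.Agent.P154H.FinalD
import Vale.Agent.P154H.OriginW

open Filter Topology

set_option maxRecDepth 100000

/-!
Nonreconstruction at the Kesten-Stigum bound for `d = 13`, negative eigenvalue.
-/

namespace Vale.Agent.P154H.Tm.D13

open Vale.Agent.P154 Vale.Agent.P154H

/-- A chord cell. -/
noncomputable def C0 : Cell := ⟨(5243 / 1048576 : ℝ), (395 / 65536 : ℝ), (-69340687 / 4194304 : ℝ), (-681102869 / 4194304 : ℝ), (-19129937 / 131072 : ℝ), (-132917 / 134217728 : ℝ)⟩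

/-- A chord cell. -/
noncomputable def C1 : Cell := ⟨(395 / 65536 : ℝ), (119 / 16384 : ℝ), (-68693263 / 4194304 : ℝ), (-336453875 / 2097152 : ℝ), (-603853471 / 4194304 : ℝ), (-426695 / 268435456 : ℝ)⟩

/-- A chord cell. -/
noncomputable def C2 : Cell := ⟨(119 / 16384 : ℝ), (2295 / 262144 : ℝ), (-67829279 / 4194304 : ℝ), (-663272463 / 4194304 : ℝ), (-593982373 / 4194304 : ℝ), (-340261 / 134217728 : ℝ)⟩

/-- A chord cell. -/
noncomputable def C3 : Cell := ⟨(2295 / 262144 : ℝ), (2767 / 262144 : ℝ), (-8334549 / 524288 : ℝ), (-325797127 / 2097152 : ℝ), (-582265701 / 4194304 : ℝ), (-869433 / 268435456 : ℝ)⟩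

/-- A chord cell. -/
noncomputable def C4 : Cell := ⟨(2767 / 262144 : ℝ), (3335 / 262144 : ℝ), (-65729405 / 4194304 : ℝ), (-318929413 / 2097152 : ℝ), (-35526771 / 262144 : ℝ), (-87229 / 16777216 : ℝ)⟩

/-- A chord cell. -/
noncomputable def C5 : Cell := ⟨(3335 / 262144 : ℝ), (4019 / 262144 : ℝ), (-16063675 / 1048576 : ℝ), (-621502099 / 4194304 : ℝ), (-276085781 / 2097152 : ℝ), (-220903 / 33554432 : ℝ)⟩

/-- A chord cell. -/
noncomputable def C6 : Cell := ⟨(4019 / 262144 : ℝ), (4845 / 262144 : ℝ), (-62723105 / 4194304 : ℝ), (-301403799 / 2097152 : ℝ), (-533133923 / 4194304 : ℝ), (-2867757 / 268435456 : ℝ)⟩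

/-- A chord cell. -/
noncomputable def C7 : Cell := ⟨(4845 / 262144 : ℝ), (365 / 16384 : ℝ), (-30397105 / 2097152 : ℝ), (-580421651 / 4194304 : ℝ), (-255489243 / 2097152 : ℝ), (-1829363 / 134217728 : ℝ)⟩

/-- A chord cell. -/
noncomputable def C8 : Cell := ⟨(365 / 16384 : ℝ), (7039 / 262144 : ℝ), (-58711525 / 4194304 : ℝ), (-555360125 / 4194304 : ℝ), (-121352593 / 1048576 : ℝ), (-5992511 / 268435456 : ℝ)⟩

/-- A chord cell. -/
noncomputable def C9 : Cell := ⟨(7039 / 262144 : ℝ), (2121 / 65536 : ℝ), (-55988265 / 4194304 : ℝ), (-131476151 / 1048576 : ℝ), (-28510179 / 262144 : ℝ), (-1928075 / 67108864 : ℝ)⟩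

/-- A chord cell. -/
noncomputable def C10 : Cell := ⟨(2121 / 65536 : ℝ), (5113 / 131072 : ℝ), (-26582987 / 2097152 : ℝ), (-494162199 / 4194304 : ℝ), (-423065457 / 4194304 : ℝ), (-13757871 / 268435456 : ℝ)⟩

/-- A chord cell. -/
noncomputable def C11 : Cell := ⟨(5113 / 131072 : ℝ), (6163 / 131072 : ℝ), (-49882275 / 4194304 : ℝ), (-3569331 / 32768 : ℝ), (-386106089 / 4194304 : ℝ), (-9076803 / 134217728 : ℝ)⟩

/-- A chord cell. -/
noncomputable def C12 : Cell := ⟨(6163 / 131072 : ℝ), (14857 / 262144 : ℝ), (-46492963 / 4194304 : ℝ), (-415739663 / 4194304 : ℝ), (-172755291 / 2097152 : ℝ), (-24437357 / 268435456 : ℝ)⟩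

/-- A chord cell. -/
noncomputable def C13 : Cell := ⟨(14857 / 262144 : ℝ), (17907 / 262144 : ℝ), (-43043421 / 4194304 : ℝ), (-188292673 / 2097152 : ℝ), (-301814897 / 4194304 : ℝ), (-25793073 / 134217728 : ℝ)⟩

/-- A chord cell. -/
noncomputable def C14 : Cell := ⟨(17907 / 262144 : ℝ), (1349 / 16384 : ℝ), (-39674927 / 4194304 : ℝ), (-84588731 / 1048576 : ℝ), (-255920249 / 4194304 : ℝ), (-25691085 / 67108864 : ℝ)⟩

/-- A chord cell. -/
noncomputable def C15 : Cell := ⟨(1349 / 16384 : ℝ), (13 / 128 : ℝ), (-36237239 / 4194304 : ℝ), (-151759295 / 2097152 : ℝ), (-103047013 / 2097152 : ℝ), (-6491865 / 8388608 : ℝ)⟩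

/-- The chord cells. -/
noncomputable def cellsL : List Cell := [C0, C1, C2, C3, C4, C5, C6, C7, C8, C9, C10, C11, C12, C13, C14, C15]

lemma hcover : ∀ x : ℝ, (5243 / 1048576 : ℝ) ≤ x → x ≤ (13 / 128 : ℝ) → ∃ D ∈ cellsL, D.l ≤ x ∧ x ≤ D.u := by
  refine cover_of_chain ?_ (by norm_num [C0])
  simp only [ChainP, C0, C1, C2, C3, C4, C5, C6, C7, C8, C9, C10, C11, C12, C13, C14, C15]
  norm_num

lemma hch : ((Nat.choose 13 2 : ℕ) : ℝ) = 78 := by norm_num [Nat.choose]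

lemma rTa : Rw4 P.r1 (1179648 : ℝ) (coTa 13 (87579 / 65536 : ℝ) (868797 / 65536 : ℝ) (379421 / 32768 : ℝ) (107 / 256 : ℝ) (115 / 4096 : ℝ)) := by
  refine ⟨⟨Ra, List.mem_cons_self, ?_⟩, by norm_num⟩
  constructor <;> norm_num [Ra, coTa, hch]

lemma rTb : Rw4 P.r1 (39582418599936 : ℝ) (coTb 13 (87579 / 65536 : ℝ) (868797 / 65536 : ℝ) (379421 / 32768 : ℝ) (107 / 256 : ℝ) (115 / 4096 : ℝ) (45 / 512 : ℝ) (4233 / 4096 : ℝ) (12435 / 16384 : ℝ)) := by
  refine ⟨⟨Rb, List.mem_cons_of_mem _ (List.mem_cons_self), ?_⟩, by norm_num⟩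
  constructor <;> norm_num [Rb, coTb, hch]

lemma rc1 : Rw4 P.r2 (16777216 : ℝ) ⟨0, 0, 0, -(87579 / 65536 : ℝ), 0, 0, 0, 0, (379421 / 32768 : ℝ) * (45 / 512 : ℝ)⟩ := by
  refine ⟨⟨Q0, List.mem_cons_self, ?_⟩, by norm_num⟩
  constructor <;> norm_num [Q0]

lemma rc2 : Rw4 P.r2 (134217728 : ℝ) ⟨0, 0, 0, 0, -(868797 / 65536 : ℝ), 0, 0, 0, (379421 / 32768 : ℝ) * (4233 / 4096 : ℝ)⟩ := by
  refine ⟨⟨Q1, List.mem_cons_of_mem _ (List.mem_cons_self), ?_⟩, by norm_num⟩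
  constructor <;> norm_num [Q1]

lemma rc3 : Rw4 P.r2 (384 : ℝ) ⟨0, 0, 0, 0, 0, -1, 0, 0, (13 / 128 : ℝ)⟩ := by
  refine ⟨⟨Q2, List.mem_cons_of_mem _ (List.mem_cons_of_mem _ (List.mem_cons_self)), ?_⟩, by norm_num⟩
  constructor <;> norm_num [Q2]

lemma rcell0 : ∃ N : ℝ, Rw4 P.r2 N (coCell (87579 / 65536 : ℝ) (868797 / 65536 : ℝ) ((379421 / 32768 : ℝ) + (107 / 256 : ℝ)) (115 / 4096 : ℝ) C0) := by
  refine ⟨(1207959552 : ℝ), ⟨Q3, List.mem_cons_of_mem _ (List.mem_cons_of_mem _ (List.mem_cons_of_mem _ (List.mem_cons_self))), ?_⟩, by norm_num⟩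
  constructor <;> norm_num [Q3, coCell, C0]

lemma lcell0 : ∀ x1 x2 xc : ℝ, 0 ≤ x1 → x1 ≤ 1 → 0 ≤ x2 → x2 ≤ 1 → C0.l ≤ xc → xc ≤ C0.u →
    (87579 / 65536 : ℝ) * (1 - (1 - x1) ^ 13) + (868797 / 65536 : ℝ) * (1 - (1 - x2) ^ 13) - ((379421 / 32768 : ℝ) + (107 / 256 : ℝ)) * (1 - (1 - xc) ^ 13)
      ≤ - C0.a1 * x1 - C0.a2 * x2 + C0.e * xc + C0.f := by
  have h := cell_lines 13 (α1 := (87579 / 65536 : ℝ)) (α2 := (868797 / 65536 : ℝ)) (c := (379421 / 32768 : ℝ) + (107 / 256 : ℝ)) (y1 := (1081 / 262144 : ℝ)) (y2 := (81 / 16384 : ℝ))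
    (A1 := (69340687 / 4194304 : ℝ)) (B1 := (230817 / 134217728 : ℝ)) (A2 := (681102869 / 4194304 : ℝ)) (B2 := (817855 / 33554432 : ℝ)) (l := (5243 / 1048576 : ℝ)) (u := (395 / 65536 : ℝ))
    (E := (-19129937 / 131072 : ℝ)) (F := (-1817577 / 67108864 : ℝ)) (by norm_num) (by norm_num) (by norm_num) (by norm_num) (by norm_num)
    (by norm_num) (by norm_num) (by norm_num) (by norm_num) (by norm_num) (by norm_num) (by norm_num) (by norm_num) (by norm_num) (by norm_num)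
  have e1 : C0.l = (5243 / 1048576 : ℝ) := rfl
  have e2 : C0.u = (395 / 65536 : ℝ) := rfl
  have e3 : C0.a1 = -(69340687 / 4194304 : ℝ) := by norm_num [C0]
  have e4 : C0.a2 = -(681102869 / 4194304 : ℝ) := by norm_num [C0]
  have e5 : C0.e = (-19129937 / 131072 : ℝ) := rfl
  have e6 : C0.f = (230817 / 134217728 : ℝ) + (817855 / 33554432 : ℝ) + (-1817577 / 67108864 : ℝ) := by norm_num [C0]
  rw [e1, e2, e3, e4, e5, e6]
  exact h

lemma rcell1 : ∃ N : ℝ, Rw4 P.r2 N (coCell (87579 / 65536 : ℝ) (868797 / 65536 : ℝ) ((379421 / 32768 : ℝ) + (107 / 256 : ℝ)) (115 / 4096 : ℝ) C1) := by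
  refine ⟨(2415919104 : ℝ), ⟨Q4, List.mem_cons_of_mem _ (List.mem_cons_of_mem _ (List.mem_cons_of_mem _ (List.mem_cons_of_mem _ (List.mem_cons_self)))), ?_⟩, by norm_num⟩
  constructor <;> norm_num [Q4, coCell, C1]

lemma lcell1 : ∀ x1 x2 xc : ℝ, 0 ≤ x1 → x1 ≤ 1 → 0 ≤ x2 → x2 ≤ 1 → C1.l ≤ xc → xc ≤ C1.u →
    (87579 / 65536 : ℝ) * (1 - (1 - x1) ^ 13) + (868797 / 65536 : ℝ) * (1 - (1 - x2) ^ 13) - ((379421 / 32768 : ℝ) + (107 / 256 : ℝ)) * (1 - (1 - xc) ^ 13)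
      ≤ - C1.a1 * x1 - C1.a2 * x2 + C1.e * xc + C1.f := by
  have h := cell_lines 13 (α1 := (87579 / 65536 : ℝ)) (α2 := (868797 / 65536 : ℝ)) (c := (379421 / 32768 : ℝ) + (107 / 256 : ℝ)) (y1 := (1285 / 262144 : ℝ)) (y2 := (1559 / 262144 : ℝ))
    (A1 := (68693263 / 4194304 : ℝ)) (B1 := (648599 / 268435456 : ℝ)) (A2 := (336453875 / 2097152 : ℝ)) (B2 := (9398415 / 268435456 : ℝ)) (l := (395 / 65536 : ℝ)) (u := (119 / 16384 : ℝ))
    (E := (-603853471 / 4194304 : ℝ)) (F := (-10473709 / 268435456 : ℝ)) (by norm_num) (by norm_num) (by norm_num) (by norm_num) (by norm_num)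
    (by norm_num) (by norm_num) (by norm_num) (by norm_num) (by norm_num) (by norm_num) (by norm_num) (by norm_num) (by norm_num) (by norm_num)
  have e1 : C1.l = (395 / 65536 : ℝ) := rfl
  have e2 : C1.u = (119 / 16384 : ℝ) := rfl
  have e3 : C1.a1 = -(68693263 / 4194304 : ℝ) := by norm_num [C1]
  have e4 : C1.a2 = -(336453875 / 2097152 : ℝ) := by norm_num [C1]
  have e5 : C1.e = (-603853471 / 4194304 : ℝ) := rfl
  have e6 : C1.f = (648599 / 268435456 : ℝ) + (9398415 / 268435456 : ℝ) + (-10473709 / 268435456 : ℝ) := by norm_num [C1]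
  rw [e1, e2, e3, e4, e5, e6]
  exact h

lemma rcell2 : ∃ N : ℝ, Rw4 P.r2 N (coCell (87579 / 65536 : ℝ) (868797 / 65536 : ℝ) ((379421 / 32768 : ℝ) + (107 / 256 : ℝ)) (115 / 4096 : ℝ) C2) := by
  refine ⟨(1207959552 : ℝ), ⟨Q5, List.mem_cons_of_mem _ (List.mem_cons_of_mem _ (List.mem_cons_of_mem _ (List.mem_cons_of_mem _ (List.mem_cons_of_mem _ (List.mem_cons_self))))), ?_⟩, by norm_num⟩
  constructor <;> norm_num [Q5, coCell, C2]

lemma lcell2 : ∀ x1 x2 xc : ℝ, 0 ≤ x1 → x1 ≤ 1 → 0 ≤ x2 → x2 ≤ 1 → C2.l ≤ xc → xc ≤ C2.u →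
    (87579 / 65536 : ℝ) * (1 - (1 - x1) ^ 13) + (868797 / 65536 : ℝ) * (1 - (1 - x2) ^ 13) - ((379421 / 32768 : ℝ) + (107 / 256 : ℝ)) * (1 - (1 - xc) ^ 13)
      ≤ - C2.a1 * x1 - C2.a2 * x2 + C2.e * xc + C2.f := by
  have h := cell_lines 13 (α1 := (87579 / 65536 : ℝ)) (α2 := (868797 / 65536 : ℝ)) (c := (379421 / 32768 : ℝ) + (107 / 256 : ℝ)) (y1 := (195 / 32768 : ℝ)) (y2 := (117 / 16384 : ℝ))
    (A1 := (67829279 / 4194304 : ℝ)) (B1 := (237149 / 67108864 : ℝ)) (A2 := (663272463 / 4194304 : ℝ)) (B2 := (13433109 / 268435456 : ℝ)) (l := (119 / 16384 : ℝ)) (u := (2295 / 262144 : ℝ))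
    (E := (-593982373 / 4194304 : ℝ)) (F := (-15062227 / 268435456 : ℝ)) (by norm_num) (by norm_num) (by norm_num) (by norm_num) (by norm_num)
    (by norm_num) (by norm_num) (by norm_num) (by norm_num) (by norm_num) (by norm_num) (by norm_num) (by norm_num) (by norm_num) (by norm_num)
  have e1 : C2.l = (119 / 16384 : ℝ) := rfl
  have e2 : C2.u = (2295 / 262144 : ℝ) := rfl
  have e3 : C2.a1 = -(67829279 / 4194304 : ℝ) := by norm_num [C2]
  have e4 : C2.a2 = -(663272463 / 4194304 : ℝ) := by norm_num [C2]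
  have e5 : C2.e = (-593982373 / 4194304 : ℝ) := rfl
  have e6 : C2.f = (237149 / 67108864 : ℝ) + (13433109 / 268435456 : ℝ) + (-15062227 / 268435456 : ℝ) := by norm_num [C2]
  rw [e1, e2, e3, e4, e5, e6]
  exact h

lemma rcell3 : ∃ N : ℝ, Rw4 P.r2 N (coCell (87579 / 65536 : ℝ) (868797 / 65536 : ℝ) ((379421 / 32768 : ℝ) + (107 / 256 : ℝ)) (115 / 4096 : ℝ) C3) := by
  refine ⟨(2415919104 : ℝ), ⟨Q6, List.mem_cons_of_mem _ (List.mem_cons_of_mem _ (List.mem_cons_of_mem _ (List.mem_cons_of_mem _ (List.mem_cons_of_mem _ (List.mem_cons_of_mem _ (List.mem_cons_self)))))), ?_⟩, by norm_num⟩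
  constructor <;> norm_num [Q6, coCell, C3]

lemma lcell3 : ∀ x1 x2 xc : ℝ, 0 ≤ x1 → x1 ≤ 1 → 0 ≤ x2 → x2 ≤ 1 → C3.l ≤ xc → xc ≤ C3.u →
    (87579 / 65536 : ℝ) * (1 - (1 - x1) ^ 13) + (868797 / 65536 : ℝ) * (1 - (1 - x2) ^ 13) - ((379421 / 32768 : ℝ) + (107 / 256 : ℝ)) * (1 - (1 - xc) ^ 13)
      ≤ - C3.a1 * x1 - C3.a2 * x2 + C3.e * xc + C3.f := by
  have h := cell_lines 13 (α1 := (87579 / 65536 : ℝ)) (α2 := (868797 / 65536 : ℝ)) (c := (379421 / 32768 : ℝ) + (107 / 256 : ℝ)) (y1 := (483 / 65536 : ℝ)) (y2 := (2257 / 262144 : ℝ))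
    (A1 := (8334549 / 524288 : ℝ)) (B1 := (719961 / 134217728 : ℝ)) (A2 := (325797127 / 2097152 : ℝ)) (B2 := (4829439 / 67108864 : ℝ)) (l := (2295 / 262144 : ℝ)) (u := (2767 / 262144 : ℝ))
    (E := (-582265701 / 4194304 : ℝ)) (F := (-21627111 / 268435456 : ℝ)) (by norm_num) (by norm_num) (by norm_num) (by norm_num) (by norm_num)
    (by norm_num) (by norm_num) (by norm_num) (by norm_num) (by norm_num) (by norm_num) (by norm_num) (by norm_num) (by norm_num) (by norm_num)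
  have e1 : C3.l = (2295 / 262144 : ℝ) := rfl
  have e2 : C3.u = (2767 / 262144 : ℝ) := rfl
  have e3 : C3.a1 = -(8334549 / 524288 : ℝ) := by norm_num [C3]
  have e4 : C3.a2 = -(325797127 / 2097152 : ℝ) := by norm_num [C3]
  have e5 : C3.e = (-582265701 / 4194304 : ℝ) := rfl
  have e6 : C3.f = (719961 / 134217728 : ℝ) + (4829439 / 67108864 : ℝ) + (-21627111 / 268435456 : ℝ) := by norm_num [C3]
  rw [e1, e2, e3, e4, e5, e6]
  exact h

lemma rcell4 : ∃ N : ℝ, Rw4 P.r2 N (coCell (87579 / 65536 : ℝ) (868797 / 65536 : ℝ) ((379421 / 32768 : ℝ) + (107 / 256 : ℝ)) (115 / 4096 : ℝ) C4) := by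
  refine ⟨(150994944 : ℝ), ⟨Q7, List.mem_cons_of_mem _ (List.mem_cons_of_mem _ (List.mem_cons_of_mem _ (List.mem_cons_of_mem _ (List.mem_cons_of_mem _ (List.mem_cons_of_mem _ (List.mem_cons_of_mem _ (List.mem_cons_self))))))), ?_⟩, by norm_num⟩
  constructor <;> norm_num [Q7, coCell, C4]

lemma lcell4 : ∀ x1 x2 xc : ℝ, 0 ≤ x1 → x1 ≤ 1 → 0 ≤ x2 → x2 ≤ 1 → C4.l ≤ xc → xc ≤ C4.u →
    (87579 / 65536 : ℝ) * (1 - (1 - x1) ^ 13) + (868797 / 65536 : ℝ) * (1 - (1 - x2) ^ 13) - ((379421 / 32768 : ℝ) + (107 / 256 : ℝ)) * (1 - (1 - xc) ^ 13)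
      ≤ - C4.a1 * x1 - C4.a2 * x2 + C4.e * xc + C4.f := by
  have h := cell_lines 13 (α1 := (87579 / 65536 : ℝ)) (α2 := (868797 / 65536 : ℝ)) (c := (379421 / 32768 : ℝ) + (107 / 256 : ℝ)) (y1 := (1121 / 131072 : ℝ)) (y2 := (1359 / 131072 : ℝ))
    (A1 := (65729405 / 4194304 : ℝ)) (B1 := (961175 / 134217728 : ℝ)) (A2 := (318929413 / 2097152 : ℝ)) (B2 := (13828375 / 134217728 : ℝ)) (l := (2767 / 262144 : ℝ)) (u := (3335 / 262144 : ℝ))
    (E := (-35526771 / 262144 : ℝ)) (F := (-7743691 / 67108864 : ℝ)) (by norm_num) (by norm_num) (by norm_num) (by norm_num) (by norm_num)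
    (by norm_num) (by norm_num) (by norm_num) (by norm_num) (by norm_num) (by norm_num) (by norm_num) (by norm_num) (by norm_num) (by norm_num)
  have e1 : C4.l = (2767 / 262144 : ℝ) := rfl
  have e2 : C4.u = (3335 / 262144 : ℝ) := rfl
  have e3 : C4.a1 = -(65729405 / 4194304 : ℝ) := by norm_num [C4]
  have e4 : C4.a2 = -(318929413 / 2097152 : ℝ) := by norm_num [C4]
  have e5 : C4.e = (-35526771 / 262144 : ℝ) := rfl
  have e6 : C4.f = (961175 / 134217728 : ℝ) + (13828375 / 134217728 : ℝ) + (-7743691 / 67108864 : ℝ) := by norm_num [C4]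
  rw [e1, e2, e3, e4, e5, e6]
  exact h

lemma rcell5 : ∃ N : ℝ, Rw4 P.r2 N (coCell (87579 / 65536 : ℝ) (868797 / 65536 : ℝ) ((379421 / 32768 : ℝ) + (107 / 256 : ℝ)) (115 / 4096 : ℝ) C5) := by
  refine ⟨(301989888 : ℝ), ⟨Q8, List.mem_cons_of_mem _ (List.mem_cons_of_mem _ (List.mem_cons_of_mem _ (List.mem_cons_of_mem _ (List.mem_cons_of_mem _ (List.mem_cons_of_mem _ (List.mem_cons_of_mem _ (List.mem_cons_of_mem _ (List.mem_cons_self)))))))), ?_⟩, by norm_num⟩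
  constructor <;> norm_num [Q8, coCell, C5]

lemma lcell5 : ∀ x1 x2 xc : ℝ, 0 ≤ x1 → x1 ≤ 1 → 0 ≤ x2 → x2 ≤ 1 → C5.l ≤ xc → xc ≤ C5.u →
    (87579 / 65536 : ℝ) * (1 - (1 - x1) ^ 13) + (868797 / 65536 : ℝ) * (1 - (1 - x2) ^ 13) - ((379421 / 32768 : ℝ) + (107 / 256 : ℝ)) * (1 - (1 - xc) ^ 13)
      ≤ - C5.a1 * x1 - C5.a2 * x2 + C5.e * xc + C5.f := by
  have h := cell_lines 13 (α1 := (87579 / 65536 : ℝ)) (α2 := (868797 / 65536 : ℝ)) (c := (379421 / 32768 : ℝ) + (107 / 256 : ℝ)) (y1 := (2733 / 262144 : ℝ)) (y2 := (3279 / 262144 : ℝ))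
    (A1 := (16063675 / 1048576 : ℝ)) (B1 := (2817613 / 268435456 : ℝ)) (A2 := (621502099 / 4194304 : ℝ)) (B2 := (39626339 / 268435456 : ℝ)) (l := (3335 / 262144 : ℝ)) (u := (4019 / 262144 : ℝ))
    (E := (-276085781 / 2097152 : ℝ)) (F := (-5526397 / 33554432 : ℝ)) (by norm_num) (by norm_num) (by norm_num) (by norm_num) (by norm_num)
    (by norm_num) (by norm_num) (by norm_num) (by norm_num) (by norm_num) (by norm_num) (by norm_num) (by norm_num) (by norm_num) (by norm_num)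
  have e1 : C5.l = (3335 / 262144 : ℝ) := rfl
  have e2 : C5.u = (4019 / 262144 : ℝ) := rfl
  have e3 : C5.a1 = -(16063675 / 1048576 : ℝ) := by norm_num [C5]
  have e4 : C5.a2 = -(621502099 / 4194304 : ℝ) := by norm_num [C5]
  have e5 : C5.e = (-276085781 / 2097152 : ℝ) := rfl
  have e6 : C5.f = (2817613 / 268435456 : ℝ) + (39626339 / 268435456 : ℝ) + (-5526397 / 33554432 : ℝ) := by norm_num [C5]
  rw [e1, e2, e3, e4, e5, e6]
  exact h

lemma rcell6 : ∃ N : ℝ, Rw4 P.r2 N (coCell (87579 / 65536 : ℝ) (868797 / 65536 : ℝ) ((379421 / 32768 : ℝ) + (107 / 256 : ℝ)) (115 / 4096 : ℝ) C6) := by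
  refine ⟨(2415919104 : ℝ), ⟨Q9, List.mem_cons_of_mem _ (List.mem_cons_of_mem _ (List.mem_cons_of_mem _ (List.mem_cons_of_mem _ (List.mem_cons_of_mem _ (List.mem_cons_of_mem _ (List.mem_cons_of_mem _ (List.mem_cons_of_mem _ (List.mem_cons_of_mem _ (List.mem_cons_self))))))))), ?_⟩, by norm_num⟩
  constructor <;> norm_num [Q9, coCell, C6]

lemma lcell6 : ∀ x1 x2 xc : ℝ, 0 ≤ x1 → x1 ≤ 1 → 0 ≤ x2 → x2 ≤ 1 → C6.l ≤ xc → xc ≤ C6.u →
    (87579 / 65536 : ℝ) * (1 - (1 - x1) ^ 13) + (868797 / 65536 : ℝ) * (1 - (1 - x2) ^ 13) - ((379421 / 32768 : ℝ) + (107 / 256 : ℝ)) * (1 - (1 - xc) ^ 13)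
      ≤ - C6.a1 * x1 - C6.a2 * x2 + C6.e * xc + C6.f := by
  have h := cell_lines 13 (α1 := (87579 / 65536 : ℝ)) (α2 := (868797 / 65536 : ℝ)) (c := (379421 / 32768 : ℝ) + (107 / 256 : ℝ)) (y1 := (1627 / 131072 : ℝ)) (y2 := (3937 / 262144 : ℝ))
    (A1 := (62723105 / 4194304 : ℝ)) (B1 := (3936613 / 268435456 : ℝ)) (A2 := (301403799 / 2097152 : ℝ)) (B2 := (56086559 / 268435456 : ℝ)) (l := (4019 / 262144 : ℝ)) (u := (4845 / 262144 : ℝ))
    (E := (-533133923 / 4194304 : ℝ)) (F := (-62890929 / 268435456 : ℝ)) (by norm_num) (by norm_num) (by norm_num) (by norm_num) (by norm_num)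
    (by norm_num) (by norm_num) (by norm_num) (by norm_num) (by norm_num) (by norm_num) (by norm_num) (by norm_num) (by norm_num) (by norm_num)
  have e1 : C6.l = (4019 / 262144 : ℝ) := rfl
  have e2 : C6.u = (4845 / 262144 : ℝ) := rfl
  have e3 : C6.a1 = -(62723105 / 4194304 : ℝ) := by norm_num [C6]
  have e4 : C6.a2 = -(301403799 / 2097152 : ℝ) := by norm_num [C6]
  have e5 : C6.e = (-533133923 / 4194304 : ℝ) := rfl
  have e6 : C6.f = (3936613 / 268435456 : ℝ) + (56086559 / 268435456 : ℝ) + (-62890929 / 268435456 : ℝ) := by norm_num [C6]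
  rw [e1, e2, e3, e4, e5, e6]
  exact h

lemma rcell7 : ∃ N : ℝ, Rw4 P.r2 N (coCell (87579 / 65536 : ℝ) (868797 / 65536 : ℝ) ((379421 / 32768 : ℝ) + (107 / 256 : ℝ)) (115 / 4096 : ℝ) C7) := by
  refine ⟨(1207959552 : ℝ), ⟨Q10, List.mem_cons_of_mem _ (List.mem_cons_of_mem _ (List.mem_cons_of_mem _ (List.mem_cons_of_mem _ (List.mem_cons_of_mem _ (List.mem_cons_of_mem _ (List.mem_cons_of_mem _ (List.mem_cons_of_mem _ (List.mem_cons_of_mem _ (List.mem_cons_of_mem _ (List.mem_cons_self)))))))))), ?_⟩, by norm_num⟩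
  constructor <;> norm_num [Q10, coCell, C7]

lemma lcell7 : ∀ x1 x2 xc : ℝ, 0 ≤ x1 → x1 ≤ 1 → 0 ≤ x2 → x2 ≤ 1 → C7.l ≤ xc → xc ≤ C7.u →
    (87579 / 65536 : ℝ) * (1 - (1 - x1) ^ 13) + (868797 / 65536 : ℝ) * (1 - (1 - x2) ^ 13) - ((379421 / 32768 : ℝ) + (107 / 256 : ℝ)) * (1 - (1 - xc) ^ 13)
      ≤ - C7.a1 * x1 - C7.a2 * x2 + C7.e * xc + C7.f := by
  have h := cell_lines 13 (α1 := (87579 / 65536 : ℝ)) (α2 := (868797 / 65536 : ℝ)) (c := (379421 / 32768 : ℝ) + (107 / 256 : ℝ)) (y1 := (3927 / 262144 : ℝ)) (y2 := (2375 / 131072 : ℝ))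
    (A1 := (30397105 / 2097152 : ℝ)) (B1 := (5626685 / 268435456 : ℝ)) (A2 := (580421651 / 4194304 : ℝ)) (B2 := (9976541 / 33554432 : ℝ)) (l := (4845 / 262144 : ℝ)) (u := (365 / 16384 : ℝ))
    (E := (-255489243 / 2097152 : ℝ)) (F := (-89097739 / 268435456 : ℝ)) (by norm_num) (by norm_num) (by norm_num) (by norm_num) (by norm_num)
    (by norm_num) (by norm_num) (by norm_num) (by norm_num) (by norm_num) (by norm_num) (by norm_num) (by norm_num) (by norm_num) (by norm_num)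
  have e1 : C7.l = (4845 / 262144 : ℝ) := rfl
  have e2 : C7.u = (365 / 16384 : ℝ) := rfl
  have e3 : C7.a1 = -(30397105 / 2097152 : ℝ) := by norm_num [C7]
  have e4 : C7.a2 = -(580421651 / 4194304 : ℝ) := by norm_num [C7]
  have e5 : C7.e = (-255489243 / 2097152 : ℝ) := rfl
  have e6 : C7.f = (5626685 / 268435456 : ℝ) + (9976541 / 33554432 : ℝ) + (-89097739 / 268435456 : ℝ) := by norm_num [C7]
  rw [e1, e2, e3, e4, e5, e6]
  exact h

lemma rcell8 : ∃ N : ℝ, Rw4 P.r2 N (coCell (87579 / 65536 : ℝ) (868797 / 65536 : ℝ) ((379421 / 32768 : ℝ) + (107 / 256 : ℝ)) (115 / 4096 : ℝ) C8) := by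
  refine ⟨(2415919104 : ℝ), ⟨Q11, List.mem_cons_of_mem _ (List.mem_cons_of_mem _ (List.mem_cons_of_mem _ (List.mem_cons_of_mem _ (List.mem_cons_of_mem _ (List.mem_cons_of_mem _ (List.mem_cons_of_mem _ (List.mem_cons_of_mem _ (List.mem_cons_of_mem _ (List.mem_cons_of_mem _ (List.mem_cons_of_mem _ (List.mem_cons_self))))))))))), ?_⟩, by norm_num⟩
  constructor <;> norm_num [Q11, coCell, C8]

lemma lcell8 : ∀ x1 x2 xc : ℝ, 0 ≤ x1 → x1 ≤ 1 → 0 ≤ x2 → x2 ≤ 1 → C8.l ≤ xc → xc ≤ C8.u →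
    (87579 / 65536 : ℝ) * (1 - (1 - x1) ^ 13) + (868797 / 65536 : ℝ) * (1 - (1 - x2) ^ 13) - ((379421 / 32768 : ℝ) + (107 / 256 : ℝ)) * (1 - (1 - xc) ^ 13)
      ≤ - C8.a1 * x1 - C8.a2 * x2 + C8.e * xc + C8.f := by
  have h := cell_lines 13 (α1 := (87579 / 65536 : ℝ)) (α2 := (868797 / 65536 : ℝ)) (c := (379421 / 32768 : ℝ) + (107 / 256 : ℝ)) (y1 := (1169 / 65536 : ℝ)) (y2 := (5695 / 262144 : ℝ))
    (A1 := (58711525 / 4194304 : ℝ)) (B1 := (3906423 / 134217728 : ℝ)) (A2 := (555360125 / 4194304 : ℝ)) (B2 := (111746919 / 268435456 : ℝ)) (l := (365 / 16384 : ℝ)) (u := (7039 / 262144 : ℝ))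
    (E := (-121352593 / 1048576 : ℝ)) (F := (-31388069 / 67108864 : ℝ)) (by norm_num) (by norm_num) (by norm_num) (by norm_num) (by norm_num)
    (by norm_num) (by norm_num) (by norm_num) (by norm_num) (by norm_num) (by norm_num) (by norm_num) (by norm_num) (by norm_num) (by norm_num)
  have e1 : C8.l = (365 / 16384 : ℝ) := rfl
  have e2 : C8.u = (7039 / 262144 : ℝ) := rfl
  have e3 : C8.a1 = -(58711525 / 4194304 : ℝ) := by norm_num [C8]
  have e4 : C8.a2 = -(555360125 / 4194304 : ℝ) := by norm_num [C8]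
  have e5 : C8.e = (-121352593 / 1048576 : ℝ) := rfl
  have e6 : C8.f = (3906423 / 134217728 : ℝ) + (111746919 / 268435456 : ℝ) + (-31388069 / 67108864 : ℝ) := by norm_num [C8]
  rw [e1, e2, e3, e4, e5, e6]
  exact h

lemma rcell9 : ∃ N : ℝ, Rw4 P.r2 N (coCell (87579 / 65536 : ℝ) (868797 / 65536 : ℝ) ((379421 / 32768 : ℝ) + (107 / 256 : ℝ)) (115 / 4096 : ℝ) C9) := by
  refine ⟨(603979776 : ℝ), ⟨Q12, List.mem_cons_of_mem _ (List.mem_cons_of_mem _ (List.mem_cons_of_mem _ (List.mem_cons_of_mem _ (List.mem_cons_of_mem _ (List.mem_cons_of_mem _ (List.mem_cons_of_mem _ (List.mem_cons_of_mem _ (List.mem_cons_of_mem _ (List.mem_cons_of_mem _ (List.mem_cons_of_mem _ (List.mem_cons_of_mem _ (List.mem_cons_self)))))))))))), ?_⟩, by norm_num⟩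
  constructor <;> norm_num [Q12, coCell, C9]

lemma lcell9 : ∀ x1 x2 xc : ℝ, 0 ≤ x1 → x1 ≤ 1 → 0 ≤ x2 → x2 ≤ 1 → C9.l ≤ xc → xc ≤ C9.u →
    (87579 / 65536 : ℝ) * (1 - (1 - x1) ^ 13) + (868797 / 65536 : ℝ) * (1 - (1 - x2) ^ 13) - ((379421 / 32768 : ℝ) + (107 / 256 : ℝ)) * (1 - (1 - xc) ^ 13)
      ≤ - C9.a1 * x1 - C9.a2 * x2 + C9.e * xc + C9.f := by
  have h := cell_lines 13 (α1 := (87579 / 65536 : ℝ)) (α2 := (868797 / 65536 : ℝ)) (c := (379421 / 32768 : ℝ) + (107 / 256 : ℝ)) (y1 := (5693 / 262144 : ℝ)) (y2 := (6857 / 262144 : ℝ))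
    (A1 := (55988265 / 4194304 : ℝ)) (B1 := (1407169 / 33554432 : ℝ)) (A2 := (131476151 / 1048576 : ℝ)) (B2 := (78422319 / 134217728 : ℝ)) (l := (7039 / 262144 : ℝ)) (u := (2121 / 65536 : ℝ))
    (E := (-28510179 / 262144 : ℝ)) (F := (-87907145 / 134217728 : ℝ)) (by norm_num) (by norm_num) (by norm_num) (by norm_num) (by norm_num)
    (by norm_num) (by norm_num) (by norm_num) (by norm_num) (by norm_num) (by norm_num) (by norm_num) (by norm_num) (by norm_num) (by norm_num)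
  have e1 : C9.l = (7039 / 262144 : ℝ) := rfl
  have e2 : C9.u = (2121 / 65536 : ℝ) := rfl
  have e3 : C9.a1 = -(55988265 / 4194304 : ℝ) := by norm_num [C9]
  have e4 : C9.a2 = -(131476151 / 1048576 : ℝ) := by norm_num [C9]
  have e5 : C9.e = (-28510179 / 262144 : ℝ) := rfl
  have e6 : C9.f = (1407169 / 33554432 : ℝ) + (78422319 / 134217728 : ℝ) + (-87907145 / 134217728 : ℝ) := by norm_num [C9]
  rw [e1, e2, e3, e4, e5, e6]
  exact h

lemma rcell10 : ∃ N : ℝ, Rw4 P.r2 N (coCell (87579 / 65536 : ℝ) (868797 / 65536 : ℝ) ((379421 / 32768 : ℝ) + (107 / 256 : ℝ)) (115 / 4096 : ℝ) C10) := by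
  refine ⟨(2415919104 : ℝ), ⟨Q13, List.mem_cons_of_mem _ (List.mem_cons_of_mem _ (List.mem_cons_of_mem _ (List.mem_cons_of_mem _ (List.mem_cons_of_mem _ (List.mem_cons_of_mem _ (List.mem_cons_of_mem _ (List.mem_cons_of_mem _ (List.mem_cons_of_mem _ (List.mem_cons_of_mem _ (List.mem_cons_of_mem _ (List.mem_cons_of_mem _ (List.mem_cons_of_mem _ (List.mem_cons_self))))))))))))), ?_⟩, by norm_num⟩
  constructor <;> norm_num [Q13, coCell, C10]

lemma lcell10 : ∀ x1 x2 xc : ℝ, 0 ≤ x1 → x1 ≤ 1 → 0 ≤ x2 → x2 ≤ 1 → C10.l ≤ xc → xc ≤ C10.u →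
    (87579 / 65536 : ℝ) * (1 - (1 - x1) ^ 13) + (868797 / 65536 : ℝ) * (1 - (1 - x2) ^ 13) - ((379421 / 32768 : ℝ) + (107 / 256 : ℝ)) * (1 - (1 - xc) ^ 13)
      ≤ - C10.a1 * x1 - C10.a2 * x2 + C10.e * xc + C10.f := by
  have h := cell_lines 13 (α1 := (87579 / 65536 : ℝ)) (α2 := (868797 / 65536 : ℝ)) (c := (379421 / 32768 : ℝ) + (107 / 256 : ℝ)) (y1 := (1699 / 65536 : ℝ)) (y2 := (4089 / 131072 : ℝ))
    (A1 := (26582987 / 2097152 : ℝ)) (B1 := (7778517 / 134217728 : ℝ)) (A2 := (494162199 / 4194304 : ℝ)) (B2 := (107526841 / 134217728 : ℝ)) (l := (2121 / 65536 : ℝ)) (u := (5113 / 131072 : ℝ))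
    (E := (-423065457 / 4194304 : ℝ)) (F := (-244368587 / 268435456 : ℝ)) (by norm_num) (by norm_num) (by norm_num) (by norm_num) (by norm_num)
    (by norm_num) (by norm_num) (by norm_num) (by norm_num) (by norm_num) (by norm_num) (by norm_num) (by norm_num) (by norm_num) (by norm_num)
  have e1 : C10.l = (2121 / 65536 : ℝ) := rfl
  have e2 : C10.u = (5113 / 131072 : ℝ) := rfl
  have e3 : C10.a1 = -(26582987 / 2097152 : ℝ) := by norm_num [C10]
  have e4 : C10.a2 = -(494162199 / 4194304 : ℝ) := by norm_num [C10]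
  have e5 : C10.e = (-423065457 / 4194304 : ℝ) := rfl
  have e6 : C10.f = (7778517 / 134217728 : ℝ) + (107526841 / 134217728 : ℝ) + (-244368587 / 268435456 : ℝ) := by norm_num [C10]
  rw [e1, e2, e3, e4, e5, e6]
  exact h

lemma rcell11 : ∃ N : ℝ, Rw4 P.r2 N (coCell (87579 / 65536 : ℝ) (868797 / 65536 : ℝ) ((379421 / 32768 : ℝ) + (107 / 256 : ℝ)) (115 / 4096 : ℝ) C11) := by
  refine ⟨(1207959552 : ℝ), ⟨Q14, List.mem_cons_of_mem _ (List.mem_cons_of_mem _ (List.mem_cons_of_mem _ (List.mem_cons_of_mem _ (List.mem_cons_of_mem _ (List.mem_cons_of_mem _ (List.mem_cons_of_mem _ (List.mem_cons_of_mem _ (List.mem_cons_of_mem _ (List.mem_cons_of_mem _ (List.mem_cons_of_mem _ (List.mem_cons_of_mem _ (List.mem_cons_of_mem _ (List.mem_cons_of_mem _ (List.mem_cons_self)))))))))))))), ?_⟩, by norm_num⟩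
  constructor <;> norm_num [Q14, coCell, C11]

lemma lcell11 : ∀ x1 x2 xc : ℝ, 0 ≤ x1 → x1 ≤ 1 → 0 ≤ x2 → x2 ≤ 1 → C11.l ≤ xc → xc ≤ C11.u →
    (87579 / 65536 : ℝ) * (1 - (1 - x1) ^ 13) + (868797 / 65536 : ℝ) * (1 - (1 - x2) ^ 13) - ((379421 / 32768 : ℝ) + (107 / 256 : ℝ)) * (1 - (1 - xc) ^ 13)
      ≤ - C11.a1 * x1 - C11.a2 * x2 + C11.e * xc + C11.f := by
  have h := cell_lines 13 (α1 := (87579 / 65536 : ℝ)) (α2 := (868797 / 65536 : ℝ)) (c := (379421 / 32768 : ℝ) + (107 / 256 : ℝ)) (y1 := (8149 / 262144 : ℝ)) (y2 := (9833 / 262144 : ℝ))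
    (A1 := (49882275 / 4194304 : ℝ)) (B1 := (10771175 / 134217728 : ℝ)) (A2 := (3569331 / 32768 : ℝ)) (B2 := (148472363 / 134217728 : ℝ)) (l := (5113 / 131072 : ℝ)) (u := (6163 / 131072 : ℝ))
    (E := (-386106089 / 4194304 : ℝ)) (F := (-168320341 / 134217728 : ℝ)) (by norm_num) (by norm_num) (by norm_num) (by norm_num) (by norm_num)
    (by norm_num) (by norm_num) (by norm_num) (by norm_num) (by norm_num) (by norm_num) (by norm_num) (by norm_num) (by norm_num) (by norm_num)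
  have e1 : C11.l = (5113 / 131072 : ℝ) := rfl
  have e2 : C11.u = (6163 / 131072 : ℝ) := rfl
  have e3 : C11.a1 = -(49882275 / 4194304 : ℝ) := by norm_num [C11]
  have e4 : C11.a2 = -(3569331 / 32768 : ℝ) := by norm_num [C11]
  have e5 : C11.e = (-386106089 / 4194304 : ℝ) := rfl
  have e6 : C11.f = (10771175 / 134217728 : ℝ) + (148472363 / 134217728 : ℝ) + (-168320341 / 134217728 : ℝ) := by norm_num [C11]
  rw [e1, e2, e3, e4, e5, e6]
  exact h

lemma rcell12 : ∃ N : ℝ, Rw4 P.r2 N (coCell (87579 / 65536 : ℝ) (868797 / 65536 : ℝ) ((379421 / 32768 : ℝ) + (107 / 256 : ℝ)) (115 / 4096 : ℝ) C12) := by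
  refine ⟨(2415919104 : ℝ), ⟨Q15, List.mem_cons_of_mem _ (List.mem_cons_of_mem _ (List.mem_cons_of_mem _ (List.mem_cons_of_mem _ (List.mem_cons_of_mem _ (List.mem_cons_of_mem _ (List.mem_cons_of_mem _ (List.mem_cons_of_mem _ (List.mem_cons_of_mem _ (List.mem_cons_of_mem _ (List.mem_cons_of_mem _ (List.mem_cons_of_mem _ (List.mem_cons_of_mem _ (List.mem_cons_of_mem _ (List.mem_cons_of_mem _ (List.mem_cons_self))))))))))))))), ?_⟩, by norm_num⟩
  constructor <;> norm_num [Q15, coCell, C12]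

lemma lcell12 : ∀ x1 x2 xc : ℝ, 0 ≤ x1 → x1 ≤ 1 → 0 ≤ x2 → x2 ≤ 1 → C12.l ≤ xc → xc ≤ C12.u →
    (87579 / 65536 : ℝ) * (1 - (1 - x1) ^ 13) + (868797 / 65536 : ℝ) * (1 - (1 - x2) ^ 13) - ((379421 / 32768 : ℝ) + (107 / 256 : ℝ)) * (1 - (1 - xc) ^ 13)
      ≤ - C12.a1 * x1 - C12.a2 * x2 + C12.e * xc + C12.f := by
  have h := cell_lines 13 (α1 := (87579 / 65536 : ℝ)) (α2 := (868797 / 65536 : ℝ)) (c := (379421 / 32768 : ℝ) + (107 / 256 : ℝ)) (y1 := (4817 / 131072 : ℝ)) (y2 := (11809 / 262144 : ℝ))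
    (A1 := (46492963 / 4194304 : ℝ)) (B1 := (28893191 / 268435456 : ℝ)) (A2 := (415739663 / 4194304 : ℝ)) (B2 := (405473273 / 268435456 : ℝ)) (l := (6163 / 131072 : ℝ)) (u := (14857 / 262144 : ℝ))
    (E := (-172755291 / 2097152 : ℝ)) (F := (-458803821 / 268435456 : ℝ)) (by norm_num) (by norm_num) (by norm_num) (by norm_num) (by norm_num)
    (by norm_num) (by norm_num) (by norm_num) (by norm_num) (by norm_num) (by norm_num) (by norm_num) (by norm_num) (by norm_num) (by norm_num)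
  have e1 : C12.l = (6163 / 131072 : ℝ) := rfl
  have e2 : C12.u = (14857 / 262144 : ℝ) := rfl
  have e3 : C12.a1 = -(46492963 / 4194304 : ℝ) := by norm_num [C12]
  have e4 : C12.a2 = -(415739663 / 4194304 : ℝ) := by norm_num [C12]
  have e5 : C12.e = (-172755291 / 2097152 : ℝ) := rfl
  have e6 : C12.f = (28893191 / 268435456 : ℝ) + (405473273 / 268435456 : ℝ) + (-458803821 / 268435456 : ℝ) := by norm_num [C12]
  rw [e1, e2, e3, e4, e5, e6]
  exact h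

lemma rcell13 : ∃ N : ℝ, Rw4 P.r2 N (coCell (87579 / 65536 : ℝ) (868797 / 65536 : ℝ) ((379421 / 32768 : ℝ) + (107 / 256 : ℝ)) (115 / 4096 : ℝ) C13) := by
  refine ⟨(1207959552 : ℝ), ⟨Q16, List.mem_cons_of_mem _ (List.mem_cons_of_mem _ (List.mem_cons_of_mem _ (List.mem_cons_of_mem _ (List.mem_cons_of_mem _ (List.mem_cons_of_mem _ (List.mem_cons_of_mem _ (List.mem_cons_of_mem _ (List.mem_cons_of_mem _ (List.mem_cons_of_mem _ (List.mem_cons_of_mem _ (List.mem_cons_of_mem _ (List.mem_cons_of_mem _ (List.mem_cons_of_mem _ (List.mem_cons_of_mem _ (List.mem_cons_of_mem _ (List.mem_cons_self)))))))))))))))), ?_⟩, by norm_num⟩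
  constructor <;> norm_num [Q16, coCell, C13]

lemma lcell13 : ∀ x1 x2 xc : ℝ, 0 ≤ x1 → x1 ≤ 1 → 0 ≤ x2 → x2 ≤ 1 → C13.l ≤ xc → xc ≤ C13.u →
    (87579 / 65536 : ℝ) * (1 - (1 - x1) ^ 13) + (868797 / 65536 : ℝ) * (1 - (1 - x2) ^ 13) - ((379421 / 32768 : ℝ) + (107 / 256 : ℝ)) * (1 - (1 - xc) ^ 13)
      ≤ - C13.a1 * x1 - C13.a2 * x2 + C13.e * xc + C13.f := by
  have h := cell_lines 13 (α1 := (87579 / 65536 : ℝ)) (α2 := (868797 / 65536 : ℝ)) (c := (379421 / 32768 : ℝ) + (107 / 256 : ℝ)) (y1 := (11251 / 262144 : ℝ)) (y2 := (1733 / 32768 : ℝ))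
    (A1 := (43043421 / 4194304 : ℝ)) (B1 := (9419887 / 67108864 : ℝ)) (A2 := (188292673 / 2097152 : ℝ)) (B2 := (132007749 / 67108864 : ℝ)) (l := (14857 / 262144 : ℝ)) (u := (17907 / 262144 : ℝ))
    (E := (-301814897 / 4194304 : ℝ)) (F := (-308648345 / 134217728 : ℝ)) (by norm_num) (by norm_num) (by norm_num) (by norm_num) (by norm_num)
    (by norm_num) (by norm_num) (by norm_num) (by norm_num) (by norm_num) (by norm_num) (by norm_num) (by norm_num) (by norm_num) (by norm_num)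
  have e1 : C13.l = (14857 / 262144 : ℝ) := rfl
  have e2 : C13.u = (17907 / 262144 : ℝ) := rfl
  have e3 : C13.a1 = -(43043421 / 4194304 : ℝ) := by norm_num [C13]
  have e4 : C13.a2 = -(188292673 / 2097152 : ℝ) := by norm_num [C13]
  have e5 : C13.e = (-301814897 / 4194304 : ℝ) := rfl
  have e6 : C13.f = (9419887 / 67108864 : ℝ) + (132007749 / 67108864 : ℝ) + (-308648345 / 134217728 : ℝ) := by norm_num [C13]
  rw [e1, e2, e3, e4, e5, e6]
  exact h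

lemma rcell14 : ∃ N : ℝ, Rw4 P.r2 N (coCell (87579 / 65536 : ℝ) (868797 / 65536 : ℝ) ((379421 / 32768 : ℝ) + (107 / 256 : ℝ)) (115 / 4096 : ℝ) C14) := by
  refine ⟨(603979776 : ℝ), ⟨Q17, List.mem_cons_of_mem _ (List.mem_cons_of_mem _ (List.mem_cons_of_mem _ (List.mem_cons_of_mem _ (List.mem_cons_of_mem _ (List.mem_cons_of_mem _ (List.mem_cons_of_mem _ (List.mem_cons_of_mem _ (List.mem_cons_of_mem _ (List.mem_cons_of_mem _ (List.mem_cons_of_mem _ (List.mem_cons_of_mem _ (List.mem_cons_of_mem _ (List.mem_cons_of_mem _ (List.mem_cons_of_mem _ (List.mem_cons_of_mem _ (List.mem_cons_of_mem _ (List.mem_cons_self))))))))))))))))), ?_⟩, by norm_num⟩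
  constructor <;> norm_num [Q17, coCell, C14]

lemma lcell14 : ∀ x1 x2 xc : ℝ, 0 ≤ x1 → x1 ≤ 1 → 0 ≤ x2 → x2 ≤ 1 → C14.l ≤ xc → xc ≤ C14.u →
    (87579 / 65536 : ℝ) * (1 - (1 - x1) ^ 13) + (868797 / 65536 : ℝ) * (1 - (1 - x2) ^ 13) - ((379421 / 32768 : ℝ) + (107 / 256 : ℝ)) * (1 - (1 - xc) ^ 13)
      ≤ - C14.a1 * x1 - C14.a2 * x2 + C14.e * xc + C14.f := by
  have h := cell_lines 13 (α1 := (87579 / 65536 : ℝ)) (α2 := (868797 / 65536 : ℝ)) (c := (379421 / 32768 : ℝ) + (107 / 256 : ℝ)) (y1 := (12949 / 262144 : ℝ)) (y2 := (16069 / 262144 : ℝ))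
    (A1 := (39674927 / 4194304 : ℝ)) (B1 := (23810865 / 134217728 : ℝ)) (A2 := (84588731 / 1048576 : ℝ)) (B2 := (166888511 / 67108864 : ℝ)) (l := (17907 / 262144 : ℝ)) (u := (1349 / 16384 : ℝ))
    (E := (-255920249 / 4194304 : ℝ)) (F := (-408970057 / 134217728 : ℝ)) (by norm_num) (by norm_num) (by norm_num) (by norm_num) (by norm_num)
    (by norm_num) (by norm_num) (by norm_num) (by norm_num) (by norm_num) (by norm_num) (by norm_num) (by norm_num) (by norm_num) (by norm_num)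
  have e1 : C14.l = (17907 / 262144 : ℝ) := rfl
  have e2 : C14.u = (1349 / 16384 : ℝ) := rfl
  have e3 : C14.a1 = -(39674927 / 4194304 : ℝ) := by norm_num [C14]
  have e4 : C14.a2 = -(84588731 / 1048576 : ℝ) := by norm_num [C14]
  have e5 : C14.e = (-255920249 / 4194304 : ℝ) := rfl
  have e6 : C14.f = (23810865 / 134217728 : ℝ) + (166888511 / 67108864 : ℝ) + (-408970057 / 134217728 : ℝ) := by norm_num [C14]
  rw [e1, e2, e3, e4, e5, e6]
  exact h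

lemma rcell15 : ∃ N : ℝ, Rw4 P.r2 N (coCell (87579 / 65536 : ℝ) (868797 / 65536 : ℝ) ((379421 / 32768 : ℝ) + (107 / 256 : ℝ)) (115 / 4096 : ℝ) C15) := by
  refine ⟨(75497472 : ℝ), ⟨Q18, List.mem_cons_of_mem _ (List.mem_cons_of_mem _ (List.mem_cons_of_mem _ (List.mem_cons_of_mem _ (List.mem_cons_of_mem _ (List.mem_cons_of_mem _ (List.mem_cons_of_mem _ (List.mem_cons_of_mem _ (List.mem_cons_of_mem _ (List.mem_cons_of_mem _ (List.mem_cons_of_mem _ (List.mem_cons_of_mem _ (List.mem_cons_of_mem _ (List.mem_cons_of_mem _ (List.mem_cons_of_mem _ (List.mem_cons_of_mem _ (List.mem_cons_of_mem _ (List.mem_cons_of_mem _ (List.mem_cons_self)))))))))))))))))), ?_⟩, by norm_num⟩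
  constructor <;> norm_num [Q18, coCell, C15]

lemma lcell15 : ∀ x1 x2 xc : ℝ, 0 ≤ x1 → x1 ≤ 1 → 0 ≤ x2 → x2 ≤ 1 → C15.l ≤ xc → xc ≤ C15.u →
    (87579 / 65536 : ℝ) * (1 - (1 - x1) ^ 13) + (868797 / 65536 : ℝ) * (1 - (1 - x2) ^ 13) - ((379421 / 32768 : ℝ) + (107 / 256 : ℝ)) * (1 - (1 - xc) ^ 13)
      ≤ - C15.a1 * x1 - C15.a2 * x2 + C15.e * xc + C15.f := by
  have h := cell_lines 13 (α1 := (87579 / 65536 : ℝ)) (α2 := (868797 / 65536 : ℝ)) (c := (379421 / 32768 : ℝ) + (107 / 256 : ℝ)) (y1 := (1853 / 32768 : ℝ)) (y2 := (18287 / 262144 : ℝ))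
    (A1 := (36237239 / 4194304 : ℝ)) (B1 := (59265489 / 268435456 : ℝ)) (A2 := (151759295 / 2097152 : ℝ)) (B2 := (101686973 / 33554432 : ℝ)) (l := (1349 / 16384 : ℝ)) (u := (13 / 128 : ℝ))
    (E := (-103047013 / 2097152 : ℝ)) (F := (-1080500953 / 268435456 : ℝ)) (by norm_num) (by norm_num) (by norm_num) (by norm_num) (by norm_num)
    (by norm_num) (by norm_num) (by norm_num) (by norm_num) (by norm_num) (by norm_num) (by norm_num) (by norm_num) (by norm_num) (by norm_num)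
  have e1 : C15.l = (1349 / 16384 : ℝ) := rfl
  have e2 : C15.u = (13 / 128 : ℝ) := rfl
  have e3 : C15.a1 = -(36237239 / 4194304 : ℝ) := by norm_num [C15]
  have e4 : C15.a2 = -(151759295 / 2097152 : ℝ) := by norm_num [C15]
  have e5 : C15.e = (-103047013 / 2097152 : ℝ) := rfl
  have e6 : C15.f = (59265489 / 268435456 : ℝ) + (101686973 / 33554432 : ℝ) + (-1080500953 / 268435456 : ℝ) := by norm_num [C15]
  rw [e1, e2, e3, e4, e5, e6]
  exact h

/-- The hypotheses at the origin. -/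
lemma horig (lam : ℝ) (hd : (13 : ℝ) * lam ^ 2 = 1) (hb : |lam| ≤ (19059353615 / 68719476736 : ℝ)) :
    OriginH 13 lam (87579 / 65536 : ℝ) (868797 / 65536 : ℝ) (379421 / 32768 : ℝ) (107 / 256 : ℝ) (115 / 4096 : ℝ) (45 / 512 : ℝ) (4233 / 4096 : ℝ) (1 / 256 : ℝ) 3298534883328 := by
  refine originH_of_num (d := 13) (by push_cast; exact hd) hb (by norm_num) (by norm_num) (by norm_num) (by norm_num)
    (by norm_num) (by norm_num) (by norm_num) (by norm_num) (by norm_num) (by norm_num) (by norm_num [S]) (by norm_num) ?_ ?_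
  · rw [hch]
    norm_num [abs_of_pos, abs_of_neg]
  · norm_num [abs_of_pos, abs_of_neg]

/-- Nonreconstruction at the bound. -/
theorem main : Tendsto (reconError 3 13 (-(1 / Real.sqrt 13))) atTop (𝓝 0) := by
  have hsq : Real.sqrt ((13 : ℕ) : ℝ) ^ 2 = 13 := by
    rw [Real.sq_sqrt (by positivity)]; norm_num
  have hsq' : Real.sqrt (13 : ℝ) ^ 2 = 13 := by
    rw [Real.sq_sqrt (by positivity)]
  have hs0 : 0 < Real.sqrt (13 : ℝ) := Real.sqrt_pos.2 (by norm_num)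
  have hl2 : ((13 : ℝ)) * (-(1 / Real.sqrt 13)) ^ 2 = 1 := by
    have : (-(1 / Real.sqrt (13 : ℝ))) ^ 2 = 1 / 13 := by
      rw [neg_sq, div_pow, hsq']; norm_num
    rw [this]; norm_num
  have hb : |(-(1 / Real.sqrt (13 : ℝ)))| ≤ (19059353615 / 68719476736 : ℝ) := by
    rw [abs_neg, abs_of_pos (by positivity)]
    rw [div_le_iff₀ hs0]
    have h1 : (1 : ℝ) ^ 2 ≤ ((19059353615 / 68719476736 : ℝ) * Real.sqrt 13) ^ 2 := by
      rw [mul_pow, hsq']; norm_num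
    exact le_of_sq_le_sq h1 (by positivity)
  have hb2 : (-(1 / 2) : ℝ) < -(1 / Real.sqrt (13 : ℝ)) := by
    have h2 := (abs_le.1 hb).1
    have h3 : ((19059353615 / 68719476736 : ℝ) : ℝ) < 1 / 2 := by norm_num
    linarith
  have h1 : (-(1 / Real.sqrt (13 : ℝ))) < 1 := by
    have : 0 < 1 / Real.sqrt (13 : ℝ) := by positivity
    linarith
  have hlam : |(S : ℝ) * (-(1 / Real.sqrt (13 : ℝ))) - ((P.lp : ℝ) - P.ln)| ≤ ((1 : ℕ) : ℝ) := by
    have h := lam_enc 13 19985180776178263 (by norm_num) (by norm_num [S]) (by norm_num [S])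
    have e : ((13 : ℕ) : ℝ) = (13 : ℝ) := by norm_num
    rw [e] at h
    exact h
  obtain ⟨hOa, hON⟩ := horig _ hl2 hb
  refine final_of_box (d := 13) (by norm_num) hb2 h1 (box hlam) (87579 / 65536 : ℝ) (868797 / 65536 : ℝ) (379421 / 32768 : ℝ) (107 / 256 : ℝ) (45 / 512 : ℝ) (4233 / 4096 : ℝ) (5243 / 1048576 : ℝ) (12435 / 16384 : ℝ) (115 / 4096 : ℝ) (13 / 128 : ℝ) cellsL
    (by norm_num) (by norm_num) (by norm_num) (by norm_num) (by norm_num) (by norm_num) (by norm_num) (by norm_num) (by norm_num)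
    (by norm_num) (by norm_num) (by norm_num) (by norm_num) (by norm_num) hOa hON rTa rTb rc1 rc2 rc3
    (forall_cons rcell0 (forall_cons rcell1 (forall_cons rcell2 (forall_cons rcell3 (forall_cons rcell4 (forall_cons rcell5 (forall_cons rcell6 (forall_cons rcell7 (forall_cons rcell8 (forall_cons rcell9 (forall_cons rcell10 (forall_cons rcell11 (forall_cons rcell12 (forall_cons rcell13 (forall_cons rcell14 (forall_cons rcell15 (forall_nil))))))))))))))))) hcover (forall_cons lcell0 (forall_cons lcell1 (forall_cons lcell2 (forall_cons lcell3 (forall_cons lcell4 (forall_cons lcell5 (forall_cons lcell6 (forall_cons lcell7 (forall_cons lcell8 (forall_cons lcell9 (forall_cons lcell10 (forall_cons lcell11 (forall_cons lcell12 (forall_cons lcell13 (forall_cons lcell14 (forall_cons lcell15 (forall_nil)))))))))))))))))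

end Vale.Agent.P154H.Tm.D13
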