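import Vale.Agent.P154H.D.D14
import Vale.Agent.P154H.FinalD
import Vale.Agent.P154H.OriginW

open Filter Topology

set_option maxRecDepth 100000

/-!
Nonreconstruction at the Kesten-Stigum bound for `d = 14`, negative eigenvalue.
-/

namespace Vale.Agent.P154H.Tm.D14

open Vale.Agent.P154 Vale.Agent.P154H

/-- A chord cell. -/
noncomputable def C0 : Cell := ⟨(5243 / 1048576 : ℝ), (795 / 131072 : ℝ), (-74444455 / 4194304 : ℝ), (-364861811 / 2097152 : ℝ), (-655449789 / 4194304 : ℝ), (-41505 / 33554432 : ℝ)⟩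

/-- A chord cell. -/
noncomputable def C1 : Cell := ⟨(795 / 131072 : ℝ), (1929 / 262144 : ℝ), (-36748711 / 2097152 : ℝ), (-359982491 / 2097152 : ℝ), (-645419819 / 4194304 : ℝ), (-532609 / 268435456 : ℝ)⟩

/-- A chord cell. -/
noncomputable def C2 : Cell := ⟨(1929 / 262144 : ℝ), (2341 / 262144 : ℝ), (-72594109 / 4194304 : ℝ), (-707776975 / 4194304 : ℝ), (-316713729 / 2097152 : ℝ), (-683511 / 268435456 : ℝ)⟩

/-- A chord cell. -/
noncomputable def C3 : Cell := ⟨(2341 / 262144 : ℝ), (355 / 32768 : ℝ), (-71347391 / 4194304 : ℝ), (-173449617 / 1048576 : ℝ), (-77394635 / 524288 : ℝ), (-276647 / 67108864 : ℝ)⟩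

/-- A chord cell. -/
noncomputable def C4 : Cell := ⟨(355 / 32768 : ℝ), (1723 / 131072 : ℝ), (-69910301 / 4194304 : ℝ), (-169313035 / 1048576 : ℝ), (-301123767 / 2097152 : ℝ), (-1783439 / 268435456 : ℝ)⟩

/-- A chord cell. -/
noncomputable def C5 : Cell := ⟨(1723 / 131072 : ℝ), (1045 / 65536 : ℝ), (-68342237 / 4194304 : ℝ), (-328483003 / 2097152 : ℝ), (-4549341 / 32768 : ℝ), (-2251721 / 268435456 : ℝ)⟩

/-- A chord cell. -/
noncomputable def C6 : Cell := ⟨(1045 / 65536 : ℝ), (317 / 16384 : ℝ), (-66099069 / 4194304 : ℝ), (-634327885 / 4194304 : ℝ), (-279475279 / 2097152 : ℝ), (-923777 / 67108864 : ℝ)⟩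

/-- A chord cell. -/
noncomputable def C7 : Cell := ⟨(317 / 16384 : ℝ), (3077 / 131072 : ℝ), (-31970071 / 2097152 : ℝ), (-606590589 / 4194304 : ℝ), (-265876021 / 2097152 : ℝ), (-4673343 / 268435456 : ℝ)⟩

/-- A chord cell. -/
noncomputable def C8 : Cell := ⟨(3077 / 131072 : ℝ), (3733 / 131072 : ℝ), (-61258681 / 4194304 : ℝ), (-288037965 / 2097152 : ℝ), (-125103027 / 1048576 : ℝ), (-990093 / 33554432 : ℝ)⟩

/-- A chord cell. -/
noncomputable def C9 : Cell := ⟨(3733 / 131072 : ℝ), (4529 / 131072 : ℝ), (-57974095 / 4194304 : ℝ), (-539973983 / 4194304 : ℝ), (-464693585 / 4194304 : ℝ), (-10185713 / 268435456 : ℝ)⟩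

/-- A chord cell. -/
noncomputable def C10 : Cell := ⟨(4529 / 131072 : ℝ), (5495 / 131072 : ℝ), (-54707529 / 4194304 : ℝ), (-31345473 / 262144 : ℝ), (-424523243 / 4194304 : ℝ), (-9395039 / 134217728 : ℝ)⟩

/-- A chord cell. -/
noncomputable def C11 : Cell := ⟨(5495 / 131072 : ℝ), (13333 / 262144 : ℝ), (-6260809 / 524288 : ℝ), (-457425841 / 4194304 : ℝ), (-95028459 / 1048576 : ℝ), (-25546147 / 268435456 : ℝ)⟩

/-- A chord cell. -/
noncomputable def C12 : Cell := ⟨(13333 / 262144 : ℝ), (1011 / 16384 : ℝ), (-11688923 / 1048576 : ℝ), (-102970167 / 1048576 : ℝ), (-332024385 / 4194304 : ℝ), (-46439123 / 268435456 : ℝ)⟩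

/-- A chord cell. -/
noncomputable def C13 : Cell := ⟨(1011 / 16384 : ℝ), (9813 / 131072 : ℝ), (-43043305 / 4194304 : ℝ), (-369621321 / 4194304 : ℝ), (-35156167 / 524288 : ℝ), (-48612117 / 134217728 : ℝ)⟩

/-- A chord cell. -/
noncomputable def C14 : Cell := ⟨(9813 / 131072 : ℝ), (95 / 1024 : ℝ), (-39356995 / 4194304 : ℝ), (-41466255 / 524288 : ℝ), (-56575155 / 1048576 : ℝ), (-51183903 / 67108864 : ℝ)⟩

/-- The chord cells. -/
noncomputable def cellsL : List Cell := [C0, C1, C2, C3, C4, C5, C6, C7, C8, C9, C10, C11, C12, C13, C14]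

lemma hcover : ∀ x : ℝ, (5243 / 1048576 : ℝ) ≤ x → x ≤ (95 / 1024 : ℝ) → ∃ D ∈ cellsL, D.l ≤ x ∧ x ≤ D.u := by
  refine cover_of_chain ?_ (by norm_num [C0])
  simp only [ChainP, C0, C1, C2, C3, C4, C5, C6, C7, C8, C9, C10, C11, C12, C13, C14]
  norm_num

lemma hch : ((Nat.choose 14 2 : ℕ) : ℝ) = 91 := by norm_num [Nat.choose]

lemma rTa : Rw4 P.r1 (1179648 : ℝ) (coTa 14 (87579 / 65536 : ℝ) (868797 / 65536 : ℝ) (379421 / 32768 : ℝ) (107 / 256 : ℝ) (117 / 4096 : ℝ)) := by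
  refine ⟨⟨Ra, List.mem_cons_self, ?_⟩, by norm_num⟩
  constructor <;> norm_num [Ra, coTa, hch]

lemma rTb : Rw4 P.r1 (39582418599936 : ℝ) (coTb 14 (87579 / 65536 : ℝ) (868797 / 65536 : ℝ) (379421 / 32768 : ℝ) (107 / 256 : ℝ) (117 / 4096 : ℝ) (45 / 512 : ℝ) (4233 / 4096 : ℝ) (14471 / 16384 : ℝ)) := by
  refine ⟨⟨Rb, List.mem_cons_of_mem _ (List.mem_cons_self), ?_⟩, by norm_num⟩
  constructor <;> norm_num [Rb, coTb, hch]

lemma rc1 : Rw4 P.r2 (16777216 : ℝ) ⟨0, 0, 0, -(87579 / 65536 : ℝ), 0, 0, 0, 0, (379421 / 32768 : ℝ) * (45 / 512 : ℝ)⟩ := by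
  refine ⟨⟨Q0, List.mem_cons_self, ?_⟩, by norm_num⟩
  constructor <;> norm_num [Q0]

lemma rc2 : Rw4 P.r2 (134217728 : ℝ) ⟨0, 0, 0, 0, -(868797 / 65536 : ℝ), 0, 0, 0, (379421 / 32768 : ℝ) * (4233 / 4096 : ℝ)⟩ := by
  refine ⟨⟨Q1, List.mem_cons_of_mem _ (List.mem_cons_self), ?_⟩, by norm_num⟩
  constructor <;> norm_num [Q1]

lemma rc3 : Rw4 P.r2 (3072 : ℝ) ⟨0, 0, 0, 0, 0, -1, 0, 0, (95 / 1024 : ℝ)⟩ := by
  refine ⟨⟨Q2, List.mem_cons_of_mem _ (List.mem_cons_of_mem _ (List.mem_cons_self)), ?_⟩, by norm_num⟩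
  constructor <;> norm_num [Q2]

lemma rcell0 : ∃ N : ℝ, Rw4 P.r2 N (coCell (87579 / 65536 : ℝ) (868797 / 65536 : ℝ) ((379421 / 32768 : ℝ) + (107 / 256 : ℝ)) (117 / 4096 : ℝ) C0) := by
  refine ⟨(100663296 : ℝ), ⟨Q3, List.mem_cons_of_mem _ (List.mem_cons_of_mem _ (List.mem_cons_of_mem _ (List.mem_cons_self))), ?_⟩, by norm_num⟩
  constructor <;> norm_num [Q3, coCell, C0]

lemma lcell0 : ∀ x1 x2 xc : ℝ, 0 ≤ x1 → x1 ≤ 1 → 0 ≤ x2 → x2 ≤ 1 → C0.l ≤ xc → xc ≤ C0.u →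
    (87579 / 65536 : ℝ) * (1 - (1 - x1) ^ 14) + (868797 / 65536 : ℝ) * (1 - (1 - x2) ^ 14) - ((379421 / 32768 : ℝ) + (107 / 256 : ℝ)) * (1 - (1 - xc) ^ 14)
      ≤ - C0.a1 * x1 - C0.a2 * x2 + C0.e * xc + C0.f := by
  have h := cell_lines 14 (α1 := (87579 / 65536 : ℝ)) (α2 := (868797 / 65536 : ℝ)) (c := (379421 / 32768 : ℝ) + (107 / 256 : ℝ)) (y1 := (265 / 65536 : ℝ)) (y2 := (325 / 65536 : ℝ))
    (A1 := (74444455 / 4194304 : ℝ)) (B1 := (516793 / 268435456 : ℝ)) (A2 := (364861811 / 2097152 : ℝ)) (B2 := (7654371 / 268435456 : ℝ)) (l := (5243 / 1048576 : ℝ)) (u := (795 / 131072 : ℝ))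
    (E := (-655449789 / 4194304 : ℝ)) (F := (-2125801 / 67108864 : ℝ)) (by norm_num) (by norm_num) (by norm_num) (by norm_num) (by norm_num)
    (by norm_num) (by norm_num) (by norm_num) (by norm_num) (by norm_num) (by norm_num) (by norm_num) (by norm_num) (by norm_num) (by norm_num)
  have e1 : C0.l = (5243 / 1048576 : ℝ) := rfl
  have e2 : C0.u = (795 / 131072 : ℝ) := rfl
  have e3 : C0.a1 = -(74444455 / 4194304 : ℝ) := by norm_num [C0]
  have e4 : C0.a2 = -(364861811 / 2097152 : ℝ) := by norm_num [C0]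
  have e5 : C0.e = (-655449789 / 4194304 : ℝ) := rfl
  have e6 : C0.f = (516793 / 268435456 : ℝ) + (7654371 / 268435456 : ℝ) + (-2125801 / 67108864 : ℝ) := by norm_num [C0]
  rw [e1, e2, e3, e4, e5, e6]
  exact h

lemma rcell1 : ∃ N : ℝ, Rw4 P.r2 N (coCell (87579 / 65536 : ℝ) (868797 / 65536 : ℝ) ((379421 / 32768 : ℝ) + (107 / 256 : ℝ)) (117 / 4096 : ℝ) C1) := by
  refine ⟨(805306368 : ℝ), ⟨Q4, List.mem_cons_of_mem _ (List.mem_cons_of_mem _ (List.mem_cons_of_mem _ (List.mem_cons_of_mem _ (List.mem_cons_self)))), ?_⟩, by norm_num⟩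
  constructor <;> norm_num [Q4, coCell, C1]

lemma lcell1 : ∀ x1 x2 xc : ℝ, 0 ≤ x1 → x1 ≤ 1 → 0 ≤ x2 → x2 ≤ 1 → C1.l ≤ xc → xc ≤ C1.u →
    (87579 / 65536 : ℝ) * (1 - (1 - x1) ^ 14) + (868797 / 65536 : ℝ) * (1 - (1 - x2) ^ 14) - ((379421 / 32768 : ℝ) + (107 / 256 : ℝ)) * (1 - (1 - xc) ^ 14)
      ≤ - C1.a1 * x1 - C1.a2 * x2 + C1.e * xc + C1.f := by
  have h := cell_lines 14 (α1 := (87579 / 65536 : ℝ)) (α2 := (868797 / 65536 : ℝ)) (c := (379421 / 32768 : ℝ) + (107 / 256 : ℝ)) (y1 := (1317 / 262144 : ℝ)) (y2 := (785 / 131072 : ℝ))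
    (A1 := (36748711 / 2097152 : ℝ)) (B1 := (791507 / 268435456 : ℝ)) (A2 := (359982491 / 2097152 : ℝ)) (B2 := (5536279 / 134217728 : ℝ)) (l := (795 / 131072 : ℝ)) (u := (1929 / 262144 : ℝ))
    (E := (-645419819 / 4194304 : ℝ)) (F := (-6198337 / 134217728 : ℝ)) (by norm_num) (by norm_num) (by norm_num) (by norm_num) (by norm_num)
    (by norm_num) (by norm_num) (by norm_num) (by norm_num) (by norm_num) (by norm_num) (by norm_num) (by norm_num) (by norm_num) (by norm_num)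
  have e1 : C1.l = (795 / 131072 : ℝ) := rfl
  have e2 : C1.u = (1929 / 262144 : ℝ) := rfl
  have e3 : C1.a1 = -(36748711 / 2097152 : ℝ) := by norm_num [C1]
  have e4 : C1.a2 = -(359982491 / 2097152 : ℝ) := by norm_num [C1]
  have e5 : C1.e = (-645419819 / 4194304 : ℝ) := rfl
  have e6 : C1.f = (791507 / 268435456 : ℝ) + (5536279 / 134217728 : ℝ) + (-6198337 / 134217728 : ℝ) := by norm_num [C1]
  rw [e1, e2, e3, e4, e5, e6]
  exact h

lemma rcell2 : ∃ N : ℝ, Rw4 P.r2 N (coCell (87579 / 65536 : ℝ) (868797 / 65536 : ℝ) ((379421 / 32768 : ℝ) + (107 / 256 : ℝ)) (117 / 4096 : ℝ) C2) := by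
  refine ⟨(805306368 : ℝ), ⟨Q5, List.mem_cons_of_mem _ (List.mem_cons_of_mem _ (List.mem_cons_of_mem _ (List.mem_cons_of_mem _ (List.mem_cons_of_mem _ (List.mem_cons_self))))), ?_⟩, by norm_num⟩
  constructor <;> norm_num [Q5, coCell, C2]

lemma lcell2 : ∀ x1 x2 xc : ℝ, 0 ≤ x1 → x1 ≤ 1 → 0 ≤ x2 → x2 ≤ 1 → C2.l ≤ xc → xc ≤ C2.u →
    (87579 / 65536 : ℝ) * (1 - (1 - x1) ^ 14) + (868797 / 65536 : ℝ) * (1 - (1 - x2) ^ 14) - ((379421 / 32768 : ℝ) + (107 / 256 : ℝ)) * (1 - (1 - xc) ^ 14)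
      ≤ - C2.a1 * x1 - C2.a2 * x2 + C2.e * xc + C2.f := by
  have h := cell_lines 14 (α1 := (87579 / 65536 : ℝ)) (α2 := (868797 / 65536 : ℝ)) (c := (379421 / 32768 : ℝ) + (107 / 256 : ℝ)) (y1 := (1565 / 262144 : ℝ)) (y2 := (239 / 32768 : ℝ))
    (A1 := (72594109 / 4194304 : ℝ)) (B1 := (1109237 / 268435456 : ℝ)) (A2 := (707776975 / 4194304 : ℝ)) (B2 := (1015731 / 16777216 : ℝ)) (l := (1929 / 262144 : ℝ)) (u := (2341 / 262144 : ℝ))
    (E := (-316713729 / 2097152 : ℝ)) (F := (-4511111 / 67108864 : ℝ)) (by norm_num) (by norm_num) (by norm_num) (by norm_num) (by norm_num)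
    (by norm_num) (by norm_num) (by norm_num) (by norm_num) (by norm_num) (by norm_num) (by norm_num) (by norm_num) (by norm_num) (by norm_num)
  have e1 : C2.l = (1929 / 262144 : ℝ) := rfl
  have e2 : C2.u = (2341 / 262144 : ℝ) := rfl
  have e3 : C2.a1 = -(72594109 / 4194304 : ℝ) := by norm_num [C2]
  have e4 : C2.a2 = -(707776975 / 4194304 : ℝ) := by norm_num [C2]
  have e5 : C2.e = (-316713729 / 2097152 : ℝ) := rfl
  have e6 : C2.f = (1109237 / 268435456 : ℝ) + (1015731 / 16777216 : ℝ) + (-4511111 / 67108864 : ℝ) := by norm_num [C2]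
  rw [e1, e2, e3, e4, e5, e6]
  exact h

lemma rcell3 : ∃ N : ℝ, Rw4 P.r2 N (coCell (87579 / 65536 : ℝ) (868797 / 65536 : ℝ) ((379421 / 32768 : ℝ) + (107 / 256 : ℝ)) (117 / 4096 : ℝ) C3) := by
  refine ⟨(201326592 : ℝ), ⟨Q6, List.mem_cons_of_mem _ (List.mem_cons_of_mem _ (List.mem_cons_of_mem _ (List.mem_cons_of_mem _ (List.mem_cons_of_mem _ (List.mem_cons_of_mem _ (List.mem_cons_self)))))), ?_⟩, by norm_num⟩
  constructor <;> norm_num [Q6, coCell, C3]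

lemma lcell3 : ∀ x1 x2 xc : ℝ, 0 ≤ x1 → x1 ≤ 1 → 0 ≤ x2 → x2 ≤ 1 → C3.l ≤ xc → xc ≤ C3.u →
    (87579 / 65536 : ℝ) * (1 - (1 - x1) ^ 14) + (868797 / 65536 : ℝ) * (1 - (1 - x2) ^ 14) - ((379421 / 32768 : ℝ) + (107 / 256 : ℝ)) * (1 - (1 - xc) ^ 14)
      ≤ - C3.a1 * x1 - C3.a2 * x2 + C3.e * xc + C3.f := by
  have h := cell_lines 14 (α1 := (87579 / 65536 : ℝ)) (α2 := (868797 / 65536 : ℝ)) (c := (379421 / 32768 : ℝ) + (107 / 256 : ℝ)) (y1 := (239 / 32768 : ℝ)) (y2 := (2311 / 262144 : ℝ))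
    (A1 := (71347391 / 4194304 : ℝ)) (B1 := (819141 / 134217728 : ℝ)) (A2 := (173449617 / 1048576 : ℝ)) (B2 := (1465973 / 16777216 : ℝ)) (l := (2341 / 262144 : ℝ)) (u := (355 / 32768 : ℝ))
    (E := (-77394635 / 524288 : ℝ)) (F := (-13100219 / 134217728 : ℝ)) (by norm_num) (by norm_num) (by norm_num) (by norm_num) (by norm_num)
    (by norm_num) (by norm_num) (by norm_num) (by norm_num) (by norm_num) (by norm_num) (by norm_num) (by norm_num) (by norm_num) (by norm_num)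
  have e1 : C3.l = (2341 / 262144 : ℝ) := rfl
  have e2 : C3.u = (355 / 32768 : ℝ) := rfl
  have e3 : C3.a1 = -(71347391 / 4194304 : ℝ) := by norm_num [C3]
  have e4 : C3.a2 = -(173449617 / 1048576 : ℝ) := by norm_num [C3]
  have e5 : C3.e = (-77394635 / 524288 : ℝ) := rfl
  have e6 : C3.f = (819141 / 134217728 : ℝ) + (1465973 / 16777216 : ℝ) + (-13100219 / 134217728 : ℝ) := by norm_num [C3]
  rw [e1, e2, e3, e4, e5, e6]
  exact h

lemma rcell4 : ∃ N : ℝ, Rw4 P.r2 N (coCell (87579 / 65536 : ℝ) (868797 / 65536 : ℝ) ((379421 / 32768 : ℝ) + (107 / 256 : ℝ)) (117 / 4096 : ℝ) C4) := by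
  refine ⟨(805306368 : ℝ), ⟨Q7, List.mem_cons_of_mem _ (List.mem_cons_of_mem _ (List.mem_cons_of_mem _ (List.mem_cons_of_mem _ (List.mem_cons_of_mem _ (List.mem_cons_of_mem _ (List.mem_cons_of_mem _ (List.mem_cons_self))))))), ?_⟩, by norm_num⟩
  constructor <;> norm_num [Q7, coCell, C4]

lemma lcell4 : ∀ x1 x2 xc : ℝ, 0 ≤ x1 → x1 ≤ 1 → 0 ≤ x2 → x2 ≤ 1 → C4.l ≤ xc → xc ≤ C4.u →
    (87579 / 65536 : ℝ) * (1 - (1 - x1) ^ 14) + (868797 / 65536 : ℝ) * (1 - (1 - x2) ^ 14) - ((379421 / 32768 : ℝ) + (107 / 256 : ℝ)) * (1 - (1 - xc) ^ 14)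
      ≤ - C4.a1 * x1 - C4.a2 * x2 + C4.e * xc + C4.f := by
  have h := cell_lines 14 (α1 := (87579 / 65536 : ℝ)) (α2 := (868797 / 65536 : ℝ)) (c := (379421 / 32768 : ℝ) + (107 / 256 : ℝ)) (y1 := (2319 / 262144 : ℝ)) (y2 := (2793 / 262144 : ℝ))
    (A1 := (69910301 / 4194304 : ℝ)) (B1 := (2380273 / 268435456 : ℝ)) (A2 := (169313035 / 1048576 : ℝ)) (B2 := (33761119 / 268435456 : ℝ)) (l := (355 / 32768 : ℝ)) (u := (1723 / 131072 : ℝ))
    (E := (-301123767 / 2097152 : ℝ)) (F := (-37924831 / 268435456 : ℝ)) (by norm_num) (by norm_num) (by norm_num) (by norm_num) (by norm_num)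
    (by norm_num) (by norm_num) (by norm_num) (by norm_num) (by norm_num) (by norm_num) (by norm_num) (by norm_num) (by norm_num) (by norm_num)
  have e1 : C4.l = (355 / 32768 : ℝ) := rfl
  have e2 : C4.u = (1723 / 131072 : ℝ) := rfl
  have e3 : C4.a1 = -(69910301 / 4194304 : ℝ) := by norm_num [C4]
  have e4 : C4.a2 = -(169313035 / 1048576 : ℝ) := by norm_num [C4]
  have e5 : C4.e = (-301123767 / 2097152 : ℝ) := rfl
  have e6 : C4.f = (2380273 / 268435456 : ℝ) + (33761119 / 268435456 : ℝ) + (-37924831 / 268435456 : ℝ) := by norm_num [C4]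
  rw [e1, e2, e3, e4, e5, e6]
  exact h

lemma rcell5 : ∃ N : ℝ, Rw4 P.r2 N (coCell (87579 / 65536 : ℝ) (868797 / 65536 : ℝ) ((379421 / 32768 : ℝ) + (107 / 256 : ℝ)) (117 / 4096 : ℝ) C5) := by
  refine ⟨(805306368 : ℝ), ⟨Q8, List.mem_cons_of_mem _ (List.mem_cons_of_mem _ (List.mem_cons_of_mem _ (List.mem_cons_of_mem _ (List.mem_cons_of_mem _ (List.mem_cons_of_mem _ (List.mem_cons_of_mem _ (List.mem_cons_of_mem _ (List.mem_cons_self)))))))), ?_⟩, by norm_num⟩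
  constructor <;> norm_num [Q8, coCell, C5]

lemma lcell5 : ∀ x1 x2 xc : ℝ, 0 ≤ x1 → x1 ≤ 1 → 0 ≤ x2 → x2 ≤ 1 → C5.l ≤ xc → xc ≤ C5.u →
    (87579 / 65536 : ℝ) * (1 - (1 - x1) ^ 14) + (868797 / 65536 : ℝ) * (1 - (1 - x2) ^ 14) - ((379421 / 32768 : ℝ) + (107 / 256 : ℝ)) * (1 - (1 - xc) ^ 14)
      ≤ - C5.a1 * x1 - C5.a2 * x2 + C5.e * xc + C5.f := by
  have h := cell_lines 14 (α1 := (87579 / 65536 : ℝ)) (α2 := (868797 / 65536 : ℝ)) (c := (379421 / 32768 : ℝ) + (107 / 256 : ℝ)) (y1 := (693 / 65536 : ℝ)) (y2 := (3399 / 262144 : ℝ))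
    (A1 := (68342237 / 4194304 : ℝ)) (B1 := (1677221 / 134217728 : ℝ)) (A2 := (328483003 / 2097152 : ℝ)) (B2 := (49087535 / 268435456 : ℝ)) (l := (1723 / 131072 : ℝ)) (u := (1045 / 65536 : ℝ))
    (E := (-4549341 / 32768 : ℝ)) (F := (-27346849 / 134217728 : ℝ)) (by norm_num) (by norm_num) (by norm_num) (by norm_num) (by norm_num)
    (by norm_num) (by norm_num) (by norm_num) (by norm_num) (by norm_num) (by norm_num) (by norm_num) (by norm_num) (by norm_num) (by norm_num)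
  have e1 : C5.l = (1723 / 131072 : ℝ) := rfl
  have e2 : C5.u = (1045 / 65536 : ℝ) := rfl
  have e3 : C5.a1 = -(68342237 / 4194304 : ℝ) := by norm_num [C5]
  have e4 : C5.a2 = -(328483003 / 2097152 : ℝ) := by norm_num [C5]
  have e5 : C5.e = (-4549341 / 32768 : ℝ) := rfl
  have e6 : C5.f = (1677221 / 134217728 : ℝ) + (49087535 / 268435456 : ℝ) + (-27346849 / 134217728 : ℝ) := by norm_num [C5]
  rw [e1, e2, e3, e4, e5, e6]
  exact h

lemma rcell6 : ∃ N : ℝ, Rw4 P.r2 N (coCell (87579 / 65536 : ℝ) (868797 / 65536 : ℝ) ((379421 / 32768 : ℝ) + (107 / 256 : ℝ)) (117 / 4096 : ℝ) C6) := by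
  refine ⟨(201326592 : ℝ), ⟨Q9, List.mem_cons_of_mem _ (List.mem_cons_of_mem _ (List.mem_cons_of_mem _ (List.mem_cons_of_mem _ (List.mem_cons_of_mem _ (List.mem_cons_of_mem _ (List.mem_cons_of_mem _ (List.mem_cons_of_mem _ (List.mem_cons_of_mem _ (List.mem_cons_self))))))))), ?_⟩, by norm_num⟩
  constructor <;> norm_num [Q9, coCell, C6]

lemma lcell6 : ∀ x1 x2 xc : ℝ, 0 ≤ x1 → x1 ≤ 1 → 0 ≤ x2 → x2 ≤ 1 → C6.l ≤ xc → xc ≤ C6.u →
    (87579 / 65536 : ℝ) * (1 - (1 - x1) ^ 14) + (868797 / 65536 : ℝ) * (1 - (1 - x2) ^ 14) - ((379421 / 32768 : ℝ) + (107 / 256 : ℝ)) * (1 - (1 - xc) ^ 14)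
      ≤ - C6.a1 * x1 - C6.a2 * x2 + C6.e * xc + C6.f := by
  have h := cell_lines 14 (α1 := (87579 / 65536 : ℝ)) (α2 := (868797 / 65536 : ℝ)) (c := (379421 / 32768 : ℝ) + (107 / 256 : ℝ)) (y1 := (3437 / 262144 : ℝ)) (y2 := (1 / 64 : ℝ))
    (A1 := (66099069 / 4194304 : ℝ)) (B1 := (1263425 / 67108864 : ℝ)) (A2 := (634327885 / 4194304 : ℝ)) (B2 := (34894573 / 134217728 : ℝ)) (l := (1045 / 65536 : ℝ)) (u := (317 / 16384 : ℝ))
    (E := (-279475279 / 2097152 : ℝ)) (F := (-39268977 / 134217728 : ℝ)) (by norm_num) (by norm_num) (by norm_num) (by norm_num) (by norm_num)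
    (by norm_num) (by norm_num) (by norm_num) (by norm_num) (by norm_num) (by norm_num) (by norm_num) (by norm_num) (by norm_num) (by norm_num)
  have e1 : C6.l = (1045 / 65536 : ℝ) := rfl
  have e2 : C6.u = (317 / 16384 : ℝ) := rfl
  have e3 : C6.a1 = -(66099069 / 4194304 : ℝ) := by norm_num [C6]
  have e4 : C6.a2 = -(634327885 / 4194304 : ℝ) := by norm_num [C6]
  have e5 : C6.e = (-279475279 / 2097152 : ℝ) := rfl
  have e6 : C6.f = (1263425 / 67108864 : ℝ) + (34894573 / 134217728 : ℝ) + (-39268977 / 134217728 : ℝ) := by norm_num [C6]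
  rw [e1, e2, e3, e4, e5, e6]
  exact h

lemma rcell7 : ∃ N : ℝ, Rw4 P.r2 N (coCell (87579 / 65536 : ℝ) (868797 / 65536 : ℝ) ((379421 / 32768 : ℝ) + (107 / 256 : ℝ)) (117 / 4096 : ℝ) C7) := by
  refine ⟨(805306368 : ℝ), ⟨Q10, List.mem_cons_of_mem _ (List.mem_cons_of_mem _ (List.mem_cons_of_mem _ (List.mem_cons_of_mem _ (List.mem_cons_of_mem _ (List.mem_cons_of_mem _ (List.mem_cons_of_mem _ (List.mem_cons_of_mem _ (List.mem_cons_of_mem _ (List.mem_cons_of_mem _ (List.mem_cons_self)))))))))), ?_⟩, by norm_num⟩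
  constructor <;> norm_num [Q10, coCell, C7]

lemma lcell7 : ∀ x1 x2 xc : ℝ, 0 ≤ x1 → x1 ≤ 1 → 0 ≤ x2 → x2 ≤ 1 → C7.l ≤ xc → xc ≤ C7.u →
    (87579 / 65536 : ℝ) * (1 - (1 - x1) ^ 14) + (868797 / 65536 : ℝ) * (1 - (1 - x2) ^ 14) - ((379421 / 32768 : ℝ) + (107 / 256 : ℝ)) * (1 - (1 - xc) ^ 14)
      ≤ - C7.a1 * x1 - C7.a2 * x2 + C7.e * xc + C7.f := by
  have h := cell_lines 14 (α1 := (87579 / 65536 : ℝ)) (α2 := (868797 / 65536 : ℝ)) (c := (379421 / 32768 : ℝ) + (107 / 256 : ℝ)) (y1 := (4097 / 262144 : ℝ)) (y2 := (2491 / 131072 : ℝ))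
    (A1 := (31970071 / 2097152 : ℝ)) (B1 := (3519155 / 134217728 : ℝ)) (A2 := (606590589 / 4194304 : ℝ)) (B2 := (50252857 / 134217728 : ℝ)) (l := (317 / 16384 : ℝ)) (u := (3077 / 131072 : ℝ))
    (E := (-265876021 / 2097152 : ℝ)) (F := (-112217367 / 268435456 : ℝ)) (by norm_num) (by norm_num) (by norm_num) (by norm_num) (by norm_num)
    (by norm_num) (by norm_num) (by norm_num) (by norm_num) (by norm_num) (by norm_num) (by norm_num) (by norm_num) (by norm_num) (by norm_num)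
  have e1 : C7.l = (317 / 16384 : ℝ) := rfl
  have e2 : C7.u = (3077 / 131072 : ℝ) := rfl
  have e3 : C7.a1 = -(31970071 / 2097152 : ℝ) := by norm_num [C7]
  have e4 : C7.a2 = -(606590589 / 4194304 : ℝ) := by norm_num [C7]
  have e5 : C7.e = (-265876021 / 2097152 : ℝ) := rfl
  have e6 : C7.f = (3519155 / 134217728 : ℝ) + (50252857 / 134217728 : ℝ) + (-112217367 / 268435456 : ℝ) := by norm_num [C7]
  rw [e1, e2, e3, e4, e5, e6]
  exact h

lemma rcell8 : ∃ N : ℝ, Rw4 P.r2 N (coCell (87579 / 65536 : ℝ) (868797 / 65536 : ℝ) ((379421 / 32768 : ℝ) + (107 / 256 : ℝ)) (117 / 4096 : ℝ) C8) := by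
  refine ⟨(100663296 : ℝ), ⟨Q11, List.mem_cons_of_mem _ (List.mem_cons_of_mem _ (List.mem_cons_of_mem _ (List.mem_cons_of_mem _ (List.mem_cons_of_mem _ (List.mem_cons_of_mem _ (List.mem_cons_of_mem _ (List.mem_cons_of_mem _ (List.mem_cons_of_mem _ (List.mem_cons_of_mem _ (List.mem_cons_of_mem _ (List.mem_cons_self))))))))))), ?_⟩, by norm_num⟩
  constructor <;> norm_num [Q11, coCell, C8]

lemma lcell8 : ∀ x1 x2 xc : ℝ, 0 ≤ x1 → x1 ≤ 1 → 0 ≤ x2 → x2 ≤ 1 → C8.l ≤ xc → xc ≤ C8.u →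
    (87579 / 65536 : ℝ) * (1 - (1 - x1) ^ 14) + (868797 / 65536 : ℝ) * (1 - (1 - x2) ^ 14) - ((379421 / 32768 : ℝ) + (107 / 256 : ℝ)) * (1 - (1 - xc) ^ 14)
      ≤ - C8.a1 * x1 - C8.a2 * x2 + C8.e * xc + C8.f := by
  have h := cell_lines 14 (α1 := (87579 / 65536 : ℝ)) (α2 := (868797 / 65536 : ℝ)) (c := (379421 / 32768 : ℝ) + (107 / 256 : ℝ)) (y1 := (2473 / 131072 : ℝ)) (y2 := (6001 / 262144 : ℝ))
    (A1 := (61258681 / 4194304 : ℝ)) (B1 := (9996495 / 268435456 : ℝ)) (A2 := (288037965 / 2097152 : ℝ)) (B2 := (70693271 / 134217728 : ℝ)) (l := (3077 / 131072 : ℝ)) (u := (3733 / 131072 : ℝ))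
    (E := (-125103027 / 1048576 : ℝ)) (F := (-159303781 / 268435456 : ℝ)) (by norm_num) (by norm_num) (by norm_num) (by norm_num) (by norm_num)
    (by norm_num) (by norm_num) (by norm_num) (by norm_num) (by norm_num) (by norm_num) (by norm_num) (by norm_num) (by norm_num) (by norm_num)
  have e1 : C8.l = (3077 / 131072 : ℝ) := rfl
  have e2 : C8.u = (3733 / 131072 : ℝ) := rfl
  have e3 : C8.a1 = -(61258681 / 4194304 : ℝ) := by norm_num [C8]
  have e4 : C8.a2 = -(288037965 / 2097152 : ℝ) := by norm_num [C8]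
  have e5 : C8.e = (-125103027 / 1048576 : ℝ) := rfl
  have e6 : C8.f = (9996495 / 268435456 : ℝ) + (70693271 / 134217728 : ℝ) + (-159303781 / 268435456 : ℝ) := by norm_num [C8]
  rw [e1, e2, e3, e4, e5, e6]
  exact h

lemma rcell9 : ∃ N : ℝ, Rw4 P.r2 N (coCell (87579 / 65536 : ℝ) (868797 / 65536 : ℝ) ((379421 / 32768 : ℝ) + (107 / 256 : ℝ)) (117 / 4096 : ℝ) C9) := by
  refine ⟨(805306368 : ℝ), ⟨Q12, List.mem_cons_of_mem _ (List.mem_cons_of_mem _ (List.mem_cons_of_mem _ (List.mem_cons_of_mem _ (List.mem_cons_of_mem _ (List.mem_cons_of_mem _ (List.mem_cons_of_mem _ (List.mem_cons_of_mem _ (List.mem_cons_of_mem _ (List.mem_cons_of_mem _ (List.mem_cons_of_mem _ (List.mem_cons_of_mem _ (List.mem_cons_self)))))))))))), ?_⟩, by norm_num⟩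
  constructor <;> norm_num [Q12, coCell, C9]

lemma lcell9 : ∀ x1 x2 xc : ℝ, 0 ≤ x1 → x1 ≤ 1 → 0 ≤ x2 → x2 ≤ 1 → C9.l ≤ xc → xc ≤ C9.u →
    (87579 / 65536 : ℝ) * (1 - (1 - x1) ^ 14) + (868797 / 65536 : ℝ) * (1 - (1 - x2) ^ 14) - ((379421 / 32768 : ℝ) + (107 / 256 : ℝ)) * (1 - (1 - xc) ^ 14)
      ≤ - C9.a1 * x1 - C9.a2 * x2 + C9.e * xc + C9.f := by
  have h := cell_lines 14 (α1 := (87579 / 65536 : ℝ)) (α2 := (868797 / 65536 : ℝ)) (c := (379421 / 32768 : ℝ) + (107 / 256 : ℝ)) (y1 := (3017 / 131072 : ℝ)) (y2 := (7273 / 262144 : ℝ))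
    (A1 := (57974095 / 4194304 : ℝ)) (B1 := (449851 / 8388608 : ℝ)) (A2 := (539973983 / 4194304 : ℝ)) (B2 := (199828913 / 268435456 : ℝ)) (l := (3733 / 131072 : ℝ)) (u := (4529 / 131072 : ℝ))
    (E := (-464693585 / 4194304 : ℝ)) (F := (-112204929 / 134217728 : ℝ)) (by norm_num) (by norm_num) (by norm_num) (by norm_num) (by norm_num)
    (by norm_num) (by norm_num) (by norm_num) (by norm_num) (by norm_num) (by norm_num) (by norm_num) (by norm_num) (by norm_num) (by norm_num)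
  have e1 : C9.l = (3733 / 131072 : ℝ) := rfl
  have e2 : C9.u = (4529 / 131072 : ℝ) := rfl
  have e3 : C9.a1 = -(57974095 / 4194304 : ℝ) := by norm_num [C9]
  have e4 : C9.a2 = -(539973983 / 4194304 : ℝ) := by norm_num [C9]
  have e5 : C9.e = (-464693585 / 4194304 : ℝ) := rfl
  have e6 : C9.f = (449851 / 8388608 : ℝ) + (199828913 / 268435456 : ℝ) + (-112204929 / 134217728 : ℝ) := by norm_num [C9]
  rw [e1, e2, e3, e4, e5, e6]
  exact h

lemma rcell10 : ∃ N : ℝ, Rw4 P.r2 N (coCell (87579 / 65536 : ℝ) (868797 / 65536 : ℝ) ((379421 / 32768 : ℝ) + (107 / 256 : ℝ)) (117 / 4096 : ℝ) C10) := by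
  refine ⟨(402653184 : ℝ), ⟨Q13, List.mem_cons_of_mem _ (List.mem_cons_of_mem _ (List.mem_cons_of_mem _ (List.mem_cons_of_mem _ (List.mem_cons_of_mem _ (List.mem_cons_of_mem _ (List.mem_cons_of_mem _ (List.mem_cons_of_mem _ (List.mem_cons_of_mem _ (List.mem_cons_of_mem _ (List.mem_cons_of_mem _ (List.mem_cons_of_mem _ (List.mem_cons_of_mem _ (List.mem_cons_self))))))))))))), ?_⟩, by norm_num⟩
  constructor <;> norm_num [Q13, coCell, C10]

lemma lcell10 : ∀ x1 x2 xc : ℝ, 0 ≤ x1 → x1 ≤ 1 → 0 ≤ x2 → x2 ≤ 1 → C10.l ≤ xc → xc ≤ C10.u →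
    (87579 / 65536 : ℝ) * (1 - (1 - x1) ^ 14) + (868797 / 65536 : ℝ) * (1 - (1 - x2) ^ 14) - ((379421 / 32768 : ℝ) + (107 / 256 : ℝ)) * (1 - (1 - xc) ^ 14)
      ≤ - C10.a1 * x1 - C10.a2 * x2 + C10.e * xc + C10.f := by
  have h := cell_lines 14 (α1 := (87579 / 65536 : ℝ)) (α2 := (868797 / 65536 : ℝ)) (c := (379421 / 32768 : ℝ) + (107 / 256 : ℝ)) (y1 := (3587 / 131072 : ℝ)) (y2 := (8717 / 262144 : ℝ))
    (A1 := (54707529 / 4194304 : ℝ)) (B1 := (4914469 / 67108864 : ℝ)) (A2 := (31345473 / 262144 : ℝ)) (B2 := (137397817 / 134217728 : ℝ)) (l := (4529 / 131072 : ℝ)) (u := (5495 / 131072 : ℝ))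
    (E := (-424523243 / 4194304 : ℝ)) (F := (-78310897 / 67108864 : ℝ)) (by norm_num) (by norm_num) (by norm_num) (by norm_num) (by norm_num)
    (by norm_num) (by norm_num) (by norm_num) (by norm_num) (by norm_num) (by norm_num) (by norm_num) (by norm_num) (by norm_num) (by norm_num)
  have e1 : C10.l = (4529 / 131072 : ℝ) := rfl
  have e2 : C10.u = (5495 / 131072 : ℝ) := rfl
  have e3 : C10.a1 = -(54707529 / 4194304 : ℝ) := by norm_num [C10]
  have e4 : C10.a2 = -(31345473 / 262144 : ℝ) := by norm_num [C10]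
  have e5 : C10.e = (-424523243 / 4194304 : ℝ) := rfl
  have e6 : C10.f = (4914469 / 67108864 : ℝ) + (137397817 / 134217728 : ℝ) + (-78310897 / 67108864 : ℝ) := by norm_num [C10]
  rw [e1, e2, e3, e4, e5, e6]
  exact h

lemma rcell11 : ∃ N : ℝ, Rw4 P.r2 N (coCell (87579 / 65536 : ℝ) (868797 / 65536 : ℝ) ((379421 / 32768 : ℝ) + (107 / 256 : ℝ)) (117 / 4096 : ℝ) C11) := by
  refine ⟨(805306368 : ℝ), ⟨Q14, List.mem_cons_of_mem _ (List.mem_cons_of_mem _ (List.mem_cons_of_mem _ (List.mem_cons_of_mem _ (List.mem_cons_of_mem _ (List.mem_cons_of_mem _ (List.mem_cons_of_mem _ (List.mem_cons_of_mem _ (List.mem_cons_of_mem _ (List.mem_cons_of_mem _ (List.mem_cons_of_mem _ (List.mem_cons_of_mem _ (List.mem_cons_of_mem _ (List.mem_cons_of_mem _ (List.mem_cons_self)))))))))))))), ?_⟩, by norm_num⟩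
  constructor <;> norm_num [Q14, coCell, C11]

lemma lcell11 : ∀ x1 x2 xc : ℝ, 0 ≤ x1 → x1 ≤ 1 → 0 ≤ x2 → x2 ≤ 1 → C11.l ≤ xc → xc ≤ C11.u →
    (87579 / 65536 : ℝ) * (1 - (1 - x1) ^ 14) + (868797 / 65536 : ℝ) * (1 - (1 - x2) ^ 14) - ((379421 / 32768 : ℝ) + (107 / 256 : ℝ)) * (1 - (1 - xc) ^ 14)
      ≤ - C11.a1 * x1 - C11.a2 * x2 + C11.e * xc + C11.f := by
  have h := cell_lines 14 (α1 := (87579 / 65536 : ℝ)) (α2 := (868797 / 65536 : ℝ)) (c := (379421 / 32768 : ℝ) + (107 / 256 : ℝ)) (y1 := (8899 / 262144 : ℝ)) (y2 := (10505 / 262144 : ℝ))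
    (A1 := (6260809 / 524288 : ℝ)) (B1 := (28711347 / 268435456 : ℝ)) (A2 := (457425841 / 4194304 : ℝ)) (B2 := (378141217 / 268435456 : ℝ)) (l := (5495 / 131072 : ℝ)) (u := (13333 / 262144 : ℝ))
    (E := (-95028459 / 1048576 : ℝ)) (F := (-432398711 / 268435456 : ℝ)) (by norm_num) (by norm_num) (by norm_num) (by norm_num) (by norm_num)
    (by norm_num) (by norm_num) (by norm_num) (by norm_num) (by norm_num) (by norm_num) (by norm_num) (by norm_num) (by norm_num) (by norm_num)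
  have e1 : C11.l = (5495 / 131072 : ℝ) := rfl
  have e2 : C11.u = (13333 / 262144 : ℝ) := rfl
  have e3 : C11.a1 = -(6260809 / 524288 : ℝ) := by norm_num [C11]
  have e4 : C11.a2 = -(457425841 / 4194304 : ℝ) := by norm_num [C11]
  have e5 : C11.e = (-95028459 / 1048576 : ℝ) := rfl
  have e6 : C11.f = (28711347 / 268435456 : ℝ) + (378141217 / 268435456 : ℝ) + (-432398711 / 268435456 : ℝ) := by norm_num [C11]
  rw [e1, e2, e3, e4, e5, e6]
  exact h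

lemma rcell12 : ∃ N : ℝ, Rw4 P.r2 N (coCell (87579 / 65536 : ℝ) (868797 / 65536 : ℝ) ((379421 / 32768 : ℝ) + (107 / 256 : ℝ)) (117 / 4096 : ℝ) C12) := by
  refine ⟨(805306368 : ℝ), ⟨Q15, List.mem_cons_of_mem _ (List.mem_cons_of_mem _ (List.mem_cons_of_mem _ (List.mem_cons_of_mem _ (List.mem_cons_of_mem _ (List.mem_cons_of_mem _ (List.mem_cons_of_mem _ (List.mem_cons_of_mem _ (List.mem_cons_of_mem _ (List.mem_cons_of_mem _ (List.mem_cons_of_mem _ (List.mem_cons_of_mem _ (List.mem_cons_of_mem _ (List.mem_cons_of_mem _ (List.mem_cons_of_mem _ (List.mem_cons_self))))))))))))))), ?_⟩, by norm_num⟩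
  constructor <;> norm_num [Q15, coCell, C12]

lemma lcell12 : ∀ x1 x2 xc : ℝ, 0 ≤ x1 → x1 ≤ 1 → 0 ≤ x2 → x2 ≤ 1 → C12.l ≤ xc → xc ≤ C12.u →
    (87579 / 65536 : ℝ) * (1 - (1 - x1) ^ 14) + (868797 / 65536 : ℝ) * (1 - (1 - x2) ^ 14) - ((379421 / 32768 : ℝ) + (107 / 256 : ℝ)) * (1 - (1 - xc) ^ 14)
      ≤ - C12.a1 * x1 - C12.a2 * x2 + C12.e * xc + C12.f := by
  have h := cell_lines 14 (α1 := (87579 / 65536 : ℝ)) (α2 := (868797 / 65536 : ℝ)) (c := (379421 / 32768 : ℝ) + (107 / 256 : ℝ)) (y1 := (2559 / 65536 : ℝ)) (y2 := (12527 / 262144 : ℝ))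
    (A1 := (11688923 / 1048576 : ℝ)) (B1 := (36485681 / 268435456 : ℝ)) (A2 := (102970167 / 1048576 : ℝ)) (B2 := (506011175 / 268435456 : ℝ)) (l := (13333 / 262144 : ℝ)) (u := (1011 / 16384 : ℝ))
    (E := (-332024385 / 4194304 : ℝ)) (F := (-588935979 / 268435456 : ℝ)) (by norm_num) (by norm_num) (by norm_num) (by norm_num) (by norm_num)
    (by norm_num) (by norm_num) (by norm_num) (by norm_num) (by norm_num) (by norm_num) (by norm_num) (by norm_num) (by norm_num) (by norm_num)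
  have e1 : C12.l = (13333 / 262144 : ℝ) := rfl
  have e2 : C12.u = (1011 / 16384 : ℝ) := rfl
  have e3 : C12.a1 = -(11688923 / 1048576 : ℝ) := by norm_num [C12]
  have e4 : C12.a2 = -(102970167 / 1048576 : ℝ) := by norm_num [C12]
  have e5 : C12.e = (-332024385 / 4194304 : ℝ) := rfl
  have e6 : C12.f = (36485681 / 268435456 : ℝ) + (506011175 / 268435456 : ℝ) + (-588935979 / 268435456 : ℝ) := by norm_num [C12]
  rw [e1, e2, e3, e4, e5, e6]
  exact h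

lemma rcell13 : ∃ N : ℝ, Rw4 P.r2 N (coCell (87579 / 65536 : ℝ) (868797 / 65536 : ℝ) ((379421 / 32768 : ℝ) + (107 / 256 : ℝ)) (117 / 4096 : ℝ) C13) := by
  refine ⟨(402653184 : ℝ), ⟨Q16, List.mem_cons_of_mem _ (List.mem_cons_of_mem _ (List.mem_cons_of_mem _ (List.mem_cons_of_mem _ (List.mem_cons_of_mem _ (List.mem_cons_of_mem _ (List.mem_cons_of_mem _ (List.mem_cons_of_mem _ (List.mem_cons_of_mem _ (List.mem_cons_of_mem _ (List.mem_cons_of_mem _ (List.mem_cons_of_mem _ (List.mem_cons_of_mem _ (List.mem_cons_of_mem _ (List.mem_cons_of_mem _ (List.mem_cons_of_mem _ (List.mem_cons_self)))))))))))))))), ?_⟩, by norm_num⟩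
  constructor <;> norm_num [Q16, coCell, C13]

lemma lcell13 : ∀ x1 x2 xc : ℝ, 0 ≤ x1 → x1 ≤ 1 → 0 ≤ x2 → x2 ≤ 1 → C13.l ≤ xc → xc ≤ C13.u →
    (87579 / 65536 : ℝ) * (1 - (1 - x1) ^ 14) + (868797 / 65536 : ℝ) * (1 - (1 - x2) ^ 14) - ((379421 / 32768 : ℝ) + (107 / 256 : ℝ)) * (1 - (1 - xc) ^ 14)
      ≤ - C13.a1 * x1 - C13.a2 * x2 + C13.e * xc + C13.f := by
  have h := cell_lines 14 (α1 := (87579 / 65536 : ℝ)) (α2 := (868797 / 65536 : ℝ)) (c := (379421 / 32768 : ℝ) + (107 / 256 : ℝ)) (y1 := (5917 / 131072 : ℝ)) (y2 := (14597 / 262144 : ℝ))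
    (A1 := (43043305 / 4194304 : ℝ)) (B1 := (46477975 / 268435456 : ℝ)) (A2 := (369621321 / 4194304 : ℝ)) (B2 := (322877773 / 134217728 : ℝ)) (l := (1011 / 16384 : ℝ)) (u := (9813 / 131072 : ℝ))
    (E := (-35156167 / 524288 : ℝ)) (F := (-789457755 / 268435456 : ℝ)) (by norm_num) (by norm_num) (by norm_num) (by norm_num) (by norm_num)
    (by norm_num) (by norm_num) (by norm_num) (by norm_num) (by norm_num) (by norm_num) (by norm_num) (by norm_num) (by norm_num) (by norm_num)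
  have e1 : C13.l = (1011 / 16384 : ℝ) := rfl
  have e2 : C13.u = (9813 / 131072 : ℝ) := rfl
  have e3 : C13.a1 = -(43043305 / 4194304 : ℝ) := by norm_num [C13]
  have e4 : C13.a2 = -(369621321 / 4194304 : ℝ) := by norm_num [C13]
  have e5 : C13.e = (-35156167 / 524288 : ℝ) := rfl
  have e6 : C13.f = (46477975 / 268435456 : ℝ) + (322877773 / 134217728 : ℝ) + (-789457755 / 268435456 : ℝ) := by norm_num [C13]
  rw [e1, e2, e3, e4, e5, e6]
  exact h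

lemma rcell14 : ∃ N : ℝ, Rw4 P.r2 N (coCell (87579 / 65536 : ℝ) (868797 / 65536 : ℝ) ((379421 / 32768 : ℝ) + (107 / 256 : ℝ)) (117 / 4096 : ℝ) C14) := by
  refine ⟨(201326592 : ℝ), ⟨Q17, List.mem_cons_of_mem _ (List.mem_cons_of_mem _ (List.mem_cons_of_mem _ (List.mem_cons_of_mem _ (List.mem_cons_of_mem _ (List.mem_cons_of_mem _ (List.mem_cons_of_mem _ (List.mem_cons_of_mem _ (List.mem_cons_of_mem _ (List.mem_cons_of_mem _ (List.mem_cons_of_mem _ (List.mem_cons_of_mem _ (List.mem_cons_of_mem _ (List.mem_cons_of_mem _ (List.mem_cons_of_mem _ (List.mem_cons_of_mem _ (List.mem_cons_of_mem _ (List.mem_cons_self))))))))))))))))), ?_⟩, by norm_num⟩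
  constructor <;> norm_num [Q17, coCell, C14]

lemma lcell14 : ∀ x1 x2 xc : ℝ, 0 ≤ x1 → x1 ≤ 1 → 0 ≤ x2 → x2 ≤ 1 → C14.l ≤ xc → xc ≤ C14.u →
    (87579 / 65536 : ℝ) * (1 - (1 - x1) ^ 14) + (868797 / 65536 : ℝ) * (1 - (1 - x2) ^ 14) - ((379421 / 32768 : ℝ) + (107 / 256 : ℝ)) * (1 - (1 - xc) ^ 14)
      ≤ - C14.a1 * x1 - C14.a2 * x2 + C14.e * xc + C14.f := by
  have h := cell_lines 14 (α1 := (87579 / 65536 : ℝ)) (α2 := (868797 / 65536 : ℝ)) (c := (379421 / 32768 : ℝ) + (107 / 256 : ℝ)) (y1 := (847 / 16384 : ℝ)) (y2 := (2081 / 32768 : ℝ))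
    (A1 := (39356995 / 4194304 : ℝ)) (B1 := (28945385 / 134217728 : ℝ)) (A2 := (41466255 / 524288 : ℝ)) (B2 := (98764795 / 33554432 : ℝ)) (l := (9813 / 131072 : ℝ)) (u := (95 / 1024 : ℝ))
    (E := (-56575155 / 1048576 : ℝ)) (F := (-526372371 / 134217728 : ℝ)) (by norm_num) (by norm_num) (by norm_num) (by norm_num) (by norm_num)
    (by norm_num) (by norm_num) (by norm_num) (by norm_num) (by norm_num) (by norm_num) (by norm_num) (by norm_num) (by norm_num) (by norm_num)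
  have e1 : C14.l = (9813 / 131072 : ℝ) := rfl
  have e2 : C14.u = (95 / 1024 : ℝ) := rfl
  have e3 : C14.a1 = -(39356995 / 4194304 : ℝ) := by norm_num [C14]
  have e4 : C14.a2 = -(41466255 / 524288 : ℝ) := by norm_num [C14]
  have e5 : C14.e = (-56575155 / 1048576 : ℝ) := rfl
  have e6 : C14.f = (28945385 / 134217728 : ℝ) + (98764795 / 33554432 : ℝ) + (-526372371 / 134217728 : ℝ) := by norm_num [C14]
  rw [e1, e2, e3, e4, e5, e6]
  exact h

/-- The hypotheses at the origin. -/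
lemma horig (lam : ℝ) (hd : (14 : ℝ) * lam ^ 2 = 1) (hb : |lam| ≤ (293856843137 / 1099511627776 : ℝ)) :
    OriginH 14 lam (87579 / 65536 : ℝ) (868797 / 65536 : ℝ) (379421 / 32768 : ℝ) (107 / 256 : ℝ) (117 / 4096 : ℝ) (45 / 512 : ℝ) (4233 / 4096 : ℝ) (1 / 256 : ℝ) 3298534883328 := by
  refine originH_of_num (d := 14) (by push_cast; exact hd) hb (by norm_num) (by norm_num) (by norm_num) (by norm_num)
    (by norm_num) (by norm_num) (by norm_num) (by norm_num) (by norm_num) (by norm_num) (by norm_num [S]) (by norm_num) ?_ ?_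
  · rw [hch]
    norm_num [abs_of_pos, abs_of_neg]
  · norm_num [abs_of_pos, abs_of_neg]

/-- Nonreconstruction at the bound. -/
theorem main : Tendsto (reconError 3 14 (-(1 / Real.sqrt 14))) atTop (𝓝 0) := by
  have hsq : Real.sqrt ((14 : ℕ) : ℝ) ^ 2 = 14 := by
    rw [Real.sq_sqrt (by positivity)]; norm_num
  have hsq' : Real.sqrt (14 : ℝ) ^ 2 = 14 := by
    rw [Real.sq_sqrt (by positivity)]
  have hs0 : 0 < Real.sqrt (14 : ℝ) := Real.sqrt_pos.2 (by norm_num)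
  have hl2 : ((14 : ℝ)) * (-(1 / Real.sqrt 14)) ^ 2 = 1 := by
    have : (-(1 / Real.sqrt (14 : ℝ))) ^ 2 = 1 / 14 := by
      rw [neg_sq, div_pow, hsq']; norm_num
    rw [this]; norm_num
  have hb : |(-(1 / Real.sqrt (14 : ℝ)))| ≤ (293856843137 / 1099511627776 : ℝ) := by
    rw [abs_neg, abs_of_pos (by positivity)]
    rw [div_le_iff₀ hs0]
    have h1 : (1 : ℝ) ^ 2 ≤ ((293856843137 / 1099511627776 : ℝ) * Real.sqrt 14) ^ 2 := by
      rw [mul_pow, hsq']; norm_num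
    exact le_of_sq_le_sq h1 (by positivity)
  have hb2 : (-(1 / 2) : ℝ) < -(1 / Real.sqrt (14 : ℝ)) := by
    have h2 := (abs_le.1 hb).1
    have h3 : ((293856843137 / 1099511627776 : ℝ) : ℝ) < 1 / 2 := by norm_num
    linarith
  have h1 : (-(1 / Real.sqrt (14 : ℝ))) < 1 := by
    have : 0 < 1 / Real.sqrt (14 : ℝ) := by positivity
    linarith
  have hlam : |(S : ℝ) * (-(1 / Real.sqrt (14 : ℝ))) - ((P.lp : ℝ) - P.ln)| ≤ ((1 : ℕ) : ℝ) := by
    have h := lam_enc 14 19258202071797927 (by norm_num) (by norm_num [S]) (by norm_num [S])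
    have e : ((14 : ℕ) : ℝ) = (14 : ℝ) := by norm_num
    rw [e] at h
    exact h
  obtain ⟨hOa, hON⟩ := horig _ hl2 hb
  refine final_of_box (d := 14) (by norm_num) hb2 h1 (box hlam) (87579 / 65536 : ℝ) (868797 / 65536 : ℝ) (379421 / 32768 : ℝ) (107 / 256 : ℝ) (45 / 512 : ℝ) (4233 / 4096 : ℝ) (5243 / 1048576 : ℝ) (14471 / 16384 : ℝ) (117 / 4096 : ℝ) (95 / 1024 : ℝ) cellsL
    (by norm_num) (by norm_num) (by norm_num) (by norm_num) (by norm_num) (by norm_num) (by norm_num) (by norm_num) (by norm_num)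
    (by norm_num) (by norm_num) (by norm_num) (by norm_num) (by norm_num) hOa hON rTa rTb rc1 rc2 rc3
    (forall_cons rcell0 (forall_cons rcell1 (forall_cons rcell2 (forall_cons rcell3 (forall_cons rcell4 (forall_cons rcell5 (forall_cons rcell6 (forall_cons rcell7 (forall_cons rcell8 (forall_cons rcell9 (forall_cons rcell10 (forall_cons rcell11 (forall_cons rcell12 (forall_cons rcell13 (forall_cons rcell14 (forall_nil)))))))))))))))) hcover (forall_cons lcell0 (forall_cons lcell1 (forall_cons lcell2 (forall_cons lcell3 (forall_cons lcell4 (forall_cons lcell5 (forall_cons lcell6 (forall_cons lcell7 (forall_cons lcell8 (forall_cons lcell9 (forall_cons lcell10 (forall_cons lcell11 (forall_cons lcell12 (forall_cons lcell13 (forall_cons lcell14 (forall_nil))))))))))))))))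

end Vale.Agent.P154H.Tm.D14
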