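import Vale.Agent.P154H.D.D15
import Vale.Agent.P154H.FinalD
import Vale.Agent.P154H.OriginW

open Filter Topology

set_option maxRecDepth 100000

/-!
Nonreconstruction at the Kesten-Stigum bound for `d = 15`, negative eigenvalue.
-/

namespace Vale.Agent.P154H.Tm.D15

open Vale.Agent.P154 Vale.Agent.P154H

/-- A chord cell. -/
noncomputable def C0 : Cell := ⟨(5243 / 1048576 : ℝ), (791 / 131072 : ℝ), (-619955 / 32768 : ℝ), (-389172679 / 2097152 : ℝ), (-349266363 / 2097152 : ℝ), (-213287 / 134217728 : ℝ)⟩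

/-- A chord cell. -/
noncomputable def C1 : Cell := ⟨(791 / 131072 : ℝ), (1909 / 262144 : ℝ), (-39219989 / 2097152 : ℝ), (-767100773 / 4194304 : ℝ), (-171849409 / 1048576 : ℝ), (-546861 / 268435456 : ℝ)⟩

/-- A chord cell. -/
noncomputable def C2 : Cell := ⟨(1909 / 262144 : ℝ), (2303 / 262144 : ℝ), (-38626387 / 2097152 : ℝ), (-377089785 / 2097152 : ℝ), (-337098757 / 2097152 : ℝ), (-107215 / 33554432 : ℝ)⟩

/-- A chord cell. -/
noncomputable def C3 : Cell := ⟨(2303 / 262144 : ℝ), (2779 / 262144 : ℝ), (-76012733 / 4194304 : ℝ), (-184588011 / 1048576 : ℝ), (-658583909 / 4194304 : ℝ), (-137145 / 33554432 : ℝ)⟩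

/-- A chord cell. -/
noncomputable def C4 : Cell := ⟨(2779 / 262144 : ℝ), (3353 / 262144 : ℝ), (-74265279 / 4194304 : ℝ), (-360229023 / 2097152 : ℝ), (-640188419 / 4194304 : ℝ), (-441987 / 67108864 : ℝ)⟩

/-- A chord cell. -/
noncomputable def C5 : Cell := ⟨(3353 / 262144 : ℝ), (2023 / 131072 : ℝ), (-72641385 / 4194304 : ℝ), (-698534021 / 4194304 : ℝ), (-618628531 / 4194304 : ℝ), (-2299033 / 268435456 : ℝ)⟩

/-- A chord cell. -/
noncomputable def C6 : Cell := ⟨(2023 / 131072 : ℝ), (4883 / 262144 : ℝ), (-35335629 / 2097152 : ℝ), (-673715189 / 4194304 : ℝ), (-148373749 / 1048576 : ℝ), (-3692103 / 268435456 : ℝ)⟩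

/-- A chord cell. -/
noncomputable def C7 : Cell := ⟨(4883 / 262144 : ℝ), (1473 / 65536 : ℝ), (-68020673 / 4194304 : ℝ), (-644403749 / 4194304 : ℝ), (-141109181 / 1048576 : ℝ), (-4716435 / 268435456 : ℝ)⟩

/-- A chord cell. -/
noncomputable def C8 : Cell := ⟨(1473 / 65536 : ℝ), (7109 / 262144 : ℝ), (-8096503 / 524288 : ℝ), (-153030723 / 1048576 : ℝ), (-265579991 / 2097152 : ℝ), (-7701193 / 268435456 : ℝ)⟩

/-- A chord cell. -/
noncomputable def C9 : Cell := ⟨(7109 / 262144 : ℝ), (8579 / 262144 : ℝ), (-15422879 / 1048576 : ℝ), (-573686625 / 4194304 : ℝ), (-493427363 / 4194304 : ℝ), (-4976285 / 134217728 : ℝ)⟩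

/-- A chord cell. -/
noncomputable def C10 : Cell := ⟨(8579 / 262144 : ℝ), (647 / 16384 : ℝ), (-58129323 / 4194304 : ℝ), (-533281287 / 4194304 : ℝ), (-451213769 / 4194304 : ℝ), (-18234249 / 268435456 : ℝ)⟩

/-- A chord cell. -/
noncomputable def C11 : Cell := ⟨(647 / 16384 : ℝ), (12491 / 262144 : ℝ), (-53455815 / 4194304 : ℝ), (-487192883 / 4194304 : ℝ), (-101192927 / 1048576 : ℝ), (-12582895 / 134217728 : ℝ)⟩

/-- A chord cell. -/
noncomputable def C12 : Cell := ⟨(12491 / 262144 : ℝ), (15073 / 262144 : ℝ), (-49979743 / 4194304 : ℝ), (-110069033 / 1048576 : ℝ), (-354659903 / 4194304 : ℝ), (-23510845 / 134217728 : ℝ)⟩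

/-- A chord cell. -/
noncomputable def C13 : Cell := ⟨(15073 / 262144 : ℝ), (4547 / 65536 : ℝ), (-46212329 / 4194304 : ℝ), (-397763197 / 4194304 : ℝ), (-301890477 / 4194304 : ℝ), (-101156785 / 268435456 : ℝ)⟩

/-- A chord cell. -/
noncomputable def C14 : Cell := ⟨(4547 / 65536 : ℝ), (11 / 128 : ℝ), (-5296419 / 524288 : ℝ), (-178842999 / 2097152 : ℝ), (-15248975 / 262144 : ℝ), (-25764037 / 33554432 : ℝ)⟩

/-- The chord cells. -/
noncomputable def cellsL : List Cell := [C0, C1, C2, C3, C4, C5, C6, C7, C8, C9, C10, C11, C12, C13, C14]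

lemma hcover : ∀ x : ℝ, (5243 / 1048576 : ℝ) ≤ x → x ≤ (11 / 128 : ℝ) → ∃ D ∈ cellsL, D.l ≤ x ∧ x ≤ D.u := by
  refine cover_of_chain ?_ (by norm_num [C0])
  simp only [ChainP, C0, C1, C2, C3, C4, C5, C6, C7, C8, C9, C10, C11, C12, C13, C14]
  norm_num

lemma hch : ((Nat.choose 15 2 : ℕ) : ℝ) = 105 := by norm_num [Nat.choose]

lemma rTa : Rw4 P.r1 (393216 : ℝ) (coTa 15 (87579 / 65536 : ℝ) (868797 / 65536 : ℝ) (379421 / 32768 : ℝ) (107 / 256 : ℝ) (129 / 4096 : ℝ)) := by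
  refine ⟨⟨Ra, List.mem_cons_self, ?_⟩, by norm_num⟩
  constructor <;> norm_num [Ra, coTa, hch]

lemma rTb : Rw4 P.r1 (824633720832 : ℝ) (coTb 15 (87579 / 65536 : ℝ) (868797 / 65536 : ℝ) (379421 / 32768 : ℝ) (107 / 256 : ℝ) (129 / 4096 : ℝ) (45 / 512 : ℝ) (4233 / 4096 : ℝ) (1041 / 1024 : ℝ)) := by
  refine ⟨⟨Rb, List.mem_cons_of_mem _ (List.mem_cons_self), ?_⟩, by norm_num⟩
  constructor <;> norm_num [Rb, coTb, hch]

lemma rc1 : Rw4 P.r2 (16777216 : ℝ) ⟨0, 0, 0, -(87579 / 65536 : ℝ), 0, 0, 0, 0, (379421 / 32768 : ℝ) * (45 / 512 : ℝ)⟩ := by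
  refine ⟨⟨Q0, List.mem_cons_self, ?_⟩, by norm_num⟩
  constructor <;> norm_num [Q0]

lemma rc2 : Rw4 P.r2 (134217728 : ℝ) ⟨0, 0, 0, 0, -(868797 / 65536 : ℝ), 0, 0, 0, (379421 / 32768 : ℝ) * (4233 / 4096 : ℝ)⟩ := by
  refine ⟨⟨Q1, List.mem_cons_of_mem _ (List.mem_cons_self), ?_⟩, by norm_num⟩
  constructor <;> norm_num [Q1]

lemma rc3 : Rw4 P.r2 (384 : ℝ) ⟨0, 0, 0, 0, 0, -1, 0, 0, (11 / 128 : ℝ)⟩ := by
  refine ⟨⟨Q2, List.mem_cons_of_mem _ (List.mem_cons_of_mem _ (List.mem_cons_self)), ?_⟩, by norm_num⟩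
  constructor <;> norm_num [Q2]

lemma rcell0 : ∃ N : ℝ, Rw4 P.r2 N (coCell (87579 / 65536 : ℝ) (868797 / 65536 : ℝ) ((379421 / 32768 : ℝ) + (107 / 256 : ℝ)) (129 / 4096 : ℝ) C0) := by
  refine ⟨(402653184 : ℝ), ⟨Q3, List.mem_cons_of_mem _ (List.mem_cons_of_mem _ (List.mem_cons_of_mem _ (List.mem_cons_self))), ?_⟩, by norm_num⟩
  constructor <;> norm_num [Q3, coCell, C0]

lemma lcell0 : ∀ x1 x2 xc : ℝ, 0 ≤ x1 → x1 ≤ 1 → 0 ≤ x2 → x2 ≤ 1 → C0.l ≤ xc → xc ≤ C0.u →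
    (87579 / 65536 : ℝ) * (1 - (1 - x1) ^ 15) + (868797 / 65536 : ℝ) * (1 - (1 - x2) ^ 15) - ((379421 / 32768 : ℝ) + (107 / 256 : ℝ)) * (1 - (1 - xc) ^ 15)
      ≤ - C0.a1 * x1 - C0.a2 * x2 + C0.e * xc + C0.f := by
  have h := cell_lines 15 (α1 := (87579 / 65536 : ℝ)) (α2 := (868797 / 65536 : ℝ)) (c := (379421 / 32768 : ℝ) + (107 / 256 : ℝ)) (y1 := (135 / 32768 : ℝ)) (y2 := (1291 / 262144 : ℝ))
    (A1 := (619955 / 32768 : ℝ)) (B1 := (616937 / 268435456 : ℝ)) (A2 := (389172679 / 2097152 : ℝ)) (B2 := (4341997 / 134217728 : ℝ)) (l := (5243 / 1048576 : ℝ)) (u := (791 / 131072 : ℝ))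
    (E := (-349266363 / 2097152 : ℝ)) (F := (-9727505 / 268435456 : ℝ)) (by norm_num) (by norm_num) (by norm_num) (by norm_num) (by norm_num)
    (by norm_num) (by norm_num) (by norm_num) (by norm_num) (by norm_num) (by norm_num) (by norm_num) (by norm_num) (by norm_num) (by norm_num)
  have e1 : C0.l = (5243 / 1048576 : ℝ) := rfl
  have e2 : C0.u = (791 / 131072 : ℝ) := rfl
  have e3 : C0.a1 = -(619955 / 32768 : ℝ) := by norm_num [C0]
  have e4 : C0.a2 = -(389172679 / 2097152 : ℝ) := by norm_num [C0]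
  have e5 : C0.e = (-349266363 / 2097152 : ℝ) := rfl
  have e6 : C0.f = (616937 / 268435456 : ℝ) + (4341997 / 134217728 : ℝ) + (-9727505 / 268435456 : ℝ) := by norm_num [C0]
  rw [e1, e2, e3, e4, e5, e6]
  exact h

lemma rcell1 : ∃ N : ℝ, Rw4 P.r2 N (coCell (87579 / 65536 : ℝ) (868797 / 65536 : ℝ) ((379421 / 32768 : ℝ) + (107 / 256 : ℝ)) (129 / 4096 : ℝ) C1) := by
  refine ⟨(805306368 : ℝ), ⟨Q4, List.mem_cons_of_mem _ (List.mem_cons_of_mem _ (List.mem_cons_of_mem _ (List.mem_cons_of_mem _ (List.mem_cons_self)))), ?_⟩, by norm_num⟩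
  constructor <;> norm_num [Q4, coCell, C1]

lemma lcell1 : ∀ x1 x2 xc : ℝ, 0 ≤ x1 → x1 ≤ 1 → 0 ≤ x2 → x2 ≤ 1 → C1.l ≤ xc → xc ≤ C1.u →
    (87579 / 65536 : ℝ) * (1 - (1 - x1) ^ 15) + (868797 / 65536 : ℝ) * (1 - (1 - x2) ^ 15) - ((379421 / 32768 : ℝ) + (107 / 256 : ℝ)) * (1 - (1 - xc) ^ 15)
      ≤ - C1.a1 * x1 - C1.a2 * x2 + C1.e * xc + C1.f := by
  have h := cell_lines 15 (α1 := (87579 / 65536 : ℝ)) (α2 := (868797 / 65536 : ℝ)) (c := (379421 / 32768 : ℝ) + (107 / 256 : ℝ)) (y1 := (81 / 16384 : ℝ)) (y2 := (781 / 131072 : ℝ))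
    (A1 := (39219989 / 2097152 : ℝ)) (B1 := (441027 / 134217728 : ℝ)) (A2 := (767100773 / 4194304 : ℝ)) (B2 := (12599301 / 268435456 : ℝ)) (l := (791 / 131072 : ℝ)) (u := (1909 / 262144 : ℝ))
    (E := (-171849409 / 1048576 : ℝ)) (F := (-1753527 / 33554432 : ℝ)) (by norm_num) (by norm_num) (by norm_num) (by norm_num) (by norm_num)
    (by norm_num) (by norm_num) (by norm_num) (by norm_num) (by norm_num) (by norm_num) (by norm_num) (by norm_num) (by norm_num) (by norm_num)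
  have e1 : C1.l = (791 / 131072 : ℝ) := rfl
  have e2 : C1.u = (1909 / 262144 : ℝ) := rfl
  have e3 : C1.a1 = -(39219989 / 2097152 : ℝ) := by norm_num [C1]
  have e4 : C1.a2 = -(767100773 / 4194304 : ℝ) := by norm_num [C1]
  have e5 : C1.e = (-171849409 / 1048576 : ℝ) := rfl
  have e6 : C1.f = (441027 / 134217728 : ℝ) + (12599301 / 268435456 : ℝ) + (-1753527 / 33554432 : ℝ) := by norm_num [C1]
  rw [e1, e2, e3, e4, e5, e6]
  exact h

lemma rcell2 : ∃ N : ℝ, Rw4 P.r2 N (coCell (87579 / 65536 : ℝ) (868797 / 65536 : ℝ) ((379421 / 32768 : ℝ) + (107 / 256 : ℝ)) (129 / 4096 : ℝ) C2) := by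
  refine ⟨(100663296 : ℝ), ⟨Q5, List.mem_cons_of_mem _ (List.mem_cons_of_mem _ (List.mem_cons_of_mem _ (List.mem_cons_of_mem _ (List.mem_cons_of_mem _ (List.mem_cons_self))))), ?_⟩, by norm_num⟩
  constructor <;> norm_num [Q5, coCell, C2]

lemma lcell2 : ∀ x1 x2 xc : ℝ, 0 ≤ x1 → x1 ≤ 1 → 0 ≤ x2 → x2 ≤ 1 → C2.l ≤ xc → xc ≤ C2.u →
    (87579 / 65536 : ℝ) * (1 - (1 - x1) ^ 15) + (868797 / 65536 : ℝ) * (1 - (1 - x2) ^ 15) - ((379421 / 32768 : ℝ) + (107 / 256 : ℝ)) * (1 - (1 - xc) ^ 15)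
      ≤ - C2.a1 * x1 - C2.a2 * x2 + C2.e * xc + C2.f := by
  have h := cell_lines 15 (α1 := (87579 / 65536 : ℝ)) (α2 := (868797 / 65536 : ℝ)) (c := (379421 / 32768 : ℝ) + (107 / 256 : ℝ)) (y1 := (395 / 65536 : ℝ)) (y2 := (939 / 131072 : ℝ))
    (A1 := (38626387 / 2097152 : ℝ)) (B1 := (1298749 / 268435456 : ℝ)) (A2 := (377089785 / 2097152 : ℝ)) (B2 := (18023855 / 268435456 : ℝ)) (l := (1909 / 262144 : ℝ)) (u := (2303 / 262144 : ℝ))
    (E := (-337098757 / 2097152 : ℝ)) (F := (-5045081 / 67108864 : ℝ)) (by norm_num) (by norm_num) (by norm_num) (by norm_num) (by norm_num)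
    (by norm_num) (by norm_num) (by norm_num) (by norm_num) (by norm_num) (by norm_num) (by norm_num) (by norm_num) (by norm_num) (by norm_num)
  have e1 : C2.l = (1909 / 262144 : ℝ) := rfl
  have e2 : C2.u = (2303 / 262144 : ℝ) := rfl
  have e3 : C2.a1 = -(38626387 / 2097152 : ℝ) := by norm_num [C2]
  have e4 : C2.a2 = -(377089785 / 2097152 : ℝ) := by norm_num [C2]
  have e5 : C2.e = (-337098757 / 2097152 : ℝ) := rfl
  have e6 : C2.f = (1298749 / 268435456 : ℝ) + (18023855 / 268435456 : ℝ) + (-5045081 / 67108864 : ℝ) := by norm_num [C2]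
  rw [e1, e2, e3, e4, e5, e6]
  exact h

lemma rcell3 : ∃ N : ℝ, Rw4 P.r2 N (coCell (87579 / 65536 : ℝ) (868797 / 65536 : ℝ) ((379421 / 32768 : ℝ) + (107 / 256 : ℝ)) (129 / 4096 : ℝ) C3) := by
  refine ⟨(100663296 : ℝ), ⟨Q6, List.mem_cons_of_mem _ (List.mem_cons_of_mem _ (List.mem_cons_of_mem _ (List.mem_cons_of_mem _ (List.mem_cons_of_mem _ (List.mem_cons_of_mem _ (List.mem_cons_self)))))), ?_⟩, by norm_num⟩
  constructor <;> norm_num [Q6, coCell, C3]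

lemma lcell3 : ∀ x1 x2 xc : ℝ, 0 ≤ x1 → x1 ≤ 1 → 0 ≤ x2 → x2 ≤ 1 → C3.l ≤ xc → xc ≤ C3.u →
    (87579 / 65536 : ℝ) * (1 - (1 - x1) ^ 15) + (868797 / 65536 : ℝ) * (1 - (1 - x2) ^ 15) - ((379421 / 32768 : ℝ) + (107 / 256 : ℝ)) * (1 - (1 - xc) ^ 15)
      ≤ - C3.a1 * x1 - C3.a2 * x2 + C3.e * xc + C3.f := by
  have h := cell_lines 15 (α1 := (87579 / 65536 : ℝ)) (α2 := (868797 / 65536 : ℝ)) (c := (379421 / 32768 : ℝ) + (107 / 256 : ℝ)) (y1 := (1881 / 262144 : ℝ)) (y2 := (71 / 8192 : ℝ))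
    (A1 := (76012733 / 4194304 : ℝ)) (B1 := (1822535 / 268435456 : ℝ)) (A2 := (184588011 / 1048576 : ℝ)) (B2 := (13019735 / 134217728 : ℝ)) (l := (2303 / 262144 : ℝ)) (u := (2779 / 262144 : ℝ))
    (E := (-658583909 / 4194304 : ℝ)) (F := (-28959165 / 268435456 : ℝ)) (by norm_num) (by norm_num) (by norm_num) (by norm_num) (by norm_num)
    (by norm_num) (by norm_num) (by norm_num) (by norm_num) (by norm_num) (by norm_num) (by norm_num) (by norm_num) (by norm_num) (by norm_num)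
  have e1 : C3.l = (2303 / 262144 : ℝ) := rfl
  have e2 : C3.u = (2779 / 262144 : ℝ) := rfl
  have e3 : C3.a1 = -(76012733 / 4194304 : ℝ) := by norm_num [C3]
  have e4 : C3.a2 = -(184588011 / 1048576 : ℝ) := by norm_num [C3]
  have e5 : C3.e = (-658583909 / 4194304 : ℝ) := rfl
  have e6 : C3.f = (1822535 / 268435456 : ℝ) + (13019735 / 134217728 : ℝ) + (-28959165 / 268435456 : ℝ) := by norm_num [C3]
  rw [e1, e2, e3, e4, e5, e6]
  exact h

lemma rcell4 : ∃ N : ℝ, Rw4 P.r2 N (coCell (87579 / 65536 : ℝ) (868797 / 65536 : ℝ) ((379421 / 32768 : ℝ) + (107 / 256 : ℝ)) (129 / 4096 : ℝ) C4) := by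
  refine ⟨(201326592 : ℝ), ⟨Q7, List.mem_cons_of_mem _ (List.mem_cons_of_mem _ (List.mem_cons_of_mem _ (List.mem_cons_of_mem _ (List.mem_cons_of_mem _ (List.mem_cons_of_mem _ (List.mem_cons_of_mem _ (List.mem_cons_self))))))), ?_⟩, by norm_num⟩
  constructor <;> norm_num [Q7, coCell, C4]

lemma lcell4 : ∀ x1 x2 xc : ℝ, 0 ≤ x1 → x1 ≤ 1 → 0 ≤ x2 → x2 ≤ 1 → C4.l ≤ xc → xc ≤ C4.u →
    (87579 / 65536 : ℝ) * (1 - (1 - x1) ^ 15) + (868797 / 65536 : ℝ) * (1 - (1 - x2) ^ 15) - ((379421 / 32768 : ℝ) + (107 / 256 : ℝ)) * (1 - (1 - xc) ^ 15)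
      ≤ - C4.a1 * x1 - C4.a2 * x2 + C4.e * xc + C4.f := by
  have h := cell_lines 15 (α1 := (87579 / 65536 : ℝ)) (α2 := (868797 / 65536 : ℝ)) (c := (379421 / 32768 : ℝ) + (107 / 256 : ℝ)) (y1 := (2313 / 262144 : ℝ)) (y2 := (2727 / 262144 : ℝ))
    (A1 := (74265279 / 4194304 : ℝ)) (B1 := (2716823 / 268435456 : ℝ)) (A2 := (360229023 / 2097152 : ℝ)) (B2 := (36955123 / 268435456 : ℝ)) (l := (2779 / 262144 : ℝ)) (u := (3353 / 262144 : ℝ))
    (E := (-640188419 / 4194304 : ℝ)) (F := (-20719947 / 134217728 : ℝ)) (by norm_num) (by norm_num) (by norm_num) (by norm_num) (by norm_num)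
    (by norm_num) (by norm_num) (by norm_num) (by norm_num) (by norm_num) (by norm_num) (by norm_num) (by norm_num) (by norm_num) (by norm_num)
  have e1 : C4.l = (2779 / 262144 : ℝ) := rfl
  have e2 : C4.u = (3353 / 262144 : ℝ) := rfl
  have e3 : C4.a1 = -(74265279 / 4194304 : ℝ) := by norm_num [C4]
  have e4 : C4.a2 = -(360229023 / 2097152 : ℝ) := by norm_num [C4]
  have e5 : C4.e = (-640188419 / 4194304 : ℝ) := rfl
  have e6 : C4.f = (2716823 / 268435456 : ℝ) + (36955123 / 268435456 : ℝ) + (-20719947 / 134217728 : ℝ) := by norm_num [C4]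
  rw [e1, e2, e3, e4, e5, e6]
  exact h

lemma rcell5 : ∃ N : ℝ, Rw4 P.r2 N (coCell (87579 / 65536 : ℝ) (868797 / 65536 : ℝ) ((379421 / 32768 : ℝ) + (107 / 256 : ℝ)) (129 / 4096 : ℝ) C5) := by
  refine ⟨(805306368 : ℝ), ⟨Q8, List.mem_cons_of_mem _ (List.mem_cons_of_mem _ (List.mem_cons_of_mem _ (List.mem_cons_of_mem _ (List.mem_cons_of_mem _ (List.mem_cons_of_mem _ (List.mem_cons_of_mem _ (List.mem_cons_of_mem _ (List.mem_cons_self)))))))), ?_⟩, by norm_num⟩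
  constructor <;> norm_num [Q8, coCell, C5]

lemma lcell5 : ∀ x1 x2 xc : ℝ, 0 ≤ x1 → x1 ≤ 1 → 0 ≤ x2 → x2 ≤ 1 → C5.l ≤ xc → xc ≤ C5.u →
    (87579 / 65536 : ℝ) * (1 - (1 - x1) ^ 15) + (868797 / 65536 : ℝ) * (1 - (1 - x2) ^ 15) - ((379421 / 32768 : ℝ) + (107 / 256 : ℝ)) * (1 - (1 - xc) ^ 15)
      ≤ - C5.a1 * x1 - C5.a2 * x2 + C5.e * xc + C5.f := by
  have h := cell_lines 15 (α1 := (87579 / 65536 : ℝ)) (α2 := (868797 / 65536 : ℝ)) (c := (379421 / 32768 : ℝ) + (107 / 256 : ℝ)) (y1 := (2723 / 262144 : ℝ)) (y2 := (3299 / 262144 : ℝ))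
    (A1 := (72641385 / 4194304 : ℝ)) (B1 := (3714827 / 268435456 : ℝ)) (A2 := (698534021 / 4194304 : ℝ)) (B2 := (26537517 / 134217728 : ℝ)) (l := (3353 / 262144 : ℝ)) (u := (2023 / 131072 : ℝ))
    (E := (-618628531 / 4194304 : ℝ)) (F := (-29544447 / 134217728 : ℝ)) (by norm_num) (by norm_num) (by norm_num) (by norm_num) (by norm_num)
    (by norm_num) (by norm_num) (by norm_num) (by norm_num) (by norm_num) (by norm_num) (by norm_num) (by norm_num) (by norm_num) (by norm_num)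
  have e1 : C5.l = (3353 / 262144 : ℝ) := rfl
  have e2 : C5.u = (2023 / 131072 : ℝ) := rfl
  have e3 : C5.a1 = -(72641385 / 4194304 : ℝ) := by norm_num [C5]
  have e4 : C5.a2 = -(698534021 / 4194304 : ℝ) := by norm_num [C5]
  have e5 : C5.e = (-618628531 / 4194304 : ℝ) := rfl
  have e6 : C5.f = (3714827 / 268435456 : ℝ) + (26537517 / 134217728 : ℝ) + (-29544447 / 134217728 : ℝ) := by norm_num [C5]
  rw [e1, e2, e3, e4, e5, e6]
  exact h

lemma rcell6 : ∃ N : ℝ, Rw4 P.r2 N (coCell (87579 / 65536 : ℝ) (868797 / 65536 : ℝ) ((379421 / 32768 : ℝ) + (107 / 256 : ℝ)) (129 / 4096 : ℝ) C6) := by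
  refine ⟨(805306368 : ℝ), ⟨Q9, List.mem_cons_of_mem _ (List.mem_cons_of_mem _ (List.mem_cons_of_mem _ (List.mem_cons_of_mem _ (List.mem_cons_of_mem _ (List.mem_cons_of_mem _ (List.mem_cons_of_mem _ (List.mem_cons_of_mem _ (List.mem_cons_of_mem _ (List.mem_cons_self))))))))), ?_⟩, by norm_num⟩
  constructor <;> norm_num [Q9, coCell, C6]

lemma lcell6 : ∀ x1 x2 xc : ℝ, 0 ≤ x1 → x1 ≤ 1 → 0 ≤ x2 → x2 ≤ 1 → C6.l ≤ xc → xc ≤ C6.u →
    (87579 / 65536 : ℝ) * (1 - (1 - x1) ^ 15) + (868797 / 65536 : ℝ) * (1 - (1 - x2) ^ 15) - ((379421 / 32768 : ℝ) + (107 / 256 : ℝ)) * (1 - (1 - xc) ^ 15)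
      ≤ - C6.a1 * x1 - C6.a2 * x2 + C6.e * xc + C6.f := by
  have h := cell_lines 15 (α1 := (87579 / 65536 : ℝ)) (α2 := (868797 / 65536 : ℝ)) (c := (379421 / 32768 : ℝ) + (107 / 256 : ℝ)) (y1 := (101 / 8192 : ℝ)) (y2 := (3967 / 262144 : ℝ))
    (A1 := (35335629 / 2097152 : ℝ)) (B1 := (321653 / 16777216 : ℝ)) (A2 := (673715189 / 4194304 : ℝ)) (B2 := (4692317 / 16777216 : ℝ)) (l := (2023 / 131072 : ℝ)) (u := (4883 / 262144 : ℝ))
    (E := (-148373749 / 1048576 : ℝ)) (F := (-83915623 / 268435456 : ℝ)) (by norm_num) (by norm_num) (by norm_num) (by norm_num) (by norm_num)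
    (by norm_num) (by norm_num) (by norm_num) (by norm_num) (by norm_num) (by norm_num) (by norm_num) (by norm_num) (by norm_num) (by norm_num)
  have e1 : C6.l = (2023 / 131072 : ℝ) := rfl
  have e2 : C6.u = (4883 / 262144 : ℝ) := rfl
  have e3 : C6.a1 = -(35335629 / 2097152 : ℝ) := by norm_num [C6]
  have e4 : C6.a2 = -(673715189 / 4194304 : ℝ) := by norm_num [C6]
  have e5 : C6.e = (-148373749 / 1048576 : ℝ) := rfl
  have e6 : C6.f = (321653 / 16777216 : ℝ) + (4692317 / 16777216 : ℝ) + (-83915623 / 268435456 : ℝ) := by norm_num [C6]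
  rw [e1, e2, e3, e4, e5, e6]
  exact h

lemma rcell7 : ∃ N : ℝ, Rw4 P.r2 N (coCell (87579 / 65536 : ℝ) (868797 / 65536 : ℝ) ((379421 / 32768 : ℝ) + (107 / 256 : ℝ)) (129 / 4096 : ℝ) C7) := by
  refine ⟨(805306368 : ℝ), ⟨Q10, List.mem_cons_of_mem _ (List.mem_cons_of_mem _ (List.mem_cons_of_mem _ (List.mem_cons_of_mem _ (List.mem_cons_of_mem _ (List.mem_cons_of_mem _ (List.mem_cons_of_mem _ (List.mem_cons_of_mem _ (List.mem_cons_of_mem _ (List.mem_cons_of_mem _ (List.mem_cons_self)))))))))), ?_⟩, by norm_num⟩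
  constructor <;> norm_num [Q10, coCell, C7]

lemma lcell7 : ∀ x1 x2 xc : ℝ, 0 ≤ x1 → x1 ≤ 1 → 0 ≤ x2 → x2 ≤ 1 → C7.l ≤ xc → xc ≤ C7.u →
    (87579 / 65536 : ℝ) * (1 - (1 - x1) ^ 15) + (868797 / 65536 : ℝ) * (1 - (1 - x2) ^ 15) - ((379421 / 32768 : ℝ) + (107 / 256 : ℝ)) * (1 - (1 - xc) ^ 15)
      ≤ - C7.a1 * x1 - C7.a2 * x2 + C7.e * xc + C7.f := by
  have h := cell_lines 15 (α1 := (87579 / 65536 : ℝ)) (α2 := (868797 / 65536 : ℝ)) (c := (379421 / 32768 : ℝ) + (107 / 256 : ℝ)) (y1 := (1969 / 131072 : ℝ)) (y2 := (2393 / 131072 : ℝ))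
    (A1 := (68020673 / 4194304 : ℝ)) (B1 := (3732509 / 134217728 : ℝ)) (A2 := (644403749 / 4194304 : ℝ)) (B2 := (26593915 / 67108864 : ℝ)) (l := (4883 / 262144 : ℝ)) (u := (1473 / 65536 : ℝ))
    (E := (-141109181 / 1048576 : ℝ)) (F := (-118557113 / 268435456 : ℝ)) (by norm_num) (by norm_num) (by norm_num) (by norm_num) (by norm_num)
    (by norm_num) (by norm_num) (by norm_num) (by norm_num) (by norm_num) (by norm_num) (by norm_num) (by norm_num) (by norm_num) (by norm_num)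
  have e1 : C7.l = (4883 / 262144 : ℝ) := rfl
  have e2 : C7.u = (1473 / 65536 : ℝ) := rfl
  have e3 : C7.a1 = -(68020673 / 4194304 : ℝ) := by norm_num [C7]
  have e4 : C7.a2 = -(644403749 / 4194304 : ℝ) := by norm_num [C7]
  have e5 : C7.e = (-141109181 / 1048576 : ℝ) := rfl
  have e6 : C7.f = (3732509 / 134217728 : ℝ) + (26593915 / 67108864 : ℝ) + (-118557113 / 268435456 : ℝ) := by norm_num [C7]
  rw [e1, e2, e3, e4, e5, e6]
  exact h

lemma rcell8 : ∃ N : ℝ, Rw4 P.r2 N (coCell (87579 / 65536 : ℝ) (868797 / 65536 : ℝ) ((379421 / 32768 : ℝ) + (107 / 256 : ℝ)) (129 / 4096 : ℝ) C8) := by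
  refine ⟨(805306368 : ℝ), ⟨Q11, List.mem_cons_of_mem _ (List.mem_cons_of_mem _ (List.mem_cons_of_mem _ (List.mem_cons_of_mem _ (List.mem_cons_of_mem _ (List.mem_cons_of_mem _ (List.mem_cons_of_mem _ (List.mem_cons_of_mem _ (List.mem_cons_of_mem _ (List.mem_cons_of_mem _ (List.mem_cons_of_mem _ (List.mem_cons_self))))))))))), ?_⟩, by norm_num⟩
  constructor <;> norm_num [Q11, coCell, C8]

lemma lcell8 : ∀ x1 x2 xc : ℝ, 0 ≤ x1 → x1 ≤ 1 → 0 ≤ x2 → x2 ≤ 1 → C8.l ≤ xc → xc ≤ C8.u →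
    (87579 / 65536 : ℝ) * (1 - (1 - x1) ^ 15) + (868797 / 65536 : ℝ) * (1 - (1 - x2) ^ 15) - ((379421 / 32768 : ℝ) + (107 / 256 : ℝ)) * (1 - (1 - xc) ^ 15)
      ≤ - C8.a1 * x1 - C8.a2 * x2 + C8.e * xc + C8.f := by
  have h := cell_lines 15 (α1 := (87579 / 65536 : ℝ)) (α2 := (868797 / 65536 : ℝ)) (c := (379421 / 32768 : ℝ) + (107 / 256 : ℝ)) (y1 := (4839 / 262144 : ℝ)) (y2 := (5729 / 262144 : ℝ))
    (A1 := (8096503 / 524288 : ℝ)) (B1 := (10942939 / 268435456 : ℝ)) (A2 := (153030723 / 1048576 : ℝ)) (B2 := (73890397 / 134217728 : ℝ)) (l := (1473 / 65536 : ℝ)) (u := (7109 / 262144 : ℝ))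
    (E := (-265579991 / 2097152 : ℝ)) (F := (-83212463 / 134217728 : ℝ)) (by norm_num) (by norm_num) (by norm_num) (by norm_num) (by norm_num)
    (by norm_num) (by norm_num) (by norm_num) (by norm_num) (by norm_num) (by norm_num) (by norm_num) (by norm_num) (by norm_num) (by norm_num)
  have e1 : C8.l = (1473 / 65536 : ℝ) := rfl
  have e2 : C8.u = (7109 / 262144 : ℝ) := rfl
  have e3 : C8.a1 = -(8096503 / 524288 : ℝ) := by norm_num [C8]
  have e4 : C8.a2 = -(153030723 / 1048576 : ℝ) := by norm_num [C8]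
  have e5 : C8.e = (-265579991 / 2097152 : ℝ) := rfl
  have e6 : C8.f = (10942939 / 268435456 : ℝ) + (73890397 / 134217728 : ℝ) + (-83212463 / 134217728 : ℝ) := by norm_num [C8]
  rw [e1, e2, e3, e4, e5, e6]
  exact h

lemma rcell9 : ∃ N : ℝ, Rw4 P.r2 N (coCell (87579 / 65536 : ℝ) (868797 / 65536 : ℝ) ((379421 / 32768 : ℝ) + (107 / 256 : ℝ)) (129 / 4096 : ℝ) C9) := by
  refine ⟨(402653184 : ℝ), ⟨Q12, List.mem_cons_of_mem _ (List.mem_cons_of_mem _ (List.mem_cons_of_mem _ (List.mem_cons_of_mem _ (List.mem_cons_of_mem _ (List.mem_cons_of_mem _ (List.mem_cons_of_mem _ (List.mem_cons_of_mem _ (List.mem_cons_of_mem _ (List.mem_cons_of_mem _ (List.mem_cons_of_mem _ (List.mem_cons_of_mem _ (List.mem_cons_self)))))))))))), ?_⟩, by norm_num⟩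
  constructor <;> norm_num [Q12, coCell, C9]

lemma lcell9 : ∀ x1 x2 xc : ℝ, 0 ≤ x1 → x1 ≤ 1 → 0 ≤ x2 → x2 ≤ 1 → C9.l ≤ xc → xc ≤ C9.u →
    (87579 / 65536 : ℝ) * (1 - (1 - x1) ^ 15) + (868797 / 65536 : ℝ) * (1 - (1 - x2) ^ 15) - ((379421 / 32768 : ℝ) + (107 / 256 : ℝ)) * (1 - (1 - xc) ^ 15)
      ≤ - C9.a1 * x1 - C9.a2 * x2 + C9.e * xc + C9.f := by
  have h := cell_lines 15 (α1 := (87579 / 65536 : ℝ)) (α2 := (868797 / 65536 : ℝ)) (c := (379421 / 32768 : ℝ) + (107 / 256 : ℝ)) (y1 := (5733 / 262144 : ℝ)) (y2 := (3457 / 131072 : ℝ))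
    (A1 := (15422879 / 1048576 : ℝ)) (B1 := (14915883 / 268435456 : ℝ)) (A2 := (573686625 / 4194304 : ℝ)) (B2 := (207045045 / 268435456 : ℝ)) (l := (7109 / 262144 : ℝ)) (u := (8579 / 262144 : ℝ))
    (E := (-493427363 / 4194304 : ℝ)) (F := (-115956749 / 134217728 : ℝ)) (by norm_num) (by norm_num) (by norm_num) (by norm_num) (by norm_num)
    (by norm_num) (by norm_num) (by norm_num) (by norm_num) (by norm_num) (by norm_num) (by norm_num) (by norm_num) (by norm_num) (by norm_num)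
  have e1 : C9.l = (7109 / 262144 : ℝ) := rfl
  have e2 : C9.u = (8579 / 262144 : ℝ) := rfl
  have e3 : C9.a1 = -(15422879 / 1048576 : ℝ) := by norm_num [C9]
  have e4 : C9.a2 = -(573686625 / 4194304 : ℝ) := by norm_num [C9]
  have e5 : C9.e = (-493427363 / 4194304 : ℝ) := rfl
  have e6 : C9.f = (14915883 / 268435456 : ℝ) + (207045045 / 268435456 : ℝ) + (-115956749 / 134217728 : ℝ) := by norm_num [C9]
  rw [e1, e2, e3, e4, e5, e6]
  exact h

lemma rcell10 : ∃ N : ℝ, Rw4 P.r2 N (coCell (87579 / 65536 : ℝ) (868797 / 65536 : ℝ) ((379421 / 32768 : ℝ) + (107 / 256 : ℝ)) (129 / 4096 : ℝ) C10) := by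
  refine ⟨(805306368 : ℝ), ⟨Q13, List.mem_cons_of_mem _ (List.mem_cons_of_mem _ (List.mem_cons_of_mem _ (List.mem_cons_of_mem _ (List.mem_cons_of_mem _ (List.mem_cons_of_mem _ (List.mem_cons_of_mem _ (List.mem_cons_of_mem _ (List.mem_cons_of_mem _ (List.mem_cons_of_mem _ (List.mem_cons_of_mem _ (List.mem_cons_of_mem _ (List.mem_cons_of_mem _ (List.mem_cons_self))))))))))))), ?_⟩, by norm_num⟩
  constructor <;> norm_num [Q13, coCell, C10]

lemma lcell10 : ∀ x1 x2 xc : ℝ, 0 ≤ x1 → x1 ≤ 1 → 0 ≤ x2 → x2 ≤ 1 → C10.l ≤ xc → xc ≤ C10.u →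
    (87579 / 65536 : ℝ) * (1 - (1 - x1) ^ 15) + (868797 / 65536 : ℝ) * (1 - (1 - x2) ^ 15) - ((379421 / 32768 : ℝ) + (107 / 256 : ℝ)) * (1 - (1 - xc) ^ 15)
      ≤ - C10.a1 * x1 - C10.a2 * x2 + C10.e * xc + C10.f := by
  have h := cell_lines 15 (α1 := (87579 / 65536 : ℝ)) (α2 := (868797 / 65536 : ℝ)) (c := (379421 / 32768 : ℝ) + (107 / 256 : ℝ)) (y1 := (1705 / 65536 : ℝ)) (y2 := (4121 / 131072 : ℝ))
    (A1 := (58129323 / 4194304 : ℝ)) (B1 := (10185027 / 134217728 : ℝ)) (A2 := (533281287 / 4194304 : ℝ)) (B2 := (281724825 / 268435456 : ℝ)) (l := (8579 / 262144 : ℝ)) (u := (647 / 16384 : ℝ))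
    (E := (-451213769 / 4194304 : ℝ)) (F := (-40041141 / 33554432 : ℝ)) (by norm_num) (by norm_num) (by norm_num) (by norm_num) (by norm_num)
    (by norm_num) (by norm_num) (by norm_num) (by norm_num) (by norm_num) (by norm_num) (by norm_num) (by norm_num) (by norm_num) (by norm_num)
  have e1 : C10.l = (8579 / 262144 : ℝ) := rfl
  have e2 : C10.u = (647 / 16384 : ℝ) := rfl
  have e3 : C10.a1 = -(58129323 / 4194304 : ℝ) := by norm_num [C10]
  have e4 : C10.a2 = -(533281287 / 4194304 : ℝ) := by norm_num [C10]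
  have e5 : C10.e = (-451213769 / 4194304 : ℝ) := rfl
  have e6 : C10.f = (10185027 / 134217728 : ℝ) + (281724825 / 268435456 : ℝ) + (-40041141 / 33554432 : ℝ) := by norm_num [C10]
  rw [e1, e2, e3, e4, e5, e6]
  exact h

lemma rcell11 : ∃ N : ℝ, Rw4 P.r2 N (coCell (87579 / 65536 : ℝ) (868797 / 65536 : ℝ) ((379421 / 32768 : ℝ) + (107 / 256 : ℝ)) (129 / 4096 : ℝ) C11) := by
  refine ⟨(402653184 : ℝ), ⟨Q14, List.mem_cons_of_mem _ (List.mem_cons_of_mem _ (List.mem_cons_of_mem _ (List.mem_cons_of_mem _ (List.mem_cons_of_mem _ (List.mem_cons_of_mem _ (List.mem_cons_of_mem _ (List.mem_cons_of_mem _ (List.mem_cons_of_mem _ (List.mem_cons_of_mem _ (List.mem_cons_of_mem _ (List.mem_cons_of_mem _ (List.mem_cons_of_mem _ (List.mem_cons_of_mem _ (List.mem_cons_self)))))))))))))), ?_⟩, by norm_num⟩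
  constructor <;> norm_num [Q14, coCell, C11]

lemma lcell11 : ∀ x1 x2 xc : ℝ, 0 ≤ x1 → x1 ≤ 1 → 0 ≤ x2 → x2 ≤ 1 → C11.l ≤ xc → xc ≤ C11.u →
    (87579 / 65536 : ℝ) * (1 - (1 - x1) ^ 15) + (868797 / 65536 : ℝ) * (1 - (1 - x2) ^ 15) - ((379421 / 32768 : ℝ) + (107 / 256 : ℝ)) * (1 - (1 - xc) ^ 15)
      ≤ - C11.a1 * x1 - C11.a2 * x2 + C11.e * xc + C11.f := by
  have h := cell_lines 15 (α1 := (87579 / 65536 : ℝ)) (α2 := (868797 / 65536 : ℝ)) (c := (379421 / 32768 : ℝ) + (107 / 256 : ℝ)) (y1 := (1043 / 32768 : ℝ)) (y2 := (2469 / 65536 : ℝ))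
    (A1 := (53455815 / 4194304 : ℝ)) (B1 := (7252449 / 67108864 : ℝ)) (A2 := (487192883 / 4194304 : ℝ)) (B2 := (383528595 / 268435456 : ℝ)) (l := (647 / 16384 : ℝ)) (u := (12491 / 262144 : ℝ))
    (E := (-101192927 / 1048576 : ℝ)) (F := (-437704181 / 268435456 : ℝ)) (by norm_num) (by norm_num) (by norm_num) (by norm_num) (by norm_num)
    (by norm_num) (by norm_num) (by norm_num) (by norm_num) (by norm_num) (by norm_num) (by norm_num) (by norm_num) (by norm_num) (by norm_num)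
  have e1 : C11.l = (647 / 16384 : ℝ) := rfl
  have e2 : C11.u = (12491 / 262144 : ℝ) := rfl
  have e3 : C11.a1 = -(53455815 / 4194304 : ℝ) := by norm_num [C11]
  have e4 : C11.a2 = -(487192883 / 4194304 : ℝ) := by norm_num [C11]
  have e5 : C11.e = (-101192927 / 1048576 : ℝ) := rfl
  have e6 : C11.f = (7252449 / 67108864 : ℝ) + (383528595 / 268435456 : ℝ) + (-437704181 / 268435456 : ℝ) := by norm_num [C11]
  rw [e1, e2, e3, e4, e5, e6]
  exact h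

lemma rcell12 : ∃ N : ℝ, Rw4 P.r2 N (coCell (87579 / 65536 : ℝ) (868797 / 65536 : ℝ) ((379421 / 32768 : ℝ) + (107 / 256 : ℝ)) (129 / 4096 : ℝ) C12) := by
  refine ⟨(402653184 : ℝ), ⟨Q15, List.mem_cons_of_mem _ (List.mem_cons_of_mem _ (List.mem_cons_of_mem _ (List.mem_cons_of_mem _ (List.mem_cons_of_mem _ (List.mem_cons_of_mem _ (List.mem_cons_of_mem _ (List.mem_cons_of_mem _ (List.mem_cons_of_mem _ (List.mem_cons_of_mem _ (List.mem_cons_of_mem _ (List.mem_cons_of_mem _ (List.mem_cons_of_mem _ (List.mem_cons_of_mem _ (List.mem_cons_of_mem _ (List.mem_cons_self))))))))))))))), ?_⟩, by norm_num⟩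
  constructor <;> norm_num [Q15, coCell, C12]

lemma lcell12 : ∀ x1 x2 xc : ℝ, 0 ≤ x1 → x1 ≤ 1 → 0 ≤ x2 → x2 ≤ 1 → C12.l ≤ xc → xc ≤ C12.u →
    (87579 / 65536 : ℝ) * (1 - (1 - x1) ^ 15) + (868797 / 65536 : ℝ) * (1 - (1 - x2) ^ 15) - ((379421 / 32768 : ℝ) + (107 / 256 : ℝ)) * (1 - (1 - xc) ^ 15)
      ≤ - C12.a1 * x1 - C12.a2 * x2 + C12.e * xc + C12.f := by
  have h := cell_lines 15 (α1 := (87579 / 65536 : ℝ)) (α2 := (868797 / 65536 : ℝ)) (c := (379421 / 32768 : ℝ) + (107 / 256 : ℝ)) (y1 := (1195 / 32768 : ℝ)) (y2 := (5847 / 131072 : ℝ))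
    (A1 := (49979743 / 4194304 : ℝ)) (B1 := (36601547 / 268435456 : ℝ)) (A2 := (110069033 / 1048576 : ℝ)) (B2 := (506899927 / 268435456 : ℝ)) (l := (12491 / 262144 : ℝ)) (u := (15073 / 262144 : ℝ))
    (E := (-354659903 / 4194304 : ℝ)) (F := (-147630791 / 67108864 : ℝ)) (by norm_num) (by norm_num) (by norm_num) (by norm_num) (by norm_num)
    (by norm_num) (by norm_num) (by norm_num) (by norm_num) (by norm_num) (by norm_num) (by norm_num) (by norm_num) (by norm_num) (by norm_num)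
  have e1 : C12.l = (12491 / 262144 : ℝ) := rfl
  have e2 : C12.u = (15073 / 262144 : ℝ) := rfl
  have e3 : C12.a1 = -(49979743 / 4194304 : ℝ) := by norm_num [C12]
  have e4 : C12.a2 = -(110069033 / 1048576 : ℝ) := by norm_num [C12]
  have e5 : C12.e = (-354659903 / 4194304 : ℝ) := rfl
  have e6 : C12.f = (36601547 / 268435456 : ℝ) + (506899927 / 268435456 : ℝ) + (-147630791 / 67108864 : ℝ) := by norm_num [C12]
  rw [e1, e2, e3, e4, e5, e6]
  exact h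

lemma rcell13 : ∃ N : ℝ, Rw4 P.r2 N (coCell (87579 / 65536 : ℝ) (868797 / 65536 : ℝ) ((379421 / 32768 : ℝ) + (107 / 256 : ℝ)) (129 / 4096 : ℝ) C13) := by
  refine ⟨(805306368 : ℝ), ⟨Q16, List.mem_cons_of_mem _ (List.mem_cons_of_mem _ (List.mem_cons_of_mem _ (List.mem_cons_of_mem _ (List.mem_cons_of_mem _ (List.mem_cons_of_mem _ (List.mem_cons_of_mem _ (List.mem_cons_of_mem _ (List.mem_cons_of_mem _ (List.mem_cons_of_mem _ (List.mem_cons_of_mem _ (List.mem_cons_of_mem _ (List.mem_cons_of_mem _ (List.mem_cons_of_mem _ (List.mem_cons_of_mem _ (List.mem_cons_of_mem _ (List.mem_cons_self)))))))))))))))), ?_⟩, by norm_num⟩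
  constructor <;> norm_num [Q16, coCell, C13]

lemma lcell13 : ∀ x1 x2 xc : ℝ, 0 ≤ x1 → x1 ≤ 1 → 0 ≤ x2 → x2 ≤ 1 → C13.l ≤ xc → xc ≤ C13.u →
    (87579 / 65536 : ℝ) * (1 - (1 - x1) ^ 15) + (868797 / 65536 : ℝ) * (1 - (1 - x2) ^ 15) - ((379421 / 32768 : ℝ) + (107 / 256 : ℝ)) * (1 - (1 - xc) ^ 15)
      ≤ - C13.a1 * x1 - C13.a2 * x2 + C13.e * xc + C13.f := by
  have h := cell_lines 15 (α1 := (87579 / 65536 : ℝ)) (α2 := (868797 / 65536 : ℝ)) (c := (379421 / 32768 : ℝ) + (107 / 256 : ℝ)) (y1 := (5485 / 131072 : ℝ)) (y2 := (211 / 4096 : ℝ))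
    (A1 := (46212329 / 4194304 : ℝ)) (B1 := (46035203 / 268435456 : ℝ)) (A2 := (397763197 / 4194304 : ℝ)) (B2 := (39844941 / 16777216 : ℝ)) (l := (15073 / 262144 : ℝ)) (u := (4547 / 65536 : ℝ))
    (E := (-301890477 / 4194304 : ℝ)) (F := (-196177761 / 67108864 : ℝ)) (by norm_num) (by norm_num) (by norm_num) (by norm_num) (by norm_num)
    (by norm_num) (by norm_num) (by norm_num) (by norm_num) (by norm_num) (by norm_num) (by norm_num) (by norm_num) (by norm_num) (by norm_num)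
  have e1 : C13.l = (15073 / 262144 : ℝ) := rfl
  have e2 : C13.u = (4547 / 65536 : ℝ) := rfl
  have e3 : C13.a1 = -(46212329 / 4194304 : ℝ) := by norm_num [C13]
  have e4 : C13.a2 = -(397763197 / 4194304 : ℝ) := by norm_num [C13]
  have e5 : C13.e = (-301890477 / 4194304 : ℝ) := rfl
  have e6 : C13.f = (46035203 / 268435456 : ℝ) + (39844941 / 16777216 : ℝ) + (-196177761 / 67108864 : ℝ) := by norm_num [C13]
  rw [e1, e2, e3, e4, e5, e6]
  exact h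

lemma rcell14 : ∃ N : ℝ, Rw4 P.r2 N (coCell (87579 / 65536 : ℝ) (868797 / 65536 : ℝ) ((379421 / 32768 : ℝ) + (107 / 256 : ℝ)) (129 / 4096 : ℝ) C14) := by
  refine ⟨(100663296 : ℝ), ⟨Q17, List.mem_cons_of_mem _ (List.mem_cons_of_mem _ (List.mem_cons_of_mem _ (List.mem_cons_of_mem _ (List.mem_cons_of_mem _ (List.mem_cons_of_mem _ (List.mem_cons_of_mem _ (List.mem_cons_of_mem _ (List.mem_cons_of_mem _ (List.mem_cons_of_mem _ (List.mem_cons_of_mem _ (List.mem_cons_of_mem _ (List.mem_cons_of_mem _ (List.mem_cons_of_mem _ (List.mem_cons_of_mem _ (List.mem_cons_of_mem _ (List.mem_cons_of_mem _ (List.mem_cons_self))))))))))))))))), ?_⟩, by norm_num⟩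
  constructor <;> norm_num [Q17, coCell, C14]

lemma lcell14 : ∀ x1 x2 xc : ℝ, 0 ≤ x1 → x1 ≤ 1 → 0 ≤ x2 → x2 ≤ 1 → C14.l ≤ xc → xc ≤ C14.u →
    (87579 / 65536 : ℝ) * (1 - (1 - x1) ^ 15) + (868797 / 65536 : ℝ) * (1 - (1 - x2) ^ 15) - ((379421 / 32768 : ℝ) + (107 / 256 : ℝ)) * (1 - (1 - xc) ^ 15)
      ≤ - C14.a1 * x1 - C14.a2 * x2 + C14.e * xc + C14.f := by
  have h := cell_lines 15 (α1 := (87579 / 65536 : ℝ)) (α2 := (868797 / 65536 : ℝ)) (c := (379421 / 32768 : ℝ) + (107 / 256 : ℝ)) (y1 := (6261 / 131072 : ℝ)) (y2 := (15383 / 262144 : ℝ))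
    (A1 := (5296419 / 524288 : ℝ)) (B1 := (7130017 / 33554432 : ℝ)) (A2 := (178842999 / 2097152 : ℝ)) (B2 := (194672507 / 67108864 : ℝ)) (l := (4547 / 65536 : ℝ)) (u := (11 / 128 : ℝ))
    (E := (-15248975 / 262144 : ℝ)) (F := (-260460615 / 67108864 : ℝ)) (by norm_num) (by norm_num) (by norm_num) (by norm_num) (by norm_num)
    (by norm_num) (by norm_num) (by norm_num) (by norm_num) (by norm_num) (by norm_num) (by norm_num) (by norm_num) (by norm_num) (by norm_num)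
  have e1 : C14.l = (4547 / 65536 : ℝ) := rfl
  have e2 : C14.u = (11 / 128 : ℝ) := rfl
  have e3 : C14.a1 = -(5296419 / 524288 : ℝ) := by norm_num [C14]
  have e4 : C14.a2 = -(178842999 / 2097152 : ℝ) := by norm_num [C14]
  have e5 : C14.e = (-15248975 / 262144 : ℝ) := rfl
  have e6 : C14.f = (7130017 / 33554432 : ℝ) + (194672507 / 67108864 : ℝ) + (-260460615 / 67108864 : ℝ) := by norm_num [C14]
  rw [e1, e2, e3, e4, e5, e6]
  exact h

/-- The hypotheses at the origin. -/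
lemma horig (lam : ℝ) (hd : (15 : ℝ) * lam ^ 2 = 1) (hb : |lam| ≤ (70973170389 / 274877906944 : ℝ)) :
    OriginH 15 lam (87579 / 65536 : ℝ) (868797 / 65536 : ℝ) (379421 / 32768 : ℝ) (107 / 256 : ℝ) (129 / 4096 : ℝ) (45 / 512 : ℝ) (4233 / 4096 : ℝ) (1 / 256 : ℝ) 3298534883328 := by
  refine originH_of_num (d := 15) (by push_cast; exact hd) hb (by norm_num) (by norm_num) (by norm_num) (by norm_num)
    (by norm_num) (by norm_num) (by norm_num) (by norm_num) (by norm_num) (by norm_num) (by norm_num [S]) (by norm_num) ?_ ?_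
  · rw [hch]
    norm_num [abs_of_pos, abs_of_neg]
  · norm_num [abs_of_pos, abs_of_neg]

/-- Nonreconstruction at the bound. -/
theorem main : Tendsto (reconError 3 15 (-(1 / Real.sqrt 15))) atTop (𝓝 0) := by
  have hsq : Real.sqrt ((15 : ℕ) : ℝ) ^ 2 = 15 := by
    rw [Real.sq_sqrt (by positivity)]; norm_num
  have hsq' : Real.sqrt (15 : ℝ) ^ 2 = 15 := by
    rw [Real.sq_sqrt (by positivity)]
  have hs0 : 0 < Real.sqrt (15 : ℝ) := Real.sqrt_pos.2 (by norm_num)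
  have hl2 : ((15 : ℝ)) * (-(1 / Real.sqrt 15)) ^ 2 = 1 := by
    have : (-(1 / Real.sqrt (15 : ℝ))) ^ 2 = 1 / 15 := by
      rw [neg_sq, div_pow, hsq']; norm_num
    rw [this]; norm_num
  have hb : |(-(1 / Real.sqrt (15 : ℝ)))| ≤ (70973170389 / 274877906944 : ℝ) := by
    rw [abs_neg, abs_of_pos (by positivity)]
    rw [div_le_iff₀ hs0]
    have h1 : (1 : ℝ) ^ 2 ≤ ((70973170389 / 274877906944 : ℝ) * Real.sqrt 15) ^ 2 := by
      rw [mul_pow, hsq']; norm_num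
    exact le_of_sq_le_sq h1 (by positivity)
  have hb2 : (-(1 / 2) : ℝ) < -(1 / Real.sqrt (15 : ℝ)) := by
    have h2 := (abs_le.1 hb).1
    have h3 : ((70973170389 / 274877906944 : ℝ) : ℝ) < 1 / 2 := by norm_num
    linarith
  have h1 : (-(1 / Real.sqrt (15 : ℝ))) < 1 := by
    have : 0 < 1 / Real.sqrt (15 : ℝ) := by positivity
    linarith
  have hlam : |(S : ℝ) * (-(1 / Real.sqrt (15 : ℝ))) - ((P.lp : ℝ) - P.ln)| ≤ ((1 : ℕ) : ℝ) := by
    have h := lam_enc 15 18605190778444650 (by norm_num) (by norm_num [S]) (by norm_num [S])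
    have e : ((15 : ℕ) : ℝ) = (15 : ℝ) := by norm_num
    rw [e] at h
    exact h
  obtain ⟨hOa, hON⟩ := horig _ hl2 hb
  refine final_of_box (d := 15) (by norm_num) hb2 h1 (box hlam) (87579 / 65536 : ℝ) (868797 / 65536 : ℝ) (379421 / 32768 : ℝ) (107 / 256 : ℝ) (45 / 512 : ℝ) (4233 / 4096 : ℝ) (5243 / 1048576 : ℝ) (1041 / 1024 : ℝ) (129 / 4096 : ℝ) (11 / 128 : ℝ) cellsL
    (by norm_num) (by norm_num) (by norm_num) (by norm_num) (by norm_num) (by norm_num) (by norm_num) (by norm_num) (by norm_num)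
    (by norm_num) (by norm_num) (by norm_num) (by norm_num) (by norm_num) hOa hON rTa rTb rc1 rc2 rc3
    (forall_cons rcell0 (forall_cons rcell1 (forall_cons rcell2 (forall_cons rcell3 (forall_cons rcell4 (forall_cons rcell5 (forall_cons rcell6 (forall_cons rcell7 (forall_cons rcell8 (forall_cons rcell9 (forall_cons rcell10 (forall_cons rcell11 (forall_cons rcell12 (forall_cons rcell13 (forall_cons rcell14 (forall_nil)))))))))))))))) hcover (forall_cons lcell0 (forall_cons lcell1 (forall_cons lcell2 (forall_cons lcell3 (forall_cons lcell4 (forall_cons lcell5 (forall_cons lcell6 (forall_cons lcell7 (forall_cons lcell8 (forall_cons lcell9 (forall_cons lcell10 (forall_cons lcell11 (forall_cons lcell12 (forall_cons lcell13 (forall_cons lcell14 (forall_nil))))))))))))))))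

end Vale.Agent.P154H.Tm.D15
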