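import Vale.Agent.P154H.D.D16
import Vale.Agent.P154H.FinalD
import Vale.Agent.P154H.OriginW

open Filter Topology

set_option maxRecDepth 100000

/-!
Nonreconstruction at the Kesten-Stigum bound for `d = 16`, negative eigenvalue.
-/

namespace Vale.Agent.P154H.Tm.D16

open Vale.Agent.P154 Vale.Agent.P154H

/-- A chord cell. -/
noncomputable def C0 : Cell := ⟨(5243 / 1048576 : ℝ), (797 / 131072 : ℝ), (-42099491 / 2097152 : ℝ), (-412883179 / 2097152 : ℝ), (-370368145 / 2097152 : ℝ), (-416963 / 268435456 : ℝ)⟩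

/-- A chord cell. -/
noncomputable def C1 : Cell := ⟨(797 / 131072 : ℝ), (1939 / 262144 : ℝ), (-41551295 / 2097152 : ℝ), (-812710055 / 4194304 : ℝ), (-363731921 / 2097152 : ℝ), (-84517 / 33554432 : ℝ)⟩

/-- A chord cell. -/
noncomputable def C2 : Cell := ⟨(1939 / 262144 : ℝ), (2359 / 262144 : ℝ), (-40906023 / 2097152 : ℝ), (-796993597 / 4194304 : ℝ), (-355801529 / 2097152 : ℝ), (-1027731 / 268435456 : ℝ)⟩

/-- A chord cell. -/
noncomputable def C3 : Cell := ⟨(2359 / 262144 : ℝ), (1435 / 131072 : ℝ), (-80266801 / 4194304 : ℝ), (-778050043 / 4194304 : ℝ), (-43296087 / 262144 : ℝ), (-704903 / 134217728 : ℝ)⟩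

/-- A chord cell. -/
noncomputable def C4 : Cell := ⟨(1435 / 131072 : ℝ), (3491 / 262144 : ℝ), (-78331701 / 4194304 : ℝ), (-756239981 / 4194304 : ℝ), (-167607385 / 1048576 : ℝ), (-36053 / 4194304 : ℝ)⟩

/-- A chord cell. -/
noncomputable def C5 : Cell := ⟨(3491 / 262144 : ℝ), (2123 / 131072 : ℝ), (-76038909 / 4194304 : ℝ), (-364826383 / 2097152 : ℝ), (-322109541 / 2097152 : ℝ), (-178771 / 16777216 : ℝ)⟩

/-- A chord cell. -/
noncomputable def C6 : Cell := ⟨(2123 / 131072 : ℝ), (5165 / 262144 : ℝ), (-73569639 / 4194304 : ℝ), (-699493619 / 4194304 : ℝ), (-306813045 / 2097152 : ℝ), (-4671189 / 268435456 : ℝ)⟩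

/-- A chord cell. -/
noncomputable def C7 : Cell := ⟨(5165 / 262144 : ℝ), (3141 / 131072 : ℝ), (-70463205 / 4194304 : ℝ), (-41507367 / 262144 : ℝ), (-578250737 / 4194304 : ℝ), (-6568955 / 268435456 : ℝ)⟩

/-- A chord cell. -/
noncomputable def C8 : Cell := ⟨(3141 / 131072 : ℝ), (3821 / 131072 : ℝ), (-33313377 / 2097152 : ℝ), (-624427877 / 4194304 : ℝ), (-537788401 / 4194304 : ℝ), (-5087389 / 134217728 : ℝ)⟩

/-- A chord cell. -/
noncomputable def C9 : Cell := ⟨(3821 / 131072 : ℝ), (581 / 16384 : ℝ), (-63196629 / 4194304 : ℝ), (-144997483 / 1048576 : ℝ), (-246064817 / 2097152 : ℝ), (-8804023 / 134217728 : ℝ)⟩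

/-- A chord cell. -/
noncomputable def C10 : Cell := ⟨(581 / 16384 : ℝ), (11307 / 262144 : ℝ), (-58645083 / 4194304 : ℝ), (-264910847 / 2097152 : ℝ), (-441499831 / 4194304 : ℝ), (-6391423 / 67108864 : ℝ)⟩

/-- A chord cell. -/
noncomputable def C11 : Cell := ⟨(11307 / 262144 : ℝ), (6877 / 131072 : ℝ), (-54080033 / 4194304 : ℝ), (-476684277 / 4194304 : ℝ), (-386490751 / 4194304 : ℝ), (-41663481 / 268435456 : ℝ)⟩

/-- A chord cell. -/
noncomputable def C12 : Cell := ⟨(6877 / 131072 : ℝ), (8365 / 131072 : ℝ), (-49027189 / 4194304 : ℝ), (-212763351 / 2097152 : ℝ), (-328226741 / 4194304 : ℝ), (-80549875 / 268435456 : ℝ)⟩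

/-- A chord cell. -/
noncomputable def C13 : Cell := ⟨(8365 / 131072 : ℝ), (81 / 1024 : ℝ), (-22698603 / 2097152 : ℝ), (-95812059 / 1048576 : ℝ), (-265390005 / 4194304 : ℝ), (-188846859 / 268435456 : ℝ)⟩

/-- The chord cells. -/
noncomputable def cellsL : List Cell := [C0, C1, C2, C3, C4, C5, C6, C7, C8, C9, C10, C11, C12, C13]

lemma hcover : ∀ x : ℝ, (5243 / 1048576 : ℝ) ≤ x → x ≤ (81 / 1024 : ℝ) → ∃ D ∈ cellsL, D.l ≤ x ∧ x ≤ D.u := by
  refine cover_of_chain ?_ (by norm_num [C0])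
  simp only [ChainP, C0, C1, C2, C3, C4, C5, C6, C7, C8, C9, C10, C11, C12, C13]
  norm_num

lemma hch : ((Nat.choose 16 2 : ℕ) : ℝ) = 120 := by norm_num [Nat.choose]

lemma rTa : Rw4 P.r1 (393216 : ℝ) (coTa 16 (87579 / 65536 : ℝ) (868797 / 65536 : ℝ) (379421 / 32768 : ℝ) (107 / 256 : ℝ) (63 / 2048 : ℝ)) := by
  refine ⟨⟨Ra, List.mem_cons_self, ?_⟩, by norm_num⟩
  constructor <;> norm_num [Ra, coTa, hch]

lemma rTb : Rw4 P.r1 (3298534883328 : ℝ) (coTb 16 (87579 / 65536 : ℝ) (868797 / 65536 : ℝ) (379421 / 32768 : ℝ) (107 / 256 : ℝ) (63 / 2048 : ℝ) (45 / 512 : ℝ) (4233 / 4096 : ℝ) (4747 / 4096 : ℝ)) := by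
  refine ⟨⟨Rb, List.mem_cons_of_mem _ (List.mem_cons_self), ?_⟩, by norm_num⟩
  constructor <;> norm_num [Rb, coTb, hch]

lemma rc1 : Rw4 P.r2 (16777216 : ℝ) ⟨0, 0, 0, -(87579 / 65536 : ℝ), 0, 0, 0, 0, (379421 / 32768 : ℝ) * (45 / 512 : ℝ)⟩ := by
  refine ⟨⟨Q0, List.mem_cons_self, ?_⟩, by norm_num⟩
  constructor <;> norm_num [Q0]

lemma rc2 : Rw4 P.r2 (134217728 : ℝ) ⟨0, 0, 0, 0, -(868797 / 65536 : ℝ), 0, 0, 0, (379421 / 32768 : ℝ) * (4233 / 4096 : ℝ)⟩ := by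
  refine ⟨⟨Q1, List.mem_cons_of_mem _ (List.mem_cons_self), ?_⟩, by norm_num⟩
  constructor <;> norm_num [Q1]

lemma rc3 : Rw4 P.r2 (3072 : ℝ) ⟨0, 0, 0, 0, 0, -1, 0, 0, (81 / 1024 : ℝ)⟩ := by
  refine ⟨⟨Q2, List.mem_cons_of_mem _ (List.mem_cons_of_mem _ (List.mem_cons_self)), ?_⟩, by norm_num⟩
  constructor <;> norm_num [Q2]

lemma rcell0 : ∃ N : ℝ, Rw4 P.r2 N (coCell (87579 / 65536 : ℝ) (868797 / 65536 : ℝ) ((379421 / 32768 : ℝ) + (107 / 256 : ℝ)) (63 / 2048 : ℝ) C0) := by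
  refine ⟨(805306368 : ℝ), ⟨Q3, List.mem_cons_of_mem _ (List.mem_cons_of_mem _ (List.mem_cons_of_mem _ (List.mem_cons_self))), ?_⟩, by norm_num⟩
  constructor <;> norm_num [Q3, coCell, C0]

lemma lcell0 : ∀ x1 x2 xc : ℝ, 0 ≤ x1 → x1 ≤ 1 → 0 ≤ x2 → x2 ≤ 1 → C0.l ≤ xc → xc ≤ C0.u →
    (87579 / 65536 : ℝ) * (1 - (1 - x1) ^ 16) + (868797 / 65536 : ℝ) * (1 - (1 - x2) ^ 16) - ((379421 / 32768 : ℝ) + (107 / 256 : ℝ)) * (1 - (1 - xc) ^ 16)
      ≤ - C0.a1 * x1 - C0.a2 * x2 + C0.e * xc + C0.f := by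
  have h := cell_lines 16 (α1 := (87579 / 65536 : ℝ)) (α2 := (868797 / 65536 : ℝ)) (c := (379421 / 32768 : ℝ) + (107 / 256 : ℝ)) (y1 := (275 / 65536 : ℝ)) (y2 := (1299 / 262144 : ℝ))
    (A1 := (42099491 / 2097152 : ℝ)) (B1 := (728901 / 268435456 : ℝ)) (A2 := (412883179 / 2097152 : ℝ)) (B2 := (5006145 / 134217728 : ℝ)) (l := (5243 / 1048576 : ℝ)) (u := (797 / 131072 : ℝ))
    (E := (-370368145 / 2097152 : ℝ)) (F := (-5579077 / 134217728 : ℝ)) (by norm_num) (by norm_num) (by norm_num) (by norm_num) (by norm_num)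
    (by norm_num) (by norm_num) (by norm_num) (by norm_num) (by norm_num) (by norm_num) (by norm_num) (by norm_num) (by norm_num) (by norm_num)
  have e1 : C0.l = (5243 / 1048576 : ℝ) := rfl
  have e2 : C0.u = (797 / 131072 : ℝ) := rfl
  have e3 : C0.a1 = -(42099491 / 2097152 : ℝ) := by norm_num [C0]
  have e4 : C0.a2 = -(412883179 / 2097152 : ℝ) := by norm_num [C0]
  have e5 : C0.e = (-370368145 / 2097152 : ℝ) := rfl
  have e6 : C0.f = (728901 / 268435456 : ℝ) + (5006145 / 134217728 : ℝ) + (-5579077 / 134217728 : ℝ) := by norm_num [C0]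
  rw [e1, e2, e3, e4, e5, e6]
  exact h

lemma rcell1 : ∃ N : ℝ, Rw4 P.r2 N (coCell (87579 / 65536 : ℝ) (868797 / 65536 : ℝ) ((379421 / 32768 : ℝ) + (107 / 256 : ℝ)) (63 / 2048 : ℝ) C1) := by
  refine ⟨(100663296 : ℝ), ⟨Q4, List.mem_cons_of_mem _ (List.mem_cons_of_mem _ (List.mem_cons_of_mem _ (List.mem_cons_of_mem _ (List.mem_cons_self)))), ?_⟩, by norm_num⟩
  constructor <;> norm_num [Q4, coCell, C1]

lemma lcell1 : ∀ x1 x2 xc : ℝ, 0 ≤ x1 → x1 ≤ 1 → 0 ≤ x2 → x2 ≤ 1 → C1.l ≤ xc → xc ≤ C1.u →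
    (87579 / 65536 : ℝ) * (1 - (1 - x1) ^ 16) + (868797 / 65536 : ℝ) * (1 - (1 - x2) ^ 16) - ((379421 / 32768 : ℝ) + (107 / 256 : ℝ)) * (1 - (1 - xc) ^ 16)
      ≤ - C1.a1 * x1 - C1.a2 * x2 + C1.e * xc + C1.f := by
  have h := cell_lines 16 (α1 := (87579 / 65536 : ℝ)) (α2 := (868797 / 65536 : ℝ)) (c := (379421 / 32768 : ℝ) + (107 / 256 : ℝ)) (y1 := (83 / 16384 : ℝ)) (y2 := (197 / 32768 : ℝ))
    (A1 := (41551295 / 2097152 : ℝ)) (B1 := (1053783 / 268435456 : ℝ)) (A2 := (812710055 / 4194304 : ℝ)) (B2 := (14593343 / 268435456 : ℝ)) (l := (797 / 131072 : ℝ)) (u := (1939 / 262144 : ℝ))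
    (E := (-363731921 / 2097152 : ℝ)) (F := (-8161631 / 134217728 : ℝ)) (by norm_num) (by norm_num) (by norm_num) (by norm_num) (by norm_num)
    (by norm_num) (by norm_num) (by norm_num) (by norm_num) (by norm_num) (by norm_num) (by norm_num) (by norm_num) (by norm_num) (by norm_num)
  have e1 : C1.l = (797 / 131072 : ℝ) := rfl
  have e2 : C1.u = (1939 / 262144 : ℝ) := rfl
  have e3 : C1.a1 = -(41551295 / 2097152 : ℝ) := by norm_num [C1]
  have e4 : C1.a2 = -(812710055 / 4194304 : ℝ) := by norm_num [C1]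
  have e5 : C1.e = (-363731921 / 2097152 : ℝ) := rfl
  have e6 : C1.f = (1053783 / 268435456 : ℝ) + (14593343 / 268435456 : ℝ) + (-8161631 / 134217728 : ℝ) := by norm_num [C1]
  rw [e1, e2, e3, e4, e5, e6]
  exact h

lemma rcell2 : ∃ N : ℝ, Rw4 P.r2 N (coCell (87579 / 65536 : ℝ) (868797 / 65536 : ℝ) ((379421 / 32768 : ℝ) + (107 / 256 : ℝ)) (63 / 2048 : ℝ) C2) := by
  refine ⟨(805306368 : ℝ), ⟨Q5, List.mem_cons_of_mem _ (List.mem_cons_of_mem _ (List.mem_cons_of_mem _ (List.mem_cons_of_mem _ (List.mem_cons_of_mem _ (List.mem_cons_self))))), ?_⟩, by norm_num⟩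
  constructor <;> norm_num [Q5, coCell, C2]

lemma lcell2 : ∀ x1 x2 xc : ℝ, 0 ≤ x1 → x1 ≤ 1 → 0 ≤ x2 → x2 ≤ 1 → C2.l ≤ xc → xc ≤ C2.u →
    (87579 / 65536 : ℝ) * (1 - (1 - x1) ^ 16) + (868797 / 65536 : ℝ) * (1 - (1 - x2) ^ 16) - ((379421 / 32768 : ℝ) + (107 / 256 : ℝ)) * (1 - (1 - xc) ^ 16)
      ≤ - C2.a1 * x1 - C2.a2 * x2 + C2.e * xc + C2.f := by
  have h := cell_lines 16 (α1 := (87579 / 65536 : ℝ)) (α2 := (868797 / 65536 : ℝ)) (c := (379421 / 32768 : ℝ) + (107 / 256 : ℝ)) (y1 := (25 / 4096 : ℝ)) (y2 := (1915 / 262144 : ℝ))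
    (A1 := (40906023 / 2097152 : ℝ)) (B1 := (1514945 / 268435456 : ℝ)) (A2 := (796993597 / 4194304 : ℝ)) (B2 := (10644451 / 134217728 : ℝ)) (l := (1939 / 262144 : ℝ)) (u := (2359 / 262144 : ℝ))
    (E := (-355801529 / 2097152 : ℝ)) (F := (-11915789 / 134217728 : ℝ)) (by norm_num) (by norm_num) (by norm_num) (by norm_num) (by norm_num)
    (by norm_num) (by norm_num) (by norm_num) (by norm_num) (by norm_num) (by norm_num) (by norm_num) (by norm_num) (by norm_num) (by norm_num)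
  have e1 : C2.l = (1939 / 262144 : ℝ) := rfl
  have e2 : C2.u = (2359 / 262144 : ℝ) := rfl
  have e3 : C2.a1 = -(40906023 / 2097152 : ℝ) := by norm_num [C2]
  have e4 : C2.a2 = -(796993597 / 4194304 : ℝ) := by norm_num [C2]
  have e5 : C2.e = (-355801529 / 2097152 : ℝ) := rfl
  have e6 : C2.f = (1514945 / 268435456 : ℝ) + (10644451 / 134217728 : ℝ) + (-11915789 / 134217728 : ℝ) := by norm_num [C2]
  rw [e1, e2, e3, e4, e5, e6]
  exact h

lemma rcell3 : ∃ N : ℝ, Rw4 P.r2 N (coCell (87579 / 65536 : ℝ) (868797 / 65536 : ℝ) ((379421 / 32768 : ℝ) + (107 / 256 : ℝ)) (63 / 2048 : ℝ) C3) := by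
  refine ⟨(402653184 : ℝ), ⟨Q6, List.mem_cons_of_mem _ (List.mem_cons_of_mem _ (List.mem_cons_of_mem _ (List.mem_cons_of_mem _ (List.mem_cons_of_mem _ (List.mem_cons_of_mem _ (List.mem_cons_self)))))), ?_⟩, by norm_num⟩
  constructor <;> norm_num [Q6, coCell, C3]

lemma lcell3 : ∀ x1 x2 xc : ℝ, 0 ≤ x1 → x1 ≤ 1 → 0 ≤ x2 → x2 ≤ 1 → C3.l ≤ xc → xc ≤ C3.u →
    (87579 / 65536 : ℝ) * (1 - (1 - x1) ^ 16) + (868797 / 65536 : ℝ) * (1 - (1 - x2) ^ 16) - ((379421 / 32768 : ℝ) + (107 / 256 : ℝ)) * (1 - (1 - xc) ^ 16)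
      ≤ - C3.a1 * x1 - C3.a2 * x2 + C3.e * xc + C3.f := by
  have h := cell_lines 16 (α1 := (87579 / 65536 : ℝ)) (α2 := (868797 / 65536 : ℝ)) (c := (379421 / 32768 : ℝ) + (107 / 256 : ℝ)) (y1 := (1931 / 262144 : ℝ)) (y2 := (583 / 65536 : ℝ))
    (A1 := (80266801 / 4194304 : ℝ)) (B1 := (2180801 / 268435456 : ℝ)) (A2 := (778050043 / 4194304 : ℝ)) (B2 := (31106231 / 268435456 : ℝ)) (l := (2359 / 262144 : ℝ)) (u := (1435 / 131072 : ℝ))
    (E := (-43296087 / 262144 : ℝ)) (F := (-17348419 / 134217728 : ℝ)) (by norm_num) (by norm_num) (by norm_num) (by norm_num) (by norm_num)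
    (by norm_num) (by norm_num) (by norm_num) (by norm_num) (by norm_num) (by norm_num) (by norm_num) (by norm_num) (by norm_num) (by norm_num)
  have e1 : C3.l = (2359 / 262144 : ℝ) := rfl
  have e2 : C3.u = (1435 / 131072 : ℝ) := rfl
  have e3 : C3.a1 = -(80266801 / 4194304 : ℝ) := by norm_num [C3]
  have e4 : C3.a2 = -(778050043 / 4194304 : ℝ) := by norm_num [C3]
  have e5 : C3.e = (-43296087 / 262144 : ℝ) := rfl
  have e6 : C3.f = (2180801 / 268435456 : ℝ) + (31106231 / 268435456 : ℝ) + (-17348419 / 134217728 : ℝ) := by norm_num [C3]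
  rw [e1, e2, e3, e4, e5, e6]
  exact h

lemma rcell4 : ∃ N : ℝ, Rw4 P.r2 N (coCell (87579 / 65536 : ℝ) (868797 / 65536 : ℝ) ((379421 / 32768 : ℝ) + (107 / 256 : ℝ)) (63 / 2048 : ℝ) C4) := by
  refine ⟨(25165824 : ℝ), ⟨Q7, List.mem_cons_of_mem _ (List.mem_cons_of_mem _ (List.mem_cons_of_mem _ (List.mem_cons_of_mem _ (List.mem_cons_of_mem _ (List.mem_cons_of_mem _ (List.mem_cons_of_mem _ (List.mem_cons_self))))))), ?_⟩, by norm_num⟩
  constructor <;> norm_num [Q7, coCell, C4]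

lemma lcell4 : ∀ x1 x2 xc : ℝ, 0 ≤ x1 → x1 ≤ 1 → 0 ≤ x2 → x2 ≤ 1 → C4.l ≤ xc → xc ≤ C4.u →
    (87579 / 65536 : ℝ) * (1 - (1 - x1) ^ 16) + (868797 / 65536 : ℝ) * (1 - (1 - x2) ^ 16) - ((379421 / 32768 : ℝ) + (107 / 256 : ℝ)) * (1 - (1 - xc) ^ 16)
      ≤ - C4.a1 * x1 - C4.a2 * x2 + C4.e * xc + C4.f := by
  have h := cell_lines 16 (α1 := (87579 / 65536 : ℝ)) (α2 := (868797 / 65536 : ℝ)) (c := (379421 / 32768 : ℝ) + (107 / 256 : ℝ)) (y1 := (1177 / 131072 : ℝ)) (y2 := (353 / 32768 : ℝ))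
    (A1 := (78331701 / 4194304 : ℝ)) (B1 := (798155 / 67108864 : ℝ)) (A2 := (756239981 / 4194304 : ℝ)) (B2 := (11206893 / 67108864 : ℝ)) (l := (1435 / 131072 : ℝ)) (u := (3491 / 262144 : ℝ))
    (E := (-167607385 / 1048576 : ℝ)) (F := (-1572737 / 8388608 : ℝ)) (by norm_num) (by norm_num) (by norm_num) (by norm_num) (by norm_num)
    (by norm_num) (by norm_num) (by norm_num) (by norm_num) (by norm_num) (by norm_num) (by norm_num) (by norm_num) (by norm_num) (by norm_num)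
  have e1 : C4.l = (1435 / 131072 : ℝ) := rfl
  have e2 : C4.u = (3491 / 262144 : ℝ) := rfl
  have e3 : C4.a1 = -(78331701 / 4194304 : ℝ) := by norm_num [C4]
  have e4 : C4.a2 = -(756239981 / 4194304 : ℝ) := by norm_num [C4]
  have e5 : C4.e = (-167607385 / 1048576 : ℝ) := rfl
  have e6 : C4.f = (798155 / 67108864 : ℝ) + (11206893 / 67108864 : ℝ) + (-1572737 / 8388608 : ℝ) := by norm_num [C4]
  rw [e1, e2, e3, e4, e5, e6]
  exact h

lemma rcell5 : ∃ N : ℝ, Rw4 P.r2 N (coCell (87579 / 65536 : ℝ) (868797 / 65536 : ℝ) ((379421 / 32768 : ℝ) + (107 / 256 : ℝ)) (63 / 2048 : ℝ) C5) := by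
  refine ⟨(50331648 : ℝ), ⟨Q8, List.mem_cons_of_mem _ (List.mem_cons_of_mem _ (List.mem_cons_of_mem _ (List.mem_cons_of_mem _ (List.mem_cons_of_mem _ (List.mem_cons_of_mem _ (List.mem_cons_of_mem _ (List.mem_cons_of_mem _ (List.mem_cons_self)))))))), ?_⟩, by norm_num⟩
  constructor <;> norm_num [Q8, coCell, C5]

lemma lcell5 : ∀ x1 x2 xc : ℝ, 0 ≤ x1 → x1 ≤ 1 → 0 ≤ x2 → x2 ≤ 1 → C5.l ≤ xc → xc ≤ C5.u →
    (87579 / 65536 : ℝ) * (1 - (1 - x1) ^ 16) + (868797 / 65536 : ℝ) * (1 - (1 - x2) ^ 16) - ((379421 / 32768 : ℝ) + (107 / 256 : ℝ)) * (1 - (1 - xc) ^ 16)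
      ≤ - C5.a1 * x1 - C5.a2 * x2 + C5.e * xc + C5.f := by
  have h := cell_lines 16 (α1 := (87579 / 65536 : ℝ)) (α2 := (868797 / 65536 : ℝ)) (c := (379421 / 32768 : ℝ) + (107 / 256 : ℝ)) (y1 := (717 / 65536 : ℝ)) (y2 := (1721 / 131072 : ℝ))
    (A1 := (76038909 / 4194304 : ℝ)) (B1 := (2326755 / 134217728 : ℝ)) (A2 := (364826383 / 2097152 : ℝ)) (B2 := (32576389 / 134217728 : ℝ)) (l := (3491 / 262144 : ℝ)) (u := (2123 / 131072 : ℝ))
    (E := (-322109541 / 2097152 : ℝ)) (F := (-141927 / 524288 : ℝ)) (by norm_num) (by norm_num) (by norm_num) (by norm_num) (by norm_num)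
    (by norm_num) (by norm_num) (by norm_num) (by norm_num) (by norm_num) (by norm_num) (by norm_num) (by norm_num) (by norm_num) (by norm_num)
  have e1 : C5.l = (3491 / 262144 : ℝ) := rfl
  have e2 : C5.u = (2123 / 131072 : ℝ) := rfl
  have e3 : C5.a1 = -(76038909 / 4194304 : ℝ) := by norm_num [C5]
  have e4 : C5.a2 = -(364826383 / 2097152 : ℝ) := by norm_num [C5]
  have e5 : C5.e = (-322109541 / 2097152 : ℝ) := rfl
  have e6 : C5.f = (2326755 / 134217728 : ℝ) + (32576389 / 134217728 : ℝ) + (-141927 / 524288 : ℝ) := by norm_num [C5]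
  rw [e1, e2, e3, e4, e5, e6]
  exact h

lemma rcell6 : ∃ N : ℝ, Rw4 P.r2 N (coCell (87579 / 65536 : ℝ) (868797 / 65536 : ℝ) ((379421 / 32768 : ℝ) + (107 / 256 : ℝ)) (63 / 2048 : ℝ) C6) := by
  refine ⟨(805306368 : ℝ), ⟨Q9, List.mem_cons_of_mem _ (List.mem_cons_of_mem _ (List.mem_cons_of_mem _ (List.mem_cons_of_mem _ (List.mem_cons_of_mem _ (List.mem_cons_of_mem _ (List.mem_cons_of_mem _ (List.mem_cons_of_mem _ (List.mem_cons_of_mem _ (List.mem_cons_self))))))))), ?_⟩, by norm_num⟩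
  constructor <;> norm_num [Q9, coCell, C6]

lemma lcell6 : ∀ x1 x2 xc : ℝ, 0 ≤ x1 → x1 ≤ 1 → 0 ≤ x2 → x2 ≤ 1 → C6.l ≤ xc → xc ≤ C6.u →
    (87579 / 65536 : ℝ) * (1 - (1 - x1) ^ 16) + (868797 / 65536 : ℝ) * (1 - (1 - x2) ^ 16) - ((379421 / 32768 : ℝ) + (107 / 256 : ℝ)) * (1 - (1 - xc) ^ 16)
      ≤ - C6.a1 * x1 - C6.a2 * x2 + C6.e * xc + C6.f := by
  have h := cell_lines 16 (α1 := (87579 / 65536 : ℝ)) (α2 := (868797 / 65536 : ℝ)) (c := (379421 / 32768 : ℝ) + (107 / 256 : ℝ)) (y1 := (1719 / 131072 : ℝ)) (y2 := (4169 / 262144 : ℝ))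
    (A1 := (73569639 / 4194304 : ℝ)) (B1 := (6553407 / 268435456 : ℝ)) (A2 := (699493619 / 4194304 : ℝ)) (B2 := (93155369 / 268435456 : ℝ)) (l := (2123 / 131072 : ℝ)) (u := (5165 / 262144 : ℝ))
    (E := (-306813045 / 2097152 : ℝ)) (F := (-104379965 / 268435456 : ℝ)) (by norm_num) (by norm_num) (by norm_num) (by norm_num) (by norm_num)
    (by norm_num) (by norm_num) (by norm_num) (by norm_num) (by norm_num) (by norm_num) (by norm_num) (by norm_num) (by norm_num) (by norm_num)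
  have e1 : C6.l = (2123 / 131072 : ℝ) := rfl
  have e2 : C6.u = (5165 / 262144 : ℝ) := rfl
  have e3 : C6.a1 = -(73569639 / 4194304 : ℝ) := by norm_num [C6]
  have e4 : C6.a2 = -(699493619 / 4194304 : ℝ) := by norm_num [C6]
  have e5 : C6.e = (-306813045 / 2097152 : ℝ) := rfl
  have e6 : C6.f = (6553407 / 268435456 : ℝ) + (93155369 / 268435456 : ℝ) + (-104379965 / 268435456 : ℝ) := by norm_num [C6]
  rw [e1, e2, e3, e4, e5, e6]
  exact h

lemma rcell7 : ∃ N : ℝ, Rw4 P.r2 N (coCell (87579 / 65536 : ℝ) (868797 / 65536 : ℝ) ((379421 / 32768 : ℝ) + (107 / 256 : ℝ)) (63 / 2048 : ℝ) C7) := by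
  refine ⟨(805306368 : ℝ), ⟨Q10, List.mem_cons_of_mem _ (List.mem_cons_of_mem _ (List.mem_cons_of_mem _ (List.mem_cons_of_mem _ (List.mem_cons_of_mem _ (List.mem_cons_of_mem _ (List.mem_cons_of_mem _ (List.mem_cons_of_mem _ (List.mem_cons_of_mem _ (List.mem_cons_of_mem _ (List.mem_cons_self)))))))))), ?_⟩, by norm_num⟩
  constructor <;> norm_num [Q10, coCell, C7]

lemma lcell7 : ∀ x1 x2 xc : ℝ, 0 ≤ x1 → x1 ≤ 1 → 0 ≤ x2 → x2 ≤ 1 → C7.l ≤ xc → xc ≤ C7.u →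
    (87579 / 65536 : ℝ) * (1 - (1 - x1) ^ 16) + (868797 / 65536 : ℝ) * (1 - (1 - x2) ^ 16) - ((379421 / 32768 : ℝ) + (107 / 256 : ℝ)) * (1 - (1 - xc) ^ 16)
      ≤ - C7.a1 * x1 - C7.a2 * x2 + C7.e * xc + C7.f := by
  have h := cell_lines 16 (α1 := (87579 / 65536 : ℝ)) (α2 := (868797 / 65536 : ℝ)) (c := (379421 / 32768 : ℝ) + (107 / 256 : ℝ)) (y1 := (4181 / 262144 : ℝ)) (y2 := (1265 / 65536 : ℝ))
    (A1 := (70463205 / 4194304 : ℝ)) (B1 := (9440657 / 268435456 : ℝ)) (A2 := (41507367 / 262144 : ℝ)) (B2 := (132978189 / 268435456 : ℝ)) (l := (5165 / 262144 : ℝ)) (u := (3141 / 131072 : ℝ))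
    (E := (-578250737 / 4194304 : ℝ)) (F := (-148987801 / 268435456 : ℝ)) (by norm_num) (by norm_num) (by norm_num) (by norm_num) (by norm_num)
    (by norm_num) (by norm_num) (by norm_num) (by norm_num) (by norm_num) (by norm_num) (by norm_num) (by norm_num) (by norm_num) (by norm_num)
  have e1 : C7.l = (5165 / 262144 : ℝ) := rfl
  have e2 : C7.u = (3141 / 131072 : ℝ) := rfl
  have e3 : C7.a1 = -(70463205 / 4194304 : ℝ) := by norm_num [C7]
  have e4 : C7.a2 = -(41507367 / 262144 : ℝ) := by norm_num [C7]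
  have e5 : C7.e = (-578250737 / 4194304 : ℝ) := rfl
  have e6 : C7.f = (9440657 / 268435456 : ℝ) + (132978189 / 268435456 : ℝ) + (-148987801 / 268435456 : ℝ) := by norm_num [C7]
  rw [e1, e2, e3, e4, e5, e6]
  exact h

lemma rcell8 : ∃ N : ℝ, Rw4 P.r2 N (coCell (87579 / 65536 : ℝ) (868797 / 65536 : ℝ) ((379421 / 32768 : ℝ) + (107 / 256 : ℝ)) (63 / 2048 : ℝ) C8) := by
  refine ⟨(402653184 : ℝ), ⟨Q11, List.mem_cons_of_mem _ (List.mem_cons_of_mem _ (List.mem_cons_of_mem _ (List.mem_cons_of_mem _ (List.mem_cons_of_mem _ (List.mem_cons_of_mem _ (List.mem_cons_of_mem _ (List.mem_cons_of_mem _ (List.mem_cons_of_mem _ (List.mem_cons_of_mem _ (List.mem_cons_of_mem _ (List.mem_cons_self))))))))))), ?_⟩, by norm_num⟩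
  constructor <;> norm_num [Q11, coCell, C8]

lemma lcell8 : ∀ x1 x2 xc : ℝ, 0 ≤ x1 → x1 ≤ 1 → 0 ≤ x2 → x2 ≤ 1 → C8.l ≤ xc → xc ≤ C8.u →
    (87579 / 65536 : ℝ) * (1 - (1 - x1) ^ 16) + (868797 / 65536 : ℝ) * (1 - (1 - x2) ^ 16) - ((379421 / 32768 : ℝ) + (107 / 256 : ℝ)) * (1 - (1 - xc) ^ 16)
      ≤ - C8.a1 * x1 - C8.a2 * x2 + C8.e * xc + C8.f := by
  have h := cell_lines 16 (α1 := (87579 / 65536 : ℝ)) (α2 := (868797 / 65536 : ℝ)) (c := (379421 / 32768 : ℝ) + (107 / 256 : ℝ)) (y1 := (2571 / 131072 : ℝ)) (y2 := (3057 / 131072 : ℝ))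
    (A1 := (33313377 / 2097152 : ℝ)) (B1 := (13802849 / 268435456 : ℝ)) (A2 := (624427877 / 4194304 : ℝ)) (B2 := (187066911 / 268435456 : ℝ)) (l := (3141 / 131072 : ℝ)) (u := (3821 / 131072 : ℝ))
    (E := (-537788401 / 4194304 : ℝ)) (F := (-105522269 / 134217728 : ℝ)) (by norm_num) (by norm_num) (by norm_num) (by norm_num) (by norm_num)
    (by norm_num) (by norm_num) (by norm_num) (by norm_num) (by norm_num) (by norm_num) (by norm_num) (by norm_num) (by norm_num) (by norm_num)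
  have e1 : C8.l = (3141 / 131072 : ℝ) := rfl
  have e2 : C8.u = (3821 / 131072 : ℝ) := rfl
  have e3 : C8.a1 = -(33313377 / 2097152 : ℝ) := by norm_num [C8]
  have e4 : C8.a2 = -(624427877 / 4194304 : ℝ) := by norm_num [C8]
  have e5 : C8.e = (-537788401 / 4194304 : ℝ) := rfl
  have e6 : C8.f = (13802849 / 268435456 : ℝ) + (187066911 / 268435456 : ℝ) + (-105522269 / 134217728 : ℝ) := by norm_num [C8]
  rw [e1, e2, e3, e4, e5, e6]
  exact h

lemma rcell9 : ∃ N : ℝ, Rw4 P.r2 N (coCell (87579 / 65536 : ℝ) (868797 / 65536 : ℝ) ((379421 / 32768 : ℝ) + (107 / 256 : ℝ)) (63 / 2048 : ℝ) C9) := by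
  refine ⟨(402653184 : ℝ), ⟨Q12, List.mem_cons_of_mem _ (List.mem_cons_of_mem _ (List.mem_cons_of_mem _ (List.mem_cons_of_mem _ (List.mem_cons_of_mem _ (List.mem_cons_of_mem _ (List.mem_cons_of_mem _ (List.mem_cons_of_mem _ (List.mem_cons_of_mem _ (List.mem_cons_of_mem _ (List.mem_cons_of_mem _ (List.mem_cons_of_mem _ (List.mem_cons_self)))))))))))), ?_⟩, by norm_num⟩
  constructor <;> norm_num [Q12, coCell, C9]

lemma lcell9 : ∀ x1 x2 xc : ℝ, 0 ≤ x1 → x1 ≤ 1 → 0 ≤ x2 → x2 ≤ 1 → C9.l ≤ xc → xc ≤ C9.u →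
    (87579 / 65536 : ℝ) * (1 - (1 - x1) ^ 16) + (868797 / 65536 : ℝ) * (1 - (1 - x2) ^ 16) - ((379421 / 32768 : ℝ) + (107 / 256 : ℝ)) * (1 - (1 - xc) ^ 16)
      ≤ - C9.a1 * x1 - C9.a2 * x2 + C9.e * xc + C9.f := by
  have h := cell_lines 16 (α1 := (87579 / 65536 : ℝ)) (α2 := (868797 / 65536 : ℝ)) (c := (379421 / 32768 : ℝ) + (107 / 256 : ℝ)) (y1 := (3023 / 131072 : ℝ)) (y2 := (7371 / 262144 : ℝ))
    (A1 := (63196629 / 4194304 : ℝ)) (B1 := (18484337 / 268435456 : ℝ)) (A2 := (144997483 / 1048576 : ℝ)) (B2 := (260138751 / 268435456 : ℝ)) (l := (3821 / 131072 : ℝ)) (u := (581 / 16384 : ℝ))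
    (E := (-246064817 / 2097152 : ℝ)) (F := (-148115567 / 134217728 : ℝ)) (by norm_num) (by norm_num) (by norm_num) (by norm_num) (by norm_num)
    (by norm_num) (by norm_num) (by norm_num) (by norm_num) (by norm_num) (by norm_num) (by norm_num) (by norm_num) (by norm_num) (by norm_num)
  have e1 : C9.l = (3821 / 131072 : ℝ) := rfl
  have e2 : C9.u = (581 / 16384 : ℝ) := rfl
  have e3 : C9.a1 = -(63196629 / 4194304 : ℝ) := by norm_num [C9]
  have e4 : C9.a2 = -(144997483 / 1048576 : ℝ) := by norm_num [C9]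
  have e5 : C9.e = (-246064817 / 2097152 : ℝ) := rfl
  have e6 : C9.f = (18484337 / 268435456 : ℝ) + (260138751 / 268435456 : ℝ) + (-148115567 / 134217728 : ℝ) := by norm_num [C9]
  rw [e1, e2, e3, e4, e5, e6]
  exact h

lemma rcell10 : ∃ N : ℝ, Rw4 P.r2 N (coCell (87579 / 65536 : ℝ) (868797 / 65536 : ℝ) ((379421 / 32768 : ℝ) + (107 / 256 : ℝ)) (63 / 2048 : ℝ) C10) := by
  refine ⟨(201326592 : ℝ), ⟨Q13, List.mem_cons_of_mem _ (List.mem_cons_of_mem _ (List.mem_cons_of_mem _ (List.mem_cons_of_mem _ (List.mem_cons_of_mem _ (List.mem_cons_of_mem _ (List.mem_cons_of_mem _ (List.mem_cons_of_mem _ (List.mem_cons_of_mem _ (List.mem_cons_of_mem _ (List.mem_cons_of_mem _ (List.mem_cons_of_mem _ (List.mem_cons_of_mem _ (List.mem_cons_self))))))))))))), ?_⟩, by norm_num⟩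
  constructor <;> norm_num [Q13, coCell, C10]

lemma lcell10 : ∀ x1 x2 xc : ℝ, 0 ≤ x1 → x1 ≤ 1 → 0 ≤ x2 → x2 ≤ 1 → C10.l ≤ xc → xc ≤ C10.u →
    (87579 / 65536 : ℝ) * (1 - (1 - x1) ^ 16) + (868797 / 65536 : ℝ) * (1 - (1 - x2) ^ 16) - ((379421 / 32768 : ℝ) + (107 / 256 : ℝ)) * (1 - (1 - xc) ^ 16)
      ≤ - C10.a1 * x1 - C10.a2 * x2 + C10.e * xc + C10.f := by
  have h := cell_lines 16 (α1 := (87579 / 65536 : ℝ)) (α2 := (868797 / 65536 : ℝ)) (c := (379421 / 32768 : ℝ) + (107 / 256 : ℝ)) (y1 := (7319 / 262144 : ℝ)) (y2 := (8903 / 262144 : ℝ))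
    (A1 := (58645083 / 4194304 : ℝ)) (B1 := (25901823 / 268435456 : ℝ)) (A2 := (264910847 / 2097152 : ℝ)) (B2 := (359669539 / 268435456 : ℝ)) (l := (581 / 16384 : ℝ)) (u := (11307 / 262144 : ℝ))
    (E := (-441499831 / 4194304 : ℝ)) (F := (-205568527 / 134217728 : ℝ)) (by norm_num) (by norm_num) (by norm_num) (by norm_num) (by norm_num)
    (by norm_num) (by norm_num) (by norm_num) (by norm_num) (by norm_num) (by norm_num) (by norm_num) (by norm_num) (by norm_num) (by norm_num)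
  have e1 : C10.l = (581 / 16384 : ℝ) := rfl
  have e2 : C10.u = (11307 / 262144 : ℝ) := rfl
  have e3 : C10.a1 = -(58645083 / 4194304 : ℝ) := by norm_num [C10]
  have e4 : C10.a2 = -(264910847 / 2097152 : ℝ) := by norm_num [C10]
  have e5 : C10.e = (-441499831 / 4194304 : ℝ) := rfl
  have e6 : C10.f = (25901823 / 268435456 : ℝ) + (359669539 / 268435456 : ℝ) + (-205568527 / 134217728 : ℝ) := by norm_num [C10]
  rw [e1, e2, e3, e4, e5, e6]
  exact h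

lemma rcell11 : ∃ N : ℝ, Rw4 P.r2 N (coCell (87579 / 65536 : ℝ) (868797 / 65536 : ℝ) ((379421 / 32768 : ℝ) + (107 / 256 : ℝ)) (63 / 2048 : ℝ) C11) := by
  refine ⟨(805306368 : ℝ), ⟨Q14, List.mem_cons_of_mem _ (List.mem_cons_of_mem _ (List.mem_cons_of_mem _ (List.mem_cons_of_mem _ (List.mem_cons_of_mem _ (List.mem_cons_of_mem _ (List.mem_cons_of_mem _ (List.mem_cons_of_mem _ (List.mem_cons_of_mem _ (List.mem_cons_of_mem _ (List.mem_cons_of_mem _ (List.mem_cons_of_mem _ (List.mem_cons_of_mem _ (List.mem_cons_of_mem _ (List.mem_cons_self)))))))))))))), ?_⟩, by norm_num⟩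
  constructor <;> norm_num [Q14, coCell, C11]

lemma lcell11 : ∀ x1 x2 xc : ℝ, 0 ≤ x1 → x1 ≤ 1 → 0 ≤ x2 → x2 ≤ 1 → C11.l ≤ xc → xc ≤ C11.u →
    (87579 / 65536 : ℝ) * (1 - (1 - x1) ^ 16) + (868797 / 65536 : ℝ) * (1 - (1 - x2) ^ 16) - ((379421 / 32768 : ℝ) + (107 / 256 : ℝ)) * (1 - (1 - xc) ^ 16)
      ≤ - C11.a1 * x1 - C11.a2 * x2 + C11.e * xc + C11.f := by
  have h := cell_lines 16 (α1 := (87579 / 65536 : ℝ)) (α2 := (868797 / 65536 : ℝ)) (c := (379421 / 32768 : ℝ) + (107 / 256 : ℝ)) (y1 := (2173 / 65536 : ℝ)) (y2 := (10681 / 262144 : ℝ))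
    (A1 := (54080033 / 4194304 : ℝ)) (B1 := (17407213 / 134217728 : ℝ)) (A2 := (476684277 / 4194304 : ℝ)) (B2 := (486511605 / 268435456 : ℝ)) (l := (11307 / 262144 : ℝ)) (u := (6877 / 131072 : ℝ))
    (E := (-386490751 / 4194304 : ℝ)) (F := (-70373689 / 33554432 : ℝ)) (by norm_num) (by norm_num) (by norm_num) (by norm_num) (by norm_num)
    (by norm_num) (by norm_num) (by norm_num) (by norm_num) (by norm_num) (by norm_num) (by norm_num) (by norm_num) (by norm_num) (by norm_num)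
  have e1 : C11.l = (11307 / 262144 : ℝ) := rfl
  have e2 : C11.u = (6877 / 131072 : ℝ) := rfl
  have e3 : C11.a1 = -(54080033 / 4194304 : ℝ) := by norm_num [C11]
  have e4 : C11.a2 = -(476684277 / 4194304 : ℝ) := by norm_num [C11]
  have e5 : C11.e = (-386490751 / 4194304 : ℝ) := rfl
  have e6 : C11.f = (17407213 / 134217728 : ℝ) + (486511605 / 268435456 : ℝ) + (-70373689 / 33554432 : ℝ) := by norm_num [C11]
  rw [e1, e2, e3, e4, e5, e6]
  exact h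

lemma rcell12 : ∃ N : ℝ, Rw4 P.r2 N (coCell (87579 / 65536 : ℝ) (868797 / 65536 : ℝ) ((379421 / 32768 : ℝ) + (107 / 256 : ℝ)) (63 / 2048 : ℝ) C12) := by
  refine ⟨(805306368 : ℝ), ⟨Q15, List.mem_cons_of_mem _ (List.mem_cons_of_mem _ (List.mem_cons_of_mem _ (List.mem_cons_of_mem _ (List.mem_cons_of_mem _ (List.mem_cons_of_mem _ (List.mem_cons_of_mem _ (List.mem_cons_of_mem _ (List.mem_cons_of_mem _ (List.mem_cons_of_mem _ (List.mem_cons_of_mem _ (List.mem_cons_of_mem _ (List.mem_cons_of_mem _ (List.mem_cons_of_mem _ (List.mem_cons_of_mem _ (List.mem_cons_self))))))))))))))), ?_⟩, by norm_num⟩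
  constructor <;> norm_num [Q15, coCell, C12]

lemma lcell12 : ∀ x1 x2 xc : ℝ, 0 ≤ x1 → x1 ≤ 1 → 0 ≤ x2 → x2 ≤ 1 → C12.l ≤ xc → xc ≤ C12.u →
    (87579 / 65536 : ℝ) * (1 - (1 - x1) ^ 16) + (868797 / 65536 : ℝ) * (1 - (1 - x2) ^ 16) - ((379421 / 32768 : ℝ) + (107 / 256 : ℝ)) * (1 - (1 - xc) ^ 16)
      ≤ - C12.a1 * x1 - C12.a2 * x2 + C12.e * xc + C12.f := by
  have h := cell_lines 16 (α1 := (87579 / 65536 : ℝ)) (α2 := (868797 / 65536 : ℝ)) (c := (379421 / 32768 : ℝ) + (107 / 256 : ℝ)) (y1 := (1293 / 32768 : ℝ)) (y2 := (12577 / 262144 : ℝ))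
    (A1 := (49027189 / 4194304 : ℝ)) (B1 := (46540341 / 268435456 : ℝ)) (A2 := (212763351 / 2097152 : ℝ)) (B2 := (631544607 / 268435456 : ℝ)) (l := (6877 / 131072 : ℝ)) (u := (8365 / 131072 : ℝ))
    (E := (-328226741 / 4194304 : ℝ)) (F := (-758634823 / 268435456 : ℝ)) (by norm_num) (by norm_num) (by norm_num) (by norm_num) (by norm_num)
    (by norm_num) (by norm_num) (by norm_num) (by norm_num) (by norm_num) (by norm_num) (by norm_num) (by norm_num) (by norm_num) (by norm_num)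
  have e1 : C12.l = (6877 / 131072 : ℝ) := rfl
  have e2 : C12.u = (8365 / 131072 : ℝ) := rfl
  have e3 : C12.a1 = -(49027189 / 4194304 : ℝ) := by norm_num [C12]
  have e4 : C12.a2 = -(212763351 / 2097152 : ℝ) := by norm_num [C12]
  have e5 : C12.e = (-328226741 / 4194304 : ℝ) := rfl
  have e6 : C12.f = (46540341 / 268435456 : ℝ) + (631544607 / 268435456 : ℝ) + (-758634823 / 268435456 : ℝ) := by norm_num [C12]
  rw [e1, e2, e3, e4, e5, e6]
  exact h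

lemma rcell13 : ∃ N : ℝ, Rw4 P.r2 N (coCell (87579 / 65536 : ℝ) (868797 / 65536 : ℝ) ((379421 / 32768 : ℝ) + (107 / 256 : ℝ)) (63 / 2048 : ℝ) C13) := by
  refine ⟨(268435456 : ℝ), ⟨Q16, List.mem_cons_of_mem _ (List.mem_cons_of_mem _ (List.mem_cons_of_mem _ (List.mem_cons_of_mem _ (List.mem_cons_of_mem _ (List.mem_cons_of_mem _ (List.mem_cons_of_mem _ (List.mem_cons_of_mem _ (List.mem_cons_of_mem _ (List.mem_cons_of_mem _ (List.mem_cons_of_mem _ (List.mem_cons_of_mem _ (List.mem_cons_of_mem _ (List.mem_cons_of_mem _ (List.mem_cons_of_mem _ (List.mem_cons_of_mem _ (List.mem_cons_self)))))))))))))))), ?_⟩, by norm_num⟩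
  constructor <;> norm_num [Q16, coCell, C13]

lemma lcell13 : ∀ x1 x2 xc : ℝ, 0 ≤ x1 → x1 ≤ 1 → 0 ≤ x2 → x2 ≤ 1 → C13.l ≤ xc → xc ≤ C13.u →
    (87579 / 65536 : ℝ) * (1 - (1 - x1) ^ 16) + (868797 / 65536 : ℝ) * (1 - (1 - x2) ^ 16) - ((379421 / 32768 : ℝ) + (107 / 256 : ℝ)) * (1 - (1 - xc) ^ 16)
      ≤ - C13.a1 * x1 - C13.a2 * x2 + C13.e * xc + C13.f := by
  have h := cell_lines 16 (α1 := (87579 / 65536 : ℝ)) (α2 := (868797 / 65536 : ℝ)) (c := (379421 / 32768 : ℝ) + (107 / 256 : ℝ)) (y1 := (727 / 16384 : ℝ)) (y2 := (1789 / 32768 : ℝ))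
    (A1 := (22698603 / 2097152 : ℝ)) (B1 := (56271351 / 268435456 : ℝ)) (A2 := (95812059 / 1048576 : ℝ)) (B2 := (770171543 / 268435456 : ℝ)) (l := (8365 / 131072 : ℝ)) (u := (81 / 1024 : ℝ))
    (E := (-265390005 / 4194304 : ℝ)) (F := (-1015289753 / 268435456 : ℝ)) (by norm_num) (by norm_num) (by norm_num) (by norm_num) (by norm_num)
    (by norm_num) (by norm_num) (by norm_num) (by norm_num) (by norm_num) (by norm_num) (by norm_num) (by norm_num) (by norm_num) (by norm_num)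
  have e1 : C13.l = (8365 / 131072 : ℝ) := rfl
  have e2 : C13.u = (81 / 1024 : ℝ) := rfl
  have e3 : C13.a1 = -(22698603 / 2097152 : ℝ) := by norm_num [C13]
  have e4 : C13.a2 = -(95812059 / 1048576 : ℝ) := by norm_num [C13]
  have e5 : C13.e = (-265390005 / 4194304 : ℝ) := rfl
  have e6 : C13.f = (56271351 / 268435456 : ℝ) + (770171543 / 268435456 : ℝ) + (-1015289753 / 268435456 : ℝ) := by norm_num [C13]
  rw [e1, e2, e3, e4, e5, e6]
  exact h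

/-- The hypotheses at the origin. -/
lemma horig (lam : ℝ) (hd : (16 : ℝ) * lam ^ 2 = 1) (hb : |lam| ≤ (274877906945 / 1099511627776 : ℝ)) :
    OriginH 16 lam (87579 / 65536 : ℝ) (868797 / 65536 : ℝ) (379421 / 32768 : ℝ) (107 / 256 : ℝ) (63 / 2048 : ℝ) (45 / 512 : ℝ) (4233 / 4096 : ℝ) (1 / 256 : ℝ) 3298534883328 := by
  refine originH_of_num (d := 16) (by push_cast; exact hd) hb (by norm_num) (by norm_num) (by norm_num) (by norm_num)
    (by norm_num) (by norm_num) (by norm_num) (by norm_num) (by norm_num) (by norm_num) (by norm_num [S]) (by norm_num) ?_ ?_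
  · rw [hch]
    norm_num [abs_of_pos, abs_of_neg]
  · norm_num [abs_of_pos, abs_of_neg]

/-- Nonreconstruction at the bound. -/
theorem main : Tendsto (reconError 3 16 (-(1 / Real.sqrt 16))) atTop (𝓝 0) := by
  have hsq : Real.sqrt ((16 : ℕ) : ℝ) ^ 2 = 16 := by
    rw [Real.sq_sqrt (by positivity)]; norm_num
  have hsq' : Real.sqrt (16 : ℝ) ^ 2 = 16 := by
    rw [Real.sq_sqrt (by positivity)]
  have hs0 : 0 < Real.sqrt (16 : ℝ) := Real.sqrt_pos.2 (by norm_num)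
  have hl2 : ((16 : ℝ)) * (-(1 / Real.sqrt 16)) ^ 2 = 1 := by
    have : (-(1 / Real.sqrt (16 : ℝ))) ^ 2 = 1 / 16 := by
      rw [neg_sq, div_pow, hsq']; norm_num
    rw [this]; norm_num
  have hb : |(-(1 / Real.sqrt (16 : ℝ)))| ≤ (274877906945 / 1099511627776 : ℝ) := by
    rw [abs_neg, abs_of_pos (by positivity)]
    rw [div_le_iff₀ hs0]
    have h1 : (1 : ℝ) ^ 2 ≤ ((274877906945 / 1099511627776 : ℝ) * Real.sqrt 16) ^ 2 := by
      rw [mul_pow, hsq']; norm_num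
    exact le_of_sq_le_sq h1 (by positivity)
  have hb2 : (-(1 / 2) : ℝ) < -(1 / Real.sqrt (16 : ℝ)) := by
    have h2 := (abs_le.1 hb).1
    have h3 : ((274877906945 / 1099511627776 : ℝ) : ℝ) < 1 / 2 := by norm_num
    linarith
  have h1 : (-(1 / Real.sqrt (16 : ℝ))) < 1 := by
    have : 0 < 1 / Real.sqrt (16 : ℝ) := by positivity
    linarith
  have hlam : |(S : ℝ) * (-(1 / Real.sqrt (16 : ℝ))) - ((P.lp : ℝ) - P.ln)| ≤ ((1 : ℕ) : ℝ) := by
    have h := lam_enc 16 18014398509481984 (by norm_num) (by norm_num [S]) (by norm_num [S])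
    have e : ((16 : ℕ) : ℝ) = (16 : ℝ) := by norm_num
    rw [e] at h
    exact h
  obtain ⟨hOa, hON⟩ := horig _ hl2 hb
  refine final_of_box (d := 16) (by norm_num) hb2 h1 (box hlam) (87579 / 65536 : ℝ) (868797 / 65536 : ℝ) (379421 / 32768 : ℝ) (107 / 256 : ℝ) (45 / 512 : ℝ) (4233 / 4096 : ℝ) (5243 / 1048576 : ℝ) (4747 / 4096 : ℝ) (63 / 2048 : ℝ) (81 / 1024 : ℝ) cellsL
    (by norm_num) (by norm_num) (by norm_num) (by norm_num) (by norm_num) (by norm_num) (by norm_num) (by norm_num) (by norm_num)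
    (by norm_num) (by norm_num) (by norm_num) (by norm_num) (by norm_num) hOa hON rTa rTb rc1 rc2 rc3
    (forall_cons rcell0 (forall_cons rcell1 (forall_cons rcell2 (forall_cons rcell3 (forall_cons rcell4 (forall_cons rcell5 (forall_cons rcell6 (forall_cons rcell7 (forall_cons rcell8 (forall_cons rcell9 (forall_cons rcell10 (forall_cons rcell11 (forall_cons rcell12 (forall_cons rcell13 (forall_nil))))))))))))))) hcover (forall_cons lcell0 (forall_cons lcell1 (forall_cons lcell2 (forall_cons lcell3 (forall_cons lcell4 (forall_cons lcell5 (forall_cons lcell6 (forall_cons lcell7 (forall_cons lcell8 (forall_cons lcell9 (forall_cons lcell10 (forall_cons lcell11 (forall_cons lcell12 (forall_cons lcell13 (forall_nil)))))))))))))))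

end Vale.Agent.P154H.Tm.D16
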