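import Vale.Agent.P154H.D.D17
import Vale.Agent.P154H.FinalD
import Vale.Agent.P154H.OriginW

open Filter Topology

set_option maxRecDepth 100000

/-!
Nonreconstruction at the Kesten-Stigum bound for `d = 17`, negative eigenvalue.
-/

namespace Vale.Agent.P154H.Tm.D17

open Vale.Agent.P154 Vale.Agent.P154H

/-- A chord cell. -/
noncomputable def C0 : Cell := ⟨(5243 / 1048576 : ℝ), (805 / 131072 : ℝ), (-89064185 / 4194304 : ℝ), (-436461001 / 2097152 : ℝ), (-782289881 / 4194304 : ℝ), (-274243 / 134217728 : ℝ)⟩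

/-- A chord cell. -/
noncomputable def C1 : Cell := ⟨(805 / 131072 : ℝ), (1977 / 262144 : ℝ), (-87800709 / 4194304 : ℝ), (-428656123 / 2097152 : ℝ), (-766452511 / 4194304 : ℝ), (-880513 / 268435456 : ℝ)⟩

/-- A chord cell. -/
noncomputable def C2 : Cell := ⟨(1977 / 262144 : ℝ), (607 / 65536 : ℝ), (-86166895 / 4194304 : ℝ), (-838193755 / 4194304 : ℝ), (-373710219 / 2097152 : ℝ), (-587095 / 134217728 : ℝ)⟩

/-- A chord cell. -/
noncomputable def C3 : Cell := ⟨(607 / 65536 : ℝ), (2983 / 262144 : ℝ), (-21044411 / 1048576 : ℝ), (-815698823 / 4194304 : ℝ), (-724623867 / 4194304 : ℝ), (-453445 / 67108864 : ℝ)⟩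

/-- A chord cell. -/
noncomputable def C4 : Cell := ⟨(2983 / 262144 : ℝ), (3663 / 262144 : ℝ), (-81973551 / 4194304 : ℝ), (-789081803 / 4194304 : ℝ), (-697531967 / 4194304 : ℝ), (-2979099 / 268435456 : ℝ)⟩

/-- A chord cell. -/
noncomputable def C5 : Cell := ⟨(3663 / 262144 : ℝ), (4499 / 262144 : ℝ), (-39673571 / 2097152 : ℝ), (-11819741 / 65536 : ℝ), (-10399667 / 65536 : ℝ), (-3682407 / 268435456 : ℝ)⟩

/-- A chord cell. -/
noncomputable def C6 : Cell := ⟨(4499 / 262144 : ℝ), (2763 / 131072 : ℝ), (-38002737 / 2097152 : ℝ), (-359955177 / 2097152 : ℝ), (-628196881 / 4194304 : ℝ), (-1534981 / 67108864 : ℝ)⟩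

/-- A chord cell. -/
noncomputable def C7 : Cell := ⟨(2763 / 131072 : ℝ), (6787 / 262144 : ℝ), (-72430955 / 4194304 : ℝ), (-169418789 / 1048576 : ℝ), (-584988713 / 4194304 : ℝ), (-1288185 / 33554432 : ℝ)⟩

/-- A chord cell. -/
noncomputable def C8 : Cell := ⟨(6787 / 262144 : ℝ), (521 / 16384 : ℝ), (-68100435 / 4194304 : ℝ), (-627752455 / 4194304 : ℝ), (-133936667 / 1048576 : ℝ), (-13526467 / 268435456 : ℝ)⟩

/-- A chord cell. -/
noncomputable def C9 : Cell := ⟨(521 / 16384 : ℝ), (5119 / 131072 : ℝ), (-63733757 / 4194304 : ℝ), (-287789015 / 2097152 : ℝ), (-480603967 / 4194304 : ℝ), (-26364713 / 268435456 : ℝ)⟩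

/-- A chord cell. -/
noncomputable def C10 : Cell := ⟨(5119 / 131072 : ℝ), (6287 / 131072 : ℝ), (-14466965 / 1048576 : ℝ), (-514845951 / 4194304 : ℝ), (-420185779 / 4194304 : ℝ), (-35458463 / 268435456 : ℝ)⟩

/-- A chord cell. -/
noncomputable def C11 : Cell := ⟨(6287 / 131072 : ℝ), (3861 / 65536 : ℝ), (-13201141 / 1048576 : ℝ), (-114827631 / 1048576 : ℝ), (-355738751 / 4194304 : ℝ), (-19521791 / 67108864 : ℝ)⟩

/-- A chord cell. -/
noncomputable def C12 : Cell := ⟨(3861 / 65536 : ℝ), (19 / 256 : ℝ), (-12035893 / 1048576 : ℝ), (-409614033 / 4194304 : ℝ), (-284892977 / 4194304 : ℝ), (-182663259 / 268435456 : ℝ)⟩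

/-- The chord cells. -/
noncomputable def cellsL : List Cell := [C0, C1, C2, C3, C4, C5, C6, C7, C8, C9, C10, C11, C12]

lemma hcover : ∀ x : ℝ, (5243 / 1048576 : ℝ) ≤ x → x ≤ (19 / 256 : ℝ) → ∃ D ∈ cellsL, D.l ≤ x ∧ x ≤ D.u := by
  refine cover_of_chain ?_ (by norm_num [C0])
  simp only [ChainP, C0, C1, C2, C3, C4, C5, C6, C7, C8, C9, C10, C11, C12]
  norm_num

lemma hch : ((Nat.choose 17 2 : ℕ) : ℝ) = 136 := by norm_num [Nat.choose]

lemma rTa : Rw4 P.r1 (1179648 : ℝ) (coTa 17 (87579 / 65536 : ℝ) (868797 / 65536 : ℝ) (379421 / 32768 : ℝ) (107 / 256 : ℝ) (121 / 4096 : ℝ)) := by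
  refine ⟨⟨Ra, List.mem_cons_self, ?_⟩, by norm_num⟩
  constructor <;> norm_num [Ra, coTa, hch]

lemma rTb : Rw4 P.r1 (39582418599936 : ℝ) (coTb 17 (87579 / 65536 : ℝ) (868797 / 65536 : ℝ) (379421 / 32768 : ℝ) (107 / 256 : ℝ) (121 / 4096 : ℝ) (45 / 512 : ℝ) (4233 / 4096 : ℝ) (21467 / 16384 : ℝ)) := by
  refine ⟨⟨Rb, List.mem_cons_of_mem _ (List.mem_cons_self), ?_⟩, by norm_num⟩
  constructor <;> norm_num [Rb, coTb, hch]

lemma rc1 : Rw4 P.r2 (16777216 : ℝ) ⟨0, 0, 0, -(87579 / 65536 : ℝ), 0, 0, 0, 0, (379421 / 32768 : ℝ) * (45 / 512 : ℝ)⟩ := by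
  refine ⟨⟨Q0, List.mem_cons_self, ?_⟩, by norm_num⟩
  constructor <;> norm_num [Q0]

lemma rc2 : Rw4 P.r2 (134217728 : ℝ) ⟨0, 0, 0, 0, -(868797 / 65536 : ℝ), 0, 0, 0, (379421 / 32768 : ℝ) * (4233 / 4096 : ℝ)⟩ := by
  refine ⟨⟨Q1, List.mem_cons_of_mem _ (List.mem_cons_self), ?_⟩, by norm_num⟩
  constructor <;> norm_num [Q1]

lemma rc3 : Rw4 P.r2 (768 : ℝ) ⟨0, 0, 0, 0, 0, -1, 0, 0, (19 / 256 : ℝ)⟩ := by
  refine ⟨⟨Q2, List.mem_cons_of_mem _ (List.mem_cons_of_mem _ (List.mem_cons_self)), ?_⟩, by norm_num⟩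
  constructor <;> norm_num [Q2]

lemma rcell0 : ∃ N : ℝ, Rw4 P.r2 N (coCell (87579 / 65536 : ℝ) (868797 / 65536 : ℝ) ((379421 / 32768 : ℝ) + (107 / 256 : ℝ)) (121 / 4096 : ℝ) C0) := by
  refine ⟨(1207959552 : ℝ), ⟨Q3, List.mem_cons_of_mem _ (List.mem_cons_of_mem _ (List.mem_cons_of_mem _ (List.mem_cons_self))), ?_⟩, by norm_num⟩
  constructor <;> norm_num [Q3, coCell, C0]

lemma lcell0 : ∀ x1 x2 xc : ℝ, 0 ≤ x1 → x1 ≤ 1 → 0 ≤ x2 → x2 ≤ 1 → C0.l ≤ xc → xc ≤ C0.u →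
    (87579 / 65536 : ℝ) * (1 - (1 - x1) ^ 17) + (868797 / 65536 : ℝ) * (1 - (1 - x2) ^ 17) - ((379421 / 32768 : ℝ) + (107 / 256 : ℝ)) * (1 - (1 - xc) ^ 17)
      ≤ - C0.a1 * x1 - C0.a2 * x2 + C0.e * xc + C0.f := by
  have h := cell_lines 17 (α1 := (87579 / 65536 : ℝ)) (α2 := (868797 / 65536 : ℝ)) (c := (379421 / 32768 : ℝ) + (107 / 256 : ℝ)) (y1 := (69 / 16384 : ℝ)) (y2 := (1301 / 262144 : ℝ))
    (A1 := (89064185 / 4194304 : ℝ)) (B1 := (829641 / 268435456 : ℝ)) (A2 := (436461001 / 2097152 : ℝ)) (B2 := (5671995 / 134217728 : ℝ)) (l := (5243 / 1048576 : ℝ)) (u := (805 / 131072 : ℝ))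
    (E := (-782289881 / 4194304 : ℝ)) (F := (-12722117 / 268435456 : ℝ)) (by norm_num) (by norm_num) (by norm_num) (by norm_num) (by norm_num)
    (by norm_num) (by norm_num) (by norm_num) (by norm_num) (by norm_num) (by norm_num) (by norm_num) (by norm_num) (by norm_num) (by norm_num)
  have e1 : C0.l = (5243 / 1048576 : ℝ) := rfl
  have e2 : C0.u = (805 / 131072 : ℝ) := rfl
  have e3 : C0.a1 = -(89064185 / 4194304 : ℝ) := by norm_num [C0]
  have e4 : C0.a2 = -(436461001 / 2097152 : ℝ) := by norm_num [C0]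
  have e5 : C0.e = (-782289881 / 4194304 : ℝ) := rfl
  have e6 : C0.f = (829641 / 268435456 : ℝ) + (5671995 / 134217728 : ℝ) + (-12722117 / 268435456 : ℝ) := by norm_num [C0]
  rw [e1, e2, e3, e4, e5, e6]
  exact h

lemma rcell1 : ∃ N : ℝ, Rw4 P.r2 N (coCell (87579 / 65536 : ℝ) (868797 / 65536 : ℝ) ((379421 / 32768 : ℝ) + (107 / 256 : ℝ)) (121 / 4096 : ℝ) C1) := by
  refine ⟨(2415919104 : ℝ), ⟨Q4, List.mem_cons_of_mem _ (List.mem_cons_of_mem _ (List.mem_cons_of_mem _ (List.mem_cons_of_mem _ (List.mem_cons_self)))), ?_⟩, by norm_num⟩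
  constructor <;> norm_num [Q4, coCell, C1]

lemma lcell1 : ∀ x1 x2 xc : ℝ, 0 ≤ x1 → x1 ≤ 1 → 0 ≤ x2 → x2 ≤ 1 → C1.l ≤ xc → xc ≤ C1.u →
    (87579 / 65536 : ℝ) * (1 - (1 - x1) ^ 17) + (868797 / 65536 : ℝ) * (1 - (1 - x2) ^ 17) - ((379421 / 32768 : ℝ) + (107 / 256 : ℝ)) * (1 - (1 - xc) ^ 17)
      ≤ - C1.a1 * x1 - C1.a2 * x2 + C1.e * xc + C1.f := by
  have h := cell_lines 17 (α1 := (87579 / 65536 : ℝ)) (α2 := (868797 / 65536 : ℝ)) (c := (379421 / 32768 : ℝ) + (107 / 256 : ℝ)) (y1 := (1337 / 262144 : ℝ)) (y2 := (1595 / 262144 : ℝ))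
    (A1 := (87800709 / 4194304 : ℝ)) (B1 := (301511 / 67108864 : ℝ)) (A2 := (428656123 / 2097152 : ℝ)) (B2 := (8430349 / 134217728 : ℝ)) (l := (805 / 131072 : ℝ)) (u := (1977 / 262144 : ℝ))
    (E := (-766452511 / 4194304 : ℝ)) (F := (-18947255 / 268435456 : ℝ)) (by norm_num) (by norm_num) (by norm_num) (by norm_num) (by norm_num)
    (by norm_num) (by norm_num) (by norm_num) (by norm_num) (by norm_num) (by norm_num) (by norm_num) (by norm_num) (by norm_num) (by norm_num)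
  have e1 : C1.l = (805 / 131072 : ℝ) := rfl
  have e2 : C1.u = (1977 / 262144 : ℝ) := rfl
  have e3 : C1.a1 = -(87800709 / 4194304 : ℝ) := by norm_num [C1]
  have e4 : C1.a2 = -(428656123 / 2097152 : ℝ) := by norm_num [C1]
  have e5 : C1.e = (-766452511 / 4194304 : ℝ) := rfl
  have e6 : C1.f = (301511 / 67108864 : ℝ) + (8430349 / 134217728 : ℝ) + (-18947255 / 268435456 : ℝ) := by norm_num [C1]
  rw [e1, e2, e3, e4, e5, e6]
  exact h

lemma rcell2 : ∃ N : ℝ, Rw4 P.r2 N (coCell (87579 / 65536 : ℝ) (868797 / 65536 : ℝ) ((379421 / 32768 : ℝ) + (107 / 256 : ℝ)) (121 / 4096 : ℝ) C2) := by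
  refine ⟨(1207959552 : ℝ), ⟨Q5, List.mem_cons_of_mem _ (List.mem_cons_of_mem _ (List.mem_cons_of_mem _ (List.mem_cons_of_mem _ (List.mem_cons_of_mem _ (List.mem_cons_self))))), ?_⟩, by norm_num⟩
  constructor <;> norm_num [Q5, coCell, C2]

lemma lcell2 : ∀ x1 x2 xc : ℝ, 0 ≤ x1 → x1 ≤ 1 → 0 ≤ x2 → x2 ≤ 1 → C2.l ≤ xc → xc ≤ C2.u →
    (87579 / 65536 : ℝ) * (1 - (1 - x1) ^ 17) + (868797 / 65536 : ℝ) * (1 - (1 - x2) ^ 17) - ((379421 / 32768 : ℝ) + (107 / 256 : ℝ)) * (1 - (1 - xc) ^ 17)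
      ≤ - C2.a1 * x1 - C2.a2 * x2 + C2.e * xc + C2.f := by
  have h := cell_lines 17 (α1 := (87579 / 65536 : ℝ)) (α2 := (868797 / 65536 : ℝ)) (c := (379421 / 32768 : ℝ) + (107 / 256 : ℝ)) (y1 := (1643 / 262144 : ℝ)) (y2 := (981 / 131072 : ℝ))
    (A1 := (86166895 / 4194304 : ℝ)) (B1 := (900095 / 134217728 : ℝ)) (A2 := (838193755 / 4194304 : ℝ)) (B2 := (12579505 / 134217728 : ℝ)) (l := (1977 / 262144 : ℝ)) (u := (607 / 65536 : ℝ))
    (E := (-373710219 / 2097152 : ℝ)) (F := (-14066695 / 134217728 : ℝ)) (by norm_num) (by norm_num) (by norm_num) (by norm_num) (by norm_num)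
    (by norm_num) (by norm_num) (by norm_num) (by norm_num) (by norm_num) (by norm_num) (by norm_num) (by norm_num) (by norm_num) (by norm_num)
  have e1 : C2.l = (1977 / 262144 : ℝ) := rfl
  have e2 : C2.u = (607 / 65536 : ℝ) := rfl
  have e3 : C2.a1 = -(86166895 / 4194304 : ℝ) := by norm_num [C2]
  have e4 : C2.a2 = -(838193755 / 4194304 : ℝ) := by norm_num [C2]
  have e5 : C2.e = (-373710219 / 2097152 : ℝ) := rfl
  have e6 : C2.f = (900095 / 134217728 : ℝ) + (12579505 / 134217728 : ℝ) + (-14066695 / 134217728 : ℝ) := by norm_num [C2]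
  rw [e1, e2, e3, e4, e5, e6]
  exact h

lemma rcell3 : ∃ N : ℝ, Rw4 P.r2 N (coCell (87579 / 65536 : ℝ) (868797 / 65536 : ℝ) ((379421 / 32768 : ℝ) + (107 / 256 : ℝ)) (121 / 4096 : ℝ) C3) := by
  refine ⟨(603979776 : ℝ), ⟨Q6, List.mem_cons_of_mem _ (List.mem_cons_of_mem _ (List.mem_cons_of_mem _ (List.mem_cons_of_mem _ (List.mem_cons_of_mem _ (List.mem_cons_of_mem _ (List.mem_cons_self)))))), ?_⟩, by norm_num⟩
  constructor <;> norm_num [Q6, coCell, C3]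

lemma lcell3 : ∀ x1 x2 xc : ℝ, 0 ≤ x1 → x1 ≤ 1 → 0 ≤ x2 → x2 ≤ 1 → C3.l ≤ xc → xc ≤ C3.u →
    (87579 / 65536 : ℝ) * (1 - (1 - x1) ^ 17) + (868797 / 65536 : ℝ) * (1 - (1 - x2) ^ 17) - ((379421 / 32768 : ℝ) + (107 / 256 : ℝ)) * (1 - (1 - xc) ^ 17)
      ≤ - C3.a1 * x1 - C3.a2 * x2 + C3.e * xc + C3.f := by
  have h := cell_lines 17 (α1 := (87579 / 65536 : ℝ)) (α2 := (868797 / 65536 : ℝ)) (c := (379421 / 32768 : ℝ) + (107 / 256 : ℝ)) (y1 := (2023 / 262144 : ℝ)) (y2 := (601 / 65536 : ℝ))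
    (A1 := (21044411 / 1048576 : ℝ)) (B1 := (1345031 / 134217728 : ℝ)) (A2 := (815698823 / 4194304 : ℝ)) (B2 := (18571375 / 134217728 : ℝ)) (l := (607 / 65536 : ℝ)) (u := (2983 / 262144 : ℝ))
    (E := (-724623867 / 4194304 : ℝ)) (F := (-81341 / 524288 : ℝ)) (by norm_num) (by norm_num) (by norm_num) (by norm_num) (by norm_num)
    (by norm_num) (by norm_num) (by norm_num) (by norm_num) (by norm_num) (by norm_num) (by norm_num) (by norm_num) (by norm_num) (by norm_num)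
  have e1 : C3.l = (607 / 65536 : ℝ) := rfl
  have e2 : C3.u = (2983 / 262144 : ℝ) := rfl
  have e3 : C3.a1 = -(21044411 / 1048576 : ℝ) := by norm_num [C3]
  have e4 : C3.a2 = -(815698823 / 4194304 : ℝ) := by norm_num [C3]
  have e5 : C3.e = (-724623867 / 4194304 : ℝ) := rfl
  have e6 : C3.f = (1345031 / 134217728 : ℝ) + (18571375 / 134217728 : ℝ) + (-81341 / 524288 : ℝ) := by norm_num [C3]
  rw [e1, e2, e3, e4, e5, e6]
  exact h

lemma rcell4 : ∃ N : ℝ, Rw4 P.r2 N (coCell (87579 / 65536 : ℝ) (868797 / 65536 : ℝ) ((379421 / 32768 : ℝ) + (107 / 256 : ℝ)) (121 / 4096 : ℝ) C4) := by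
  refine ⟨(2415919104 : ℝ), ⟨Q7, List.mem_cons_of_mem _ (List.mem_cons_of_mem _ (List.mem_cons_of_mem _ (List.mem_cons_of_mem _ (List.mem_cons_of_mem _ (List.mem_cons_of_mem _ (List.mem_cons_of_mem _ (List.mem_cons_self))))))), ?_⟩, by norm_num⟩
  constructor <;> norm_num [Q7, coCell, C4]

lemma lcell4 : ∀ x1 x2 xc : ℝ, 0 ≤ x1 → x1 ≤ 1 → 0 ≤ x2 → x2 ≤ 1 → C4.l ≤ xc → xc ≤ C4.u →
    (87579 / 65536 : ℝ) * (1 - (1 - x1) ^ 17) + (868797 / 65536 : ℝ) * (1 - (1 - x2) ^ 17) - ((379421 / 32768 : ℝ) + (107 / 256 : ℝ)) * (1 - (1 - xc) ^ 17)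
      ≤ - C4.a1 * x1 - C4.a2 * x2 + C4.e * xc + C4.f := by
  have h := cell_lines 17 (α1 := (87579 / 65536 : ℝ)) (α2 := (868797 / 65536 : ℝ)) (c := (379421 / 32768 : ℝ) + (107 / 256 : ℝ)) (y1 := (1227 / 131072 : ℝ)) (y2 := (1471 / 131072 : ℝ))
    (A1 := (81973551 / 4194304 : ℝ)) (B1 := (1947069 / 134217728 : ℝ)) (A2 := (789081803 / 4194304 : ℝ)) (B2 := (54503613 / 268435456 : ℝ)) (l := (2983 / 262144 : ℝ)) (u := (3663 / 262144 : ℝ))
    (E := (-697531967 / 4194304 : ℝ)) (F := (-30688425 / 134217728 : ℝ)) (by norm_num) (by norm_num) (by norm_num) (by norm_num) (by norm_num)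
    (by norm_num) (by norm_num) (by norm_num) (by norm_num) (by norm_num) (by norm_num) (by norm_num) (by norm_num) (by norm_num) (by norm_num)
  have e1 : C4.l = (2983 / 262144 : ℝ) := rfl
  have e2 : C4.u = (3663 / 262144 : ℝ) := rfl
  have e3 : C4.a1 = -(81973551 / 4194304 : ℝ) := by norm_num [C4]
  have e4 : C4.a2 = -(789081803 / 4194304 : ℝ) := by norm_num [C4]
  have e5 : C4.e = (-697531967 / 4194304 : ℝ) := rfl
  have e6 : C4.f = (1947069 / 134217728 : ℝ) + (54503613 / 268435456 : ℝ) + (-30688425 / 134217728 : ℝ) := by norm_num [C4]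
  rw [e1, e2, e3, e4, e5, e6]
  exact h

lemma rcell5 : ∃ N : ℝ, Rw4 P.r2 N (coCell (87579 / 65536 : ℝ) (868797 / 65536 : ℝ) ((379421 / 32768 : ℝ) + (107 / 256 : ℝ)) (121 / 4096 : ℝ) C5) := by
  refine ⟨(2415919104 : ℝ), ⟨Q8, List.mem_cons_of_mem _ (List.mem_cons_of_mem _ (List.mem_cons_of_mem _ (List.mem_cons_of_mem _ (List.mem_cons_of_mem _ (List.mem_cons_of_mem _ (List.mem_cons_of_mem _ (List.mem_cons_of_mem _ (List.mem_cons_self)))))))), ?_⟩, by norm_num⟩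
  constructor <;> norm_num [Q8, coCell, C5]

lemma lcell5 : ∀ x1 x2 xc : ℝ, 0 ≤ x1 → x1 ≤ 1 → 0 ≤ x2 → x2 ≤ 1 → C5.l ≤ xc → xc ≤ C5.u →
    (87579 / 65536 : ℝ) * (1 - (1 - x1) ^ 17) + (868797 / 65536 : ℝ) * (1 - (1 - x2) ^ 17) - ((379421 / 32768 : ℝ) + (107 / 256 : ℝ)) * (1 - (1 - xc) ^ 17)
      ≤ - C5.a1 * x1 - C5.a2 * x2 + C5.e * xc + C5.f := by
  have h := cell_lines 17 (α1 := (87579 / 65536 : ℝ)) (α2 := (868797 / 65536 : ℝ)) (c := (379421 / 32768 : ℝ) + (107 / 256 : ℝ)) (y1 := (1491 / 131072 : ℝ)) (y2 := (3625 / 262144 : ℝ))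
    (A1 := (39673571 / 2097152 : ℝ)) (B1 := (1409031 / 67108864 : ℝ)) (A2 := (11819741 / 65536 : ℝ)) (B2 := (80633725 / 268435456 : ℝ)) (l := (3663 / 262144 : ℝ)) (u := (4499 / 262144 : ℝ))
    (E := (-10399667 / 65536 : ℝ)) (F := (-21961 / 65536 : ℝ)) (by norm_num) (by norm_num) (by norm_num) (by norm_num) (by norm_num)
    (by norm_num) (by norm_num) (by norm_num) (by norm_num) (by norm_num) (by norm_num) (by norm_num) (by norm_num) (by norm_num) (by norm_num)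
  have e1 : C5.l = (3663 / 262144 : ℝ) := rfl
  have e2 : C5.u = (4499 / 262144 : ℝ) := rfl
  have e3 : C5.a1 = -(39673571 / 2097152 : ℝ) := by norm_num [C5]
  have e4 : C5.a2 = -(11819741 / 65536 : ℝ) := by norm_num [C5]
  have e5 : C5.e = (-10399667 / 65536 : ℝ) := rfl
  have e6 : C5.f = (1409031 / 67108864 : ℝ) + (80633725 / 268435456 : ℝ) + (-21961 / 65536 : ℝ) := by norm_num [C5]
  rw [e1, e2, e3, e4, e5, e6]
  exact h

lemma rcell6 : ∃ N : ℝ, Rw4 P.r2 N (coCell (87579 / 65536 : ℝ) (868797 / 65536 : ℝ) ((379421 / 32768 : ℝ) + (107 / 256 : ℝ)) (121 / 4096 : ℝ) C6) := by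
  refine ⟨(603979776 : ℝ), ⟨Q9, List.mem_cons_of_mem _ (List.mem_cons_of_mem _ (List.mem_cons_of_mem _ (List.mem_cons_of_mem _ (List.mem_cons_of_mem _ (List.mem_cons_of_mem _ (List.mem_cons_of_mem _ (List.mem_cons_of_mem _ (List.mem_cons_of_mem _ (List.mem_cons_self))))))))), ?_⟩, by norm_num⟩
  constructor <;> norm_num [Q9, coCell, C6]

lemma lcell6 : ∀ x1 x2 xc : ℝ, 0 ≤ x1 → x1 ≤ 1 → 0 ≤ x2 → x2 ≤ 1 → C6.l ≤ xc → xc ≤ C6.u →
    (87579 / 65536 : ℝ) * (1 - (1 - x1) ^ 17) + (868797 / 65536 : ℝ) * (1 - (1 - x2) ^ 17) - ((379421 / 32768 : ℝ) + (107 / 256 : ℝ)) * (1 - (1 - xc) ^ 17)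
      ≤ - C6.a1 * x1 - C6.a2 * x2 + C6.e * xc + C6.f := by
  have h := cell_lines 17 (α1 := (87579 / 65536 : ℝ)) (α2 := (868797 / 65536 : ℝ)) (c := (379421 / 32768 : ℝ) + (107 / 256 : ℝ)) (y1 := (1839 / 131072 : ℝ)) (y2 := (553 / 32768 : ℝ))
    (A1 := (38002737 / 2097152 : ℝ)) (B1 := (8350951 / 268435456 : ℝ)) (A2 := (359955177 / 2097152 : ℝ)) (B2 := (58260567 / 134217728 : ℝ)) (l := (4499 / 262144 : ℝ)) (u := (2763 / 131072 : ℝ))
    (E := (-628196881 / 4194304 : ℝ)) (F := (-131012009 / 268435456 : ℝ)) (by norm_num) (by norm_num) (by norm_num) (by norm_num) (by norm_num)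
    (by norm_num) (by norm_num) (by norm_num) (by norm_num) (by norm_num) (by norm_num) (by norm_num) (by norm_num) (by norm_num) (by norm_num)
  have e1 : C6.l = (4499 / 262144 : ℝ) := rfl
  have e2 : C6.u = (2763 / 131072 : ℝ) := rfl
  have e3 : C6.a1 = -(38002737 / 2097152 : ℝ) := by norm_num [C6]
  have e4 : C6.a2 = -(359955177 / 2097152 : ℝ) := by norm_num [C6]
  have e5 : C6.e = (-628196881 / 4194304 : ℝ) := rfl
  have e6 : C6.f = (8350951 / 268435456 : ℝ) + (58260567 / 134217728 : ℝ) + (-131012009 / 268435456 : ℝ) := by norm_num [C6]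
  rw [e1, e2, e3, e4, e5, e6]
  exact h

lemma rcell7 : ∃ N : ℝ, Rw4 P.r2 N (coCell (87579 / 65536 : ℝ) (868797 / 65536 : ℝ) ((379421 / 32768 : ℝ) + (107 / 256 : ℝ)) (121 / 4096 : ℝ) C7) := by
  refine ⟨(301989888 : ℝ), ⟨Q10, List.mem_cons_of_mem _ (List.mem_cons_of_mem _ (List.mem_cons_of_mem _ (List.mem_cons_of_mem _ (List.mem_cons_of_mem _ (List.mem_cons_of_mem _ (List.mem_cons_of_mem _ (List.mem_cons_of_mem _ (List.mem_cons_of_mem _ (List.mem_cons_of_mem _ (List.mem_cons_self)))))))))), ?_⟩, by norm_num⟩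
  constructor <;> norm_num [Q10, coCell, C7]

lemma lcell7 : ∀ x1 x2 xc : ℝ, 0 ≤ x1 → x1 ≤ 1 → 0 ≤ x2 → x2 ≤ 1 → C7.l ≤ xc → xc ≤ C7.u →
    (87579 / 65536 : ℝ) * (1 - (1 - x1) ^ 17) + (868797 / 65536 : ℝ) * (1 - (1 - x2) ^ 17) - ((379421 / 32768 : ℝ) + (107 / 256 : ℝ)) * (1 - (1 - xc) ^ 17)
      ≤ - C7.a1 * x1 - C7.a2 * x2 + C7.e * xc + C7.f := by
  have h := cell_lines 17 (α1 := (87579 / 65536 : ℝ)) (α2 := (868797 / 65536 : ℝ)) (c := (379421 / 32768 : ℝ) + (107 / 256 : ℝ)) (y1 := (4455 / 262144 : ℝ)) (y2 := (1349 / 65536 : ℝ))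
    (A1 := (72430955 / 4194304 : ℝ)) (B1 := (5948573 / 134217728 : ℝ)) (A2 := (169418789 / 1048576 : ℝ)) (B2 := (83551217 / 134217728 : ℝ)) (l := (2763 / 131072 : ℝ)) (u := (6787 / 262144 : ℝ))
    (E := (-584988713 / 4194304 : ℝ)) (F := (-47326265 / 67108864 : ℝ)) (by norm_num) (by norm_num) (by norm_num) (by norm_num) (by norm_num)
    (by norm_num) (by norm_num) (by norm_num) (by norm_num) (by norm_num) (by norm_num) (by norm_num) (by norm_num) (by norm_num) (by norm_num)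
  have e1 : C7.l = (2763 / 131072 : ℝ) := rfl
  have e2 : C7.u = (6787 / 262144 : ℝ) := rfl
  have e3 : C7.a1 = -(72430955 / 4194304 : ℝ) := by norm_num [C7]
  have e4 : C7.a2 = -(169418789 / 1048576 : ℝ) := by norm_num [C7]
  have e5 : C7.e = (-584988713 / 4194304 : ℝ) := rfl
  have e6 : C7.f = (5948573 / 134217728 : ℝ) + (83551217 / 134217728 : ℝ) + (-47326265 / 67108864 : ℝ) := by norm_num [C7]
  rw [e1, e2, e3, e4, e5, e6]
  exact h

lemma rcell8 : ∃ N : ℝ, Rw4 P.r2 N (coCell (87579 / 65536 : ℝ) (868797 / 65536 : ℝ) ((379421 / 32768 : ℝ) + (107 / 256 : ℝ)) (121 / 4096 : ℝ) C8) := by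
  refine ⟨(2415919104 : ℝ), ⟨Q11, List.mem_cons_of_mem _ (List.mem_cons_of_mem _ (List.mem_cons_of_mem _ (List.mem_cons_of_mem _ (List.mem_cons_of_mem _ (List.mem_cons_of_mem _ (List.mem_cons_of_mem _ (List.mem_cons_of_mem _ (List.mem_cons_of_mem _ (List.mem_cons_of_mem _ (List.mem_cons_of_mem _ (List.mem_cons_self))))))))))), ?_⟩, by norm_num⟩
  constructor <;> norm_num [Q11, coCell, C8]

lemma lcell8 : ∀ x1 x2 xc : ℝ, 0 ≤ x1 → x1 ≤ 1 → 0 ≤ x2 → x2 ≤ 1 → C8.l ≤ xc → xc ≤ C8.u →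
    (87579 / 65536 : ℝ) * (1 - (1 - x1) ^ 17) + (868797 / 65536 : ℝ) * (1 - (1 - x2) ^ 17) - ((379421 / 32768 : ℝ) + (107 / 256 : ℝ)) * (1 - (1 - xc) ^ 17)
      ≤ - C8.a1 * x1 - C8.a2 * x2 + C8.e * xc + C8.f := by
  have h := cell_lines 17 (α1 := (87579 / 65536 : ℝ)) (α2 := (868797 / 65536 : ℝ)) (c := (379421 / 32768 : ℝ) + (107 / 256 : ℝ)) (y1 := (2723 / 131072 : ℝ)) (y2 := (6621 / 262144 : ℝ))
    (A1 := (68100435 / 4194304 : ℝ)) (B1 := (4281511 / 67108864 : ℝ)) (A2 := (627752455 / 4194304 : ℝ)) (B2 := (30030719 / 33554432 : ℝ)) (l := (6787 / 262144 : ℝ)) (u := (521 / 16384 : ℝ))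
    (E := (-133936667 / 1048576 : ℝ)) (F := (-270898263 / 268435456 : ℝ)) (by norm_num) (by norm_num) (by norm_num) (by norm_num) (by norm_num)
    (by norm_num) (by norm_num) (by norm_num) (by norm_num) (by norm_num) (by norm_num) (by norm_num) (by norm_num) (by norm_num) (by norm_num)
  have e1 : C8.l = (6787 / 262144 : ℝ) := rfl
  have e2 : C8.u = (521 / 16384 : ℝ) := rfl
  have e3 : C8.a1 = -(68100435 / 4194304 : ℝ) := by norm_num [C8]
  have e4 : C8.a2 = -(627752455 / 4194304 : ℝ) := by norm_num [C8]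
  have e5 : C8.e = (-133936667 / 1048576 : ℝ) := rfl
  have e6 : C8.f = (4281511 / 67108864 : ℝ) + (30030719 / 33554432 : ℝ) + (-270898263 / 268435456 : ℝ) := by norm_num [C8]
  rw [e1, e2, e3, e4, e5, e6]
  exact h

lemma rcell9 : ∃ N : ℝ, Rw4 P.r2 N (coCell (87579 / 65536 : ℝ) (868797 / 65536 : ℝ) ((379421 / 32768 : ℝ) + (107 / 256 : ℝ)) (121 / 4096 : ℝ) C9) := by
  refine ⟨(2415919104 : ℝ), ⟨Q12, List.mem_cons_of_mem _ (List.mem_cons_of_mem _ (List.mem_cons_of_mem _ (List.mem_cons_of_mem _ (List.mem_cons_of_mem _ (List.mem_cons_of_mem _ (List.mem_cons_of_mem _ (List.mem_cons_of_mem _ (List.mem_cons_of_mem _ (List.mem_cons_of_mem _ (List.mem_cons_of_mem _ (List.mem_cons_of_mem _ (List.mem_cons_self)))))))))))), ?_⟩, by norm_num⟩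
  constructor <;> norm_num [Q12, coCell, C9]

lemma lcell9 : ∀ x1 x2 xc : ℝ, 0 ≤ x1 → x1 ≤ 1 → 0 ≤ x2 → x2 ≤ 1 → C9.l ≤ xc → xc ≤ C9.u →
    (87579 / 65536 : ℝ) * (1 - (1 - x1) ^ 17) + (868797 / 65536 : ℝ) * (1 - (1 - x2) ^ 17) - ((379421 / 32768 : ℝ) + (107 / 256 : ℝ)) * (1 - (1 - xc) ^ 17)
      ≤ - C9.a1 * x1 - C9.a2 * x2 + C9.e * xc + C9.f := by
  have h := cell_lines 17 (α1 := (87579 / 65536 : ℝ)) (α2 := (868797 / 65536 : ℝ)) (c := (379421 / 32768 : ℝ) + (107 / 256 : ℝ)) (y1 := (6507 / 262144 : ℝ)) (y2 := (8003 / 262144 : ℝ))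
    (A1 := (63733757 / 4194304 : ℝ)) (B1 := (5872915 / 67108864 : ℝ)) (A2 := (287789015 / 2097152 : ℝ)) (B2 := (166632951 / 134217728 : ℝ)) (l := (521 / 16384 : ℝ)) (u := (5119 / 131072 : ℝ))
    (E := (-480603967 / 4194304 : ℝ)) (F := (-383122275 / 268435456 : ℝ)) (by norm_num) (by norm_num) (by norm_num) (by norm_num) (by norm_num)
    (by norm_num) (by norm_num) (by norm_num) (by norm_num) (by norm_num) (by norm_num) (by norm_num) (by norm_num) (by norm_num) (by norm_num)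
  have e1 : C9.l = (521 / 16384 : ℝ) := rfl
  have e2 : C9.u = (5119 / 131072 : ℝ) := rfl
  have e3 : C9.a1 = -(63733757 / 4194304 : ℝ) := by norm_num [C9]
  have e4 : C9.a2 = -(287789015 / 2097152 : ℝ) := by norm_num [C9]
  have e5 : C9.e = (-480603967 / 4194304 : ℝ) := rfl
  have e6 : C9.f = (5872915 / 67108864 : ℝ) + (166632951 / 134217728 : ℝ) + (-383122275 / 268435456 : ℝ) := by norm_num [C9]
  rw [e1, e2, e3, e4, e5, e6]
  exact h

lemma rcell10 : ∃ N : ℝ, Rw4 P.r2 N (coCell (87579 / 65536 : ℝ) (868797 / 65536 : ℝ) ((379421 / 32768 : ℝ) + (107 / 256 : ℝ)) (121 / 4096 : ℝ) C10) := by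
  refine ⟨(2415919104 : ℝ), ⟨Q13, List.mem_cons_of_mem _ (List.mem_cons_of_mem _ (List.mem_cons_of_mem _ (List.mem_cons_of_mem _ (List.mem_cons_of_mem _ (List.mem_cons_of_mem _ (List.mem_cons_of_mem _ (List.mem_cons_of_mem _ (List.mem_cons_of_mem _ (List.mem_cons_of_mem _ (List.mem_cons_of_mem _ (List.mem_cons_of_mem _ (List.mem_cons_of_mem _ (List.mem_cons_self))))))))))))), ?_⟩, by norm_num⟩
  constructor <;> norm_num [Q13, coCell, C10]

lemma lcell10 : ∀ x1 x2 xc : ℝ, 0 ≤ x1 → x1 ≤ 1 → 0 ≤ x2 → x2 ≤ 1 → C10.l ≤ xc → xc ≤ C10.u →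
    (87579 / 65536 : ℝ) * (1 - (1 - x1) ^ 17) + (868797 / 65536 : ℝ) * (1 - (1 - x2) ^ 17) - ((379421 / 32768 : ℝ) + (107 / 256 : ℝ)) * (1 - (1 - xc) ^ 17)
      ≤ - C10.a1 * x1 - C10.a2 * x2 + C10.e * xc + C10.f := by
  have h := cell_lines 17 (α1 := (87579 / 65536 : ℝ)) (α2 := (868797 / 65536 : ℝ)) (c := (379421 / 32768 : ℝ) + (107 / 256 : ℝ)) (y1 := (8045 / 262144 : ℝ)) (y2 := (1221 / 32768 : ℝ))
    (A1 := (14466965 / 1048576 : ℝ)) (B1 := (8473753 / 67108864 : ℝ)) (A2 := (514845951 / 4194304 : ℝ)) (B2 := (464784769 / 268435456 : ℝ)) (l := (5119 / 131072 : ℝ)) (u := (6287 / 131072 : ℝ))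
    (E := (-420185779 / 4194304 : ℝ)) (F := (-133534561 / 67108864 : ℝ)) (by norm_num) (by norm_num) (by norm_num) (by norm_num) (by norm_num)
    (by norm_num) (by norm_num) (by norm_num) (by norm_num) (by norm_num) (by norm_num) (by norm_num) (by norm_num) (by norm_num) (by norm_num)
  have e1 : C10.l = (5119 / 131072 : ℝ) := rfl
  have e2 : C10.u = (6287 / 131072 : ℝ) := rfl
  have e3 : C10.a1 = -(14466965 / 1048576 : ℝ) := by norm_num [C10]
  have e4 : C10.a2 = -(514845951 / 4194304 : ℝ) := by norm_num [C10]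
  have e5 : C10.e = (-420185779 / 4194304 : ℝ) := rfl
  have e6 : C10.f = (8473753 / 67108864 : ℝ) + (464784769 / 268435456 : ℝ) + (-133534561 / 67108864 : ℝ) := by norm_num [C10]
  rw [e1, e2, e3, e4, e5, e6]
  exact h

lemma rcell11 : ∃ N : ℝ, Rw4 P.r2 N (coCell (87579 / 65536 : ℝ) (868797 / 65536 : ℝ) ((379421 / 32768 : ℝ) + (107 / 256 : ℝ)) (121 / 4096 : ℝ) C11) := by
  refine ⟨(603979776 : ℝ), ⟨Q14, List.mem_cons_of_mem _ (List.mem_cons_of_mem _ (List.mem_cons_of_mem _ (List.mem_cons_of_mem _ (List.mem_cons_of_mem _ (List.mem_cons_of_mem _ (List.mem_cons_of_mem _ (List.mem_cons_of_mem _ (List.mem_cons_of_mem _ (List.mem_cons_of_mem _ (List.mem_cons_of_mem _ (List.mem_cons_of_mem _ (List.mem_cons_of_mem _ (List.mem_cons_of_mem _ (List.mem_cons_self)))))))))))))), ?_⟩, by norm_num⟩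
  constructor <;> norm_num [Q14, coCell, C11]

lemma lcell11 : ∀ x1 x2 xc : ℝ, 0 ≤ x1 → x1 ≤ 1 → 0 ≤ x2 → x2 ≤ 1 → C11.l ≤ xc → xc ≤ C11.u →
    (87579 / 65536 : ℝ) * (1 - (1 - x1) ^ 17) + (868797 / 65536 : ℝ) * (1 - (1 - x2) ^ 17) - ((379421 / 32768 : ℝ) + (107 / 256 : ℝ)) * (1 - (1 - xc) ^ 17)
      ≤ - C11.a1 * x1 - C11.a2 * x2 + C11.e * xc + C11.f := by
  have h := cell_lines 17 (α1 := (87579 / 65536 : ℝ)) (α2 := (868797 / 65536 : ℝ)) (c := (379421 / 32768 : ℝ) + (107 / 256 : ℝ)) (y1 := (9495 / 262144 : ℝ)) (y2 := (5781 / 131072 : ℝ))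
    (A1 := (13201141 / 1048576 : ℝ)) (B1 := (44723303 / 268435456 : ℝ)) (A2 := (114827631 / 1048576 : ℝ)) (B2 := (76146103 / 33554432 : ℝ)) (l := (6287 / 131072 : ℝ)) (u := (3861 / 65536 : ℝ))
    (E := (-355738751 / 4194304 : ℝ)) (F := (-731979291 / 268435456 : ℝ)) (by norm_num) (by norm_num) (by norm_num) (by norm_num) (by norm_num)
    (by norm_num) (by norm_num) (by norm_num) (by norm_num) (by norm_num) (by norm_num) (by norm_num) (by norm_num) (by norm_num) (by norm_num)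
  have e1 : C11.l = (6287 / 131072 : ℝ) := rfl
  have e2 : C11.u = (3861 / 65536 : ℝ) := rfl
  have e3 : C11.a1 = -(13201141 / 1048576 : ℝ) := by norm_num [C11]
  have e4 : C11.a2 = -(114827631 / 1048576 : ℝ) := by norm_num [C11]
  have e5 : C11.e = (-355738751 / 4194304 : ℝ) := rfl
  have e6 : C11.f = (44723303 / 268435456 : ℝ) + (76146103 / 33554432 : ℝ) + (-731979291 / 268435456 : ℝ) := by norm_num [C11]
  rw [e1, e2, e3, e4, e5, e6]
  exact h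

lemma rcell12 : ∃ N : ℝ, Rw4 P.r2 N (coCell (87579 / 65536 : ℝ) (868797 / 65536 : ℝ) ((379421 / 32768 : ℝ) + (107 / 256 : ℝ)) (121 / 4096 : ℝ) C12) := by
  refine ⟨(2415919104 : ℝ), ⟨Q15, List.mem_cons_of_mem _ (List.mem_cons_of_mem _ (List.mem_cons_of_mem _ (List.mem_cons_of_mem _ (List.mem_cons_of_mem _ (List.mem_cons_of_mem _ (List.mem_cons_of_mem _ (List.mem_cons_of_mem _ (List.mem_cons_of_mem _ (List.mem_cons_of_mem _ (List.mem_cons_of_mem _ (List.mem_cons_of_mem _ (List.mem_cons_of_mem _ (List.mem_cons_of_mem _ (List.mem_cons_of_mem _ (List.mem_cons_self))))))))))))))), ?_⟩, by norm_num⟩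
  constructor <;> norm_num [Q15, coCell, C12]

lemma lcell12 : ∀ x1 x2 xc : ℝ, 0 ≤ x1 → x1 ≤ 1 → 0 ≤ x2 → x2 ≤ 1 → C12.l ≤ xc → xc ≤ C12.u →
    (87579 / 65536 : ℝ) * (1 - (1 - x1) ^ 17) + (868797 / 65536 : ℝ) * (1 - (1 - x2) ^ 17) - ((379421 / 32768 : ℝ) + (107 / 256 : ℝ)) * (1 - (1 - xc) ^ 17)
      ≤ - C12.a1 * x1 - C12.a2 * x2 + C12.e * xc + C12.f := by
  have h := cell_lines 17 (α1 := (87579 / 65536 : ℝ)) (α2 := (868797 / 65536 : ℝ)) (c := (379421 / 32768 : ℝ) + (107 / 256 : ℝ)) (y1 := (5475 / 131072 : ℝ)) (y2 := (13349 / 262144 : ℝ))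
    (A1 := (12035893 / 1048576 : ℝ)) (B1 := (56343919 / 268435456 : ℝ)) (A2 := (409614033 / 4194304 : ℝ)) (B2 := (380048329 / 134217728 : ℝ)) (l := (3861 / 65536 : ℝ)) (u := (19 / 256 : ℝ))
    (E := (-284892977 / 4194304 : ℝ)) (F := (-249775959 / 67108864 : ℝ)) (by norm_num) (by norm_num) (by norm_num) (by norm_num) (by norm_num)
    (by norm_num) (by norm_num) (by norm_num) (by norm_num) (by norm_num) (by norm_num) (by norm_num) (by norm_num) (by norm_num) (by norm_num)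
  have e1 : C12.l = (3861 / 65536 : ℝ) := rfl
  have e2 : C12.u = (19 / 256 : ℝ) := rfl
  have e3 : C12.a1 = -(12035893 / 1048576 : ℝ) := by norm_num [C12]
  have e4 : C12.a2 = -(409614033 / 4194304 : ℝ) := by norm_num [C12]
  have e5 : C12.e = (-284892977 / 4194304 : ℝ) := rfl
  have e6 : C12.f = (56343919 / 268435456 : ℝ) + (380048329 / 134217728 : ℝ) + (-249775959 / 67108864 : ℝ) := by norm_num [C12]
  rw [e1, e2, e3, e4, e5, e6]
  exact h

/-- The hypotheses at the origin. -/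
lemma horig (lam : ℝ) (hd : (17 : ℝ) * lam ^ 2 = 1) (hb : |lam| ≤ (133335369939 / 549755813888 : ℝ)) :
    OriginH 17 lam (87579 / 65536 : ℝ) (868797 / 65536 : ℝ) (379421 / 32768 : ℝ) (107 / 256 : ℝ) (121 / 4096 : ℝ) (45 / 512 : ℝ) (4233 / 4096 : ℝ) (1 / 256 : ℝ) 3298534883328 := by
  refine originH_of_num (d := 17) (by push_cast; exact hd) hb (by norm_num) (by norm_num) (by norm_num) (by norm_num)
    (by norm_num) (by norm_num) (by norm_num) (by norm_num) (by norm_num) (by norm_num) (by norm_num [S]) (by norm_num) ?_ ?_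
  · rw [hch]
    norm_num [abs_of_pos, abs_of_neg]
  · norm_num [abs_of_pos, abs_of_neg]

/-- Nonreconstruction at the bound. -/
theorem main : Tendsto (reconError 3 17 (-(1 / Real.sqrt 17))) atTop (𝓝 0) := by
  have hsq : Real.sqrt ((17 : ℕ) : ℝ) ^ 2 = 17 := by
    rw [Real.sq_sqrt (by positivity)]; norm_num
  have hsq' : Real.sqrt (17 : ℝ) ^ 2 = 17 := by
    rw [Real.sq_sqrt (by positivity)]
  have hs0 : 0 < Real.sqrt (17 : ℝ) := Real.sqrt_pos.2 (by norm_num)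
  have hl2 : ((17 : ℝ)) * (-(1 / Real.sqrt 17)) ^ 2 = 1 := by
    have : (-(1 / Real.sqrt (17 : ℝ))) ^ 2 = 1 / 17 := by
      rw [neg_sq, div_pow, hsq']; norm_num
    rw [this]; norm_num
  have hb : |(-(1 / Real.sqrt (17 : ℝ)))| ≤ (133335369939 / 549755813888 : ℝ) := by
    rw [abs_neg, abs_of_pos (by positivity)]
    rw [div_le_iff₀ hs0]
    have h1 : (1 : ℝ) ^ 2 ≤ ((133335369939 / 549755813888 : ℝ) * Real.sqrt 17) ^ 2 := by
      rw [mul_pow, hsq']; norm_num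
    exact le_of_sq_le_sq h1 (by positivity)
  have hb2 : (-(1 / 2) : ℝ) < -(1 / Real.sqrt (17 : ℝ)) := by
    have h2 := (abs_le.1 hb).1
    have h3 : ((133335369939 / 549755813888 : ℝ) : ℝ) < 1 / 2 := by norm_num
    linarith
  have h1 : (-(1 / Real.sqrt (17 : ℝ))) < 1 := by
    have : 0 < 1 / Real.sqrt (17 : ℝ) := by positivity
    linarith
  have hlam : |(S : ℝ) * (-(1 / Real.sqrt (17 : ℝ))) - ((P.lp : ℝ) - P.ln)| ≤ ((1 : ℕ) : ℝ) := by
    have h := lam_enc 17 17476533608603192 (by norm_num) (by norm_num [S]) (by norm_num [S])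
    have e : ((17 : ℕ) : ℝ) = (17 : ℝ) := by norm_num
    rw [e] at h
    exact h
  obtain ⟨hOa, hON⟩ := horig _ hl2 hb
  refine final_of_box (d := 17) (by norm_num) hb2 h1 (box hlam) (87579 / 65536 : ℝ) (868797 / 65536 : ℝ) (379421 / 32768 : ℝ) (107 / 256 : ℝ) (45 / 512 : ℝ) (4233 / 4096 : ℝ) (5243 / 1048576 : ℝ) (21467 / 16384 : ℝ) (121 / 4096 : ℝ) (19 / 256 : ℝ) cellsL
    (by norm_num) (by norm_num) (by norm_num) (by norm_num) (by norm_num) (by norm_num) (by norm_num) (by norm_num) (by norm_num)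
    (by norm_num) (by norm_num) (by norm_num) (by norm_num) (by norm_num) hOa hON rTa rTb rc1 rc2 rc3
    (forall_cons rcell0 (forall_cons rcell1 (forall_cons rcell2 (forall_cons rcell3 (forall_cons rcell4 (forall_cons rcell5 (forall_cons rcell6 (forall_cons rcell7 (forall_cons rcell8 (forall_cons rcell9 (forall_cons rcell10 (forall_cons rcell11 (forall_cons rcell12 (forall_nil)))))))))))))) hcover (forall_cons lcell0 (forall_cons lcell1 (forall_cons lcell2 (forall_cons lcell3 (forall_cons lcell4 (forall_cons lcell5 (forall_cons lcell6 (forall_cons lcell7 (forall_cons lcell8 (forall_cons lcell9 (forall_cons lcell10 (forall_cons lcell11 (forall_cons lcell12 (forall_nil))))))))))))))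

end Vale.Agent.P154H.Tm.D17
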