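import Vale.Agent.P154H.D.D18
import Vale.Agent.P154H.FinalD
import Vale.Agent.P154H.OriginW

open Filter Topology

set_option maxRecDepth 100000

/-!
Nonreconstruction at the Kesten-Stigum bound for `d = 18`, negative eigenvalue.
-/

namespace Vale.Agent.P154H.Tm.D18

open Vale.Agent.P154 Vale.Agent.P154H

/-- A chord cell. -/
noncomputable def C0 : Cell := ⟨(5243 / 1048576 : ℝ), (801 / 131072 : ℝ), (-94052985 / 4194304 : ℝ), (-919623337 / 4194304 : ℝ), (-411954107 / 2097152 : ℝ), (-560393 / 268435456 : ℝ)⟩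

/-- A chord cell. -/
noncomputable def C1 : Cell := ⟨(801 / 131072 : ℝ), (1957 / 262144 : ℝ), (-92720671 / 4194304 : ℝ), (-902572539 / 4194304 : ℝ), (-201680941 / 1048576 : ℝ), (-109885 / 33554432 : ℝ)⟩

/-- A chord cell. -/
noncomputable def C2 : Cell := ⟨(1957 / 262144 : ℝ), (299 / 32768 : ℝ), (-45426615 / 2097152 : ℝ), (-882527399 / 4194304 : ℝ), (-24568023 / 131072 : ℝ), (-354463 / 67108864 : ℝ)⟩

/-- A chord cell. -/
noncomputable def C3 : Cell := ⟨(299 / 32768 : ℝ), (2923 / 262144 : ℝ), (-44319087 / 2097152 : ℝ), (-857891549 / 4194304 : ℝ), (-95215425 / 524288 : ℝ), (-1802617 / 268435456 : ℝ)⟩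

/-- A chord cell. -/
noncomputable def C4 : Cell := ⟨(2923 / 262144 : ℝ), (893 / 65536 : ℝ), (-86411791 / 4194304 : ℝ), (-414662139 / 2097152 : ℝ), (-732827239 / 4194304 : ℝ), (-2942331 / 268435456 : ℝ)⟩

/-- A chord cell. -/
noncomputable def C5 : Cell := ⟨(893 / 65536 : ℝ), (4365 / 262144 : ℝ), (-41742457 / 2097152 : ℝ), (-198983083 / 1048576 : ℝ), (-349460039 / 2097152 : ℝ), (-4587191 / 268435456 : ℝ)⟩

/-- A chord cell. -/
noncomputable def C6 : Cell := ⟨(4365 / 262144 : ℝ), (5333 / 262144 : ℝ), (-19944075 / 1048576 : ℝ), (-756344669 / 4194304 : ℝ), (-659520325 / 4194304 : ℝ), (-6004551 / 268435456 : ℝ)⟩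

/-- A chord cell. -/
noncomputable def C7 : Cell := ⟨(5333 / 262144 : ℝ), (6517 / 262144 : ℝ), (-76082565 / 4194304 : ℝ), (-712227425 / 4194304 : ℝ), (-614219169 / 4194304 : ℝ), (-10424997 / 268435456 : ℝ)⟩

/-- A chord cell. -/
noncomputable def C8 : Cell := ⟨(6517 / 262144 : ℝ), (1991 / 65536 : ℝ), (-71521011 / 4194304 : ℝ), (-660022933 / 4194304 : ℝ), (-562824245 / 4194304 : ℝ), (-13447771 / 268435456 : ℝ)⟩

/-- A chord cell. -/
noncomputable def C9 : Cell := ⟨(1991 / 65536 : ℝ), (2433 / 65536 : ℝ), (-519897 / 32768 : ℝ), (-302852815 / 2097152 : ℝ), (-252765055 / 2097152 : ℝ), (-25282945 / 268435456 : ℝ)⟩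

/-- A chord cell. -/
noncomputable def C10 : Cell := ⟨(2433 / 65536 : ℝ), (11893 / 262144 : ℝ), (-61188737 / 4194304 : ℝ), (-543105629 / 4194304 : ℝ), (-110745765 / 1048576 : ℝ), (-17966993 / 134217728 : ℝ)⟩

/-- A chord cell. -/
noncomputable def C11 : Cell := ⟨(11893 / 262144 : ℝ), (14533 / 262144 : ℝ), (-872205 / 65536 : ℝ), (-121518239 / 1048576 : ℝ), (-376462529 / 4194304 : ℝ), (-78061635 / 268435456 : ℝ)⟩

/-- A chord cell. -/
noncomputable def C12 : Cell := ⟨(14533 / 262144 : ℝ), (71 / 1024 : ℝ), (-51292147 / 4194304 : ℝ), (-435156809 / 4194304 : ℝ), (-151863261 / 2097152 : ℝ), (-180032513 / 268435456 : ℝ)⟩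

/-- The chord cells. -/
noncomputable def cellsL : List Cell := [C0, C1, C2, C3, C4, C5, C6, C7, C8, C9, C10, C11, C12]

lemma hcover : ∀ x : ℝ, (5243 / 1048576 : ℝ) ≤ x → x ≤ (71 / 1024 : ℝ) → ∃ D ∈ cellsL, D.l ≤ x ∧ x ≤ D.u := by
  refine cover_of_chain ?_ (by norm_num [C0])
  simp only [ChainP, C0, C1, C2, C3, C4, C5, C6, C7, C8, C9, C10, C11, C12]
  norm_num

lemma hch : ((Nat.choose 18 2 : ℕ) : ℝ) = 153 := by norm_num [Nat.choose]

lemma rTa : Rw4 P.r1 (393216 : ℝ) (coTa 18 (87579 / 65536 : ℝ) (868797 / 65536 : ℝ) (379421 / 32768 : ℝ) (107 / 256 : ℝ) (33 / 1024 : ℝ)) := by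
  refine ⟨⟨Ra, List.mem_cons_self, ?_⟩, by norm_num⟩
  constructor <;> norm_num [Ra, coTa, hch]

lemma rTb : Rw4 P.r1 (6597069766656 : ℝ) (coTb 18 (87579 / 65536 : ℝ) (868797 / 65536 : ℝ) (379421 / 32768 : ℝ) (107 / 256 : ℝ) (33 / 1024 : ℝ) (45 / 512 : ℝ) (4233 / 4096 : ℝ) (12045 / 8192 : ℝ)) := by
  refine ⟨⟨Rb, List.mem_cons_of_mem _ (List.mem_cons_self), ?_⟩, by norm_num⟩
  constructor <;> norm_num [Rb, coTb, hch]

lemma rc1 : Rw4 P.r2 (16777216 : ℝ) ⟨0, 0, 0, -(87579 / 65536 : ℝ), 0, 0, 0, 0, (379421 / 32768 : ℝ) * (45 / 512 : ℝ)⟩ := by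
  refine ⟨⟨Q0, List.mem_cons_self, ?_⟩, by norm_num⟩
  constructor <;> norm_num [Q0]

lemma rc2 : Rw4 P.r2 (134217728 : ℝ) ⟨0, 0, 0, 0, -(868797 / 65536 : ℝ), 0, 0, 0, (379421 / 32768 : ℝ) * (4233 / 4096 : ℝ)⟩ := by
  refine ⟨⟨Q1, List.mem_cons_of_mem _ (List.mem_cons_self), ?_⟩, by norm_num⟩
  constructor <;> norm_num [Q1]

lemma rc3 : Rw4 P.r2 (3072 : ℝ) ⟨0, 0, 0, 0, 0, -1, 0, 0, (71 / 1024 : ℝ)⟩ := by
  refine ⟨⟨Q2, List.mem_cons_of_mem _ (List.mem_cons_of_mem _ (List.mem_cons_self)), ?_⟩, by norm_num⟩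
  constructor <;> norm_num [Q2]

lemma rcell0 : ∃ N : ℝ, Rw4 P.r2 N (coCell (87579 / 65536 : ℝ) (868797 / 65536 : ℝ) ((379421 / 32768 : ℝ) + (107 / 256 : ℝ)) (33 / 1024 : ℝ) C0) := by
  refine ⟨(805306368 : ℝ), ⟨Q3, List.mem_cons_of_mem _ (List.mem_cons_of_mem _ (List.mem_cons_of_mem _ (List.mem_cons_self))), ?_⟩, by norm_num⟩
  constructor <;> norm_num [Q3, coCell, C0]

lemma lcell0 : ∀ x1 x2 xc : ℝ, 0 ≤ x1 → x1 ≤ 1 → 0 ≤ x2 → x2 ≤ 1 → C0.l ≤ xc → xc ≤ C0.u →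
    (87579 / 65536 : ℝ) * (1 - (1 - x1) ^ 18) + (868797 / 65536 : ℝ) * (1 - (1 - x2) ^ 18) - ((379421 / 32768 : ℝ) + (107 / 256 : ℝ)) * (1 - (1 - xc) ^ 18)
      ≤ - C0.a1 * x1 - C0.a2 * x2 + C0.e * xc + C0.f := by
  have h := cell_lines 18 (α1 := (87579 / 65536 : ℝ)) (α2 := (868797 / 65536 : ℝ)) (c := (379421 / 32768 : ℝ) + (107 / 256 : ℝ)) (y1 := (135 / 32768 : ℝ)) (y2 := (651 / 131072 : ℝ))
    (A1 := (94052985 / 4194304 : ℝ)) (B1 := (445787 / 134217728 : ℝ)) (A2 := (919623337 / 4194304 : ℝ)) (B2 := (6369543 / 134217728 : ℝ)) (l := (5243 / 1048576 : ℝ)) (u := (801 / 131072 : ℝ))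
    (E := (-411954107 / 2097152 : ℝ)) (F := (-14191053 / 268435456 : ℝ)) (by norm_num) (by norm_num) (by norm_num) (by norm_num) (by norm_num)
    (by norm_num) (by norm_num) (by norm_num) (by norm_num) (by norm_num) (by norm_num) (by norm_num) (by norm_num) (by norm_num) (by norm_num)
  have e1 : C0.l = (5243 / 1048576 : ℝ) := rfl
  have e2 : C0.u = (801 / 131072 : ℝ) := rfl
  have e3 : C0.a1 = -(94052985 / 4194304 : ℝ) := by norm_num [C0]
  have e4 : C0.a2 = -(919623337 / 4194304 : ℝ) := by norm_num [C0]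
  have e5 : C0.e = (-411954107 / 2097152 : ℝ) := rfl
  have e6 : C0.f = (445787 / 134217728 : ℝ) + (6369543 / 134217728 : ℝ) + (-14191053 / 268435456 : ℝ) := by norm_num [C0]
  rw [e1, e2, e3, e4, e5, e6]
  exact h

lemma rcell1 : ∃ N : ℝ, Rw4 P.r2 N (coCell (87579 / 65536 : ℝ) (868797 / 65536 : ℝ) ((379421 / 32768 : ℝ) + (107 / 256 : ℝ)) (33 / 1024 : ℝ) C1) := by
  refine ⟨(100663296 : ℝ), ⟨Q4, List.mem_cons_of_mem _ (List.mem_cons_of_mem _ (List.mem_cons_of_mem _ (List.mem_cons_of_mem _ (List.mem_cons_self)))), ?_⟩, by norm_num⟩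
  constructor <;> norm_num [Q4, coCell, C1]

lemma lcell1 : ∀ x1 x2 xc : ℝ, 0 ≤ x1 → x1 ≤ 1 → 0 ≤ x2 → x2 ≤ 1 → C1.l ≤ xc → xc ≤ C1.u →
    (87579 / 65536 : ℝ) * (1 - (1 - x1) ^ 18) + (868797 / 65536 : ℝ) * (1 - (1 - x2) ^ 18) - ((379421 / 32768 : ℝ) + (107 / 256 : ℝ)) * (1 - (1 - xc) ^ 18)
      ≤ - C1.a1 * x1 - C1.a2 * x2 + C1.e * xc + C1.f := by
  have h := cell_lines 18 (α1 := (87579 / 65536 : ℝ)) (α2 := (868797 / 65536 : ℝ)) (c := (379421 / 32768 : ℝ) + (107 / 256 : ℝ)) (y1 := (1299 / 262144 : ℝ)) (y2 := (1589 / 262144 : ℝ))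
    (A1 := (92720671 / 4194304 : ℝ)) (B1 := (1278411 / 268435456 : ℝ)) (A2 := (902572539 / 4194304 : ℝ)) (B2 := (18754629 / 268435456 : ℝ)) (l := (801 / 131072 : ℝ)) (u := (1957 / 262144 : ℝ))
    (E := (-201680941 / 1048576 : ℝ)) (F := (-2614015 / 33554432 : ℝ)) (by norm_num) (by norm_num) (by norm_num) (by norm_num) (by norm_num)
    (by norm_num) (by norm_num) (by norm_num) (by norm_num) (by norm_num) (by norm_num) (by norm_num) (by norm_num) (by norm_num) (by norm_num)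
  have e1 : C1.l = (801 / 131072 : ℝ) := rfl
  have e2 : C1.u = (1957 / 262144 : ℝ) := rfl
  have e3 : C1.a1 = -(92720671 / 4194304 : ℝ) := by norm_num [C1]
  have e4 : C1.a2 = -(902572539 / 4194304 : ℝ) := by norm_num [C1]
  have e5 : C1.e = (-201680941 / 1048576 : ℝ) := rfl
  have e6 : C1.f = (1278411 / 268435456 : ℝ) + (18754629 / 268435456 : ℝ) + (-2614015 / 33554432 : ℝ) := by norm_num [C1]
  rw [e1, e2, e3, e4, e5, e6]
  exact h

lemma rcell2 : ∃ N : ℝ, Rw4 P.r2 N (coCell (87579 / 65536 : ℝ) (868797 / 65536 : ℝ) ((379421 / 32768 : ℝ) + (107 / 256 : ℝ)) (33 / 1024 : ℝ) C2) := by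
  refine ⟨(201326592 : ℝ), ⟨Q5, List.mem_cons_of_mem _ (List.mem_cons_of_mem _ (List.mem_cons_of_mem _ (List.mem_cons_of_mem _ (List.mem_cons_of_mem _ (List.mem_cons_self))))), ?_⟩, by norm_num⟩
  constructor <;> norm_num [Q5, coCell, C2]

lemma lcell2 : ∀ x1 x2 xc : ℝ, 0 ≤ x1 → x1 ≤ 1 → 0 ≤ x2 → x2 ≤ 1 → C2.l ≤ xc → xc ≤ C2.u →
    (87579 / 65536 : ℝ) * (1 - (1 - x1) ^ 18) + (868797 / 65536 : ℝ) * (1 - (1 - x2) ^ 18) - ((379421 / 32768 : ℝ) + (107 / 256 : ℝ)) * (1 - (1 - xc) ^ 18)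
      ≤ - C2.a1 * x1 - C2.a2 * x2 + C2.e * xc + C2.f := by
  have h := cell_lines 18 (α1 := (87579 / 65536 : ℝ)) (α2 := (868797 / 65536 : ℝ)) (c := (379421 / 32768 : ℝ) + (107 / 256 : ℝ)) (y1 := (1611 / 262144 : ℝ)) (y2 := (1933 / 262144 : ℝ))
    (A1 := (45426615 / 2097152 : ℝ)) (B1 := (485391 / 67108864 : ℝ)) (A2 := (882527399 / 4194304 : ℝ)) (B2 := (27369729 / 268435456 : ℝ)) (l := (1957 / 262144 : ℝ)) (u := (299 / 32768 : ℝ))
    (E := (-24568023 / 131072 : ℝ)) (F := (-30729145 / 268435456 : ℝ)) (by norm_num) (by norm_num) (by norm_num) (by norm_num) (by norm_num)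
    (by norm_num) (by norm_num) (by norm_num) (by norm_num) (by norm_num) (by norm_num) (by norm_num) (by norm_num) (by norm_num) (by norm_num)
  have e1 : C2.l = (1957 / 262144 : ℝ) := rfl
  have e2 : C2.u = (299 / 32768 : ℝ) := rfl
  have e3 : C2.a1 = -(45426615 / 2097152 : ℝ) := by norm_num [C2]
  have e4 : C2.a2 = -(882527399 / 4194304 : ℝ) := by norm_num [C2]
  have e5 : C2.e = (-24568023 / 131072 : ℝ) := rfl
  have e6 : C2.f = (485391 / 67108864 : ℝ) + (27369729 / 268435456 : ℝ) + (-30729145 / 268435456 : ℝ) := by norm_num [C2]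
  rw [e1, e2, e3, e4, e5, e6]
  exact h

lemma rcell3 : ∃ N : ℝ, Rw4 P.r2 N (coCell (87579 / 65536 : ℝ) (868797 / 65536 : ℝ) ((379421 / 32768 : ℝ) + (107 / 256 : ℝ)) (33 / 1024 : ℝ) C3) := by
  refine ⟨(805306368 : ℝ), ⟨Q6, List.mem_cons_of_mem _ (List.mem_cons_of_mem _ (List.mem_cons_of_mem _ (List.mem_cons_of_mem _ (List.mem_cons_of_mem _ (List.mem_cons_of_mem _ (List.mem_cons_self)))))), ?_⟩, by norm_num⟩
  constructor <;> norm_num [Q6, coCell, C3]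

lemma lcell3 : ∀ x1 x2 xc : ℝ, 0 ≤ x1 → x1 ≤ 1 → 0 ≤ x2 → x2 ≤ 1 → C3.l ≤ xc → xc ≤ C3.u →
    (87579 / 65536 : ℝ) * (1 - (1 - x1) ^ 18) + (868797 / 65536 : ℝ) * (1 - (1 - x2) ^ 18) - ((379421 / 32768 : ℝ) + (107 / 256 : ℝ)) * (1 - (1 - xc) ^ 18)
      ≤ - C3.a1 * x1 - C3.a2 * x2 + C3.e * xc + C3.f := by
  have h := cell_lines 18 (α1 := (87579 / 65536 : ℝ)) (α2 := (868797 / 65536 : ℝ)) (c := (379421 / 32768 : ℝ) + (107 / 256 : ℝ)) (y1 := (1989 / 262144 : ℝ)) (y2 := (1183 / 131072 : ℝ))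
    (A1 := (44319087 / 2097152 : ℝ)) (B1 := (2914557 / 268435456 : ℝ)) (A2 := (857891549 / 4194304 : ℝ)) (B2 := (40292337 / 268435456 : ℝ)) (l := (299 / 32768 : ℝ)) (u := (2923 / 262144 : ℝ))
    (E := (-95215425 / 524288 : ℝ)) (F := (-45009511 / 268435456 : ℝ)) (by norm_num) (by norm_num) (by norm_num) (by norm_num) (by norm_num)
    (by norm_num) (by norm_num) (by norm_num) (by norm_num) (by norm_num) (by norm_num) (by norm_num) (by norm_num) (by norm_num) (by norm_num)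
  have e1 : C3.l = (299 / 32768 : ℝ) := rfl
  have e2 : C3.u = (2923 / 262144 : ℝ) := rfl
  have e3 : C3.a1 = -(44319087 / 2097152 : ℝ) := by norm_num [C3]
  have e4 : C3.a2 = -(857891549 / 4194304 : ℝ) := by norm_num [C3]
  have e5 : C3.e = (-95215425 / 524288 : ℝ) := rfl
  have e6 : C3.f = (2914557 / 268435456 : ℝ) + (40292337 / 268435456 : ℝ) + (-45009511 / 268435456 : ℝ) := by norm_num [C3]
  rw [e1, e2, e3, e4, e5, e6]
  exact h

lemma rcell4 : ∃ N : ℝ, Rw4 P.r2 N (coCell (87579 / 65536 : ℝ) (868797 / 65536 : ℝ) ((379421 / 32768 : ℝ) + (107 / 256 : ℝ)) (33 / 1024 : ℝ) C4) := by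
  refine ⟨(805306368 : ℝ), ⟨Q7, List.mem_cons_of_mem _ (List.mem_cons_of_mem _ (List.mem_cons_of_mem _ (List.mem_cons_of_mem _ (List.mem_cons_of_mem _ (List.mem_cons_of_mem _ (List.mem_cons_of_mem _ (List.mem_cons_self))))))), ?_⟩, by norm_num⟩
  constructor <;> norm_num [Q7, coCell, C4]

lemma lcell4 : ∀ x1 x2 xc : ℝ, 0 ≤ x1 → x1 ≤ 1 → 0 ≤ x2 → x2 ≤ 1 → C4.l ≤ xc → xc ≤ C4.u →
    (87579 / 65536 : ℝ) * (1 - (1 - x1) ^ 18) + (868797 / 65536 : ℝ) * (1 - (1 - x2) ^ 18) - ((379421 / 32768 : ℝ) + (107 / 256 : ℝ)) * (1 - (1 - xc) ^ 18)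
      ≤ - C4.a1 * x1 - C4.a2 * x2 + C4.e * xc + C4.f := by
  have h := cell_lines 18 (α1 := (87579 / 65536 : ℝ)) (α2 := (868797 / 65536 : ℝ)) (c := (379421 / 32768 : ℝ) + (107 / 256 : ℝ)) (y1 := (1189 / 131072 : ℝ)) (y2 := (2883 / 262144 : ℝ))
    (A1 := (86411791 / 4194304 : ℝ)) (B1 := (2050489 / 134217728 : ℝ)) (A2 := (414662139 / 2097152 : ℝ)) (B2 := (58587169 / 268435456 : ℝ)) (l := (2923 / 262144 : ℝ)) (u := (893 / 65536 : ℝ))
    (E := (-732827239 / 4194304 : ℝ)) (F := (-32815239 / 134217728 : ℝ)) (by norm_num) (by norm_num) (by norm_num) (by norm_num) (by norm_num)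
    (by norm_num) (by norm_num) (by norm_num) (by norm_num) (by norm_num) (by norm_num) (by norm_num) (by norm_num) (by norm_num) (by norm_num)
  have e1 : C4.l = (2923 / 262144 : ℝ) := rfl
  have e2 : C4.u = (893 / 65536 : ℝ) := rfl
  have e3 : C4.a1 = -(86411791 / 4194304 : ℝ) := by norm_num [C4]
  have e4 : C4.a2 = -(414662139 / 2097152 : ℝ) := by norm_num [C4]
  have e5 : C4.e = (-732827239 / 4194304 : ℝ) := rfl
  have e6 : C4.f = (2050489 / 134217728 : ℝ) + (58587169 / 268435456 : ℝ) + (-32815239 / 134217728 : ℝ) := by norm_num [C4]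
  rw [e1, e2, e3, e4, e5, e6]
  exact h

lemma rcell5 : ∃ N : ℝ, Rw4 P.r2 N (coCell (87579 / 65536 : ℝ) (868797 / 65536 : ℝ) ((379421 / 32768 : ℝ) + (107 / 256 : ℝ)) (33 / 1024 : ℝ) C5) := by
  refine ⟨(805306368 : ℝ), ⟨Q8, List.mem_cons_of_mem _ (List.mem_cons_of_mem _ (List.mem_cons_of_mem _ (List.mem_cons_of_mem _ (List.mem_cons_of_mem _ (List.mem_cons_of_mem _ (List.mem_cons_of_mem _ (List.mem_cons_of_mem _ (List.mem_cons_self)))))))), ?_⟩, by norm_num⟩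
  constructor <;> norm_num [Q8, coCell, C5]

lemma lcell5 : ∀ x1 x2 xc : ℝ, 0 ≤ x1 → x1 ≤ 1 → 0 ≤ x2 → x2 ≤ 1 → C5.l ≤ xc → xc ≤ C5.u →
    (87579 / 65536 : ℝ) * (1 - (1 - x1) ^ 18) + (868797 / 65536 : ℝ) * (1 - (1 - x2) ^ 18) - ((379421 / 32768 : ℝ) + (107 / 256 : ℝ)) * (1 - (1 - xc) ^ 18)
      ≤ - C5.a1 * x1 - C5.a2 * x2 + C5.e * xc + C5.f := by
  have h := cell_lines 18 (α1 := (87579 / 65536 : ℝ)) (α2 := (868797 / 65536 : ℝ)) (c := (379421 / 32768 : ℝ) + (107 / 256 : ℝ)) (y1 := (363 / 32768 : ℝ)) (y2 := (3509 / 262144 : ℝ))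
    (A1 := (41742457 / 2097152 : ℝ)) (B1 := (5987153 / 268435456 : ℝ)) (A2 := (198983083 / 1048576 : ℝ)) (B2 := (42312781 / 134217728 : ℝ)) (l := (893 / 65536 : ℝ)) (u := (4365 / 262144 : ℝ))
    (E := (-349460039 / 2097152 : ℝ)) (F := (-47599953 / 134217728 : ℝ)) (by norm_num) (by norm_num) (by norm_num) (by norm_num) (by norm_num)
    (by norm_num) (by norm_num) (by norm_num) (by norm_num) (by norm_num) (by norm_num) (by norm_num) (by norm_num) (by norm_num) (by norm_num)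
  have e1 : C5.l = (893 / 65536 : ℝ) := rfl
  have e2 : C5.u = (4365 / 262144 : ℝ) := rfl
  have e3 : C5.a1 = -(41742457 / 2097152 : ℝ) := by norm_num [C5]
  have e4 : C5.a2 = -(198983083 / 1048576 : ℝ) := by norm_num [C5]
  have e5 : C5.e = (-349460039 / 2097152 : ℝ) := rfl
  have e6 : C5.f = (5987153 / 268435456 : ℝ) + (42312781 / 134217728 : ℝ) + (-47599953 / 134217728 : ℝ) := by norm_num [C5]
  rw [e1, e2, e3, e4, e5, e6]
  exact h

lemma rcell6 : ∃ N : ℝ, Rw4 P.r2 N (coCell (87579 / 65536 : ℝ) (868797 / 65536 : ℝ) ((379421 / 32768 : ℝ) + (107 / 256 : ℝ)) (33 / 1024 : ℝ) C6) := by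
  refine ⟨(805306368 : ℝ), ⟨Q9, List.mem_cons_of_mem _ (List.mem_cons_of_mem _ (List.mem_cons_of_mem _ (List.mem_cons_of_mem _ (List.mem_cons_of_mem _ (List.mem_cons_of_mem _ (List.mem_cons_of_mem _ (List.mem_cons_of_mem _ (List.mem_cons_of_mem _ (List.mem_cons_self))))))))), ?_⟩, by norm_num⟩
  constructor <;> norm_num [Q9, coCell, C6]

lemma lcell6 : ∀ x1 x2 xc : ℝ, 0 ≤ x1 → x1 ≤ 1 → 0 ≤ x2 → x2 ≤ 1 → C6.l ≤ xc → xc ≤ C6.u →
    (87579 / 65536 : ℝ) * (1 - (1 - x1) ^ 18) + (868797 / 65536 : ℝ) * (1 - (1 - x2) ^ 18) - ((379421 / 32768 : ℝ) + (107 / 256 : ℝ)) * (1 - (1 - xc) ^ 18)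
      ≤ - C6.a1 * x1 - C6.a2 * x2 + C6.e * xc + C6.f := by
  have h := cell_lines 18 (α1 := (87579 / 65536 : ℝ)) (α2 := (868797 / 65536 : ℝ)) (c := (379421 / 32768 : ℝ) + (107 / 256 : ℝ)) (y1 := (899 / 65536 : ℝ)) (y2 := (1071 / 65536 : ℝ))
    (A1 := (19944075 / 1048576 : ℝ)) (B1 := (2231891 / 67108864 : ℝ)) (A2 := (756344669 / 4194304 : ℝ)) (B2 := (122255077 / 268435456 : ℝ)) (l := (4365 / 262144 : ℝ)) (u := (5333 / 262144 : ℝ))
    (E := (-659520325 / 4194304 : ℝ)) (F := (-17148399 / 33554432 : ℝ)) (by norm_num) (by norm_num) (by norm_num) (by norm_num) (by norm_num)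
    (by norm_num) (by norm_num) (by norm_num) (by norm_num) (by norm_num) (by norm_num) (by norm_num) (by norm_num) (by norm_num) (by norm_num)
  have e1 : C6.l = (4365 / 262144 : ℝ) := rfl
  have e2 : C6.u = (5333 / 262144 : ℝ) := rfl
  have e3 : C6.a1 = -(19944075 / 1048576 : ℝ) := by norm_num [C6]
  have e4 : C6.a2 = -(756344669 / 4194304 : ℝ) := by norm_num [C6]
  have e5 : C6.e = (-659520325 / 4194304 : ℝ) := rfl
  have e6 : C6.f = (2231891 / 67108864 : ℝ) + (122255077 / 268435456 : ℝ) + (-17148399 / 33554432 : ℝ) := by norm_num [C6]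
  rw [e1, e2, e3, e4, e5, e6]
  exact h

lemma rcell7 : ∃ N : ℝ, Rw4 P.r2 N (coCell (87579 / 65536 : ℝ) (868797 / 65536 : ℝ) ((379421 / 32768 : ℝ) + (107 / 256 : ℝ)) (33 / 1024 : ℝ) C7) := by
  refine ⟨(805306368 : ℝ), ⟨Q10, List.mem_cons_of_mem _ (List.mem_cons_of_mem _ (List.mem_cons_of_mem _ (List.mem_cons_of_mem _ (List.mem_cons_of_mem _ (List.mem_cons_of_mem _ (List.mem_cons_of_mem _ (List.mem_cons_of_mem _ (List.mem_cons_of_mem _ (List.mem_cons_of_mem _ (List.mem_cons_self)))))))))), ?_⟩, by norm_num⟩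
  constructor <;> norm_num [Q10, coCell, C7]

lemma lcell7 : ∀ x1 x2 xc : ℝ, 0 ≤ x1 → x1 ≤ 1 → 0 ≤ x2 → x2 ≤ 1 → C7.l ≤ xc → xc ≤ C7.u →
    (87579 / 65536 : ℝ) * (1 - (1 - x1) ^ 18) + (868797 / 65536 : ℝ) * (1 - (1 - x2) ^ 18) - ((379421 / 32768 : ℝ) + (107 / 256 : ℝ)) * (1 - (1 - xc) ^ 18)
      ≤ - C7.a1 * x1 - C7.a2 * x2 + C7.e * xc + C7.f := by
  have h := cell_lines 18 (α1 := (87579 / 65536 : ℝ)) (α2 := (868797 / 65536 : ℝ)) (c := (379421 / 32768 : ℝ) + (107 / 256 : ℝ)) (y1 := (1079 / 65536 : ℝ)) (y2 := (2597 / 131072 : ℝ))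
    (A1 := (76082565 / 4194304 : ℝ)) (B1 := (3123151 / 67108864 : ℝ)) (A2 := (712227425 / 4194304 : ℝ)) (B2 := (21656473 / 33554432 : ℝ)) (l := (5333 / 262144 : ℝ)) (u := (6517 / 262144 : ℝ))
    (E := (-614219169 / 4194304 : ℝ)) (F := (-196169385 / 268435456 : ℝ)) (by norm_num) (by norm_num) (by norm_num) (by norm_num) (by norm_num)
    (by norm_num) (by norm_num) (by norm_num) (by norm_num) (by norm_num) (by norm_num) (by norm_num) (by norm_num) (by norm_num) (by norm_num)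
  have e1 : C7.l = (5333 / 262144 : ℝ) := rfl
  have e2 : C7.u = (6517 / 262144 : ℝ) := rfl
  have e3 : C7.a1 = -(76082565 / 4194304 : ℝ) := by norm_num [C7]
  have e4 : C7.a2 = -(712227425 / 4194304 : ℝ) := by norm_num [C7]
  have e5 : C7.e = (-614219169 / 4194304 : ℝ) := rfl
  have e6 : C7.f = (3123151 / 67108864 : ℝ) + (21656473 / 33554432 : ℝ) + (-196169385 / 268435456 : ℝ) := by norm_num [C7]
  rw [e1, e2, e3, e4, e5, e6]
  exact h

lemma rcell8 : ∃ N : ℝ, Rw4 P.r2 N (coCell (87579 / 65536 : ℝ) (868797 / 65536 : ℝ) ((379421 / 32768 : ℝ) + (107 / 256 : ℝ)) (33 / 1024 : ℝ) C8) := by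
  refine ⟨(805306368 : ℝ), ⟨Q11, List.mem_cons_of_mem _ (List.mem_cons_of_mem _ (List.mem_cons_of_mem _ (List.mem_cons_of_mem _ (List.mem_cons_of_mem _ (List.mem_cons_of_mem _ (List.mem_cons_of_mem _ (List.mem_cons_of_mem _ (List.mem_cons_of_mem _ (List.mem_cons_of_mem _ (List.mem_cons_of_mem _ (List.mem_cons_self))))))))))), ?_⟩, by norm_num⟩
  constructor <;> norm_num [Q11, coCell, C8]

lemma lcell8 : ∀ x1 x2 xc : ℝ, 0 ≤ x1 → x1 ≤ 1 → 0 ≤ x2 → x2 ≤ 1 → C8.l ≤ xc → xc ≤ C8.u →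
    (87579 / 65536 : ℝ) * (1 - (1 - x1) ^ 18) + (868797 / 65536 : ℝ) * (1 - (1 - x2) ^ 18) - ((379421 / 32768 : ℝ) + (107 / 256 : ℝ)) * (1 - (1 - xc) ^ 18)
      ≤ - C8.a1 * x1 - C8.a2 * x2 + C8.e * xc + C8.f := by
  have h := cell_lines 18 (α1 := (87579 / 65536 : ℝ)) (α2 := (868797 / 65536 : ℝ)) (c := (379421 / 32768 : ℝ) + (107 / 256 : ℝ)) (y1 := (1313 / 65536 : ℝ)) (y2 := (3171 / 131072 : ℝ))
    (A1 := (71521011 / 4194304 : ℝ)) (B1 := (17815315 / 268435456 : ℝ)) (A2 := (660022933 / 4194304 : ℝ)) (B2 := (30834867 / 33554432 : ℝ)) (l := (6517 / 262144 : ℝ)) (u := (1991 / 65536 : ℝ))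
    (E := (-562824245 / 4194304 : ℝ)) (F := (-138971011 / 134217728 : ℝ)) (by norm_num) (by norm_num) (by norm_num) (by norm_num) (by norm_num)
    (by norm_num) (by norm_num) (by norm_num) (by norm_num) (by norm_num) (by norm_num) (by norm_num) (by norm_num) (by norm_num) (by norm_num)
  have e1 : C8.l = (6517 / 262144 : ℝ) := rfl
  have e2 : C8.u = (1991 / 65536 : ℝ) := rfl
  have e3 : C8.a1 = -(71521011 / 4194304 : ℝ) := by norm_num [C8]
  have e4 : C8.a2 = -(660022933 / 4194304 : ℝ) := by norm_num [C8]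
  have e5 : C8.e = (-562824245 / 4194304 : ℝ) := rfl
  have e6 : C8.f = (17815315 / 268435456 : ℝ) + (30834867 / 33554432 : ℝ) + (-138971011 / 134217728 : ℝ) := by norm_num [C8]
  rw [e1, e2, e3, e4, e5, e6]
  exact h

lemma rcell9 : ∃ N : ℝ, Rw4 P.r2 N (coCell (87579 / 65536 : ℝ) (868797 / 65536 : ℝ) ((379421 / 32768 : ℝ) + (107 / 256 : ℝ)) (33 / 1024 : ℝ) C9) := by
  refine ⟨(805306368 : ℝ), ⟨Q12, List.mem_cons_of_mem _ (List.mem_cons_of_mem _ (List.mem_cons_of_mem _ (List.mem_cons_of_mem _ (List.mem_cons_of_mem _ (List.mem_cons_of_mem _ (List.mem_cons_of_mem _ (List.mem_cons_of_mem _ (List.mem_cons_of_mem _ (List.mem_cons_of_mem _ (List.mem_cons_of_mem _ (List.mem_cons_of_mem _ (List.mem_cons_self)))))))))))), ?_⟩, by norm_num⟩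
  constructor <;> norm_num [Q12, coCell, C9]

lemma lcell9 : ∀ x1 x2 xc : ℝ, 0 ≤ x1 → x1 ≤ 1 → 0 ≤ x2 → x2 ≤ 1 → C9.l ≤ xc → xc ≤ C9.u →
    (87579 / 65536 : ℝ) * (1 - (1 - x1) ^ 18) + (868797 / 65536 : ℝ) * (1 - (1 - x2) ^ 18) - ((379421 / 32768 : ℝ) + (107 / 256 : ℝ)) * (1 - (1 - xc) ^ 18)
      ≤ - C9.a1 * x1 - C9.a2 * x2 + C9.e * xc + C9.f := by
  have h := cell_lines 18 (α1 := (87579 / 65536 : ℝ)) (α2 := (868797 / 65536 : ℝ)) (c := (379421 / 32768 : ℝ) + (107 / 256 : ℝ)) (y1 := (6339 / 262144 : ℝ)) (y2 := (7631 / 262144 : ℝ))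
    (A1 := (519897 / 32768 : ℝ)) (B1 := (3105739 / 33554432 : ℝ)) (A2 := (302852815 / 2097152 : ℝ)) (B2 := (339212211 / 268435456 : ℝ)) (l := (1991 / 65536 : ℝ)) (u := (2433 / 65536 : ℝ))
    (E := (-252765055 / 2097152 : ℝ)) (F := (-97335267 / 67108864 : ℝ)) (by norm_num) (by norm_num) (by norm_num) (by norm_num) (by norm_num)
    (by norm_num) (by norm_num) (by norm_num) (by norm_num) (by norm_num) (by norm_num) (by norm_num) (by norm_num) (by norm_num) (by norm_num)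
  have e1 : C9.l = (1991 / 65536 : ℝ) := rfl
  have e2 : C9.u = (2433 / 65536 : ℝ) := rfl
  have e3 : C9.a1 = -(519897 / 32768 : ℝ) := by norm_num [C9]
  have e4 : C9.a2 = -(302852815 / 2097152 : ℝ) := by norm_num [C9]
  have e5 : C9.e = (-252765055 / 2097152 : ℝ) := rfl
  have e6 : C9.f = (3105739 / 33554432 : ℝ) + (339212211 / 268435456 : ℝ) + (-97335267 / 67108864 : ℝ) := by norm_num [C9]
  rw [e1, e2, e3, e4, e5, e6]
  exact h

lemma rcell10 : ∃ N : ℝ, Rw4 P.r2 N (coCell (87579 / 65536 : ℝ) (868797 / 65536 : ℝ) ((379421 / 32768 : ℝ) + (107 / 256 : ℝ)) (33 / 1024 : ℝ) C10) := by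
  refine ⟨(402653184 : ℝ), ⟨Q13, List.mem_cons_of_mem _ (List.mem_cons_of_mem _ (List.mem_cons_of_mem _ (List.mem_cons_of_mem _ (List.mem_cons_of_mem _ (List.mem_cons_of_mem _ (List.mem_cons_of_mem _ (List.mem_cons_of_mem _ (List.mem_cons_of_mem _ (List.mem_cons_of_mem _ (List.mem_cons_of_mem _ (List.mem_cons_of_mem _ (List.mem_cons_of_mem _ (List.mem_cons_self))))))))))))), ?_⟩, by norm_num⟩
  constructor <;> norm_num [Q13, coCell, C10]

lemma lcell10 : ∀ x1 x2 xc : ℝ, 0 ≤ x1 → x1 ≤ 1 → 0 ≤ x2 → x2 ≤ 1 → C10.l ≤ xc → xc ≤ C10.u →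
    (87579 / 65536 : ℝ) * (1 - (1 - x1) ^ 18) + (868797 / 65536 : ℝ) * (1 - (1 - x2) ^ 18) - ((379421 / 32768 : ℝ) + (107 / 256 : ℝ)) * (1 - (1 - xc) ^ 18)
      ≤ - C10.a1 * x1 - C10.a2 * x2 + C10.e * xc + C10.f := by
  have h := cell_lines 18 (α1 := (87579 / 65536 : ℝ)) (α2 := (868797 / 65536 : ℝ)) (c := (379421 / 32768 : ℝ) + (107 / 256 : ℝ)) (y1 := (7599 / 262144 : ℝ)) (y2 := (9259 / 262144 : ℝ))
    (A1 := (61188737 / 4194304 : ℝ)) (B1 := (4243923 / 33554432 : ℝ)) (A2 := (543105629 / 4194304 : ℝ)) (B2 := (234033011 / 134217728 : ℝ)) (l := (2433 / 65536 : ℝ)) (u := (11893 / 262144 : ℝ))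
    (E := (-110745765 / 1048576 : ℝ)) (F := (-16810981 / 8388608 : ℝ)) (by norm_num) (by norm_num) (by norm_num) (by norm_num) (by norm_num)
    (by norm_num) (by norm_num) (by norm_num) (by norm_num) (by norm_num) (by norm_num) (by norm_num) (by norm_num) (by norm_num) (by norm_num)
  have e1 : C10.l = (2433 / 65536 : ℝ) := rfl
  have e2 : C10.u = (11893 / 262144 : ℝ) := rfl
  have e3 : C10.a1 = -(61188737 / 4194304 : ℝ) := by norm_num [C10]
  have e4 : C10.a2 = -(543105629 / 4194304 : ℝ) := by norm_num [C10]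
  have e5 : C10.e = (-110745765 / 1048576 : ℝ) := rfl
  have e6 : C10.f = (4243923 / 33554432 : ℝ) + (234033011 / 134217728 : ℝ) + (-16810981 / 8388608 : ℝ) := by norm_num [C10]
  rw [e1, e2, e3, e4, e5, e6]
  exact h

lemma rcell11 : ∃ N : ℝ, Rw4 P.r2 N (coCell (87579 / 65536 : ℝ) (868797 / 65536 : ℝ) ((379421 / 32768 : ℝ) + (107 / 256 : ℝ)) (33 / 1024 : ℝ) C11) := by
  refine ⟨(805306368 : ℝ), ⟨Q14, List.mem_cons_of_mem _ (List.mem_cons_of_mem _ (List.mem_cons_of_mem _ (List.mem_cons_of_mem _ (List.mem_cons_of_mem _ (List.mem_cons_of_mem _ (List.mem_cons_of_mem _ (List.mem_cons_of_mem _ (List.mem_cons_of_mem _ (List.mem_cons_of_mem _ (List.mem_cons_of_mem _ (List.mem_cons_of_mem _ (List.mem_cons_of_mem _ (List.mem_cons_of_mem _ (List.mem_cons_self)))))))))))))), ?_⟩, by norm_num⟩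
  constructor <;> norm_num [Q14, coCell, C11]

lemma lcell11 : ∀ x1 x2 xc : ℝ, 0 ≤ x1 → x1 ≤ 1 → 0 ≤ x2 → x2 ≤ 1 → C11.l ≤ xc → xc ≤ C11.u →
    (87579 / 65536 : ℝ) * (1 - (1 - x1) ^ 18) + (868797 / 65536 : ℝ) * (1 - (1 - x2) ^ 18) - ((379421 / 32768 : ℝ) + (107 / 256 : ℝ)) * (1 - (1 - xc) ^ 18)
      ≤ - C11.a1 * x1 - C11.a2 * x2 + C11.e * xc + C11.f := by
  have h := cell_lines 18 (α1 := (87579 / 65536 : ℝ)) (α2 := (868797 / 65536 : ℝ)) (c := (379421 / 32768 : ℝ) + (107 / 256 : ℝ)) (y1 := (4485 / 131072 : ℝ)) (y2 := (1363 / 32768 : ℝ))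
    (A1 := (872205 / 65536 : ℝ)) (B1 := (44794899 / 268435456 : ℝ)) (A2 := (121518239 / 1048576 : ℝ)) (B2 := (152060377 / 67108864 : ℝ)) (l := (11893 / 262144 : ℝ)) (u := (14533 / 262144 : ℝ))
    (E := (-376462529 / 4194304 : ℝ)) (F := (-365549021 / 134217728 : ℝ)) (by norm_num) (by norm_num) (by norm_num) (by norm_num) (by norm_num)
    (by norm_num) (by norm_num) (by norm_num) (by norm_num) (by norm_num) (by norm_num) (by norm_num) (by norm_num) (by norm_num) (by norm_num)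
  have e1 : C11.l = (11893 / 262144 : ℝ) := rfl
  have e2 : C11.u = (14533 / 262144 : ℝ) := rfl
  have e3 : C11.a1 = -(872205 / 65536 : ℝ) := by norm_num [C11]
  have e4 : C11.a2 = -(121518239 / 1048576 : ℝ) := by norm_num [C11]
  have e5 : C11.e = (-376462529 / 4194304 : ℝ) := rfl
  have e6 : C11.f = (44794899 / 268435456 : ℝ) + (152060377 / 67108864 : ℝ) + (-365549021 / 134217728 : ℝ) := by norm_num [C11]
  rw [e1, e2, e3, e4, e5, e6]
  exact h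

lemma rcell12 : ∃ N : ℝ, Rw4 P.r2 N (coCell (87579 / 65536 : ℝ) (868797 / 65536 : ℝ) ((379421 / 32768 : ℝ) + (107 / 256 : ℝ)) (33 / 1024 : ℝ) C12) := by
  refine ⟨(805306368 : ℝ), ⟨Q15, List.mem_cons_of_mem _ (List.mem_cons_of_mem _ (List.mem_cons_of_mem _ (List.mem_cons_of_mem _ (List.mem_cons_of_mem _ (List.mem_cons_of_mem _ (List.mem_cons_of_mem _ (List.mem_cons_of_mem _ (List.mem_cons_of_mem _ (List.mem_cons_of_mem _ (List.mem_cons_of_mem _ (List.mem_cons_of_mem _ (List.mem_cons_of_mem _ (List.mem_cons_of_mem _ (List.mem_cons_of_mem _ (List.mem_cons_self))))))))))))))), ?_⟩, by norm_num⟩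
  constructor <;> norm_num [Q15, coCell, C12]

lemma lcell12 : ∀ x1 x2 xc : ℝ, 0 ≤ x1 → x1 ≤ 1 → 0 ≤ x2 → x2 ≤ 1 → C12.l ≤ xc → xc ≤ C12.u →
    (87579 / 65536 : ℝ) * (1 - (1 - x1) ^ 18) + (868797 / 65536 : ℝ) * (1 - (1 - x2) ^ 18) - ((379421 / 32768 : ℝ) + (107 / 256 : ℝ)) * (1 - (1 - xc) ^ 18)
      ≤ - C12.a1 * x1 - C12.a2 * x2 + C12.e * xc + C12.f := by
  have h := cell_lines 18 (α1 := (87579 / 65536 : ℝ)) (α2 := (868797 / 65536 : ℝ)) (c := (379421 / 32768 : ℝ) + (107 / 256 : ℝ)) (y1 := (10227 / 262144 : ℝ)) (y2 := (6267 / 131072 : ℝ))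
    (A1 := (51292147 / 4194304 : ℝ)) (B1 := (27699399 / 134217728 : ℝ)) (A2 := (435156809 / 4194304 : ℝ)) (B2 := (753741045 / 268435456 : ℝ)) (l := (14533 / 262144 : ℝ)) (u := (71 / 1024 : ℝ))
    (E := (-151863261 / 2097152 : ℝ)) (F := (-247293089 / 67108864 : ℝ)) (by norm_num) (by norm_num) (by norm_num) (by norm_num) (by norm_num)
    (by norm_num) (by norm_num) (by norm_num) (by norm_num) (by norm_num) (by norm_num) (by norm_num) (by norm_num) (by norm_num) (by norm_num)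
  have e1 : C12.l = (14533 / 262144 : ℝ) := rfl
  have e2 : C12.u = (71 / 1024 : ℝ) := rfl
  have e3 : C12.a1 = -(51292147 / 4194304 : ℝ) := by norm_num [C12]
  have e4 : C12.a2 = -(435156809 / 4194304 : ℝ) := by norm_num [C12]
  have e5 : C12.e = (-151863261 / 2097152 : ℝ) := rfl
  have e6 : C12.f = (27699399 / 134217728 : ℝ) + (753741045 / 268435456 : ℝ) + (-247293089 / 67108864 : ℝ) := by norm_num [C12]
  rw [e1, e2, e3, e4, e5, e6]
  exact h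

/-- The hypotheses at the origin. -/
lemma horig (lam : ℝ) (hd : (18 : ℝ) * lam ^ 2 = 1) (hb : |lam| ≤ (129578687999 / 549755813888 : ℝ)) :
    OriginH 18 lam (87579 / 65536 : ℝ) (868797 / 65536 : ℝ) (379421 / 32768 : ℝ) (107 / 256 : ℝ) (33 / 1024 : ℝ) (45 / 512 : ℝ) (4233 / 4096 : ℝ) (1 / 256 : ℝ) 3298534883328 := by
  refine originH_of_num (d := 18) (by push_cast; exact hd) hb (by norm_num) (by norm_num) (by norm_num) (by norm_num)
    (by norm_num) (by norm_num) (by norm_num) (by norm_num) (by norm_num) (by norm_num) (by norm_num [S]) (by norm_num) ?_ ?_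
  · rw [hch]
    norm_num [abs_of_pos, abs_of_neg]
  · norm_num [abs_of_pos, abs_of_neg]

/-- Nonreconstruction at the bound. -/
theorem main : Tendsto (reconError 3 18 (-(1 / Real.sqrt 18))) atTop (𝓝 0) := by
  have hsq : Real.sqrt ((18 : ℕ) : ℝ) ^ 2 = 18 := by
    rw [Real.sq_sqrt (by positivity)]; norm_num
  have hsq' : Real.sqrt (18 : ℝ) ^ 2 = 18 := by
    rw [Real.sq_sqrt (by positivity)]
  have hs0 : 0 < Real.sqrt (18 : ℝ) := Real.sqrt_pos.2 (by norm_num)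
  have hl2 : ((18 : ℝ)) * (-(1 / Real.sqrt 18)) ^ 2 = 1 := by
    have : (-(1 / Real.sqrt (18 : ℝ))) ^ 2 = 1 / 18 := by
      rw [neg_sq, div_pow, hsq']; norm_num
    rw [this]; norm_num
  have hb : |(-(1 / Real.sqrt (18 : ℝ)))| ≤ (129578687999 / 549755813888 : ℝ) := by
    rw [abs_neg, abs_of_pos (by positivity)]
    rw [div_le_iff₀ hs0]
    have h1 : (1 : ℝ) ^ 2 ≤ ((129578687999 / 549755813888 : ℝ) * Real.sqrt 18) ^ 2 := by
      rw [mul_pow, hsq']; norm_num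
    exact le_of_sq_le_sq h1 (by positivity)
  have hb2 : (-(1 / 2) : ℝ) < -(1 / Real.sqrt (18 : ℝ)) := by
    have h2 := (abs_le.1 hb).1
    have h3 : ((129578687999 / 549755813888 : ℝ) : ℝ) < 1 / 2 := by norm_num
    linarith
  have h1 : (-(1 / Real.sqrt (18 : ℝ))) < 1 := by
    have : 0 < 1 / Real.sqrt (18 : ℝ) := by positivity
    linarith
  have hlam : |(S : ℝ) * (-(1 / Real.sqrt (18 : ℝ))) - ((P.lp : ℝ) - P.ln)| ≤ ((1 : ℕ) : ℝ) := by
    have h := lam_enc 18 16984137793402060 (by norm_num) (by norm_num [S]) (by norm_num [S])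
    have e : ((18 : ℕ) : ℝ) = (18 : ℝ) := by norm_num
    rw [e] at h
    exact h
  obtain ⟨hOa, hON⟩ := horig _ hl2 hb
  refine final_of_box (d := 18) (by norm_num) hb2 h1 (box hlam) (87579 / 65536 : ℝ) (868797 / 65536 : ℝ) (379421 / 32768 : ℝ) (107 / 256 : ℝ) (45 / 512 : ℝ) (4233 / 4096 : ℝ) (5243 / 1048576 : ℝ) (12045 / 8192 : ℝ) (33 / 1024 : ℝ) (71 / 1024 : ℝ) cellsL
    (by norm_num) (by norm_num) (by norm_num) (by norm_num) (by norm_num) (by norm_num) (by norm_num) (by norm_num) (by norm_num)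
    (by norm_num) (by norm_num) (by norm_num) (by norm_num) (by norm_num) hOa hON rTa rTb rc1 rc2 rc3
    (forall_cons rcell0 (forall_cons rcell1 (forall_cons rcell2 (forall_cons rcell3 (forall_cons rcell4 (forall_cons rcell5 (forall_cons rcell6 (forall_cons rcell7 (forall_cons rcell8 (forall_cons rcell9 (forall_cons rcell10 (forall_cons rcell11 (forall_cons rcell12 (forall_nil)))))))))))))) hcover (forall_cons lcell0 (forall_cons lcell1 (forall_cons lcell2 (forall_cons lcell3 (forall_cons lcell4 (forall_cons lcell5 (forall_cons lcell6 (forall_cons lcell7 (forall_cons lcell8 (forall_cons lcell9 (forall_cons lcell10 (forall_cons lcell11 (forall_cons lcell12 (forall_nil))))))))))))))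

end Vale.Agent.P154H.Tm.D18
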