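import Vale.Agent.P154H.D.D19
import Vale.Agent.P154H.FinalD
import Vale.Agent.P154H.OriginW

open Filter Topology

set_option maxRecDepth 100000

/-!
Nonreconstruction at the Kesten-Stigum bound for `d = 19`, negative eigenvalue.
-/

namespace Vale.Agent.P154H.Tm.D19

open Vale.Agent.P154 Vale.Agent.P154H

/-- A chord cell. -/
noncomputable def C0 : Cell := ⟨(5243 / 1048576 : ℝ), (405 / 65536 : ℝ), (-49437977 / 2097152 : ℝ), (-965625665 / 4194304 : ℝ), (-864315261 / 4194304 : ℝ), (-705853 / 268435456 : ℝ)⟩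

/-- A chord cell. -/
noncomputable def C1 : Cell := ⟨(405 / 65536 : ℝ), (2003 / 262144 : ℝ), (-12133933 / 524288 : ℝ), (-945567689 / 4194304 : ℝ), (-210974417 / 1048576 : ℝ), (-277475 / 67108864 : ℝ)⟩

/-- A chord cell. -/
noncomputable def C2 : Cell := ⟨(2003 / 262144 : ℝ), (619 / 65536 : ℝ), (-94976001 / 4194304 : ℝ), (-460333035 / 2097152 : ℝ), (-819282203 / 4194304 : ℝ), (-1421629 / 268435456 : ℝ)⟩

/-- A chord cell. -/
noncomputable def C3 : Cell := ⟨(619 / 65536 : ℝ), (3061 / 262144 : ℝ), (-92929741 / 4194304 : ℝ), (-891181433 / 4194304 : ℝ), (-394899055 / 2097152 : ℝ), (-71403 / 8388608 : ℝ)⟩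

/-- A chord cell. -/
noncomputable def C4 : Cell := ⟨(3061 / 262144 : ℝ), (473 / 32768 : ℝ), (-44684787 / 2097152 : ℝ), (-214288875 / 1048576 : ℝ), (-377368299 / 2097152 : ℝ), (-3723691 / 268435456 : ℝ)⟩

/-- A chord cell. -/
noncomputable def C5 : Cell := ⟨(473 / 32768 : ℝ), (2339 / 131072 : ℝ), (-85914613 / 4194304 : ℝ), (-815736175 / 4194304 : ℝ), (-356715129 / 2097152 : ℝ), (-5320935 / 268435456 : ℝ)⟩

/-- A chord cell. -/
noncomputable def C6 : Cell := ⟨(2339 / 131072 : ℝ), (5783 / 262144 : ℝ), (-81727601 / 4194304 : ℝ), (-767743805 / 4194304 : ℝ), (-665325073 / 4194304 : ℝ), (-3933679 / 134217728 : ℝ)⟩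

/-- A chord cell. -/
noncomputable def C7 : Cell := ⟨(5783 / 262144 : ℝ), (1787 / 65536 : ℝ), (-19261721 / 1048576 : ℝ), (-714112929 / 4194304 : ℝ), (-152531799 / 1048576 : ℝ), (-13920787 / 268435456 : ℝ)⟩

/-- A chord cell. -/
noncomputable def C8 : Cell := ⟨(1787 / 65536 : ℝ), (8837 / 262144 : ℝ), (-17915867 / 1048576 : ℝ), (-81462293 / 524288 : ℝ), (-68484063 / 524288 : ℝ), (-20015789 / 268435456 : ℝ)⟩

/-- A chord cell. -/
noncomputable def C9 : Cell := ⟨(8837 / 262144 : ℝ), (2731 / 65536 : ℝ), (-65085439 / 4194304 : ℝ), (-146730221 / 1048576 : ℝ), (-479209271 / 4194304 : ℝ), (-18306337 / 134217728 : ℝ)⟩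

/-- A chord cell. -/
noncomputable def C10 : Cell := ⟨(2731 / 65536 : ℝ), (211 / 4096 : ℝ), (-59442143 / 4194304 : ℝ), (-64910519 / 524288 : ℝ), (-405590389 / 4194304 : ℝ), (-69337993 / 268435456 : ℝ)⟩

/-- A chord cell. -/
noncomputable def C11 : Cell := ⟨(211 / 4096 : ℝ), (67 / 1024 : ℝ), (-3381553 / 262144 : ℝ), (-230835975 / 2097152 : ℝ), (-324112013 / 4194304 : ℝ), (-86122637 / 134217728 : ℝ)⟩

/-- The chord cells. -/
noncomputable def cellsL : List Cell := [C0, C1, C2, C3, C4, C5, C6, C7, C8, C9, C10, C11]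

lemma hcover : ∀ x : ℝ, (5243 / 1048576 : ℝ) ≤ x → x ≤ (67 / 1024 : ℝ) → ∃ D ∈ cellsL, D.l ≤ x ∧ x ≤ D.u := by
  refine cover_of_chain ?_ (by norm_num [C0])
  simp only [ChainP, C0, C1, C2, C3, C4, C5, C6, C7, C8, C9, C10, C11]
  norm_num

lemma hch : ((Nat.choose 19 2 : ℕ) : ℝ) = 171 := by norm_num [Nat.choose]

lemma rTa : Rw4 P.r1 (1179648 : ℝ) (coTa 19 (87579 / 65536 : ℝ) (868797 / 65536 : ℝ) (379421 / 32768 : ℝ) (107 / 256 : ℝ) (125 / 4096 : ℝ)) := by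
  refine ⟨⟨Ra, List.mem_cons_self, ?_⟩, by norm_num⟩
  constructor <;> norm_num [Ra, coTa, hch]

lemma rTb : Rw4 P.r1 (19791209299968 : ℝ) (coTb 19 (87579 / 65536 : ℝ) (868797 / 65536 : ℝ) (379421 / 32768 : ℝ) (107 / 256 : ℝ) (125 / 4096 : ℝ) (45 / 512 : ℝ) (4233 / 4096 : ℝ) (13429 / 8192 : ℝ)) := by
  refine ⟨⟨Rb, List.mem_cons_of_mem _ (List.mem_cons_self), ?_⟩, by norm_num⟩
  constructor <;> norm_num [Rb, coTb, hch]

lemma rc1 : Rw4 P.r2 (16777216 : ℝ) ⟨0, 0, 0, -(87579 / 65536 : ℝ), 0, 0, 0, 0, (379421 / 32768 : ℝ) * (45 / 512 : ℝ)⟩ := by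
  refine ⟨⟨Q0, List.mem_cons_self, ?_⟩, by norm_num⟩
  constructor <;> norm_num [Q0]

lemma rc2 : Rw4 P.r2 (134217728 : ℝ) ⟨0, 0, 0, 0, -(868797 / 65536 : ℝ), 0, 0, 0, (379421 / 32768 : ℝ) * (4233 / 4096 : ℝ)⟩ := by
  refine ⟨⟨Q1, List.mem_cons_of_mem _ (List.mem_cons_self), ?_⟩, by norm_num⟩
  constructor <;> norm_num [Q1]

lemma rc3 : Rw4 P.r2 (3072 : ℝ) ⟨0, 0, 0, 0, 0, -1, 0, 0, (67 / 1024 : ℝ)⟩ := by
  refine ⟨⟨Q2, List.mem_cons_of_mem _ (List.mem_cons_of_mem _ (List.mem_cons_self)), ?_⟩, by norm_num⟩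
  constructor <;> norm_num [Q2]

lemma rcell0 : ∃ N : ℝ, Rw4 P.r2 N (coCell (87579 / 65536 : ℝ) (868797 / 65536 : ℝ) ((379421 / 32768 : ℝ) + (107 / 256 : ℝ)) (125 / 4096 : ℝ) C0) := by
  refine ⟨(2415919104 : ℝ), ⟨Q3, List.mem_cons_of_mem _ (List.mem_cons_of_mem _ (List.mem_cons_of_mem _ (List.mem_cons_self))), ?_⟩, by norm_num⟩
  constructor <;> norm_num [Q3, coCell, C0]

lemma lcell0 : ∀ x1 x2 xc : ℝ, 0 ≤ x1 → x1 ≤ 1 → 0 ≤ x2 → x2 ≤ 1 → C0.l ≤ xc → xc ≤ C0.u →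
    (87579 / 65536 : ℝ) * (1 - (1 - x1) ^ 19) + (868797 / 65536 : ℝ) * (1 - (1 - x2) ^ 19) - ((379421 / 32768 : ℝ) + (107 / 256 : ℝ)) * (1 - (1 - xc) ^ 19)
      ≤ - C0.a1 * x1 - C0.a2 * x2 + C0.e * xc + C0.f := by
  have h := cell_lines 19 (α1 := (87579 / 65536 : ℝ)) (α2 := (868797 / 65536 : ℝ)) (c := (379421 / 32768 : ℝ) + (107 / 256 : ℝ)) (y1 := (1079 / 262144 : ℝ)) (y2 := (653 / 131072 : ℝ))
    (A1 := (49437977 / 2097152 : ℝ)) (B1 := (123997 / 33554432 : ℝ)) (A2 := (965625665 / 4194304 : ℝ)) (B2 := (3568961 / 67108864 : ℝ)) (l := (5243 / 1048576 : ℝ)) (u := (405 / 65536 : ℝ))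
    (E := (-864315261 / 4194304 : ℝ)) (F := (-15973673 / 268435456 : ℝ)) (by norm_num) (by norm_num) (by norm_num) (by norm_num) (by norm_num)
    (by norm_num) (by norm_num) (by norm_num) (by norm_num) (by norm_num) (by norm_num) (by norm_num) (by norm_num) (by norm_num) (by norm_num)
  have e1 : C0.l = (5243 / 1048576 : ℝ) := rfl
  have e2 : C0.u = (405 / 65536 : ℝ) := rfl
  have e3 : C0.a1 = -(49437977 / 2097152 : ℝ) := by norm_num [C0]
  have e4 : C0.a2 = -(965625665 / 4194304 : ℝ) := by norm_num [C0]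
  have e5 : C0.e = (-864315261 / 4194304 : ℝ) := rfl
  have e6 : C0.f = (123997 / 33554432 : ℝ) + (3568961 / 67108864 : ℝ) + (-15973673 / 268435456 : ℝ) := by norm_num [C0]
  rw [e1, e2, e3, e4, e5, e6]
  exact h

lemma rcell1 : ∃ N : ℝ, Rw4 P.r2 N (coCell (87579 / 65536 : ℝ) (868797 / 65536 : ℝ) ((379421 / 32768 : ℝ) + (107 / 256 : ℝ)) (125 / 4096 : ℝ) C1) := by
  refine ⟨(603979776 : ℝ), ⟨Q4, List.mem_cons_of_mem _ (List.mem_cons_of_mem _ (List.mem_cons_of_mem _ (List.mem_cons_of_mem _ (List.mem_cons_self)))), ?_⟩, by norm_num⟩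
  constructor <;> norm_num [Q4, coCell, C1]

lemma lcell1 : ∀ x1 x2 xc : ℝ, 0 ≤ x1 → x1 ≤ 1 → 0 ≤ x2 → x2 ≤ 1 → C1.l ≤ xc → xc ≤ C1.u →
    (87579 / 65536 : ℝ) * (1 - (1 - x1) ^ 19) + (868797 / 65536 : ℝ) * (1 - (1 - x2) ^ 19) - ((379421 / 32768 : ℝ) + (107 / 256 : ℝ)) * (1 - (1 - xc) ^ 19)
      ≤ - C1.a1 * x1 - C1.a2 * x2 + C1.e * xc + C1.f := by
  have h := cell_lines 19 (α1 := (87579 / 65536 : ℝ)) (α2 := (868797 / 65536 : ℝ)) (c := (379421 / 32768 : ℝ) + (107 / 256 : ℝ)) (y1 := (673 / 131072 : ℝ)) (y2 := (805 / 131072 : ℝ))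
    (A1 := (12133933 / 524288 : ℝ)) (B1 := (1525949 / 268435456 : ℝ)) (A2 := (945567689 / 4194304 : ℝ)) (B2 := (21413141 / 268435456 : ℝ)) (l := (405 / 65536 : ℝ)) (u := (2003 / 262144 : ℝ))
    (E := (-210974417 / 1048576 : ℝ)) (F := (-12024495 / 134217728 : ℝ)) (by norm_num) (by norm_num) (by norm_num) (by norm_num) (by norm_num)
    (by norm_num) (by norm_num) (by norm_num) (by norm_num) (by norm_num) (by norm_num) (by norm_num) (by norm_num) (by norm_num) (by norm_num)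
  have e1 : C1.l = (405 / 65536 : ℝ) := rfl
  have e2 : C1.u = (2003 / 262144 : ℝ) := rfl
  have e3 : C1.a1 = -(12133933 / 524288 : ℝ) := by norm_num [C1]
  have e4 : C1.a2 = -(945567689 / 4194304 : ℝ) := by norm_num [C1]
  have e5 : C1.e = (-210974417 / 1048576 : ℝ) := rfl
  have e6 : C1.f = (1525949 / 268435456 : ℝ) + (21413141 / 268435456 : ℝ) + (-12024495 / 134217728 : ℝ) := by norm_num [C1]
  rw [e1, e2, e3, e4, e5, e6]
  exact h

lemma rcell2 : ∃ N : ℝ, Rw4 P.r2 N (coCell (87579 / 65536 : ℝ) (868797 / 65536 : ℝ) ((379421 / 32768 : ℝ) + (107 / 256 : ℝ)) (125 / 4096 : ℝ) C2) := by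
  refine ⟨(2415919104 : ℝ), ⟨Q5, List.mem_cons_of_mem _ (List.mem_cons_of_mem _ (List.mem_cons_of_mem _ (List.mem_cons_of_mem _ (List.mem_cons_of_mem _ (List.mem_cons_self))))), ?_⟩, by norm_num⟩
  constructor <;> norm_num [Q5, coCell, C2]

lemma lcell2 : ∀ x1 x2 xc : ℝ, 0 ≤ x1 → x1 ≤ 1 → 0 ≤ x2 → x2 ≤ 1 → C2.l ≤ xc → xc ≤ C2.u →
    (87579 / 65536 : ℝ) * (1 - (1 - x1) ^ 19) + (868797 / 65536 : ℝ) * (1 - (1 - x2) ^ 19) - ((379421 / 32768 : ℝ) + (107 / 256 : ℝ)) * (1 - (1 - xc) ^ 19)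
      ≤ - C2.a1 * x1 - C2.a2 * x2 + C2.e * xc + C2.f := by
  have h := cell_lines 19 (α1 := (87579 / 65536 : ℝ)) (α2 := (868797 / 65536 : ℝ)) (c := (379421 / 32768 : ℝ) + (107 / 256 : ℝ)) (y1 := (831 / 131072 : ℝ)) (y2 := (499 / 65536 : ℝ))
    (A1 := (94976001 / 4194304 : ℝ)) (B1 := (1147561 / 134217728 : ℝ)) (A2 := (460333035 / 2097152 : ℝ)) (B2 := (16184769 / 134217728 : ℝ)) (l := (2003 / 262144 : ℝ)) (u := (619 / 65536 : ℝ))
    (E := (-819282203 / 4194304 : ℝ)) (F := (-36086289 / 268435456 : ℝ)) (by norm_num) (by norm_num) (by norm_num) (by norm_num) (by norm_num)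
    (by norm_num) (by norm_num) (by norm_num) (by norm_num) (by norm_num) (by norm_num) (by norm_num) (by norm_num) (by norm_num) (by norm_num)
  have e1 : C2.l = (2003 / 262144 : ℝ) := rfl
  have e2 : C2.u = (619 / 65536 : ℝ) := rfl
  have e3 : C2.a1 = -(94976001 / 4194304 : ℝ) := by norm_num [C2]
  have e4 : C2.a2 = -(460333035 / 2097152 : ℝ) := by norm_num [C2]
  have e5 : C2.e = (-819282203 / 4194304 : ℝ) := rfl
  have e6 : C2.f = (1147561 / 134217728 : ℝ) + (16184769 / 134217728 : ℝ) + (-36086289 / 268435456 : ℝ) := by norm_num [C2]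
  rw [e1, e2, e3, e4, e5, e6]
  exact h

lemma rcell3 : ∃ N : ℝ, Rw4 P.r2 N (coCell (87579 / 65536 : ℝ) (868797 / 65536 : ℝ) ((379421 / 32768 : ℝ) + (107 / 256 : ℝ)) (125 / 4096 : ℝ) C3) := by
  refine ⟨(75497472 : ℝ), ⟨Q6, List.mem_cons_of_mem _ (List.mem_cons_of_mem _ (List.mem_cons_of_mem _ (List.mem_cons_of_mem _ (List.mem_cons_of_mem _ (List.mem_cons_of_mem _ (List.mem_cons_self)))))), ?_⟩, by norm_num⟩
  constructor <;> norm_num [Q6, coCell, C3]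

lemma lcell3 : ∀ x1 x2 xc : ℝ, 0 ≤ x1 → x1 ≤ 1 → 0 ≤ x2 → x2 ≤ 1 → C3.l ≤ xc → xc ≤ C3.u →
    (87579 / 65536 : ℝ) * (1 - (1 - x1) ^ 19) + (868797 / 65536 : ℝ) * (1 - (1 - x2) ^ 19) - ((379421 / 32768 : ℝ) + (107 / 256 : ℝ)) * (1 - (1 - xc) ^ 19)
      ≤ - C3.a1 * x1 - C3.a2 * x2 + C3.e * xc + C3.f := by
  have h := cell_lines 19 (α1 := (87579 / 65536 : ℝ)) (α2 := (868797 / 65536 : ℝ)) (c := (379421 / 32768 : ℝ) + (107 / 256 : ℝ)) (y1 := (1977 / 262144 : ℝ)) (y2 := (1233 / 131072 : ℝ))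
    (A1 := (92929741 / 4194304 : ℝ)) (B1 := (400475 / 33554432 : ℝ)) (A2 := (891181433 / 4194304 : ℝ)) (B2 := (48420497 / 268435456 : ℝ)) (l := (619 / 65536 : ℝ)) (u := (3061 / 262144 : ℝ))
    (E := (-394899055 / 2097152 : ℝ)) (F := (-53909193 / 268435456 : ℝ)) (by norm_num) (by norm_num) (by norm_num) (by norm_num) (by norm_num)
    (by norm_num) (by norm_num) (by norm_num) (by norm_num) (by norm_num) (by norm_num) (by norm_num) (by norm_num) (by norm_num) (by norm_num)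
  have e1 : C3.l = (619 / 65536 : ℝ) := rfl
  have e2 : C3.u = (3061 / 262144 : ℝ) := rfl
  have e3 : C3.a1 = -(92929741 / 4194304 : ℝ) := by norm_num [C3]
  have e4 : C3.a2 = -(891181433 / 4194304 : ℝ) := by norm_num [C3]
  have e5 : C3.e = (-394899055 / 2097152 : ℝ) := rfl
  have e6 : C3.f = (400475 / 33554432 : ℝ) + (48420497 / 268435456 : ℝ) + (-53909193 / 268435456 : ℝ) := by norm_num [C3]
  rw [e1, e2, e3, e4, e5, e6]
  exact h

lemma rcell4 : ∃ N : ℝ, Rw4 P.r2 N (coCell (87579 / 65536 : ℝ) (868797 / 65536 : ℝ) ((379421 / 32768 : ℝ) + (107 / 256 : ℝ)) (125 / 4096 : ℝ) C4) := by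
  refine ⟨(2415919104 : ℝ), ⟨Q7, List.mem_cons_of_mem _ (List.mem_cons_of_mem _ (List.mem_cons_of_mem _ (List.mem_cons_of_mem _ (List.mem_cons_of_mem _ (List.mem_cons_of_mem _ (List.mem_cons_of_mem _ (List.mem_cons_self))))))), ?_⟩, by norm_num⟩
  constructor <;> norm_num [Q7, coCell, C4]

lemma lcell4 : ∀ x1 x2 xc : ℝ, 0 ≤ x1 → x1 ≤ 1 → 0 ≤ x2 → x2 ≤ 1 → C4.l ≤ xc → xc ≤ C4.u →
    (87579 / 65536 : ℝ) * (1 - (1 - x1) ^ 19) + (868797 / 65536 : ℝ) * (1 - (1 - x2) ^ 19) - ((379421 / 32768 : ℝ) + (107 / 256 : ℝ)) * (1 - (1 - xc) ^ 19)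
      ≤ - C4.a1 * x1 - C4.a2 * x2 + C4.e * xc + C4.f := by
  have h := cell_lines 19 (α1 := (87579 / 65536 : ℝ)) (α2 := (868797 / 65536 : ℝ)) (c := (379421 / 32768 : ℝ) + (107 / 256 : ℝ)) (y1 := (2541 / 262144 : ℝ)) (y2 := (3027 / 262144 : ℝ))
    (A1 := (44684787 / 2097152 : ℝ)) (B1 := (2582887 / 134217728 : ℝ)) (A2 := (214288875 / 1048576 : ℝ)) (B2 := (71221703 / 268435456 : ℝ)) (l := (3061 / 262144 : ℝ)) (u := (473 / 32768 : ℝ))
    (E := (-377368299 / 2097152 : ℝ)) (F := (-1251737 / 4194304 : ℝ)) (by norm_num) (by norm_num) (by norm_num) (by norm_num) (by norm_num)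
    (by norm_num) (by norm_num) (by norm_num) (by norm_num) (by norm_num) (by norm_num) (by norm_num) (by norm_num) (by norm_num) (by norm_num)
  have e1 : C4.l = (3061 / 262144 : ℝ) := rfl
  have e2 : C4.u = (473 / 32768 : ℝ) := rfl
  have e3 : C4.a1 = -(44684787 / 2097152 : ℝ) := by norm_num [C4]
  have e4 : C4.a2 = -(214288875 / 1048576 : ℝ) := by norm_num [C4]
  have e5 : C4.e = (-377368299 / 2097152 : ℝ) := rfl
  have e6 : C4.f = (2582887 / 134217728 : ℝ) + (71221703 / 268435456 : ℝ) + (-1251737 / 4194304 : ℝ) := by norm_num [C4]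
  rw [e1, e2, e3, e4, e5, e6]
  exact h

lemma rcell5 : ∃ N : ℝ, Rw4 P.r2 N (coCell (87579 / 65536 : ℝ) (868797 / 65536 : ℝ) ((379421 / 32768 : ℝ) + (107 / 256 : ℝ)) (125 / 4096 : ℝ) C5) := by
  refine ⟨(2415919104 : ℝ), ⟨Q8, List.mem_cons_of_mem _ (List.mem_cons_of_mem _ (List.mem_cons_of_mem _ (List.mem_cons_of_mem _ (List.mem_cons_of_mem _ (List.mem_cons_of_mem _ (List.mem_cons_of_mem _ (List.mem_cons_of_mem _ (List.mem_cons_self)))))))), ?_⟩, by norm_num⟩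
  constructor <;> norm_num [Q8, coCell, C5]

lemma lcell5 : ∀ x1 x2 xc : ℝ, 0 ≤ x1 → x1 ≤ 1 → 0 ≤ x2 → x2 ≤ 1 → C5.l ≤ xc → xc ≤ C5.u →
    (87579 / 65536 : ℝ) * (1 - (1 - x1) ^ 19) + (868797 / 65536 : ℝ) * (1 - (1 - x2) ^ 19) - ((379421 / 32768 : ℝ) + (107 / 256 : ℝ)) * (1 - (1 - xc) ^ 19)
      ≤ - C5.a1 * x1 - C5.a2 * x2 + C5.e * xc + C5.f := by
  have h := cell_lines 19 (α1 := (87579 / 65536 : ℝ)) (α2 := (868797 / 65536 : ℝ)) (c := (379421 / 32768 : ℝ) + (107 / 256 : ℝ)) (y1 := (3109 / 262144 : ℝ)) (y2 := (3739 / 262144 : ℝ))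
    (A1 := (85914613 / 4194304 : ℝ)) (B1 := (1886791 / 67108864 : ℝ)) (A2 := (815736175 / 4194304 : ℝ)) (B2 := (26350757 / 67108864 : ℝ)) (l := (473 / 32768 : ℝ)) (u := (2339 / 131072 : ℝ))
    (E := (-356715129 / 2097152 : ℝ)) (F := (-118271127 / 268435456 : ℝ)) (by norm_num) (by norm_num) (by norm_num) (by norm_num) (by norm_num)
    (by norm_num) (by norm_num) (by norm_num) (by norm_num) (by norm_num) (by norm_num) (by norm_num) (by norm_num) (by norm_num) (by norm_num)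
  have e1 : C5.l = (473 / 32768 : ℝ) := rfl
  have e2 : C5.u = (2339 / 131072 : ℝ) := rfl
  have e3 : C5.a1 = -(85914613 / 4194304 : ℝ) := by norm_num [C5]
  have e4 : C5.a2 = -(815736175 / 4194304 : ℝ) := by norm_num [C5]
  have e5 : C5.e = (-356715129 / 2097152 : ℝ) := rfl
  have e6 : C5.f = (1886791 / 67108864 : ℝ) + (26350757 / 67108864 : ℝ) + (-118271127 / 268435456 : ℝ) := by norm_num [C5]
  rw [e1, e2, e3, e4, e5, e6]
  exact h

lemma rcell6 : ∃ N : ℝ, Rw4 P.r2 N (coCell (87579 / 65536 : ℝ) (868797 / 65536 : ℝ) ((379421 / 32768 : ℝ) + (107 / 256 : ℝ)) (125 / 4096 : ℝ) C6) := by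
  refine ⟨(1207959552 : ℝ), ⟨Q9, List.mem_cons_of_mem _ (List.mem_cons_of_mem _ (List.mem_cons_of_mem _ (List.mem_cons_of_mem _ (List.mem_cons_of_mem _ (List.mem_cons_of_mem _ (List.mem_cons_of_mem _ (List.mem_cons_of_mem _ (List.mem_cons_of_mem _ (List.mem_cons_self))))))))), ?_⟩, by norm_num⟩
  constructor <;> norm_num [Q9, coCell, C6]

lemma lcell6 : ∀ x1 x2 xc : ℝ, 0 ≤ x1 → x1 ≤ 1 → 0 ≤ x2 → x2 ≤ 1 → C6.l ≤ xc → xc ≤ C6.u →
    (87579 / 65536 : ℝ) * (1 - (1 - x1) ^ 19) + (868797 / 65536 : ℝ) * (1 - (1 - x2) ^ 19) - ((379421 / 32768 : ℝ) + (107 / 256 : ℝ)) * (1 - (1 - xc) ^ 19)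
      ≤ - C6.a1 * x1 - C6.a2 * x2 + C6.e * xc + C6.f := by
  have h := cell_lines 19 (α1 := (87579 / 65536 : ℝ)) (α2 := (868797 / 65536 : ℝ)) (c := (379421 / 32768 : ℝ) + (107 / 256 : ℝ)) (y1 := (3827 / 262144 : ℝ)) (y2 := (9 / 512 : ℝ))
    (A1 := (81727601 / 4194304 : ℝ)) (B1 := (5544669 / 134217728 : ℝ)) (A2 := (767743805 / 4194304 : ℝ)) (B2 := (77127437 / 134217728 : ℝ)) (l := (2339 / 131072 : ℝ)) (u := (5783 / 262144 : ℝ))
    (E := (-665325073 / 4194304 : ℝ)) (F := (-86605785 / 134217728 : ℝ)) (by norm_num) (by norm_num) (by norm_num) (by norm_num) (by norm_num)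
    (by norm_num) (by norm_num) (by norm_num) (by norm_num) (by norm_num) (by norm_num) (by norm_num) (by norm_num) (by norm_num) (by norm_num)
  have e1 : C6.l = (2339 / 131072 : ℝ) := rfl
  have e2 : C6.u = (5783 / 262144 : ℝ) := rfl
  have e3 : C6.a1 = -(81727601 / 4194304 : ℝ) := by norm_num [C6]
  have e4 : C6.a2 = -(767743805 / 4194304 : ℝ) := by norm_num [C6]
  have e5 : C6.e = (-665325073 / 4194304 : ℝ) := rfl
  have e6 : C6.f = (5544669 / 134217728 : ℝ) + (77127437 / 134217728 : ℝ) + (-86605785 / 134217728 : ℝ) := by norm_num [C6]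
  rw [e1, e2, e3, e4, e5, e6]
  exact h

lemma rcell7 : ∃ N : ℝ, Rw4 P.r2 N (coCell (87579 / 65536 : ℝ) (868797 / 65536 : ℝ) ((379421 / 32768 : ℝ) + (107 / 256 : ℝ)) (125 / 4096 : ℝ) C7) := by
  refine ⟨(2415919104 : ℝ), ⟨Q10, List.mem_cons_of_mem _ (List.mem_cons_of_mem _ (List.mem_cons_of_mem _ (List.mem_cons_of_mem _ (List.mem_cons_of_mem _ (List.mem_cons_of_mem _ (List.mem_cons_of_mem _ (List.mem_cons_of_mem _ (List.mem_cons_of_mem _ (List.mem_cons_of_mem _ (List.mem_cons_self)))))))))), ?_⟩, by norm_num⟩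
  constructor <;> norm_num [Q10, coCell, C7]

lemma lcell7 : ∀ x1 x2 xc : ℝ, 0 ≤ x1 → x1 ≤ 1 → 0 ≤ x2 → x2 ≤ 1 → C7.l ≤ xc → xc ≤ C7.u →
    (87579 / 65536 : ℝ) * (1 - (1 - x1) ^ 19) + (868797 / 65536 : ℝ) * (1 - (1 - x2) ^ 19) - ((379421 / 32768 : ℝ) + (107 / 256 : ℝ)) * (1 - (1 - xc) ^ 19)
      ≤ - C7.a1 * x1 - C7.a2 * x2 + C7.e * xc + C7.f := by
  have h := cell_lines 19 (α1 := (87579 / 65536 : ℝ)) (α2 := (868797 / 65536 : ℝ)) (c := (379421 / 32768 : ℝ) + (107 / 256 : ℝ)) (y1 := (73 / 4096 : ℝ)) (y2 := (2821 / 131072 : ℝ))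
    (A1 := (19261721 / 1048576 : ℝ)) (B1 := (15940989 / 268435456 : ℝ)) (A2 := (714112929 / 4194304 : ℝ)) (B2 := (110640879 / 134217728 : ℝ)) (l := (5783 / 262144 : ℝ)) (u := (1787 / 65536 : ℝ))
    (E := (-152531799 / 1048576 : ℝ)) (F := (-125571767 / 134217728 : ℝ)) (by norm_num) (by norm_num) (by norm_num) (by norm_num) (by norm_num)
    (by norm_num) (by norm_num) (by norm_num) (by norm_num) (by norm_num) (by norm_num) (by norm_num) (by norm_num) (by norm_num) (by norm_num)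
  have e1 : C7.l = (5783 / 262144 : ℝ) := rfl
  have e2 : C7.u = (1787 / 65536 : ℝ) := rfl
  have e3 : C7.a1 = -(19261721 / 1048576 : ℝ) := by norm_num [C7]
  have e4 : C7.a2 = -(714112929 / 4194304 : ℝ) := by norm_num [C7]
  have e5 : C7.e = (-152531799 / 1048576 : ℝ) := rfl
  have e6 : C7.f = (15940989 / 268435456 : ℝ) + (110640879 / 134217728 : ℝ) + (-125571767 / 134217728 : ℝ) := by norm_num [C7]
  rw [e1, e2, e3, e4, e5, e6]
  exact h

lemma rcell8 : ∃ N : ℝ, Rw4 P.r2 N (coCell (87579 / 65536 : ℝ) (868797 / 65536 : ℝ) ((379421 / 32768 : ℝ) + (107 / 256 : ℝ)) (125 / 4096 : ℝ) C8) := by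
  refine ⟨(2415919104 : ℝ), ⟨Q11, List.mem_cons_of_mem _ (List.mem_cons_of_mem _ (List.mem_cons_of_mem _ (List.mem_cons_of_mem _ (List.mem_cons_of_mem _ (List.mem_cons_of_mem _ (List.mem_cons_of_mem _ (List.mem_cons_of_mem _ (List.mem_cons_of_mem _ (List.mem_cons_of_mem _ (List.mem_cons_of_mem _ (List.mem_cons_self))))))))))), ?_⟩, by norm_num⟩
  constructor <;> norm_num [Q11, coCell, C8]

lemma lcell8 : ∀ x1 x2 xc : ℝ, 0 ≤ x1 → x1 ≤ 1 → 0 ≤ x2 → x2 ≤ 1 → C8.l ≤ xc → xc ≤ C8.u →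
    (87579 / 65536 : ℝ) * (1 - (1 - x1) ^ 19) + (868797 / 65536 : ℝ) * (1 - (1 - x2) ^ 19) - ((379421 / 32768 : ℝ) + (107 / 256 : ℝ)) * (1 - (1 - xc) ^ 19)
      ≤ - C8.a1 * x1 - C8.a2 * x2 + C8.e * xc + C8.f := by
  have h := cell_lines 19 (α1 := (87579 / 65536 : ℝ)) (α2 := (868797 / 65536 : ℝ)) (c := (379421 / 32768 : ℝ) + (107 / 256 : ℝ)) (y1 := (2853 / 131072 : ℝ)) (y2 := (3471 / 131072 : ℝ))
    (A1 := (17915867 / 1048576 : ℝ)) (B1 := (22753199 / 268435456 : ℝ)) (A2 := (81462293 / 524288 : ℝ)) (B2 := (317016279 / 268435456 : ℝ)) (l := (1787 / 65536 : ℝ)) (u := (8837 / 262144 : ℝ))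
    (E := (-68484063 / 524288 : ℝ)) (F := (-359785267 / 268435456 : ℝ)) (by norm_num) (by norm_num) (by norm_num) (by norm_num) (by norm_num)
    (by norm_num) (by norm_num) (by norm_num) (by norm_num) (by norm_num) (by norm_num) (by norm_num) (by norm_num) (by norm_num) (by norm_num)
  have e1 : C8.l = (1787 / 65536 : ℝ) := rfl
  have e2 : C8.u = (8837 / 262144 : ℝ) := rfl
  have e3 : C8.a1 = -(17915867 / 1048576 : ℝ) := by norm_num [C8]
  have e4 : C8.a2 = -(81462293 / 524288 : ℝ) := by norm_num [C8]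
  have e5 : C8.e = (-68484063 / 524288 : ℝ) := rfl
  have e6 : C8.f = (22753199 / 268435456 : ℝ) + (317016279 / 268435456 : ℝ) + (-359785267 / 268435456 : ℝ) := by norm_num [C8]
  rw [e1, e2, e3, e4, e5, e6]
  exact h

lemma rcell9 : ∃ N : ℝ, Rw4 P.r2 N (coCell (87579 / 65536 : ℝ) (868797 / 65536 : ℝ) ((379421 / 32768 : ℝ) + (107 / 256 : ℝ)) (125 / 4096 : ℝ) C9) := by
  refine ⟨(1207959552 : ℝ), ⟨Q12, List.mem_cons_of_mem _ (List.mem_cons_of_mem _ (List.mem_cons_of_mem _ (List.mem_cons_of_mem _ (List.mem_cons_of_mem _ (List.mem_cons_of_mem _ (List.mem_cons_of_mem _ (List.mem_cons_of_mem _ (List.mem_cons_of_mem _ (List.mem_cons_of_mem _ (List.mem_cons_of_mem _ (List.mem_cons_of_mem _ (List.mem_cons_self)))))))))))), ?_⟩, by norm_num⟩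
  constructor <;> norm_num [Q12, coCell, C9]

lemma lcell9 : ∀ x1 x2 xc : ℝ, 0 ≤ x1 → x1 ≤ 1 → 0 ≤ x2 → x2 ≤ 1 → C9.l ≤ xc → xc ≤ C9.u →
    (87579 / 65536 : ℝ) * (1 - (1 - x1) ^ 19) + (868797 / 65536 : ℝ) * (1 - (1 - x2) ^ 19) - ((379421 / 32768 : ℝ) + (107 / 256 : ℝ)) * (1 - (1 - xc) ^ 19)
      ≤ - C9.a1 * x1 - C9.a2 * x2 + C9.e * xc + C9.f := by
  have h := cell_lines 19 (α1 := (87579 / 65536 : ℝ)) (α2 := (868797 / 65536 : ℝ)) (c := (379421 / 32768 : ℝ) + (107 / 256 : ℝ)) (y1 := (3537 / 131072 : ℝ)) (y2 := (4211 / 131072 : ℝ))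
    (A1 := (65085439 / 4194304 : ℝ)) (B1 := (32998681 / 268435456 : ℝ)) (A2 := (146730221 / 1048576 : ℝ)) (B2 := (438312825 / 268435456 : ℝ)) (l := (8837 / 262144 : ℝ)) (u := (2731 / 65536 : ℝ))
    (E := (-479209271 / 4194304 : ℝ)) (F := (-126981045 / 67108864 : ℝ)) (by norm_num) (by norm_num) (by norm_num) (by norm_num) (by norm_num)
    (by norm_num) (by norm_num) (by norm_num) (by norm_num) (by norm_num) (by norm_num) (by norm_num) (by norm_num) (by norm_num) (by norm_num)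
  have e1 : C9.l = (8837 / 262144 : ℝ) := rfl
  have e2 : C9.u = (2731 / 65536 : ℝ) := rfl
  have e3 : C9.a1 = -(65085439 / 4194304 : ℝ) := by norm_num [C9]
  have e4 : C9.a2 = -(146730221 / 1048576 : ℝ) := by norm_num [C9]
  have e5 : C9.e = (-479209271 / 4194304 : ℝ) := rfl
  have e6 : C9.f = (32998681 / 268435456 : ℝ) + (438312825 / 268435456 : ℝ) + (-126981045 / 67108864 : ℝ) := by norm_num [C9]
  rw [e1, e2, e3, e4, e5, e6]
  exact h

lemma rcell10 : ∃ N : ℝ, Rw4 P.r2 N (coCell (87579 / 65536 : ℝ) (868797 / 65536 : ℝ) ((379421 / 32768 : ℝ) + (107 / 256 : ℝ)) (125 / 4096 : ℝ) C10) := by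
  refine ⟨(2415919104 : ℝ), ⟨Q13, List.mem_cons_of_mem _ (List.mem_cons_of_mem _ (List.mem_cons_of_mem _ (List.mem_cons_of_mem _ (List.mem_cons_of_mem _ (List.mem_cons_of_mem _ (List.mem_cons_of_mem _ (List.mem_cons_of_mem _ (List.mem_cons_of_mem _ (List.mem_cons_of_mem _ (List.mem_cons_of_mem _ (List.mem_cons_of_mem _ (List.mem_cons_of_mem _ (List.mem_cons_self))))))))))))), ?_⟩, by norm_num⟩
  constructor <;> norm_num [Q13, coCell, C10]

lemma lcell10 : ∀ x1 x2 xc : ℝ, 0 ≤ x1 → x1 ≤ 1 → 0 ≤ x2 → x2 ≤ 1 → C10.l ≤ xc → xc ≤ C10.u →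
    (87579 / 65536 : ℝ) * (1 - (1 - x1) ^ 19) + (868797 / 65536 : ℝ) * (1 - (1 - x2) ^ 19) - ((379421 / 32768 : ℝ) + (107 / 256 : ℝ)) * (1 - (1 - xc) ^ 19)
      ≤ - C10.a1 * x1 - C10.a2 * x2 + C10.e * xc + C10.f := by
  have h := cell_lines 19 (α1 := (87579 / 65536 : ℝ)) (α2 := (868797 / 65536 : ℝ)) (c := (379421 / 32768 : ℝ) + (107 / 256 : ℝ)) (y1 := (2089 / 65536 : ℝ)) (y2 := (5071 / 131072 : ℝ))
    (A1 := (59442143 / 4194304 : ℝ)) (B1 := (21807737 / 134217728 : ℝ)) (A2 := (64910519 / 524288 : ℝ)) (B2 := (36956981 / 16777216 : ℝ)) (l := (2731 / 65536 : ℝ)) (u := (211 / 4096 : ℝ))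
    (E := (-405590389 / 4194304 : ℝ)) (F := (-704265163 / 268435456 : ℝ)) (by norm_num) (by norm_num) (by norm_num) (by norm_num) (by norm_num)
    (by norm_num) (by norm_num) (by norm_num) (by norm_num) (by norm_num) (by norm_num) (by norm_num) (by norm_num) (by norm_num) (by norm_num)
  have e1 : C10.l = (2731 / 65536 : ℝ) := rfl
  have e2 : C10.u = (211 / 4096 : ℝ) := rfl
  have e3 : C10.a1 = -(59442143 / 4194304 : ℝ) := by norm_num [C10]
  have e4 : C10.a2 = -(64910519 / 524288 : ℝ) := by norm_num [C10]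
  have e5 : C10.e = (-405590389 / 4194304 : ℝ) := rfl
  have e6 : C10.f = (21807737 / 134217728 : ℝ) + (36956981 / 16777216 : ℝ) + (-704265163 / 268435456 : ℝ) := by norm_num [C10]
  rw [e1, e2, e3, e4, e5, e6]
  exact h

lemma rcell11 : ∃ N : ℝ, Rw4 P.r2 N (coCell (87579 / 65536 : ℝ) (868797 / 65536 : ℝ) ((379421 / 32768 : ℝ) + (107 / 256 : ℝ)) (125 / 4096 : ℝ) C11) := by
  refine ⟨(1207959552 : ℝ), ⟨Q14, List.mem_cons_of_mem _ (List.mem_cons_of_mem _ (List.mem_cons_of_mem _ (List.mem_cons_of_mem _ (List.mem_cons_of_mem _ (List.mem_cons_of_mem _ (List.mem_cons_of_mem _ (List.mem_cons_of_mem _ (List.mem_cons_of_mem _ (List.mem_cons_of_mem _ (List.mem_cons_of_mem _ (List.mem_cons_of_mem _ (List.mem_cons_of_mem _ (List.mem_cons_of_mem _ (List.mem_cons_self)))))))))))))), ?_⟩, by norm_num⟩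
  constructor <;> norm_num [Q14, coCell, C11]

lemma lcell11 : ∀ x1 x2 xc : ℝ, 0 ≤ x1 → x1 ≤ 1 → 0 ≤ x2 → x2 ≤ 1 → C11.l ≤ xc → xc ≤ C11.u →
    (87579 / 65536 : ℝ) * (1 - (1 - x1) ^ 19) + (868797 / 65536 : ℝ) * (1 - (1 - x2) ^ 19) - ((379421 / 32768 : ℝ) + (107 / 256 : ℝ)) * (1 - (1 - xc) ^ 19)
      ≤ - C11.a1 * x1 - C11.a2 * x2 + C11.e * xc + C11.f := by
  have h := cell_lines 19 (α1 := (87579 / 65536 : ℝ)) (α2 := (868797 / 65536 : ℝ)) (c := (379421 / 32768 : ℝ) + (107 / 256 : ℝ)) (y1 := (9679 / 262144 : ℝ)) (y2 := (11783 / 262144 : ℝ))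
    (A1 := (3381553 / 262144 : ℝ)) (B1 := (3459561 / 16777216 : ℝ)) (A2 := (230835975 / 2097152 : ℝ)) (B2 := (372645467 / 134217728 : ℝ)) (l := (211 / 4096 : ℝ)) (u := (67 / 1024 : ℝ))
    (E := (-324112013 / 4194304 : ℝ)) (F := (-30402787 / 8388608 : ℝ)) (by norm_num) (by norm_num) (by norm_num) (by norm_num) (by norm_num)
    (by norm_num) (by norm_num) (by norm_num) (by norm_num) (by norm_num) (by norm_num) (by norm_num) (by norm_num) (by norm_num) (by norm_num)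
  have e1 : C11.l = (211 / 4096 : ℝ) := rfl
  have e2 : C11.u = (67 / 1024 : ℝ) := rfl
  have e3 : C11.a1 = -(3381553 / 262144 : ℝ) := by norm_num [C11]
  have e4 : C11.a2 = -(230835975 / 2097152 : ℝ) := by norm_num [C11]
  have e5 : C11.e = (-324112013 / 4194304 : ℝ) := rfl
  have e6 : C11.f = (3459561 / 16777216 : ℝ) + (372645467 / 134217728 : ℝ) + (-30402787 / 8388608 : ℝ) := by norm_num [C11]
  rw [e1, e2, e3, e4, e5, e6]
  exact h

/-- The hypotheses at the origin. -/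
lemma horig (lam : ℝ) (hd : (19 : ℝ) * lam ^ 2 = 1) (hb : |lam| ≤ (126122633493 / 549755813888 : ℝ)) :
    OriginH 19 lam (87579 / 65536 : ℝ) (868797 / 65536 : ℝ) (379421 / 32768 : ℝ) (107 / 256 : ℝ) (125 / 4096 : ℝ) (45 / 512 : ℝ) (4233 / 4096 : ℝ) (1 / 256 : ℝ) 3298534883328 := by
  refine originH_of_num (d := 19) (by push_cast; exact hd) hb (by norm_num) (by norm_num) (by norm_num) (by norm_num)
    (by norm_num) (by norm_num) (by norm_num) (by norm_num) (by norm_num) (by norm_num) (by norm_num [S]) (by norm_num) ?_ ?_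
  · rw [hch]
    norm_num [abs_of_pos, abs_of_neg]
  · norm_num [abs_of_pos, abs_of_neg]

/-- Nonreconstruction at the bound. -/
theorem main : Tendsto (reconError 3 19 (-(1 / Real.sqrt 19))) atTop (𝓝 0) := by
  have hsq : Real.sqrt ((19 : ℕ) : ℝ) ^ 2 = 19 := by
    rw [Real.sq_sqrt (by positivity)]; norm_num
  have hsq' : Real.sqrt (19 : ℝ) ^ 2 = 19 := by
    rw [Real.sq_sqrt (by positivity)]
  have hs0 : 0 < Real.sqrt (19 : ℝ) := Real.sqrt_pos.2 (by norm_num)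
  have hl2 : ((19 : ℝ)) * (-(1 / Real.sqrt 19)) ^ 2 = 1 := by
    have : (-(1 / Real.sqrt (19 : ℝ))) ^ 2 = 1 / 19 := by
      rw [neg_sq, div_pow, hsq']; norm_num
    rw [this]; norm_num
  have hb : |(-(1 / Real.sqrt (19 : ℝ)))| ≤ (126122633493 / 549755813888 : ℝ) := by
    rw [abs_neg, abs_of_pos (by positivity)]
    rw [div_le_iff₀ hs0]
    have h1 : (1 : ℝ) ^ 2 ≤ ((126122633493 / 549755813888 : ℝ) * Real.sqrt 19) ^ 2 := by
      rw [mul_pow, hsq']; norm_num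
    exact le_of_sq_le_sq h1 (by positivity)
  have hb2 : (-(1 / 2) : ℝ) < -(1 / Real.sqrt (19 : ℝ)) := by
    have h2 := (abs_le.1 hb).1
    have h3 : ((126122633493 / 549755813888 : ℝ) : ℝ) < 1 / 2 := by norm_num
    linarith
  have h1 : (-(1 / Real.sqrt (19 : ℝ))) < 1 := by
    have : 0 < 1 / Real.sqrt (19 : ℝ) := by positivity
    linarith
  have hlam : |(S : ℝ) * (-(1 / Real.sqrt (19 : ℝ))) - ((P.lp : ℝ) - P.ln)| ≤ ((1 : ℕ) : ℝ) := by
    have h := lam_enc 19 16531145817158253 (by norm_num) (by norm_num [S]) (by norm_num [S])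
    have e : ((19 : ℕ) : ℝ) = (19 : ℝ) := by norm_num
    rw [e] at h
    exact h
  obtain ⟨hOa, hON⟩ := horig _ hl2 hb
  refine final_of_box (d := 19) (by norm_num) hb2 h1 (box hlam) (87579 / 65536 : ℝ) (868797 / 65536 : ℝ) (379421 / 32768 : ℝ) (107 / 256 : ℝ) (45 / 512 : ℝ) (4233 / 4096 : ℝ) (5243 / 1048576 : ℝ) (13429 / 8192 : ℝ) (125 / 4096 : ℝ) (67 / 1024 : ℝ) cellsL
    (by norm_num) (by norm_num) (by norm_num) (by norm_num) (by norm_num) (by norm_num) (by norm_num) (by norm_num) (by norm_num)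
    (by norm_num) (by norm_num) (by norm_num) (by norm_num) (by norm_num) hOa hON rTa rTb rc1 rc2 rc3
    (forall_cons rcell0 (forall_cons rcell1 (forall_cons rcell2 (forall_cons rcell3 (forall_cons rcell4 (forall_cons rcell5 (forall_cons rcell6 (forall_cons rcell7 (forall_cons rcell8 (forall_cons rcell9 (forall_cons rcell10 (forall_cons rcell11 (forall_nil))))))))))))) hcover (forall_cons lcell0 (forall_cons lcell1 (forall_cons lcell2 (forall_cons lcell3 (forall_cons lcell4 (forall_cons lcell5 (forall_cons lcell6 (forall_cons lcell7 (forall_cons lcell8 (forall_cons lcell9 (forall_cons lcell10 (forall_cons lcell11 (forall_nil)))))))))))))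

end Vale.Agent.P154H.Tm.D19
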