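import Vale.Agent.P154H.D.D20
import Vale.Agent.P154H.FinalD
import Vale.Agent.P154H.OriginW

open Filter Topology

set_option maxRecDepth 100000

/-!
Nonreconstruction at the Kesten-Stigum bound for `d = 20`, negative eigenvalue.
-/

namespace Vale.Agent.P154H.Tm.D20

open Vale.Agent.P154 Vale.Agent.P154H

/-- A chord cell. -/
noncomputable def C0 : Cell := ⟨(5243 / 1048576 : ℝ), (403 / 65536 : ℝ), (-103613841 / 4194304 : ℝ), (-252864451 / 1048576 : ℝ), (-904984547 / 4194304 : ℝ), (-703451 / 268435456 : ℝ)⟩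

/-- A chord cell. -/
noncomputable def C1 : Cell := ⟨(403 / 65536 : ℝ), (31 / 4096 : ℝ), (-50924281 / 2097152 : ℝ), (-494899345 / 2097152 : ℝ), (-883045717 / 4194304 : ℝ), (-1136443 / 268435456 : ℝ)⟩

/-- A chord cell. -/
noncomputable def C2 : Cell := ⟨(31 / 4096 : ℝ), (305 / 32768 : ℝ), (-49757473 / 2097152 : ℝ), (-481961483 / 2097152 : ℝ), (-428378379 / 2097152 : ℝ), (-1765693 / 268435456 : ℝ)⟩

/-- A chord cell. -/
noncomputable def C3 : Cell := ⟨(305 / 32768 : ℝ), (1501 / 131072 : ℝ), (-96849347 / 4194304 : ℝ), (-932325511 / 4194304 : ℝ), (-412727483 / 2097152 : ℝ), (-1158889 / 134217728 : ℝ)⟩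

/-- A chord cell. -/
noncomputable def C4 : Cell := ⟨(1501 / 131072 : ℝ), (3693 / 262144 : ℝ), (-23408241 / 1048576 : ℝ), (-447891151 / 2097152 : ℝ), (-788418789 / 4194304 : ℝ), (-920889 / 67108864 : ℝ)⟩

/-- A chord cell. -/
noncomputable def C5 : Cell := ⟨(3693 / 262144 : ℝ), (4543 / 262144 : ℝ), (-90001827 / 4194304 : ℝ), (-213339315 / 1048576 : ℝ), (-745034455 / 4194304 : ℝ), (-6241821 / 268435456 : ℝ)⟩

/-- A chord cell. -/
noncomputable def C6 : Cell := ⟨(4543 / 262144 : ℝ), (5589 / 262144 : ℝ), (-10689777 / 524288 : ℝ), (-802127073 / 4194304 : ℝ), (-694766805 / 4194304 : ℝ), (-483477 / 16777216 : ℝ)⟩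

/-- A chord cell. -/
noncomputable def C7 : Cell := ⟨(5589 / 262144 : ℝ), (1719 / 65536 : ℝ), (-80971701 / 4194304 : ℝ), (-186512699 / 1048576 : ℝ), (-637332443 / 4194304 : ℝ), (-3439915 / 67108864 : ℝ)⟩

/-- A chord cell. -/
noncomputable def C8 : Cell := ⟨(1719 / 65536 : ℝ), (4229 / 131072 : ℝ), (-18801395 / 1048576 : ℝ), (-343031207 / 2097152 : ℝ), (-572881243 / 4194304 : ℝ), (-27010693 / 268435456 : ℝ)⟩

/-- A chord cell. -/
noncomputable def C9 : Cell := ⟨(4229 / 131072 : ℝ), (10405 / 262144 : ℝ), (-17326929 / 1048576 : ℝ), (-19195145 / 131072 : ℝ), (-502086215 / 4194304 : ℝ), (-18211373 / 134217728 : ℝ)⟩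

/-- A chord cell. -/
noncomputable def C10 : Cell := ⟨(10405 / 262144 : ℝ), (12801 / 262144 : ℝ), (-31399937 / 2097152 : ℝ), (-274092571 / 2097152 : ℝ), (-426350133 / 4194304 : ℝ), (-75319087 / 268435456 : ℝ)⟩

/-- A chord cell. -/
noncomputable def C11 : Cell := ⟨(12801 / 262144 : ℝ), (63 / 1024 : ℝ), (-57293965 / 4194304 : ℝ), (-486569025 / 4194304 : ℝ), (-343186643 / 4194304 : ℝ), (-84028647 / 134217728 : ℝ)⟩

/-- The chord cells. -/
noncomputable def cellsL : List Cell := [C0, C1, C2, C3, C4, C5, C6, C7, C8, C9, C10, C11]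

lemma hcover : ∀ x : ℝ, (5243 / 1048576 : ℝ) ≤ x → x ≤ (63 / 1024 : ℝ) → ∃ D ∈ cellsL, D.l ≤ x ∧ x ≤ D.u := by
  refine cover_of_chain ?_ (by norm_num [C0])
  simp only [ChainP, C0, C1, C2, C3, C4, C5, C6, C7, C8, C9, C10, C11]
  norm_num

lemma hch : ((Nat.choose 20 2 : ℕ) : ℝ) = 190 := by norm_num [Nat.choose]

lemma rTa : Rw4 P.r1 (1179648 : ℝ) (coTa 20 (87579 / 65536 : ℝ) (868797 / 65536 : ℝ) (379421 / 32768 : ℝ) (107 / 256 : ℝ) (137 / 4096 : ℝ)) := by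
  refine ⟨⟨Ra, List.mem_cons_self, ?_⟩, by norm_num⟩
  constructor <;> norm_num [Ra, coTa, hch]

lemma rTb : Rw4 P.r1 (39582418599936 : ℝ) (coTb 20 (87579 / 65536 : ℝ) (868797 / 65536 : ℝ) (379421 / 32768 : ℝ) (107 / 256 : ℝ) (137 / 4096 : ℝ) (45 / 512 : ℝ) (4233 / 4096 : ℝ) (29769 / 16384 : ℝ)) := by
  refine ⟨⟨Rb, List.mem_cons_of_mem _ (List.mem_cons_self), ?_⟩, by norm_num⟩
  constructor <;> norm_num [Rb, coTb, hch]

lemma rc1 : Rw4 P.r2 (16777216 : ℝ) ⟨0, 0, 0, -(87579 / 65536 : ℝ), 0, 0, 0, 0, (379421 / 32768 : ℝ) * (45 / 512 : ℝ)⟩ := by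
  refine ⟨⟨Q0, List.mem_cons_self, ?_⟩, by norm_num⟩
  constructor <;> norm_num [Q0]

lemma rc2 : Rw4 P.r2 (134217728 : ℝ) ⟨0, 0, 0, 0, -(868797 / 65536 : ℝ), 0, 0, 0, (379421 / 32768 : ℝ) * (4233 / 4096 : ℝ)⟩ := by
  refine ⟨⟨Q1, List.mem_cons_of_mem _ (List.mem_cons_self), ?_⟩, by norm_num⟩
  constructor <;> norm_num [Q1]

lemma rc3 : Rw4 P.r2 (3072 : ℝ) ⟨0, 0, 0, 0, 0, -1, 0, 0, (63 / 1024 : ℝ)⟩ := by
  refine ⟨⟨Q2, List.mem_cons_of_mem _ (List.mem_cons_of_mem _ (List.mem_cons_self)), ?_⟩, by norm_num⟩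
  constructor <;> norm_num [Q2]

lemma rcell0 : ∃ N : ℝ, Rw4 P.r2 N (coCell (87579 / 65536 : ℝ) (868797 / 65536 : ℝ) ((379421 / 32768 : ℝ) + (107 / 256 : ℝ)) (137 / 4096 : ℝ) C0) := by
  refine ⟨(2415919104 : ℝ), ⟨Q3, List.mem_cons_of_mem _ (List.mem_cons_of_mem _ (List.mem_cons_of_mem _ (List.mem_cons_self))), ?_⟩, by norm_num⟩
  constructor <;> norm_num [Q3, coCell, C0]

lemma lcell0 : ∀ x1 x2 xc : ℝ, 0 ≤ x1 → x1 ≤ 1 → 0 ≤ x2 → x2 ≤ 1 → C0.l ≤ xc → xc ≤ C0.u →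
    (87579 / 65536 : ℝ) * (1 - (1 - x1) ^ 20) + (868797 / 65536 : ℝ) * (1 - (1 - x2) ^ 20) - ((379421 / 32768 : ℝ) + (107 / 256 : ℝ)) * (1 - (1 - xc) ^ 20)
      ≤ - C0.a1 * x1 - C0.a2 * x2 + C0.e * xc + C0.f := by
  have h := cell_lines 20 (α1 := (87579 / 65536 : ℝ)) (α2 := (868797 / 65536 : ℝ)) (c := (379421 / 32768 : ℝ) + (107 / 256 : ℝ)) (y1 := (271 / 65536 : ℝ)) (y2 := (1305 / 262144 : ℝ))
    (A1 := (103613841 / 4194304 : ℝ)) (B1 := (138641 / 33554432 : ℝ)) (A2 := (252864451 / 1048576 : ℝ)) (B2 := (3946557 / 67108864 : ℝ)) (l := (5243 / 1048576 : ℝ)) (u := (403 / 65536 : ℝ))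
    (E := (-904984547 / 4194304 : ℝ)) (F := (-17598807 / 268435456 : ℝ)) (by norm_num) (by norm_num) (by norm_num) (by norm_num) (by norm_num)
    (by norm_num) (by norm_num) (by norm_num) (by norm_num) (by norm_num) (by norm_num) (by norm_num) (by norm_num) (by norm_num) (by norm_num)
  have e1 : C0.l = (5243 / 1048576 : ℝ) := rfl
  have e2 : C0.u = (403 / 65536 : ℝ) := rfl
  have e3 : C0.a1 = -(103613841 / 4194304 : ℝ) := by norm_num [C0]
  have e4 : C0.a2 = -(252864451 / 1048576 : ℝ) := by norm_num [C0]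
  have e5 : C0.e = (-904984547 / 4194304 : ℝ) := rfl
  have e6 : C0.f = (138641 / 33554432 : ℝ) + (3946557 / 67108864 : ℝ) + (-17598807 / 268435456 : ℝ) := by norm_num [C0]
  rw [e1, e2, e3, e4, e5, e6]
  exact h

lemma rcell1 : ∃ N : ℝ, Rw4 P.r2 N (coCell (87579 / 65536 : ℝ) (868797 / 65536 : ℝ) ((379421 / 32768 : ℝ) + (107 / 256 : ℝ)) (137 / 4096 : ℝ) C1) := by
  refine ⟨(2415919104 : ℝ), ⟨Q4, List.mem_cons_of_mem _ (List.mem_cons_of_mem _ (List.mem_cons_of_mem _ (List.mem_cons_of_mem _ (List.mem_cons_self)))), ?_⟩, by norm_num⟩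
  constructor <;> norm_num [Q4, coCell, C1]

lemma lcell1 : ∀ x1 x2 xc : ℝ, 0 ≤ x1 → x1 ≤ 1 → 0 ≤ x2 → x2 ≤ 1 → C1.l ≤ xc → xc ≤ C1.u →
    (87579 / 65536 : ℝ) * (1 - (1 - x1) ^ 20) + (868797 / 65536 : ℝ) * (1 - (1 - x2) ^ 20) - ((379421 / 32768 : ℝ) + (107 / 256 : ℝ)) * (1 - (1 - xc) ^ 20)
      ≤ - C1.a1 * x1 - C1.a2 * x2 + C1.e * xc + C1.f := by
  have h := cell_lines 20 (α1 := (87579 / 65536 : ℝ)) (α2 := (868797 / 65536 : ℝ)) (c := (379421 / 32768 : ℝ) + (107 / 256 : ℝ)) (y1 := (165 / 32768 : ℝ)) (y2 := (801 / 131072 : ℝ))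
    (A1 := (50924281 / 2097152 : ℝ)) (B1 := (813515 / 134217728 : ℝ)) (A2 := (494899345 / 2097152 : ℝ)) (B2 := (23469463 / 268435456 : ℝ)) (l := (403 / 65536 : ℝ)) (u := (31 / 4096 : ℝ))
    (E := (-883045717 / 4194304 : ℝ)) (F := (-3279117 / 33554432 : ℝ)) (by norm_num) (by norm_num) (by norm_num) (by norm_num) (by norm_num)
    (by norm_num) (by norm_num) (by norm_num) (by norm_num) (by norm_num) (by norm_num) (by norm_num) (by norm_num) (by norm_num) (by norm_num)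
  have e1 : C1.l = (403 / 65536 : ℝ) := rfl
  have e2 : C1.u = (31 / 4096 : ℝ) := rfl
  have e3 : C1.a1 = -(50924281 / 2097152 : ℝ) := by norm_num [C1]
  have e4 : C1.a2 = -(494899345 / 2097152 : ℝ) := by norm_num [C1]
  have e5 : C1.e = (-883045717 / 4194304 : ℝ) := rfl
  have e6 : C1.f = (813515 / 134217728 : ℝ) + (23469463 / 268435456 : ℝ) + (-3279117 / 33554432 : ℝ) := by norm_num [C1]
  rw [e1, e2, e3, e4, e5, e6]
  exact h

lemma rcell2 : ∃ N : ℝ, Rw4 P.r2 N (coCell (87579 / 65536 : ℝ) (868797 / 65536 : ℝ) ((379421 / 32768 : ℝ) + (107 / 256 : ℝ)) (137 / 4096 : ℝ) C2) := by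
  refine ⟨(2415919104 : ℝ), ⟨Q5, List.mem_cons_of_mem _ (List.mem_cons_of_mem _ (List.mem_cons_of_mem _ (List.mem_cons_of_mem _ (List.mem_cons_of_mem _ (List.mem_cons_self))))), ?_⟩, by norm_num⟩
  constructor <;> norm_num [Q5, coCell, C2]

lemma lcell2 : ∀ x1 x2 xc : ℝ, 0 ≤ x1 → x1 ≤ 1 → 0 ≤ x2 → x2 ≤ 1 → C2.l ≤ xc → xc ≤ C2.u →
    (87579 / 65536 : ℝ) * (1 - (1 - x1) ^ 20) + (868797 / 65536 : ℝ) * (1 - (1 - x2) ^ 20) - ((379421 / 32768 : ℝ) + (107 / 256 : ℝ)) * (1 - (1 - xc) ^ 20)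
      ≤ - C2.a1 * x1 - C2.a2 * x2 + C2.e * xc + C2.f := by
  have h := cell_lines 20 (α1 := (87579 / 65536 : ℝ)) (α2 := (868797 / 65536 : ℝ)) (c := (379421 / 32768 : ℝ) + (107 / 256 : ℝ)) (y1 := (819 / 131072 : ℝ)) (y2 := (1965 / 262144 : ℝ))
    (A1 := (49757473 / 2097152 : ℝ)) (B1 := (1234667 / 134217728 : ℝ)) (A2 := (481961483 / 2097152 : ℝ)) (B2 := (34731623 / 268435456 : ℝ)) (l := (31 / 4096 : ℝ)) (u := (305 / 32768 : ℝ))
    (E := (-428378379 / 2097152 : ℝ)) (F := (-19483325 / 134217728 : ℝ)) (by norm_num) (by norm_num) (by norm_num) (by norm_num) (by norm_num)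
    (by norm_num) (by norm_num) (by norm_num) (by norm_num) (by norm_num) (by norm_num) (by norm_num) (by norm_num) (by norm_num) (by norm_num)
  have e1 : C2.l = (31 / 4096 : ℝ) := rfl
  have e2 : C2.u = (305 / 32768 : ℝ) := rfl
  have e3 : C2.a1 = -(49757473 / 2097152 : ℝ) := by norm_num [C2]
  have e4 : C2.a2 = -(481961483 / 2097152 : ℝ) := by norm_num [C2]
  have e5 : C2.e = (-428378379 / 2097152 : ℝ) := rfl
  have e6 : C2.f = (1234667 / 134217728 : ℝ) + (34731623 / 268435456 : ℝ) + (-19483325 / 134217728 : ℝ) := by norm_num [C2]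
  rw [e1, e2, e3, e4, e5, e6]
  exact h

lemma rcell3 : ∃ N : ℝ, Rw4 P.r2 N (coCell (87579 / 65536 : ℝ) (868797 / 65536 : ℝ) ((379421 / 32768 : ℝ) + (107 / 256 : ℝ)) (137 / 4096 : ℝ) C3) := by
  refine ⟨(1207959552 : ℝ), ⟨Q6, List.mem_cons_of_mem _ (List.mem_cons_of_mem _ (List.mem_cons_of_mem _ (List.mem_cons_of_mem _ (List.mem_cons_of_mem _ (List.mem_cons_of_mem _ (List.mem_cons_self)))))), ?_⟩, by norm_num⟩
  constructor <;> norm_num [Q6, coCell, C3]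

lemma lcell3 : ∀ x1 x2 xc : ℝ, 0 ≤ x1 → x1 ≤ 1 → 0 ≤ x2 → x2 ≤ 1 → C3.l ≤ xc → xc ≤ C3.u →
    (87579 / 65536 : ℝ) * (1 - (1 - x1) ^ 20) + (868797 / 65536 : ℝ) * (1 - (1 - x2) ^ 20) - ((379421 / 32768 : ℝ) + (107 / 256 : ℝ)) * (1 - (1 - xc) ^ 20)
      ≤ - C3.a1 * x1 - C3.a2 * x2 + C3.e * xc + C3.f := by
  have h := cell_lines 20 (α1 := (87579 / 65536 : ℝ)) (α2 := (868797 / 65536 : ℝ)) (c := (379421 / 32768 : ℝ) + (107 / 256 : ℝ)) (y1 := (1005 / 131072 : ℝ)) (y2 := (2421 / 262144 : ℝ))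
    (A1 := (96849347 / 4194304 : ℝ)) (B1 := (3655815 / 268435456 : ℝ)) (A2 := (932325511 / 4194304 : ℝ)) (B2 := (51639633 / 268435456 : ℝ)) (l := (305 / 32768 : ℝ)) (u := (1501 / 131072 : ℝ))
    (E := (-412727483 / 2097152 : ℝ)) (F := (-28806613 / 134217728 : ℝ)) (by norm_num) (by norm_num) (by norm_num) (by norm_num) (by norm_num)
    (by norm_num) (by norm_num) (by norm_num) (by norm_num) (by norm_num) (by norm_num) (by norm_num) (by norm_num) (by norm_num) (by norm_num)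
  have e1 : C3.l = (305 / 32768 : ℝ) := rfl
  have e2 : C3.u = (1501 / 131072 : ℝ) := rfl
  have e3 : C3.a1 = -(96849347 / 4194304 : ℝ) := by norm_num [C3]
  have e4 : C3.a2 = -(932325511 / 4194304 : ℝ) := by norm_num [C3]
  have e5 : C3.e = (-412727483 / 2097152 : ℝ) := rfl
  have e6 : C3.f = (3655815 / 268435456 : ℝ) + (51639633 / 268435456 : ℝ) + (-28806613 / 134217728 : ℝ) := by norm_num [C3]
  rw [e1, e2, e3, e4, e5, e6]
  exact h

lemma rcell4 : ∃ N : ℝ, Rw4 P.r2 N (coCell (87579 / 65536 : ℝ) (868797 / 65536 : ℝ) ((379421 / 32768 : ℝ) + (107 / 256 : ℝ)) (137 / 4096 : ℝ) C4) := by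
  refine ⟨(603979776 : ℝ), ⟨Q7, List.mem_cons_of_mem _ (List.mem_cons_of_mem _ (List.mem_cons_of_mem _ (List.mem_cons_of_mem _ (List.mem_cons_of_mem _ (List.mem_cons_of_mem _ (List.mem_cons_of_mem _ (List.mem_cons_self))))))), ?_⟩, by norm_num⟩
  constructor <;> norm_num [Q7, coCell, C4]

lemma lcell4 : ∀ x1 x2 xc : ℝ, 0 ≤ x1 → x1 ≤ 1 → 0 ≤ x2 → x2 ≤ 1 → C4.l ≤ xc → xc ≤ C4.u →
    (87579 / 65536 : ℝ) * (1 - (1 - x1) ^ 20) + (868797 / 65536 : ℝ) * (1 - (1 - x2) ^ 20) - ((379421 / 32768 : ℝ) + (107 / 256 : ℝ)) * (1 - (1 - xc) ^ 20)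
      ≤ - C4.a1 * x1 - C4.a2 * x2 + C4.e * xc + C4.f := by
  have h := cell_lines 20 (α1 := (87579 / 65536 : ℝ)) (α2 := (868797 / 65536 : ℝ)) (c := (379421 / 32768 : ℝ) + (107 / 256 : ℝ)) (y1 := (309 / 32768 : ℝ)) (y2 := (2967 / 262144 : ℝ))
    (A1 := (23408241 / 1048576 : ℝ)) (B1 := (84603 / 4194304 : ℝ)) (A2 := (447891151 / 2097152 : ℝ)) (B2 := (18914817 / 67108864 : ℝ)) (l := (1501 / 131072 : ℝ)) (u := (3693 / 262144 : ℝ))
    (E := (-788418789 / 4194304 : ℝ)) (F := (-10594677 / 33554432 : ℝ)) (by norm_num) (by norm_num) (by norm_num) (by norm_num) (by norm_num)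
    (by norm_num) (by norm_num) (by norm_num) (by norm_num) (by norm_num) (by norm_num) (by norm_num) (by norm_num) (by norm_num) (by norm_num)
  have e1 : C4.l = (1501 / 131072 : ℝ) := rfl
  have e2 : C4.u = (3693 / 262144 : ℝ) := rfl
  have e3 : C4.a1 = -(23408241 / 1048576 : ℝ) := by norm_num [C4]
  have e4 : C4.a2 = -(447891151 / 2097152 : ℝ) := by norm_num [C4]
  have e5 : C4.e = (-788418789 / 4194304 : ℝ) := rfl
  have e6 : C4.f = (84603 / 4194304 : ℝ) + (18914817 / 67108864 : ℝ) + (-10594677 / 33554432 : ℝ) := by norm_num [C4]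
  rw [e1, e2, e3, e4, e5, e6]
  exact h

lemma rcell5 : ∃ N : ℝ, Rw4 P.r2 N (coCell (87579 / 65536 : ℝ) (868797 / 65536 : ℝ) ((379421 / 32768 : ℝ) + (107 / 256 : ℝ)) (137 / 4096 : ℝ) C5) := by
  refine ⟨(2415919104 : ℝ), ⟨Q8, List.mem_cons_of_mem _ (List.mem_cons_of_mem _ (List.mem_cons_of_mem _ (List.mem_cons_of_mem _ (List.mem_cons_of_mem _ (List.mem_cons_of_mem _ (List.mem_cons_of_mem _ (List.mem_cons_of_mem _ (List.mem_cons_self)))))))), ?_⟩, by norm_num⟩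
  constructor <;> norm_num [Q8, coCell, C5]

lemma lcell5 : ∀ x1 x2 xc : ℝ, 0 ≤ x1 → x1 ≤ 1 → 0 ≤ x2 → x2 ≤ 1 → C5.l ≤ xc → xc ≤ C5.u →
    (87579 / 65536 : ℝ) * (1 - (1 - x1) ^ 20) + (868797 / 65536 : ℝ) * (1 - (1 - x2) ^ 20) - ((379421 / 32768 : ℝ) + (107 / 256 : ℝ)) * (1 - (1 - xc) ^ 20)
      ≤ - C5.a1 * x1 - C5.a2 * x2 + C5.e * xc + C5.f := by
  have h := cell_lines 20 (α1 := (87579 / 65536 : ℝ)) (α2 := (868797 / 65536 : ℝ)) (c := (379421 / 32768 : ℝ) + (107 / 256 : ℝ)) (y1 := (753 / 65536 : ℝ)) (y2 := (907 / 65536 : ℝ))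
    (A1 := (90001827 / 4194304 : ℝ)) (B1 := (7843921 / 268435456 : ℝ)) (A2 := (213339315 / 1048576 : ℝ)) (B2 := (109787481 / 268435456 : ℝ)) (l := (3693 / 262144 : ℝ)) (u := (4543 / 262144 : ℝ))
    (E := (-745034455 / 4194304 : ℝ)) (F := (-123873223 / 268435456 : ℝ)) (by norm_num) (by norm_num) (by norm_num) (by norm_num) (by norm_num)
    (by norm_num) (by norm_num) (by norm_num) (by norm_num) (by norm_num) (by norm_num) (by norm_num) (by norm_num) (by norm_num) (by norm_num)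
  have e1 : C5.l = (3693 / 262144 : ℝ) := rfl
  have e2 : C5.u = (4543 / 262144 : ℝ) := rfl
  have e3 : C5.a1 = -(90001827 / 4194304 : ℝ) := by norm_num [C5]
  have e4 : C5.a2 = -(213339315 / 1048576 : ℝ) := by norm_num [C5]
  have e5 : C5.e = (-745034455 / 4194304 : ℝ) := rfl
  have e6 : C5.f = (7843921 / 268435456 : ℝ) + (109787481 / 268435456 : ℝ) + (-123873223 / 268435456 : ℝ) := by norm_num [C5]
  rw [e1, e2, e3, e4, e5, e6]
  exact h

lemma rcell6 : ∃ N : ℝ, Rw4 P.r2 N (coCell (87579 / 65536 : ℝ) (868797 / 65536 : ℝ) ((379421 / 32768 : ℝ) + (107 / 256 : ℝ)) (137 / 4096 : ℝ) C6) := by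
  refine ⟨(150994944 : ℝ), ⟨Q9, List.mem_cons_of_mem _ (List.mem_cons_of_mem _ (List.mem_cons_of_mem _ (List.mem_cons_of_mem _ (List.mem_cons_of_mem _ (List.mem_cons_of_mem _ (List.mem_cons_of_mem _ (List.mem_cons_of_mem _ (List.mem_cons_of_mem _ (List.mem_cons_self))))))))), ?_⟩, by norm_num⟩
  constructor <;> norm_num [Q9, coCell, C6]

lemma lcell6 : ∀ x1 x2 xc : ℝ, 0 ≤ x1 → x1 ≤ 1 → 0 ≤ x2 → x2 ≤ 1 → C6.l ≤ xc → xc ≤ C6.u →
    (87579 / 65536 : ℝ) * (1 - (1 - x1) ^ 20) + (868797 / 65536 : ℝ) * (1 - (1 - x2) ^ 20) - ((379421 / 32768 : ℝ) + (107 / 256 : ℝ)) * (1 - (1 - xc) ^ 20)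
      ≤ - C6.a1 * x1 - C6.a2 * x2 + C6.e * xc + C6.f := by
  have h := cell_lines 20 (α1 := (87579 / 65536 : ℝ)) (α2 := (868797 / 65536 : ℝ)) (c := (379421 / 32768 : ℝ) + (107 / 256 : ℝ)) (y1 := (927 / 65536 : ℝ)) (y2 := (4469 / 262144 : ℝ))
    (A1 := (10689777 / 524288 : ℝ)) (B1 := (11518819 / 268435456 : ℝ)) (A2 := (802127073 / 4194304 : ℝ)) (B2 := (80186087 / 134217728 : ℝ)) (l := (4543 / 262144 : ℝ)) (u := (5589 / 262144 : ℝ))
    (E := (-694766805 / 4194304 : ℝ)) (F := (-179626625 / 268435456 : ℝ)) (by norm_num) (by norm_num) (by norm_num) (by norm_num) (by norm_num)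
    (by norm_num) (by norm_num) (by norm_num) (by norm_num) (by norm_num) (by norm_num) (by norm_num) (by norm_num) (by norm_num) (by norm_num)
  have e1 : C6.l = (4543 / 262144 : ℝ) := rfl
  have e2 : C6.u = (5589 / 262144 : ℝ) := rfl
  have e3 : C6.a1 = -(10689777 / 524288 : ℝ) := by norm_num [C6]
  have e4 : C6.a2 = -(802127073 / 4194304 : ℝ) := by norm_num [C6]
  have e5 : C6.e = (-694766805 / 4194304 : ℝ) := rfl
  have e6 : C6.f = (11518819 / 268435456 : ℝ) + (80186087 / 134217728 : ℝ) + (-179626625 / 268435456 : ℝ) := by norm_num [C6]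
  rw [e1, e2, e3, e4, e5, e6]
  exact h

lemma rcell7 : ∃ N : ℝ, Rw4 P.r2 N (coCell (87579 / 65536 : ℝ) (868797 / 65536 : ℝ) ((379421 / 32768 : ℝ) + (107 / 256 : ℝ)) (137 / 4096 : ℝ) C7) := by
  refine ⟨(603979776 : ℝ), ⟨Q10, List.mem_cons_of_mem _ (List.mem_cons_of_mem _ (List.mem_cons_of_mem _ (List.mem_cons_of_mem _ (List.mem_cons_of_mem _ (List.mem_cons_of_mem _ (List.mem_cons_of_mem _ (List.mem_cons_of_mem _ (List.mem_cons_of_mem _ (List.mem_cons_of_mem _ (List.mem_cons_self)))))))))), ?_⟩, by norm_num⟩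
  constructor <;> norm_num [Q10, coCell, C7]

lemma lcell7 : ∀ x1 x2 xc : ℝ, 0 ≤ x1 → x1 ≤ 1 → 0 ≤ x2 → x2 ≤ 1 → C7.l ≤ xc → xc ≤ C7.u →
    (87579 / 65536 : ℝ) * (1 - (1 - x1) ^ 20) + (868797 / 65536 : ℝ) * (1 - (1 - x2) ^ 20) - ((379421 / 32768 : ℝ) + (107 / 256 : ℝ)) * (1 - (1 - xc) ^ 20)
      ≤ - C7.a1 * x1 - C7.a2 * x2 + C7.e * xc + C7.f := by
  have h := cell_lines 20 (α1 := (87579 / 65536 : ℝ)) (α2 := (868797 / 65536 : ℝ)) (c := (379421 / 32768 : ℝ) + (107 / 256 : ℝ)) (y1 := (2225 / 131072 : ℝ)) (y2 := (2725 / 131072 : ℝ))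
    (A1 := (80971701 / 4194304 : ℝ)) (B1 := (16042897 / 268435456 : ℝ)) (A2 := (186512699 / 1048576 : ℝ)) (B2 := (228193367 / 268435456 : ℝ)) (l := (5589 / 262144 : ℝ)) (u := (1719 / 65536 : ℝ))
    (E := (-637332443 / 4194304 : ℝ)) (F := (-64498981 / 67108864 : ℝ)) (by norm_num) (by norm_num) (by norm_num) (by norm_num) (by norm_num)
    (by norm_num) (by norm_num) (by norm_num) (by norm_num) (by norm_num) (by norm_num) (by norm_num) (by norm_num) (by norm_num) (by norm_num)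
  have e1 : C7.l = (5589 / 262144 : ℝ) := rfl
  have e2 : C7.u = (1719 / 65536 : ℝ) := rfl
  have e3 : C7.a1 = -(80971701 / 4194304 : ℝ) := by norm_num [C7]
  have e4 : C7.a2 = -(186512699 / 1048576 : ℝ) := by norm_num [C7]
  have e5 : C7.e = (-637332443 / 4194304 : ℝ) := rfl
  have e6 : C7.f = (16042897 / 268435456 : ℝ) + (228193367 / 268435456 : ℝ) + (-64498981 / 67108864 : ℝ) := by norm_num [C7]
  rw [e1, e2, e3, e4, e5, e6]
  exact h

lemma rcell8 : ∃ N : ℝ, Rw4 P.r2 N (coCell (87579 / 65536 : ℝ) (868797 / 65536 : ℝ) ((379421 / 32768 : ℝ) + (107 / 256 : ℝ)) (137 / 4096 : ℝ) C8) := by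
  refine ⟨(2415919104 : ℝ), ⟨Q11, List.mem_cons_of_mem _ (List.mem_cons_of_mem _ (List.mem_cons_of_mem _ (List.mem_cons_of_mem _ (List.mem_cons_of_mem _ (List.mem_cons_of_mem _ (List.mem_cons_of_mem _ (List.mem_cons_of_mem _ (List.mem_cons_of_mem _ (List.mem_cons_of_mem _ (List.mem_cons_of_mem _ (List.mem_cons_self))))))))))), ?_⟩, by norm_num⟩
  constructor <;> norm_num [Q11, coCell, C8]

lemma lcell8 : ∀ x1 x2 xc : ℝ, 0 ≤ x1 → x1 ≤ 1 → 0 ≤ x2 → x2 ≤ 1 → C8.l ≤ xc → xc ≤ C8.u →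
    (87579 / 65536 : ℝ) * (1 - (1 - x1) ^ 20) + (868797 / 65536 : ℝ) * (1 - (1 - x2) ^ 20) - ((379421 / 32768 : ℝ) + (107 / 256 : ℝ)) * (1 - (1 - xc) ^ 20)
      ≤ - C8.a1 * x1 - C8.a2 * x2 + C8.e * xc + C8.f := by
  have h := cell_lines 20 (α1 := (87579 / 65536 : ℝ)) (α2 := (868797 / 65536 : ℝ)) (c := (379421 / 32768 : ℝ) + (107 / 256 : ℝ)) (y1 := (2725 / 131072 : ℝ)) (y2 := (1645 / 65536 : ℝ))
    (A1 := (18801395 / 1048576 : ℝ)) (B1 := (23003039 / 268435456 : ℝ)) (A2 := (343031207 / 2097152 : ℝ)) (B2 := (158088563 / 134217728 : ℝ)) (l := (1719 / 65536 : ℝ)) (u := (4229 / 131072 : ℝ))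
    (E := (-572881243 / 4194304 : ℝ)) (F := (-183095429 / 134217728 : ℝ)) (by norm_num) (by norm_num) (by norm_num) (by norm_num) (by norm_num)
    (by norm_num) (by norm_num) (by norm_num) (by norm_num) (by norm_num) (by norm_num) (by norm_num) (by norm_num) (by norm_num) (by norm_num)
  have e1 : C8.l = (1719 / 65536 : ℝ) := rfl
  have e2 : C8.u = (4229 / 131072 : ℝ) := rfl
  have e3 : C8.a1 = -(18801395 / 1048576 : ℝ) := by norm_num [C8]
  have e4 : C8.a2 = -(343031207 / 2097152 : ℝ) := by norm_num [C8]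
  have e5 : C8.e = (-572881243 / 4194304 : ℝ) := rfl
  have e6 : C8.f = (23003039 / 268435456 : ℝ) + (158088563 / 134217728 : ℝ) + (-183095429 / 134217728 : ℝ) := by norm_num [C8]
  rw [e1, e2, e3, e4, e5, e6]
  exact h

lemma rcell9 : ∃ N : ℝ, Rw4 P.r2 N (coCell (87579 / 65536 : ℝ) (868797 / 65536 : ℝ) ((379421 / 32768 : ℝ) + (107 / 256 : ℝ)) (137 / 4096 : ℝ) C9) := by
  refine ⟨(1207959552 : ℝ), ⟨Q12, List.mem_cons_of_mem _ (List.mem_cons_of_mem _ (List.mem_cons_of_mem _ (List.mem_cons_of_mem _ (List.mem_cons_of_mem _ (List.mem_cons_of_mem _ (List.mem_cons_of_mem _ (List.mem_cons_of_mem _ (List.mem_cons_of_mem _ (List.mem_cons_of_mem _ (List.mem_cons_of_mem _ (List.mem_cons_of_mem _ (List.mem_cons_self)))))))))))), ?_⟩, by norm_num⟩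
  constructor <;> norm_num [Q12, coCell, C9]

lemma lcell9 : ∀ x1 x2 xc : ℝ, 0 ≤ x1 → x1 ≤ 1 → 0 ≤ x2 → x2 ≤ 1 → C9.l ≤ xc → xc ≤ C9.u →
    (87579 / 65536 : ℝ) * (1 - (1 - x1) ^ 20) + (868797 / 65536 : ℝ) * (1 - (1 - x2) ^ 20) - ((379421 / 32768 : ℝ) + (107 / 256 : ℝ)) * (1 - (1 - xc) ^ 20)
      ≤ - C9.a1 * x1 - C9.a2 * x2 + C9.e * xc + C9.f := by
  have h := cell_lines 20 (α1 := (87579 / 65536 : ℝ)) (α2 := (868797 / 65536 : ℝ)) (c := (379421 / 32768 : ℝ) + (107 / 256 : ℝ)) (y1 := (6551 / 262144 : ℝ)) (y2 := (8063 / 262144 : ℝ))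
    (A1 := (17326929 / 1048576 : ℝ)) (B1 := (15816489 / 134217728 : ℝ)) (A2 := (19195145 / 131072 : ℝ)) (B2 := (444322719 / 268435456 : ℝ)) (l := (4229 / 131072 : ℝ)) (u := (10405 / 262144 : ℝ))
    (E := (-502086215 / 4194304 : ℝ)) (F := (-512378443 / 268435456 : ℝ)) (by norm_num) (by norm_num) (by norm_num) (by norm_num) (by norm_num)
    (by norm_num) (by norm_num) (by norm_num) (by norm_num) (by norm_num) (by norm_num) (by norm_num) (by norm_num) (by norm_num) (by norm_num)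
  have e1 : C9.l = (4229 / 131072 : ℝ) := rfl
  have e2 : C9.u = (10405 / 262144 : ℝ) := rfl
  have e3 : C9.a1 = -(17326929 / 1048576 : ℝ) := by norm_num [C9]
  have e4 : C9.a2 = -(19195145 / 131072 : ℝ) := by norm_num [C9]
  have e5 : C9.e = (-502086215 / 4194304 : ℝ) := rfl
  have e6 : C9.f = (15816489 / 134217728 : ℝ) + (444322719 / 268435456 : ℝ) + (-512378443 / 268435456 : ℝ) := by norm_num [C9]
  rw [e1, e2, e3, e4, e5, e6]
  exact h

lemma rcell10 : ∃ N : ℝ, Rw4 P.r2 N (coCell (87579 / 65536 : ℝ) (868797 / 65536 : ℝ) ((379421 / 32768 : ℝ) + (107 / 256 : ℝ)) (137 / 4096 : ℝ) C10) := by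
  refine ⟨(2415919104 : ℝ), ⟨Q13, List.mem_cons_of_mem _ (List.mem_cons_of_mem _ (List.mem_cons_of_mem _ (List.mem_cons_of_mem _ (List.mem_cons_of_mem _ (List.mem_cons_of_mem _ (List.mem_cons_of_mem _ (List.mem_cons_of_mem _ (List.mem_cons_of_mem _ (List.mem_cons_of_mem _ (List.mem_cons_of_mem _ (List.mem_cons_of_mem _ (List.mem_cons_of_mem _ (List.mem_cons_self))))))))))))), ?_⟩, by norm_num⟩
  constructor <;> norm_num [Q13, coCell, C10]

lemma lcell10 : ∀ x1 x2 xc : ℝ, 0 ≤ x1 → x1 ≤ 1 → 0 ≤ x2 → x2 ≤ 1 → C10.l ≤ xc → xc ≤ C10.u →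
    (87579 / 65536 : ℝ) * (1 - (1 - x1) ^ 20) + (868797 / 65536 : ℝ) * (1 - (1 - x2) ^ 20) - ((379421 / 32768 : ℝ) + (107 / 256 : ℝ)) * (1 - (1 - xc) ^ 20)
      ≤ - C10.a1 * x1 - C10.a2 * x2 + C10.e * xc + C10.f := by
  have h := cell_lines 20 (α1 := (87579 / 65536 : ℝ)) (α2 := (868797 / 65536 : ℝ)) (c := (379421 / 32768 : ℝ) + (107 / 256 : ℝ)) (y1 := (3937 / 131072 : ℝ)) (y2 := (2395 / 65536 : ℝ))
    (A1 := (31399937 / 2097152 : ℝ)) (B1 := (5384503 / 33554432 : ℝ)) (A2 := (274092571 / 2097152 : ℝ)) (B2 := (586374429 / 268435456 : ℝ)) (l := (10405 / 262144 : ℝ)) (u := (12801 / 262144 : ℝ))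
    (E := (-426350133 / 4194304 : ℝ)) (F := (-176192385 / 67108864 : ℝ)) (by norm_num) (by norm_num) (by norm_num) (by norm_num) (by norm_num)
    (by norm_num) (by norm_num) (by norm_num) (by norm_num) (by norm_num) (by norm_num) (by norm_num) (by norm_num) (by norm_num) (by norm_num)
  have e1 : C10.l = (10405 / 262144 : ℝ) := rfl
  have e2 : C10.u = (12801 / 262144 : ℝ) := rfl
  have e3 : C10.a1 = -(31399937 / 2097152 : ℝ) := by norm_num [C10]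
  have e4 : C10.a2 = -(274092571 / 2097152 : ℝ) := by norm_num [C10]
  have e5 : C10.e = (-426350133 / 4194304 : ℝ) := rfl
  have e6 : C10.f = (5384503 / 33554432 : ℝ) + (586374429 / 268435456 : ℝ) + (-176192385 / 67108864 : ℝ) := by norm_num [C10]
  rw [e1, e2, e3, e4, e5, e6]
  exact h

lemma rcell11 : ∃ N : ℝ, Rw4 P.r2 N (coCell (87579 / 65536 : ℝ) (868797 / 65536 : ℝ) ((379421 / 32768 : ℝ) + (107 / 256 : ℝ)) (137 / 4096 : ℝ) C11) := by
  refine ⟨(1207959552 : ℝ), ⟨Q14, List.mem_cons_of_mem _ (List.mem_cons_of_mem _ (List.mem_cons_of_mem _ (List.mem_cons_of_mem _ (List.mem_cons_of_mem _ (List.mem_cons_of_mem _ (List.mem_cons_of_mem _ (List.mem_cons_of_mem _ (List.mem_cons_of_mem _ (List.mem_cons_of_mem _ (List.mem_cons_of_mem _ (List.mem_cons_of_mem _ (List.mem_cons_of_mem _ (List.mem_cons_of_mem _ (List.mem_cons_self)))))))))))))), ?_⟩, by norm_num⟩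
  constructor <;> norm_num [Q14, coCell, C11]

lemma lcell11 : ∀ x1 x2 xc : ℝ, 0 ≤ x1 → x1 ≤ 1 → 0 ≤ x2 → x2 ≤ 1 → C11.l ≤ xc → xc ≤ C11.u →
    (87579 / 65536 : ℝ) * (1 - (1 - x1) ^ 20) + (868797 / 65536 : ℝ) * (1 - (1 - x2) ^ 20) - ((379421 / 32768 : ℝ) + (107 / 256 : ℝ)) * (1 - (1 - xc) ^ 20)
      ≤ - C11.a1 * x1 - C11.a2 * x2 + C11.e * xc + C11.f := by
  have h := cell_lines 20 (α1 := (87579 / 65536 : ℝ)) (α2 := (868797 / 65536 : ℝ)) (c := (379421 / 32768 : ℝ) + (107 / 256 : ℝ)) (y1 := (9099 / 262144 : ℝ)) (y2 := (1395 / 32768 : ℝ))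
    (A1 := (57293965 / 4194304 : ℝ)) (B1 := (13617953 / 67108864 : ℝ)) (A2 := (486569025 / 4194304 : ℝ)) (B2 := (742146643 / 268435456 : ℝ)) (l := (12801 / 262144 : ℝ)) (u := (63 / 1024 : ℝ))
    (E := (-343186643 / 4194304 : ℝ)) (F := (-964675749 / 268435456 : ℝ)) (by norm_num) (by norm_num) (by norm_num) (by norm_num) (by norm_num)
    (by norm_num) (by norm_num) (by norm_num) (by norm_num) (by norm_num) (by norm_num) (by norm_num) (by norm_num) (by norm_num) (by norm_num)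
  have e1 : C11.l = (12801 / 262144 : ℝ) := rfl
  have e2 : C11.u = (63 / 1024 : ℝ) := rfl
  have e3 : C11.a1 = -(57293965 / 4194304 : ℝ) := by norm_num [C11]
  have e4 : C11.a2 = -(486569025 / 4194304 : ℝ) := by norm_num [C11]
  have e5 : C11.e = (-343186643 / 4194304 : ℝ) := rfl
  have e6 : C11.f = (13617953 / 67108864 : ℝ) + (742146643 / 268435456 : ℝ) + (-964675749 / 268435456 : ℝ) := by norm_num [C11]
  rw [e1, e2, e3, e4, e5, e6]
  exact h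

/-- The hypotheses at the origin. -/
lemma horig (lam : ℝ) (hd : (20 : ℝ) * lam ^ 2 = 1) (hb : |lam| ≤ (1920767767 / 8589934592 : ℝ)) :
    OriginH 20 lam (87579 / 65536 : ℝ) (868797 / 65536 : ℝ) (379421 / 32768 : ℝ) (107 / 256 : ℝ) (137 / 4096 : ℝ) (45 / 512 : ℝ) (4233 / 4096 : ℝ) (1 / 256 : ℝ) 3298534883328 := by
  refine originH_of_num (d := 20) (by push_cast; exact hd) hb (by norm_num) (by norm_num) (by norm_num) (by norm_num)
    (by norm_num) (by norm_num) (by norm_num) (by norm_num) (by norm_num) (by norm_num) (by norm_num [S]) (by norm_num) ?_ ?_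
  · rw [hch]
    norm_num [abs_of_pos, abs_of_neg]
  · norm_num [abs_of_pos, abs_of_neg]

/-- Nonreconstruction at the bound. -/
theorem main : Tendsto (reconError 3 20 (-(1 / Real.sqrt 20))) atTop (𝓝 0) := by
  have hsq : Real.sqrt ((20 : ℕ) : ℝ) ^ 2 = 20 := by
    rw [Real.sq_sqrt (by positivity)]; norm_num
  have hsq' : Real.sqrt (20 : ℝ) ^ 2 = 20 := by
    rw [Real.sq_sqrt (by positivity)]
  have hs0 : 0 < Real.sqrt (20 : ℝ) := Real.sqrt_pos.2 (by norm_num)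
  have hl2 : ((20 : ℝ)) * (-(1 / Real.sqrt 20)) ^ 2 = 1 := by
    have : (-(1 / Real.sqrt (20 : ℝ))) ^ 2 = 1 / 20 := by
      rw [neg_sq, div_pow, hsq']; norm_num
    rw [this]; norm_num
  have hb : |(-(1 / Real.sqrt (20 : ℝ)))| ≤ (1920767767 / 8589934592 : ℝ) := by
    rw [abs_neg, abs_of_pos (by positivity)]
    rw [div_le_iff₀ hs0]
    have h1 : (1 : ℝ) ^ 2 ≤ ((1920767767 / 8589934592 : ℝ) * Real.sqrt 20) ^ 2 := by
      rw [mul_pow, hsq']; norm_num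
    exact le_of_sq_le_sq h1 (by positivity)
  have hb2 : (-(1 / 2) : ℝ) < -(1 / Real.sqrt (20 : ℝ)) := by
    have h2 := (abs_le.1 hb).1
    have h3 : ((1920767767 / 8589934592 : ℝ) : ℝ) < 1 / 2 := by norm_num
    linarith
  have h1 : (-(1 / Real.sqrt (20 : ℝ))) < 1 := by
    have : 0 < 1 / Real.sqrt (20 : ℝ) := by positivity
    linarith
  have hlam : |(S : ℝ) * (-(1 / Real.sqrt (20 : ℝ))) - ((P.lp : ℝ) - P.ln)| ≤ ((1 : ℕ) : ℝ) := by
    have h := lam_enc 20 16112567856389042 (by norm_num) (by norm_num [S]) (by norm_num [S])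
    have e : ((20 : ℕ) : ℝ) = (20 : ℝ) := by norm_num
    rw [e] at h
    exact h
  obtain ⟨hOa, hON⟩ := horig _ hl2 hb
  refine final_of_box (d := 20) (by norm_num) hb2 h1 (box hlam) (87579 / 65536 : ℝ) (868797 / 65536 : ℝ) (379421 / 32768 : ℝ) (107 / 256 : ℝ) (45 / 512 : ℝ) (4233 / 4096 : ℝ) (5243 / 1048576 : ℝ) (29769 / 16384 : ℝ) (137 / 4096 : ℝ) (63 / 1024 : ℝ) cellsL
    (by norm_num) (by norm_num) (by norm_num) (by norm_num) (by norm_num) (by norm_num) (by norm_num) (by norm_num) (by norm_num)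
    (by norm_num) (by norm_num) (by norm_num) (by norm_num) (by norm_num) hOa hON rTa rTb rc1 rc2 rc3
    (forall_cons rcell0 (forall_cons rcell1 (forall_cons rcell2 (forall_cons rcell3 (forall_cons rcell4 (forall_cons rcell5 (forall_cons rcell6 (forall_cons rcell7 (forall_cons rcell8 (forall_cons rcell9 (forall_cons rcell10 (forall_cons rcell11 (forall_nil))))))))))))) hcover (forall_cons lcell0 (forall_cons lcell1 (forall_cons lcell2 (forall_cons lcell3 (forall_cons lcell4 (forall_cons lcell5 (forall_cons lcell6 (forall_cons lcell7 (forall_cons lcell8 (forall_cons lcell9 (forall_cons lcell10 (forall_cons lcell11 (forall_nil)))))))))))))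

end Vale.Agent.P154H.Tm.D20
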