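import Vale.Agent.P154H.D.D21
import Vale.Agent.P154H.FinalD
import Vale.Agent.P154H.OriginW

open Filter Topology

set_option maxRecDepth 100000

/-!
Nonreconstruction at the Kesten-Stigum bound for `d = 21`, negative eigenvalue.
-/

namespace Vale.Agent.P154H.Tm.D21

open Vale.Agent.P154 Vale.Agent.P154H

/-- A chord cell. -/
noncomputable def C0 : Cell := ⟨(5243 / 1048576 : ℝ), (1635 / 262144 : ℝ), (-26425 / 1024 : ℝ), (-1056419655 / 4194304 : ℝ), (-944108299 / 4194304 : ℝ), (-225051 / 67108864 : ℝ)⟩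

/-- A chord cell. -/
noncomputable def C1 : Cell := ⟨(1635 / 262144 : ℝ), (2039 / 262144 : ℝ), (-53054581 / 2097152 : ℝ), (-515280619 / 2097152 : ℝ), (-114761487 / 524288 : ℝ), (-1368889 / 268435456 : ℝ)⟩

/-- A chord cell. -/
noncomputable def C2 : Cell := ⟨(2039 / 262144 : ℝ), (2543 / 262144 : ℝ), (-51676287 / 2097152 : ℝ), (-249727609 / 1048576 : ℝ), (-443305607 / 2097152 : ℝ), (-1840801 / 268435456 : ℝ)⟩

/-- A chord cell. -/
noncomputable def C3 : Cell := ⟨(2543 / 262144 : ℝ), (3173 / 262144 : ℝ), (-100347227 / 4194304 : ℝ), (-961347875 / 4194304 : ℝ), (-848739869 / 4194304 : ℝ), (-1503609 / 134217728 : ℝ)⟩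

/-- A chord cell. -/
noncomputable def C4 : Cell := ⟨(3173 / 262144 : ℝ), (3957 / 262144 : ℝ), (-12023371 / 524288 : ℝ), (-917235569 / 4194304 : ℝ), (-803675801 / 4194304 : ℝ), (-4956667 / 268435456 : ℝ)⟩

/-- A chord cell. -/
noncomputable def C5 : Cell := ⟨(3957 / 262144 : ℝ), (617 / 32768 : ℝ), (-91942023 / 4194304 : ℝ), (-432473407 / 2097152 : ℝ), (-750681987 / 4194304 : ℝ), (-8174315 / 268435456 : ℝ)⟩

/-- A chord cell. -/
noncomputable def C6 : Cell := ⟨(617 / 32768 : ℝ), (1539 / 65536 : ℝ), (-86558319 / 4194304 : ℝ), (-50209949 / 262144 : ℝ), (-344622337 / 2097152 : ℝ), (-11699507 / 268435456 : ℝ)⟩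

/-- A chord cell. -/
noncomputable def C7 : Cell := ⟨(1539 / 65536 : ℝ), (7679 / 262144 : ℝ), (-80474167 / 4194304 : ℝ), (-734226183 / 4194304 : ℝ), (-619316663 / 4194304 : ℝ), (-18599765 / 268435456 : ℝ)⟩

/-- A chord cell. -/
noncomputable def C8 : Cell := ⟨(7679 / 262144 : ℝ), (4789 / 131072 : ℝ), (-74768545 / 4194304 : ℝ), (-330447623 / 2097152 : ℝ), (-541537755 / 4194304 : ℝ), (-37443517 / 268435456 : ℝ)⟩

/-- A chord cell. -/
noncomputable def C9 : Cell := ⟨(4789 / 131072 : ℝ), (11947 / 262144 : ℝ), (-66794271 / 4194304 : ℝ), (-72867129 / 524288 : ℝ), (-228770167 / 2097152 : ℝ), (-33090279 / 134217728 : ℝ)⟩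

/-- A chord cell. -/
noncomputable def C10 : Cell := ⟨(11947 / 262144 : ℝ), (15 / 256 : ℝ), (-30128361 / 2097152 : ℝ), (-514993815 / 4194304 : ℝ), (-45452175 / 524288 : ℝ), (-5195485 / 8388608 : ℝ)⟩

/-- The chord cells. -/
noncomputable def cellsL : List Cell := [C0, C1, C2, C3, C4, C5, C6, C7, C8, C9, C10]

lemma hcover : ∀ x : ℝ, (5243 / 1048576 : ℝ) ≤ x → x ≤ (15 / 256 : ℝ) → ∃ D ∈ cellsL, D.l ≤ x ∧ x ≤ D.u := by
  refine cover_of_chain ?_ (by norm_num [C0])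
  simp only [ChainP, C0, C1, C2, C3, C4, C5, C6, C7, C8, C9, C10]
  norm_num

lemma hch : ((Nat.choose 21 2 : ℕ) : ℝ) = 210 := by norm_num [Nat.choose]

lemma rTa : Rw4 P.r1 (1179648 : ℝ) (coTa 21 (87579 / 65536 : ℝ) (868797 / 65536 : ℝ) (379421 / 32768 : ℝ) (107 / 256 : ℝ) (125 / 4096 : ℝ)) := by
  refine ⟨⟨Ra, List.mem_cons_self, ?_⟩, by norm_num⟩
  constructor <;> norm_num [Ra, coTa, hch]

lemma rTb : Rw4 P.r1 (39582418599936 : ℝ) (coTb 21 (87579 / 65536 : ℝ) (868797 / 65536 : ℝ) (379421 / 32768 : ℝ) (107 / 256 : ℝ) (125 / 4096 : ℝ) (45 / 512 : ℝ) (4233 / 4096 : ℝ) (32821 / 16384 : ℝ)) := by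
  refine ⟨⟨Rb, List.mem_cons_of_mem _ (List.mem_cons_self), ?_⟩, by norm_num⟩
  constructor <;> norm_num [Rb, coTb, hch]

lemma rc1 : Rw4 P.r2 (16777216 : ℝ) ⟨0, 0, 0, -(87579 / 65536 : ℝ), 0, 0, 0, 0, (379421 / 32768 : ℝ) * (45 / 512 : ℝ)⟩ := by
  refine ⟨⟨Q0, List.mem_cons_self, ?_⟩, by norm_num⟩
  constructor <;> norm_num [Q0]

lemma rc2 : Rw4 P.r2 (134217728 : ℝ) ⟨0, 0, 0, 0, -(868797 / 65536 : ℝ), 0, 0, 0, (379421 / 32768 : ℝ) * (4233 / 4096 : ℝ)⟩ := by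
  refine ⟨⟨Q1, List.mem_cons_of_mem _ (List.mem_cons_self), ?_⟩, by norm_num⟩
  constructor <;> norm_num [Q1]

lemma rc3 : Rw4 P.r2 (768 : ℝ) ⟨0, 0, 0, 0, 0, -1, 0, 0, (15 / 256 : ℝ)⟩ := by
  refine ⟨⟨Q2, List.mem_cons_of_mem _ (List.mem_cons_of_mem _ (List.mem_cons_self)), ?_⟩, by norm_num⟩
  constructor <;> norm_num [Q2]

lemma rcell0 : ∃ N : ℝ, Rw4 P.r2 N (coCell (87579 / 65536 : ℝ) (868797 / 65536 : ℝ) ((379421 / 32768 : ℝ) + (107 / 256 : ℝ)) (125 / 4096 : ℝ) C0) := by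
  refine ⟨(603979776 : ℝ), ⟨Q3, List.mem_cons_of_mem _ (List.mem_cons_of_mem _ (List.mem_cons_of_mem _ (List.mem_cons_self))), ?_⟩, by norm_num⟩
  constructor <;> norm_num [Q3, coCell, C0]

lemma lcell0 : ∀ x1 x2 xc : ℝ, 0 ≤ x1 → x1 ≤ 1 → 0 ≤ x2 → x2 ≤ 1 → C0.l ≤ xc → xc ≤ C0.u →
    (87579 / 65536 : ℝ) * (1 - (1 - x1) ^ 21) + (868797 / 65536 : ℝ) * (1 - (1 - x2) ^ 21) - ((379421 / 32768 : ℝ) + (107 / 256 : ℝ)) * (1 - (1 - xc) ^ 21)
      ≤ - C0.a1 * x1 - C0.a2 * x2 + C0.e * xc + C0.f := by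
  have h := cell_lines 21 (α1 := (87579 / 65536 : ℝ)) (α2 := (868797 / 65536 : ℝ)) (c := (379421 / 32768 : ℝ) + (107 / 256 : ℝ)) (y1 := (1097 / 262144 : ℝ)) (y2 := (1309 / 262144 : ℝ))
    (A1 := (26425 / 1024 : ℝ)) (B1 := (625609 / 134217728 : ℝ)) (A2 := (1056419655 / 4194304 : ℝ)) (B2 := (17493901 / 268435456 : ℝ)) (l := (5243 / 1048576 : ℝ)) (u := (1635 / 262144 : ℝ))
    (E := (-944108299 / 4194304 : ℝ)) (F := (-19645323 / 268435456 : ℝ)) (by norm_num) (by norm_num) (by norm_num) (by norm_num) (by norm_num)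
    (by norm_num) (by norm_num) (by norm_num) (by norm_num) (by norm_num) (by norm_num) (by norm_num) (by norm_num) (by norm_num) (by norm_num)
  have e1 : C0.l = (5243 / 1048576 : ℝ) := rfl
  have e2 : C0.u = (1635 / 262144 : ℝ) := rfl
  have e3 : C0.a1 = -(26425 / 1024 : ℝ) := by norm_num [C0]
  have e4 : C0.a2 = -(1056419655 / 4194304 : ℝ) := by norm_num [C0]
  have e5 : C0.e = (-944108299 / 4194304 : ℝ) := rfl
  have e6 : C0.f = (625609 / 134217728 : ℝ) + (17493901 / 268435456 : ℝ) + (-19645323 / 268435456 : ℝ) := by norm_num [C0]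
  rw [e1, e2, e3, e4, e5, e6]
  exact h

lemma rcell1 : ∃ N : ℝ, Rw4 P.r2 N (coCell (87579 / 65536 : ℝ) (868797 / 65536 : ℝ) ((379421 / 32768 : ℝ) + (107 / 256 : ℝ)) (125 / 4096 : ℝ) C1) := by
  refine ⟨(2415919104 : ℝ), ⟨Q4, List.mem_cons_of_mem _ (List.mem_cons_of_mem _ (List.mem_cons_of_mem _ (List.mem_cons_of_mem _ (List.mem_cons_self)))), ?_⟩, by norm_num⟩
  constructor <;> norm_num [Q4, coCell, C1]

lemma lcell1 : ∀ x1 x2 xc : ℝ, 0 ≤ x1 → x1 ≤ 1 → 0 ≤ x2 → x2 ≤ 1 → C1.l ≤ xc → xc ≤ C1.u →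
    (87579 / 65536 : ℝ) * (1 - (1 - x1) ^ 21) + (868797 / 65536 : ℝ) * (1 - (1 - x2) ^ 21) - ((379421 / 32768 : ℝ) + (107 / 256 : ℝ)) * (1 - (1 - xc) ^ 21)
      ≤ - C1.a1 * x1 - C1.a2 * x2 + C1.e * xc + C1.f := by
  have h := cell_lines 21 (α1 := (87579 / 65536 : ℝ)) (α2 := (868797 / 65536 : ℝ)) (c := (379421 / 32768 : ℝ) + (107 / 256 : ℝ)) (y1 := (339 / 65536 : ℝ)) (y2 := (51 / 8192 : ℝ))
    (A1 := (53054581 / 2097152 : ℝ)) (B1 := (1888127 / 268435456 : ℝ)) (A2 := (515280619 / 2097152 : ℝ)) (B2 := (3346659 / 33554432 : ℝ)) (l := (1635 / 262144 : ℝ)) (u := (2039 / 262144 : ℝ))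
    (E := (-114761487 / 524288 : ℝ)) (F := (-1876893 / 16777216 : ℝ)) (by norm_num) (by norm_num) (by norm_num) (by norm_num) (by norm_num)
    (by norm_num) (by norm_num) (by norm_num) (by norm_num) (by norm_num) (by norm_num) (by norm_num) (by norm_num) (by norm_num) (by norm_num)
  have e1 : C1.l = (1635 / 262144 : ℝ) := rfl
  have e2 : C1.u = (2039 / 262144 : ℝ) := rfl
  have e3 : C1.a1 = -(53054581 / 2097152 : ℝ) := by norm_num [C1]
  have e4 : C1.a2 = -(515280619 / 2097152 : ℝ) := by norm_num [C1]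
  have e5 : C1.e = (-114761487 / 524288 : ℝ) := rfl
  have e6 : C1.f = (1888127 / 268435456 : ℝ) + (3346659 / 33554432 : ℝ) + (-1876893 / 16777216 : ℝ) := by norm_num [C1]
  rw [e1, e2, e3, e4, e5, e6]
  exact h

lemma rcell2 : ∃ N : ℝ, Rw4 P.r2 N (coCell (87579 / 65536 : ℝ) (868797 / 65536 : ℝ) ((379421 / 32768 : ℝ) + (107 / 256 : ℝ)) (125 / 4096 : ℝ) C2) := by
  refine ⟨(2415919104 : ℝ), ⟨Q5, List.mem_cons_of_mem _ (List.mem_cons_of_mem _ (List.mem_cons_of_mem _ (List.mem_cons_of_mem _ (List.mem_cons_of_mem _ (List.mem_cons_self))))), ?_⟩, by norm_num⟩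
  constructor <;> norm_num [Q5, coCell, C2]

lemma lcell2 : ∀ x1 x2 xc : ℝ, 0 ≤ x1 → x1 ≤ 1 → 0 ≤ x2 → x2 ≤ 1 → C2.l ≤ xc → xc ≤ C2.u →
    (87579 / 65536 : ℝ) * (1 - (1 - x1) ^ 21) + (868797 / 65536 : ℝ) * (1 - (1 - x2) ^ 21) - ((379421 / 32768 : ℝ) + (107 / 256 : ℝ)) * (1 - (1 - xc) ^ 21)
      ≤ - C2.a1 * x1 - C2.a2 * x2 + C2.e * xc + C2.f := by
  have h := cell_lines 21 (α1 := (87579 / 65536 : ℝ)) (α2 := (868797 / 65536 : ℝ)) (c := (379421 / 32768 : ℝ) + (107 / 256 : ℝ)) (y1 := (1699 / 262144 : ℝ)) (y2 := (1019 / 131072 : ℝ))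
    (A1 := (51676287 / 2097152 : ℝ)) (B1 := (1457815 / 134217728 : ℝ)) (A2 := (249727609 / 1048576 : ℝ)) (B2 := (40945027 / 268435456 : ℝ)) (l := (2039 / 262144 : ℝ)) (u := (2543 / 262144 : ℝ))
    (E := (-443305607 / 2097152 : ℝ)) (F := (-22850729 / 134217728 : ℝ)) (by norm_num) (by norm_num) (by norm_num) (by norm_num) (by norm_num)
    (by norm_num) (by norm_num) (by norm_num) (by norm_num) (by norm_num) (by norm_num) (by norm_num) (by norm_num) (by norm_num) (by norm_num)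
  have e1 : C2.l = (2039 / 262144 : ℝ) := rfl
  have e2 : C2.u = (2543 / 262144 : ℝ) := rfl
  have e3 : C2.a1 = -(51676287 / 2097152 : ℝ) := by norm_num [C2]
  have e4 : C2.a2 = -(249727609 / 1048576 : ℝ) := by norm_num [C2]
  have e5 : C2.e = (-443305607 / 2097152 : ℝ) := rfl
  have e6 : C2.f = (1457815 / 134217728 : ℝ) + (40945027 / 268435456 : ℝ) + (-22850729 / 134217728 : ℝ) := by norm_num [C2]
  rw [e1, e2, e3, e4, e5, e6]
  exact h

lemma rcell3 : ∃ N : ℝ, Rw4 P.r2 N (coCell (87579 / 65536 : ℝ) (868797 / 65536 : ℝ) ((379421 / 32768 : ℝ) + (107 / 256 : ℝ)) (125 / 4096 : ℝ) C3) := by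
  refine ⟨(1207959552 : ℝ), ⟨Q6, List.mem_cons_of_mem _ (List.mem_cons_of_mem _ (List.mem_cons_of_mem _ (List.mem_cons_of_mem _ (List.mem_cons_of_mem _ (List.mem_cons_of_mem _ (List.mem_cons_self)))))), ?_⟩, by norm_num⟩
  constructor <;> norm_num [Q6, coCell, C3]

lemma lcell3 : ∀ x1 x2 xc : ℝ, 0 ≤ x1 → x1 ≤ 1 → 0 ≤ x2 → x2 ≤ 1 → C3.l ≤ xc → xc ≤ C3.u →
    (87579 / 65536 : ℝ) * (1 - (1 - x1) ^ 21) + (868797 / 65536 : ℝ) * (1 - (1 - x2) ^ 21) - ((379421 / 32768 : ℝ) + (107 / 256 : ℝ)) * (1 - (1 - xc) ^ 21)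
      ≤ - C3.a1 * x1 - C3.a2 * x2 + C3.e * xc + C3.f := by
  have h := cell_lines 21 (α1 := (87579 / 65536 : ℝ)) (α2 := (868797 / 65536 : ℝ)) (c := (379421 / 32768 : ℝ) + (107 / 256 : ℝ)) (y1 := (2083 / 262144 : ℝ)) (y2 := (317 / 32768 : ℝ))
    (A1 := (100347227 / 4194304 : ℝ)) (B1 := (4302443 / 268435456 : ℝ)) (A2 := (961347875 / 4194304 : ℝ)) (B2 := (30952103 / 134217728 : ℝ)) (l := (2543 / 262144 : ℝ)) (u := (3173 / 262144 : ℝ))
    (E := (-848739869 / 4194304 : ℝ)) (F := (-69213867 / 268435456 : ℝ)) (by norm_num) (by norm_num) (by norm_num) (by norm_num) (by norm_num)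
    (by norm_num) (by norm_num) (by norm_num) (by norm_num) (by norm_num) (by norm_num) (by norm_num) (by norm_num) (by norm_num) (by norm_num)
  have e1 : C3.l = (2543 / 262144 : ℝ) := rfl
  have e2 : C3.u = (3173 / 262144 : ℝ) := rfl
  have e3 : C3.a1 = -(100347227 / 4194304 : ℝ) := by norm_num [C3]
  have e4 : C3.a2 = -(961347875 / 4194304 : ℝ) := by norm_num [C3]
  have e5 : C3.e = (-848739869 / 4194304 : ℝ) := rfl
  have e6 : C3.f = (4302443 / 268435456 : ℝ) + (30952103 / 134217728 : ℝ) + (-69213867 / 268435456 : ℝ) := by norm_num [C3]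
  rw [e1, e2, e3, e4, e5, e6]
  exact h

lemma rcell4 : ∃ N : ℝ, Rw4 P.r2 N (coCell (87579 / 65536 : ℝ) (868797 / 65536 : ℝ) ((379421 / 32768 : ℝ) + (107 / 256 : ℝ)) (125 / 4096 : ℝ) C4) := by
  refine ⟨(2415919104 : ℝ), ⟨Q7, List.mem_cons_of_mem _ (List.mem_cons_of_mem _ (List.mem_cons_of_mem _ (List.mem_cons_of_mem _ (List.mem_cons_of_mem _ (List.mem_cons_of_mem _ (List.mem_cons_of_mem _ (List.mem_cons_self))))))), ?_⟩, by norm_num⟩
  constructor <;> norm_num [Q7, coCell, C4]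

lemma lcell4 : ∀ x1 x2 xc : ℝ, 0 ≤ x1 → x1 ≤ 1 → 0 ≤ x2 → x2 ≤ 1 → C4.l ≤ xc → xc ≤ C4.u →
    (87579 / 65536 : ℝ) * (1 - (1 - x1) ^ 21) + (868797 / 65536 : ℝ) * (1 - (1 - x2) ^ 21) - ((379421 / 32768 : ℝ) + (107 / 256 : ℝ)) * (1 - (1 - xc) ^ 21)
      ≤ - C4.a1 * x1 - C4.a2 * x2 + C4.e * xc + C4.f := by
  have h := cell_lines 21 (α1 := (87579 / 65536 : ℝ)) (α2 := (868797 / 65536 : ℝ)) (c := (379421 / 32768 : ℝ) + (107 / 256 : ℝ)) (y1 := (2633 / 262144 : ℝ)) (y2 := (3145 / 262144 : ℝ))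
    (A1 := (12023371 / 524288 : ℝ)) (B1 := (6695569 / 268435456 : ℝ)) (A2 := (917235569 / 4194304 : ℝ)) (B2 := (92470881 / 268435456 : ℝ)) (l := (3173 / 262144 : ℝ)) (u := (3957 / 262144 : ℝ))
    (E := (-803675801 / 4194304 : ℝ)) (F := (-104123117 / 268435456 : ℝ)) (by norm_num) (by norm_num) (by norm_num) (by norm_num) (by norm_num)
    (by norm_num) (by norm_num) (by norm_num) (by norm_num) (by norm_num) (by norm_num) (by norm_num) (by norm_num) (by norm_num) (by norm_num)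
  have e1 : C4.l = (3173 / 262144 : ℝ) := rfl
  have e2 : C4.u = (3957 / 262144 : ℝ) := rfl
  have e3 : C4.a1 = -(12023371 / 524288 : ℝ) := by norm_num [C4]
  have e4 : C4.a2 = -(917235569 / 4194304 : ℝ) := by norm_num [C4]
  have e5 : C4.e = (-803675801 / 4194304 : ℝ) := rfl
  have e6 : C4.f = (6695569 / 268435456 : ℝ) + (92470881 / 268435456 : ℝ) + (-104123117 / 268435456 : ℝ) := by norm_num [C4]
  rw [e1, e2, e3, e4, e5, e6]
  exact h

lemma rcell5 : ∃ N : ℝ, Rw4 P.r2 N (coCell (87579 / 65536 : ℝ) (868797 / 65536 : ℝ) ((379421 / 32768 : ℝ) + (107 / 256 : ℝ)) (125 / 4096 : ℝ) C5) := by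
  refine ⟨(2415919104 : ℝ), ⟨Q8, List.mem_cons_of_mem _ (List.mem_cons_of_mem _ (List.mem_cons_of_mem _ (List.mem_cons_of_mem _ (List.mem_cons_of_mem _ (List.mem_cons_of_mem _ (List.mem_cons_of_mem _ (List.mem_cons_of_mem _ (List.mem_cons_self)))))))), ?_⟩, by norm_num⟩
  constructor <;> norm_num [Q8, coCell, C5]

lemma lcell5 : ∀ x1 x2 xc : ℝ, 0 ≤ x1 → x1 ≤ 1 → 0 ≤ x2 → x2 ≤ 1 → C5.l ≤ xc → xc ≤ C5.u →
    (87579 / 65536 : ℝ) * (1 - (1 - x1) ^ 21) + (868797 / 65536 : ℝ) * (1 - (1 - x2) ^ 21) - ((379421 / 32768 : ℝ) + (107 / 256 : ℝ)) * (1 - (1 - xc) ^ 21)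
      ≤ - C5.a1 * x1 - C5.a2 * x2 + C5.e * xc + C5.f := by
  have h := cell_lines 21 (α1 := (87579 / 65536 : ℝ)) (α2 := (868797 / 65536 : ℝ)) (c := (379421 / 32768 : ℝ) + (107 / 256 : ℝ)) (y1 := (1609 / 131072 : ℝ)) (y2 := (61 / 4096 : ℝ))
    (A1 := (91942023 / 4194304 : ℝ)) (B1 := (9725287 / 268435456 : ℝ)) (A2 := (432473407 / 2097152 : ℝ)) (B2 := (137418955 / 268435456 : ℝ)) (l := (3957 / 262144 : ℝ)) (u := (617 / 32768 : ℝ))
    (E := (-750681987 / 4194304 : ℝ)) (F := (-155318557 / 268435456 : ℝ)) (by norm_num) (by norm_num) (by norm_num) (by norm_num) (by norm_num)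
    (by norm_num) (by norm_num) (by norm_num) (by norm_num) (by norm_num) (by norm_num) (by norm_num) (by norm_num) (by norm_num) (by norm_num)
  have e1 : C5.l = (3957 / 262144 : ℝ) := rfl
  have e2 : C5.u = (617 / 32768 : ℝ) := rfl
  have e3 : C5.a1 = -(91942023 / 4194304 : ℝ) := by norm_num [C5]
  have e4 : C5.a2 = -(432473407 / 2097152 : ℝ) := by norm_num [C5]
  have e5 : C5.e = (-750681987 / 4194304 : ℝ) := rfl
  have e6 : C5.f = (9725287 / 268435456 : ℝ) + (137418955 / 268435456 : ℝ) + (-155318557 / 268435456 : ℝ) := by norm_num [C5]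
  rw [e1, e2, e3, e4, e5, e6]
  exact h

lemma rcell6 : ∃ N : ℝ, Rw4 P.r2 N (coCell (87579 / 65536 : ℝ) (868797 / 65536 : ℝ) ((379421 / 32768 : ℝ) + (107 / 256 : ℝ)) (125 / 4096 : ℝ) C6) := by
  refine ⟨(2415919104 : ℝ), ⟨Q9, List.mem_cons_of_mem _ (List.mem_cons_of_mem _ (List.mem_cons_of_mem _ (List.mem_cons_of_mem _ (List.mem_cons_of_mem _ (List.mem_cons_of_mem _ (List.mem_cons_of_mem _ (List.mem_cons_of_mem _ (List.mem_cons_of_mem _ (List.mem_cons_self))))))))), ?_⟩, by norm_num⟩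
  constructor <;> norm_num [Q9, coCell, C6]

lemma lcell6 : ∀ x1 x2 xc : ℝ, 0 ≤ x1 → x1 ≤ 1 → 0 ≤ x2 → x2 ≤ 1 → C6.l ≤ xc → xc ≤ C6.u →
    (87579 / 65536 : ℝ) * (1 - (1 - x1) ^ 21) + (868797 / 65536 : ℝ) * (1 - (1 - x2) ^ 21) - ((379421 / 32768 : ℝ) + (107 / 256 : ℝ)) * (1 - (1 - xc) ^ 21)
      ≤ - C6.a1 * x1 - C6.a2 * x2 + C6.e * xc + C6.f := by
  have h := cell_lines 21 (α1 := (87579 / 65536 : ℝ)) (α2 := (868797 / 65536 : ℝ)) (c := (379421 / 32768 : ℝ) + (107 / 256 : ℝ)) (y1 := (1999 / 131072 : ℝ)) (y2 := (607 / 32768 : ℝ))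
    (A1 := (86558319 / 4194304 : ℝ)) (B1 := (3615667 / 67108864 : ℝ)) (A2 := (50209949 / 262144 : ℝ)) (B2 := (25399143 / 33554432 : ℝ)) (l := (617 / 32768 : ℝ)) (u := (1539 / 65536 : ℝ))
    (E := (-344622337 / 2097152 : ℝ)) (F := (-229355319 / 268435456 : ℝ)) (by norm_num) (by norm_num) (by norm_num) (by norm_num) (by norm_num)
    (by norm_num) (by norm_num) (by norm_num) (by norm_num) (by norm_num) (by norm_num) (by norm_num) (by norm_num) (by norm_num) (by norm_num)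
  have e1 : C6.l = (617 / 32768 : ℝ) := rfl
  have e2 : C6.u = (1539 / 65536 : ℝ) := rfl
  have e3 : C6.a1 = -(86558319 / 4194304 : ℝ) := by norm_num [C6]
  have e4 : C6.a2 = -(50209949 / 262144 : ℝ) := by norm_num [C6]
  have e5 : C6.e = (-344622337 / 2097152 : ℝ) := rfl
  have e6 : C6.f = (3615667 / 67108864 : ℝ) + (25399143 / 33554432 : ℝ) + (-229355319 / 268435456 : ℝ) := by norm_num [C6]
  rw [e1, e2, e3, e4, e5, e6]
  exact h

lemma rcell7 : ∃ N : ℝ, Rw4 P.r2 N (coCell (87579 / 65536 : ℝ) (868797 / 65536 : ℝ) ((379421 / 32768 : ℝ) + (107 / 256 : ℝ)) (125 / 4096 : ℝ) C7) := by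
  refine ⟨(2415919104 : ℝ), ⟨Q10, List.mem_cons_of_mem _ (List.mem_cons_of_mem _ (List.mem_cons_of_mem _ (List.mem_cons_of_mem _ (List.mem_cons_of_mem _ (List.mem_cons_of_mem _ (List.mem_cons_of_mem _ (List.mem_cons_of_mem _ (List.mem_cons_of_mem _ (List.mem_cons_of_mem _ (List.mem_cons_self)))))))))), ?_⟩, by norm_num⟩
  constructor <;> norm_num [Q10, coCell, C7]

lemma lcell7 : ∀ x1 x2 xc : ℝ, 0 ≤ x1 → x1 ≤ 1 → 0 ≤ x2 → x2 ≤ 1 → C7.l ≤ xc → xc ≤ C7.u →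
    (87579 / 65536 : ℝ) * (1 - (1 - x1) ^ 21) + (868797 / 65536 : ℝ) * (1 - (1 - x2) ^ 21) - ((379421 / 32768 : ℝ) + (107 / 256 : ℝ)) * (1 - (1 - xc) ^ 21)
      ≤ - C7.a1 * x1 - C7.a2 * x2 + C7.e * xc + C7.f := by
  have h := cell_lines 21 (α1 := (87579 / 65536 : ℝ)) (α2 := (868797 / 65536 : ℝ)) (c := (379421 / 32768 : ℝ) + (107 / 256 : ℝ)) (y1 := (4937 / 262144 : ℝ)) (y2 := (6011 / 262144 : ℝ))
    (A1 := (80474167 / 4194304 : ℝ)) (B1 := (21090597 / 268435456 : ℝ)) (A2 := (734226183 / 4194304 : ℝ)) (B2 := (294761841 / 268435456 : ℝ)) (l := (1539 / 65536 : ℝ)) (u := (7679 / 262144 : ℝ))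
    (E := (-619316663 / 4194304 : ℝ)) (F := (-334452203 / 268435456 : ℝ)) (by norm_num) (by norm_num) (by norm_num) (by norm_num) (by norm_num)
    (by norm_num) (by norm_num) (by norm_num) (by norm_num) (by norm_num) (by norm_num) (by norm_num) (by norm_num) (by norm_num) (by norm_num)
  have e1 : C7.l = (1539 / 65536 : ℝ) := rfl
  have e2 : C7.u = (7679 / 262144 : ℝ) := rfl
  have e3 : C7.a1 = -(80474167 / 4194304 : ℝ) := by norm_num [C7]
  have e4 : C7.a2 = -(734226183 / 4194304 : ℝ) := by norm_num [C7]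
  have e5 : C7.e = (-619316663 / 4194304 : ℝ) := rfl
  have e6 : C7.f = (21090597 / 268435456 : ℝ) + (294761841 / 268435456 : ℝ) + (-334452203 / 268435456 : ℝ) := by norm_num [C7]
  rw [e1, e2, e3, e4, e5, e6]
  exact h

lemma rcell8 : ∃ N : ℝ, Rw4 P.r2 N (coCell (87579 / 65536 : ℝ) (868797 / 65536 : ℝ) ((379421 / 32768 : ℝ) + (107 / 256 : ℝ)) (125 / 4096 : ℝ) C8) := by
  refine ⟨(2415919104 : ℝ), ⟨Q11, List.mem_cons_of_mem _ (List.mem_cons_of_mem _ (List.mem_cons_of_mem _ (List.mem_cons_of_mem _ (List.mem_cons_of_mem _ (List.mem_cons_of_mem _ (List.mem_cons_of_mem _ (List.mem_cons_of_mem _ (List.mem_cons_of_mem _ (List.mem_cons_of_mem _ (List.mem_cons_of_mem _ (List.mem_cons_self))))))))))), ?_⟩, by norm_num⟩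
  constructor <;> norm_num [Q11, coCell, C8]

lemma lcell8 : ∀ x1 x2 xc : ℝ, 0 ≤ x1 → x1 ≤ 1 → 0 ≤ x2 → x2 ≤ 1 → C8.l ≤ xc → xc ≤ C8.u →
    (87579 / 65536 : ℝ) * (1 - (1 - x1) ^ 21) + (868797 / 65536 : ℝ) * (1 - (1 - x2) ^ 21) - ((379421 / 32768 : ℝ) + (107 / 256 : ℝ)) * (1 - (1 - xc) ^ 21)
      ≤ - C8.a1 * x1 - C8.a2 * x2 + C8.e * xc + C8.f := by
  have h := cell_lines 21 (α1 := (87579 / 65536 : ℝ)) (α2 := (868797 / 65536 : ℝ)) (c := (379421 / 32768 : ℝ) + (107 / 256 : ℝ)) (y1 := (5881 / 262144 : ℝ)) (y2 := (7355 / 262144 : ℝ))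
    (A1 := (74768545 / 4194304 : ℝ)) (B1 := (28617563 / 268435456 : ℝ)) (A2 := (330447623 / 2097152 : ℝ)) (B2 := (414207587 / 268435456 : ℝ)) (l := (7679 / 262144 : ℝ)) (u := (4789 / 131072 : ℝ))
    (E := (-541537755 / 4194304 : ℝ)) (F := (-480268667 / 268435456 : ℝ)) (by norm_num) (by norm_num) (by norm_num) (by norm_num) (by norm_num)
    (by norm_num) (by norm_num) (by norm_num) (by norm_num) (by norm_num) (by norm_num) (by norm_num) (by norm_num) (by norm_num) (by norm_num)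
  have e1 : C8.l = (7679 / 262144 : ℝ) := rfl
  have e2 : C8.u = (4789 / 131072 : ℝ) := rfl
  have e3 : C8.a1 = -(74768545 / 4194304 : ℝ) := by norm_num [C8]
  have e4 : C8.a2 = -(330447623 / 2097152 : ℝ) := by norm_num [C8]
  have e5 : C8.e = (-541537755 / 4194304 : ℝ) := rfl
  have e6 : C8.f = (28617563 / 268435456 : ℝ) + (414207587 / 268435456 : ℝ) + (-480268667 / 268435456 : ℝ) := by norm_num [C8]
  rw [e1, e2, e3, e4, e5, e6]
  exact h

lemma rcell9 : ∃ N : ℝ, Rw4 P.r2 N (coCell (87579 / 65536 : ℝ) (868797 / 65536 : ℝ) ((379421 / 32768 : ℝ) + (107 / 256 : ℝ)) (125 / 4096 : ℝ) C9) := by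
  refine ⟨(1207959552 : ℝ), ⟨Q12, List.mem_cons_of_mem _ (List.mem_cons_of_mem _ (List.mem_cons_of_mem _ (List.mem_cons_of_mem _ (List.mem_cons_of_mem _ (List.mem_cons_of_mem _ (List.mem_cons_of_mem _ (List.mem_cons_of_mem _ (List.mem_cons_of_mem _ (List.mem_cons_of_mem _ (List.mem_cons_of_mem _ (List.mem_cons_of_mem _ (List.mem_cons_self)))))))))))), ?_⟩, by norm_num⟩
  constructor <;> norm_num [Q12, coCell, C9]

lemma lcell9 : ∀ x1 x2 xc : ℝ, 0 ≤ x1 → x1 ≤ 1 → 0 ≤ x2 → x2 ≤ 1 → C9.l ≤ xc → xc ≤ C9.u →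
    (87579 / 65536 : ℝ) * (1 - (1 - x1) ^ 21) + (868797 / 65536 : ℝ) * (1 - (1 - x2) ^ 21) - ((379421 / 32768 : ℝ) + (107 / 256 : ℝ)) * (1 - (1 - xc) ^ 21)
      ≤ - C9.a1 * x1 - C9.a2 * x2 + C9.e * xc + C9.f := by
  have h := cell_lines 21 (α1 := (87579 / 65536 : ℝ)) (α2 := (868797 / 65536 : ℝ)) (c := (379421 / 32768 : ℝ) + (107 / 256 : ℝ)) (y1 := (3661 / 131072 : ℝ)) (y2 := (8949 / 262144 : ℝ))
    (A1 := (66794271 / 4194304 : ℝ)) (B1 := (41444587 / 268435456 : ℝ)) (A2 := (72867129 / 524288 : ℝ)) (B2 := (569061319 / 268435456 : ℝ)) (l := (4789 / 131072 : ℝ)) (u := (11947 / 262144 : ℝ))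
    (E := (-228770167 / 2097152 : ℝ)) (F := (-5286613 / 2097152 : ℝ)) (by norm_num) (by norm_num) (by norm_num) (by norm_num) (by norm_num)
    (by norm_num) (by norm_num) (by norm_num) (by norm_num) (by norm_num) (by norm_num) (by norm_num) (by norm_num) (by norm_num) (by norm_num)
  have e1 : C9.l = (4789 / 131072 : ℝ) := rfl
  have e2 : C9.u = (11947 / 262144 : ℝ) := rfl
  have e3 : C9.a1 = -(66794271 / 4194304 : ℝ) := by norm_num [C9]
  have e4 : C9.a2 = -(72867129 / 524288 : ℝ) := by norm_num [C9]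
  have e5 : C9.e = (-228770167 / 2097152 : ℝ) := rfl
  have e6 : C9.f = (41444587 / 268435456 : ℝ) + (569061319 / 268435456 : ℝ) + (-5286613 / 2097152 : ℝ) := by norm_num [C9]
  rw [e1, e2, e3, e4, e5, e6]
  exact h

lemma rcell10 : ∃ N : ℝ, Rw4 P.r2 N (coCell (87579 / 65536 : ℝ) (868797 / 65536 : ℝ) ((379421 / 32768 : ℝ) + (107 / 256 : ℝ)) (125 / 4096 : ℝ) C10) := by
  refine ⟨(75497472 : ℝ), ⟨Q13, List.mem_cons_of_mem _ (List.mem_cons_of_mem _ (List.mem_cons_of_mem _ (List.mem_cons_of_mem _ (List.mem_cons_of_mem _ (List.mem_cons_of_mem _ (List.mem_cons_of_mem _ (List.mem_cons_of_mem _ (List.mem_cons_of_mem _ (List.mem_cons_of_mem _ (List.mem_cons_of_mem _ (List.mem_cons_of_mem _ (List.mem_cons_of_mem _ (List.mem_cons_self))))))))))))), ?_⟩, by norm_num⟩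
  constructor <;> norm_num [Q13, coCell, C10]

lemma lcell10 : ∀ x1 x2 xc : ℝ, 0 ≤ x1 → x1 ≤ 1 → 0 ≤ x2 → x2 ≤ 1 → C10.l ≤ xc → xc ≤ C10.u →
    (87579 / 65536 : ℝ) * (1 - (1 - x1) ^ 21) + (868797 / 65536 : ℝ) * (1 - (1 - x2) ^ 21) - ((379421 / 32768 : ℝ) + (107 / 256 : ℝ)) * (1 - (1 - xc) ^ 21)
      ≤ - C10.a1 * x1 - C10.a2 * x2 + C10.e * xc + C10.f := by
  have h := cell_lines 21 (α1 := (87579 / 65536 : ℝ)) (α2 := (868797 / 65536 : ℝ)) (c := (379421 / 32768 : ℝ) + (107 / 256 : ℝ)) (y1 := (8631 / 262144 : ℝ)) (y2 := (10513 / 262144 : ℝ))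
    (A1 := (30128361 / 2097152 : ℝ)) (B1 := (27079355 / 134217728 : ℝ)) (A2 := (514993815 / 4194304 : ℝ)) (B2 := (91277721 / 33554432 : ℝ)) (l := (11947 / 262144 : ℝ)) (u := (15 / 256 : ℝ))
    (E := (-45452175 / 524288 : ℝ)) (F := (-475317999 / 134217728 : ℝ)) (by norm_num) (by norm_num) (by norm_num) (by norm_num) (by norm_num)
    (by norm_num) (by norm_num) (by norm_num) (by norm_num) (by norm_num) (by norm_num) (by norm_num) (by norm_num) (by norm_num) (by norm_num)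
  have e1 : C10.l = (11947 / 262144 : ℝ) := rfl
  have e2 : C10.u = (15 / 256 : ℝ) := rfl
  have e3 : C10.a1 = -(30128361 / 2097152 : ℝ) := by norm_num [C10]
  have e4 : C10.a2 = -(514993815 / 4194304 : ℝ) := by norm_num [C10]
  have e5 : C10.e = (-45452175 / 524288 : ℝ) := rfl
  have e6 : C10.f = (27079355 / 134217728 : ℝ) + (91277721 / 33554432 : ℝ) + (-475317999 / 134217728 : ℝ) := by norm_num [C10]
  rw [e1, e2, e3, e4, e5, e6]
  exact h

/-- The hypotheses at the origin. -/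
lemma horig (lam : ℝ) (hd : (21 : ℝ) * lam ^ 2 = 1) (hb : |lam| ≤ (29991638463 / 137438953472 : ℝ)) :
    OriginH 21 lam (87579 / 65536 : ℝ) (868797 / 65536 : ℝ) (379421 / 32768 : ℝ) (107 / 256 : ℝ) (125 / 4096 : ℝ) (45 / 512 : ℝ) (4233 / 4096 : ℝ) (1 / 256 : ℝ) 3298534883328 := by
  refine originH_of_num (d := 21) (by push_cast; exact hd) hb (by norm_num) (by norm_num) (by norm_num) (by norm_num)
    (by norm_num) (by norm_num) (by norm_num) (by norm_num) (by norm_num) (by norm_num) (by norm_num [S]) (by norm_num) ?_ ?_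
  · rw [hch]
    norm_num [abs_of_pos, abs_of_neg]
  · norm_num [abs_of_pos, abs_of_neg]

/-- Nonreconstruction at the bound. -/
theorem main : Tendsto (reconError 3 21 (-(1 / Real.sqrt 21))) atTop (𝓝 0) := by
  have hsq : Real.sqrt ((21 : ℕ) : ℝ) ^ 2 = 21 := by
    rw [Real.sq_sqrt (by positivity)]; norm_num
  have hsq' : Real.sqrt (21 : ℝ) ^ 2 = 21 := by
    rw [Real.sq_sqrt (by positivity)]
  have hs0 : 0 < Real.sqrt (21 : ℝ) := Real.sqrt_pos.2 (by norm_num)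
  have hl2 : ((21 : ℝ)) * (-(1 / Real.sqrt 21)) ^ 2 = 1 := by
    have : (-(1 / Real.sqrt (21 : ℝ))) ^ 2 = 1 / 21 := by
      rw [neg_sq, div_pow, hsq']; norm_num
    rw [this]; norm_num
  have hb : |(-(1 / Real.sqrt (21 : ℝ)))| ≤ (29991638463 / 137438953472 : ℝ) := by
    rw [abs_neg, abs_of_pos (by positivity)]
    rw [div_le_iff₀ hs0]
    have h1 : (1 : ℝ) ^ 2 ≤ ((29991638463 / 137438953472 : ℝ) * Real.sqrt 21) ^ 2 := by
      rw [mul_pow, hsq']; norm_num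
    exact le_of_sq_le_sq h1 (by positivity)
  have hb2 : (-(1 / 2) : ℝ) < -(1 / Real.sqrt (21 : ℝ)) := by
    have h2 := (abs_le.1 hb).1
    have h3 : ((29991638463 / 137438953472 : ℝ) : ℝ) < 1 / 2 := by norm_num
    linarith
  have h1 : (-(1 / Real.sqrt (21 : ℝ))) < 1 := by
    have : 0 < 1 / Real.sqrt (21 : ℝ) := by positivity
    linarith
  have hlam : |(S : ℝ) * (-(1 / Real.sqrt (21 : ℝ))) - ((P.lp : ℝ) - P.ln)| ≤ ((1 : ℕ) : ℝ) := by
    have h := lam_enc 21 15724256146438257 (by norm_num) (by norm_num [S]) (by norm_num [S])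
    have e : ((21 : ℕ) : ℝ) = (21 : ℝ) := by norm_num
    rw [e] at h
    exact h
  obtain ⟨hOa, hON⟩ := horig _ hl2 hb
  refine final_of_box (d := 21) (by norm_num) hb2 h1 (box hlam) (87579 / 65536 : ℝ) (868797 / 65536 : ℝ) (379421 / 32768 : ℝ) (107 / 256 : ℝ) (45 / 512 : ℝ) (4233 / 4096 : ℝ) (5243 / 1048576 : ℝ) (32821 / 16384 : ℝ) (125 / 4096 : ℝ) (15 / 256 : ℝ) cellsL
    (by norm_num) (by norm_num) (by norm_num) (by norm_num) (by norm_num) (by norm_num) (by norm_num) (by norm_num) (by norm_num)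
    (by norm_num) (by norm_num) (by norm_num) (by norm_num) (by norm_num) hOa hON rTa rTb rc1 rc2 rc3
    (forall_cons rcell0 (forall_cons rcell1 (forall_cons rcell2 (forall_cons rcell3 (forall_cons rcell4 (forall_cons rcell5 (forall_cons rcell6 (forall_cons rcell7 (forall_cons rcell8 (forall_cons rcell9 (forall_cons rcell10 (forall_nil)))))))))))) hcover (forall_cons lcell0 (forall_cons lcell1 (forall_cons lcell2 (forall_cons lcell3 (forall_cons lcell4 (forall_cons lcell5 (forall_cons lcell6 (forall_cons lcell7 (forall_cons lcell8 (forall_cons lcell9 (forall_cons lcell10 (forall_nil))))))))))))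

end Vale.Agent.P154H.Tm.D21
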