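import Vale.Agent.P154H.D.D22
import Vale.Agent.P154H.FinalD
import Vale.Agent.P154H.OriginW

open Filter Topology

set_option maxRecDepth 100000

/-!
Nonreconstruction at the Kesten-Stigum bound for `d = 22`, negative eigenvalue.
-/

namespace Vale.Agent.P154H.Tm.D22

open Vale.Agent.P154 Vale.Agent.P154H

/-- A chord cell. -/
noncomputable def C0 : Cell := ⟨(5243 / 1048576 : ℝ), (1627 / 262144 : ℝ), (-112834699 / 4194304 : ℝ), (-550643825 / 2097152 : ℝ), (-983826917 / 4194304 : ℝ), (-882729 / 268435456 : ℝ)⟩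

/-- A chord cell. -/
noncomputable def C1 : Cell := ⟨(1627 / 262144 : ℝ), (505 / 65536 : ℝ), (-1730567 / 65536 : ℝ), (-536932995 / 2097152 : ℝ), (-478056475 / 2097152 : ℝ), (-735653 / 134217728 : ℝ)⟩

/-- A chord cell. -/
noncomputable def C2 : Cell := ⟨(505 / 65536 : ℝ), (2507 / 262144 : ℝ), (-26982141 / 1048576 : ℝ), (-1041027837 / 4194304 : ℝ), (-230690855 / 1048576 : ℝ), (-2353271 / 268435456 : ℝ)⟩

/-- A chord cell. -/
noncomputable def C3 : Cell := ⟨(2507 / 262144 : ℝ), (3113 / 262144 : ℝ), (-104307181 / 4194304 : ℝ), (-62548585 / 262144 : ℝ), (-882889285 / 4194304 : ℝ), (-3011563 / 268435456 : ℝ)⟩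

/-- A chord cell. -/
noncomputable def C4 : Cell := ⟨(3113 / 262144 : ℝ), (483 / 32768 : ℝ), (-99981453 / 4194304 : ℝ), (-954401273 / 4194304 : ℝ), (-208918193 / 1048576 : ℝ), (-4893791 / 268435456 : ℝ)⟩

/-- A chord cell. -/
noncomputable def C5 : Cell := ⟨(483 / 32768 : ℝ), (4797 / 262144 : ℝ), (-95764779 / 4194304 : ℝ), (-899561479 / 4194304 : ℝ), (-780430787 / 4194304 : ℝ), (-1995465 / 67108864 : ℝ)⟩

/-- A chord cell. -/
noncomputable def C6 : Cell := ⟨(4797 / 262144 : ℝ), (2977 / 131072 : ℝ), (-45156177 / 2097152 : ℝ), (-837698369 / 4194304 : ℝ), (-179178975 / 1048576 : ℝ), (-6943859 / 134217728 : ℝ)⟩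

/-- A chord cell. -/
noncomputable def C7 : Cell := ⟨(2977 / 131072 : ℝ), (231 / 8192 : ℝ), (-84038657 / 4194304 : ℝ), (-764285163 / 4194304 : ℝ), (-322255733 / 2097152 : ℝ), (-18404549 / 268435456 : ℝ)⟩

/-- A chord cell. -/
noncomputable def C8 : Cell := ⟨(231 / 8192 : ℝ), (1147 / 32768 : ℝ), (-78341571 / 4194304 : ℝ), (-688869407 / 4194304 : ℝ), (-564509377 / 4194304 : ℝ), (-4655201 / 33554432 : ℝ)⟩

/-- A chord cell. -/
noncomputable def C9 : Cell := ⟨(1147 / 32768 : ℝ), (11391 / 262144 : ℝ), (-34901241 / 2097152 : ℝ), (-304965619 / 2097152 : ℝ), (-239185599 / 2097152 : ℝ), (-8361537 / 33554432 : ℝ)⟩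

/-- A chord cell. -/
noncomputable def C10 : Cell := ⟨(11391 / 262144 : ℝ), (57 / 1024 : ℝ), (-31595741 / 2097152 : ℝ), (-270547931 / 2097152 : ℝ), (-381803497 / 4194304 : ℝ), (-83844569 / 134217728 : ℝ)⟩

/-- The chord cells. -/
noncomputable def cellsL : List Cell := [C0, C1, C2, C3, C4, C5, C6, C7, C8, C9, C10]

lemma hcover : ∀ x : ℝ, (5243 / 1048576 : ℝ) ≤ x → x ≤ (57 / 1024 : ℝ) → ∃ D ∈ cellsL, D.l ≤ x ∧ x ≤ D.u := by
  refine cover_of_chain ?_ (by norm_num [C0])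
  simp only [ChainP, C0, C1, C2, C3, C4, C5, C6, C7, C8, C9, C10]
  norm_num

lemma hch : ((Nat.choose 22 2 : ℕ) : ℝ) = 231 := by norm_num [Nat.choose]

lemma rTa : Rw4 P.r1 (1179648 : ℝ) (coTa 22 (87579 / 65536 : ℝ) (868797 / 65536 : ℝ) (379421 / 32768 : ℝ) (107 / 256 : ℝ) (137 / 4096 : ℝ)) := by
  refine ⟨⟨Ra, List.mem_cons_self, ?_⟩, by norm_num⟩
  constructor <;> norm_num [Ra, coTa, hch]

lemma rTb : Rw4 P.r1 (39582418599936 : ℝ) (coTb 22 (87579 / 65536 : ℝ) (868797 / 65536 : ℝ) (379421 / 32768 : ℝ) (107 / 256 : ℝ) (137 / 4096 : ℝ) (45 / 512 : ℝ) (4233 / 4096 : ℝ) (36015 / 16384 : ℝ)) := by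
  refine ⟨⟨Rb, List.mem_cons_of_mem _ (List.mem_cons_self), ?_⟩, by norm_num⟩
  constructor <;> norm_num [Rb, coTb, hch]

lemma rc1 : Rw4 P.r2 (16777216 : ℝ) ⟨0, 0, 0, -(87579 / 65536 : ℝ), 0, 0, 0, 0, (379421 / 32768 : ℝ) * (45 / 512 : ℝ)⟩ := by
  refine ⟨⟨Q0, List.mem_cons_self, ?_⟩, by norm_num⟩
  constructor <;> norm_num [Q0]

lemma rc2 : Rw4 P.r2 (134217728 : ℝ) ⟨0, 0, 0, 0, -(868797 / 65536 : ℝ), 0, 0, 0, (379421 / 32768 : ℝ) * (4233 / 4096 : ℝ)⟩ := by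
  refine ⟨⟨Q1, List.mem_cons_of_mem _ (List.mem_cons_self), ?_⟩, by norm_num⟩
  constructor <;> norm_num [Q1]

lemma rc3 : Rw4 P.r2 (3072 : ℝ) ⟨0, 0, 0, 0, 0, -1, 0, 0, (57 / 1024 : ℝ)⟩ := by
  refine ⟨⟨Q2, List.mem_cons_of_mem _ (List.mem_cons_of_mem _ (List.mem_cons_self)), ?_⟩, by norm_num⟩
  constructor <;> norm_num [Q2]

lemma rcell0 : ∃ N : ℝ, Rw4 P.r2 N (coCell (87579 / 65536 : ℝ) (868797 / 65536 : ℝ) ((379421 / 32768 : ℝ) + (107 / 256 : ℝ)) (137 / 4096 : ℝ) C0) := by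
  refine ⟨(2415919104 : ℝ), ⟨Q3, List.mem_cons_of_mem _ (List.mem_cons_of_mem _ (List.mem_cons_of_mem _ (List.mem_cons_self))), ?_⟩, by norm_num⟩
  constructor <;> norm_num [Q3, coCell, C0]

lemma lcell0 : ∀ x1 x2 xc : ℝ, 0 ≤ x1 → x1 ≤ 1 → 0 ≤ x2 → x2 ≤ 1 → C0.l ≤ xc → xc ≤ C0.u →
    (87579 / 65536 : ℝ) * (1 - (1 - x1) ^ 22) + (868797 / 65536 : ℝ) * (1 - (1 - x2) ^ 22) - ((379421 / 32768 : ℝ) + (107 / 256 : ℝ)) * (1 - (1 - xc) ^ 22)
      ≤ - C0.a1 * x1 - C0.a2 * x2 + C0.e * xc + C0.f := by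
  have h := cell_lines 22 (α1 := (87579 / 65536 : ℝ)) (α2 := (868797 / 65536 : ℝ)) (c := (379421 / 32768 : ℝ) + (107 / 256 : ℝ)) (y1 := (553 / 131072 : ℝ)) (y2 := (327 / 65536 : ℝ))
    (A1 := (112834699 / 4194304 : ℝ)) (B1 := (43579 / 8388608 : ℝ)) (A2 := (550643825 / 2097152 : ℝ)) (B2 := (9575693 / 134217728 : ℝ)) (l := (5243 / 1048576 : ℝ)) (u := (1627 / 262144 : ℝ))
    (E := (-983826917 / 4194304 : ℝ)) (F := (-21428643 / 268435456 : ℝ)) (by norm_num) (by norm_num) (by norm_num) (by norm_num) (by norm_num)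
    (by norm_num) (by norm_num) (by norm_num) (by norm_num) (by norm_num) (by norm_num) (by norm_num) (by norm_num) (by norm_num) (by norm_num)
  have e1 : C0.l = (5243 / 1048576 : ℝ) := rfl
  have e2 : C0.u = (1627 / 262144 : ℝ) := rfl
  have e3 : C0.a1 = -(112834699 / 4194304 : ℝ) := by norm_num [C0]
  have e4 : C0.a2 = -(550643825 / 2097152 : ℝ) := by norm_num [C0]
  have e5 : C0.e = (-983826917 / 4194304 : ℝ) := rfl
  have e6 : C0.f = (43579 / 8388608 : ℝ) + (9575693 / 134217728 : ℝ) + (-21428643 / 268435456 : ℝ) := by norm_num [C0]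
  rw [e1, e2, e3, e4, e5, e6]
  exact h

lemma rcell1 : ∃ N : ℝ, Rw4 P.r2 N (coCell (87579 / 65536 : ℝ) (868797 / 65536 : ℝ) ((379421 / 32768 : ℝ) + (107 / 256 : ℝ)) (137 / 4096 : ℝ) C1) := by
  refine ⟨(1207959552 : ℝ), ⟨Q4, List.mem_cons_of_mem _ (List.mem_cons_of_mem _ (List.mem_cons_of_mem _ (List.mem_cons_of_mem _ (List.mem_cons_self)))), ?_⟩, by norm_num⟩
  constructor <;> norm_num [Q4, coCell, C1]

lemma lcell1 : ∀ x1 x2 xc : ℝ, 0 ≤ x1 → x1 ≤ 1 → 0 ≤ x2 → x2 ≤ 1 → C1.l ≤ xc → xc ≤ C1.u →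
    (87579 / 65536 : ℝ) * (1 - (1 - x1) ^ 22) + (868797 / 65536 : ℝ) * (1 - (1 - x2) ^ 22) - ((379421 / 32768 : ℝ) + (107 / 256 : ℝ)) * (1 - (1 - xc) ^ 22)
      ≤ - C1.a1 * x1 - C1.a2 * x2 + C1.e * xc + C1.f := by
  have h := cell_lines 22 (α1 := (87579 / 65536 : ℝ)) (α2 := (868797 / 65536 : ℝ)) (c := (379421 / 32768 : ℝ) + (107 / 256 : ℝ)) (y1 := (1337 / 262144 : ℝ)) (y2 := (1621 / 262144 : ℝ))
    (A1 := (1730567 / 65536 : ℝ)) (B1 := (1007075 / 134217728 : ℝ)) (A2 := (536932995 / 2097152 : ℝ)) (B2 := (28951641 / 268435456 : ℝ)) (l := (1627 / 262144 : ℝ)) (u := (505 / 65536 : ℝ))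
    (E := (-478056475 / 2097152 : ℝ)) (F := (-32437097 / 268435456 : ℝ)) (by norm_num) (by norm_num) (by norm_num) (by norm_num) (by norm_num)
    (by norm_num) (by norm_num) (by norm_num) (by norm_num) (by norm_num) (by norm_num) (by norm_num) (by norm_num) (by norm_num) (by norm_num)
  have e1 : C1.l = (1627 / 262144 : ℝ) := rfl
  have e2 : C1.u = (505 / 65536 : ℝ) := rfl
  have e3 : C1.a1 = -(1730567 / 65536 : ℝ) := by norm_num [C1]
  have e4 : C1.a2 = -(536932995 / 2097152 : ℝ) := by norm_num [C1]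
  have e5 : C1.e = (-478056475 / 2097152 : ℝ) := rfl
  have e6 : C1.f = (1007075 / 134217728 : ℝ) + (28951641 / 268435456 : ℝ) + (-32437097 / 268435456 : ℝ) := by norm_num [C1]
  rw [e1, e2, e3, e4, e5, e6]
  exact h

lemma rcell2 : ∃ N : ℝ, Rw4 P.r2 N (coCell (87579 / 65536 : ℝ) (868797 / 65536 : ℝ) ((379421 / 32768 : ℝ) + (107 / 256 : ℝ)) (137 / 4096 : ℝ) C2) := by
  refine ⟨(2415919104 : ℝ), ⟨Q5, List.mem_cons_of_mem _ (List.mem_cons_of_mem _ (List.mem_cons_of_mem _ (List.mem_cons_of_mem _ (List.mem_cons_of_mem _ (List.mem_cons_self))))), ?_⟩, by norm_num⟩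
  constructor <;> norm_num [Q5, coCell, C2]

lemma lcell2 : ∀ x1 x2 xc : ℝ, 0 ≤ x1 → x1 ≤ 1 → 0 ≤ x2 → x2 ≤ 1 → C2.l ≤ xc → xc ≤ C2.u →
    (87579 / 65536 : ℝ) * (1 - (1 - x1) ^ 22) + (868797 / 65536 : ℝ) * (1 - (1 - x2) ^ 22) - ((379421 / 32768 : ℝ) + (107 / 256 : ℝ)) * (1 - (1 - xc) ^ 22)
      ≤ - C2.a1 * x1 - C2.a2 * x2 + C2.e * xc + C2.f := by
  have h := cell_lines 22 (α1 := (87579 / 65536 : ℝ)) (α2 := (868797 / 65536 : ℝ)) (c := (379421 / 32768 : ℝ) + (107 / 256 : ℝ)) (y1 := (829 / 131072 : ℝ)) (y2 := (1003 / 131072 : ℝ))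
    (A1 := (26982141 / 1048576 : ℝ)) (B1 := (380939 / 33554432 : ℝ)) (A2 := (1041027837 / 4194304 : ℝ)) (B2 := (43483103 / 268435456 : ℝ)) (l := (505 / 65536 : ℝ)) (u := (2507 / 262144 : ℝ))
    (E := (-230690855 / 1048576 : ℝ)) (F := (-24441943 / 134217728 : ℝ)) (by norm_num) (by norm_num) (by norm_num) (by norm_num) (by norm_num)
    (by norm_num) (by norm_num) (by norm_num) (by norm_num) (by norm_num) (by norm_num) (by norm_num) (by norm_num) (by norm_num) (by norm_num)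
  have e1 : C2.l = (505 / 65536 : ℝ) := rfl
  have e2 : C2.u = (2507 / 262144 : ℝ) := rfl
  have e3 : C2.a1 = -(26982141 / 1048576 : ℝ) := by norm_num [C2]
  have e4 : C2.a2 = -(1041027837 / 4194304 : ℝ) := by norm_num [C2]
  have e5 : C2.e = (-230690855 / 1048576 : ℝ) := rfl
  have e6 : C2.f = (380939 / 33554432 : ℝ) + (43483103 / 268435456 : ℝ) + (-24441943 / 134217728 : ℝ) := by norm_num [C2]
  rw [e1, e2, e3, e4, e5, e6]
  exact h

lemma rcell3 : ∃ N : ℝ, Rw4 P.r2 N (coCell (87579 / 65536 : ℝ) (868797 / 65536 : ℝ) ((379421 / 32768 : ℝ) + (107 / 256 : ℝ)) (137 / 4096 : ℝ) C3) := by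
  refine ⟨(2415919104 : ℝ), ⟨Q6, List.mem_cons_of_mem _ (List.mem_cons_of_mem _ (List.mem_cons_of_mem _ (List.mem_cons_of_mem _ (List.mem_cons_of_mem _ (List.mem_cons_of_mem _ (List.mem_cons_self)))))), ?_⟩, by norm_num⟩
  constructor <;> norm_num [Q6, coCell, C3]

lemma lcell3 : ∀ x1 x2 xc : ℝ, 0 ≤ x1 → x1 ≤ 1 → 0 ≤ x2 → x2 ≤ 1 → C3.l ≤ xc → xc ≤ C3.u →
    (87579 / 65536 : ℝ) * (1 - (1 - x1) ^ 22) + (868797 / 65536 : ℝ) * (1 - (1 - x2) ^ 22) - ((379421 / 32768 : ℝ) + (107 / 256 : ℝ)) * (1 - (1 - xc) ^ 22)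
      ≤ - C3.a1 * x1 - C3.a2 * x2 + C3.e * xc + C3.f := by
  have h := cell_lines 22 (α1 := (87579 / 65536 : ℝ)) (α2 := (868797 / 65536 : ℝ)) (c := (379421 / 32768 : ℝ) + (107 / 256 : ℝ)) (y1 := (2081 / 262144 : ℝ)) (y2 := (1247 / 131072 : ℝ))
    (A1 := (104307181 / 4194304 : ℝ)) (B1 := (2349687 / 134217728 : ℝ)) (A2 := (62548585 / 262144 : ℝ)) (B2 := (32789167 / 134217728 : ℝ)) (l := (2507 / 262144 : ℝ)) (u := (3113 / 262144 : ℝ))
    (E := (-882889285 / 4194304 : ℝ)) (F := (-73289271 / 268435456 : ℝ)) (by norm_num) (by norm_num) (by norm_num) (by norm_num) (by norm_num)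
    (by norm_num) (by norm_num) (by norm_num) (by norm_num) (by norm_num) (by norm_num) (by norm_num) (by norm_num) (by norm_num) (by norm_num)
  have e1 : C3.l = (2507 / 262144 : ℝ) := rfl
  have e2 : C3.u = (3113 / 262144 : ℝ) := rfl
  have e3 : C3.a1 = -(104307181 / 4194304 : ℝ) := by norm_num [C3]
  have e4 : C3.a2 = -(62548585 / 262144 : ℝ) := by norm_num [C3]
  have e5 : C3.e = (-882889285 / 4194304 : ℝ) := rfl
  have e6 : C3.f = (2349687 / 134217728 : ℝ) + (32789167 / 134217728 : ℝ) + (-73289271 / 268435456 : ℝ) := by norm_num [C3]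
  rw [e1, e2, e3, e4, e5, e6]
  exact h

lemma rcell4 : ∃ N : ℝ, Rw4 P.r2 N (coCell (87579 / 65536 : ℝ) (868797 / 65536 : ℝ) ((379421 / 32768 : ℝ) + (107 / 256 : ℝ)) (137 / 4096 : ℝ) C4) := by
  refine ⟨(2415919104 : ℝ), ⟨Q7, List.mem_cons_of_mem _ (List.mem_cons_of_mem _ (List.mem_cons_of_mem _ (List.mem_cons_of_mem _ (List.mem_cons_of_mem _ (List.mem_cons_of_mem _ (List.mem_cons_of_mem _ (List.mem_cons_self))))))), ?_⟩, by norm_num⟩
  constructor <;> norm_num [Q7, coCell, C4]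

lemma lcell4 : ∀ x1 x2 xc : ℝ, 0 ≤ x1 → x1 ≤ 1 → 0 ≤ x2 → x2 ≤ 1 → C4.l ≤ xc → xc ≤ C4.u →
    (87579 / 65536 : ℝ) * (1 - (1 - x1) ^ 22) + (868797 / 65536 : ℝ) * (1 - (1 - x2) ^ 22) - ((379421 / 32768 : ℝ) + (107 / 256 : ℝ)) * (1 - (1 - xc) ^ 22)
      ≤ - C4.a1 * x1 - C4.a2 * x2 + C4.e * xc + C4.f := by
  have h := cell_lines 22 (α1 := (87579 / 65536 : ℝ)) (α2 := (868797 / 65536 : ℝ)) (c := (379421 / 32768 : ℝ) + (107 / 256 : ℝ)) (y1 := (2605 / 262144 : ℝ)) (y2 := (385 / 32768 : ℝ))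
    (A1 := (99981453 / 4194304 : ℝ)) (B1 := (7171923 / 268435456 : ℝ)) (A2 := (954401273 / 4194304 : ℝ)) (B2 := (12138571 / 33554432 : ℝ)) (l := (3113 / 262144 : ℝ)) (u := (483 / 32768 : ℝ))
    (E := (-208918193 / 1048576 : ℝ)) (F := (-54587141 / 134217728 : ℝ)) (by norm_num) (by norm_num) (by norm_num) (by norm_num) (by norm_num)
    (by norm_num) (by norm_num) (by norm_num) (by norm_num) (by norm_num) (by norm_num) (by norm_num) (by norm_num) (by norm_num) (by norm_num)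
  have e1 : C4.l = (3113 / 262144 : ℝ) := rfl
  have e2 : C4.u = (483 / 32768 : ℝ) := rfl
  have e3 : C4.a1 = -(99981453 / 4194304 : ℝ) := by norm_num [C4]
  have e4 : C4.a2 = -(954401273 / 4194304 : ℝ) := by norm_num [C4]
  have e5 : C4.e = (-208918193 / 1048576 : ℝ) := rfl
  have e6 : C4.f = (7171923 / 268435456 : ℝ) + (12138571 / 33554432 : ℝ) + (-54587141 / 134217728 : ℝ) := by norm_num [C4]
  rw [e1, e2, e3, e4, e5, e6]
  exact h

lemma rcell5 : ∃ N : ℝ, Rw4 P.r2 N (coCell (87579 / 65536 : ℝ) (868797 / 65536 : ℝ) ((379421 / 32768 : ℝ) + (107 / 256 : ℝ)) (137 / 4096 : ℝ) C5) := by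
  refine ⟨(603979776 : ℝ), ⟨Q8, List.mem_cons_of_mem _ (List.mem_cons_of_mem _ (List.mem_cons_of_mem _ (List.mem_cons_of_mem _ (List.mem_cons_of_mem _ (List.mem_cons_of_mem _ (List.mem_cons_of_mem _ (List.mem_cons_of_mem _ (List.mem_cons_self)))))))), ?_⟩, by norm_num⟩
  constructor <;> norm_num [Q8, coCell, C5]

lemma lcell5 : ∀ x1 x2 xc : ℝ, 0 ≤ x1 → x1 ≤ 1 → 0 ≤ x2 → x2 ≤ 1 → C5.l ≤ xc → xc ≤ C5.u →
    (87579 / 65536 : ℝ) * (1 - (1 - x1) ^ 22) + (868797 / 65536 : ℝ) * (1 - (1 - x2) ^ 22) - ((379421 / 32768 : ℝ) + (107 / 256 : ℝ)) * (1 - (1 - xc) ^ 22)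
      ≤ - C5.a1 * x1 - C5.a2 * x2 + C5.e * xc + C5.f := by
  have h := cell_lines 22 (α1 := (87579 / 65536 : ℝ)) (α2 := (868797 / 65536 : ℝ)) (c := (379421 / 32768 : ℝ) + (107 / 256 : ℝ)) (y1 := (3137 / 262144 : ℝ)) (y2 := (3809 / 262144 : ℝ))
    (A1 := (95764779 / 4194304 : ℝ)) (B1 := (5062817 / 134217728 : ℝ)) (A2 := (899561479 / 4194304 : ℝ)) (B2 := (143179833 / 268435456 : ℝ)) (l := (483 / 32768 : ℝ)) (u := (4797 / 262144 : ℝ))
    (E := (-780430787 / 4194304 : ℝ)) (F := (-161287327 / 268435456 : ℝ)) (by norm_num) (by norm_num) (by norm_num) (by norm_num) (by norm_num)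
    (by norm_num) (by norm_num) (by norm_num) (by norm_num) (by norm_num) (by norm_num) (by norm_num) (by norm_num) (by norm_num) (by norm_num)
  have e1 : C5.l = (483 / 32768 : ℝ) := rfl
  have e2 : C5.u = (4797 / 262144 : ℝ) := rfl
  have e3 : C5.a1 = -(95764779 / 4194304 : ℝ) := by norm_num [C5]
  have e4 : C5.a2 = -(899561479 / 4194304 : ℝ) := by norm_num [C5]
  have e5 : C5.e = (-780430787 / 4194304 : ℝ) := rfl
  have e6 : C5.f = (5062817 / 134217728 : ℝ) + (143179833 / 268435456 : ℝ) + (-161287327 / 268435456 : ℝ) := by norm_num [C5]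
  rw [e1, e2, e3, e4, e5, e6]
  exact h

lemma rcell6 : ∃ N : ℝ, Rw4 P.r2 N (coCell (87579 / 65536 : ℝ) (868797 / 65536 : ℝ) ((379421 / 32768 : ℝ) + (107 / 256 : ℝ)) (137 / 4096 : ℝ) C6) := by
  refine ⟨(1207959552 : ℝ), ⟨Q9, List.mem_cons_of_mem _ (List.mem_cons_of_mem _ (List.mem_cons_of_mem _ (List.mem_cons_of_mem _ (List.mem_cons_of_mem _ (List.mem_cons_of_mem _ (List.mem_cons_of_mem _ (List.mem_cons_of_mem _ (List.mem_cons_of_mem _ (List.mem_cons_self))))))))), ?_⟩, by norm_num⟩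
  constructor <;> norm_num [Q9, coCell, C6]

lemma lcell6 : ∀ x1 x2 xc : ℝ, 0 ≤ x1 → x1 ≤ 1 → 0 ≤ x2 → x2 ≤ 1 → C6.l ≤ xc → xc ≤ C6.u →
    (87579 / 65536 : ℝ) * (1 - (1 - x1) ^ 22) + (868797 / 65536 : ℝ) * (1 - (1 - x2) ^ 22) - ((379421 / 32768 : ℝ) + (107 / 256 : ℝ)) * (1 - (1 - xc) ^ 22)
      ≤ - C6.a1 * x1 - C6.a2 * x2 + C6.e * xc + C6.f := by
  have h := cell_lines 22 (α1 := (87579 / 65536 : ℝ)) (α2 := (868797 / 65536 : ℝ)) (c := (379421 / 32768 : ℝ) + (107 / 256 : ℝ)) (y1 := (3859 / 262144 : ℝ)) (y2 := (1171 / 65536 : ℝ))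
    (A1 := (45156177 / 2097152 : ℝ)) (B1 := (14777559 / 268435456 : ℝ)) (A2 := (837698369 / 4194304 : ℝ)) (B2 := (207241267 / 268435456 : ℝ)) (l := (4797 / 262144 : ℝ)) (u := (2977 / 131072 : ℝ))
    (E := (-179178975 / 1048576 : ℝ)) (F := (-14744159 / 16777216 : ℝ)) (by norm_num) (by norm_num) (by norm_num) (by norm_num) (by norm_num)
    (by norm_num) (by norm_num) (by norm_num) (by norm_num) (by norm_num) (by norm_num) (by norm_num) (by norm_num) (by norm_num) (by norm_num)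
  have e1 : C6.l = (4797 / 262144 : ℝ) := rfl
  have e2 : C6.u = (2977 / 131072 : ℝ) := rfl
  have e3 : C6.a1 = -(45156177 / 2097152 : ℝ) := by norm_num [C6]
  have e4 : C6.a2 = -(837698369 / 4194304 : ℝ) := by norm_num [C6]
  have e5 : C6.e = (-179178975 / 1048576 : ℝ) := rfl
  have e6 : C6.f = (14777559 / 268435456 : ℝ) + (207241267 / 268435456 : ℝ) + (-14744159 / 16777216 : ℝ) := by norm_num [C6]
  rw [e1, e2, e3, e4, e5, e6]
  exact h

lemma rcell7 : ∃ N : ℝ, Rw4 P.r2 N (coCell (87579 / 65536 : ℝ) (868797 / 65536 : ℝ) ((379421 / 32768 : ℝ) + (107 / 256 : ℝ)) (137 / 4096 : ℝ) C7) := by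
  refine ⟨(2415919104 : ℝ), ⟨Q10, List.mem_cons_of_mem _ (List.mem_cons_of_mem _ (List.mem_cons_of_mem _ (List.mem_cons_of_mem _ (List.mem_cons_of_mem _ (List.mem_cons_of_mem _ (List.mem_cons_of_mem _ (List.mem_cons_of_mem _ (List.mem_cons_of_mem _ (List.mem_cons_of_mem _ (List.mem_cons_self)))))))))), ?_⟩, by norm_num⟩
  constructor <;> norm_num [Q10, coCell, C7]

lemma lcell7 : ∀ x1 x2 xc : ℝ, 0 ≤ x1 → x1 ≤ 1 → 0 ≤ x2 → x2 ≤ 1 → C7.l ≤ xc → xc ≤ C7.u →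
    (87579 / 65536 : ℝ) * (1 - (1 - x1) ^ 22) + (868797 / 65536 : ℝ) * (1 - (1 - x2) ^ 22) - ((379421 / 32768 : ℝ) + (107 / 256 : ℝ)) * (1 - (1 - xc) ^ 22)
      ≤ - C7.a1 * x1 - C7.a2 * x2 + C7.e * xc + C7.f := by
  have h := cell_lines 22 (α1 := (87579 / 65536 : ℝ)) (α2 := (868797 / 65536 : ℝ)) (c := (379421 / 32768 : ℝ) + (107 / 256 : ℝ)) (y1 := (4743 / 262144 : ℝ)) (y2 := (2903 / 131072 : ℝ))
    (A1 := (84038657 / 4194304 : ℝ)) (B1 := (5339377 / 67108864 : ℝ)) (A2 := (764285163 / 4194304 : ℝ)) (B2 := (301101811 / 268435456 : ℝ)) (l := (2977 / 131072 : ℝ)) (u := (231 / 8192 : ℝ))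
    (E := (-322255733 / 2097152 : ℝ)) (F := (-85215967 / 67108864 : ℝ)) (by norm_num) (by norm_num) (by norm_num) (by norm_num) (by norm_num)
    (by norm_num) (by norm_num) (by norm_num) (by norm_num) (by norm_num) (by norm_num) (by norm_num) (by norm_num) (by norm_num) (by norm_num)
  have e1 : C7.l = (2977 / 131072 : ℝ) := rfl
  have e2 : C7.u = (231 / 8192 : ℝ) := rfl
  have e3 : C7.a1 = -(84038657 / 4194304 : ℝ) := by norm_num [C7]
  have e4 : C7.a2 = -(764285163 / 4194304 : ℝ) := by norm_num [C7]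
  have e5 : C7.e = (-322255733 / 2097152 : ℝ) := rfl
  have e6 : C7.f = (5339377 / 67108864 : ℝ) + (301101811 / 268435456 : ℝ) + (-85215967 / 67108864 : ℝ) := by norm_num [C7]
  rw [e1, e2, e3, e4, e5, e6]
  exact h

lemma rcell8 : ∃ N : ℝ, Rw4 P.r2 N (coCell (87579 / 65536 : ℝ) (868797 / 65536 : ℝ) ((379421 / 32768 : ℝ) + (107 / 256 : ℝ)) (137 / 4096 : ℝ) C8) := by
  refine ⟨(301989888 : ℝ), ⟨Q11, List.mem_cons_of_mem _ (List.mem_cons_of_mem _ (List.mem_cons_of_mem _ (List.mem_cons_of_mem _ (List.mem_cons_of_mem _ (List.mem_cons_of_mem _ (List.mem_cons_of_mem _ (List.mem_cons_of_mem _ (List.mem_cons_of_mem _ (List.mem_cons_of_mem _ (List.mem_cons_of_mem _ (List.mem_cons_self))))))))))), ?_⟩, by norm_num⟩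
  constructor <;> norm_num [Q11, coCell, C8]

lemma lcell8 : ∀ x1 x2 xc : ℝ, 0 ≤ x1 → x1 ≤ 1 → 0 ≤ x2 → x2 ≤ 1 → C8.l ≤ xc → xc ≤ C8.u →
    (87579 / 65536 : ℝ) * (1 - (1 - x1) ^ 22) + (868797 / 65536 : ℝ) * (1 - (1 - x2) ^ 22) - ((379421 / 32768 : ℝ) + (107 / 256 : ℝ)) * (1 - (1 - xc) ^ 22)
      ≤ - C8.a1 * x1 - C8.a2 * x2 + C8.e * xc + C8.f := by
  have h := cell_lines 22 (α1 := (87579 / 65536 : ℝ)) (α2 := (868797 / 65536 : ℝ)) (c := (379421 / 32768 : ℝ) + (107 / 256 : ℝ)) (y1 := (2801 / 131072 : ℝ)) (y2 := (7071 / 262144 : ℝ))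
    (A1 := (78341571 / 4194304 : ℝ)) (B1 := (28545231 / 268435456 : ℝ)) (A2 := (688869407 / 4194304 : ℝ)) (B2 := (419455799 / 268435456 : ℝ)) (l := (231 / 8192 : ℝ)) (u := (1147 / 32768 : ℝ))
    (E := (-564509377 / 4194304 : ℝ)) (F := (-242621319 / 134217728 : ℝ)) (by norm_num) (by norm_num) (by norm_num) (by norm_num) (by norm_num)
    (by norm_num) (by norm_num) (by norm_num) (by norm_num) (by norm_num) (by norm_num) (by norm_num) (by norm_num) (by norm_num) (by norm_num)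
  have e1 : C8.l = (231 / 8192 : ℝ) := rfl
  have e2 : C8.u = (1147 / 32768 : ℝ) := rfl
  have e3 : C8.a1 = -(78341571 / 4194304 : ℝ) := by norm_num [C8]
  have e4 : C8.a2 = -(688869407 / 4194304 : ℝ) := by norm_num [C8]
  have e5 : C8.e = (-564509377 / 4194304 : ℝ) := rfl
  have e6 : C8.f = (28545231 / 268435456 : ℝ) + (419455799 / 268435456 : ℝ) + (-242621319 / 134217728 : ℝ) := by norm_num [C8]
  rw [e1, e2, e3, e4, e5, e6]
  exact h

lemma rcell9 : ∃ N : ℝ, Rw4 P.r2 N (coCell (87579 / 65536 : ℝ) (868797 / 65536 : ℝ) ((379421 / 32768 : ℝ) + (107 / 256 : ℝ)) (137 / 4096 : ℝ) C9) := by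
  refine ⟨(301989888 : ℝ), ⟨Q12, List.mem_cons_of_mem _ (List.mem_cons_of_mem _ (List.mem_cons_of_mem _ (List.mem_cons_of_mem _ (List.mem_cons_of_mem _ (List.mem_cons_of_mem _ (List.mem_cons_of_mem _ (List.mem_cons_of_mem _ (List.mem_cons_of_mem _ (List.mem_cons_of_mem _ (List.mem_cons_of_mem _ (List.mem_cons_of_mem _ (List.mem_cons_self)))))))))))), ?_⟩, by norm_num⟩
  constructor <;> norm_num [Q12, coCell, C9]

lemma lcell9 : ∀ x1 x2 xc : ℝ, 0 ≤ x1 → x1 ≤ 1 → 0 ≤ x2 → x2 ≤ 1 → C9.l ≤ xc → xc ≤ C9.u →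
    (87579 / 65536 : ℝ) * (1 - (1 - x1) ^ 22) + (868797 / 65536 : ℝ) * (1 - (1 - x2) ^ 22) - ((379421 / 32768 : ℝ) + (107 / 256 : ℝ)) * (1 - (1 - xc) ^ 22)
      ≤ - C9.a1 * x1 - C9.a2 * x2 + C9.e * xc + C9.f := by
  have h := cell_lines 22 (α1 := (87579 / 65536 : ℝ)) (α2 := (868797 / 65536 : ℝ)) (c := (379421 / 32768 : ℝ) + (107 / 256 : ℝ)) (y1 := (219 / 8192 : ℝ)) (y2 := (8545 / 262144 : ℝ))
    (A1 := (34901241 / 2097152 : ℝ)) (B1 := (41662677 / 268435456 : ℝ)) (A2 := (304965619 / 2097152 : ℝ)) (B2 := (284828687 / 134217728 : ℝ)) (l := (1147 / 32768 : ℝ)) (u := (11391 / 262144 : ℝ))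
    (E := (-239185599 / 2097152 : ℝ)) (F := (-678212347 / 268435456 : ℝ)) (by norm_num) (by norm_num) (by norm_num) (by norm_num) (by norm_num)
    (by norm_num) (by norm_num) (by norm_num) (by norm_num) (by norm_num) (by norm_num) (by norm_num) (by norm_num) (by norm_num) (by norm_num)
  have e1 : C9.l = (1147 / 32768 : ℝ) := rfl
  have e2 : C9.u = (11391 / 262144 : ℝ) := rfl
  have e3 : C9.a1 = -(34901241 / 2097152 : ℝ) := by norm_num [C9]
  have e4 : C9.a2 = -(304965619 / 2097152 : ℝ) := by norm_num [C9]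
  have e5 : C9.e = (-239185599 / 2097152 : ℝ) := rfl
  have e6 : C9.f = (41662677 / 268435456 : ℝ) + (284828687 / 134217728 : ℝ) + (-678212347 / 268435456 : ℝ) := by norm_num [C9]
  rw [e1, e2, e3, e4, e5, e6]
  exact h

lemma rcell10 : ∃ N : ℝ, Rw4 P.r2 N (coCell (87579 / 65536 : ℝ) (868797 / 65536 : ℝ) ((379421 / 32768 : ℝ) + (107 / 256 : ℝ)) (137 / 4096 : ℝ) C10) := by
  refine ⟨(1207959552 : ℝ), ⟨Q13, List.mem_cons_of_mem _ (List.mem_cons_of_mem _ (List.mem_cons_of_mem _ (List.mem_cons_of_mem _ (List.mem_cons_of_mem _ (List.mem_cons_of_mem _ (List.mem_cons_of_mem _ (List.mem_cons_of_mem _ (List.mem_cons_of_mem _ (List.mem_cons_of_mem _ (List.mem_cons_of_mem _ (List.mem_cons_of_mem _ (List.mem_cons_of_mem _ (List.mem_cons_self))))))))))))), ?_⟩, by norm_num⟩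
  constructor <;> norm_num [Q13, coCell, C10]

lemma lcell10 : ∀ x1 x2 xc : ℝ, 0 ≤ x1 → x1 ≤ 1 → 0 ≤ x2 → x2 ≤ 1 → C10.l ≤ xc → xc ≤ C10.u →
    (87579 / 65536 : ℝ) * (1 - (1 - x1) ^ 22) + (868797 / 65536 : ℝ) * (1 - (1 - x2) ^ 22) - ((379421 / 32768 : ℝ) + (107 / 256 : ℝ)) * (1 - (1 - xc) ^ 22)
      ≤ - C10.a1 * x1 - C10.a2 * x2 + C10.e * xc + C10.f := by
  have h := cell_lines 22 (α1 := (87579 / 65536 : ℝ)) (α2 := (868797 / 65536 : ℝ)) (c := (379421 / 32768 : ℝ) + (107 / 256 : ℝ)) (y1 := (4107 / 131072 : ℝ)) (y2 := (9987 / 262144 : ℝ))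
    (A1 := (31595741 / 2097152 : ℝ)) (B1 := (13482891 / 67108864 : ℝ)) (A2 := (270547931 / 2097152 : ℝ)) (B2 := (725146987 / 268435456 : ℝ)) (l := (11391 / 262144 : ℝ)) (u := (57 / 1024 : ℝ))
    (E := (-381803497 / 4194304 : ℝ)) (F := (-946767689 / 268435456 : ℝ)) (by norm_num) (by norm_num) (by norm_num) (by norm_num) (by norm_num)
    (by norm_num) (by norm_num) (by norm_num) (by norm_num) (by norm_num) (by norm_num) (by norm_num) (by norm_num) (by norm_num) (by norm_num)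
  have e1 : C10.l = (11391 / 262144 : ℝ) := rfl
  have e2 : C10.u = (57 / 1024 : ℝ) := rfl
  have e3 : C10.a1 = -(31595741 / 2097152 : ℝ) := by norm_num [C10]
  have e4 : C10.a2 = -(270547931 / 2097152 : ℝ) := by norm_num [C10]
  have e5 : C10.e = (-381803497 / 4194304 : ℝ) := rfl
  have e6 : C10.f = (13482891 / 67108864 : ℝ) + (725146987 / 268435456 : ℝ) + (-946767689 / 268435456 : ℝ) := by norm_num [C10]
  rw [e1, e2, e3, e4, e5, e6]
  exact h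

/-- The hypotheses at the origin. -/
lemma horig (lam : ℝ) (hd : (22 : ℝ) * lam ^ 2 = 1) (hb : |lam| ≤ (58604166671 / 274877906944 : ℝ)) :
    OriginH 22 lam (87579 / 65536 : ℝ) (868797 / 65536 : ℝ) (379421 / 32768 : ℝ) (107 / 256 : ℝ) (137 / 4096 : ℝ) (45 / 512 : ℝ) (4233 / 4096 : ℝ) (1 / 256 : ℝ) 3298534883328 := by
  refine originH_of_num (d := 22) (by push_cast; exact hd) hb (by norm_num) (by norm_num) (by norm_num) (by norm_num)
    (by norm_num) (by norm_num) (by norm_num) (by norm_num) (by norm_num) (by norm_num) (by norm_num [S]) (by norm_num) ?_ ?_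
  · rw [hch]
    norm_num [abs_of_pos, abs_of_neg]
  · norm_num [abs_of_pos, abs_of_neg]

/-- Nonreconstruction at the bound. -/
theorem main : Tendsto (reconError 3 22 (-(1 / Real.sqrt 22))) atTop (𝓝 0) := by
  have hsq : Real.sqrt ((22 : ℕ) : ℝ) ^ 2 = 22 := by
    rw [Real.sq_sqrt (by positivity)]; norm_num
  have hsq' : Real.sqrt (22 : ℝ) ^ 2 = 22 := by
    rw [Real.sq_sqrt (by positivity)]
  have hs0 : 0 < Real.sqrt (22 : ℝ) := Real.sqrt_pos.2 (by norm_num)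
  have hl2 : ((22 : ℝ)) * (-(1 / Real.sqrt 22)) ^ 2 = 1 := by
    have : (-(1 / Real.sqrt (22 : ℝ))) ^ 2 = 1 / 22 := by
      rw [neg_sq, div_pow, hsq']; norm_num
    rw [this]; norm_num
  have hb : |(-(1 / Real.sqrt (22 : ℝ)))| ≤ (58604166671 / 274877906944 : ℝ) := by
    rw [abs_neg, abs_of_pos (by positivity)]
    rw [div_le_iff₀ hs0]
    have h1 : (1 : ℝ) ^ 2 ≤ ((58604166671 / 274877906944 : ℝ) * Real.sqrt 22) ^ 2 := by
      rw [mul_pow, hsq']; norm_num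
    exact le_of_sq_le_sq h1 (by positivity)
  have hb2 : (-(1 / 2) : ℝ) < -(1 / Real.sqrt (22 : ℝ)) := by
    have h2 := (abs_le.1 hb).1
    have h3 : ((58604166671 / 274877906944 : ℝ) : ℝ) < 1 / 2 := by norm_num
    linarith
  have h1 : (-(1 / Real.sqrt (22 : ℝ))) < 1 := by
    have : 0 < 1 / Real.sqrt (22 : ℝ) := by positivity
    linarith
  have hlam : |(S : ℝ) * (-(1 / Real.sqrt (22 : ℝ))) - ((P.lp : ℝ) - P.ln)| ≤ ((1 : ℕ) : ℝ) := by
    have h := lam_enc 22 15362730667747999 (by norm_num) (by norm_num [S]) (by norm_num [S])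
    have e : ((22 : ℕ) : ℝ) = (22 : ℝ) := by norm_num
    rw [e] at h
    exact h
  obtain ⟨hOa, hON⟩ := horig _ hl2 hb
  refine final_of_box (d := 22) (by norm_num) hb2 h1 (box hlam) (87579 / 65536 : ℝ) (868797 / 65536 : ℝ) (379421 / 32768 : ℝ) (107 / 256 : ℝ) (45 / 512 : ℝ) (4233 / 4096 : ℝ) (5243 / 1048576 : ℝ) (36015 / 16384 : ℝ) (137 / 4096 : ℝ) (57 / 1024 : ℝ) cellsL
    (by norm_num) (by norm_num) (by norm_num) (by norm_num) (by norm_num) (by norm_num) (by norm_num) (by norm_num) (by norm_num)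
    (by norm_num) (by norm_num) (by norm_num) (by norm_num) (by norm_num) hOa hON rTa rTb rc1 rc2 rc3
    (forall_cons rcell0 (forall_cons rcell1 (forall_cons rcell2 (forall_cons rcell3 (forall_cons rcell4 (forall_cons rcell5 (forall_cons rcell6 (forall_cons rcell7 (forall_cons rcell8 (forall_cons rcell9 (forall_cons rcell10 (forall_nil)))))))))))) hcover (forall_cons lcell0 (forall_cons lcell1 (forall_cons lcell2 (forall_cons lcell3 (forall_cons lcell4 (forall_cons lcell5 (forall_cons lcell6 (forall_cons lcell7 (forall_cons lcell8 (forall_cons lcell9 (forall_cons lcell10 (forall_nil))))))))))))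

end Vale.Agent.P154H.Tm.D22
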