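import Vale.Agent.P154H.D.D25
import Vale.Agent.P154H.FinalD
import Vale.Agent.P154H.OriginW

open Filter Topology

set_option maxRecDepth 100000

/-!
Nonreconstruction at the Kesten-Stigum bound for `d = 25`, negative eigenvalue.
-/

namespace Vale.Agent.P154H.Tm.D25

open Vale.Agent.P154 Vale.Agent.P154H

/-- A chord cell. -/
noncomputable def C0 : Cell := ⟨(5243 / 1048576 : ℝ), (1639 / 262144 : ℝ), (-495735 / 16384 : ℝ), (-616128257 / 2097152 : ℝ), (-1098701645 / 4194304 : ℝ), (-1191991 / 268435456 : ℝ)⟩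

/-- A chord cell. -/
noncomputable def C1 : Cell := ⟨(1639 / 262144 : ℝ), (1025 / 131072 : ℝ), (-30874857 / 1048576 : ℝ), (-598075105 / 2097152 : ℝ), (-33185519 / 131072 : ℝ), (-1890997 / 268435456 : ℝ)⟩

/-- A chord cell. -/
noncomputable def C2 : Cell := ⟨(1025 / 131072 : ℝ), (2563 / 262144 : ℝ), (-120089981 / 4194304 : ℝ), (-288024017 / 1048576 : ℝ), (-1017645481 / 4194304 : ℝ), (-753853 / 67108864 : ℝ)⟩

/-- A chord cell. -/
noncomputable def C3 : Cell := ⟨(2563 / 262144 : ℝ), (3205 / 262144 : ℝ), (-115410423 / 4194304 : ℝ), (-275050851 / 1048576 : ℝ), (-964777853 / 4194304 : ℝ), (-2455887 / 134217728 : ℝ)⟩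

/-- A chord cell. -/
noncomputable def C4 : Cell := ⟨(3205 / 262144 : ℝ), (501 / 32768 : ℝ), (-109874951 / 4194304 : ℝ), (-259662727 / 1048576 : ℝ), (-902350181 / 4194304 : ℝ), (-3859819 / 134217728 : ℝ)⟩

/-- A chord cell. -/
noncomputable def C5 : Cell := ⟨(501 / 32768 : ℝ), (1253 / 65536 : ℝ), (-51819499 / 2097152 : ℝ), (-964950597 / 4194304 : ℝ), (-829739169 / 4194304 : ℝ), (-5144959 / 134217728 : ℝ)⟩

/-- A chord cell. -/
noncomputable def C6 : Cell := ⟨(1253 / 65536 : ℝ), (1567 / 65536 : ℝ), (-48428337 / 2097152 : ℝ), (-442201175 / 2097152 : ℝ), (-186703543 / 1048576 : ℝ), (-2356431 / 33554432 : ℝ)⟩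

/-- A chord cell. -/
noncomputable def C7 : Cell := ⟨(1567 / 65536 : ℝ), (3919 / 131072 : ℝ), (-88233435 / 4194304 : ℝ), (-798790879 / 4194304 : ℝ), (-163574367 / 1048576 : ℝ), (-2343527 / 16777216 : ℝ)⟩

/-- A chord cell. -/
noncomputable def C8 : Cell := ⟨(3919 / 131072 : ℝ), (4901 / 131072 : ℝ), (-80243369 / 4194304 : ℝ), (-700608513 / 4194304 : ℝ), (-138511543 / 1048576 : ℝ), (-14706795 / 67108864 : ℝ)⟩

/-- A chord cell. -/
noncomputable def C9 : Cell := ⟨(4901 / 131072 : ℝ), (25 / 512 : ℝ), (-36474675 / 2097152 : ℝ), (-624075225 / 4194304 : ℝ), (-438315679 / 4194304 : ℝ), (-87539675 / 134217728 : ℝ)⟩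

/-- The chord cells. -/
noncomputable def cellsL : List Cell := [C0, C1, C2, C3, C4, C5, C6, C7, C8, C9]

lemma hcover : ∀ x : ℝ, (5243 / 1048576 : ℝ) ≤ x → x ≤ (25 / 512 : ℝ) → ∃ D ∈ cellsL, D.l ≤ x ∧ x ≤ D.u := by
  refine cover_of_chain ?_ (by norm_num [C0])
  simp only [ChainP, C0, C1, C2, C3, C4, C5, C6, C7, C8, C9]
  norm_num

lemma hch : ((Nat.choose 25 2 : ℕ) : ℝ) = 300 := by norm_num [Nat.choose]

lemma rTa : Rw4 P.r1 (1179648 : ℝ) (coTa 25 (87579 / 65536 : ℝ) (868797 / 65536 : ℝ) (379421 / 32768 : ℝ) (107 / 256 : ℝ) (73 / 2048 : ℝ)) := by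
  refine ⟨⟨Ra, List.mem_cons_self, ?_⟩, by norm_num⟩
  constructor <;> norm_num [Ra, coTa, hch]

lemma rTb : Rw4 P.r1 (9895604649984 : ℝ) (coTb 25 (87579 / 65536 : ℝ) (868797 / 65536 : ℝ) (379421 / 32768 : ℝ) (107 / 256 : ℝ) (73 / 2048 : ℝ) (45 / 512 : ℝ) (4233 / 4096 : ℝ) (11607 / 4096 : ℝ)) := by
  refine ⟨⟨Rb, List.mem_cons_of_mem _ (List.mem_cons_self), ?_⟩, by norm_num⟩
  constructor <;> norm_num [Rb, coTb, hch]

lemma rc1 : Rw4 P.r2 (16777216 : ℝ) ⟨0, 0, 0, -(87579 / 65536 : ℝ), 0, 0, 0, 0, (379421 / 32768 : ℝ) * (45 / 512 : ℝ)⟩ := by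
  refine ⟨⟨Q0, List.mem_cons_self, ?_⟩, by norm_num⟩
  constructor <;> norm_num [Q0]

lemma rc2 : Rw4 P.r2 (134217728 : ℝ) ⟨0, 0, 0, 0, -(868797 / 65536 : ℝ), 0, 0, 0, (379421 / 32768 : ℝ) * (4233 / 4096 : ℝ)⟩ := by
  refine ⟨⟨Q1, List.mem_cons_of_mem _ (List.mem_cons_self), ?_⟩, by norm_num⟩
  constructor <;> norm_num [Q1]

lemma rc3 : Rw4 P.r2 (1536 : ℝ) ⟨0, 0, 0, 0, 0, -1, 0, 0, (25 / 512 : ℝ)⟩ := by
  refine ⟨⟨Q2, List.mem_cons_of_mem _ (List.mem_cons_of_mem _ (List.mem_cons_self)), ?_⟩, by norm_num⟩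
  constructor <;> norm_num [Q2]

lemma rcell0 : ∃ N : ℝ, Rw4 P.r2 N (coCell (87579 / 65536 : ℝ) (868797 / 65536 : ℝ) ((379421 / 32768 : ℝ) + (107 / 256 : ℝ)) (73 / 2048 : ℝ) C0) := by
  refine ⟨(2415919104 : ℝ), ⟨Q3, List.mem_cons_of_mem _ (List.mem_cons_of_mem _ (List.mem_cons_of_mem _ (List.mem_cons_self))), ?_⟩, by norm_num⟩
  constructor <;> norm_num [Q3, coCell, C0]

lemma lcell0 : ∀ x1 x2 xc : ℝ, 0 ≤ x1 → x1 ≤ 1 → 0 ≤ x2 → x2 ≤ 1 → C0.l ≤ xc → xc ≤ C0.u →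
    (87579 / 65536 : ℝ) * (1 - (1 - x1) ^ 25) + (868797 / 65536 : ℝ) * (1 - (1 - x2) ^ 25) - ((379421 / 32768 : ℝ) + (107 / 256 : ℝ)) * (1 - (1 - xc) ^ 25)
      ≤ - C0.a1 * x1 - C0.a2 * x2 + C0.e * xc + C0.f := by
  have h := cell_lines 25 (α1 := (87579 / 65536 : ℝ)) (α2 := (868797 / 65536 : ℝ)) (c := (379421 / 32768 : ℝ) + (107 / 256 : ℝ)) (y1 := (135 / 32768 : ℝ)) (y2 := (1313 / 262144 : ℝ))
    (A1 := (495735 / 16384 : ℝ)) (B1 := (1715087 / 268435456 : ℝ)) (A2 := (616128257 / 2097152 : ℝ)) (B2 := (12404075 / 134217728 : ℝ)) (l := (5243 / 1048576 : ℝ)) (u := (1639 / 262144 : ℝ))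
    (E := (-1098701645 / 4194304 : ℝ)) (F := (-6928807 / 67108864 : ℝ)) (by norm_num) (by norm_num) (by norm_num) (by norm_num) (by norm_num)
    (by norm_num) (by norm_num) (by norm_num) (by norm_num) (by norm_num) (by norm_num) (by norm_num) (by norm_num) (by norm_num) (by norm_num)
  have e1 : C0.l = (5243 / 1048576 : ℝ) := rfl
  have e2 : C0.u = (1639 / 262144 : ℝ) := rfl
  have e3 : C0.a1 = -(495735 / 16384 : ℝ) := by norm_num [C0]
  have e4 : C0.a2 = -(616128257 / 2097152 : ℝ) := by norm_num [C0]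
  have e5 : C0.e = (-1098701645 / 4194304 : ℝ) := rfl
  have e6 : C0.f = (1715087 / 268435456 : ℝ) + (12404075 / 134217728 : ℝ) + (-6928807 / 67108864 : ℝ) := by norm_num [C0]
  rw [e1, e2, e3, e4, e5, e6]
  exact h

lemma rcell1 : ∃ N : ℝ, Rw4 P.r2 N (coCell (87579 / 65536 : ℝ) (868797 / 65536 : ℝ) ((379421 / 32768 : ℝ) + (107 / 256 : ℝ)) (73 / 2048 : ℝ) C1) := by
  refine ⟨(2415919104 : ℝ), ⟨Q4, List.mem_cons_of_mem _ (List.mem_cons_of_mem _ (List.mem_cons_of_mem _ (List.mem_cons_of_mem _ (List.mem_cons_self)))), ?_⟩, by norm_num⟩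
  constructor <;> norm_num [Q4, coCell, C1]

lemma lcell1 : ∀ x1 x2 xc : ℝ, 0 ≤ x1 → x1 ≤ 1 → 0 ≤ x2 → x2 ≤ 1 → C1.l ≤ xc → xc ≤ C1.u →
    (87579 / 65536 : ℝ) * (1 - (1 - x1) ^ 25) + (868797 / 65536 : ℝ) * (1 - (1 - x2) ^ 25) - ((379421 / 32768 : ℝ) + (107 / 256 : ℝ)) * (1 - (1 - xc) ^ 25)
      ≤ - C1.a1 * x1 - C1.a2 * x2 + C1.e * xc + C1.f := by
  have h := cell_lines 25 (α1 := (87579 / 65536 : ℝ)) (α2 := (868797 / 65536 : ℝ)) (c := (379421 / 32768 : ℝ) + (107 / 256 : ℝ)) (y1 := (43 / 8192 : ℝ)) (y2 := (409 / 65536 : ℝ))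
    (A1 := (30874857 / 1048576 : ℝ)) (B1 := (684121 / 67108864 : ℝ)) (A2 := (598075105 / 2097152 : ℝ)) (B2 := (9449787 / 67108864 : ℝ)) (l := (1639 / 262144 : ℝ)) (u := (1025 / 131072 : ℝ))
    (E := (-33185519 / 131072 : ℝ)) (F := (-42426629 / 268435456 : ℝ)) (by norm_num) (by norm_num) (by norm_num) (by norm_num) (by norm_num)
    (by norm_num) (by norm_num) (by norm_num) (by norm_num) (by norm_num) (by norm_num) (by norm_num) (by norm_num) (by norm_num) (by norm_num)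
  have e1 : C1.l = (1639 / 262144 : ℝ) := rfl
  have e2 : C1.u = (1025 / 131072 : ℝ) := rfl
  have e3 : C1.a1 = -(30874857 / 1048576 : ℝ) := by norm_num [C1]
  have e4 : C1.a2 = -(598075105 / 2097152 : ℝ) := by norm_num [C1]
  have e5 : C1.e = (-33185519 / 131072 : ℝ) := rfl
  have e6 : C1.f = (684121 / 67108864 : ℝ) + (9449787 / 67108864 : ℝ) + (-42426629 / 268435456 : ℝ) := by norm_num [C1]
  rw [e1, e2, e3, e4, e5, e6]
  exact h

lemma rcell2 : ∃ N : ℝ, Rw4 P.r2 N (coCell (87579 / 65536 : ℝ) (868797 / 65536 : ℝ) ((379421 / 32768 : ℝ) + (107 / 256 : ℝ)) (73 / 2048 : ℝ) C2) := by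
  refine ⟨(603979776 : ℝ), ⟨Q5, List.mem_cons_of_mem _ (List.mem_cons_of_mem _ (List.mem_cons_of_mem _ (List.mem_cons_of_mem _ (List.mem_cons_of_mem _ (List.mem_cons_self))))), ?_⟩, by norm_num⟩
  constructor <;> norm_num [Q5, coCell, C2]

lemma lcell2 : ∀ x1 x2 xc : ℝ, 0 ≤ x1 → x1 ≤ 1 → 0 ≤ x2 → x2 ≤ 1 → C2.l ≤ xc → xc ≤ C2.u →
    (87579 / 65536 : ℝ) * (1 - (1 - x1) ^ 25) + (868797 / 65536 : ℝ) * (1 - (1 - x2) ^ 25) - ((379421 / 32768 : ℝ) + (107 / 256 : ℝ)) * (1 - (1 - xc) ^ 25)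
      ≤ - C2.a1 * x1 - C2.a2 * x2 + C2.e * xc + C2.f := by
  have h := cell_lines 25 (α1 := (87579 / 65536 : ℝ)) (α2 := (868797 / 65536 : ℝ)) (c := (379421 / 32768 : ℝ) + (107 / 256 : ℝ)) (y1 := (105 / 16384 : ℝ)) (y2 := (2043 / 262144 : ℝ))
    (A1 := (120089981 / 4194304 : ℝ)) (B1 := (1001957 / 67108864 : ℝ)) (A2 := (288024017 / 1048576 : ℝ)) (B2 := (57570579 / 268435456 : ℝ)) (l := (1025 / 131072 : ℝ)) (u := (2563 / 262144 : ℝ))
    (E := (-1017645481 / 4194304 : ℝ)) (F := (-64593819 / 268435456 : ℝ)) (by norm_num) (by norm_num) (by norm_num) (by norm_num) (by norm_num)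
    (by norm_num) (by norm_num) (by norm_num) (by norm_num) (by norm_num) (by norm_num) (by norm_num) (by norm_num) (by norm_num) (by norm_num)
  have e1 : C2.l = (1025 / 131072 : ℝ) := rfl
  have e2 : C2.u = (2563 / 262144 : ℝ) := rfl
  have e3 : C2.a1 = -(120089981 / 4194304 : ℝ) := by norm_num [C2]
  have e4 : C2.a2 = -(288024017 / 1048576 : ℝ) := by norm_num [C2]
  have e5 : C2.e = (-1017645481 / 4194304 : ℝ) := rfl
  have e6 : C2.f = (1001957 / 67108864 : ℝ) + (57570579 / 268435456 : ℝ) + (-64593819 / 268435456 : ℝ) := by norm_num [C2]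
  rw [e1, e2, e3, e4, e5, e6]
  exact h

lemma rcell3 : ∃ N : ℝ, Rw4 P.r2 N (coCell (87579 / 65536 : ℝ) (868797 / 65536 : ℝ) ((379421 / 32768 : ℝ) + (107 / 256 : ℝ)) (73 / 2048 : ℝ) C3) := by
  refine ⟨(1207959552 : ℝ), ⟨Q6, List.mem_cons_of_mem _ (List.mem_cons_of_mem _ (List.mem_cons_of_mem _ (List.mem_cons_of_mem _ (List.mem_cons_of_mem _ (List.mem_cons_of_mem _ (List.mem_cons_self)))))), ?_⟩, by norm_num⟩
  constructor <;> norm_num [Q6, coCell, C3]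

lemma lcell3 : ∀ x1 x2 xc : ℝ, 0 ≤ x1 → x1 ≤ 1 → 0 ≤ x2 → x2 ≤ 1 → C3.l ≤ xc → xc ≤ C3.u →
    (87579 / 65536 : ℝ) * (1 - (1 - x1) ^ 25) + (868797 / 65536 : ℝ) * (1 - (1 - x2) ^ 25) - ((379421 / 32768 : ℝ) + (107 / 256 : ℝ)) * (1 - (1 - xc) ^ 25)
      ≤ - C3.a1 * x1 - C3.a2 * x2 + C3.e * xc + C3.f := by
  have h := cell_lines 25 (α1 := (87579 / 65536 : ℝ)) (α2 := (868797 / 65536 : ℝ)) (c := (379421 / 32768 : ℝ) + (107 / 256 : ℝ)) (y1 := (2111 / 262144 : ℝ)) (y2 := (1271 / 131072 : ℝ))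
    (A1 := (115410423 / 4194304 : ℝ)) (B1 := (3085897 / 134217728 : ℝ)) (A2 := (275050851 / 1048576 : ℝ)) (B2 := (10823905 / 33554432 : ℝ)) (l := (2563 / 262144 : ℝ)) (u := (3205 / 262144 : ℝ))
    (E := (-964777853 / 4194304 : ℝ)) (F := (-12209351 / 33554432 : ℝ)) (by norm_num) (by norm_num) (by norm_num) (by norm_num) (by norm_num)
    (by norm_num) (by norm_num) (by norm_num) (by norm_num) (by norm_num) (by norm_num) (by norm_num) (by norm_num) (by norm_num) (by norm_num)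
  have e1 : C3.l = (2563 / 262144 : ℝ) := rfl
  have e2 : C3.u = (3205 / 262144 : ℝ) := rfl
  have e3 : C3.a1 = -(115410423 / 4194304 : ℝ) := by norm_num [C3]
  have e4 : C3.a2 = -(275050851 / 1048576 : ℝ) := by norm_num [C3]
  have e5 : C3.e = (-964777853 / 4194304 : ℝ) := rfl
  have e6 : C3.f = (3085897 / 134217728 : ℝ) + (10823905 / 33554432 : ℝ) + (-12209351 / 33554432 : ℝ) := by norm_num [C3]
  rw [e1, e2, e3, e4, e5, e6]
  exact h

lemma rcell4 : ∃ N : ℝ, Rw4 P.r2 N (coCell (87579 / 65536 : ℝ) (868797 / 65536 : ℝ) ((379421 / 32768 : ℝ) + (107 / 256 : ℝ)) (73 / 2048 : ℝ) C4) := by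
  refine ⟨(1207959552 : ℝ), ⟨Q7, List.mem_cons_of_mem _ (List.mem_cons_of_mem _ (List.mem_cons_of_mem _ (List.mem_cons_of_mem _ (List.mem_cons_of_mem _ (List.mem_cons_of_mem _ (List.mem_cons_of_mem _ (List.mem_cons_self))))))), ?_⟩, by norm_num⟩
  constructor <;> norm_num [Q7, coCell, C4]

lemma lcell4 : ∀ x1 x2 xc : ℝ, 0 ≤ x1 → x1 ≤ 1 → 0 ≤ x2 → x2 ≤ 1 → C4.l ≤ xc → xc ≤ C4.u →
    (87579 / 65536 : ℝ) * (1 - (1 - x1) ^ 25) + (868797 / 65536 : ℝ) * (1 - (1 - x2) ^ 25) - ((379421 / 32768 : ℝ) + (107 / 256 : ℝ)) * (1 - (1 - xc) ^ 25)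
      ≤ - C4.a1 * x1 - C4.a2 * x2 + C4.e * xc + C4.f := by
  have h := cell_lines 25 (α1 := (87579 / 65536 : ℝ)) (α2 := (868797 / 65536 : ℝ)) (c := (379421 / 32768 : ℝ) + (107 / 256 : ℝ)) (y1 := (2643 / 262144 : ℝ)) (y2 := (791 / 65536 : ℝ))
    (A1 := (109874951 / 4194304 : ℝ)) (B1 := (9381355 / 268435456 : ℝ)) (A2 := (259662727 / 1048576 : ℝ)) (B2 := (129421639 / 268435456 : ℝ)) (l := (3205 / 262144 : ℝ)) (u := (501 / 32768 : ℝ))
    (E := (-902350181 / 4194304 : ℝ)) (F := (-18315329 / 33554432 : ℝ)) (by norm_num) (by norm_num) (by norm_num) (by norm_num) (by norm_num)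
    (by norm_num) (by norm_num) (by norm_num) (by norm_num) (by norm_num) (by norm_num) (by norm_num) (by norm_num) (by norm_num) (by norm_num)
  have e1 : C4.l = (3205 / 262144 : ℝ) := rfl
  have e2 : C4.u = (501 / 32768 : ℝ) := rfl
  have e3 : C4.a1 = -(109874951 / 4194304 : ℝ) := by norm_num [C4]
  have e4 : C4.a2 = -(259662727 / 1048576 : ℝ) := by norm_num [C4]
  have e5 : C4.e = (-902350181 / 4194304 : ℝ) := rfl
  have e6 : C4.f = (9381355 / 268435456 : ℝ) + (129421639 / 268435456 : ℝ) + (-18315329 / 33554432 : ℝ) := by norm_num [C4]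
  rw [e1, e2, e3, e4, e5, e6]
  exact h

lemma rcell5 : ∃ N : ℝ, Rw4 P.r2 N (coCell (87579 / 65536 : ℝ) (868797 / 65536 : ℝ) ((379421 / 32768 : ℝ) + (107 / 256 : ℝ)) (73 / 2048 : ℝ) C5) := by
  refine ⟨(1207959552 : ℝ), ⟨Q8, List.mem_cons_of_mem _ (List.mem_cons_of_mem _ (List.mem_cons_of_mem _ (List.mem_cons_of_mem _ (List.mem_cons_of_mem _ (List.mem_cons_of_mem _ (List.mem_cons_of_mem _ (List.mem_cons_of_mem _ (List.mem_cons_self)))))))), ?_⟩, by norm_num⟩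
  constructor <;> norm_num [Q8, coCell, C5]

lemma lcell5 : ∀ x1 x2 xc : ℝ, 0 ≤ x1 → x1 ≤ 1 → 0 ≤ x2 → x2 ≤ 1 → C5.l ≤ xc → xc ≤ C5.u →
    (87579 / 65536 : ℝ) * (1 - (1 - x1) ^ 25) + (868797 / 65536 : ℝ) * (1 - (1 - x2) ^ 25) - ((379421 / 32768 : ℝ) + (107 / 256 : ℝ)) * (1 - (1 - xc) ^ 25)
      ≤ - C5.a1 * x1 - C5.a2 * x2 + C5.e * xc + C5.f := by
  have h := cell_lines 25 (α1 := (87579 / 65536 : ℝ)) (α2 := (868797 / 65536 : ℝ)) (c := (379421 / 32768 : ℝ) + (107 / 256 : ℝ)) (y1 := (1637 / 131072 : ℝ)) (y2 := (3957 / 262144 : ℝ))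
    (A1 := (51819499 / 2097152 : ℝ)) (B1 := (13881031 / 268435456 : ℝ)) (A2 := (964950597 / 4194304 : ℝ)) (B2 := (193402693 / 268435456 : ℝ)) (l := (501 / 32768 : ℝ)) (u := (1253 / 65536 : ℝ))
    (E := (-829739169 / 4194304 : ℝ)) (F := (-108786821 / 134217728 : ℝ)) (by norm_num) (by norm_num) (by norm_num) (by norm_num) (by norm_num)
    (by norm_num) (by norm_num) (by norm_num) (by norm_num) (by norm_num) (by norm_num) (by norm_num) (by norm_num) (by norm_num) (by norm_num)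
  have e1 : C5.l = (501 / 32768 : ℝ) := rfl
  have e2 : C5.u = (1253 / 65536 : ℝ) := rfl
  have e3 : C5.a1 = -(51819499 / 2097152 : ℝ) := by norm_num [C5]
  have e4 : C5.a2 = -(964950597 / 4194304 : ℝ) := by norm_num [C5]
  have e5 : C5.e = (-829739169 / 4194304 : ℝ) := rfl
  have e6 : C5.f = (13881031 / 268435456 : ℝ) + (193402693 / 268435456 : ℝ) + (-108786821 / 134217728 : ℝ) := by norm_num [C5]
  rw [e1, e2, e3, e4, e5, e6]
  exact h

lemma rcell6 : ∃ N : ℝ, Rw4 P.r2 N (coCell (87579 / 65536 : ℝ) (868797 / 65536 : ℝ) ((379421 / 32768 : ℝ) + (107 / 256 : ℝ)) (73 / 2048 : ℝ) C6) := by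
  refine ⟨(301989888 : ℝ), ⟨Q9, List.mem_cons_of_mem _ (List.mem_cons_of_mem _ (List.mem_cons_of_mem _ (List.mem_cons_of_mem _ (List.mem_cons_of_mem _ (List.mem_cons_of_mem _ (List.mem_cons_of_mem _ (List.mem_cons_of_mem _ (List.mem_cons_of_mem _ (List.mem_cons_self))))))))), ?_⟩, by norm_num⟩
  constructor <;> norm_num [Q9, coCell, C6]

lemma lcell6 : ∀ x1 x2 xc : ℝ, 0 ≤ x1 → x1 ≤ 1 → 0 ≤ x2 → x2 ≤ 1 → C6.l ≤ xc → xc ≤ C6.u →
    (87579 / 65536 : ℝ) * (1 - (1 - x1) ^ 25) + (868797 / 65536 : ℝ) * (1 - (1 - x2) ^ 25) - ((379421 / 32768 : ℝ) + (107 / 256 : ℝ)) * (1 - (1 - xc) ^ 25)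
      ≤ - C6.a1 * x1 - C6.a2 * x2 + C6.e * xc + C6.f := by
  have h := cell_lines 25 (α1 := (87579 / 65536 : ℝ)) (α2 := (868797 / 65536 : ℝ)) (c := (379421 / 32768 : ℝ) + (107 / 256 : ℝ)) (y1 := (4003 / 262144 : ℝ)) (y2 := (4893 / 262144 : ℝ))
    (A1 := (48428337 / 2097152 : ℝ)) (B1 := (9949639 / 134217728 : ℝ)) (A2 := (442201175 / 2097152 : ℝ)) (B2 := (280292663 / 268435456 : ℝ)) (l := (1253 / 65536 : ℝ)) (u := (1567 / 65536 : ℝ))
    (E := (-186703543 / 1048576 : ℝ)) (F := (-319043389 / 268435456 : ℝ)) (by norm_num) (by norm_num) (by norm_num) (by norm_num) (by norm_num)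
    (by norm_num) (by norm_num) (by norm_num) (by norm_num) (by norm_num) (by norm_num) (by norm_num) (by norm_num) (by norm_num) (by norm_num)
  have e1 : C6.l = (1253 / 65536 : ℝ) := rfl
  have e2 : C6.u = (1567 / 65536 : ℝ) := rfl
  have e3 : C6.a1 = -(48428337 / 2097152 : ℝ) := by norm_num [C6]
  have e4 : C6.a2 = -(442201175 / 2097152 : ℝ) := by norm_num [C6]
  have e5 : C6.e = (-186703543 / 1048576 : ℝ) := rfl
  have e6 : C6.f = (9949639 / 134217728 : ℝ) + (280292663 / 268435456 : ℝ) + (-319043389 / 268435456 : ℝ) := by norm_num [C6]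
  rw [e1, e2, e3, e4, e5, e6]
  exact h

lemma rcell7 : ∃ N : ℝ, Rw4 P.r2 N (coCell (87579 / 65536 : ℝ) (868797 / 65536 : ℝ) ((379421 / 32768 : ℝ) + (107 / 256 : ℝ)) (73 / 2048 : ℝ) C7) := by
  refine ⟨(150994944 : ℝ), ⟨Q10, List.mem_cons_of_mem _ (List.mem_cons_of_mem _ (List.mem_cons_of_mem _ (List.mem_cons_of_mem _ (List.mem_cons_of_mem _ (List.mem_cons_of_mem _ (List.mem_cons_of_mem _ (List.mem_cons_of_mem _ (List.mem_cons_of_mem _ (List.mem_cons_of_mem _ (List.mem_cons_self)))))))))), ?_⟩, by norm_num⟩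
  constructor <;> norm_num [Q10, coCell, C7]

lemma lcell7 : ∀ x1 x2 xc : ℝ, 0 ≤ x1 → x1 ≤ 1 → 0 ≤ x2 → x2 ≤ 1 → C7.l ≤ xc → xc ≤ C7.u →
    (87579 / 65536 : ℝ) * (1 - (1 - x1) ^ 25) + (868797 / 65536 : ℝ) * (1 - (1 - x2) ^ 25) - ((379421 / 32768 : ℝ) + (107 / 256 : ℝ)) * (1 - (1 - xc) ^ 25)
      ≤ - C7.a1 * x1 - C7.a2 * x2 + C7.e * xc + C7.f := by
  have h := cell_lines 25 (α1 := (87579 / 65536 : ℝ)) (α2 := (868797 / 65536 : ℝ)) (c := (379421 / 32768 : ℝ) + (107 / 256 : ℝ)) (y1 := (1251 / 65536 : ℝ)) (y2 := (2991 / 131072 : ℝ))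
    (A1 := (88233435 / 4194304 : ℝ)) (B1 := (29364721 / 268435456 : ℝ)) (A2 := (798790879 / 4194304 : ℝ)) (B2 := (393758091 / 268435456 : ℝ)) (l := (1567 / 65536 : ℝ)) (u := (3919 / 131072 : ℝ))
    (E := (-163574367 / 1048576 : ℝ)) (F := (-115154811 / 67108864 : ℝ)) (by norm_num) (by norm_num) (by norm_num) (by norm_num) (by norm_num)
    (by norm_num) (by norm_num) (by norm_num) (by norm_num) (by norm_num) (by norm_num) (by norm_num) (by norm_num) (by norm_num) (by norm_num)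
  have e1 : C7.l = (1567 / 65536 : ℝ) := rfl
  have e2 : C7.u = (3919 / 131072 : ℝ) := rfl
  have e3 : C7.a1 = -(88233435 / 4194304 : ℝ) := by norm_num [C7]
  have e4 : C7.a2 = -(798790879 / 4194304 : ℝ) := by norm_num [C7]
  have e5 : C7.e = (-163574367 / 1048576 : ℝ) := rfl
  have e6 : C7.f = (29364721 / 268435456 : ℝ) + (393758091 / 268435456 : ℝ) + (-115154811 / 67108864 : ℝ) := by norm_num [C7]
  rw [e1, e2, e3, e4, e5, e6]
  exact h

lemma rcell8 : ∃ N : ℝ, Rw4 P.r2 N (coCell (87579 / 65536 : ℝ) (868797 / 65536 : ℝ) ((379421 / 32768 : ℝ) + (107 / 256 : ℝ)) (73 / 2048 : ℝ) C8) := by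
  refine ⟨(603979776 : ℝ), ⟨Q11, List.mem_cons_of_mem _ (List.mem_cons_of_mem _ (List.mem_cons_of_mem _ (List.mem_cons_of_mem _ (List.mem_cons_of_mem _ (List.mem_cons_of_mem _ (List.mem_cons_of_mem _ (List.mem_cons_of_mem _ (List.mem_cons_of_mem _ (List.mem_cons_of_mem _ (List.mem_cons_of_mem _ (List.mem_cons_self))))))))))), ?_⟩, by norm_num⟩
  constructor <;> norm_num [Q11, coCell, C8]

lemma lcell8 : ∀ x1 x2 xc : ℝ, 0 ≤ x1 → x1 ≤ 1 → 0 ≤ x2 → x2 ≤ 1 → C8.l ≤ xc → xc ≤ C8.u →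
    (87579 / 65536 : ℝ) * (1 - (1 - x1) ^ 25) + (868797 / 65536 : ℝ) * (1 - (1 - x2) ^ 25) - ((379421 / 32768 : ℝ) + (107 / 256 : ℝ)) * (1 - (1 - xc) ^ 25)
      ≤ - C8.a1 * x1 - C8.a2 * x2 + C8.e * xc + C8.f := by
  have h := cell_lines 25 (α1 := (87579 / 65536 : ℝ)) (α2 := (868797 / 65536 : ℝ)) (c := (379421 / 32768 : ℝ) + (107 / 256 : ℝ)) (y1 := (6019 / 262144 : ℝ)) (y2 := (3689 / 131072 : ℝ))
    (A1 := (80243369 / 4194304 : ℝ)) (B1 := (20050495 / 134217728 : ℝ)) (A2 := (700608513 / 4194304 : ℝ)) (B2 := (553529369 / 268435456 : ℝ)) (l := (3919 / 131072 : ℝ)) (u := (4901 / 131072 : ℝ))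
    (E := (-138511543 / 1048576 : ℝ)) (F := (-652457539 / 268435456 : ℝ)) (by norm_num) (by norm_num) (by norm_num) (by norm_num) (by norm_num)
    (by norm_num) (by norm_num) (by norm_num) (by norm_num) (by norm_num) (by norm_num) (by norm_num) (by norm_num) (by norm_num) (by norm_num)
  have e1 : C8.l = (3919 / 131072 : ℝ) := rfl
  have e2 : C8.u = (4901 / 131072 : ℝ) := rfl
  have e3 : C8.a1 = -(80243369 / 4194304 : ℝ) := by norm_num [C8]
  have e4 : C8.a2 = -(700608513 / 4194304 : ℝ) := by norm_num [C8]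
  have e5 : C8.e = (-138511543 / 1048576 : ℝ) := rfl
  have e6 : C8.f = (20050495 / 134217728 : ℝ) + (553529369 / 268435456 : ℝ) + (-652457539 / 268435456 : ℝ) := by norm_num [C8]
  rw [e1, e2, e3, e4, e5, e6]
  exact h

lemma rcell9 : ∃ N : ℝ, Rw4 P.r2 N (coCell (87579 / 65536 : ℝ) (868797 / 65536 : ℝ) ((379421 / 32768 : ℝ) + (107 / 256 : ℝ)) (73 / 2048 : ℝ) C9) := by
  refine ⟨(1207959552 : ℝ), ⟨Q12, List.mem_cons_of_mem _ (List.mem_cons_of_mem _ (List.mem_cons_of_mem _ (List.mem_cons_of_mem _ (List.mem_cons_of_mem _ (List.mem_cons_of_mem _ (List.mem_cons_of_mem _ (List.mem_cons_of_mem _ (List.mem_cons_of_mem _ (List.mem_cons_of_mem _ (List.mem_cons_of_mem _ (List.mem_cons_of_mem _ (List.mem_cons_self)))))))))))), ?_⟩, by norm_num⟩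
  constructor <;> norm_num [Q12, coCell, C9]

lemma lcell9 : ∀ x1 x2 xc : ℝ, 0 ≤ x1 → x1 ≤ 1 → 0 ≤ x2 → x2 ≤ 1 → C9.l ≤ xc → xc ≤ C9.u →
    (87579 / 65536 : ℝ) * (1 - (1 - x1) ^ 25) + (868797 / 65536 : ℝ) * (1 - (1 - x2) ^ 25) - ((379421 / 32768 : ℝ) + (107 / 256 : ℝ)) * (1 - (1 - xc) ^ 25)
      ≤ - C9.a1 * x1 - C9.a2 * x2 + C9.e * xc + C9.f := by
  have h := cell_lines 25 (α1 := (87579 / 65536 : ℝ)) (α2 := (868797 / 65536 : ℝ)) (c := (379421 / 32768 : ℝ) + (107 / 256 : ℝ)) (y1 := (3517 / 131072 : ℝ)) (y2 := (8603 / 262144 : ℝ))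
    (A1 := (36474675 / 2097152 : ℝ)) (B1 := (1615919 / 8388608 : ℝ)) (A2 := (624075225 / 4194304 : ℝ)) (B2 := (43913721 / 16777216 : ℝ)) (l := (4901 / 131072 : ℝ)) (u := (25 / 512 : ℝ))
    (E := (-438315679 / 4194304 : ℝ)) (F := (-464704147 / 134217728 : ℝ)) (by norm_num) (by norm_num) (by norm_num) (by norm_num) (by norm_num)
    (by norm_num) (by norm_num) (by norm_num) (by norm_num) (by norm_num) (by norm_num) (by norm_num) (by norm_num) (by norm_num) (by norm_num)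
  have e1 : C9.l = (4901 / 131072 : ℝ) := rfl
  have e2 : C9.u = (25 / 512 : ℝ) := rfl
  have e3 : C9.a1 = -(36474675 / 2097152 : ℝ) := by norm_num [C9]
  have e4 : C9.a2 = -(624075225 / 4194304 : ℝ) := by norm_num [C9]
  have e5 : C9.e = (-438315679 / 4194304 : ℝ) := rfl
  have e6 : C9.f = (1615919 / 8388608 : ℝ) + (43913721 / 16777216 : ℝ) + (-464704147 / 134217728 : ℝ) := by norm_num [C9]
  rw [e1, e2, e3, e4, e5, e6]
  exact h

/-- The hypotheses at the origin. -/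
lemma horig (lam : ℝ) (hd : (25 : ℝ) * lam ^ 2 = 1) (hb : |lam| ≤ (54975581389 / 274877906944 : ℝ)) :
    OriginH 25 lam (87579 / 65536 : ℝ) (868797 / 65536 : ℝ) (379421 / 32768 : ℝ) (107 / 256 : ℝ) (73 / 2048 : ℝ) (45 / 512 : ℝ) (4233 / 4096 : ℝ) (1 / 256 : ℝ) 3298534883328 := by
  refine originH_of_num (d := 25) (by push_cast; exact hd) hb (by norm_num) (by norm_num) (by norm_num) (by norm_num)
    (by norm_num) (by norm_num) (by norm_num) (by norm_num) (by norm_num) (by norm_num) (by norm_num [S]) (by norm_num) ?_ ?_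
  · rw [hch]
    norm_num [abs_of_pos, abs_of_neg]
  · norm_num [abs_of_pos, abs_of_neg]

/-- Nonreconstruction at the bound. -/
theorem main : Tendsto (reconError 3 25 (-(1 / Real.sqrt 25))) atTop (𝓝 0) := by
  have hsq : Real.sqrt ((25 : ℕ) : ℝ) ^ 2 = 25 := by
    rw [Real.sq_sqrt (by positivity)]; norm_num
  have hsq' : Real.sqrt (25 : ℝ) ^ 2 = 25 := by
    rw [Real.sq_sqrt (by positivity)]
  have hs0 : 0 < Real.sqrt (25 : ℝ) := Real.sqrt_pos.2 (by norm_num)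
  have hl2 : ((25 : ℝ)) * (-(1 / Real.sqrt 25)) ^ 2 = 1 := by
    have : (-(1 / Real.sqrt (25 : ℝ))) ^ 2 = 1 / 25 := by
      rw [neg_sq, div_pow, hsq']; norm_num
    rw [this]; norm_num
  have hb : |(-(1 / Real.sqrt (25 : ℝ)))| ≤ (54975581389 / 274877906944 : ℝ) := by
    rw [abs_neg, abs_of_pos (by positivity)]
    rw [div_le_iff₀ hs0]
    have h1 : (1 : ℝ) ^ 2 ≤ ((54975581389 / 274877906944 : ℝ) * Real.sqrt 25) ^ 2 := by
      rw [mul_pow, hsq']; norm_num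
    exact le_of_sq_le_sq h1 (by positivity)
  have hb2 : (-(1 / 2) : ℝ) < -(1 / Real.sqrt (25 : ℝ)) := by
    have h2 := (abs_le.1 hb).1
    have h3 : ((54975581389 / 274877906944 : ℝ) : ℝ) < 1 / 2 := by norm_num
    linarith
  have h1 : (-(1 / Real.sqrt (25 : ℝ))) < 1 := by
    have : 0 < 1 / Real.sqrt (25 : ℝ) := by positivity
    linarith
  have hlam : |(S : ℝ) * (-(1 / Real.sqrt (25 : ℝ))) - ((P.lp : ℝ) - P.ln)| ≤ ((1 : ℕ) : ℝ) := by
    have h := lam_enc 25 14411518807585587 (by norm_num) (by norm_num [S]) (by norm_num [S])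
    have e : ((25 : ℕ) : ℝ) = (25 : ℝ) := by norm_num
    rw [e] at h
    exact h
  obtain ⟨hOa, hON⟩ := horig _ hl2 hb
  refine final_of_box (d := 25) (by norm_num) hb2 h1 (box hlam) (87579 / 65536 : ℝ) (868797 / 65536 : ℝ) (379421 / 32768 : ℝ) (107 / 256 : ℝ) (45 / 512 : ℝ) (4233 / 4096 : ℝ) (5243 / 1048576 : ℝ) (11607 / 4096 : ℝ) (73 / 2048 : ℝ) (25 / 512 : ℝ) cellsL
    (by norm_num) (by norm_num) (by norm_num) (by norm_num) (by norm_num) (by norm_num) (by norm_num) (by norm_num) (by norm_num)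
    (by norm_num) (by norm_num) (by norm_num) (by norm_num) (by norm_num) hOa hON rTa rTb rc1 rc2 rc3
    (forall_cons rcell0 (forall_cons rcell1 (forall_cons rcell2 (forall_cons rcell3 (forall_cons rcell4 (forall_cons rcell5 (forall_cons rcell6 (forall_cons rcell7 (forall_cons rcell8 (forall_cons rcell9 (forall_nil))))))))))) hcover (forall_cons lcell0 (forall_cons lcell1 (forall_cons lcell2 (forall_cons lcell3 (forall_cons lcell4 (forall_cons lcell5 (forall_cons lcell6 (forall_cons lcell7 (forall_cons lcell8 (forall_cons lcell9 (forall_nil)))))))))))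

end Vale.Agent.P154H.Tm.D25
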