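import Vale.Agent.P154H.D.D26
import Vale.Agent.P154H.FinalD
import Vale.Agent.P154H.OriginW

open Filter Topology

set_option maxRecDepth 100000

/-!
Nonreconstruction at the Kesten-Stigum bound for `d = 26`, negative eigenvalue.
-/

namespace Vale.Agent.P154H.Tm.D26

open Vale.Agent.P154 Vale.Agent.P154H

/-- A chord cell. -/
noncomputable def C0 : Cell := ⟨(5243 / 1048576 : ℝ), (51 / 8192 : ℝ), (-32813013 / 1048576 : ℝ), (-638114155 / 2097152 : ℝ), (-568302049 / 2097152 : ℝ), (-726951 / 134217728 : ℝ)⟩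

/-- A chord cell. -/
noncomputable def C1 : Cell := ⟨(51 / 8192 : ℝ), (127 / 16384 : ℝ), (-128034973 / 4194304 : ℝ), (-1236944649 / 4194304 : ℝ), (-1097962361 / 4194304 : ℝ), (-913549 / 134217728 : ℝ)⟩

/-- A chord cell. -/
noncomputable def C2 : Cell := ⟨(127 / 16384 : ℝ), (1265 / 131072 : ℝ), (-123974123 / 4194304 : ℝ), (-595679209 / 2097152 : ℝ), (-525809185 / 2097152 : ℝ), (-751553 / 67108864 : ℝ)⟩

/-- A chord cell. -/
noncomputable def C3 : Cell := ⟨(1265 / 131072 : ℝ), (1575 / 131072 : ℝ), (-59765243 / 2097152 : ℝ), (-142076649 / 524288 : ℝ), (-62284443 / 262144 : ℝ), (-4726545 / 268435456 : ℝ)⟩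

/-- A chord cell. -/
noncomputable def C4 : Cell := ⟨(1575 / 131072 : ℝ), (1961 / 131072 : ℝ), (-114730741 / 4194304 : ℝ), (-1072943157 / 4194304 : ℝ), (-931864427 / 4194304 : ℝ), (-8178321 / 268435456 : ℝ)⟩

/-- A chord cell. -/
noncomputable def C5 : Cell := ⟨(1961 / 131072 : ℝ), (4883 / 262144 : ℝ), (-13401503 / 524288 : ℝ), (-498573233 / 2097152 : ℝ), (-856972355 / 4194304 : ℝ), (-10224093 / 268435456 : ℝ)⟩

/-- A chord cell. -/
noncomputable def C6 : Cell := ⟨(4883 / 262144 : ℝ), (95 / 4096 : ℝ), (-99886741 / 4194304 : ℝ), (-457219161 / 2097152 : ℝ), (-771798119 / 4194304 : ℝ), (-4610111 / 67108864 : ℝ)⟩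

/-- A chord cell. -/
noncomputable def C7 : Cell := ⟨(95 / 4096 : ℝ), (3785 / 131072 : ℝ), (-45635471 / 2097152 : ℝ), (-413365551 / 2097152 : ℝ), (-677103649 / 4194304 : ℝ), (-36952883 / 268435456 : ℝ)⟩

/-- A chord cell. -/
noncomputable def C8 : Cell := ⟨(3785 / 131072 : ℝ), (9425 / 262144 : ℝ), (-83111281 / 4194304 : ℝ), (-727484341 / 4194304 : ℝ), (-143697583 / 1048576 : ℝ), (-7434879 / 33554432 : ℝ)⟩

/-- A chord cell. -/
noncomputable def C9 : Cell := ⟨(9425 / 262144 : ℝ), (3 / 64 : ℝ), (-75233399 / 4194304 : ℝ), (-650661211 / 4194304 : ℝ), (-56989847 / 524288 : ℝ), (-177157371 / 268435456 : ℝ)⟩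

/-- The chord cells. -/
noncomputable def cellsL : List Cell := [C0, C1, C2, C3, C4, C5, C6, C7, C8, C9]

lemma hcover : ∀ x : ℝ, (5243 / 1048576 : ℝ) ≤ x → x ≤ (3 / 64 : ℝ) → ∃ D ∈ cellsL, D.l ≤ x ∧ x ≤ D.u := by
  refine cover_of_chain ?_ (by norm_num [C0])
  simp only [ChainP, C0, C1, C2, C3, C4, C5, C6, C7, C8, C9]
  norm_num

lemma hch : ((Nat.choose 26 2 : ℕ) : ℝ) = 325 := by norm_num [Nat.choose]

lemma rTa : Rw4 P.r1 (1179648 : ℝ) (coTa 26 (87579 / 65536 : ℝ) (868797 / 65536 : ℝ) (379421 / 32768 : ℝ) (107 / 256 : ℝ) (39 / 1024 : ℝ)) := by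
  refine ⟨⟨Ra, List.mem_cons_self, ?_⟩, by norm_num⟩
  constructor <;> norm_num [Ra, coTa, hch]

lemma rTb : Rw4 P.r1 (19791209299968 : ℝ) (coTb 26 (87579 / 65536 : ℝ) (868797 / 65536 : ℝ) (379421 / 32768 : ℝ) (107 / 256 : ℝ) (39 / 1024 : ℝ) (45 / 512 : ℝ) (4233 / 4096 : ℝ) (25087 / 8192 : ℝ)) := by
  refine ⟨⟨Rb, List.mem_cons_of_mem _ (List.mem_cons_self), ?_⟩, by norm_num⟩
  constructor <;> norm_num [Rb, coTb, hch]

lemma rc1 : Rw4 P.r2 (16777216 : ℝ) ⟨0, 0, 0, -(87579 / 65536 : ℝ), 0, 0, 0, 0, (379421 / 32768 : ℝ) * (45 / 512 : ℝ)⟩ := by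
  refine ⟨⟨Q0, List.mem_cons_self, ?_⟩, by norm_num⟩
  constructor <;> norm_num [Q0]

lemma rc2 : Rw4 P.r2 (134217728 : ℝ) ⟨0, 0, 0, 0, -(868797 / 65536 : ℝ), 0, 0, 0, (379421 / 32768 : ℝ) * (4233 / 4096 : ℝ)⟩ := by
  refine ⟨⟨Q1, List.mem_cons_of_mem _ (List.mem_cons_self), ?_⟩, by norm_num⟩
  constructor <;> norm_num [Q1]

lemma rc3 : Rw4 P.r2 (192 : ℝ) ⟨0, 0, 0, 0, 0, -1, 0, 0, (3 / 64 : ℝ)⟩ := by
  refine ⟨⟨Q2, List.mem_cons_of_mem _ (List.mem_cons_of_mem _ (List.mem_cons_self)), ?_⟩, by norm_num⟩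
  constructor <;> norm_num [Q2]

lemma rcell0 : ∃ N : ℝ, Rw4 P.r2 N (coCell (87579 / 65536 : ℝ) (868797 / 65536 : ℝ) ((379421 / 32768 : ℝ) + (107 / 256 : ℝ)) (39 / 1024 : ℝ) C0) := by
  refine ⟨(402653184 : ℝ), ⟨Q3, List.mem_cons_of_mem _ (List.mem_cons_of_mem _ (List.mem_cons_of_mem _ (List.mem_cons_self))), ?_⟩, by norm_num⟩
  constructor <;> norm_num [Q3, coCell, C0]

lemma lcell0 : ∀ x1 x2 xc : ℝ, 0 ≤ x1 → x1 ≤ 1 → 0 ≤ x2 → x2 ≤ 1 → C0.l ≤ xc → xc ≤ C0.u →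
    (87579 / 65536 : ℝ) * (1 - (1 - x1) ^ 26) + (868797 / 65536 : ℝ) * (1 - (1 - x2) ^ 26) - ((379421 / 32768 : ℝ) + (107 / 256 : ℝ)) * (1 - (1 - xc) ^ 26)
      ≤ - C0.a1 * x1 - C0.a2 * x2 + C0.e * xc + C0.f := by
  have h := cell_lines 26 (α1 := (87579 / 65536 : ℝ)) (α2 := (868797 / 65536 : ℝ)) (c := (379421 / 32768 : ℝ) + (107 / 256 : ℝ)) (y1 := (1095 / 262144 : ℝ)) (y2 := (163 / 32768 : ℝ))
    (A1 := (32813013 / 1048576 : ℝ)) (B1 := (1903033 / 268435456 : ℝ)) (A2 := (638114155 / 2097152 : ℝ)) (B2 := (26435089 / 268435456 : ℝ)) (l := (5243 / 1048576 : ℝ)) (u := (51 / 8192 : ℝ))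
    (E := (-568302049 / 2097152 : ℝ)) (F := (-3724003 / 33554432 : ℝ)) (by norm_num) (by norm_num) (by norm_num) (by norm_num) (by norm_num)
    (by norm_num) (by norm_num) (by norm_num) (by norm_num) (by norm_num) (by norm_num) (by norm_num) (by norm_num) (by norm_num) (by norm_num)
  have e1 : C0.l = (5243 / 1048576 : ℝ) := rfl
  have e2 : C0.u = (51 / 8192 : ℝ) := rfl
  have e3 : C0.a1 = -(32813013 / 1048576 : ℝ) := by norm_num [C0]
  have e4 : C0.a2 = -(638114155 / 2097152 : ℝ) := by norm_num [C0]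
  have e5 : C0.e = (-568302049 / 2097152 : ℝ) := rfl
  have e6 : C0.f = (1903033 / 268435456 : ℝ) + (26435089 / 268435456 : ℝ) + (-3724003 / 33554432 : ℝ) := by norm_num [C0]
  rw [e1, e2, e3, e4, e5, e6]
  exact h

lemma rcell1 : ∃ N : ℝ, Rw4 P.r2 N (coCell (87579 / 65536 : ℝ) (868797 / 65536 : ℝ) ((379421 / 32768 : ℝ) + (107 / 256 : ℝ)) (39 / 1024 : ℝ) C1) := by
  refine ⟨(402653184 : ℝ), ⟨Q4, List.mem_cons_of_mem _ (List.mem_cons_of_mem _ (List.mem_cons_of_mem _ (List.mem_cons_of_mem _ (List.mem_cons_self)))), ?_⟩, by norm_num⟩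
  constructor <;> norm_num [Q4, coCell, C1]

lemma lcell1 : ∀ x1 x2 xc : ℝ, 0 ≤ x1 → x1 ≤ 1 → 0 ≤ x2 → x2 ≤ 1 → C1.l ≤ xc → xc ≤ C1.u →
    (87579 / 65536 : ℝ) * (1 - (1 - x1) ^ 26) + (868797 / 65536 : ℝ) * (1 - (1 - x2) ^ 26) - ((379421 / 32768 : ℝ) + (107 / 256 : ℝ)) * (1 - (1 - xc) ^ 26)
      ≤ - C1.a1 * x1 - C1.a2 * x2 + C1.e * xc + C1.f := by
  have h := cell_lines 26 (α1 := (87579 / 65536 : ℝ)) (α2 := (868797 / 65536 : ℝ)) (c := (379421 / 32768 : ℝ) + (107 / 256 : ℝ)) (y1 := (677 / 131072 : ℝ)) (y2 := (815 / 131072 : ℝ))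
    (A1 := (128034973 / 4194304 : ℝ)) (B1 := (1432181 / 134217728 : ℝ)) (A2 := (1236944649 / 4194304 : ℝ)) (B2 := (40496881 / 268435456 : ℝ)) (l := (51 / 8192 : ℝ)) (u := (127 / 16384 : ℝ))
    (E := (-1097962361 / 4194304 : ℝ)) (F := (-45188341 / 268435456 : ℝ)) (by norm_num) (by norm_num) (by norm_num) (by norm_num) (by norm_num)
    (by norm_num) (by norm_num) (by norm_num) (by norm_num) (by norm_num) (by norm_num) (by norm_num) (by norm_num) (by norm_num) (by norm_num)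
  have e1 : C1.l = (51 / 8192 : ℝ) := rfl
  have e2 : C1.u = (127 / 16384 : ℝ) := rfl
  have e3 : C1.a1 = -(128034973 / 4194304 : ℝ) := by norm_num [C1]
  have e4 : C1.a2 = -(1236944649 / 4194304 : ℝ) := by norm_num [C1]
  have e5 : C1.e = (-1097962361 / 4194304 : ℝ) := rfl
  have e6 : C1.f = (1432181 / 134217728 : ℝ) + (40496881 / 268435456 : ℝ) + (-45188341 / 268435456 : ℝ) := by norm_num [C1]
  rw [e1, e2, e3, e4, e5, e6]
  exact h

lemma rcell2 : ∃ N : ℝ, Rw4 P.r2 N (coCell (87579 / 65536 : ℝ) (868797 / 65536 : ℝ) ((379421 / 32768 : ℝ) + (107 / 256 : ℝ)) (39 / 1024 : ℝ) C2) := by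
  refine ⟨(201326592 : ℝ), ⟨Q5, List.mem_cons_of_mem _ (List.mem_cons_of_mem _ (List.mem_cons_of_mem _ (List.mem_cons_of_mem _ (List.mem_cons_of_mem _ (List.mem_cons_self))))), ?_⟩, by norm_num⟩
  constructor <;> norm_num [Q5, coCell, C2]

lemma lcell2 : ∀ x1 x2 xc : ℝ, 0 ≤ x1 → x1 ≤ 1 → 0 ≤ x2 → x2 ≤ 1 → C2.l ≤ xc → xc ≤ C2.u →
    (87579 / 65536 : ℝ) * (1 - (1 - x1) ^ 26) + (868797 / 65536 : ℝ) * (1 - (1 - x2) ^ 26) - ((379421 / 32768 : ℝ) + (107 / 256 : ℝ)) * (1 - (1 - xc) ^ 26)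
      ≤ - C2.a1 * x1 - C2.a2 * x2 + C2.e * xc + C2.f := by
  have h := cell_lines 26 (α1 := (87579 / 65536 : ℝ)) (α2 := (868797 / 65536 : ℝ)) (c := (379421 / 32768 : ℝ) + (107 / 256 : ℝ)) (y1 := (845 / 131072 : ℝ)) (y2 := (2021 / 262144 : ℝ))
    (A1 := (123974123 / 4194304 : ℝ)) (B1 := (2186231 / 134217728 : ℝ)) (A2 := (595679209 / 2097152 : ℝ)) (B2 := (7600079 / 33554432 : ℝ)) (l := (127 / 16384 : ℝ)) (u := (1265 / 131072 : ℝ))
    (E := (-525809185 / 2097152 : ℝ)) (F := (-34089653 / 134217728 : ℝ)) (by norm_num) (by norm_num) (by norm_num) (by norm_num) (by norm_num)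
    (by norm_num) (by norm_num) (by norm_num) (by norm_num) (by norm_num) (by norm_num) (by norm_num) (by norm_num) (by norm_num) (by norm_num)
  have e1 : C2.l = (127 / 16384 : ℝ) := rfl
  have e2 : C2.u = (1265 / 131072 : ℝ) := rfl
  have e3 : C2.a1 = -(123974123 / 4194304 : ℝ) := by norm_num [C2]
  have e4 : C2.a2 = -(595679209 / 2097152 : ℝ) := by norm_num [C2]
  have e5 : C2.e = (-525809185 / 2097152 : ℝ) := rfl
  have e6 : C2.f = (2186231 / 134217728 : ℝ) + (7600079 / 33554432 : ℝ) + (-34089653 / 134217728 : ℝ) := by norm_num [C2]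
  rw [e1, e2, e3, e4, e5, e6]
  exact h

lemma rcell3 : ∃ N : ℝ, Rw4 P.r2 N (coCell (87579 / 65536 : ℝ) (868797 / 65536 : ℝ) ((379421 / 32768 : ℝ) + (107 / 256 : ℝ)) (39 / 1024 : ℝ) C3) := by
  refine ⟨(805306368 : ℝ), ⟨Q6, List.mem_cons_of_mem _ (List.mem_cons_of_mem _ (List.mem_cons_of_mem _ (List.mem_cons_of_mem _ (List.mem_cons_of_mem _ (List.mem_cons_of_mem _ (List.mem_cons_self)))))), ?_⟩, by norm_num⟩
  constructor <;> norm_num [Q6, coCell, C3]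

lemma lcell3 : ∀ x1 x2 xc : ℝ, 0 ≤ x1 → x1 ≤ 1 → 0 ≤ x2 → x2 ≤ 1 → C3.l ≤ xc → xc ≤ C3.u →
    (87579 / 65536 : ℝ) * (1 - (1 - x1) ^ 26) + (868797 / 65536 : ℝ) * (1 - (1 - x2) ^ 26) - ((379421 / 32768 : ℝ) + (107 / 256 : ℝ)) * (1 - (1 - xc) ^ 26)
      ≤ - C3.a1 * x1 - C3.a2 * x2 + C3.e * xc + C3.f := by
  have h := cell_lines 26 (α1 := (87579 / 65536 : ℝ)) (α2 := (868797 / 65536 : ℝ)) (c := (379421 / 32768 : ℝ) + (107 / 256 : ℝ)) (y1 := (1035 / 131072 : ℝ)) (y2 := (1255 / 131072 : ℝ))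
    (A1 := (59765243 / 2097152 : ℝ)) (B1 := (1602707 / 67108864 : ℝ)) (A2 := (142076649 / 524288 : ℝ)) (B2 := (91055659 / 268435456 : ℝ)) (l := (1265 / 131072 : ℝ)) (u := (1575 / 131072 : ℝ))
    (E := (-62284443 / 262144 : ℝ)) (F := (-12774129 / 33554432 : ℝ)) (by norm_num) (by norm_num) (by norm_num) (by norm_num) (by norm_num)
    (by norm_num) (by norm_num) (by norm_num) (by norm_num) (by norm_num) (by norm_num) (by norm_num) (by norm_num) (by norm_num) (by norm_num)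
  have e1 : C3.l = (1265 / 131072 : ℝ) := rfl
  have e2 : C3.u = (1575 / 131072 : ℝ) := rfl
  have e3 : C3.a1 = -(59765243 / 2097152 : ℝ) := by norm_num [C3]
  have e4 : C3.a2 = -(142076649 / 524288 : ℝ) := by norm_num [C3]
  have e5 : C3.e = (-62284443 / 262144 : ℝ) := rfl
  have e6 : C3.f = (1602707 / 67108864 : ℝ) + (91055659 / 268435456 : ℝ) + (-12774129 / 33554432 : ℝ) := by norm_num [C3]
  rw [e1, e2, e3, e4, e5, e6]
  exact h

lemma rcell4 : ∃ N : ℝ, Rw4 P.r2 N (coCell (87579 / 65536 : ℝ) (868797 / 65536 : ℝ) ((379421 / 32768 : ℝ) + (107 / 256 : ℝ)) (39 / 1024 : ℝ) C4) := by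
  refine ⟨(805306368 : ℝ), ⟨Q7, List.mem_cons_of_mem _ (List.mem_cons_of_mem _ (List.mem_cons_of_mem _ (List.mem_cons_of_mem _ (List.mem_cons_of_mem _ (List.mem_cons_of_mem _ (List.mem_cons_of_mem _ (List.mem_cons_self))))))), ?_⟩, by norm_num⟩
  constructor <;> norm_num [Q7, coCell, C4]

lemma lcell4 : ∀ x1 x2 xc : ℝ, 0 ≤ x1 → x1 ≤ 1 → 0 ≤ x2 → x2 ≤ 1 → C4.l ≤ xc → xc ≤ C4.u →
    (87579 / 65536 : ℝ) * (1 - (1 - x1) ^ 26) + (868797 / 65536 : ℝ) * (1 - (1 - x2) ^ 26) - ((379421 / 32768 : ℝ) + (107 / 256 : ℝ)) * (1 - (1 - xc) ^ 26)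
      ≤ - C4.a1 * x1 - C4.a2 * x2 + C4.e * xc + C4.f := by
  have h := cell_lines 26 (α1 := (87579 / 65536 : ℝ)) (α2 := (868797 / 65536 : ℝ)) (c := (379421 / 32768 : ℝ) + (107 / 256 : ℝ)) (y1 := (39 / 4096 : ℝ)) (y2 := (777 / 65536 : ℝ))
    (A1 := (114730741 / 4194304 : ℝ)) (B1 := (4542205 / 134217728 : ℝ)) (A2 := (1072943157 / 4194304 : ℝ)) (B2 := (134677123 / 268435456 : ℝ)) (l := (1575 / 131072 : ℝ)) (u := (1961 / 131072 : ℝ))
    (E := (-931864427 / 4194304 : ℝ)) (F := (-75969927 / 134217728 : ℝ)) (by norm_num) (by norm_num) (by norm_num) (by norm_num) (by norm_num)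
    (by norm_num) (by norm_num) (by norm_num) (by norm_num) (by norm_num) (by norm_num) (by norm_num) (by norm_num) (by norm_num) (by norm_num)
  have e1 : C4.l = (1575 / 131072 : ℝ) := rfl
  have e2 : C4.u = (1961 / 131072 : ℝ) := rfl
  have e3 : C4.a1 = -(114730741 / 4194304 : ℝ) := by norm_num [C4]
  have e4 : C4.a2 = -(1072943157 / 4194304 : ℝ) := by norm_num [C4]
  have e5 : C4.e = (-931864427 / 4194304 : ℝ) := rfl
  have e6 : C4.f = (4542205 / 134217728 : ℝ) + (134677123 / 268435456 : ℝ) + (-75969927 / 134217728 : ℝ) := by norm_num [C4]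
  rw [e1, e2, e3, e4, e5, e6]
  exact h

lemma rcell5 : ∃ N : ℝ, Rw4 P.r2 N (coCell (87579 / 65536 : ℝ) (868797 / 65536 : ℝ) ((379421 / 32768 : ℝ) + (107 / 256 : ℝ)) (39 / 1024 : ℝ) C5) := by
  refine ⟨(805306368 : ℝ), ⟨Q8, List.mem_cons_of_mem _ (List.mem_cons_of_mem _ (List.mem_cons_of_mem _ (List.mem_cons_of_mem _ (List.mem_cons_of_mem _ (List.mem_cons_of_mem _ (List.mem_cons_of_mem _ (List.mem_cons_of_mem _ (List.mem_cons_self)))))))), ?_⟩, by norm_num⟩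
  constructor <;> norm_num [Q8, coCell, C5]

lemma lcell5 : ∀ x1 x2 xc : ℝ, 0 ≤ x1 → x1 ≤ 1 → 0 ≤ x2 → x2 ≤ 1 → C5.l ≤ xc → xc ≤ C5.u →
    (87579 / 65536 : ℝ) * (1 - (1 - x1) ^ 26) + (868797 / 65536 : ℝ) * (1 - (1 - x2) ^ 26) - ((379421 / 32768 : ℝ) + (107 / 256 : ℝ)) * (1 - (1 - xc) ^ 26)
      ≤ - C5.a1 * x1 - C5.a2 * x2 + C5.e * xc + C5.f := by
  have h := cell_lines 26 (α1 := (87579 / 65536 : ℝ)) (α2 := (868797 / 65536 : ℝ)) (c := (379421 / 32768 : ℝ) + (107 / 256 : ℝ)) (y1 := (3199 / 262144 : ℝ)) (y2 := (1933 / 131072 : ℝ))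
    (A1 := (13401503 / 524288 : ℝ)) (B1 := (7152177 / 134217728 : ℝ)) (A2 := (498573233 / 2097152 : ℝ)) (B2 := (199122029 / 268435456 : ℝ)) (l := (1961 / 131072 : ℝ)) (u := (4883 / 262144 : ℝ))
    (E := (-856972355 / 4194304 : ℝ)) (F := (-55912619 / 67108864 : ℝ)) (by norm_num) (by norm_num) (by norm_num) (by norm_num) (by norm_num)
    (by norm_num) (by norm_num) (by norm_num) (by norm_num) (by norm_num) (by norm_num) (by norm_num) (by norm_num) (by norm_num) (by norm_num)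
  have e1 : C5.l = (1961 / 131072 : ℝ) := rfl
  have e2 : C5.u = (4883 / 262144 : ℝ) := rfl
  have e3 : C5.a1 = -(13401503 / 524288 : ℝ) := by norm_num [C5]
  have e4 : C5.a2 = -(498573233 / 2097152 : ℝ) := by norm_num [C5]
  have e5 : C5.e = (-856972355 / 4194304 : ℝ) := rfl
  have e6 : C5.f = (7152177 / 134217728 : ℝ) + (199122029 / 268435456 : ℝ) + (-55912619 / 67108864 : ℝ) := by norm_num [C5]
  rw [e1, e2, e3, e4, e5, e6]
  exact h

lemma rcell6 : ∃ N : ℝ, Rw4 P.r2 N (coCell (87579 / 65536 : ℝ) (868797 / 65536 : ℝ) ((379421 / 32768 : ℝ) + (107 / 256 : ℝ)) (39 / 1024 : ℝ) C6) := by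
  refine ⟨(201326592 : ℝ), ⟨Q9, List.mem_cons_of_mem _ (List.mem_cons_of_mem _ (List.mem_cons_of_mem _ (List.mem_cons_of_mem _ (List.mem_cons_of_mem _ (List.mem_cons_of_mem _ (List.mem_cons_of_mem _ (List.mem_cons_of_mem _ (List.mem_cons_of_mem _ (List.mem_cons_self))))))))), ?_⟩, by norm_num⟩
  constructor <;> norm_num [Q9, coCell, C6]

lemma lcell6 : ∀ x1 x2 xc : ℝ, 0 ≤ x1 → x1 ≤ 1 → 0 ≤ x2 → x2 ≤ 1 → C6.l ≤ xc → xc ≤ C6.u →
    (87579 / 65536 : ℝ) * (1 - (1 - x1) ^ 26) + (868797 / 65536 : ℝ) * (1 - (1 - x2) ^ 26) - ((379421 / 32768 : ℝ) + (107 / 256 : ℝ)) * (1 - (1 - xc) ^ 26)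
      ≤ - C6.a1 * x1 - C6.a2 * x2 + C6.e * xc + C6.f := by
  have h := cell_lines 26 (α1 := (87579 / 65536 : ℝ)) (α2 := (868797 / 65536 : ℝ)) (c := (379421 / 32768 : ℝ) + (107 / 256 : ℝ)) (y1 := (3931 / 262144 : ℝ)) (y2 := (4759 / 262144 : ℝ))
    (A1 := (99886741 / 4194304 : ℝ)) (B1 := (20672585 / 268435456 : ℝ)) (A2 := (457219161 / 2097152 : ℝ)) (B2 := (286076947 / 268435456 : ℝ)) (l := (4883 / 262144 : ℝ)) (u := (95 / 4096 : ℝ))
    (E := (-771798119 / 4194304 : ℝ)) (F := (-40648747 / 33554432 : ℝ)) (by norm_num) (by norm_num) (by norm_num) (by norm_num) (by norm_num)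
    (by norm_num) (by norm_num) (by norm_num) (by norm_num) (by norm_num) (by norm_num) (by norm_num) (by norm_num) (by norm_num) (by norm_num)
  have e1 : C6.l = (4883 / 262144 : ℝ) := rfl
  have e2 : C6.u = (95 / 4096 : ℝ) := rfl
  have e3 : C6.a1 = -(99886741 / 4194304 : ℝ) := by norm_num [C6]
  have e4 : C6.a2 = -(457219161 / 2097152 : ℝ) := by norm_num [C6]
  have e5 : C6.e = (-771798119 / 4194304 : ℝ) := rfl
  have e6 : C6.f = (20672585 / 268435456 : ℝ) + (286076947 / 268435456 : ℝ) + (-40648747 / 33554432 : ℝ) := by norm_num [C6]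
  rw [e1, e2, e3, e4, e5, e6]
  exact h

lemma rcell7 : ∃ N : ℝ, Rw4 P.r2 N (coCell (87579 / 65536 : ℝ) (868797 / 65536 : ℝ) ((379421 / 32768 : ℝ) + (107 / 256 : ℝ)) (39 / 1024 : ℝ) C7) := by
  refine ⟨(805306368 : ℝ), ⟨Q10, List.mem_cons_of_mem _ (List.mem_cons_of_mem _ (List.mem_cons_of_mem _ (List.mem_cons_of_mem _ (List.mem_cons_of_mem _ (List.mem_cons_of_mem _ (List.mem_cons_of_mem _ (List.mem_cons_of_mem _ (List.mem_cons_of_mem _ (List.mem_cons_of_mem _ (List.mem_cons_self)))))))))), ?_⟩, by norm_num⟩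
  constructor <;> norm_num [Q10, coCell, C7]

lemma lcell7 : ∀ x1 x2 xc : ℝ, 0 ≤ x1 → x1 ≤ 1 → 0 ≤ x2 → x2 ≤ 1 → C7.l ≤ xc → xc ≤ C7.u →
    (87579 / 65536 : ℝ) * (1 - (1 - x1) ^ 26) + (868797 / 65536 : ℝ) * (1 - (1 - x2) ^ 26) - ((379421 / 32768 : ℝ) + (107 / 256 : ℝ)) * (1 - (1 - xc) ^ 26)
      ≤ - C7.a1 * x1 - C7.a2 * x2 + C7.e * xc + C7.f := by
  have h := cell_lines 26 (α1 := (87579 / 65536 : ℝ)) (α2 := (868797 / 65536 : ℝ)) (c := (379421 / 32768 : ℝ) + (107 / 256 : ℝ)) (y1 := (4861 / 262144 : ℝ)) (y2 := (5795 / 262144 : ℝ))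
    (A1 := (45635471 / 2097152 : ℝ)) (B1 := (29905309 / 268435456 : ℝ)) (A2 := (413365551 / 2097152 : ℝ)) (B2 := (6232717 / 4194304 : ℝ)) (l := (95 / 4096 : ℝ)) (u := (3785 / 131072 : ℝ))
    (E := (-677103649 / 4194304 : ℝ)) (F := (-29109505 / 16777216 : ℝ)) (by norm_num) (by norm_num) (by norm_num) (by norm_num) (by norm_num)
    (by norm_num) (by norm_num) (by norm_num) (by norm_num) (by norm_num) (by norm_num) (by norm_num) (by norm_num) (by norm_num) (by norm_num)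
  have e1 : C7.l = (95 / 4096 : ℝ) := rfl
  have e2 : C7.u = (3785 / 131072 : ℝ) := rfl
  have e3 : C7.a1 = -(45635471 / 2097152 : ℝ) := by norm_num [C7]
  have e4 : C7.a2 = -(413365551 / 2097152 : ℝ) := by norm_num [C7]
  have e5 : C7.e = (-677103649 / 4194304 : ℝ) := rfl
  have e6 : C7.f = (29905309 / 268435456 : ℝ) + (6232717 / 4194304 : ℝ) + (-29109505 / 16777216 : ℝ) := by norm_num [C7]
  rw [e1, e2, e3, e4, e5, e6]
  exact h

lemma rcell8 : ∃ N : ℝ, Rw4 P.r2 N (coCell (87579 / 65536 : ℝ) (868797 / 65536 : ℝ) ((379421 / 32768 : ℝ) + (107 / 256 : ℝ)) (39 / 1024 : ℝ) C8) := by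
  refine ⟨(100663296 : ℝ), ⟨Q11, List.mem_cons_of_mem _ (List.mem_cons_of_mem _ (List.mem_cons_of_mem _ (List.mem_cons_of_mem _ (List.mem_cons_of_mem _ (List.mem_cons_of_mem _ (List.mem_cons_of_mem _ (List.mem_cons_of_mem _ (List.mem_cons_of_mem _ (List.mem_cons_of_mem _ (List.mem_cons_of_mem _ (List.mem_cons_self))))))))))), ?_⟩, by norm_num⟩
  constructor <;> norm_num [Q11, coCell, C8]

lemma lcell8 : ∀ x1 x2 xc : ℝ, 0 ≤ x1 → x1 ≤ 1 → 0 ≤ x2 → x2 ≤ 1 → C8.l ≤ xc → xc ≤ C8.u →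
    (87579 / 65536 : ℝ) * (1 - (1 - x1) ^ 26) + (868797 / 65536 : ℝ) * (1 - (1 - x2) ^ 26) - ((379421 / 32768 : ℝ) + (107 / 256 : ℝ)) * (1 - (1 - xc) ^ 26)
      ≤ - C8.a1 * x1 - C8.a2 * x2 + C8.e * xc + C8.f := by
  have h := cell_lines 26 (α1 := (87579 / 65536 : ℝ)) (α2 := (868797 / 65536 : ℝ)) (c := (379421 / 32768 : ℝ) + (107 / 256 : ℝ)) (y1 := (5823 / 262144 : ℝ)) (y2 := (7103 / 262144 : ℝ))
    (A1 := (83111281 / 4194304 : ℝ)) (B1 := (40532777 / 268435456 : ℝ)) (A2 := (727484341 / 4194304 : ℝ)) (B2 := (554830069 / 268435456 : ℝ)) (l := (3785 / 131072 : ℝ)) (u := (9425 / 262144 : ℝ))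
    (E := (-143697583 / 1048576 : ℝ)) (F := (-327420939 / 134217728 : ℝ)) (by norm_num) (by norm_num) (by norm_num) (by norm_num) (by norm_num)
    (by norm_num) (by norm_num) (by norm_num) (by norm_num) (by norm_num) (by norm_num) (by norm_num) (by norm_num) (by norm_num) (by norm_num)
  have e1 : C8.l = (3785 / 131072 : ℝ) := rfl
  have e2 : C8.u = (9425 / 262144 : ℝ) := rfl
  have e3 : C8.a1 = -(83111281 / 4194304 : ℝ) := by norm_num [C8]
  have e4 : C8.a2 = -(727484341 / 4194304 : ℝ) := by norm_num [C8]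
  have e5 : C8.e = (-143697583 / 1048576 : ℝ) := rfl
  have e6 : C8.f = (40532777 / 268435456 : ℝ) + (554830069 / 268435456 : ℝ) + (-327420939 / 134217728 : ℝ) := by norm_num [C8]
  rw [e1, e2, e3, e4, e5, e6]
  exact h

lemma rcell9 : ∃ N : ℝ, Rw4 P.r2 N (coCell (87579 / 65536 : ℝ) (868797 / 65536 : ℝ) ((379421 / 32768 : ℝ) + (107 / 256 : ℝ)) (39 / 1024 : ℝ) C9) := by
  refine ⟨(805306368 : ℝ), ⟨Q12, List.mem_cons_of_mem _ (List.mem_cons_of_mem _ (List.mem_cons_of_mem _ (List.mem_cons_of_mem _ (List.mem_cons_of_mem _ (List.mem_cons_of_mem _ (List.mem_cons_of_mem _ (List.mem_cons_of_mem _ (List.mem_cons_of_mem _ (List.mem_cons_of_mem _ (List.mem_cons_of_mem _ (List.mem_cons_of_mem _ (List.mem_cons_self)))))))))))), ?_⟩, by norm_num⟩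
  constructor <;> norm_num [Q12, coCell, C9]

lemma lcell9 : ∀ x1 x2 xc : ℝ, 0 ≤ x1 → x1 ≤ 1 → 0 ≤ x2 → x2 ≤ 1 → C9.l ≤ xc → xc ≤ C9.u →
    (87579 / 65536 : ℝ) * (1 - (1 - x1) ^ 26) + (868797 / 65536 : ℝ) * (1 - (1 - x2) ^ 26) - ((379421 / 32768 : ℝ) + (107 / 256 : ℝ)) * (1 - (1 - xc) ^ 26)
      ≤ - C9.a1 * x1 - C9.a2 * x2 + C9.e * xc + C9.f := by
  have h := cell_lines 26 (α1 := (87579 / 65536 : ℝ)) (α2 := (868797 / 65536 : ℝ)) (c := (379421 / 32768 : ℝ) + (107 / 256 : ℝ)) (y1 := (3421 / 131072 : ℝ)) (y2 := (8239 / 262144 : ℝ))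
    (A1 := (75233399 / 4194304 : ℝ)) (B1 := (52696533 / 268435456 : ℝ)) (A2 := (650661211 / 4194304 : ℝ)) (B2 := (349257221 / 134217728 : ℝ)) (l := (9425 / 262144 : ℝ)) (u := (3 / 64 : ℝ))
    (E := (-56989847 / 524288 : ℝ)) (F := (-464184173 / 134217728 : ℝ)) (by norm_num) (by norm_num) (by norm_num) (by norm_num) (by norm_num)
    (by norm_num) (by norm_num) (by norm_num) (by norm_num) (by norm_num) (by norm_num) (by norm_num) (by norm_num) (by norm_num) (by norm_num)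
  have e1 : C9.l = (9425 / 262144 : ℝ) := rfl
  have e2 : C9.u = (3 / 64 : ℝ) := rfl
  have e3 : C9.a1 = -(75233399 / 4194304 : ℝ) := by norm_num [C9]
  have e4 : C9.a2 = -(650661211 / 4194304 : ℝ) := by norm_num [C9]
  have e5 : C9.e = (-56989847 / 524288 : ℝ) := rfl
  have e6 : C9.f = (52696533 / 268435456 : ℝ) + (349257221 / 134217728 : ℝ) + (-464184173 / 134217728 : ℝ) := by norm_num [C9]
  rw [e1, e2, e3, e4, e5, e6]
  exact h

/-- The hypotheses at the origin. -/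
lemma horig (lam : ℝ) (hd : (26 : ℝ) * lam ^ 2 = 1) (hb : |lam| ≤ (215631970979 / 1099511627776 : ℝ)) :
    OriginH 26 lam (87579 / 65536 : ℝ) (868797 / 65536 : ℝ) (379421 / 32768 : ℝ) (107 / 256 : ℝ) (39 / 1024 : ℝ) (45 / 512 : ℝ) (4233 / 4096 : ℝ) (1 / 256 : ℝ) 3298534883328 := by
  refine originH_of_num (d := 26) (by push_cast; exact hd) hb (by norm_num) (by norm_num) (by norm_num) (by norm_num)
    (by norm_num) (by norm_num) (by norm_num) (by norm_num) (by norm_num) (by norm_num) (by norm_num [S]) (by norm_num) ?_ ?_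
  · rw [hch]
    norm_num [abs_of_pos, abs_of_neg]
  · norm_num [abs_of_pos, abs_of_neg]

/-- Nonreconstruction at the bound. -/
theorem main : Tendsto (reconError 3 26 (-(1 / Real.sqrt 26))) atTop (𝓝 0) := by
  have hsq : Real.sqrt ((26 : ℕ) : ℝ) ^ 2 = 26 := by
    rw [Real.sq_sqrt (by positivity)]; norm_num
  have hsq' : Real.sqrt (26 : ℝ) ^ 2 = 26 := by
    rw [Real.sq_sqrt (by positivity)]
  have hs0 : 0 < Real.sqrt (26 : ℝ) := Real.sqrt_pos.2 (by norm_num)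
  have hl2 : ((26 : ℝ)) * (-(1 / Real.sqrt 26)) ^ 2 = 1 := by
    have : (-(1 / Real.sqrt (26 : ℝ))) ^ 2 = 1 / 26 := by
      rw [neg_sq, div_pow, hsq']; norm_num
    rw [this]; norm_num
  have hb : |(-(1 / Real.sqrt (26 : ℝ)))| ≤ (215631970979 / 1099511627776 : ℝ) := by
    rw [abs_neg, abs_of_pos (by positivity)]
    rw [div_le_iff₀ hs0]
    have h1 : (1 : ℝ) ^ 2 ≤ ((215631970979 / 1099511627776 : ℝ) * Real.sqrt 26) ^ 2 := by
      rw [mul_pow, hsq']; norm_num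
    exact le_of_sq_le_sq h1 (by positivity)
  have hb2 : (-(1 / 2) : ℝ) < -(1 / Real.sqrt (26 : ℝ)) := by
    have h2 := (abs_le.1 hb).1
    have h3 : ((215631970979 / 1099511627776 : ℝ) : ℝ) < 1 / 2 := by norm_num
    linarith
  have h1 : (-(1 / Real.sqrt (26 : ℝ))) < 1 := by
    have : 0 < 1 / Real.sqrt (26 : ℝ) := by positivity
    linarith
  have hlam : |(S : ℝ) * (-(1 / Real.sqrt (26 : ℝ))) - ((P.lp : ℝ) - P.ln)| ≤ ((1 : ℕ) : ℝ) := by
    have h := lam_enc 26 14131656850074679 (by norm_num) (by norm_num [S]) (by norm_num [S])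
    have e : ((26 : ℕ) : ℝ) = (26 : ℝ) := by norm_num
    rw [e] at h
    exact h
  obtain ⟨hOa, hON⟩ := horig _ hl2 hb
  refine final_of_box (d := 26) (by norm_num) hb2 h1 (box hlam) (87579 / 65536 : ℝ) (868797 / 65536 : ℝ) (379421 / 32768 : ℝ) (107 / 256 : ℝ) (45 / 512 : ℝ) (4233 / 4096 : ℝ) (5243 / 1048576 : ℝ) (25087 / 8192 : ℝ) (39 / 1024 : ℝ) (3 / 64 : ℝ) cellsL
    (by norm_num) (by norm_num) (by norm_num) (by norm_num) (by norm_num) (by norm_num) (by norm_num) (by norm_num) (by norm_num)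
    (by norm_num) (by norm_num) (by norm_num) (by norm_num) (by norm_num) hOa hON rTa rTb rc1 rc2 rc3
    (forall_cons rcell0 (forall_cons rcell1 (forall_cons rcell2 (forall_cons rcell3 (forall_cons rcell4 (forall_cons rcell5 (forall_cons rcell6 (forall_cons rcell7 (forall_cons rcell8 (forall_cons rcell9 (forall_nil))))))))))) hcover (forall_cons lcell0 (forall_cons lcell1 (forall_cons lcell2 (forall_cons lcell3 (forall_cons lcell4 (forall_cons lcell5 (forall_cons lcell6 (forall_cons lcell7 (forall_cons lcell8 (forall_cons lcell9 (forall_nil)))))))))))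

end Vale.Agent.P154H.Tm.D26
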