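import Vale.Agent.P154H.D.D27
import Vale.Agent.P154H.FinalD
import Vale.Agent.P154H.OriginW

open Filter Topology

set_option maxRecDepth 100000

/-!
Nonreconstruction at the Kesten-Stigum bound for `d = 27`, negative eigenvalue.
-/

namespace Vale.Agent.P154H.Tm.D27

open Vale.Agent.P154 Vale.Agent.P154H

/-- A chord cell. -/
noncomputable def C0 : Cell := ⟨(5243 / 1048576 : ℝ), (13 / 2048 : ℝ), (-135528237 / 4194304 : ℝ), (-329220597 / 1048576 : ℝ), (-1171836849 / 4194304 : ℝ), (-751601 / 134217728 : ℝ)⟩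

/-- A chord cell. -/
noncomputable def C1 : Cell := ⟨(13 / 2048 : ℝ), (1057 / 131072 : ℝ), (-32959539 / 1048576 : ℝ), (-317798067 / 1048576 : ℝ), (-562909899 / 2097152 : ℝ), (-1204037 / 134217728 : ℝ)⟩

/-- A chord cell. -/
noncomputable def C2 : Cell := ⟨(1057 / 131072 : ℝ), (671 / 65536 : ℝ), (-31771245 / 1048576 : ℝ), (-304039857 / 1048576 : ℝ), (-1069895429 / 4194304 : ℝ), (-4030109 / 268435456 : ℝ)⟩

/-- A chord cell. -/
noncomputable def C3 : Cell := ⟨(671 / 65536 : ℝ), (213 / 16384 : ℝ), (-15140025 / 524288 : ℝ), (-71873707 / 262144 : ℝ), (-1002801559 / 4194304 : ℝ), (-805459 / 33554432 : ℝ)⟩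

/-- A chord cell. -/
noncomputable def C4 : Cell := ⟨(213 / 16384 : ℝ), (541 / 32768 : ℝ), (-57458593 / 2097152 : ℝ), (-535773971 / 2097152 : ℝ), (-230851219 / 1048576 : ℝ), (-10857401 / 268435456 : ℝ)⟩

/-- A chord cell. -/
noncomputable def C5 : Cell := ⟨(541 / 32768 : ℝ), (687 / 32768 : ℝ), (-26745049 / 1048576 : ℝ), (-982998865 / 4194304 : ℝ), (-831284945 / 4194304 : ℝ), (-9999775 / 134217728 : ℝ)⟩

/-- A chord cell. -/
noncomputable def C6 : Cell := ⟨(687 / 32768 : ℝ), (6979 / 262144 : ℝ), (-97534641 / 4194304 : ℝ), (-876321243 / 4194304 : ℝ), (-181763535 / 1048576 : ℝ), (-3246331 / 33554432 : ℝ)⟩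

/-- A chord cell. -/
noncomputable def C7 : Cell := ⟨(6979 / 262144 : ℝ), (8863 / 262144 : ℝ), (-5401599 / 262144 : ℝ), (-775755671 / 4194304 : ℝ), (-306379117 / 2097152 : ℝ), (-60862525 / 268435456 : ℝ)⟩

/-- A chord cell. -/
noncomputable def C8 : Cell := ⟨(8863 / 262144 : ℝ), (23 / 512 : ℝ), (-4933951 / 262144 : ℝ), (-340234063 / 2097152 : ℝ), (-239964813 / 2097152 : ℝ), (-21215543 / 33554432 : ℝ)⟩

/-- The chord cells. -/
noncomputable def cellsL : List Cell := [C0, C1, C2, C3, C4, C5, C6, C7, C8]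

lemma hcover : ∀ x : ℝ, (5243 / 1048576 : ℝ) ≤ x → x ≤ (23 / 512 : ℝ) → ∃ D ∈ cellsL, D.l ≤ x ∧ x ≤ D.u := by
  refine cover_of_chain ?_ (by norm_num [C0])
  simp only [ChainP, C0, C1, C2, C3, C4, C5, C6, C7, C8]
  norm_num

lemma hch : ((Nat.choose 27 2 : ℕ) : ℝ) = 351 := by norm_num [Nat.choose]

lemma rTa : Rw4 P.r1 (1179648 : ℝ) (coTa 27 (87579 / 65536 : ℝ) (868797 / 65536 : ℝ) (379421 / 32768 : ℝ) (107 / 256 : ℝ) (139 / 4096 : ℝ)) := by
  refine ⟨⟨Ra, List.mem_cons_self, ?_⟩, by norm_num⟩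
  constructor <;> norm_num [Ra, coTa, hch]

lemma rTb : Rw4 P.r1 (39582418599936 : ℝ) (coTb 27 (87579 / 65536 : ℝ) (868797 / 65536 : ℝ) (379421 / 32768 : ℝ) (107 / 256 : ℝ) (139 / 4096 : ℝ) (45 / 512 : ℝ) (4233 / 4096 : ℝ) (54055 / 16384 : ℝ)) := by
  refine ⟨⟨Rb, List.mem_cons_of_mem _ (List.mem_cons_self), ?_⟩, by norm_num⟩
  constructor <;> norm_num [Rb, coTb, hch]

lemma rc1 : Rw4 P.r2 (16777216 : ℝ) ⟨0, 0, 0, -(87579 / 65536 : ℝ), 0, 0, 0, 0, (379421 / 32768 : ℝ) * (45 / 512 : ℝ)⟩ := by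
  refine ⟨⟨Q0, List.mem_cons_self, ?_⟩, by norm_num⟩
  constructor <;> norm_num [Q0]

lemma rc2 : Rw4 P.r2 (134217728 : ℝ) ⟨0, 0, 0, 0, -(868797 / 65536 : ℝ), 0, 0, 0, (379421 / 32768 : ℝ) * (4233 / 4096 : ℝ)⟩ := by
  refine ⟨⟨Q1, List.mem_cons_of_mem _ (List.mem_cons_self), ?_⟩, by norm_num⟩
  constructor <;> norm_num [Q1]

lemma rc3 : Rw4 P.r2 (1536 : ℝ) ⟨0, 0, 0, 0, 0, -1, 0, 0, (23 / 512 : ℝ)⟩ := by
  refine ⟨⟨Q2, List.mem_cons_of_mem _ (List.mem_cons_of_mem _ (List.mem_cons_self)), ?_⟩, by norm_num⟩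
  constructor <;> norm_num [Q2]

lemma rcell0 : ∃ N : ℝ, Rw4 P.r2 N (coCell (87579 / 65536 : ℝ) (868797 / 65536 : ℝ) ((379421 / 32768 : ℝ) + (107 / 256 : ℝ)) (139 / 4096 : ℝ) C0) := by
  refine ⟨(1207959552 : ℝ), ⟨Q3, List.mem_cons_of_mem _ (List.mem_cons_of_mem _ (List.mem_cons_of_mem _ (List.mem_cons_self))), ?_⟩, by norm_num⟩
  constructor <;> norm_num [Q3, coCell, C0]

lemma lcell0 : ∀ x1 x2 xc : ℝ, 0 ≤ x1 → x1 ≤ 1 → 0 ≤ x2 → x2 ≤ 1 → C0.l ≤ xc → xc ≤ C0.u →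
    (87579 / 65536 : ℝ) * (1 - (1 - x1) ^ 27) + (868797 / 65536 : ℝ) * (1 - (1 - x2) ^ 27) - ((379421 / 32768 : ℝ) + (107 / 256 : ℝ)) * (1 - (1 - xc) ^ 27)
      ≤ - C0.a1 * x1 - C0.a2 * x2 + C0.e * xc + C0.f := by
  have h := cell_lines 27 (α1 := (87579 / 65536 : ℝ)) (α2 := (868797 / 65536 : ℝ)) (c := (379421 / 32768 : ℝ) + (107 / 256 : ℝ)) (y1 := (555 / 131072 : ℝ)) (y2 := (659 / 131072 : ℝ))
    (A1 := (135528237 / 4194304 : ℝ)) (B1 := (2104127 / 268435456 : ℝ)) (A2 := (329220597 / 1048576 : ℝ)) (B2 := (1815299 / 16777216 : ℝ)) (l := (5243 / 1048576 : ℝ)) (u := (13 / 2048 : ℝ))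
    (E := (-1171836849 / 4194304 : ℝ)) (F := (-32652113 / 268435456 : ℝ)) (by norm_num) (by norm_num) (by norm_num) (by norm_num) (by norm_num)
    (by norm_num) (by norm_num) (by norm_num) (by norm_num) (by norm_num) (by norm_num) (by norm_num) (by norm_num) (by norm_num) (by norm_num)
  have e1 : C0.l = (5243 / 1048576 : ℝ) := rfl
  have e2 : C0.u = (13 / 2048 : ℝ) := rfl
  have e3 : C0.a1 = -(135528237 / 4194304 : ℝ) := by norm_num [C0]
  have e4 : C0.a2 = -(329220597 / 1048576 : ℝ) := by norm_num [C0]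
  have e5 : C0.e = (-1171836849 / 4194304 : ℝ) := rfl
  have e6 : C0.f = (2104127 / 268435456 : ℝ) + (1815299 / 16777216 : ℝ) + (-32652113 / 268435456 : ℝ) := by norm_num [C0]
  rw [e1, e2, e3, e4, e5, e6]
  exact h

lemma rcell1 : ∃ N : ℝ, Rw4 P.r2 N (coCell (87579 / 65536 : ℝ) (868797 / 65536 : ℝ) ((379421 / 32768 : ℝ) + (107 / 256 : ℝ)) (139 / 4096 : ℝ) C1) := by
  refine ⟨(1207959552 : ℝ), ⟨Q4, List.mem_cons_of_mem _ (List.mem_cons_of_mem _ (List.mem_cons_of_mem _ (List.mem_cons_of_mem _ (List.mem_cons_self)))), ?_⟩, by norm_num⟩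
  constructor <;> norm_num [Q4, coCell, C1]

lemma lcell1 : ∀ x1 x2 xc : ℝ, 0 ≤ x1 → x1 ≤ 1 → 0 ≤ x2 → x2 ≤ 1 → C1.l ≤ xc → xc ≤ C1.u →
    (87579 / 65536 : ℝ) * (1 - (1 - x1) ^ 27) + (868797 / 65536 : ℝ) * (1 - (1 - x2) ^ 27) - ((379421 / 32768 : ℝ) + (107 / 256 : ℝ)) * (1 - (1 - xc) ^ 27)
      ≤ - C1.a1 * x1 - C1.a2 * x2 + C1.e * xc + C1.f := by
  have h := cell_lines 27 (α1 := (87579 / 65536 : ℝ)) (α2 := (868797 / 65536 : ℝ)) (c := (379421 / 32768 : ℝ) + (107 / 256 : ℝ)) (y1 := (1387 / 262144 : ℝ)) (y2 := (209 / 32768 : ℝ))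
    (A1 := (32959539 / 1048576 : ℝ)) (B1 := (3228379 / 268435456 : ℝ)) (A2 := (317798067 / 1048576 : ℝ)) (B2 := (45710087 / 268435456 : ℝ)) (l := (13 / 2048 : ℝ)) (u := (1057 / 131072 : ℝ))
    (E := (-562909899 / 2097152 : ℝ)) (F := (-12836635 / 67108864 : ℝ)) (by norm_num) (by norm_num) (by norm_num) (by norm_num) (by norm_num)
    (by norm_num) (by norm_num) (by norm_num) (by norm_num) (by norm_num) (by norm_num) (by norm_num) (by norm_num) (by norm_num) (by norm_num)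
  have e1 : C1.l = (13 / 2048 : ℝ) := rfl
  have e2 : C1.u = (1057 / 131072 : ℝ) := rfl
  have e3 : C1.a1 = -(32959539 / 1048576 : ℝ) := by norm_num [C1]
  have e4 : C1.a2 = -(317798067 / 1048576 : ℝ) := by norm_num [C1]
  have e5 : C1.e = (-562909899 / 2097152 : ℝ) := rfl
  have e6 : C1.f = (3228379 / 268435456 : ℝ) + (45710087 / 268435456 : ℝ) + (-12836635 / 67108864 : ℝ) := by norm_num [C1]
  rw [e1, e2, e3, e4, e5, e6]
  exact h

lemma rcell2 : ∃ N : ℝ, Rw4 P.r2 N (coCell (87579 / 65536 : ℝ) (868797 / 65536 : ℝ) ((379421 / 32768 : ℝ) + (107 / 256 : ℝ)) (139 / 4096 : ℝ) C2) := by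
  refine ⟨(2415919104 : ℝ), ⟨Q5, List.mem_cons_of_mem _ (List.mem_cons_of_mem _ (List.mem_cons_of_mem _ (List.mem_cons_of_mem _ (List.mem_cons_of_mem _ (List.mem_cons_self))))), ?_⟩, by norm_num⟩
  constructor <;> norm_num [Q5, coCell, C2]

lemma lcell2 : ∀ x1 x2 xc : ℝ, 0 ≤ x1 → x1 ≤ 1 → 0 ≤ x2 → x2 ≤ 1 → C2.l ≤ xc → xc ≤ C2.u →
    (87579 / 65536 : ℝ) * (1 - (1 - x1) ^ 27) + (868797 / 65536 : ℝ) * (1 - (1 - x2) ^ 27) - ((379421 / 32768 : ℝ) + (107 / 256 : ℝ)) * (1 - (1 - xc) ^ 27)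
      ≤ - C2.a1 * x1 - C2.a2 * x2 + C2.e * xc + C2.f := by
  have h := cell_lines 27 (α1 := (87579 / 65536 : ℝ)) (α2 := (868797 / 65536 : ℝ)) (c := (379421 / 32768 : ℝ) + (107 / 256 : ℝ)) (y1 := (1755 / 262144 : ℝ)) (y2 := (2115 / 262144 : ℝ))
    (A1 := (31771245 / 1048576 : ℝ)) (B1 := (5050177 / 268435456 : ℝ)) (A2 := (304039857 / 1048576 : ℝ)) (B2 := (17782391 / 67108864 : ℝ)) (l := (1057 / 131072 : ℝ)) (u := (671 / 65536 : ℝ))
    (E := (-1069895429 / 4194304 : ℝ)) (F := (-40104925 / 134217728 : ℝ)) (by norm_num) (by norm_num) (by norm_num) (by norm_num) (by norm_num)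
    (by norm_num) (by norm_num) (by norm_num) (by norm_num) (by norm_num) (by norm_num) (by norm_num) (by norm_num) (by norm_num) (by norm_num)
  have e1 : C2.l = (1057 / 131072 : ℝ) := rfl
  have e2 : C2.u = (671 / 65536 : ℝ) := rfl
  have e3 : C2.a1 = -(31771245 / 1048576 : ℝ) := by norm_num [C2]
  have e4 : C2.a2 = -(304039857 / 1048576 : ℝ) := by norm_num [C2]
  have e5 : C2.e = (-1069895429 / 4194304 : ℝ) := rfl
  have e6 : C2.f = (5050177 / 268435456 : ℝ) + (17782391 / 67108864 : ℝ) + (-40104925 / 134217728 : ℝ) := by norm_num [C2]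
  rw [e1, e2, e3, e4, e5, e6]
  exact h

lemma rcell3 : ∃ N : ℝ, Rw4 P.r2 N (coCell (87579 / 65536 : ℝ) (868797 / 65536 : ℝ) ((379421 / 32768 : ℝ) + (107 / 256 : ℝ)) (139 / 4096 : ℝ) C3) := by
  refine ⟨(301989888 : ℝ), ⟨Q6, List.mem_cons_of_mem _ (List.mem_cons_of_mem _ (List.mem_cons_of_mem _ (List.mem_cons_of_mem _ (List.mem_cons_of_mem _ (List.mem_cons_of_mem _ (List.mem_cons_self)))))), ?_⟩, by norm_num⟩
  constructor <;> norm_num [Q6, coCell, C3]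

lemma lcell3 : ∀ x1 x2 xc : ℝ, 0 ≤ x1 → x1 ≤ 1 → 0 ≤ x2 → x2 ≤ 1 → C3.l ≤ xc → xc ≤ C3.u →
    (87579 / 65536 : ℝ) * (1 - (1 - x1) ^ 27) + (868797 / 65536 : ℝ) * (1 - (1 - x2) ^ 27) - ((379421 / 32768 : ℝ) + (107 / 256 : ℝ)) * (1 - (1 - xc) ^ 27)
      ≤ - C3.a1 * x1 - C3.a2 * x2 + C3.e * xc + C3.f := by
  have h := cell_lines 27 (α1 := (87579 / 65536 : ℝ)) (α2 := (868797 / 65536 : ℝ)) (c := (379421 / 32768 : ℝ) + (107 / 256 : ℝ)) (y1 := (559 / 65536 : ℝ)) (y2 := (1337 / 131072 : ℝ))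
    (A1 := (15140025 / 524288 : ℝ)) (B1 := (7953405 / 268435456 : ℝ)) (A2 := (71873707 / 262144 : ℝ)) (B2 := (27444401 / 67108864 : ℝ)) (l := (671 / 65536 : ℝ)) (u := (213 / 16384 : ℝ))
    (E := (-1002801559 / 4194304 : ℝ)) (F := (-124174681 / 268435456 : ℝ)) (by norm_num) (by norm_num) (by norm_num) (by norm_num) (by norm_num)
    (by norm_num) (by norm_num) (by norm_num) (by norm_num) (by norm_num) (by norm_num) (by norm_num) (by norm_num) (by norm_num) (by norm_num)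
  have e1 : C3.l = (671 / 65536 : ℝ) := rfl
  have e2 : C3.u = (213 / 16384 : ℝ) := rfl
  have e3 : C3.a1 = -(15140025 / 524288 : ℝ) := by norm_num [C3]
  have e4 : C3.a2 = -(71873707 / 262144 : ℝ) := by norm_num [C3]
  have e5 : C3.e = (-1002801559 / 4194304 : ℝ) := rfl
  have e6 : C3.f = (7953405 / 268435456 : ℝ) + (27444401 / 67108864 : ℝ) + (-124174681 / 268435456 : ℝ) := by norm_num [C3]
  rw [e1, e2, e3, e4, e5, e6]
  exact h

lemma rcell4 : ∃ N : ℝ, Rw4 P.r2 N (coCell (87579 / 65536 : ℝ) (868797 / 65536 : ℝ) ((379421 / 32768 : ℝ) + (107 / 256 : ℝ)) (139 / 4096 : ℝ) C4) := by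
  refine ⟨(2415919104 : ℝ), ⟨Q7, List.mem_cons_of_mem _ (List.mem_cons_of_mem _ (List.mem_cons_of_mem _ (List.mem_cons_of_mem _ (List.mem_cons_of_mem _ (List.mem_cons_of_mem _ (List.mem_cons_of_mem _ (List.mem_cons_self))))))), ?_⟩, by norm_num⟩
  constructor <;> norm_num [Q7, coCell, C4]

lemma lcell4 : ∀ x1 x2 xc : ℝ, 0 ≤ x1 → x1 ≤ 1 → 0 ≤ x2 → x2 ≤ 1 → C4.l ≤ xc → xc ≤ C4.u →
    (87579 / 65536 : ℝ) * (1 - (1 - x1) ^ 27) + (868797 / 65536 : ℝ) * (1 - (1 - x2) ^ 27) - ((379421 / 32768 : ℝ) + (107 / 256 : ℝ)) * (1 - (1 - xc) ^ 27)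
      ≤ - C4.a1 * x1 - C4.a2 * x2 + C4.e * xc + C4.f := by
  have h := cell_lines 27 (α1 := (87579 / 65536 : ℝ)) (α2 := (868797 / 65536 : ℝ)) (c := (379421 / 32768 : ℝ) + (107 / 256 : ℝ)) (y1 := (2761 / 262144 : ℝ)) (y2 := (1689 / 131072 : ℝ))
    (A1 := (57458593 / 2097152 : ℝ)) (B1 := (11733785 / 268435456 : ℝ)) (A2 := (535773971 / 2097152 : ℝ)) (B2 := (10477751 / 16777216 : ℝ)) (l := (213 / 16384 : ℝ)) (u := (541 / 32768 : ℝ))
    (E := (-230851219 / 1048576 : ℝ)) (F := (-95117601 / 134217728 : ℝ)) (by norm_num) (by norm_num) (by norm_num) (by norm_num) (by norm_num)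
    (by norm_num) (by norm_num) (by norm_num) (by norm_num) (by norm_num) (by norm_num) (by norm_num) (by norm_num) (by norm_num) (by norm_num)
  have e1 : C4.l = (213 / 16384 : ℝ) := rfl
  have e2 : C4.u = (541 / 32768 : ℝ) := rfl
  have e3 : C4.a1 = -(57458593 / 2097152 : ℝ) := by norm_num [C4]
  have e4 : C4.a2 = -(535773971 / 2097152 : ℝ) := by norm_num [C4]
  have e5 : C4.e = (-230851219 / 1048576 : ℝ) := rfl
  have e6 : C4.f = (11733785 / 268435456 : ℝ) + (10477751 / 16777216 : ℝ) + (-95117601 / 134217728 : ℝ) := by norm_num [C4]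
  rw [e1, e2, e3, e4, e5, e6]
  exact h

lemma rcell5 : ∃ N : ℝ, Rw4 P.r2 N (coCell (87579 / 65536 : ℝ) (868797 / 65536 : ℝ) ((379421 / 32768 : ℝ) + (107 / 256 : ℝ)) (139 / 4096 : ℝ) C5) := by
  refine ⟨(1207959552 : ℝ), ⟨Q8, List.mem_cons_of_mem _ (List.mem_cons_of_mem _ (List.mem_cons_of_mem _ (List.mem_cons_of_mem _ (List.mem_cons_of_mem _ (List.mem_cons_of_mem _ (List.mem_cons_of_mem _ (List.mem_cons_of_mem _ (List.mem_cons_self)))))))), ?_⟩, by norm_num⟩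
  constructor <;> norm_num [Q8, coCell, C5]

lemma lcell5 : ∀ x1 x2 xc : ℝ, 0 ≤ x1 → x1 ≤ 1 → 0 ≤ x2 → x2 ≤ 1 → C5.l ≤ xc → xc ≤ C5.u →
    (87579 / 65536 : ℝ) * (1 - (1 - x1) ^ 27) + (868797 / 65536 : ℝ) * (1 - (1 - x2) ^ 27) - ((379421 / 32768 : ℝ) + (107 / 256 : ℝ)) * (1 - (1 - xc) ^ 27)
      ≤ - C5.a1 * x1 - C5.a2 * x2 + C5.e * xc + C5.f := by
  have h := cell_lines 27 (α1 := (87579 / 65536 : ℝ)) (α2 := (868797 / 65536 : ℝ)) (c := (379421 / 32768 : ℝ) + (107 / 256 : ℝ)) (y1 := (1737 / 131072 : ℝ)) (y2 := (4235 / 262144 : ℝ))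
    (A1 := (26745049 / 1048576 : ℝ)) (B1 := (17766777 / 268435456 : ℝ)) (A2 := (982998865 / 4194304 : ℝ)) (B2 := (249806537 / 268435456 : ℝ)) (l := (541 / 32768 : ℝ)) (u := (687 / 32768 : ℝ))
    (E := (-831284945 / 4194304 : ℝ)) (F := (-2246663 / 2097152 : ℝ)) (by norm_num) (by norm_num) (by norm_num) (by norm_num) (by norm_num)
    (by norm_num) (by norm_num) (by norm_num) (by norm_num) (by norm_num) (by norm_num) (by norm_num) (by norm_num) (by norm_num) (by norm_num)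
  have e1 : C5.l = (541 / 32768 : ℝ) := rfl
  have e2 : C5.u = (687 / 32768 : ℝ) := rfl
  have e3 : C5.a1 = -(26745049 / 1048576 : ℝ) := by norm_num [C5]
  have e4 : C5.a2 = -(982998865 / 4194304 : ℝ) := by norm_num [C5]
  have e5 : C5.e = (-831284945 / 4194304 : ℝ) := rfl
  have e6 : C5.f = (17766777 / 268435456 : ℝ) + (249806537 / 268435456 : ℝ) + (-2246663 / 2097152 : ℝ) := by norm_num [C5]
  rw [e1, e2, e3, e4, e5, e6]
  exact h

lemma rcell6 : ∃ N : ℝ, Rw4 P.r2 N (coCell (87579 / 65536 : ℝ) (868797 / 65536 : ℝ) ((379421 / 32768 : ℝ) + (107 / 256 : ℝ)) (139 / 4096 : ℝ) C6) := by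
  refine ⟨(301989888 : ℝ), ⟨Q9, List.mem_cons_of_mem _ (List.mem_cons_of_mem _ (List.mem_cons_of_mem _ (List.mem_cons_of_mem _ (List.mem_cons_of_mem _ (List.mem_cons_of_mem _ (List.mem_cons_of_mem _ (List.mem_cons_of_mem _ (List.mem_cons_of_mem _ (List.mem_cons_self))))))))), ?_⟩, by norm_num⟩
  constructor <;> norm_num [Q9, coCell, C6]

lemma lcell6 : ∀ x1 x2 xc : ℝ, 0 ≤ x1 → x1 ≤ 1 → 0 ≤ x2 → x2 ≤ 1 → C6.l ≤ xc → xc ≤ C6.u →
    (87579 / 65536 : ℝ) * (1 - (1 - x1) ^ 27) + (868797 / 65536 : ℝ) * (1 - (1 - x2) ^ 27) - ((379421 / 32768 : ℝ) + (107 / 256 : ℝ)) * (1 - (1 - xc) ^ 27)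
      ≤ - C6.a1 * x1 - C6.a2 * x2 + C6.e * xc + C6.f := by
  have h := cell_lines 27 (α1 := (87579 / 65536 : ℝ)) (α2 := (868797 / 65536 : ℝ)) (c := (379421 / 32768 : ℝ) + (107 / 256 : ℝ)) (y1 := (549 / 32768 : ℝ)) (y2 := (1343 / 65536 : ℝ))
    (A1 := (97534641 / 4194304 : ℝ)) (B1 := (26820765 / 268435456 : ℝ)) (A2 := (876321243 / 4194304 : ℝ)) (B2 := (374638019 / 268435456 : ℝ)) (l := (687 / 32768 : ℝ)) (u := (6979 / 262144 : ℝ))
    (E := (-181763535 / 1048576 : ℝ)) (F := (-53428679 / 33554432 : ℝ)) (by norm_num) (by norm_num) (by norm_num) (by norm_num) (by norm_num)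
    (by norm_num) (by norm_num) (by norm_num) (by norm_num) (by norm_num) (by norm_num) (by norm_num) (by norm_num) (by norm_num) (by norm_num)
  have e1 : C6.l = (687 / 32768 : ℝ) := rfl
  have e2 : C6.u = (6979 / 262144 : ℝ) := rfl
  have e3 : C6.a1 = -(97534641 / 4194304 : ℝ) := by norm_num [C6]
  have e4 : C6.a2 = -(876321243 / 4194304 : ℝ) := by norm_num [C6]
  have e5 : C6.e = (-181763535 / 1048576 : ℝ) := rfl
  have e6 : C6.f = (26820765 / 268435456 : ℝ) + (374638019 / 268435456 : ℝ) + (-53428679 / 33554432 : ℝ) := by norm_num [C6]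
  rw [e1, e2, e3, e4, e5, e6]
  exact h

lemma rcell7 : ∃ N : ℝ, Rw4 P.r2 N (coCell (87579 / 65536 : ℝ) (868797 / 65536 : ℝ) ((379421 / 32768 : ℝ) + (107 / 256 : ℝ)) (139 / 4096 : ℝ) C7) := by
  refine ⟨(2415919104 : ℝ), ⟨Q10, List.mem_cons_of_mem _ (List.mem_cons_of_mem _ (List.mem_cons_of_mem _ (List.mem_cons_of_mem _ (List.mem_cons_of_mem _ (List.mem_cons_of_mem _ (List.mem_cons_of_mem _ (List.mem_cons_of_mem _ (List.mem_cons_of_mem _ (List.mem_cons_of_mem _ (List.mem_cons_self)))))))))), ?_⟩, by norm_num⟩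
  constructor <;> norm_num [Q10, coCell, C7]

lemma lcell7 : ∀ x1 x2 xc : ℝ, 0 ≤ x1 → x1 ≤ 1 → 0 ≤ x2 → x2 ≤ 1 → C7.l ≤ xc → xc ≤ C7.u →
    (87579 / 65536 : ℝ) * (1 - (1 - x1) ^ 27) + (868797 / 65536 : ℝ) * (1 - (1 - x2) ^ 27) - ((379421 / 32768 : ℝ) + (107 / 256 : ℝ)) * (1 - (1 - xc) ^ 27)
      ≤ - C7.a1 * x1 - C7.a2 * x2 + C7.e * xc + C7.f := by
  have h := cell_lines 27 (α1 := (87579 / 65536 : ℝ)) (α2 := (868797 / 65536 : ℝ)) (c := (379421 / 32768 : ℝ) + (107 / 256 : ℝ)) (y1 := (1397 / 65536 : ℝ)) (y2 := (6573 / 262144 : ℝ))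
    (A1 := (5401599 / 262144 : ℝ)) (B1 := (20161541 / 134217728 : ℝ)) (A2 := (775755671 / 4194304 : ℝ)) (B2 := (520987753 / 268435456 : ℝ)) (l := (6979 / 262144 : ℝ)) (u := (8863 / 262144 : ℝ))
    (E := (-306379117 / 2097152 : ℝ)) (F := (-38885835 / 16777216 : ℝ)) (by norm_num) (by norm_num) (by norm_num) (by norm_num) (by norm_num)
    (by norm_num) (by norm_num) (by norm_num) (by norm_num) (by norm_num) (by norm_num) (by norm_num) (by norm_num) (by norm_num) (by norm_num)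
  have e1 : C7.l = (6979 / 262144 : ℝ) := rfl
  have e2 : C7.u = (8863 / 262144 : ℝ) := rfl
  have e3 : C7.a1 = -(5401599 / 262144 : ℝ) := by norm_num [C7]
  have e4 : C7.a2 = -(775755671 / 4194304 : ℝ) := by norm_num [C7]
  have e5 : C7.e = (-306379117 / 2097152 : ℝ) := rfl
  have e6 : C7.f = (20161541 / 134217728 : ℝ) + (520987753 / 268435456 : ℝ) + (-38885835 / 16777216 : ℝ) := by norm_num [C7]
  rw [e1, e2, e3, e4, e5, e6]
  exact h

lemma rcell8 : ∃ N : ℝ, Rw4 P.r2 N (coCell (87579 / 65536 : ℝ) (868797 / 65536 : ℝ) ((379421 / 32768 : ℝ) + (107 / 256 : ℝ)) (139 / 4096 : ℝ) C8) := by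
  refine ⟨(301989888 : ℝ), ⟨Q11, List.mem_cons_of_mem _ (List.mem_cons_of_mem _ (List.mem_cons_of_mem _ (List.mem_cons_of_mem _ (List.mem_cons_of_mem _ (List.mem_cons_of_mem _ (List.mem_cons_of_mem _ (List.mem_cons_of_mem _ (List.mem_cons_of_mem _ (List.mem_cons_of_mem _ (List.mem_cons_of_mem _ (List.mem_cons_self))))))))))), ?_⟩, by norm_num⟩
  constructor <;> norm_num [Q11, coCell, C8]

lemma lcell8 : ∀ x1 x2 xc : ℝ, 0 ≤ x1 → x1 ≤ 1 → 0 ≤ x2 → x2 ≤ 1 → C8.l ≤ xc → xc ≤ C8.u →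
    (87579 / 65536 : ℝ) * (1 - (1 - x1) ^ 27) + (868797 / 65536 : ℝ) * (1 - (1 - x2) ^ 27) - ((379421 / 32768 : ℝ) + (107 / 256 : ℝ)) * (1 - (1 - xc) ^ 27)
      ≤ - C8.a1 * x1 - C8.a2 * x2 + C8.e * xc + C8.f := by
  have h := cell_lines 27 (α1 := (87579 / 65536 : ℝ)) (α2 := (868797 / 65536 : ℝ)) (c := (379421 / 32768 : ℝ) + (107 / 256 : ℝ)) (y1 := (405 / 16384 : ℝ)) (y2 := (3929 / 131072 : ℝ))
    (A1 := (4933951 / 262144 : ℝ)) (B1 := (51333869 / 268435456 : ℝ)) (A2 := (340234063 / 2097152 : ℝ)) (B2 := (688532127 / 268435456 : ℝ)) (l := (8863 / 262144 : ℝ)) (u := (23 / 512 : ℝ))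
    (E := (-239964813 / 2097152 : ℝ)) (F := (-227397585 / 67108864 : ℝ)) (by norm_num) (by norm_num) (by norm_num) (by norm_num) (by norm_num)
    (by norm_num) (by norm_num) (by norm_num) (by norm_num) (by norm_num) (by norm_num) (by norm_num) (by norm_num) (by norm_num) (by norm_num)
  have e1 : C8.l = (8863 / 262144 : ℝ) := rfl
  have e2 : C8.u = (23 / 512 : ℝ) := rfl
  have e3 : C8.a1 = -(4933951 / 262144 : ℝ) := by norm_num [C8]
  have e4 : C8.a2 = -(340234063 / 2097152 : ℝ) := by norm_num [C8]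
  have e5 : C8.e = (-239964813 / 2097152 : ℝ) := rfl
  have e6 : C8.f = (51333869 / 268435456 : ℝ) + (688532127 / 268435456 : ℝ) + (-227397585 / 67108864 : ℝ) := by norm_num [C8]
  rw [e1, e2, e3, e4, e5, e6]
  exact h

/-- The hypotheses at the origin. -/
lemma horig (lam : ℝ) (hd : (27 : ℝ) * lam ^ 2 = 1) (hb : |lam| ≤ (211601111425 / 1099511627776 : ℝ)) :
    OriginH 27 lam (87579 / 65536 : ℝ) (868797 / 65536 : ℝ) (379421 / 32768 : ℝ) (107 / 256 : ℝ) (139 / 4096 : ℝ) (45 / 512 : ℝ) (4233 / 4096 : ℝ) (1 / 256 : ℝ) 3298534883328 := by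
  refine originH_of_num (d := 27) (by push_cast; exact hd) hb (by norm_num) (by norm_num) (by norm_num) (by norm_num)
    (by norm_num) (by norm_num) (by norm_num) (by norm_num) (by norm_num) (by norm_num) (by norm_num [S]) (by norm_num) ?_ ?_
  · rw [hch]
    norm_num [abs_of_pos, abs_of_neg]
  · norm_num [abs_of_pos, abs_of_neg]

/-- Nonreconstruction at the bound. -/
theorem main : Tendsto (reconError 3 27 (-(1 / Real.sqrt 27))) atTop (𝓝 0) := by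
  have hsq : Real.sqrt ((27 : ℕ) : ℝ) ^ 2 = 27 := by
    rw [Real.sq_sqrt (by positivity)]; norm_num
  have hsq' : Real.sqrt (27 : ℝ) ^ 2 = 27 := by
    rw [Real.sq_sqrt (by positivity)]
  have hs0 : 0 < Real.sqrt (27 : ℝ) := Real.sqrt_pos.2 (by norm_num)
  have hl2 : ((27 : ℝ)) * (-(1 / Real.sqrt 27)) ^ 2 = 1 := by
    have : (-(1 / Real.sqrt (27 : ℝ))) ^ 2 = 1 / 27 := by
      rw [neg_sq, div_pow, hsq']; norm_num
    rw [this]; norm_num
  have hb : |(-(1 / Real.sqrt (27 : ℝ)))| ≤ (211601111425 / 1099511627776 : ℝ) := by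
    rw [abs_neg, abs_of_pos (by positivity)]
    rw [div_le_iff₀ hs0]
    have h1 : (1 : ℝ) ^ 2 ≤ ((211601111425 / 1099511627776 : ℝ) * Real.sqrt 27) ^ 2 := by
      rw [mul_pow, hsq']; norm_num
    exact le_of_sq_le_sq h1 (by positivity)
  have hb2 : (-(1 / 2) : ℝ) < -(1 / Real.sqrt (27 : ℝ)) := by
    have h2 := (abs_le.1 hb).1
    have h3 : ((211601111425 / 1099511627776 : ℝ) : ℝ) < 1 / 2 := by norm_num
    linarith
  have h1 : (-(1 / Real.sqrt (27 : ℝ))) < 1 := by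
    have : 0 < 1 / Real.sqrt (27 : ℝ) := by positivity
    linarith
  have hlam : |(S : ℝ) * (-(1 / Real.sqrt (27 : ℝ))) - ((P.lp : ℝ) - P.ln)| ≤ ((1 : ℕ) : ℝ) := by
    have h := lam_enc 27 13867490438318155 (by norm_num) (by norm_num [S]) (by norm_num [S])
    have e : ((27 : ℕ) : ℝ) = (27 : ℝ) := by norm_num
    rw [e] at h
    exact h
  obtain ⟨hOa, hON⟩ := horig _ hl2 hb
  refine final_of_box (d := 27) (by norm_num) hb2 h1 (box hlam) (87579 / 65536 : ℝ) (868797 / 65536 : ℝ) (379421 / 32768 : ℝ) (107 / 256 : ℝ) (45 / 512 : ℝ) (4233 / 4096 : ℝ) (5243 / 1048576 : ℝ) (54055 / 16384 : ℝ) (139 / 4096 : ℝ) (23 / 512 : ℝ) cellsL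
    (by norm_num) (by norm_num) (by norm_num) (by norm_num) (by norm_num) (by norm_num) (by norm_num) (by norm_num) (by norm_num)
    (by norm_num) (by norm_num) (by norm_num) (by norm_num) (by norm_num) hOa hON rTa rTb rc1 rc2 rc3
    (forall_cons rcell0 (forall_cons rcell1 (forall_cons rcell2 (forall_cons rcell3 (forall_cons rcell4 (forall_cons rcell5 (forall_cons rcell6 (forall_cons rcell7 (forall_cons rcell8 (forall_nil)))))))))) hcover (forall_cons lcell0 (forall_cons lcell1 (forall_cons lcell2 (forall_cons lcell3 (forall_cons lcell4 (forall_cons lcell5 (forall_cons lcell6 (forall_cons lcell7 (forall_cons lcell8 (forall_nil))))))))))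

end Vale.Agent.P154H.Tm.D27
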