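import Vale.Agent.P154H.D.D29
import Vale.Agent.P154H.FinalD
import Vale.Agent.P154H.OriginW

open Filter Topology

set_option maxRecDepth 100000

/-!
Nonreconstruction at the Kesten-Stigum bound for `d = 29`, negative eigenvalue.
-/

namespace Vale.Agent.P154H.Tm.D29

open Vale.Agent.P154 Vale.Agent.P154H

/-- A chord cell. -/
noncomputable def C0 : Cell := ⟨(5243 / 1048576 : ℝ), (825 / 131072 : ℝ), (-144538627 / 4194304 : ℝ), (-1400392459 / 4194304 : ℝ), (-1245337905 / 4194304 : ℝ), (-1498043 / 268435456 : ℝ)⟩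

/-- A chord cell. -/
noncomputable def C1 : Cell := ⟨(825 / 131072 : ℝ), (2077 / 262144 : ℝ), (-70024647 / 2097152 : ℝ), (-1350749181 / 4194304 : ℝ), (-298782055 / 1048576 : ℝ), (-4639 / 524288 : ℝ)⟩

/-- A chord cell. -/
noncomputable def C2 : Cell := ⟨(2077 / 262144 : ℝ), (1307 / 131072 : ℝ), (-135199467 / 4194304 : ℝ), (-322630499 / 1048576 : ℝ), (-1134739893 / 4194304 : ℝ), (-234805 / 16777216 : ℝ)⟩

/-- A chord cell. -/
noncomputable def C3 : Cell := ⟨(1307 / 131072 : ℝ), (3291 / 262144 : ℝ), (-64738041 / 2097152 : ℝ), (-1219267165 / 4194304 : ℝ), (-265721353 / 1048576 : ℝ), (-6258383 / 268435456 : ℝ)⟩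

/-- A chord cell. -/
noncomputable def C4 : Cell := ⟨(3291 / 262144 : ℝ), (4143 / 262144 : ℝ), (-121878039 / 4194304 : ℝ), (-1136596159 / 4194304 : ℝ), (-244659159 / 1048576 : ℝ), (-2614183 / 67108864 : ℝ)⟩

/-- A chord cell. -/
noncomputable def C5 : Cell := ⟨(4143 / 262144 : ℝ), (5215 / 262144 : ℝ), (-113206923 / 4194304 : ℝ), (-1043606621 / 4194304 : ℝ), (-881776831 / 4194304 : ℝ), (-1208735 / 16777216 : ℝ)⟩

/-- A chord cell. -/
noncomputable def C6 : Cell := ⟨(5215 / 262144 : ℝ), (6565 / 262144 : ℝ), (-52157053 / 2097152 : ℝ), (-117551331 / 524288 : ℝ), (-772982873 / 4194304 : ℝ), (-36039307 / 268435456 : ℝ)⟩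

/-- A chord cell. -/
noncomputable def C7 : Cell := ⟨(6565 / 262144 : ℝ), (1033 / 32768 : ℝ), (-93129775 / 4194304 : ℝ), (-827408337 / 4194304 : ℝ), (-654393787 / 4194304 : ℝ), (-7459237 / 33554432 : ℝ)⟩

/-- A chord cell. -/
noncomputable def C8 : Cell := ⟨(1033 / 32768 : ℝ), (21 / 512 : ℝ), (-21280143 / 1048576 : ℝ), (-366466301 / 2097152 : ℝ), (-130060203 / 1048576 : ℝ), (-164559305 / 268435456 : ℝ)⟩

/-- The chord cells. -/
noncomputable def cellsL : List Cell := [C0, C1, C2, C3, C4, C5, C6, C7, C8]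

lemma hcover : ∀ x : ℝ, (5243 / 1048576 : ℝ) ≤ x → x ≤ (21 / 512 : ℝ) → ∃ D ∈ cellsL, D.l ≤ x ∧ x ≤ D.u := by
  refine cover_of_chain ?_ (by norm_num [C0])
  simp only [ChainP, C0, C1, C2, C3, C4, C5, C6, C7, C8]
  norm_num

lemma hch : ((Nat.choose 29 2 : ℕ) : ℝ) = 406 := by norm_num [Nat.choose]

lemma rTa : Rw4 P.r1 (1179648 : ℝ) (coTa 29 (87579 / 65536 : ℝ) (868797 / 65536 : ℝ) (379421 / 32768 : ℝ) (107 / 256 : ℝ) (5 / 128 : ℝ)) := by
  refine ⟨⟨Ra, List.mem_cons_self, ?_⟩, by norm_num⟩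
  constructor <;> norm_num [Ra, coTa, hch]

lemma rTb : Rw4 P.r1 (39582418599936 : ℝ) (coTb 29 (87579 / 65536 : ℝ) (868797 / 65536 : ℝ) (379421 / 32768 : ℝ) (107 / 256 : ℝ) (5 / 128 : ℝ) (45 / 512 : ℝ) (4233 / 4096 : ℝ) (62219 / 16384 : ℝ)) := by
  refine ⟨⟨Rb, List.mem_cons_of_mem _ (List.mem_cons_self), ?_⟩, by norm_num⟩
  constructor <;> norm_num [Rb, coTb, hch]

lemma rc1 : Rw4 P.r2 (16777216 : ℝ) ⟨0, 0, 0, -(87579 / 65536 : ℝ), 0, 0, 0, 0, (379421 / 32768 : ℝ) * (45 / 512 : ℝ)⟩ := by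
  refine ⟨⟨Q0, List.mem_cons_self, ?_⟩, by norm_num⟩
  constructor <;> norm_num [Q0]

lemma rc2 : Rw4 P.r2 (134217728 : ℝ) ⟨0, 0, 0, 0, -(868797 / 65536 : ℝ), 0, 0, 0, (379421 / 32768 : ℝ) * (4233 / 4096 : ℝ)⟩ := by
  refine ⟨⟨Q1, List.mem_cons_of_mem _ (List.mem_cons_self), ?_⟩, by norm_num⟩
  constructor <;> norm_num [Q1]

lemma rc3 : Rw4 P.r2 (1536 : ℝ) ⟨0, 0, 0, 0, 0, -1, 0, 0, (21 / 512 : ℝ)⟩ := by
  refine ⟨⟨Q2, List.mem_cons_of_mem _ (List.mem_cons_of_mem _ (List.mem_cons_self)), ?_⟩, by norm_num⟩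
  constructor <;> norm_num [Q2]

lemma rcell0 : ∃ N : ℝ, Rw4 P.r2 N (coCell (87579 / 65536 : ℝ) (868797 / 65536 : ℝ) ((379421 / 32768 : ℝ) + (107 / 256 : ℝ)) (5 / 128 : ℝ) C0) := by
  refine ⟨(2415919104 : ℝ), ⟨Q3, List.mem_cons_of_mem _ (List.mem_cons_of_mem _ (List.mem_cons_of_mem _ (List.mem_cons_self))), ?_⟩, by norm_num⟩
  constructor <;> norm_num [Q3, coCell, C0]

lemma lcell0 : ∀ x1 x2 xc : ℝ, 0 ≤ x1 → x1 ≤ 1 → 0 ≤ x2 → x2 ≤ 1 → C0.l ≤ xc → xc ≤ C0.u →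
    (87579 / 65536 : ℝ) * (1 - (1 - x1) ^ 29) + (868797 / 65536 : ℝ) * (1 - (1 - x2) ^ 29) - ((379421 / 32768 : ℝ) + (107 / 256 : ℝ)) * (1 - (1 - xc) ^ 29)
      ≤ - C0.a1 * x1 - C0.a2 * x2 + C0.e * xc + C0.f := by
  have h := cell_lines 29 (α1 := (87579 / 65536 : ℝ)) (α2 := (868797 / 65536 : ℝ)) (c := (379421 / 32768 : ℝ) + (107 / 256 : ℝ)) (y1 := (1097 / 262144 : ℝ)) (y2 := (1317 / 262144 : ℝ))
    (A1 := (144538627 / 4194304 : ℝ)) (B1 := (295747 / 33554432 : ℝ)) (A2 := (1400392459 / 4194304 : ℝ)) (B2 := (33325199 / 268435456 : ℝ)) (l := (5243 / 1048576 : ℝ)) (u := (825 / 131072 : ℝ))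
    (E := (-1245337905 / 4194304 : ℝ)) (F := (-18594609 / 134217728 : ℝ)) (by norm_num) (by norm_num) (by norm_num) (by norm_num) (by norm_num)
    (by norm_num) (by norm_num) (by norm_num) (by norm_num) (by norm_num) (by norm_num) (by norm_num) (by norm_num) (by norm_num) (by norm_num)
  have e1 : C0.l = (5243 / 1048576 : ℝ) := rfl
  have e2 : C0.u = (825 / 131072 : ℝ) := rfl
  have e3 : C0.a1 = -(144538627 / 4194304 : ℝ) := by norm_num [C0]
  have e4 : C0.a2 = -(1400392459 / 4194304 : ℝ) := by norm_num [C0]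
  have e5 : C0.e = (-1245337905 / 4194304 : ℝ) := rfl
  have e6 : C0.f = (295747 / 33554432 : ℝ) + (33325199 / 268435456 : ℝ) + (-18594609 / 134217728 : ℝ) := by norm_num [C0]
  rw [e1, e2, e3, e4, e5, e6]
  exact h

lemma rcell1 : ∃ N : ℝ, Rw4 P.r2 N (coCell (87579 / 65536 : ℝ) (868797 / 65536 : ℝ) ((379421 / 32768 : ℝ) + (107 / 256 : ℝ)) (5 / 128 : ℝ) C1) := by
  refine ⟨(75497472 : ℝ), ⟨Q4, List.mem_cons_of_mem _ (List.mem_cons_of_mem _ (List.mem_cons_of_mem _ (List.mem_cons_of_mem _ (List.mem_cons_self)))), ?_⟩, by norm_num⟩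
  constructor <;> norm_num [Q4, coCell, C1]

lemma lcell1 : ∀ x1 x2 xc : ℝ, 0 ≤ x1 → x1 ≤ 1 → 0 ≤ x2 → x2 ≤ 1 → C1.l ≤ xc → xc ≤ C1.u →
    (87579 / 65536 : ℝ) * (1 - (1 - x1) ^ 29) + (868797 / 65536 : ℝ) * (1 - (1 - x2) ^ 29) - ((379421 / 32768 : ℝ) + (107 / 256 : ℝ)) * (1 - (1 - xc) ^ 29)
      ≤ - C1.a1 * x1 - C1.a2 * x2 + C1.e * xc + C1.f := by
  have h := cell_lines 29 (α1 := (87579 / 65536 : ℝ)) (α2 := (868797 / 65536 : ℝ)) (c := (379421 / 32768 : ℝ) + (107 / 256 : ℝ)) (y1 := (1391 / 262144 : ℝ)) (y2 := (1653 / 262144 : ℝ))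
    (A1 := (70024647 / 2097152 : ℝ)) (B1 := (233039 / 16777216 : ℝ)) (A2 := (1350749181 / 4194304 : ℝ)) (B2 := (6413937 / 33554432 : ℝ)) (l := (825 / 131072 : ℝ)) (u := (2077 / 262144 : ℝ))
    (E := (-298782055 / 1048576 : ℝ)) (F := (-7176911 / 33554432 : ℝ)) (by norm_num) (by norm_num) (by norm_num) (by norm_num) (by norm_num)
    (by norm_num) (by norm_num) (by norm_num) (by norm_num) (by norm_num) (by norm_num) (by norm_num) (by norm_num) (by norm_num) (by norm_num)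
  have e1 : C1.l = (825 / 131072 : ℝ) := rfl
  have e2 : C1.u = (2077 / 262144 : ℝ) := rfl
  have e3 : C1.a1 = -(70024647 / 2097152 : ℝ) := by norm_num [C1]
  have e4 : C1.a2 = -(1350749181 / 4194304 : ℝ) := by norm_num [C1]
  have e5 : C1.e = (-298782055 / 1048576 : ℝ) := rfl
  have e6 : C1.f = (233039 / 16777216 : ℝ) + (6413937 / 33554432 : ℝ) + (-7176911 / 33554432 : ℝ) := by norm_num [C1]
  rw [e1, e2, e3, e4, e5, e6]
  exact h

lemma rcell2 : ∃ N : ℝ, Rw4 P.r2 N (coCell (87579 / 65536 : ℝ) (868797 / 65536 : ℝ) ((379421 / 32768 : ℝ) + (107 / 256 : ℝ)) (5 / 128 : ℝ) C2) := by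
  refine ⟨(150994944 : ℝ), ⟨Q5, List.mem_cons_of_mem _ (List.mem_cons_of_mem _ (List.mem_cons_of_mem _ (List.mem_cons_of_mem _ (List.mem_cons_of_mem _ (List.mem_cons_self))))), ?_⟩, by norm_num⟩
  constructor <;> norm_num [Q5, coCell, C2]

lemma lcell2 : ∀ x1 x2 xc : ℝ, 0 ≤ x1 → x1 ≤ 1 → 0 ≤ x2 → x2 ≤ 1 → C2.l ≤ xc → xc ≤ C2.u →
    (87579 / 65536 : ℝ) * (1 - (1 - x1) ^ 29) + (868797 / 65536 : ℝ) * (1 - (1 - x2) ^ 29) - ((379421 / 32768 : ℝ) + (107 / 256 : ℝ)) * (1 - (1 - xc) ^ 29)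
      ≤ - C2.a1 * x1 - C2.a2 * x2 + C2.e * xc + C2.f := by
  have h := cell_lines 29 (α1 := (87579 / 65536 : ℝ)) (α2 := (868797 / 65536 : ℝ)) (c := (379421 / 32768 : ℝ) + (107 / 256 : ℝ)) (y1 := (1719 / 262144 : ℝ)) (y2 := (2077 / 262144 : ℝ))
    (A1 := (135199467 / 4194304 : ℝ)) (B1 := (5568701 / 268435456 : ℝ)) (A2 := (322630499 / 1048576 : ℝ)) (B2 := (614933 / 2097152 : ℝ)) (l := (2077 / 262144 : ℝ)) (u := (1307 / 131072 : ℝ))
    (E := (-1134739893 / 4194304 : ℝ)) (F := (-88037005 / 268435456 : ℝ)) (by norm_num) (by norm_num) (by norm_num) (by norm_num) (by norm_num)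
    (by norm_num) (by norm_num) (by norm_num) (by norm_num) (by norm_num) (by norm_num) (by norm_num) (by norm_num) (by norm_num) (by norm_num)
  have e1 : C2.l = (2077 / 262144 : ℝ) := rfl
  have e2 : C2.u = (1307 / 131072 : ℝ) := rfl
  have e3 : C2.a1 = -(135199467 / 4194304 : ℝ) := by norm_num [C2]
  have e4 : C2.a2 = -(322630499 / 1048576 : ℝ) := by norm_num [C2]
  have e5 : C2.e = (-1134739893 / 4194304 : ℝ) := rfl
  have e6 : C2.f = (5568701 / 268435456 : ℝ) + (614933 / 2097152 : ℝ) + (-88037005 / 268435456 : ℝ) := by norm_num [C2]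
  rw [e1, e2, e3, e4, e5, e6]
  exact h

lemma rcell3 : ∃ N : ℝ, Rw4 P.r2 N (coCell (87579 / 65536 : ℝ) (868797 / 65536 : ℝ) ((379421 / 32768 : ℝ) + (107 / 256 : ℝ)) (5 / 128 : ℝ) C3) := by
  refine ⟨(2415919104 : ℝ), ⟨Q6, List.mem_cons_of_mem _ (List.mem_cons_of_mem _ (List.mem_cons_of_mem _ (List.mem_cons_of_mem _ (List.mem_cons_of_mem _ (List.mem_cons_of_mem _ (List.mem_cons_self)))))), ?_⟩, by norm_num⟩
  constructor <;> norm_num [Q6, coCell, C3]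

lemma lcell3 : ∀ x1 x2 xc : ℝ, 0 ≤ x1 → x1 ≤ 1 → 0 ≤ x2 → x2 ≤ 1 → C3.l ≤ xc → xc ≤ C3.u →
    (87579 / 65536 : ℝ) * (1 - (1 - x1) ^ 29) + (868797 / 65536 : ℝ) * (1 - (1 - x2) ^ 29) - ((379421 / 32768 : ℝ) + (107 / 256 : ℝ)) * (1 - (1 - xc) ^ 29)
      ≤ - C3.a1 * x1 - C3.a2 * x2 + C3.e * xc + C3.f := by
  have h := cell_lines 29 (α1 := (87579 / 65536 : ℝ)) (α2 := (868797 / 65536 : ℝ)) (c := (379421 / 32768 : ℝ) + (107 / 256 : ℝ)) (y1 := (2121 / 262144 : ℝ)) (y2 := (651 / 65536 : ℝ))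
    (A1 := (64738041 / 2097152 : ℝ)) (B1 := (8249585 / 268435456 : ℝ)) (A2 := (1219267165 / 4194304 : ℝ)) (B2 := (29846347 / 67108864 : ℝ)) (l := (1307 / 131072 : ℝ)) (u := (3291 / 262144 : ℝ))
    (E := (-265721353 / 1048576 : ℝ)) (F := (-33473339 / 67108864 : ℝ)) (by norm_num) (by norm_num) (by norm_num) (by norm_num) (by norm_num)
    (by norm_num) (by norm_num) (by norm_num) (by norm_num) (by norm_num) (by norm_num) (by norm_num) (by norm_num) (by norm_num) (by norm_num)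
  have e1 : C3.l = (1307 / 131072 : ℝ) := rfl
  have e2 : C3.u = (3291 / 262144 : ℝ) := rfl
  have e3 : C3.a1 = -(64738041 / 2097152 : ℝ) := by norm_num [C3]
  have e4 : C3.a2 = -(1219267165 / 4194304 : ℝ) := by norm_num [C3]
  have e5 : C3.e = (-265721353 / 1048576 : ℝ) := rfl
  have e6 : C3.f = (8249585 / 268435456 : ℝ) + (29846347 / 67108864 : ℝ) + (-33473339 / 67108864 : ℝ) := by norm_num [C3]
  rw [e1, e2, e3, e4, e5, e6]
  exact h

lemma rcell4 : ∃ N : ℝ, Rw4 P.r2 N (coCell (87579 / 65536 : ℝ) (868797 / 65536 : ℝ) ((379421 / 32768 : ℝ) + (107 / 256 : ℝ)) (5 / 128 : ℝ) C4) := by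
  refine ⟨(603979776 : ℝ), ⟨Q7, List.mem_cons_of_mem _ (List.mem_cons_of_mem _ (List.mem_cons_of_mem _ (List.mem_cons_of_mem _ (List.mem_cons_of_mem _ (List.mem_cons_of_mem _ (List.mem_cons_of_mem _ (List.mem_cons_self))))))), ?_⟩, by norm_num⟩
  constructor <;> norm_num [Q7, coCell, C4]

lemma lcell4 : ∀ x1 x2 xc : ℝ, 0 ≤ x1 → x1 ≤ 1 → 0 ≤ x2 → x2 ≤ 1 → C4.l ≤ xc → xc ≤ C4.u →
    (87579 / 65536 : ℝ) * (1 - (1 - x1) ^ 29) + (868797 / 65536 : ℝ) * (1 - (1 - x2) ^ 29) - ((379421 / 32768 : ℝ) + (107 / 256 : ℝ)) * (1 - (1 - xc) ^ 29)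
      ≤ - C4.a1 * x1 - C4.a2 * x2 + C4.e * xc + C4.f := by
  have h := cell_lines 29 (α1 := (87579 / 65536 : ℝ)) (α2 := (868797 / 65536 : ℝ)) (c := (379421 / 32768 : ℝ) + (107 / 256 : ℝ)) (y1 := (1341 / 131072 : ℝ)) (y2 := (1627 / 131072 : ℝ))
    (A1 := (121878039 / 4194304 : ℝ)) (B1 := (3174827 / 67108864 : ℝ)) (A2 := (1136596159 / 4194304 : ℝ)) (B2 := (89214205 / 134217728 : ℝ)) (l := (3291 / 262144 : ℝ)) (u := (4143 / 262144 : ℝ))
    (E := (-244659159 / 1048576 : ℝ)) (F := (-100792225 / 134217728 : ℝ)) (by norm_num) (by norm_num) (by norm_num) (by norm_num) (by norm_num)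
    (by norm_num) (by norm_num) (by norm_num) (by norm_num) (by norm_num) (by norm_num) (by norm_num) (by norm_num) (by norm_num) (by norm_num)
  have e1 : C4.l = (3291 / 262144 : ℝ) := rfl
  have e2 : C4.u = (4143 / 262144 : ℝ) := rfl
  have e3 : C4.a1 = -(121878039 / 4194304 : ℝ) := by norm_num [C4]
  have e4 : C4.a2 = -(1136596159 / 4194304 : ℝ) := by norm_num [C4]
  have e5 : C4.e = (-244659159 / 1048576 : ℝ) := rfl
  have e6 : C4.f = (3174827 / 67108864 : ℝ) + (89214205 / 134217728 : ℝ) + (-100792225 / 134217728 : ℝ) := by norm_num [C4]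
  rw [e1, e2, e3, e4, e5, e6]
  exact h

lemma rcell5 : ∃ N : ℝ, Rw4 P.r2 N (coCell (87579 / 65536 : ℝ) (868797 / 65536 : ℝ) ((379421 / 32768 : ℝ) + (107 / 256 : ℝ)) (5 / 128 : ℝ) C5) := by
  refine ⟨(150994944 : ℝ), ⟨Q8, List.mem_cons_of_mem _ (List.mem_cons_of_mem _ (List.mem_cons_of_mem _ (List.mem_cons_of_mem _ (List.mem_cons_of_mem _ (List.mem_cons_of_mem _ (List.mem_cons_of_mem _ (List.mem_cons_of_mem _ (List.mem_cons_self)))))))), ?_⟩, by norm_num⟩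
  constructor <;> norm_num [Q8, coCell, C5]

lemma lcell5 : ∀ x1 x2 xc : ℝ, 0 ≤ x1 → x1 ≤ 1 → 0 ≤ x2 → x2 ≤ 1 → C5.l ≤ xc → xc ≤ C5.u →
    (87579 / 65536 : ℝ) * (1 - (1 - x1) ^ 29) + (868797 / 65536 : ℝ) * (1 - (1 - x2) ^ 29) - ((379421 / 32768 : ℝ) + (107 / 256 : ℝ)) * (1 - (1 - xc) ^ 29)
      ≤ - C5.a1 * x1 - C5.a2 * x2 + C5.e * xc + C5.f := by
  have h := cell_lines 29 (α1 := (87579 / 65536 : ℝ)) (α2 := (868797 / 65536 : ℝ)) (c := (379421 / 32768 : ℝ) + (107 / 256 : ℝ)) (y1 := (3365 / 262144 : ℝ)) (y2 := (2021 / 131072 : ℝ))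
    (A1 := (113206923 / 4194304 : ℝ)) (B1 := (19091395 / 268435456 : ℝ)) (A2 := (1043606621 / 4194304 : ℝ)) (B2 := (261124529 / 268435456 : ℝ)) (l := (4143 / 262144 : ℝ)) (u := (5215 / 262144 : ℝ))
    (E := (-881776831 / 4194304 : ℝ)) (F := (-74888921 / 67108864 : ℝ)) (by norm_num) (by norm_num) (by norm_num) (by norm_num) (by norm_num)
    (by norm_num) (by norm_num) (by norm_num) (by norm_num) (by norm_num) (by norm_num) (by norm_num) (by norm_num) (by norm_num) (by norm_num)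
  have e1 : C5.l = (4143 / 262144 : ℝ) := rfl
  have e2 : C5.u = (5215 / 262144 : ℝ) := rfl
  have e3 : C5.a1 = -(113206923 / 4194304 : ℝ) := by norm_num [C5]
  have e4 : C5.a2 = -(1043606621 / 4194304 : ℝ) := by norm_num [C5]
  have e5 : C5.e = (-881776831 / 4194304 : ℝ) := rfl
  have e6 : C5.f = (19091395 / 268435456 : ℝ) + (261124529 / 268435456 : ℝ) + (-74888921 / 67108864 : ℝ) := by norm_num [C5]
  rw [e1, e2, e3, e4, e5, e6]
  exact h

lemma rcell6 : ∃ N : ℝ, Rw4 P.r2 N (coCell (87579 / 65536 : ℝ) (868797 / 65536 : ℝ) ((379421 / 32768 : ℝ) + (107 / 256 : ℝ)) (5 / 128 : ℝ) C6) := by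
  refine ⟨(2415919104 : ℝ), ⟨Q9, List.mem_cons_of_mem _ (List.mem_cons_of_mem _ (List.mem_cons_of_mem _ (List.mem_cons_of_mem _ (List.mem_cons_of_mem _ (List.mem_cons_of_mem _ (List.mem_cons_of_mem _ (List.mem_cons_of_mem _ (List.mem_cons_of_mem _ (List.mem_cons_self))))))))), ?_⟩, by norm_num⟩
  constructor <;> norm_num [Q9, coCell, C6]

lemma lcell6 : ∀ x1 x2 xc : ℝ, 0 ≤ x1 → x1 ≤ 1 → 0 ≤ x2 → x2 ≤ 1 → C6.l ≤ xc → xc ≤ C6.u →
    (87579 / 65536 : ℝ) * (1 - (1 - x1) ^ 29) + (868797 / 65536 : ℝ) * (1 - (1 - x2) ^ 29) - ((379421 / 32768 : ℝ) + (107 / 256 : ℝ)) * (1 - (1 - xc) ^ 29)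
      ≤ - C6.a1 * x1 - C6.a2 * x2 + C6.e * xc + C6.f := by
  have h := cell_lines 29 (α1 := (87579 / 65536 : ℝ)) (α2 := (868797 / 65536 : ℝ)) (c := (379421 / 32768 : ℝ) + (107 / 256 : ℝ)) (y1 := (515 / 32768 : ℝ)) (y2 := (625 / 32768 : ℝ))
    (A1 := (52157053 / 2097152 : ℝ)) (B1 := (13602969 / 134217728 : ℝ)) (A2 := (117551331 / 524288 : ℝ)) (B2 := (46853273 / 33554432 : ℝ)) (l := (5215 / 262144 : ℝ)) (u := (6565 / 262144 : ℝ))
    (E := (-772982873 / 4194304 : ℝ)) (F := (-438071429 / 268435456 : ℝ)) (by norm_num) (by norm_num) (by norm_num) (by norm_num) (by norm_num)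
    (by norm_num) (by norm_num) (by norm_num) (by norm_num) (by norm_num) (by norm_num) (by norm_num) (by norm_num) (by norm_num) (by norm_num)
  have e1 : C6.l = (5215 / 262144 : ℝ) := rfl
  have e2 : C6.u = (6565 / 262144 : ℝ) := rfl
  have e3 : C6.a1 = -(52157053 / 2097152 : ℝ) := by norm_num [C6]
  have e4 : C6.a2 = -(117551331 / 524288 : ℝ) := by norm_num [C6]
  have e5 : C6.e = (-772982873 / 4194304 : ℝ) := rfl
  have e6 : C6.f = (13602969 / 134217728 : ℝ) + (46853273 / 33554432 : ℝ) + (-438071429 / 268435456 : ℝ) := by norm_num [C6]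
  rw [e1, e2, e3, e4, e5, e6]
  exact h

lemma rcell7 : ∃ N : ℝ, Rw4 P.r2 N (coCell (87579 / 65536 : ℝ) (868797 / 65536 : ℝ) ((379421 / 32768 : ℝ) + (107 / 256 : ℝ)) (5 / 128 : ℝ) C7) := by
  refine ⟨(301989888 : ℝ), ⟨Q10, List.mem_cons_of_mem _ (List.mem_cons_of_mem _ (List.mem_cons_of_mem _ (List.mem_cons_of_mem _ (List.mem_cons_of_mem _ (List.mem_cons_of_mem _ (List.mem_cons_of_mem _ (List.mem_cons_of_mem _ (List.mem_cons_of_mem _ (List.mem_cons_of_mem _ (List.mem_cons_self)))))))))), ?_⟩, by norm_num⟩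
  constructor <;> norm_num [Q10, coCell, C7]

lemma lcell7 : ∀ x1 x2 xc : ℝ, 0 ≤ x1 → x1 ≤ 1 → 0 ≤ x2 → x2 ≤ 1 → C7.l ≤ xc → xc ≤ C7.u →
    (87579 / 65536 : ℝ) * (1 - (1 - x1) ^ 29) + (868797 / 65536 : ℝ) * (1 - (1 - x2) ^ 29) - ((379421 / 32768 : ℝ) + (107 / 256 : ℝ)) * (1 - (1 - xc) ^ 29)
      ≤ - C7.a1 * x1 - C7.a2 * x2 + C7.e * xc + C7.f := by
  have h := cell_lines 29 (α1 := (87579 / 65536 : ℝ)) (α2 := (868797 / 65536 : ℝ)) (c := (379421 / 32768 : ℝ) + (107 / 256 : ℝ)) (y1 := (5163 / 262144 : ℝ)) (y2 := (6173 / 262144 : ℝ))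
    (A1 := (93129775 / 4194304 : ℝ)) (B1 := (19926917 / 134217728 : ℝ)) (A2 := (827408337 / 4194304 : ℝ)) (B2 := (264308147 / 134217728 : ℝ)) (l := (6565 / 262144 : ℝ)) (u := (1033 / 32768 : ℝ))
    (E := (-654393787 / 4194304 : ℝ)) (F := (-78518003 / 33554432 : ℝ)) (by norm_num) (by norm_num) (by norm_num) (by norm_num) (by norm_num)
    (by norm_num) (by norm_num) (by norm_num) (by norm_num) (by norm_num) (by norm_num) (by norm_num) (by norm_num) (by norm_num) (by norm_num)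
  have e1 : C7.l = (6565 / 262144 : ℝ) := rfl
  have e2 : C7.u = (1033 / 32768 : ℝ) := rfl
  have e3 : C7.a1 = -(93129775 / 4194304 : ℝ) := by norm_num [C7]
  have e4 : C7.a2 = -(827408337 / 4194304 : ℝ) := by norm_num [C7]
  have e5 : C7.e = (-654393787 / 4194304 : ℝ) := rfl
  have e6 : C7.f = (19926917 / 134217728 : ℝ) + (264308147 / 134217728 : ℝ) + (-78518003 / 33554432 : ℝ) := by norm_num [C7]
  rw [e1, e2, e3, e4, e5, e6]
  exact h

lemma rcell8 : ∃ N : ℝ, Rw4 P.r2 N (coCell (87579 / 65536 : ℝ) (868797 / 65536 : ℝ) ((379421 / 32768 : ℝ) + (107 / 256 : ℝ)) (5 / 128 : ℝ) C8) := by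
  refine ⟨(2415919104 : ℝ), ⟨Q11, List.mem_cons_of_mem _ (List.mem_cons_of_mem _ (List.mem_cons_of_mem _ (List.mem_cons_of_mem _ (List.mem_cons_of_mem _ (List.mem_cons_of_mem _ (List.mem_cons_of_mem _ (List.mem_cons_of_mem _ (List.mem_cons_of_mem _ (List.mem_cons_of_mem _ (List.mem_cons_of_mem _ (List.mem_cons_self))))))))))), ?_⟩, by norm_num⟩
  constructor <;> norm_num [Q11, coCell, C8]

lemma lcell8 : ∀ x1 x2 xc : ℝ, 0 ≤ x1 → x1 ≤ 1 → 0 ≤ x2 → x2 ≤ 1 → C8.l ≤ xc → xc ≤ C8.u →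
    (87579 / 65536 : ℝ) * (1 - (1 - x1) ^ 29) + (868797 / 65536 : ℝ) * (1 - (1 - x2) ^ 29) - ((379421 / 32768 : ℝ) + (107 / 256 : ℝ)) * (1 - (1 - xc) ^ 29)
      ≤ - C8.a1 * x1 - C8.a2 * x2 + C8.e * xc + C8.f := by
  have h := cell_lines 29 (α1 := (87579 / 65536 : ℝ)) (α2 := (868797 / 65536 : ℝ)) (c := (379421 / 32768 : ℝ) + (107 / 256 : ℝ)) (y1 := (5987 / 262144 : ℝ)) (y2 := (7279 / 262144 : ℝ))
    (A1 := (21280143 / 1048576 : ℝ)) (B1 := (25371695 / 134217728 : ℝ)) (A2 := (366466301 / 2097152 : ℝ)) (B2 := (170876359 / 67108864 : ℝ)) (l := (1033 / 32768 : ℝ)) (u := (21 / 512 : ℝ))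
    (E := (-130060203 / 1048576 : ℝ)) (F := (-898808131 / 268435456 : ℝ)) (by norm_num) (by norm_num) (by norm_num) (by norm_num) (by norm_num)
    (by norm_num) (by norm_num) (by norm_num) (by norm_num) (by norm_num) (by norm_num) (by norm_num) (by norm_num) (by norm_num) (by norm_num)
  have e1 : C8.l = (1033 / 32768 : ℝ) := rfl
  have e2 : C8.u = (21 / 512 : ℝ) := rfl
  have e3 : C8.a1 = -(21280143 / 1048576 : ℝ) := by norm_num [C8]
  have e4 : C8.a2 = -(366466301 / 2097152 : ℝ) := by norm_num [C8]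
  have e5 : C8.e = (-130060203 / 1048576 : ℝ) := rfl
  have e6 : C8.f = (25371695 / 134217728 : ℝ) + (170876359 / 67108864 : ℝ) + (-898808131 / 268435456 : ℝ) := by norm_num [C8]
  rw [e1, e2, e3, e4, e5, e6]
  exact h

/-- The hypotheses at the origin. -/
lemma horig (lam : ℝ) (hd : (29 : ℝ) * lam ^ 2 = 1) (hb : |lam| ≤ (102087091775 / 549755813888 : ℝ)) :
    OriginH 29 lam (87579 / 65536 : ℝ) (868797 / 65536 : ℝ) (379421 / 32768 : ℝ) (107 / 256 : ℝ) (5 / 128 : ℝ) (45 / 512 : ℝ) (4233 / 4096 : ℝ) (1 / 256 : ℝ) 3298534883328 := by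
  refine originH_of_num (d := 29) (by push_cast; exact hd) hb (by norm_num) (by norm_num) (by norm_num) (by norm_num)
    (by norm_num) (by norm_num) (by norm_num) (by norm_num) (by norm_num) (by norm_num) (by norm_num [S]) (by norm_num) ?_ ?_
  · rw [hch]
    norm_num [abs_of_pos, abs_of_neg]
  · norm_num [abs_of_pos, abs_of_neg]

/-- Nonreconstruction at the bound. -/
theorem main : Tendsto (reconError 3 29 (-(1 / Real.sqrt 29))) atTop (𝓝 0) := by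
  have hsq : Real.sqrt ((29 : ℕ) : ℝ) ^ 2 = 29 := by
    rw [Real.sq_sqrt (by positivity)]; norm_num
  have hsq' : Real.sqrt (29 : ℝ) ^ 2 = 29 := by
    rw [Real.sq_sqrt (by positivity)]
  have hs0 : 0 < Real.sqrt (29 : ℝ) := Real.sqrt_pos.2 (by norm_num)
  have hl2 : ((29 : ℝ)) * (-(1 / Real.sqrt 29)) ^ 2 = 1 := by
    have : (-(1 / Real.sqrt (29 : ℝ))) ^ 2 = 1 / 29 := by
      rw [neg_sq, div_pow, hsq']; norm_num
    rw [this]; norm_num
  have hb : |(-(1 / Real.sqrt (29 : ℝ)))| ≤ (102087091775 / 549755813888 : ℝ) := by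
    rw [abs_neg, abs_of_pos (by positivity)]
    rw [div_le_iff₀ hs0]
    have h1 : (1 : ℝ) ^ 2 ≤ ((102087091775 / 549755813888 : ℝ) * Real.sqrt 29) ^ 2 := by
      rw [mul_pow, hsq']; norm_num
    exact le_of_sq_le_sq h1 (by positivity)
  have hb2 : (-(1 / 2) : ℝ) < -(1 / Real.sqrt (29 : ℝ)) := by
    have h2 := (abs_le.1 hb).1
    have h3 : ((102087091775 / 549755813888 : ℝ) : ℝ) < 1 / 2 := by norm_num
    linarith
  have h1 : (-(1 / Real.sqrt (29 : ℝ))) < 1 := by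
    have : 0 < 1 / Real.sqrt (29 : ℝ) := by positivity
    linarith
  have hlam : |(S : ℝ) * (-(1 / Real.sqrt (29 : ℝ))) - ((P.lp : ℝ) - P.ln)| ≤ ((1 : ℕ) : ℝ) := by
    have h := lam_enc 29 13380759293097744 (by norm_num) (by norm_num [S]) (by norm_num [S])
    have e : ((29 : ℕ) : ℝ) = (29 : ℝ) := by norm_num
    rw [e] at h
    exact h
  obtain ⟨hOa, hON⟩ := horig _ hl2 hb
  refine final_of_box (d := 29) (by norm_num) hb2 h1 (box hlam) (87579 / 65536 : ℝ) (868797 / 65536 : ℝ) (379421 / 32768 : ℝ) (107 / 256 : ℝ) (45 / 512 : ℝ) (4233 / 4096 : ℝ) (5243 / 1048576 : ℝ) (62219 / 16384 : ℝ) (5 / 128 : ℝ) (21 / 512 : ℝ) cellsL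
    (by norm_num) (by norm_num) (by norm_num) (by norm_num) (by norm_num) (by norm_num) (by norm_num) (by norm_num) (by norm_num)
    (by norm_num) (by norm_num) (by norm_num) (by norm_num) (by norm_num) hOa hON rTa rTb rc1 rc2 rc3
    (forall_cons rcell0 (forall_cons rcell1 (forall_cons rcell2 (forall_cons rcell3 (forall_cons rcell4 (forall_cons rcell5 (forall_cons rcell6 (forall_cons rcell7 (forall_cons rcell8 (forall_nil)))))))))) hcover (forall_cons lcell0 (forall_cons lcell1 (forall_cons lcell2 (forall_cons lcell3 (forall_cons lcell4 (forall_cons lcell5 (forall_cons lcell6 (forall_cons lcell7 (forall_cons lcell8 (forall_nil))))))))))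

end Vale.Agent.P154H.Tm.D29
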