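import Vale.Agent.P154H.D.D30
import Vale.Agent.P154H.FinalD
import Vale.Agent.P154H.OriginW

open Filter Topology

set_option maxRecDepth 100000

/-!
Nonreconstruction at the Kesten-Stigum bound for `d = 30`, negative eigenvalue.
-/

namespace Vale.Agent.P154H.Tm.D30

open Vale.Agent.P154 Vale.Agent.P154H

/-- A chord cell. -/
noncomputable def C0 : Cell := ⟨(5243 / 1048576 : ℝ), (845 / 131072 : ℝ), (-148946637 / 4194304 : ℝ), (-719900989 / 2097152 : ℝ), (-1278181501 / 4194304 : ℝ), (-1983849 / 268435456 : ℝ)⟩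

/-- A chord cell. -/
noncomputable def C1 : Cell := ⟨(845 / 131072 : ℝ), (545 / 65536 : ℝ), (-35875505 / 1048576 : ℝ), (-1380346125 / 4194304 : ℝ), (-1217851997 / 4194304 : ℝ), (-100185 / 8388608 : ℝ)⟩

/-- A chord cell. -/
noncomputable def C2 : Cell := ⟨(545 / 65536 : ℝ), (2811 / 262144 : ℝ), (-136962227 / 4194304 : ℝ), (-326854971 / 1048576 : ℝ), (-572058989 / 2097152 : ℝ), (-5164021 / 268435456 : ℝ)⟩

/-- A chord cell. -/
noncomputable def C3 : Cell := ⟨(2811 / 262144 : ℝ), (453 / 32768 : ℝ), (-32221303 / 1048576 : ℝ), (-609972725 / 2097152 : ℝ), (-1055501097 / 4194304 : ℝ), (-4211635 / 134217728 : ℝ)⟩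

/-- A chord cell. -/
noncomputable def C4 : Cell := ⟨(453 / 32768 : ℝ), (2337 / 131072 : ℝ), (-120376761 / 4194304 : ℝ), (-1116394479 / 4194304 : ℝ), (-475484161 / 2097152 : ℝ), (-14327929 / 268435456 : ℝ)⟩

/-- A chord cell. -/
noncomputable def C5 : Cell := ⟨(2337 / 131072 : ℝ), (6027 / 262144 : ℝ), (-110003491 / 4194304 : ℝ), (-500266569 / 2097152 : ℝ), (-830883041 / 4194304 : ℝ), (-27228557 / 268435456 : ℝ)⟩

/-- A chord cell. -/
noncomputable def C6 : Cell := ⟨(6027 / 262144 : ℝ), (1943 / 65536 : ℝ), (-49367133 / 2097152 : ℝ), (-881650425 / 4194304 : ℝ), (-348808619 / 2097152 : ℝ), (-62677385 / 268435456 : ℝ)⟩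

/-- A chord cell. -/
noncomputable def C7 : Cell := ⟨(1943 / 65536 : ℝ), (41 / 1024 : ℝ), (-5506503 / 262144 : ℝ), (-760052525 / 4194304 : ℝ), (-270931707 / 2097152 : ℝ), (-78170107 / 134217728 : ℝ)⟩

/-- The chord cells. -/
noncomputable def cellsL : List Cell := [C0, C1, C2, C3, C4, C5, C6, C7]

lemma hcover : ∀ x : ℝ, (5243 / 1048576 : ℝ) ≤ x → x ≤ (41 / 1024 : ℝ) → ∃ D ∈ cellsL, D.l ≤ x ∧ x ≤ D.u := by
  refine cover_of_chain ?_ (by norm_num [C0])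
  simp only [ChainP, C0, C1, C2, C3, C4, C5, C6, C7]
  norm_num

lemma hch : ((Nat.choose 30 2 : ℕ) : ℝ) = 435 := by norm_num [Nat.choose]

lemma rTa : Rw4 P.r1 (1179648 : ℝ) (coTa 30 (87579 / 65536 : ℝ) (868797 / 65536 : ℝ) (379421 / 32768 : ℝ) (107 / 256 : ℝ) (137 / 4096 : ℝ)) := by
  refine ⟨⟨Ra, List.mem_cons_self, ?_⟩, by norm_num⟩
  constructor <;> norm_num [Ra, coTa, hch]

lemma rTb : Rw4 P.r1 (39582418599936 : ℝ) (coTb 30 (87579 / 65536 : ℝ) (868797 / 65536 : ℝ) (379421 / 32768 : ℝ) (107 / 256 : ℝ) (137 / 4096 : ℝ) (45 / 512 : ℝ) (4233 / 4096 : ℝ) (66501 / 16384 : ℝ)) := by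
  refine ⟨⟨Rb, List.mem_cons_of_mem _ (List.mem_cons_self), ?_⟩, by norm_num⟩
  constructor <;> norm_num [Rb, coTb, hch]

lemma rc1 : Rw4 P.r2 (16777216 : ℝ) ⟨0, 0, 0, -(87579 / 65536 : ℝ), 0, 0, 0, 0, (379421 / 32768 : ℝ) * (45 / 512 : ℝ)⟩ := by
  refine ⟨⟨Q0, List.mem_cons_self, ?_⟩, by norm_num⟩
  constructor <;> norm_num [Q0]

lemma rc2 : Rw4 P.r2 (134217728 : ℝ) ⟨0, 0, 0, 0, -(868797 / 65536 : ℝ), 0, 0, 0, (379421 / 32768 : ℝ) * (4233 / 4096 : ℝ)⟩ := by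
  refine ⟨⟨Q1, List.mem_cons_of_mem _ (List.mem_cons_self), ?_⟩, by norm_num⟩
  constructor <;> norm_num [Q1]

lemma rc3 : Rw4 P.r2 (3072 : ℝ) ⟨0, 0, 0, 0, 0, -1, 0, 0, (41 / 1024 : ℝ)⟩ := by
  refine ⟨⟨Q2, List.mem_cons_of_mem _ (List.mem_cons_of_mem _ (List.mem_cons_self)), ?_⟩, by norm_num⟩
  constructor <;> norm_num [Q2]

lemma rcell0 : ∃ N : ℝ, Rw4 P.r2 N (coCell (87579 / 65536 : ℝ) (868797 / 65536 : ℝ) ((379421 / 32768 : ℝ) + (107 / 256 : ℝ)) (137 / 4096 : ℝ) C0) := by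
  refine ⟨(2415919104 : ℝ), ⟨Q3, List.mem_cons_of_mem _ (List.mem_cons_of_mem _ (List.mem_cons_of_mem _ (List.mem_cons_self))), ?_⟩, by norm_num⟩
  constructor <;> norm_num [Q3, coCell, C0]

lemma lcell0 : ∀ x1 x2 xc : ℝ, 0 ≤ x1 → x1 ≤ 1 → 0 ≤ x2 → x2 ≤ 1 → C0.l ≤ xc → xc ≤ C0.u →
    (87579 / 65536 : ℝ) * (1 - (1 - x1) ^ 30) + (868797 / 65536 : ℝ) * (1 - (1 - x2) ^ 30) - ((379421 / 32768 : ℝ) + (107 / 256 : ℝ)) * (1 - (1 - xc) ^ 30)
      ≤ - C0.a1 * x1 - C0.a2 * x2 + C0.e * xc + C0.f := by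
  have h := cell_lines 30 (α1 := (87579 / 65536 : ℝ)) (α2 := (868797 / 65536 : ℝ)) (c := (379421 / 32768 : ℝ) + (107 / 256 : ℝ)) (y1 := (547 / 131072 : ℝ)) (y2 := (1327 / 262144 : ℝ))
    (A1 := (148946637 / 4194304 : ℝ)) (B1 := (1257359 / 134217728 : ℝ)) (A2 := (719900989 / 2097152 : ℝ)) (B2 := (36104319 / 268435456 : ℝ)) (l := (5243 / 1048576 : ℝ)) (u := (845 / 131072 : ℝ))
    (E := (-1278181501 / 4194304 : ℝ)) (F := (-20301443 / 134217728 : ℝ)) (by norm_num) (by norm_num) (by norm_num) (by norm_num) (by norm_num)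
    (by norm_num) (by norm_num) (by norm_num) (by norm_num) (by norm_num) (by norm_num) (by norm_num) (by norm_num) (by norm_num) (by norm_num)
  have e1 : C0.l = (5243 / 1048576 : ℝ) := rfl
  have e2 : C0.u = (845 / 131072 : ℝ) := rfl
  have e3 : C0.a1 = -(148946637 / 4194304 : ℝ) := by norm_num [C0]
  have e4 : C0.a2 = -(719900989 / 2097152 : ℝ) := by norm_num [C0]
  have e5 : C0.e = (-1278181501 / 4194304 : ℝ) := rfl
  have e6 : C0.f = (1257359 / 134217728 : ℝ) + (36104319 / 268435456 : ℝ) + (-20301443 / 134217728 : ℝ) := by norm_num [C0]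
  rw [e1, e2, e3, e4, e5, e6]
  exact h

lemma rcell1 : ∃ N : ℝ, Rw4 P.r2 N (coCell (87579 / 65536 : ℝ) (868797 / 65536 : ℝ) ((379421 / 32768 : ℝ) + (107 / 256 : ℝ)) (137 / 4096 : ℝ) C1) := by
  refine ⟨(75497472 : ℝ), ⟨Q4, List.mem_cons_of_mem _ (List.mem_cons_of_mem _ (List.mem_cons_of_mem _ (List.mem_cons_of_mem _ (List.mem_cons_self)))), ?_⟩, by norm_num⟩
  constructor <;> norm_num [Q4, coCell, C1]

lemma lcell1 : ∀ x1 x2 xc : ℝ, 0 ≤ x1 → x1 ≤ 1 → 0 ≤ x2 → x2 ≤ 1 → C1.l ≤ xc → xc ≤ C1.u →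
    (87579 / 65536 : ℝ) * (1 - (1 - x1) ^ 30) + (868797 / 65536 : ℝ) * (1 - (1 - x2) ^ 30) - ((379421 / 32768 : ℝ) + (107 / 256 : ℝ)) * (1 - (1 - xc) ^ 30)
      ≤ - C1.a1 * x1 - C1.a2 * x2 + C1.e * xc + C1.f := by
  have h := cell_lines 30 (α1 := (87579 / 65536 : ℝ)) (α2 := (868797 / 65536 : ℝ)) (c := (379421 / 32768 : ℝ) + (107 / 256 : ℝ)) (y1 := (1429 / 262144 : ℝ)) (y2 := (853 / 131072 : ℝ))
    (A1 := (35875505 / 1048576 : ℝ)) (B1 := (4190213 / 268435456 : ℝ)) (A2 := (1380346125 / 4194304 : ℝ)) (B2 := (58098565 / 268435456 : ℝ)) (l := (845 / 131072 : ℝ)) (u := (545 / 65536 : ℝ))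
    (E := (-1217851997 / 4194304 : ℝ)) (F := (-32747349 / 134217728 : ℝ)) (by norm_num) (by norm_num) (by norm_num) (by norm_num) (by norm_num)
    (by norm_num) (by norm_num) (by norm_num) (by norm_num) (by norm_num) (by norm_num) (by norm_num) (by norm_num) (by norm_num) (by norm_num)
  have e1 : C1.l = (845 / 131072 : ℝ) := rfl
  have e2 : C1.u = (545 / 65536 : ℝ) := rfl
  have e3 : C1.a1 = -(35875505 / 1048576 : ℝ) := by norm_num [C1]
  have e4 : C1.a2 = -(1380346125 / 4194304 : ℝ) := by norm_num [C1]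
  have e5 : C1.e = (-1217851997 / 4194304 : ℝ) := rfl
  have e6 : C1.f = (4190213 / 268435456 : ℝ) + (58098565 / 268435456 : ℝ) + (-32747349 / 134217728 : ℝ) := by norm_num [C1]
  rw [e1, e2, e3, e4, e5, e6]
  exact h

lemma rcell2 : ∃ N : ℝ, Rw4 P.r2 N (coCell (87579 / 65536 : ℝ) (868797 / 65536 : ℝ) ((379421 / 32768 : ℝ) + (107 / 256 : ℝ)) (137 / 4096 : ℝ) C2) := by
  refine ⟨(2415919104 : ℝ), ⟨Q5, List.mem_cons_of_mem _ (List.mem_cons_of_mem _ (List.mem_cons_of_mem _ (List.mem_cons_of_mem _ (List.mem_cons_of_mem _ (List.mem_cons_self))))), ?_⟩, by norm_num⟩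
  constructor <;> norm_num [Q5, coCell, C2]

lemma lcell2 : ∀ x1 x2 xc : ℝ, 0 ≤ x1 → x1 ≤ 1 → 0 ≤ x2 → x2 ≤ 1 → C2.l ≤ xc → xc ≤ C2.u →
    (87579 / 65536 : ℝ) * (1 - (1 - x1) ^ 30) + (868797 / 65536 : ℝ) * (1 - (1 - x2) ^ 30) - ((379421 / 32768 : ℝ) + (107 / 256 : ℝ)) * (1 - (1 - xc) ^ 30)
      ≤ - C2.a1 * x1 - C2.a2 * x2 + C2.e * xc + C2.f := by
  have h := cell_lines 30 (α1 := (87579 / 65536 : ℝ)) (α2 := (868797 / 65536 : ℝ)) (c := (379421 / 32768 : ℝ) + (107 / 256 : ℝ)) (y1 := (231 / 32768 : ℝ)) (y2 := (2193 / 262144 : ℝ))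
    (A1 := (136962227 / 4194304 : ℝ)) (B1 := (6803779 / 268435456 : ℝ)) (A2 := (326854971 / 1048576 : ℝ)) (B2 := (92770101 / 268435456 : ℝ)) (l := (545 / 65536 : ℝ)) (u := (2811 / 262144 : ℝ))
    (E := (-572058989 / 2097152 : ℝ)) (F := (-104737901 / 268435456 : ℝ)) (by norm_num) (by norm_num) (by norm_num) (by norm_num) (by norm_num)
    (by norm_num) (by norm_num) (by norm_num) (by norm_num) (by norm_num) (by norm_num) (by norm_num) (by norm_num) (by norm_num) (by norm_num)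
  have e1 : C2.l = (545 / 65536 : ℝ) := rfl
  have e2 : C2.u = (2811 / 262144 : ℝ) := rfl
  have e3 : C2.a1 = -(136962227 / 4194304 : ℝ) := by norm_num [C2]
  have e4 : C2.a2 = -(326854971 / 1048576 : ℝ) := by norm_num [C2]
  have e5 : C2.e = (-572058989 / 2097152 : ℝ) := rfl
  have e6 : C2.f = (6803779 / 268435456 : ℝ) + (92770101 / 268435456 : ℝ) + (-104737901 / 268435456 : ℝ) := by norm_num [C2]
  rw [e1, e2, e3, e4, e5, e6]
  exact h

lemma rcell3 : ∃ N : ℝ, Rw4 P.r2 N (coCell (87579 / 65536 : ℝ) (868797 / 65536 : ℝ) ((379421 / 32768 : ℝ) + (107 / 256 : ℝ)) (137 / 4096 : ℝ) C3) := by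
  refine ⟨(1207959552 : ℝ), ⟨Q6, List.mem_cons_of_mem _ (List.mem_cons_of_mem _ (List.mem_cons_of_mem _ (List.mem_cons_of_mem _ (List.mem_cons_of_mem _ (List.mem_cons_of_mem _ (List.mem_cons_self)))))), ?_⟩, by norm_num⟩
  constructor <;> norm_num [Q6, coCell, C3]

lemma lcell3 : ∀ x1 x2 xc : ℝ, 0 ≤ x1 → x1 ≤ 1 → 0 ≤ x2 → x2 ≤ 1 → C3.l ≤ xc → xc ≤ C3.u →
    (87579 / 65536 : ℝ) * (1 - (1 - x1) ^ 30) + (868797 / 65536 : ℝ) * (1 - (1 - x2) ^ 30) - ((379421 / 32768 : ℝ) + (107 / 256 : ℝ)) * (1 - (1 - xc) ^ 30)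
      ≤ - C3.a1 * x1 - C3.a2 * x2 + C3.e * xc + C3.f := by
  have h := cell_lines 30 (α1 := (87579 / 65536 : ℝ)) (α2 := (868797 / 65536 : ℝ)) (c := (379421 / 32768 : ℝ) + (107 / 256 : ℝ)) (y1 := (2393 / 262144 : ℝ)) (y2 := (2813 / 262144 : ℝ))
    (A1 := (32221303 / 1048576 : ℝ)) (B1 := (10980025 / 268435456 : ℝ)) (A2 := (609972725 / 2097152 : ℝ)) (B2 := (146150537 / 268435456 : ℝ)) (l := (2811 / 262144 : ℝ)) (u := (453 / 32768 : ℝ))
    (E := (-1055501097 / 4194304 : ℝ)) (F := (-20694229 / 33554432 : ℝ)) (by norm_num) (by norm_num) (by norm_num) (by norm_num) (by norm_num)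
    (by norm_num) (by norm_num) (by norm_num) (by norm_num) (by norm_num) (by norm_num) (by norm_num) (by norm_num) (by norm_num) (by norm_num)
  have e1 : C3.l = (2811 / 262144 : ℝ) := rfl
  have e2 : C3.u = (453 / 32768 : ℝ) := rfl
  have e3 : C3.a1 = -(32221303 / 1048576 : ℝ) := by norm_num [C3]
  have e4 : C3.a2 = -(609972725 / 2097152 : ℝ) := by norm_num [C3]
  have e5 : C3.e = (-1055501097 / 4194304 : ℝ) := rfl
  have e6 : C3.f = (10980025 / 268435456 : ℝ) + (146150537 / 268435456 : ℝ) + (-20694229 / 33554432 : ℝ) := by norm_num [C3]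
  rw [e1, e2, e3, e4, e5, e6]
  exact h

lemma rcell4 : ∃ N : ℝ, Rw4 P.r2 N (coCell (87579 / 65536 : ℝ) (868797 / 65536 : ℝ) ((379421 / 32768 : ℝ) + (107 / 256 : ℝ)) (137 / 4096 : ℝ) C4) := by
  refine ⟨(2415919104 : ℝ), ⟨Q7, List.mem_cons_of_mem _ (List.mem_cons_of_mem _ (List.mem_cons_of_mem _ (List.mem_cons_of_mem _ (List.mem_cons_of_mem _ (List.mem_cons_of_mem _ (List.mem_cons_of_mem _ (List.mem_cons_self))))))), ?_⟩, by norm_num⟩
  constructor <;> norm_num [Q7, coCell, C4]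

lemma lcell4 : ∀ x1 x2 xc : ℝ, 0 ≤ x1 → x1 ≤ 1 → 0 ≤ x2 → x2 ≤ 1 → C4.l ≤ xc → xc ≤ C4.u →
    (87579 / 65536 : ℝ) * (1 - (1 - x1) ^ 30) + (868797 / 65536 : ℝ) * (1 - (1 - x2) ^ 30) - ((379421 / 32768 : ℝ) + (107 / 256 : ℝ)) * (1 - (1 - xc) ^ 30)
      ≤ - C4.a1 * x1 - C4.a2 * x2 + C4.e * xc + C4.f := by
  have h := cell_lines 30 (α1 := (87579 / 65536 : ℝ)) (α2 := (868797 / 65536 : ℝ)) (c := (379421 / 32768 : ℝ) + (107 / 256 : ℝ)) (y1 := (751 / 65536 : ℝ)) (y2 := (3605 / 262144 : ℝ))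
    (A1 := (120376761 / 4194304 : ℝ)) (B1 := (2072313 / 33554432 : ℝ)) (A2 := (1116394479 / 4194304 : ℝ)) (B2 := (227134405 / 268435456 : ℝ)) (l := (453 / 32768 : ℝ)) (u := (2337 / 131072 : ℝ))
    (E := (-475484161 / 2097152 : ℝ)) (F := (-129020419 / 134217728 : ℝ)) (by norm_num) (by norm_num) (by norm_num) (by norm_num) (by norm_num)
    (by norm_num) (by norm_num) (by norm_num) (by norm_num) (by norm_num) (by norm_num) (by norm_num) (by norm_num) (by norm_num) (by norm_num)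
  have e1 : C4.l = (453 / 32768 : ℝ) := rfl
  have e2 : C4.u = (2337 / 131072 : ℝ) := rfl
  have e3 : C4.a1 = -(120376761 / 4194304 : ℝ) := by norm_num [C4]
  have e4 : C4.a2 = -(1116394479 / 4194304 : ℝ) := by norm_num [C4]
  have e5 : C4.e = (-475484161 / 2097152 : ℝ) := rfl
  have e6 : C4.f = (2072313 / 33554432 : ℝ) + (227134405 / 268435456 : ℝ) + (-129020419 / 134217728 : ℝ) := by norm_num [C4]
  rw [e1, e2, e3, e4, e5, e6]
  exact h

lemma rcell5 : ∃ N : ℝ, Rw4 P.r2 N (coCell (87579 / 65536 : ℝ) (868797 / 65536 : ℝ) ((379421 / 32768 : ℝ) + (107 / 256 : ℝ)) (137 / 4096 : ℝ) C5) := by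
  refine ⟨(2415919104 : ℝ), ⟨Q8, List.mem_cons_of_mem _ (List.mem_cons_of_mem _ (List.mem_cons_of_mem _ (List.mem_cons_of_mem _ (List.mem_cons_of_mem _ (List.mem_cons_of_mem _ (List.mem_cons_of_mem _ (List.mem_cons_of_mem _ (List.mem_cons_self)))))))), ?_⟩, by norm_num⟩
  constructor <;> norm_num [Q8, coCell, C5]

lemma lcell5 : ∀ x1 x2 xc : ℝ, 0 ≤ x1 → x1 ≤ 1 → 0 ≤ x2 → x2 ≤ 1 → C5.l ≤ xc → xc ≤ C5.u →
    (87579 / 65536 : ℝ) * (1 - (1 - x1) ^ 30) + (868797 / 65536 : ℝ) * (1 - (1 - x2) ^ 30) - ((379421 / 32768 : ℝ) + (107 / 256 : ℝ)) * (1 - (1 - xc) ^ 30)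
      ≤ - C5.a1 * x1 - C5.a2 * x2 + C5.e * xc + C5.f := by
  have h := cell_lines 30 (α1 := (87579 / 65536 : ℝ)) (α2 := (868797 / 65536 : ℝ)) (c := (379421 / 32768 : ℝ) + (107 / 256 : ℝ)) (y1 := (119 / 8192 : ℝ)) (y2 := (1145 / 65536 : ℝ))
    (A1 := (110003491 / 4194304 : ℝ)) (B1 := (25189563 / 268435456 : ℝ)) (A2 := (500266569 / 2097152 : ℝ)) (B2 := (342653627 / 268435456 : ℝ)) (l := (2337 / 131072 : ℝ)) (u := (6027 / 262144 : ℝ))
    (E := (-830883041 / 4194304 : ℝ)) (F := (-395071747 / 268435456 : ℝ)) (by norm_num) (by norm_num) (by norm_num) (by norm_num) (by norm_num)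
    (by norm_num) (by norm_num) (by norm_num) (by norm_num) (by norm_num) (by norm_num) (by norm_num) (by norm_num) (by norm_num) (by norm_num)
  have e1 : C5.l = (2337 / 131072 : ℝ) := rfl
  have e2 : C5.u = (6027 / 262144 : ℝ) := rfl
  have e3 : C5.a1 = -(110003491 / 4194304 : ℝ) := by norm_num [C5]
  have e4 : C5.a2 = -(500266569 / 2097152 : ℝ) := by norm_num [C5]
  have e5 : C5.e = (-830883041 / 4194304 : ℝ) := rfl
  have e6 : C5.f = (25189563 / 268435456 : ℝ) + (342653627 / 268435456 : ℝ) + (-395071747 / 268435456 : ℝ) := by norm_num [C5]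
  rw [e1, e2, e3, e4, e5, e6]
  exact h

lemma rcell6 : ∃ N : ℝ, Rw4 P.r2 N (coCell (87579 / 65536 : ℝ) (868797 / 65536 : ℝ) ((379421 / 32768 : ℝ) + (107 / 256 : ℝ)) (137 / 4096 : ℝ) C6) := by
  refine ⟨(2415919104 : ℝ), ⟨Q9, List.mem_cons_of_mem _ (List.mem_cons_of_mem _ (List.mem_cons_of_mem _ (List.mem_cons_of_mem _ (List.mem_cons_of_mem _ (List.mem_cons_of_mem _ (List.mem_cons_of_mem _ (List.mem_cons_of_mem _ (List.mem_cons_of_mem _ (List.mem_cons_self))))))))), ?_⟩, by norm_num⟩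
  constructor <;> norm_num [Q9, coCell, C6]

lemma lcell6 : ∀ x1 x2 xc : ℝ, 0 ≤ x1 → x1 ≤ 1 → 0 ≤ x2 → x2 ≤ 1 → C6.l ≤ xc → xc ≤ C6.u →
    (87579 / 65536 : ℝ) * (1 - (1 - x1) ^ 30) + (868797 / 65536 : ℝ) * (1 - (1 - x2) ^ 30) - ((379421 / 32768 : ℝ) + (107 / 256 : ℝ)) * (1 - (1 - xc) ^ 30)
      ≤ - C6.a1 * x1 - C6.a2 * x2 + C6.e * xc + C6.f := by
  have h := cell_lines 30 (α1 := (87579 / 65536 : ℝ)) (α2 := (868797 / 65536 : ℝ)) (c := (379421 / 32768 : ℝ) + (107 / 256 : ℝ)) (y1 := (4769 / 262144 : ℝ)) (y2 := (5701 / 262144 : ℝ))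
    (A1 := (49367133 / 2097152 : ℝ)) (B1 := (36965439 / 268435456 : ℝ)) (A2 := (881650425 / 4194304 : ℝ)) (B2 := (491520963 / 268435456 : ℝ)) (l := (6027 / 262144 : ℝ)) (u := (1943 / 65536 : ℝ))
    (E := (-348808619 / 2097152 : ℝ)) (F := (-591163787 / 268435456 : ℝ)) (by norm_num) (by norm_num) (by norm_num) (by norm_num) (by norm_num)
    (by norm_num) (by norm_num) (by norm_num) (by norm_num) (by norm_num) (by norm_num) (by norm_num) (by norm_num) (by norm_num) (by norm_num)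
  have e1 : C6.l = (6027 / 262144 : ℝ) := rfl
  have e2 : C6.u = (1943 / 65536 : ℝ) := rfl
  have e3 : C6.a1 = -(49367133 / 2097152 : ℝ) := by norm_num [C6]
  have e4 : C6.a2 = -(881650425 / 4194304 : ℝ) := by norm_num [C6]
  have e5 : C6.e = (-348808619 / 2097152 : ℝ) := rfl
  have e6 : C6.f = (36965439 / 268435456 : ℝ) + (491520963 / 268435456 : ℝ) + (-591163787 / 268435456 : ℝ) := by norm_num [C6]
  rw [e1, e2, e3, e4, e5, e6]
  exact h

lemma rcell7 : ∃ N : ℝ, Rw4 P.r2 N (coCell (87579 / 65536 : ℝ) (868797 / 65536 : ℝ) ((379421 / 32768 : ℝ) + (107 / 256 : ℝ)) (137 / 4096 : ℝ) C7) := by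
  refine ⟨(1207959552 : ℝ), ⟨Q10, List.mem_cons_of_mem _ (List.mem_cons_of_mem _ (List.mem_cons_of_mem _ (List.mem_cons_of_mem _ (List.mem_cons_of_mem _ (List.mem_cons_of_mem _ (List.mem_cons_of_mem _ (List.mem_cons_of_mem _ (List.mem_cons_of_mem _ (List.mem_cons_of_mem _ (List.mem_cons_self)))))))))), ?_⟩, by norm_num⟩
  constructor <;> norm_num [Q10, coCell, C7]

lemma lcell7 : ∀ x1 x2 xc : ℝ, 0 ≤ x1 → x1 ≤ 1 → 0 ≤ x2 → x2 ≤ 1 → C7.l ≤ xc → xc ≤ C7.u →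
    (87579 / 65536 : ℝ) * (1 - (1 - x1) ^ 30) + (868797 / 65536 : ℝ) * (1 - (1 - x2) ^ 30) - ((379421 / 32768 : ℝ) + (107 / 256 : ℝ)) * (1 - (1 - xc) ^ 30)
      ≤ - C7.a1 * x1 - C7.a2 * x2 + C7.e * xc + C7.f := by
  have h := cell_lines 30 (α1 := (87579 / 65536 : ℝ)) (α2 := (868797 / 65536 : ℝ)) (c := (379421 / 32768 : ℝ) + (107 / 256 : ℝ)) (y1 := (2889 / 131072 : ℝ)) (y2 := (3505 / 131072 : ℝ))
    (A1 := (5506503 / 262144 : ℝ)) (B1 := (3164225 / 16777216 : ℝ)) (A2 := (760052525 / 4194304 : ℝ)) (B2 := (679732769 / 268435456 : ℝ)) (l := (1943 / 65536 : ℝ)) (u := (41 / 1024 : ℝ))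
    (E := (-270931707 / 2097152 : ℝ)) (F := (-886700583 / 268435456 : ℝ)) (by norm_num) (by norm_num) (by norm_num) (by norm_num) (by norm_num)
    (by norm_num) (by norm_num) (by norm_num) (by norm_num) (by norm_num) (by norm_num) (by norm_num) (by norm_num) (by norm_num) (by norm_num)
  have e1 : C7.l = (1943 / 65536 : ℝ) := rfl
  have e2 : C7.u = (41 / 1024 : ℝ) := rfl
  have e3 : C7.a1 = -(5506503 / 262144 : ℝ) := by norm_num [C7]
  have e4 : C7.a2 = -(760052525 / 4194304 : ℝ) := by norm_num [C7]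
  have e5 : C7.e = (-270931707 / 2097152 : ℝ) := rfl
  have e6 : C7.f = (3164225 / 16777216 : ℝ) + (679732769 / 268435456 : ℝ) + (-886700583 / 268435456 : ℝ) := by norm_num [C7]
  rw [e1, e2, e3, e4, e5, e6]
  exact h

/-- The hypotheses at the origin. -/
lemma horig (lam : ℝ) (hd : (30 : ℝ) * lam ^ 2 = 1) (hb : |lam| ≤ (100371220129 / 549755813888 : ℝ)) :
    OriginH 30 lam (87579 / 65536 : ℝ) (868797 / 65536 : ℝ) (379421 / 32768 : ℝ) (107 / 256 : ℝ) (137 / 4096 : ℝ) (45 / 512 : ℝ) (4233 / 4096 : ℝ) (1 / 256 : ℝ) 3298534883328 := by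
  refine originH_of_num (d := 30) (by push_cast; exact hd) hb (by norm_num) (by norm_num) (by norm_num) (by norm_num)
    (by norm_num) (by norm_num) (by norm_num) (by norm_num) (by norm_num) (by norm_num) (by norm_num [S]) (by norm_num) ?_ ?_
  · rw [hch]
    norm_num [abs_of_pos, abs_of_neg]
  · norm_num [abs_of_pos, abs_of_neg]

/-- Nonreconstruction at the bound. -/
theorem main : Tendsto (reconError 3 30 (-(1 / Real.sqrt 30))) atTop (𝓝 0) := by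
  have hsq : Real.sqrt ((30 : ℕ) : ℝ) ^ 2 = 30 := by
    rw [Real.sq_sqrt (by positivity)]; norm_num
  have hsq' : Real.sqrt (30 : ℝ) ^ 2 = 30 := by
    rw [Real.sq_sqrt (by positivity)]
  have hs0 : 0 < Real.sqrt (30 : ℝ) := Real.sqrt_pos.2 (by norm_num)
  have hl2 : ((30 : ℝ)) * (-(1 / Real.sqrt 30)) ^ 2 = 1 := by
    have : (-(1 / Real.sqrt (30 : ℝ))) ^ 2 = 1 / 30 := by
      rw [neg_sq, div_pow, hsq']; norm_num
    rw [this]; norm_num
  have hb : |(-(1 / Real.sqrt (30 : ℝ)))| ≤ (100371220129 / 549755813888 : ℝ) := by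
    rw [abs_neg, abs_of_pos (by positivity)]
    rw [div_le_iff₀ hs0]
    have h1 : (1 : ℝ) ^ 2 ≤ ((100371220129 / 549755813888 : ℝ) * Real.sqrt 30) ^ 2 := by
      rw [mul_pow, hsq']; norm_num
    exact le_of_sq_le_sq h1 (by positivity)
  have hb2 : (-(1 / 2) : ℝ) < -(1 / Real.sqrt (30 : ℝ)) := by
    have h2 := (abs_le.1 hb).1
    have h3 : ((100371220129 / 549755813888 : ℝ) : ℝ) < 1 / 2 := by norm_num
    linarith
  have h1 : (-(1 / Real.sqrt (30 : ℝ))) < 1 := by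
    have : 0 < 1 / Real.sqrt (30 : ℝ) := by positivity
    linarith
  have hlam : |(S : ℝ) * (-(1 / Real.sqrt (30 : ℝ))) - ((P.lp : ℝ) - P.ln)| ≤ ((1 : ℕ) : ℝ) := by
    have h := lam_enc 30 13155856564707632 (by norm_num) (by norm_num [S]) (by norm_num [S])
    have e : ((30 : ℕ) : ℝ) = (30 : ℝ) := by norm_num
    rw [e] at h
    exact h
  obtain ⟨hOa, hON⟩ := horig _ hl2 hb
  refine final_of_box (d := 30) (by norm_num) hb2 h1 (box hlam) (87579 / 65536 : ℝ) (868797 / 65536 : ℝ) (379421 / 32768 : ℝ) (107 / 256 : ℝ) (45 / 512 : ℝ) (4233 / 4096 : ℝ) (5243 / 1048576 : ℝ) (66501 / 16384 : ℝ) (137 / 4096 : ℝ) (41 / 1024 : ℝ) cellsL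
    (by norm_num) (by norm_num) (by norm_num) (by norm_num) (by norm_num) (by norm_num) (by norm_num) (by norm_num) (by norm_num)
    (by norm_num) (by norm_num) (by norm_num) (by norm_num) (by norm_num) hOa hON rTa rTb rc1 rc2 rc3
    (forall_cons rcell0 (forall_cons rcell1 (forall_cons rcell2 (forall_cons rcell3 (forall_cons rcell4 (forall_cons rcell5 (forall_cons rcell6 (forall_cons rcell7 (forall_nil))))))))) hcover (forall_cons lcell0 (forall_cons lcell1 (forall_cons lcell2 (forall_cons lcell3 (forall_cons lcell4 (forall_cons lcell5 (forall_cons lcell6 (forall_cons lcell7 (forall_nil)))))))))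

end Vale.Agent.P154H.Tm.D30
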