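import Vale.Agent.P154H.D.D31
import Vale.Agent.P154H.FinalD
import Vale.Agent.P154H.OriginW

open Filter Topology

set_option maxRecDepth 100000

/-!
Nonreconstruction at the Kesten-Stigum bound for `d = 31`, negative eigenvalue.
-/

namespace Vale.Agent.P154H.Tm.D31

open Vale.Agent.P154 Vale.Agent.P154H

/-- A chord cell. -/
noncomputable def C0 : Cell := ⟨(5243 / 1048576 : ℝ), (1683 / 262144 : ℝ), (-153621877 / 4194304 : ℝ), (-370023437 / 1048576 : ℝ), (-1313760221 / 4194304 : ℝ), (-1963523 / 268435456 : ℝ)⟩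

/-- A chord cell. -/
noncomputable def C1 : Cell := ⟨(1683 / 262144 : ℝ), (135 / 16384 : ℝ), (-73840431 / 2097152 : ℝ), (-1418544947 / 4194304 : ℝ), (-1251105903 / 4194304 : ℝ), (-3193819 / 268435456 : ℝ)⟩

/-- A chord cell. -/
noncomputable def C2 : Cell := ⟨(135 / 16384 : ℝ), (2773 / 262144 : ℝ), (-141553899 / 4194304 : ℝ), (-671164717 / 2097152 : ℝ), (-587466629 / 2097152 : ℝ), (-2488303 / 134217728 : ℝ)⟩

/-- A chord cell. -/
noncomputable def C3 : Cell := ⟨(2773 / 262144 : ℝ), (445 / 32768 : ℝ), (-66556767 / 2097152 : ℝ), (-626288381 / 2097152 : ℝ), (-1083682917 / 4194304 : ℝ), (-8360651 / 268435456 : ℝ)⟩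

/-- A chord cell. -/
noncomputable def C4 : Cell := ⟨(445 / 32768 : ℝ), (2285 / 131072 : ℝ), (-123391673 / 4194304 : ℝ), (-1147287153 / 4194304 : ℝ), (-30518765 / 131072 : ℝ), (-14222329 / 268435456 : ℝ)⟩

/-- A chord cell. -/
noncomputable def C5 : Cell := ⟨(2285 / 131072 : ℝ), (5867 / 262144 : ℝ), (-14207073 / 524288 : ℝ), (-256989747 / 1048576 : ℝ), (-854108905 / 4194304 : ℝ), (-13270509 / 134217728 : ℝ)⟩

/-- A chord cell. -/
noncomputable def C6 : Cell := ⟨(5867 / 262144 : ℝ), (7531 / 262144 : ℝ), (-51426967 / 2097152 : ℝ), (-907104309 / 4194304 : ℝ), (-718597691 / 4194304 : ℝ), (-62193515 / 268435456 : ℝ)⟩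

/-- A chord cell. -/
noncomputable def C7 : Cell := ⟨(7531 / 262144 : ℝ), (39 / 1024 : ℝ), (-91633197 / 4194304 : ℝ), (-786808061 / 4194304 : ℝ), (-141193355 / 1048576 : ℝ), (-150827385 / 268435456 : ℝ)⟩

/-- The chord cells. -/
noncomputable def cellsL : List Cell := [C0, C1, C2, C3, C4, C5, C6, C7]

lemma hcover : ∀ x : ℝ, (5243 / 1048576 : ℝ) ≤ x → x ≤ (39 / 1024 : ℝ) → ∃ D ∈ cellsL, D.l ≤ x ∧ x ≤ D.u := by
  refine cover_of_chain ?_ (by norm_num [C0])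
  simp only [ChainP, C0, C1, C2, C3, C4, C5, C6, C7]
  norm_num

lemma hch : ((Nat.choose 31 2 : ℕ) : ℝ) = 465 := by norm_num [Nat.choose]

lemma rTa : Rw4 P.r1 (1179648 : ℝ) (coTa 31 (87579 / 65536 : ℝ) (868797 / 65536 : ℝ) (379421 / 32768 : ℝ) (107 / 256 : ℝ) (149 / 4096 : ℝ)) := by
  refine ⟨⟨Ra, List.mem_cons_self, ?_⟩, by norm_num⟩
  constructor <;> norm_num [Ra, coTa, hch]

lemma rTb : Rw4 P.r1 (39582418599936 : ℝ) (coTb 31 (87579 / 65536 : ℝ) (868797 / 65536 : ℝ) (379421 / 32768 : ℝ) (107 / 256 : ℝ) (149 / 4096 : ℝ) (45 / 512 : ℝ) (4233 / 4096 : ℝ) (70913 / 16384 : ℝ)) := by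
  refine ⟨⟨Rb, List.mem_cons_of_mem _ (List.mem_cons_self), ?_⟩, by norm_num⟩
  constructor <;> norm_num [Rb, coTb, hch]

lemma rc1 : Rw4 P.r2 (16777216 : ℝ) ⟨0, 0, 0, -(87579 / 65536 : ℝ), 0, 0, 0, 0, (379421 / 32768 : ℝ) * (45 / 512 : ℝ)⟩ := by
  refine ⟨⟨Q0, List.mem_cons_self, ?_⟩, by norm_num⟩
  constructor <;> norm_num [Q0]

lemma rc2 : Rw4 P.r2 (134217728 : ℝ) ⟨0, 0, 0, 0, -(868797 / 65536 : ℝ), 0, 0, 0, (379421 / 32768 : ℝ) * (4233 / 4096 : ℝ)⟩ := by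
  refine ⟨⟨Q1, List.mem_cons_of_mem _ (List.mem_cons_self), ?_⟩, by norm_num⟩
  constructor <;> norm_num [Q1]

lemma rc3 : Rw4 P.r2 (3072 : ℝ) ⟨0, 0, 0, 0, 0, -1, 0, 0, (39 / 1024 : ℝ)⟩ := by
  refine ⟨⟨Q2, List.mem_cons_of_mem _ (List.mem_cons_of_mem _ (List.mem_cons_self)), ?_⟩, by norm_num⟩
  constructor <;> norm_num [Q2]

lemma rcell0 : ∃ N : ℝ, Rw4 P.r2 N (coCell (87579 / 65536 : ℝ) (868797 / 65536 : ℝ) ((379421 / 32768 : ℝ) + (107 / 256 : ℝ)) (149 / 4096 : ℝ) C0) := by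
  refine ⟨(2415919104 : ℝ), ⟨Q3, List.mem_cons_of_mem _ (List.mem_cons_of_mem _ (List.mem_cons_of_mem _ (List.mem_cons_self))), ?_⟩, by norm_num⟩
  constructor <;> norm_num [Q3, coCell, C0]

lemma lcell0 : ∀ x1 x2 xc : ℝ, 0 ≤ x1 → x1 ≤ 1 → 0 ≤ x2 → x2 ≤ 1 → C0.l ≤ xc → xc ≤ C0.u →
    (87579 / 65536 : ℝ) * (1 - (1 - x1) ^ 31) + (868797 / 65536 : ℝ) * (1 - (1 - x2) ^ 31) - ((379421 / 32768 : ℝ) + (107 / 256 : ℝ)) * (1 - (1 - xc) ^ 31)
      ≤ - C0.a1 * x1 - C0.a2 * x2 + C0.e * xc + C0.f := by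
  have h := cell_lines 31 (α1 := (87579 / 65536 : ℝ)) (α2 := (868797 / 65536 : ℝ)) (c := (379421 / 32768 : ℝ) + (107 / 256 : ℝ)) (y1 := (537 / 131072 : ℝ)) (y2 := (83 / 16384 : ℝ))
    (A1 := (153621877 / 4194304 : ℝ)) (B1 := (2587385 / 268435456 : ℝ)) (A2 := (370023437 / 1048576 : ℝ)) (B2 := (38520765 / 268435456 : ℝ)) (l := (5243 / 1048576 : ℝ)) (u := (1683 / 262144 : ℝ))
    (E := (-1313760221 / 4194304 : ℝ)) (F := (-43071673 / 268435456 : ℝ)) (by norm_num) (by norm_num) (by norm_num) (by norm_num) (by norm_num)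
    (by norm_num) (by norm_num) (by norm_num) (by norm_num) (by norm_num) (by norm_num) (by norm_num) (by norm_num) (by norm_num) (by norm_num)
  have e1 : C0.l = (5243 / 1048576 : ℝ) := rfl
  have e2 : C0.u = (1683 / 262144 : ℝ) := rfl
  have e3 : C0.a1 = -(153621877 / 4194304 : ℝ) := by norm_num [C0]
  have e4 : C0.a2 = -(370023437 / 1048576 : ℝ) := by norm_num [C0]
  have e5 : C0.e = (-1313760221 / 4194304 : ℝ) := rfl
  have e6 : C0.f = (2587385 / 268435456 : ℝ) + (38520765 / 268435456 : ℝ) + (-43071673 / 268435456 : ℝ) := by norm_num [C0]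
  rw [e1, e2, e3, e4, e5, e6]
  exact h

lemma rcell1 : ∃ N : ℝ, Rw4 P.r2 N (coCell (87579 / 65536 : ℝ) (868797 / 65536 : ℝ) ((379421 / 32768 : ℝ) + (107 / 256 : ℝ)) (149 / 4096 : ℝ) C1) := by
  refine ⟨(2415919104 : ℝ), ⟨Q4, List.mem_cons_of_mem _ (List.mem_cons_of_mem _ (List.mem_cons_of_mem _ (List.mem_cons_of_mem _ (List.mem_cons_self)))), ?_⟩, by norm_num⟩
  constructor <;> norm_num [Q4, coCell, C1]

lemma lcell1 : ∀ x1 x2 xc : ℝ, 0 ≤ x1 → x1 ≤ 1 → 0 ≤ x2 → x2 ≤ 1 → C1.l ≤ xc → xc ≤ C1.u →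
    (87579 / 65536 : ℝ) * (1 - (1 - x1) ^ 31) + (868797 / 65536 : ℝ) * (1 - (1 - x2) ^ 31) - ((379421 / 32768 : ℝ) + (107 / 256 : ℝ)) * (1 - (1 - xc) ^ 31)
      ≤ - C1.a1 * x1 - C1.a2 * x2 + C1.e * xc + C1.f := by
  have h := cell_lines 31 (α1 := (87579 / 65536 : ℝ)) (α2 := (868797 / 65536 : ℝ)) (c := (379421 / 32768 : ℝ) + (107 / 256 : ℝ)) (y1 := (1417 / 262144 : ℝ)) (y2 := (1697 / 262144 : ℝ))
    (A1 := (73840431 / 2097152 : ℝ)) (B1 := (4392331 / 268435456 : ℝ)) (A2 := (1418544947 / 4194304 : ℝ)) (B2 := (1913421 / 8388608 : ℝ)) (l := (1683 / 262144 : ℝ)) (u := (135 / 16384 : ℝ))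
    (E := (-1251105903 / 4194304 : ℝ)) (F := (-34407811 / 134217728 : ℝ)) (by norm_num) (by norm_num) (by norm_num) (by norm_num) (by norm_num)
    (by norm_num) (by norm_num) (by norm_num) (by norm_num) (by norm_num) (by norm_num) (by norm_num) (by norm_num) (by norm_num) (by norm_num)
  have e1 : C1.l = (1683 / 262144 : ℝ) := rfl
  have e2 : C1.u = (135 / 16384 : ℝ) := rfl
  have e3 : C1.a1 = -(73840431 / 2097152 : ℝ) := by norm_num [C1]
  have e4 : C1.a2 = -(1418544947 / 4194304 : ℝ) := by norm_num [C1]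
  have e5 : C1.e = (-1251105903 / 4194304 : ℝ) := rfl
  have e6 : C1.f = (4392331 / 268435456 : ℝ) + (1913421 / 8388608 : ℝ) + (-34407811 / 134217728 : ℝ) := by norm_num [C1]
  rw [e1, e2, e3, e4, e5, e6]
  exact h

lemma rcell2 : ∃ N : ℝ, Rw4 P.r2 N (coCell (87579 / 65536 : ℝ) (868797 / 65536 : ℝ) ((379421 / 32768 : ℝ) + (107 / 256 : ℝ)) (149 / 4096 : ℝ) C2) := by
  refine ⟨(1207959552 : ℝ), ⟨Q5, List.mem_cons_of_mem _ (List.mem_cons_of_mem _ (List.mem_cons_of_mem _ (List.mem_cons_of_mem _ (List.mem_cons_of_mem _ (List.mem_cons_self))))), ?_⟩, by norm_num⟩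
  constructor <;> norm_num [Q5, coCell, C2]

lemma lcell2 : ∀ x1 x2 xc : ℝ, 0 ≤ x1 → x1 ≤ 1 → 0 ≤ x2 → x2 ≤ 1 → C2.l ≤ xc → xc ≤ C2.u →
    (87579 / 65536 : ℝ) * (1 - (1 - x1) ^ 31) + (868797 / 65536 : ℝ) * (1 - (1 - x2) ^ 31) - ((379421 / 32768 : ℝ) + (107 / 256 : ℝ)) * (1 - (1 - xc) ^ 31)
      ≤ - C2.a1 * x1 - C2.a2 * x2 + C2.e * xc + C2.f := by
  have h := cell_lines 31 (α1 := (87579 / 65536 : ℝ)) (α2 := (868797 / 65536 : ℝ)) (c := (379421 / 32768 : ℝ) + (107 / 256 : ℝ)) (y1 := (1785 / 262144 : ℝ)) (y2 := (17 / 2048 : ℝ))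
    (A1 := (141553899 / 4194304 : ℝ)) (B1 := (6785293 / 268435456 : ℝ)) (A2 := (671164717 / 2097152 : ℝ)) (B2 := (97222891 / 268435456 : ℝ)) (l := (135 / 16384 : ℝ)) (u := (2773 / 262144 : ℝ))
    (E := (-587466629 / 2097152 : ℝ)) (F := (-54492395 / 134217728 : ℝ)) (by norm_num) (by norm_num) (by norm_num) (by norm_num) (by norm_num)
    (by norm_num) (by norm_num) (by norm_num) (by norm_num) (by norm_num) (by norm_num) (by norm_num) (by norm_num) (by norm_num) (by norm_num)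
  have e1 : C2.l = (135 / 16384 : ℝ) := rfl
  have e2 : C2.u = (2773 / 262144 : ℝ) := rfl
  have e3 : C2.a1 = -(141553899 / 4194304 : ℝ) := by norm_num [C2]
  have e4 : C2.a2 = -(671164717 / 2097152 : ℝ) := by norm_num [C2]
  have e5 : C2.e = (-587466629 / 2097152 : ℝ) := rfl
  have e6 : C2.f = (6785293 / 268435456 : ℝ) + (97222891 / 268435456 : ℝ) + (-54492395 / 134217728 : ℝ) := by norm_num [C2]
  rw [e1, e2, e3, e4, e5, e6]
  exact h

lemma rcell3 : ∃ N : ℝ, Rw4 P.r2 N (coCell (87579 / 65536 : ℝ) (868797 / 65536 : ℝ) ((379421 / 32768 : ℝ) + (107 / 256 : ℝ)) (149 / 4096 : ℝ) C3) := by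
  refine ⟨(2415919104 : ℝ), ⟨Q6, List.mem_cons_of_mem _ (List.mem_cons_of_mem _ (List.mem_cons_of_mem _ (List.mem_cons_of_mem _ (List.mem_cons_of_mem _ (List.mem_cons_of_mem _ (List.mem_cons_self)))))), ?_⟩, by norm_num⟩
  constructor <;> norm_num [Q6, coCell, C3]

lemma lcell3 : ∀ x1 x2 xc : ℝ, 0 ≤ x1 → x1 ≤ 1 → 0 ≤ x2 → x2 ≤ 1 → C3.l ≤ xc → xc ≤ C3.u →
    (87579 / 65536 : ℝ) * (1 - (1 - x1) ^ 31) + (868797 / 65536 : ℝ) * (1 - (1 - x2) ^ 31) - ((379421 / 32768 : ℝ) + (107 / 256 : ℝ)) * (1 - (1 - xc) ^ 31)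
      ≤ - C3.a1 * x1 - C3.a2 * x2 + C3.e * xc + C3.f := by
  have h := cell_lines 31 (α1 := (87579 / 65536 : ℝ)) (α2 := (868797 / 65536 : ℝ)) (c := (379421 / 32768 : ℝ) + (107 / 256 : ℝ)) (y1 := (1159 / 131072 : ℝ)) (y2 := (2775 / 262144 : ℝ))
    (A1 := (66556767 / 2097152 : ℝ)) (B1 := (2751817 / 67108864 : ℝ)) (A2 := (626288381 / 2097152 : ℝ)) (B2 := (75696765 / 134217728 : ℝ)) (l := (2773 / 262144 : ℝ)) (u := (445 / 32768 : ℝ))
    (E := (-1083682917 / 4194304 : ℝ)) (F := (-170761449 / 268435456 : ℝ)) (by norm_num) (by norm_num) (by norm_num) (by norm_num) (by norm_num)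
    (by norm_num) (by norm_num) (by norm_num) (by norm_num) (by norm_num) (by norm_num) (by norm_num) (by norm_num) (by norm_num) (by norm_num)
  have e1 : C3.l = (2773 / 262144 : ℝ) := rfl
  have e2 : C3.u = (445 / 32768 : ℝ) := rfl
  have e3 : C3.a1 = -(66556767 / 2097152 : ℝ) := by norm_num [C3]
  have e4 : C3.a2 = -(626288381 / 2097152 : ℝ) := by norm_num [C3]
  have e5 : C3.e = (-1083682917 / 4194304 : ℝ) := rfl
  have e6 : C3.f = (2751817 / 67108864 : ℝ) + (75696765 / 134217728 : ℝ) + (-170761449 / 268435456 : ℝ) := by norm_num [C3]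
  rw [e1, e2, e3, e4, e5, e6]
  exact h

lemma rcell4 : ∃ N : ℝ, Rw4 P.r2 N (coCell (87579 / 65536 : ℝ) (868797 / 65536 : ℝ) ((379421 / 32768 : ℝ) + (107 / 256 : ℝ)) (149 / 4096 : ℝ) C4) := by
  refine ⟨(2415919104 : ℝ), ⟨Q7, List.mem_cons_of_mem _ (List.mem_cons_of_mem _ (List.mem_cons_of_mem _ (List.mem_cons_of_mem _ (List.mem_cons_of_mem _ (List.mem_cons_of_mem _ (List.mem_cons_of_mem _ (List.mem_cons_self))))))), ?_⟩, by norm_num⟩
  constructor <;> norm_num [Q7, coCell, C4]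

lemma lcell4 : ∀ x1 x2 xc : ℝ, 0 ≤ x1 → x1 ≤ 1 → 0 ≤ x2 → x2 ≤ 1 → C4.l ≤ xc → xc ≤ C4.u →
    (87579 / 65536 : ℝ) * (1 - (1 - x1) ^ 31) + (868797 / 65536 : ℝ) * (1 - (1 - x2) ^ 31) - ((379421 / 32768 : ℝ) + (107 / 256 : ℝ)) * (1 - (1 - xc) ^ 31)
      ≤ - C4.a1 * x1 - C4.a2 * x2 + C4.e * xc + C4.f := by
  have h := cell_lines 31 (α1 := (87579 / 65536 : ℝ)) (α2 := (868797 / 65536 : ℝ)) (c := (379421 / 32768 : ℝ) + (107 / 256 : ℝ)) (y1 := (1487 / 131072 : ℝ)) (y2 := (3533 / 262144 : ℝ))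
    (A1 := (123391673 / 4194304 : ℝ)) (B1 := (4319507 / 67108864 : ℝ)) (A2 := (1147287153 / 4194304 : ℝ)) (B2 := (232330789 / 268435456 : ℝ)) (l := (445 / 32768 : ℝ)) (u := (2285 / 131072 : ℝ))
    (E := (-30518765 / 131072 : ℝ)) (F := (-131915573 / 134217728 : ℝ)) (by norm_num) (by norm_num) (by norm_num) (by norm_num) (by norm_num)
    (by norm_num) (by norm_num) (by norm_num) (by norm_num) (by norm_num) (by norm_num) (by norm_num) (by norm_num) (by norm_num) (by norm_num)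
  have e1 : C4.l = (445 / 32768 : ℝ) := rfl
  have e2 : C4.u = (2285 / 131072 : ℝ) := rfl
  have e3 : C4.a1 = -(123391673 / 4194304 : ℝ) := by norm_num [C4]
  have e4 : C4.a2 = -(1147287153 / 4194304 : ℝ) := by norm_num [C4]
  have e5 : C4.e = (-30518765 / 131072 : ℝ) := rfl
  have e6 : C4.f = (4319507 / 67108864 : ℝ) + (232330789 / 268435456 : ℝ) + (-131915573 / 134217728 : ℝ) := by norm_num [C4]
  rw [e1, e2, e3, e4, e5, e6]
  exact h

lemma rcell5 : ∃ N : ℝ, Rw4 P.r2 N (coCell (87579 / 65536 : ℝ) (868797 / 65536 : ℝ) ((379421 / 32768 : ℝ) + (107 / 256 : ℝ)) (149 / 4096 : ℝ) C5) := by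
  refine ⟨(1207959552 : ℝ), ⟨Q8, List.mem_cons_of_mem _ (List.mem_cons_of_mem _ (List.mem_cons_of_mem _ (List.mem_cons_of_mem _ (List.mem_cons_of_mem _ (List.mem_cons_of_mem _ (List.mem_cons_of_mem _ (List.mem_cons_of_mem _ (List.mem_cons_self)))))))), ?_⟩, by norm_num⟩
  constructor <;> norm_num [Q8, coCell, C5]

lemma lcell5 : ∀ x1 x2 xc : ℝ, 0 ≤ x1 → x1 ≤ 1 → 0 ≤ x2 → x2 ≤ 1 → C5.l ≤ xc → xc ≤ C5.u →
    (87579 / 65536 : ℝ) * (1 - (1 - x1) ^ 31) + (868797 / 65536 : ℝ) * (1 - (1 - x2) ^ 31) - ((379421 / 32768 : ℝ) + (107 / 256 : ℝ)) * (1 - (1 - xc) ^ 31)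
      ≤ - C5.a1 * x1 - C5.a2 * x2 + C5.e * xc + C5.f := by
  have h := cell_lines 31 (α1 := (87579 / 65536 : ℝ)) (α2 := (868797 / 65536 : ℝ)) (c := (379421 / 32768 : ℝ) + (107 / 256 : ℝ)) (y1 := (3683 / 262144 : ℝ)) (y2 := (2239 / 131072 : ℝ))
    (A1 := (14207073 / 524288 : ℝ)) (B1 := (25177837 / 268435456 : ℝ)) (A2 := (256989747 / 1048576 : ℝ)) (B2 := (87194729 / 67108864 : ℝ)) (l := (2285 / 131072 : ℝ)) (u := (5867 / 262144 : ℝ))
    (E := (-854108905 / 4194304 : ℝ)) (F := (-400497771 / 268435456 : ℝ)) (by norm_num) (by norm_num) (by norm_num) (by norm_num) (by norm_num)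
    (by norm_num) (by norm_num) (by norm_num) (by norm_num) (by norm_num) (by norm_num) (by norm_num) (by norm_num) (by norm_num) (by norm_num)
  have e1 : C5.l = (2285 / 131072 : ℝ) := rfl
  have e2 : C5.u = (5867 / 262144 : ℝ) := rfl
  have e3 : C5.a1 = -(14207073 / 524288 : ℝ) := by norm_num [C5]
  have e4 : C5.a2 = -(256989747 / 1048576 : ℝ) := by norm_num [C5]
  have e5 : C5.e = (-854108905 / 4194304 : ℝ) := rfl
  have e6 : C5.f = (25177837 / 268435456 : ℝ) + (87194729 / 67108864 : ℝ) + (-400497771 / 268435456 : ℝ) := by norm_num [C5]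
  rw [e1, e2, e3, e4, e5, e6]
  exact h

lemma rcell6 : ∃ N : ℝ, Rw4 P.r2 N (coCell (87579 / 65536 : ℝ) (868797 / 65536 : ℝ) ((379421 / 32768 : ℝ) + (107 / 256 : ℝ)) (149 / 4096 : ℝ) C6) := by
  refine ⟨(2415919104 : ℝ), ⟨Q9, List.mem_cons_of_mem _ (List.mem_cons_of_mem _ (List.mem_cons_of_mem _ (List.mem_cons_of_mem _ (List.mem_cons_of_mem _ (List.mem_cons_of_mem _ (List.mem_cons_of_mem _ (List.mem_cons_of_mem _ (List.mem_cons_of_mem _ (List.mem_cons_self))))))))), ?_⟩, by norm_num⟩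
  constructor <;> norm_num [Q9, coCell, C6]

lemma lcell6 : ∀ x1 x2 xc : ℝ, 0 ≤ x1 → x1 ≤ 1 → 0 ≤ x2 → x2 ≤ 1 → C6.l ≤ xc → xc ≤ C6.u →
    (87579 / 65536 : ℝ) * (1 - (1 - x1) ^ 31) + (868797 / 65536 : ℝ) * (1 - (1 - x2) ^ 31) - ((379421 / 32768 : ℝ) + (107 / 256 : ℝ)) * (1 - (1 - xc) ^ 31)
      ≤ - C6.a1 * x1 - C6.a2 * x2 + C6.e * xc + C6.f := by
  have h := cell_lines 31 (α1 := (87579 / 65536 : ℝ)) (α2 := (868797 / 65536 : ℝ)) (c := (379421 / 32768 : ℝ) + (107 / 256 : ℝ)) (y1 := (2271 / 131072 : ℝ)) (y2 := (2775 / 131072 : ℝ))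
    (A1 := (51426967 / 2097152 : ℝ)) (B1 := (18002879 / 134217728 : ℝ)) (A2 := (907104309 / 4194304 : ℝ)) (B2 := (124100277 / 67108864 : ℝ)) (l := (5867 / 262144 : ℝ)) (u := (7531 / 262144 : ℝ))
    (E := (-718597691 / 4194304 : ℝ)) (F := (-594600381 / 268435456 : ℝ)) (by norm_num) (by norm_num) (by norm_num) (by norm_num) (by norm_num)
    (by norm_num) (by norm_num) (by norm_num) (by norm_num) (by norm_num) (by norm_num) (by norm_num) (by norm_num) (by norm_num) (by norm_num)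
  have e1 : C6.l = (5867 / 262144 : ℝ) := rfl
  have e2 : C6.u = (7531 / 262144 : ℝ) := rfl
  have e3 : C6.a1 = -(51426967 / 2097152 : ℝ) := by norm_num [C6]
  have e4 : C6.a2 = -(907104309 / 4194304 : ℝ) := by norm_num [C6]
  have e5 : C6.e = (-718597691 / 4194304 : ℝ) := rfl
  have e6 : C6.f = (18002879 / 134217728 : ℝ) + (124100277 / 67108864 : ℝ) + (-594600381 / 268435456 : ℝ) := by norm_num [C6]
  rw [e1, e2, e3, e4, e5, e6]
  exact h

lemma rcell7 : ∃ N : ℝ, Rw4 P.r2 N (coCell (87579 / 65536 : ℝ) (868797 / 65536 : ℝ) ((379421 / 32768 : ℝ) + (107 / 256 : ℝ)) (149 / 4096 : ℝ) C7) := by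
  refine ⟨(2415919104 : ℝ), ⟨Q10, List.mem_cons_of_mem _ (List.mem_cons_of_mem _ (List.mem_cons_of_mem _ (List.mem_cons_of_mem _ (List.mem_cons_of_mem _ (List.mem_cons_of_mem _ (List.mem_cons_of_mem _ (List.mem_cons_of_mem _ (List.mem_cons_of_mem _ (List.mem_cons_of_mem _ (List.mem_cons_self)))))))))), ?_⟩, by norm_num⟩
  constructor <;> norm_num [Q10, coCell, C7]

lemma lcell7 : ∀ x1 x2 xc : ℝ, 0 ≤ x1 → x1 ≤ 1 → 0 ≤ x2 → x2 ≤ 1 → C7.l ≤ xc → xc ≤ C7.u →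
    (87579 / 65536 : ℝ) * (1 - (1 - x1) ^ 31) + (868797 / 65536 : ℝ) * (1 - (1 - x2) ^ 31) - ((379421 / 32768 : ℝ) + (107 / 256 : ℝ)) * (1 - (1 - xc) ^ 31)
      ≤ - C7.a1 * x1 - C7.a2 * x2 + C7.e * xc + C7.f := by
  have h := cell_lines 31 (α1 := (87579 / 65536 : ℝ)) (α2 := (868797 / 65536 : ℝ)) (c := (379421 / 32768 : ℝ) + (107 / 256 : ℝ)) (y1 := (1383 / 65536 : ℝ)) (y2 := (1691 / 65536 : ℝ))
    (A1 := (91633197 / 4194304 : ℝ)) (B1 := (12444769 / 67108864 : ℝ)) (A2 := (786808061 / 4194304 : ℝ)) (B2 := (338409385 / 134217728 : ℝ)) (l := (7531 / 262144 : ℝ)) (u := (39 / 1024 : ℝ))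
    (E := (-141193355 / 1048576 : ℝ)) (F := (-877425231 / 268435456 : ℝ)) (by norm_num) (by norm_num) (by norm_num) (by norm_num) (by norm_num)
    (by norm_num) (by norm_num) (by norm_num) (by norm_num) (by norm_num) (by norm_num) (by norm_num) (by norm_num) (by norm_num) (by norm_num)
  have e1 : C7.l = (7531 / 262144 : ℝ) := rfl
  have e2 : C7.u = (39 / 1024 : ℝ) := rfl
  have e3 : C7.a1 = -(91633197 / 4194304 : ℝ) := by norm_num [C7]
  have e4 : C7.a2 = -(786808061 / 4194304 : ℝ) := by norm_num [C7]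
  have e5 : C7.e = (-141193355 / 1048576 : ℝ) := rfl
  have e6 : C7.f = (12444769 / 67108864 : ℝ) + (338409385 / 134217728 : ℝ) + (-877425231 / 268435456 : ℝ) := by norm_num [C7]
  rw [e1, e2, e3, e4, e5, e6]
  exact h

/-- The hypotheses at the origin. -/
lemma horig (lam : ℝ) (hd : (31 : ℝ) * lam ^ 2 = 1) (hb : |lam| ≤ (197478117989 / 1099511627776 : ℝ)) :
    OriginH 31 lam (87579 / 65536 : ℝ) (868797 / 65536 : ℝ) (379421 / 32768 : ℝ) (107 / 256 : ℝ) (149 / 4096 : ℝ) (45 / 512 : ℝ) (4233 / 4096 : ℝ) (1 / 256 : ℝ) 3298534883328 := by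
  refine originH_of_num (d := 31) (by push_cast; exact hd) hb (by norm_num) (by norm_num) (by norm_num) (by norm_num)
    (by norm_num) (by norm_num) (by norm_num) (by norm_num) (by norm_num) (by norm_num) (by norm_num [S]) (by norm_num) ?_ ?_
  · rw [hch]
    norm_num [abs_of_pos, abs_of_neg]
  · norm_num [abs_of_pos, abs_of_neg]

/-- Nonreconstruction at the bound. -/
theorem main : Tendsto (reconError 3 31 (-(1 / Real.sqrt 31))) atTop (𝓝 0) := by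
  have hsq : Real.sqrt ((31 : ℕ) : ℝ) ^ 2 = 31 := by
    rw [Real.sq_sqrt (by positivity)]; norm_num
  have hsq' : Real.sqrt (31 : ℝ) ^ 2 = 31 := by
    rw [Real.sq_sqrt (by positivity)]
  have hs0 : 0 < Real.sqrt (31 : ℝ) := Real.sqrt_pos.2 (by norm_num)
  have hl2 : ((31 : ℝ)) * (-(1 / Real.sqrt 31)) ^ 2 = 1 := by
    have : (-(1 / Real.sqrt (31 : ℝ))) ^ 2 = 1 / 31 := by
      rw [neg_sq, div_pow, hsq']; norm_num
    rw [this]; norm_num
  have hb : |(-(1 / Real.sqrt (31 : ℝ)))| ≤ (197478117989 / 1099511627776 : ℝ) := by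
    rw [abs_neg, abs_of_pos (by positivity)]
    rw [div_le_iff₀ hs0]
    have h1 : (1 : ℝ) ^ 2 ≤ ((197478117989 / 1099511627776 : ℝ) * Real.sqrt 31) ^ 2 := by
      rw [mul_pow, hsq']; norm_num
    exact le_of_sq_le_sq h1 (by positivity)
  have hb2 : (-(1 / 2) : ℝ) < -(1 / Real.sqrt (31 : ℝ)) := by
    have h2 := (abs_le.1 hb).1
    have h3 : ((197478117989 / 1099511627776 : ℝ) : ℝ) < 1 / 2 := by norm_num
    linarith
  have h1 : (-(1 / Real.sqrt (31 : ℝ))) < 1 := by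
    have : 0 < 1 / Real.sqrt (31 : ℝ) := by positivity
    linarith
  have hlam : |(S : ℝ) * (-(1 / Real.sqrt (31 : ℝ))) - ((P.lp : ℝ) - P.ln)| ≤ ((1 : ℕ) : ℝ) := by
    have h := lam_enc 31 12941925940504781 (by norm_num) (by norm_num [S]) (by norm_num [S])
    have e : ((31 : ℕ) : ℝ) = (31 : ℝ) := by norm_num
    rw [e] at h
    exact h
  obtain ⟨hOa, hON⟩ := horig _ hl2 hb
  refine final_of_box (d := 31) (by norm_num) hb2 h1 (box hlam) (87579 / 65536 : ℝ) (868797 / 65536 : ℝ) (379421 / 32768 : ℝ) (107 / 256 : ℝ) (45 / 512 : ℝ) (4233 / 4096 : ℝ) (5243 / 1048576 : ℝ) (70913 / 16384 : ℝ) (149 / 4096 : ℝ) (39 / 1024 : ℝ) cellsL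
    (by norm_num) (by norm_num) (by norm_num) (by norm_num) (by norm_num) (by norm_num) (by norm_num) (by norm_num) (by norm_num)
    (by norm_num) (by norm_num) (by norm_num) (by norm_num) (by norm_num) hOa hON rTa rTb rc1 rc2 rc3
    (forall_cons rcell0 (forall_cons rcell1 (forall_cons rcell2 (forall_cons rcell3 (forall_cons rcell4 (forall_cons rcell5 (forall_cons rcell6 (forall_cons rcell7 (forall_nil))))))))) hcover (forall_cons lcell0 (forall_cons lcell1 (forall_cons lcell2 (forall_cons lcell3 (forall_cons lcell4 (forall_cons lcell5 (forall_cons lcell6 (forall_cons lcell7 (forall_nil)))))))))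

end Vale.Agent.P154H.Tm.D31
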