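import Vale.Agent.P154H.D.D32
import Vale.Agent.P154H.FinalD
import Vale.Agent.P154H.OriginW

open Filter Topology

set_option maxRecDepth 100000

/-!
Nonreconstruction at the Kesten-Stigum bound for `d = 32`, negative eigenvalue.
-/

namespace Vale.Agent.P154H.Tm.D32

open Vale.Agent.P154 Vale.Agent.P154H

/-- A chord cell. -/
noncomputable def C0 : Cell := ⟨(5243 / 1048576 : ℝ), (1675 / 262144 : ℝ), (-78599007 / 2097152 : ℝ), (-760410835 / 2097152 : ℝ), (-1349039831 / 4194304 : ℝ), (-950949 / 134217728 : ℝ)⟩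

/-- A chord cell. -/
noncomputable def C1 : Cell := ⟨(1675 / 262144 : ℝ), (2141 / 262144 : ℝ), (-75918605 / 2097152 : ℝ), (-728105581 / 2097152 : ℝ), (-1284064313 / 4194304 : ℝ), (-3082529 / 268435456 : ℝ)⟩

/-- A chord cell. -/
noncomputable def C2 : Cell := ⟨(2141 / 262144 : ℝ), (2737 / 262144 : ℝ), (-72450361 / 2097152 : ℝ), (-344557737 / 1048576 : ℝ), (-301343945 / 1048576 : ℝ), (-4989683 / 268435456 : ℝ)⟩

/-- A chord cell. -/
noncomputable def C3 : Cell := ⟨(2737 / 262144 : ℝ), (3499 / 262144 : ℝ), (-68413823 / 2097152 : ℝ), (-160678187 / 524288 : ℝ), (-555781331 / 2097152 : ℝ), (-4192647 / 134217728 : ℝ)⟩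

/-- A chord cell. -/
noncomputable def C4 : Cell := ⟨(3499 / 262144 : ℝ), (559 / 32768 : ℝ), (-127365855 / 4194304 : ℝ), (-1176767559 / 4194304 : ℝ), (-1001988001 / 4194304 : ℝ), (-1729603 / 33554432 : ℝ)⟩

/-- A chord cell. -/
noncomputable def C5 : Cell := ⟨(559 / 32768 : ℝ), (1429 / 65536 : ℝ), (-116147245 / 4194304 : ℝ), (-528442305 / 2097152 : ℝ), (-438585345 / 2097152 : ℝ), (-6667099 / 67108864 : ℝ)⟩

/-- A chord cell. -/
noncomputable def C6 : Cell := ⟨(1429 / 65536 : ℝ), (3653 / 131072 : ℝ), (-106270423 / 4194304 : ℝ), (-466536051 / 2097152 : ℝ), (-739468081 / 4194304 : ℝ), (-61806935 / 268435456 : ℝ)⟩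

/-- A chord cell. -/
noncomputable def C7 : Cell := ⟨(3653 / 131072 : ℝ), (19 / 512 : ℝ), (-47222575 / 2097152 : ℝ), (-813426643 / 4194304 : ℝ), (-290206809 / 2097152 : ℝ), (-39365905 / 67108864 : ℝ)⟩

/-- The chord cells. -/
noncomputable def cellsL : List Cell := [C0, C1, C2, C3, C4, C5, C6, C7]

lemma hcover : ∀ x : ℝ, (5243 / 1048576 : ℝ) ≤ x → x ≤ (19 / 512 : ℝ) → ∃ D ∈ cellsL, D.l ≤ x ∧ x ≤ D.u := by
  refine cover_of_chain ?_ (by norm_num [C0])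
  simp only [ChainP, C0, C1, C2, C3, C4, C5, C6, C7]
  norm_num

lemma hch : ((Nat.choose 32 2 : ℕ) : ℝ) = 496 := by norm_num [Nat.choose]

lemma rTa : Rw4 P.r1 (1179648 : ℝ) (coTa 32 (87579 / 65536 : ℝ) (868797 / 65536 : ℝ) (379421 / 32768 : ℝ) (107 / 256 : ℝ) (5 / 128 : ℝ)) := by
  refine ⟨⟨Ra, List.mem_cons_self, ?_⟩, by norm_num⟩
  constructor <;> norm_num [Ra, coTa, hch]

lemma rTb : Rw4 P.r1 (618475290624 : ℝ) (coTb 32 (87579 / 65536 : ℝ) (868797 / 65536 : ℝ) (379421 / 32768 : ℝ) (107 / 256 : ℝ) (5 / 128 : ℝ) (45 / 512 : ℝ) (4233 / 4096 : ℝ) (1179 / 256 : ℝ)) := by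
  refine ⟨⟨Rb, List.mem_cons_of_mem _ (List.mem_cons_self), ?_⟩, by norm_num⟩
  constructor <;> norm_num [Rb, coTb, hch]

lemma rc1 : Rw4 P.r2 (16777216 : ℝ) ⟨0, 0, 0, -(87579 / 65536 : ℝ), 0, 0, 0, 0, (379421 / 32768 : ℝ) * (45 / 512 : ℝ)⟩ := by
  refine ⟨⟨Q0, List.mem_cons_self, ?_⟩, by norm_num⟩
  constructor <;> norm_num [Q0]

lemma rc2 : Rw4 P.r2 (134217728 : ℝ) ⟨0, 0, 0, 0, -(868797 / 65536 : ℝ), 0, 0, 0, (379421 / 32768 : ℝ) * (4233 / 4096 : ℝ)⟩ := by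
  refine ⟨⟨Q1, List.mem_cons_of_mem _ (List.mem_cons_self), ?_⟩, by norm_num⟩
  constructor <;> norm_num [Q1]

lemma rc3 : Rw4 P.r2 (1536 : ℝ) ⟨0, 0, 0, 0, 0, -1, 0, 0, (19 / 512 : ℝ)⟩ := by
  refine ⟨⟨Q2, List.mem_cons_of_mem _ (List.mem_cons_of_mem _ (List.mem_cons_self)), ?_⟩, by norm_num⟩
  constructor <;> norm_num [Q2]

lemma rcell0 : ∃ N : ℝ, Rw4 P.r2 N (coCell (87579 / 65536 : ℝ) (868797 / 65536 : ℝ) ((379421 / 32768 : ℝ) + (107 / 256 : ℝ)) (5 / 128 : ℝ) C0) := by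
  refine ⟨(1207959552 : ℝ), ⟨Q3, List.mem_cons_of_mem _ (List.mem_cons_of_mem _ (List.mem_cons_of_mem _ (List.mem_cons_self))), ?_⟩, by norm_num⟩
  constructor <;> norm_num [Q3, coCell, C0]

lemma lcell0 : ∀ x1 x2 xc : ℝ, 0 ≤ x1 → x1 ≤ 1 → 0 ≤ x2 → x2 ≤ 1 → C0.l ≤ xc → xc ≤ C0.u →
    (87579 / 65536 : ℝ) * (1 - (1 - x1) ^ 32) + (868797 / 65536 : ℝ) * (1 - (1 - x2) ^ 32) - ((379421 / 32768 : ℝ) + (107 / 256 : ℝ)) * (1 - (1 - xc) ^ 32)
      ≤ - C0.a1 * x1 - C0.a2 * x2 + C0.e * xc + C0.f := by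
  have h := cell_lines 32 (α1 := (87579 / 65536 : ℝ)) (α2 := (868797 / 65536 : ℝ)) (c := (379421 / 32768 : ℝ) + (107 / 256 : ℝ)) (y1 := (1113 / 262144 : ℝ)) (y2 := (331 / 65536 : ℝ))
    (A1 := (78599007 / 2097152 : ℝ)) (B1 := (1473615 / 134217728 : ℝ)) (A2 := (760410835 / 2097152 : ℝ)) (B2 := (2544861 / 16777216 : ℝ)) (l := (5243 / 1048576 : ℝ)) (u := (1675 / 262144 : ℝ))
    (E := (-1349039831 / 4194304 : ℝ)) (F := (-5695863 / 33554432 : ℝ)) (by norm_num) (by norm_num) (by norm_num) (by norm_num) (by norm_num)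
    (by norm_num) (by norm_num) (by norm_num) (by norm_num) (by norm_num) (by norm_num) (by norm_num) (by norm_num) (by norm_num) (by norm_num)
  have e1 : C0.l = (5243 / 1048576 : ℝ) := rfl
  have e2 : C0.u = (1675 / 262144 : ℝ) := rfl
  have e3 : C0.a1 = -(78599007 / 2097152 : ℝ) := by norm_num [C0]
  have e4 : C0.a2 = -(760410835 / 2097152 : ℝ) := by norm_num [C0]
  have e5 : C0.e = (-1349039831 / 4194304 : ℝ) := rfl
  have e6 : C0.f = (1473615 / 134217728 : ℝ) + (2544861 / 16777216 : ℝ) + (-5695863 / 33554432 : ℝ) := by norm_num [C0]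
  rw [e1, e2, e3, e4, e5, e6]
  exact h

lemma rcell1 : ∃ N : ℝ, Rw4 P.r2 N (coCell (87579 / 65536 : ℝ) (868797 / 65536 : ℝ) ((379421 / 32768 : ℝ) + (107 / 256 : ℝ)) (5 / 128 : ℝ) C1) := by
  refine ⟨(2415919104 : ℝ), ⟨Q4, List.mem_cons_of_mem _ (List.mem_cons_of_mem _ (List.mem_cons_of_mem _ (List.mem_cons_of_mem _ (List.mem_cons_self)))), ?_⟩, by norm_num⟩
  constructor <;> norm_num [Q4, coCell, C1]

lemma lcell1 : ∀ x1 x2 xc : ℝ, 0 ≤ x1 → x1 ≤ 1 → 0 ≤ x2 → x2 ≤ 1 → C1.l ≤ xc → xc ≤ C1.u →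
    (87579 / 65536 : ℝ) * (1 - (1 - x1) ^ 32) + (868797 / 65536 : ℝ) * (1 - (1 - x2) ^ 32) - ((379421 / 32768 : ℝ) + (107 / 256 : ℝ)) * (1 - (1 - xc) ^ 32)
      ≤ - C1.a1 * x1 - C1.a2 * x2 + C1.e * xc + C1.f := by
  have h := cell_lines 32 (α1 := (87579 / 65536 : ℝ)) (α2 := (868797 / 65536 : ℝ)) (c := (379421 / 32768 : ℝ) + (107 / 256 : ℝ)) (y1 := (1405 / 262144 : ℝ)) (y2 := (1689 / 262144 : ℝ))
    (A1 := (75918605 / 2097152 : ℝ)) (B1 := (1148487 / 67108864 : ℝ)) (A2 := (728105581 / 2097152 : ℝ)) (B2 := (32230613 / 134217728 : ℝ)) (l := (1675 / 262144 : ℝ)) (u := (2141 / 262144 : ℝ))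
    (E := (-1284064313 / 4194304 : ℝ)) (F := (-72137703 / 268435456 : ℝ)) (by norm_num) (by norm_num) (by norm_num) (by norm_num) (by norm_num)
    (by norm_num) (by norm_num) (by norm_num) (by norm_num) (by norm_num) (by norm_num) (by norm_num) (by norm_num) (by norm_num) (by norm_num)
  have e1 : C1.l = (1675 / 262144 : ℝ) := rfl
  have e2 : C1.u = (2141 / 262144 : ℝ) := rfl
  have e3 : C1.a1 = -(75918605 / 2097152 : ℝ) := by norm_num [C1]
  have e4 : C1.a2 = -(728105581 / 2097152 : ℝ) := by norm_num [C1]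
  have e5 : C1.e = (-1284064313 / 4194304 : ℝ) := rfl
  have e6 : C1.f = (1148487 / 67108864 : ℝ) + (32230613 / 134217728 : ℝ) + (-72137703 / 268435456 : ℝ) := by norm_num [C1]
  rw [e1, e2, e3, e4, e5, e6]
  exact h

lemma rcell2 : ∃ N : ℝ, Rw4 P.r2 N (coCell (87579 / 65536 : ℝ) (868797 / 65536 : ℝ) ((379421 / 32768 : ℝ) + (107 / 256 : ℝ)) (5 / 128 : ℝ) C2) := by
  refine ⟨(2415919104 : ℝ), ⟨Q5, List.mem_cons_of_mem _ (List.mem_cons_of_mem _ (List.mem_cons_of_mem _ (List.mem_cons_of_mem _ (List.mem_cons_of_mem _ (List.mem_cons_self))))), ?_⟩, by norm_num⟩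
  constructor <;> norm_num [Q5, coCell, C2]

lemma lcell2 : ∀ x1 x2 xc : ℝ, 0 ≤ x1 → x1 ≤ 1 → 0 ≤ x2 → x2 ≤ 1 → C2.l ≤ xc → xc ≤ C2.u →
    (87579 / 65536 : ℝ) * (1 - (1 - x1) ^ 32) + (868797 / 65536 : ℝ) * (1 - (1 - x2) ^ 32) - ((379421 / 32768 : ℝ) + (107 / 256 : ℝ)) * (1 - (1 - xc) ^ 32)
      ≤ - C2.a1 * x1 - C2.a2 * x2 + C2.e * xc + C2.f := by
  have h := cell_lines 32 (α1 := (87579 / 65536 : ℝ)) (α2 := (868797 / 65536 : ℝ)) (c := (379421 / 32768 : ℝ) + (107 / 256 : ℝ)) (y1 := (899 / 131072 : ℝ)) (y2 := (2151 / 262144 : ℝ))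
    (A1 := (72450361 / 2097152 : ℝ)) (B1 := (1825879 / 67108864 : ℝ)) (A2 := (344557737 / 1048576 : ℝ)) (B2 := (12621925 / 33554432 : ℝ)) (l := (2141 / 262144 : ℝ)) (u := (2737 / 262144 : ℝ))
    (E := (-301343945 / 1048576 : ℝ)) (F := (-113268599 / 268435456 : ℝ)) (by norm_num) (by norm_num) (by norm_num) (by norm_num) (by norm_num)
    (by norm_num) (by norm_num) (by norm_num) (by norm_num) (by norm_num) (by norm_num) (by norm_num) (by norm_num) (by norm_num) (by norm_num)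
  have e1 : C2.l = (2141 / 262144 : ℝ) := rfl
  have e2 : C2.u = (2737 / 262144 : ℝ) := rfl
  have e3 : C2.a1 = -(72450361 / 2097152 : ℝ) := by norm_num [C2]
  have e4 : C2.a2 = -(344557737 / 1048576 : ℝ) := by norm_num [C2]
  have e5 : C2.e = (-301343945 / 1048576 : ℝ) := rfl
  have e6 : C2.f = (1825879 / 67108864 : ℝ) + (12621925 / 33554432 : ℝ) + (-113268599 / 268435456 : ℝ) := by norm_num [C2]
  rw [e1, e2, e3, e4, e5, e6]
  exact h

lemma rcell3 : ∃ N : ℝ, Rw4 P.r2 N (coCell (87579 / 65536 : ℝ) (868797 / 65536 : ℝ) ((379421 / 32768 : ℝ) + (107 / 256 : ℝ)) (5 / 128 : ℝ) C3) := by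
  refine ⟨(1207959552 : ℝ), ⟨Q6, List.mem_cons_of_mem _ (List.mem_cons_of_mem _ (List.mem_cons_of_mem _ (List.mem_cons_of_mem _ (List.mem_cons_of_mem _ (List.mem_cons_of_mem _ (List.mem_cons_self)))))), ?_⟩, by norm_num⟩
  constructor <;> norm_num [Q6, coCell, C3]

lemma lcell3 : ∀ x1 x2 xc : ℝ, 0 ≤ x1 → x1 ≤ 1 → 0 ≤ x2 → x2 ≤ 1 → C3.l ≤ xc → xc ≤ C3.u →
    (87579 / 65536 : ℝ) * (1 - (1 - x1) ^ 32) + (868797 / 65536 : ℝ) * (1 - (1 - x2) ^ 32) - ((379421 / 32768 : ℝ) + (107 / 256 : ℝ)) * (1 - (1 - xc) ^ 32)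
      ≤ - C3.a1 * x1 - C3.a2 * x2 + C3.e * xc + C3.f := by
  have h := cell_lines 32 (α1 := (87579 / 65536 : ℝ)) (α2 := (868797 / 65536 : ℝ)) (c := (379421 / 32768 : ℝ) + (107 / 256 : ℝ)) (y1 := (2279 / 262144 : ℝ)) (y2 := (2735 / 262144 : ℝ))
    (A1 := (68413823 / 2097152 : ℝ)) (B1 := (2829237 / 67108864 : ℝ)) (A2 := (160678187 / 524288 : ℝ)) (B2 := (39063373 / 67108864 : ℝ)) (l := (2737 / 262144 : ℝ)) (u := (3499 / 262144 : ℝ))
    (E := (-555781331 / 2097152 : ℝ)) (F := (-87977867 / 134217728 : ℝ)) (by norm_num) (by norm_num) (by norm_num) (by norm_num) (by norm_num)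
    (by norm_num) (by norm_num) (by norm_num) (by norm_num) (by norm_num) (by norm_num) (by norm_num) (by norm_num) (by norm_num) (by norm_num)
  have e1 : C3.l = (2737 / 262144 : ℝ) := rfl
  have e2 : C3.u = (3499 / 262144 : ℝ) := rfl
  have e3 : C3.a1 = -(68413823 / 2097152 : ℝ) := by norm_num [C3]
  have e4 : C3.a2 = -(160678187 / 524288 : ℝ) := by norm_num [C3]
  have e5 : C3.e = (-555781331 / 2097152 : ℝ) := rfl
  have e6 : C3.f = (2829237 / 67108864 : ℝ) + (39063373 / 67108864 : ℝ) + (-87977867 / 134217728 : ℝ) := by norm_num [C3]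
  rw [e1, e2, e3, e4, e5, e6]
  exact h

lemma rcell4 : ∃ N : ℝ, Rw4 P.r2 N (coCell (87579 / 65536 : ℝ) (868797 / 65536 : ℝ) ((379421 / 32768 : ℝ) + (107 / 256 : ℝ)) (5 / 128 : ℝ) C4) := by
  refine ⟨(301989888 : ℝ), ⟨Q7, List.mem_cons_of_mem _ (List.mem_cons_of_mem _ (List.mem_cons_of_mem _ (List.mem_cons_of_mem _ (List.mem_cons_of_mem _ (List.mem_cons_of_mem _ (List.mem_cons_of_mem _ (List.mem_cons_self))))))), ?_⟩, by norm_num⟩
  constructor <;> norm_num [Q7, coCell, C4]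

lemma lcell4 : ∀ x1 x2 xc : ℝ, 0 ≤ x1 → x1 ≤ 1 → 0 ≤ x2 → x2 ≤ 1 → C4.l ≤ xc → xc ≤ C4.u →
    (87579 / 65536 : ℝ) * (1 - (1 - x1) ^ 32) + (868797 / 65536 : ℝ) * (1 - (1 - x2) ^ 32) - ((379421 / 32768 : ℝ) + (107 / 256 : ℝ)) * (1 - (1 - xc) ^ 32)
      ≤ - C4.a1 * x1 - C4.a2 * x2 + C4.e * xc + C4.f := by
  have h := cell_lines 32 (α1 := (87579 / 65536 : ℝ)) (α2 := (868797 / 65536 : ℝ)) (c := (379421 / 32768 : ℝ) + (107 / 256 : ℝ)) (y1 := (2879 / 262144 : ℝ)) (y2 := (3473 / 262144 : ℝ))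
    (A1 := (127365855 / 4194304 : ℝ)) (B1 := (1079153 / 16777216 : ℝ)) (A2 := (1176767559 / 4194304 : ℝ)) (B2 := (119228201 / 134217728 : ℝ)) (l := (3499 / 262144 : ℝ)) (u := (559 / 32768 : ℝ))
    (E := (-1001988001 / 4194304 : ℝ)) (F := (-134779837 / 134217728 : ℝ)) (by norm_num) (by norm_num) (by norm_num) (by norm_num) (by norm_num)
    (by norm_num) (by norm_num) (by norm_num) (by norm_num) (by norm_num) (by norm_num) (by norm_num) (by norm_num) (by norm_num) (by norm_num)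
  have e1 : C4.l = (3499 / 262144 : ℝ) := rfl
  have e2 : C4.u = (559 / 32768 : ℝ) := rfl
  have e3 : C4.a1 = -(127365855 / 4194304 : ℝ) := by norm_num [C4]
  have e4 : C4.a2 = -(1176767559 / 4194304 : ℝ) := by norm_num [C4]
  have e5 : C4.e = (-1001988001 / 4194304 : ℝ) := rfl
  have e6 : C4.f = (1079153 / 16777216 : ℝ) + (119228201 / 134217728 : ℝ) + (-134779837 / 134217728 : ℝ) := by norm_num [C4]
  rw [e1, e2, e3, e4, e5, e6]
  exact h

lemma rcell5 : ∃ N : ℝ, Rw4 P.r2 N (coCell (87579 / 65536 : ℝ) (868797 / 65536 : ℝ) ((379421 / 32768 : ℝ) + (107 / 256 : ℝ)) (5 / 128 : ℝ) C5) := by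
  refine ⟨(603979776 : ℝ), ⟨Q8, List.mem_cons_of_mem _ (List.mem_cons_of_mem _ (List.mem_cons_of_mem _ (List.mem_cons_of_mem _ (List.mem_cons_of_mem _ (List.mem_cons_of_mem _ (List.mem_cons_of_mem _ (List.mem_cons_of_mem _ (List.mem_cons_self)))))))), ?_⟩, by norm_num⟩
  constructor <;> norm_num [Q8, coCell, C5]

lemma lcell5 : ∀ x1 x2 xc : ℝ, 0 ≤ x1 → x1 ≤ 1 → 0 ≤ x2 → x2 ≤ 1 → C5.l ≤ xc → xc ≤ C5.u →
    (87579 / 65536 : ℝ) * (1 - (1 - x1) ^ 32) + (868797 / 65536 : ℝ) * (1 - (1 - x2) ^ 32) - ((379421 / 32768 : ℝ) + (107 / 256 : ℝ)) * (1 - (1 - xc) ^ 32)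
      ≤ - C5.a1 * x1 - C5.a2 * x2 + C5.e * xc + C5.f := by
  have h := cell_lines 32 (α1 := (87579 / 65536 : ℝ)) (α2 := (868797 / 65536 : ℝ)) (c := (379421 / 32768 : ℝ) + (107 / 256 : ℝ)) (y1 := (3649 / 262144 : ℝ)) (y2 := (273 / 16384 : ℝ))
    (A1 := (116147245 / 4194304 : ℝ)) (B1 := (26190599 / 268435456 : ℝ)) (A2 := (528442305 / 2097152 : ℝ)) (B2 := (352975829 / 268435456 : ℝ)) (l := (559 / 32768 : ℝ)) (u := (1429 / 65536 : ℝ))
    (E := (-438585345 / 2097152 : ℝ)) (F := (-50729353 / 33554432 : ℝ)) (by norm_num) (by norm_num) (by norm_num) (by norm_num) (by norm_num)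
    (by norm_num) (by norm_num) (by norm_num) (by norm_num) (by norm_num) (by norm_num) (by norm_num) (by norm_num) (by norm_num) (by norm_num)
  have e1 : C5.l = (559 / 32768 : ℝ) := rfl
  have e2 : C5.u = (1429 / 65536 : ℝ) := rfl
  have e3 : C5.a1 = -(116147245 / 4194304 : ℝ) := by norm_num [C5]
  have e4 : C5.a2 = -(528442305 / 2097152 : ℝ) := by norm_num [C5]
  have e5 : C5.e = (-438585345 / 2097152 : ℝ) := rfl
  have e6 : C5.f = (26190599 / 268435456 : ℝ) + (352975829 / 268435456 : ℝ) + (-50729353 / 33554432 : ℝ) := by norm_num [C5]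
  rw [e1, e2, e3, e4, e5, e6]
  exact h

lemma rcell6 : ∃ N : ℝ, Rw4 P.r2 N (coCell (87579 / 65536 : ℝ) (868797 / 65536 : ℝ) ((379421 / 32768 : ℝ) + (107 / 256 : ℝ)) (5 / 128 : ℝ) C6) := by
  refine ⟨(2415919104 : ℝ), ⟨Q9, List.mem_cons_of_mem _ (List.mem_cons_of_mem _ (List.mem_cons_of_mem _ (List.mem_cons_of_mem _ (List.mem_cons_of_mem _ (List.mem_cons_of_mem _ (List.mem_cons_of_mem _ (List.mem_cons_of_mem _ (List.mem_cons_of_mem _ (List.mem_cons_self))))))))), ?_⟩, by norm_num⟩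
  constructor <;> norm_num [Q9, coCell, C6]

lemma lcell6 : ∀ x1 x2 xc : ℝ, 0 ≤ x1 → x1 ≤ 1 → 0 ≤ x2 → x2 ≤ 1 → C6.l ≤ xc → xc ≤ C6.u →
    (87579 / 65536 : ℝ) * (1 - (1 - x1) ^ 32) + (868797 / 65536 : ℝ) * (1 - (1 - x2) ^ 32) - ((379421 / 32768 : ℝ) + (107 / 256 : ℝ)) * (1 - (1 - xc) ^ 32)
      ≤ - C6.a1 * x1 - C6.a2 * x2 + C6.e * xc + C6.f := by
  have h := cell_lines 32 (α1 := (87579 / 65536 : ℝ)) (α2 := (868797 / 65536 : ℝ)) (c := (379421 / 32768 : ℝ) + (107 / 256 : ℝ)) (y1 := (4389 / 262144 : ℝ)) (y2 := (2701 / 131072 : ℝ))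
    (A1 := (106270423 / 4194304 : ℝ)) (B1 := (2241811 / 16777216 : ℝ)) (A2 := (466536051 / 2097152 : ℝ)) (B2 := (500323979 / 268435456 : ℝ)) (l := (1429 / 65536 : ℝ)) (u := (3653 / 131072 : ℝ))
    (E := (-739468081 / 4194304 : ℝ)) (F := (-298999945 / 134217728 : ℝ)) (by norm_num) (by norm_num) (by norm_num) (by norm_num) (by norm_num)
    (by norm_num) (by norm_num) (by norm_num) (by norm_num) (by norm_num) (by norm_num) (by norm_num) (by norm_num) (by norm_num) (by norm_num)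
  have e1 : C6.l = (1429 / 65536 : ℝ) := rfl
  have e2 : C6.u = (3653 / 131072 : ℝ) := rfl
  have e3 : C6.a1 = -(106270423 / 4194304 : ℝ) := by norm_num [C6]
  have e4 : C6.a2 = -(466536051 / 2097152 : ℝ) := by norm_num [C6]
  have e5 : C6.e = (-739468081 / 4194304 : ℝ) := rfl
  have e6 : C6.f = (2241811 / 16777216 : ℝ) + (500323979 / 268435456 : ℝ) + (-298999945 / 134217728 : ℝ) := by norm_num [C6]
  rw [e1, e2, e3, e4, e5, e6]
  exact h

lemma rcell7 : ∃ N : ℝ, Rw4 P.r2 N (coCell (87579 / 65536 : ℝ) (868797 / 65536 : ℝ) ((379421 / 32768 : ℝ) + (107 / 256 : ℝ)) (5 / 128 : ℝ) C7) := by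
  refine ⟨(603979776 : ℝ), ⟨Q10, List.mem_cons_of_mem _ (List.mem_cons_of_mem _ (List.mem_cons_of_mem _ (List.mem_cons_of_mem _ (List.mem_cons_of_mem _ (List.mem_cons_of_mem _ (List.mem_cons_of_mem _ (List.mem_cons_of_mem _ (List.mem_cons_of_mem _ (List.mem_cons_of_mem _ (List.mem_cons_self)))))))))), ?_⟩, by norm_num⟩
  constructor <;> norm_num [Q10, coCell, C7]

lemma lcell7 : ∀ x1 x2 xc : ℝ, 0 ≤ x1 → x1 ≤ 1 → 0 ≤ x2 → x2 ≤ 1 → C7.l ≤ xc → xc ≤ C7.u →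
    (87579 / 65536 : ℝ) * (1 - (1 - x1) ^ 32) + (868797 / 65536 : ℝ) * (1 - (1 - x2) ^ 32) - ((379421 / 32768 : ℝ) + (107 / 256 : ℝ)) * (1 - (1 - xc) ^ 32)
      ≤ - C7.a1 * x1 - C7.a2 * x2 + C7.e * xc + C7.f := by
  have h := cell_lines 32 (α1 := (87579 / 65536 : ℝ)) (α2 := (868797 / 65536 : ℝ)) (c := (379421 / 32768 : ℝ) + (107 / 256 : ℝ)) (y1 := (671 / 32768 : ℝ)) (y2 := (817 / 32768 : ℝ))
    (A1 := (47222575 / 2097152 : ℝ)) (B1 := (49926451 / 268435456 : ℝ)) (A2 := (813426643 / 4194304 : ℝ)) (B2 := (337156949 / 134217728 : ℝ)) (l := (3653 / 131072 : ℝ)) (u := (19 / 512 : ℝ))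
    (E := (-290206809 / 2097152 : ℝ)) (F := (-881703969 / 268435456 : ℝ)) (by norm_num) (by norm_num) (by norm_num) (by norm_num) (by norm_num)
    (by norm_num) (by norm_num) (by norm_num) (by norm_num) (by norm_num) (by norm_num) (by norm_num) (by norm_num) (by norm_num) (by norm_num)
  have e1 : C7.l = (3653 / 131072 : ℝ) := rfl
  have e2 : C7.u = (19 / 512 : ℝ) := rfl
  have e3 : C7.a1 = -(47222575 / 2097152 : ℝ) := by norm_num [C7]
  have e4 : C7.a2 = -(813426643 / 4194304 : ℝ) := by norm_num [C7]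
  have e5 : C7.e = (-290206809 / 2097152 : ℝ) := rfl
  have e6 : C7.f = (49926451 / 268435456 : ℝ) + (337156949 / 134217728 : ℝ) + (-881703969 / 268435456 : ℝ) := by norm_num [C7]
  rw [e1, e2, e3, e4, e5, e6]
  exact h

/-- The hypotheses at the origin. -/
lemma horig (lam : ℝ) (hd : (32 : ℝ) * lam ^ 2 = 1) (hb : |lam| ≤ (194368031999 / 1099511627776 : ℝ)) :
    OriginH 32 lam (87579 / 65536 : ℝ) (868797 / 65536 : ℝ) (379421 / 32768 : ℝ) (107 / 256 : ℝ) (5 / 128 : ℝ) (45 / 512 : ℝ) (4233 / 4096 : ℝ) (1 / 256 : ℝ) 3298534883328 := by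
  refine originH_of_num (d := 32) (by push_cast; exact hd) hb (by norm_num) (by norm_num) (by norm_num) (by norm_num)
    (by norm_num) (by norm_num) (by norm_num) (by norm_num) (by norm_num) (by norm_num) (by norm_num [S]) (by norm_num) ?_ ?_
  · rw [hch]
    norm_num [abs_of_pos, abs_of_neg]
  · norm_num [abs_of_pos, abs_of_neg]

/-- Nonreconstruction at the bound. -/
theorem main : Tendsto (reconError 3 32 (-(1 / Real.sqrt 32))) atTop (𝓝 0) := by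
  have hsq : Real.sqrt ((32 : ℕ) : ℝ) ^ 2 = 32 := by
    rw [Real.sq_sqrt (by positivity)]; norm_num
  have hsq' : Real.sqrt (32 : ℝ) ^ 2 = 32 := by
    rw [Real.sq_sqrt (by positivity)]
  have hs0 : 0 < Real.sqrt (32 : ℝ) := Real.sqrt_pos.2 (by norm_num)
  have hl2 : ((32 : ℝ)) * (-(1 / Real.sqrt 32)) ^ 2 = 1 := by
    have : (-(1 / Real.sqrt (32 : ℝ))) ^ 2 = 1 / 32 := by
      rw [neg_sq, div_pow, hsq']; norm_num
    rw [this]; norm_num
  have hb : |(-(1 / Real.sqrt (32 : ℝ)))| ≤ (194368031999 / 1099511627776 : ℝ) := by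
    rw [abs_neg, abs_of_pos (by positivity)]
    rw [div_le_iff₀ hs0]
    have h1 : (1 : ℝ) ^ 2 ≤ ((194368031999 / 1099511627776 : ℝ) * Real.sqrt 32) ^ 2 := by
      rw [mul_pow, hsq']; norm_num
    exact le_of_sq_le_sq h1 (by positivity)
  have hb2 : (-(1 / 2) : ℝ) < -(1 / Real.sqrt (32 : ℝ)) := by
    have h2 := (abs_le.1 hb).1
    have h3 : ((194368031999 / 1099511627776 : ℝ) : ℝ) < 1 / 2 := by norm_num
    linarith
  have h1 : (-(1 / Real.sqrt (32 : ℝ))) < 1 := by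
    have : 0 < 1 / Real.sqrt (32 : ℝ) := by positivity
    linarith
  have hlam : |(S : ℝ) * (-(1 / Real.sqrt (32 : ℝ))) - ((P.lp : ℝ) - P.ln)| ≤ ((1 : ℕ) : ℝ) := by
    have h := lam_enc 32 12738103345051545 (by norm_num) (by norm_num [S]) (by norm_num [S])
    have e : ((32 : ℕ) : ℝ) = (32 : ℝ) := by norm_num
    rw [e] at h
    exact h
  obtain ⟨hOa, hON⟩ := horig _ hl2 hb
  refine final_of_box (d := 32) (by norm_num) hb2 h1 (box hlam) (87579 / 65536 : ℝ) (868797 / 65536 : ℝ) (379421 / 32768 : ℝ) (107 / 256 : ℝ) (45 / 512 : ℝ) (4233 / 4096 : ℝ) (5243 / 1048576 : ℝ) (1179 / 256 : ℝ) (5 / 128 : ℝ) (19 / 512 : ℝ) cellsL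
    (by norm_num) (by norm_num) (by norm_num) (by norm_num) (by norm_num) (by norm_num) (by norm_num) (by norm_num) (by norm_num)
    (by norm_num) (by norm_num) (by norm_num) (by norm_num) (by norm_num) hOa hON rTa rTb rc1 rc2 rc3
    (forall_cons rcell0 (forall_cons rcell1 (forall_cons rcell2 (forall_cons rcell3 (forall_cons rcell4 (forall_cons rcell5 (forall_cons rcell6 (forall_cons rcell7 (forall_nil))))))))) hcover (forall_cons lcell0 (forall_cons lcell1 (forall_cons lcell2 (forall_cons lcell3 (forall_cons lcell4 (forall_cons lcell5 (forall_cons lcell6 (forall_cons lcell7 (forall_nil)))))))))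

end Vale.Agent.P154H.Tm.D32
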