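import Vale.Agent.P154H.D.D33
import Vale.Agent.P154H.FinalD
import Vale.Agent.P154H.OriginW

open Filter Topology

set_option maxRecDepth 100000

/-!
Nonreconstruction at the Kesten-Stigum bound for `d = 33`, negative eigenvalue.
-/

namespace Vale.Agent.P154H.Tm.D33

open Vale.Agent.P154 Vale.Agent.P154H

/-- A chord cell. -/
noncomputable def C0 : Cell := ⟨(5243 / 1048576 : ℝ), (417 / 65536 : ℝ), (-161997037 / 4194304 : ℝ), (-780883429 / 2097152 : ℝ), (-1383871877 / 4194304 : ℝ), (-2393623 / 268435456 : ℝ)⟩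

/-- A chord cell. -/
noncomputable def C1 : Cell := ⟨(417 / 65536 : ℝ), (531 / 65536 : ℝ), (-9742297 / 262144 : ℝ), (-1495896591 / 4194304 : ℝ), (-1316497875 / 4194304 : ℝ), (-998767 / 67108864 : ℝ)⟩

/-- A chord cell. -/
noncomputable def C2 : Cell := ⟨(531 / 65536 : ℝ), (2703 / 262144 : ℝ), (-149117009 / 4194304 : ℝ), (-1415723445 / 4194304 : ℝ), (-154419413 / 524288 : ℝ), (-6474921 / 268435456 : ℝ)⟩

/-- A chord cell. -/
noncomputable def C3 : Cell := ⟨(2703 / 262144 : ℝ), (215 / 16384 : ℝ), (-140809927 / 4194304 : ℝ), (-330458671 / 1048576 : ℝ), (-1139188527 / 4194304 : ℝ), (-11084799 / 268435456 : ℝ)⟩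

/-- A chord cell. -/
noncomputable def C4 : Cell := ⟨(215 / 16384 : ℝ), (4379 / 262144 : ℝ), (-130917449 / 4194304 : ℝ), (-1206682731 / 4194304 : ℝ), (-1027216477 / 4194304 : ℝ), (-13676881 / 268435456 : ℝ)⟩

/-- A chord cell. -/
noncomputable def C5 : Cell := ⟨(4379 / 262144 : ℝ), (2787 / 131072 : ℝ), (-29854457 / 1048576 : ℝ), (-1084328749 / 4194304 : ℝ), (-225014455 / 1048576 : ℝ), (-13063601 / 134217728 : ℝ)⟩

/-- A chord cell. -/
noncomputable def C6 : Cell := ⟨(2787 / 131072 : ℝ), (7095 / 262144 : ℝ), (-110040503 / 4194304 : ℝ), (-958508313 / 4194304 : ℝ), (-760214291 / 4194304 : ℝ), (-61315163 / 268435456 : ℝ)⟩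

/-- A chord cell. -/
noncomputable def C7 : Cell := ⟨(7095 / 262144 : ℝ), (37 / 1024 : ℝ), (-48709961 / 2097152 : ℝ), (-839711113 / 4194304 : ℝ), (-596464897 / 4194304 : ℝ), (-162701097 / 268435456 : ℝ)⟩

/-- The chord cells. -/
noncomputable def cellsL : List Cell := [C0, C1, C2, C3, C4, C5, C6, C7]

lemma hcover : ∀ x : ℝ, (5243 / 1048576 : ℝ) ≤ x → x ≤ (37 / 1024 : ℝ) → ∃ D ∈ cellsL, D.l ≤ x ∧ x ≤ D.u := by
  refine cover_of_chain ?_ (by norm_num [C0])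
  simp only [ChainP, C0, C1, C2, C3, C4, C5, C6, C7]
  norm_num

lemma hch : ((Nat.choose 33 2 : ℕ) : ℝ) = 528 := by norm_num [Nat.choose]

lemma rTa : Rw4 P.r1 (393216 : ℝ) (coTa 33 (87579 / 65536 : ℝ) (868797 / 65536 : ℝ) (379421 / 32768 : ℝ) (107 / 256 : ℝ) (171 / 4096 : ℝ)) := by
  refine ⟨⟨Ra, List.mem_cons_self, ?_⟩, by norm_num⟩
  constructor <;> norm_num [Ra, coTa, hch]

lemma rTb : Rw4 P.r1 (13194139533312 : ℝ) (coTb 33 (87579 / 65536 : ℝ) (868797 / 65536 : ℝ) (379421 / 32768 : ℝ) (107 / 256 : ℝ) (171 / 4096 : ℝ) (45 / 512 : ℝ) (4233 / 4096 : ℝ) (80129 / 16384 : ℝ)) := by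
  refine ⟨⟨Rb, List.mem_cons_of_mem _ (List.mem_cons_self), ?_⟩, by norm_num⟩
  constructor <;> norm_num [Rb, coTb, hch]

lemma rc1 : Rw4 P.r2 (16777216 : ℝ) ⟨0, 0, 0, -(87579 / 65536 : ℝ), 0, 0, 0, 0, (379421 / 32768 : ℝ) * (45 / 512 : ℝ)⟩ := by
  refine ⟨⟨Q0, List.mem_cons_self, ?_⟩, by norm_num⟩
  constructor <;> norm_num [Q0]

lemma rc2 : Rw4 P.r2 (134217728 : ℝ) ⟨0, 0, 0, 0, -(868797 / 65536 : ℝ), 0, 0, 0, (379421 / 32768 : ℝ) * (4233 / 4096 : ℝ)⟩ := by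
  refine ⟨⟨Q1, List.mem_cons_of_mem _ (List.mem_cons_self), ?_⟩, by norm_num⟩
  constructor <;> norm_num [Q1]

lemma rc3 : Rw4 P.r2 (3072 : ℝ) ⟨0, 0, 0, 0, 0, -1, 0, 0, (37 / 1024 : ℝ)⟩ := by
  refine ⟨⟨Q2, List.mem_cons_of_mem _ (List.mem_cons_of_mem _ (List.mem_cons_self)), ?_⟩, by norm_num⟩
  constructor <;> norm_num [Q2]

lemma rcell0 : ∃ N : ℝ, Rw4 P.r2 N (coCell (87579 / 65536 : ℝ) (868797 / 65536 : ℝ) ((379421 / 32768 : ℝ) + (107 / 256 : ℝ)) (171 / 4096 : ℝ) C0) := by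
  refine ⟨(805306368 : ℝ), ⟨Q3, List.mem_cons_of_mem _ (List.mem_cons_of_mem _ (List.mem_cons_of_mem _ (List.mem_cons_self))), ?_⟩, by norm_num⟩
  constructor <;> norm_num [Q3, coCell, C0]

lemma lcell0 : ∀ x1 x2 xc : ℝ, 0 ≤ x1 → x1 ≤ 1 → 0 ≤ x2 → x2 ≤ 1 → C0.l ≤ xc → xc ≤ C0.u →
    (87579 / 65536 : ℝ) * (1 - (1 - x1) ^ 33) + (868797 / 65536 : ℝ) * (1 - (1 - x2) ^ 33) - ((379421 / 32768 : ℝ) + (107 / 256 : ℝ)) * (1 - (1 - xc) ^ 33)
      ≤ - C0.a1 * x1 - C0.a2 * x2 + C0.e * xc + C0.f := by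
  have h := cell_lines 33 (α1 := (87579 / 65536 : ℝ)) (α2 := (868797 / 65536 : ℝ)) (c := (379421 / 32768 : ℝ) + (107 / 256 : ℝ)) (y1 := (271 / 65536 : ℝ)) (y2 := (1317 / 262144 : ℝ))
    (A1 := (161997037 / 4194304 : ℝ)) (B1 := (1487205 / 134217728 : ℝ)) (A2 := (780883429 / 2097152 : ℝ)) (B2 := (2673025 / 16777216 : ℝ)) (l := (5243 / 1048576 : ℝ)) (u := (417 / 65536 : ℝ))
    (E := (-1383871877 / 4194304 : ℝ)) (F := (-48136433 / 268435456 : ℝ)) (by norm_num) (by norm_num) (by norm_num) (by norm_num) (by norm_num)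
    (by norm_num) (by norm_num) (by norm_num) (by norm_num) (by norm_num) (by norm_num) (by norm_num) (by norm_num) (by norm_num) (by norm_num)
  have e1 : C0.l = (5243 / 1048576 : ℝ) := rfl
  have e2 : C0.u = (417 / 65536 : ℝ) := rfl
  have e3 : C0.a1 = -(161997037 / 4194304 : ℝ) := by norm_num [C0]
  have e4 : C0.a2 = -(780883429 / 2097152 : ℝ) := by norm_num [C0]
  have e5 : C0.e = (-1383871877 / 4194304 : ℝ) := rfl
  have e6 : C0.f = (1487205 / 134217728 : ℝ) + (2673025 / 16777216 : ℝ) + (-48136433 / 268435456 : ℝ) := by norm_num [C0]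
  rw [e1, e2, e3, e4, e5, e6]
  exact h

lemma rcell1 : ∃ N : ℝ, Rw4 P.r2 N (coCell (87579 / 65536 : ℝ) (868797 / 65536 : ℝ) ((379421 / 32768 : ℝ) + (107 / 256 : ℝ)) (171 / 4096 : ℝ) C1) := by
  refine ⟨(201326592 : ℝ), ⟨Q4, List.mem_cons_of_mem _ (List.mem_cons_of_mem _ (List.mem_cons_of_mem _ (List.mem_cons_of_mem _ (List.mem_cons_self)))), ?_⟩, by norm_num⟩
  constructor <;> norm_num [Q4, coCell, C1]

lemma lcell1 : ∀ x1 x2 xc : ℝ, 0 ≤ x1 → x1 ≤ 1 → 0 ≤ x2 → x2 ≤ 1 → C1.l ≤ xc → xc ≤ C1.u →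
    (87579 / 65536 : ℝ) * (1 - (1 - x1) ^ 33) + (868797 / 65536 : ℝ) * (1 - (1 - x2) ^ 33) - ((379421 / 32768 : ℝ) + (107 / 256 : ℝ)) * (1 - (1 - xc) ^ 33)
      ≤ - C1.a1 * x1 - C1.a2 * x2 + C1.e * xc + C1.f := by
  have h := cell_lines 33 (α1 := (87579 / 65536 : ℝ)) (α2 := (868797 / 65536 : ℝ)) (c := (379421 / 32768 : ℝ) + (107 / 256 : ℝ)) (y1 := (699 / 131072 : ℝ)) (y2 := (417 / 65536 : ℝ))
    (A1 := (9742297 / 262144 : ℝ)) (B1 := (2413633 / 134217728 : ℝ)) (A2 := (1495896591 / 4194304 : ℝ)) (B2 := (33375291 / 134217728 : ℝ)) (l := (417 / 65536 : ℝ)) (u := (531 / 65536 : ℝ))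
    (E := (-1316497875 / 4194304 : ℝ)) (F := (-18893229 / 67108864 : ℝ)) (by norm_num) (by norm_num) (by norm_num) (by norm_num) (by norm_num)
    (by norm_num) (by norm_num) (by norm_num) (by norm_num) (by norm_num) (by norm_num) (by norm_num) (by norm_num) (by norm_num) (by norm_num)
  have e1 : C1.l = (417 / 65536 : ℝ) := rfl
  have e2 : C1.u = (531 / 65536 : ℝ) := rfl
  have e3 : C1.a1 = -(9742297 / 262144 : ℝ) := by norm_num [C1]
  have e4 : C1.a2 = -(1495896591 / 4194304 : ℝ) := by norm_num [C1]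
  have e5 : C1.e = (-1316497875 / 4194304 : ℝ) := rfl
  have e6 : C1.f = (2413633 / 134217728 : ℝ) + (33375291 / 134217728 : ℝ) + (-18893229 / 67108864 : ℝ) := by norm_num [C1]
  rw [e1, e2, e3, e4, e5, e6]
  exact h

lemma rcell2 : ∃ N : ℝ, Rw4 P.r2 N (coCell (87579 / 65536 : ℝ) (868797 / 65536 : ℝ) ((379421 / 32768 : ℝ) + (107 / 256 : ℝ)) (171 / 4096 : ℝ) C2) := by
  refine ⟨(805306368 : ℝ), ⟨Q5, List.mem_cons_of_mem _ (List.mem_cons_of_mem _ (List.mem_cons_of_mem _ (List.mem_cons_of_mem _ (List.mem_cons_of_mem _ (List.mem_cons_self))))), ?_⟩, by norm_num⟩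
  constructor <;> norm_num [Q5, coCell, C2]

lemma lcell2 : ∀ x1 x2 xc : ℝ, 0 ≤ x1 → x1 ≤ 1 → 0 ≤ x2 → x2 ≤ 1 → C2.l ≤ xc → xc ≤ C2.u →
    (87579 / 65536 : ℝ) * (1 - (1 - x1) ^ 33) + (868797 / 65536 : ℝ) * (1 - (1 - x2) ^ 33) - ((379421 / 32768 : ℝ) + (107 / 256 : ℝ)) * (1 - (1 - xc) ^ 33)
      ≤ - C2.a1 * x1 - C2.a2 * x2 + C2.e * xc + C2.f := by
  have h := cell_lines 33 (α1 := (87579 / 65536 : ℝ)) (α2 := (868797 / 65536 : ℝ)) (c := (379421 / 32768 : ℝ) + (107 / 256 : ℝ)) (y1 := (1759 / 262144 : ℝ)) (y2 := (529 / 65536 : ℝ))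
    (A1 := (149117009 / 4194304 : ℝ)) (B1 := (7430181 / 268435456 : ℝ)) (A2 := (1415723445 / 4194304 : ℝ)) (B2 := (103744675 / 268435456 : ℝ)) (l := (531 / 65536 : ℝ)) (u := (2703 / 262144 : ℝ))
    (E := (-154419413 / 524288 : ℝ)) (F := (-117649777 / 268435456 : ℝ)) (by norm_num) (by norm_num) (by norm_num) (by norm_num) (by norm_num)
    (by norm_num) (by norm_num) (by norm_num) (by norm_num) (by norm_num) (by norm_num) (by norm_num) (by norm_num) (by norm_num) (by norm_num)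
  have e1 : C2.l = (531 / 65536 : ℝ) := rfl
  have e2 : C2.u = (2703 / 262144 : ℝ) := rfl
  have e3 : C2.a1 = -(149117009 / 4194304 : ℝ) := by norm_num [C2]
  have e4 : C2.a2 = -(1415723445 / 4194304 : ℝ) := by norm_num [C2]
  have e5 : C2.e = (-154419413 / 524288 : ℝ) := rfl
  have e6 : C2.f = (7430181 / 268435456 : ℝ) + (103744675 / 268435456 : ℝ) + (-117649777 / 268435456 : ℝ) := by norm_num [C2]
  rw [e1, e2, e3, e4, e5, e6]
  exact h

lemma rcell3 : ∃ N : ℝ, Rw4 P.r2 N (coCell (87579 / 65536 : ℝ) (868797 / 65536 : ℝ) ((379421 / 32768 : ℝ) + (107 / 256 : ℝ)) (171 / 4096 : ℝ) C3) := by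
  refine ⟨(805306368 : ℝ), ⟨Q6, List.mem_cons_of_mem _ (List.mem_cons_of_mem _ (List.mem_cons_of_mem _ (List.mem_cons_of_mem _ (List.mem_cons_of_mem _ (List.mem_cons_of_mem _ (List.mem_cons_self)))))), ?_⟩, by norm_num⟩
  constructor <;> norm_num [Q6, coCell, C3]

lemma lcell3 : ∀ x1 x2 xc : ℝ, 0 ≤ x1 → x1 ≤ 1 → 0 ≤ x2 → x2 ≤ 1 → C3.l ≤ xc → xc ≤ C3.u →
    (87579 / 65536 : ℝ) * (1 - (1 - x1) ^ 33) + (868797 / 65536 : ℝ) * (1 - (1 - x2) ^ 33) - ((379421 / 32768 : ℝ) + (107 / 256 : ℝ)) * (1 - (1 - xc) ^ 33)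
      ≤ - C3.a1 * x1 - C3.a2 * x2 + C3.e * xc + C3.f := by
  have h := cell_lines 33 (α1 := (87579 / 65536 : ℝ)) (α2 := (868797 / 65536 : ℝ)) (c := (379421 / 32768 : ℝ) + (107 / 256 : ℝ)) (y1 := (2225 / 262144 : ℝ)) (y2 := (2673 / 262144 : ℝ))
    (A1 := (140809927 / 4194304 : ℝ)) (B1 := (11465771 / 268435456 : ℝ)) (A2 := (330458671 / 1048576 : ℝ)) (B2 := (158560827 / 268435456 : ℝ)) (l := (2703 / 262144 : ℝ)) (u := (215 / 16384 : ℝ))
    (E := (-1139188527 / 4194304 : ℝ)) (F := (-181111397 / 268435456 : ℝ)) (by norm_num) (by norm_num) (by norm_num) (by norm_num) (by norm_num)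
    (by norm_num) (by norm_num) (by norm_num) (by norm_num) (by norm_num) (by norm_num) (by norm_num) (by norm_num) (by norm_num) (by norm_num)
  have e1 : C3.l = (2703 / 262144 : ℝ) := rfl
  have e2 : C3.u = (215 / 16384 : ℝ) := rfl
  have e3 : C3.a1 = -(140809927 / 4194304 : ℝ) := by norm_num [C3]
  have e4 : C3.a2 = -(330458671 / 1048576 : ℝ) := by norm_num [C3]
  have e5 : C3.e = (-1139188527 / 4194304 : ℝ) := rfl
  have e6 : C3.f = (11465771 / 268435456 : ℝ) + (158560827 / 268435456 : ℝ) + (-181111397 / 268435456 : ℝ) := by norm_num [C3]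
  rw [e1, e2, e3, e4, e5, e6]
  exact h

lemma rcell4 : ∃ N : ℝ, Rw4 P.r2 N (coCell (87579 / 65536 : ℝ) (868797 / 65536 : ℝ) ((379421 / 32768 : ℝ) + (107 / 256 : ℝ)) (171 / 4096 : ℝ) C4) := by
  refine ⟨(805306368 : ℝ), ⟨Q7, List.mem_cons_of_mem _ (List.mem_cons_of_mem _ (List.mem_cons_of_mem _ (List.mem_cons_of_mem _ (List.mem_cons_of_mem _ (List.mem_cons_of_mem _ (List.mem_cons_of_mem _ (List.mem_cons_self))))))), ?_⟩, by norm_num⟩
  constructor <;> norm_num [Q7, coCell, C4]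

lemma lcell4 : ∀ x1 x2 xc : ℝ, 0 ≤ x1 → x1 ≤ 1 → 0 ≤ x2 → x2 ≤ 1 → C4.l ≤ xc → xc ≤ C4.u →
    (87579 / 65536 : ℝ) * (1 - (1 - x1) ^ 33) + (868797 / 65536 : ℝ) * (1 - (1 - x2) ^ 33) - ((379421 / 32768 : ℝ) + (107 / 256 : ℝ)) * (1 - (1 - xc) ^ 33)
      ≤ - C4.a1 * x1 - C4.a2 * x2 + C4.e * xc + C4.f := by
  have h := cell_lines 33 (α1 := (87579 / 65536 : ℝ)) (α2 := (868797 / 65536 : ℝ)) (c := (379421 / 32768 : ℝ) + (107 / 256 : ℝ)) (y1 := (11 / 1024 : ℝ)) (y2 := (3411 / 262144 : ℝ))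
    (A1 := (130917449 / 4194304 : ℝ)) (B1 := (8772395 / 134217728 : ℝ)) (A2 := (1206682731 / 4194304 : ℝ)) (B2 := (15245547 / 16777216 : ℝ)) (l := (215 / 16384 : ℝ)) (u := (4379 / 262144 : ℝ))
    (E := (-1027216477 / 4194304 : ℝ)) (F := (-275150423 / 268435456 : ℝ)) (by norm_num) (by norm_num) (by norm_num) (by norm_num) (by norm_num)
    (by norm_num) (by norm_num) (by norm_num) (by norm_num) (by norm_num) (by norm_num) (by norm_num) (by norm_num) (by norm_num) (by norm_num)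
  have e1 : C4.l = (215 / 16384 : ℝ) := rfl
  have e2 : C4.u = (4379 / 262144 : ℝ) := rfl
  have e3 : C4.a1 = -(130917449 / 4194304 : ℝ) := by norm_num [C4]
  have e4 : C4.a2 = -(1206682731 / 4194304 : ℝ) := by norm_num [C4]
  have e5 : C4.e = (-1027216477 / 4194304 : ℝ) := rfl
  have e6 : C4.f = (8772395 / 134217728 : ℝ) + (15245547 / 16777216 : ℝ) + (-275150423 / 268435456 : ℝ) := by norm_num [C4]
  rw [e1, e2, e3, e4, e5, e6]
  exact h

lemma rcell5 : ∃ N : ℝ, Rw4 P.r2 N (coCell (87579 / 65536 : ℝ) (868797 / 65536 : ℝ) ((379421 / 32768 : ℝ) + (107 / 256 : ℝ)) (171 / 4096 : ℝ) C5) := by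
  refine ⟨(402653184 : ℝ), ⟨Q8, List.mem_cons_of_mem _ (List.mem_cons_of_mem _ (List.mem_cons_of_mem _ (List.mem_cons_of_mem _ (List.mem_cons_of_mem _ (List.mem_cons_of_mem _ (List.mem_cons_of_mem _ (List.mem_cons_of_mem _ (List.mem_cons_self)))))))), ?_⟩, by norm_num⟩
  constructor <;> norm_num [Q8, coCell, C5]

lemma lcell5 : ∀ x1 x2 xc : ℝ, 0 ≤ x1 → x1 ≤ 1 → 0 ≤ x2 → x2 ≤ 1 → C5.l ≤ xc → xc ≤ C5.u →
    (87579 / 65536 : ℝ) * (1 - (1 - x1) ^ 33) + (868797 / 65536 : ℝ) * (1 - (1 - x2) ^ 33) - ((379421 / 32768 : ℝ) + (107 / 256 : ℝ)) * (1 - (1 - xc) ^ 33)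
      ≤ - C5.a1 * x1 - C5.a2 * x2 + C5.e * xc + C5.f := by
  have h := cell_lines 33 (α1 := (87579 / 65536 : ℝ)) (α2 := (868797 / 65536 : ℝ)) (c := (379421 / 32768 : ℝ) + (107 / 256 : ℝ)) (y1 := (445 / 32768 : ℝ)) (y2 := (2137 / 131072 : ℝ))
    (A1 := (29854457 / 1048576 : ℝ)) (B1 := (13239835 / 134217728 : ℝ)) (A2 := (1084328749 / 4194304 : ℝ)) (B2 := (358487829 / 268435456 : ℝ)) (l := (4379 / 262144 : ℝ)) (u := (2787 / 131072 : ℝ))
    (E := (-225014455 / 1048576 : ℝ)) (F := (-411094701 / 268435456 : ℝ)) (by norm_num) (by norm_num) (by norm_num) (by norm_num) (by norm_num)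
    (by norm_num) (by norm_num) (by norm_num) (by norm_num) (by norm_num) (by norm_num) (by norm_num) (by norm_num) (by norm_num) (by norm_num)
  have e1 : C5.l = (4379 / 262144 : ℝ) := rfl
  have e2 : C5.u = (2787 / 131072 : ℝ) := rfl
  have e3 : C5.a1 = -(29854457 / 1048576 : ℝ) := by norm_num [C5]
  have e4 : C5.a2 = -(1084328749 / 4194304 : ℝ) := by norm_num [C5]
  have e5 : C5.e = (-225014455 / 1048576 : ℝ) := rfl
  have e6 : C5.f = (13239835 / 134217728 : ℝ) + (358487829 / 268435456 : ℝ) + (-411094701 / 268435456 : ℝ) := by norm_num [C5]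
  rw [e1, e2, e3, e4, e5, e6]
  exact h

lemma rcell6 : ∃ N : ℝ, Rw4 P.r2 N (coCell (87579 / 65536 : ℝ) (868797 / 65536 : ℝ) ((379421 / 32768 : ℝ) + (107 / 256 : ℝ)) (171 / 4096 : ℝ) C6) := by
  refine ⟨(805306368 : ℝ), ⟨Q9, List.mem_cons_of_mem _ (List.mem_cons_of_mem _ (List.mem_cons_of_mem _ (List.mem_cons_of_mem _ (List.mem_cons_of_mem _ (List.mem_cons_of_mem _ (List.mem_cons_of_mem _ (List.mem_cons_of_mem _ (List.mem_cons_of_mem _ (List.mem_cons_self))))))))), ?_⟩, by norm_num⟩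
  constructor <;> norm_num [Q9, coCell, C6]

lemma lcell6 : ∀ x1 x2 xc : ℝ, 0 ≤ x1 → x1 ≤ 1 → 0 ≤ x2 → x2 ≤ 1 → C6.l ≤ xc → xc ≤ C6.u →
    (87579 / 65536 : ℝ) * (1 - (1 - x1) ^ 33) + (868797 / 65536 : ℝ) * (1 - (1 - x2) ^ 33) - ((379421 / 32768 : ℝ) + (107 / 256 : ℝ)) * (1 - (1 - xc) ^ 33)
      ≤ - C6.a1 * x1 - C6.a2 * x2 + C6.e * xc + C6.f := by
  have h := cell_lines 33 (α1 := (87579 / 65536 : ℝ)) (α2 := (868797 / 65536 : ℝ)) (c := (379421 / 32768 : ℝ) + (107 / 256 : ℝ)) (y1 := (1055 / 65536 : ℝ)) (y2 := (2633 / 131072 : ℝ))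
    (A1 := (110040503 / 4194304 : ℝ)) (B1 := (17687701 / 134217728 : ℝ)) (A2 := (958508313 / 4194304 : ℝ)) (B2 := (252354391 / 134217728 : ℝ)) (l := (2787 / 131072 : ℝ)) (u := (7095 / 262144 : ℝ))
    (E := (-760214291 / 4194304 : ℝ)) (F := (-601399347 / 268435456 : ℝ)) (by norm_num) (by norm_num) (by norm_num) (by norm_num) (by norm_num)
    (by norm_num) (by norm_num) (by norm_num) (by norm_num) (by norm_num) (by norm_num) (by norm_num) (by norm_num) (by norm_num) (by norm_num)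
  have e1 : C6.l = (2787 / 131072 : ℝ) := rfl
  have e2 : C6.u = (7095 / 262144 : ℝ) := rfl
  have e3 : C6.a1 = -(110040503 / 4194304 : ℝ) := by norm_num [C6]
  have e4 : C6.a2 = -(958508313 / 4194304 : ℝ) := by norm_num [C6]
  have e5 : C6.e = (-760214291 / 4194304 : ℝ) := rfl
  have e6 : C6.f = (17687701 / 134217728 : ℝ) + (252354391 / 134217728 : ℝ) + (-601399347 / 268435456 : ℝ) := by norm_num [C6]
  rw [e1, e2, e3, e4, e5, e6]
  exact h

lemma rcell7 : ∃ N : ℝ, Rw4 P.r2 N (coCell (87579 / 65536 : ℝ) (868797 / 65536 : ℝ) ((379421 / 32768 : ℝ) + (107 / 256 : ℝ)) (171 / 4096 : ℝ) C7) := by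
  refine ⟨(805306368 : ℝ), ⟨Q10, List.mem_cons_of_mem _ (List.mem_cons_of_mem _ (List.mem_cons_of_mem _ (List.mem_cons_of_mem _ (List.mem_cons_of_mem _ (List.mem_cons_of_mem _ (List.mem_cons_of_mem _ (List.mem_cons_of_mem _ (List.mem_cons_of_mem _ (List.mem_cons_of_mem _ (List.mem_cons_self)))))))))), ?_⟩, by norm_num⟩
  constructor <;> norm_num [Q10, coCell, C7]

lemma lcell7 : ∀ x1 x2 xc : ℝ, 0 ≤ x1 → x1 ≤ 1 → 0 ≤ x2 → x2 ≤ 1 → C7.l ≤ xc → xc ≤ C7.u →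
    (87579 / 65536 : ℝ) * (1 - (1 - x1) ^ 33) + (868797 / 65536 : ℝ) * (1 - (1 - x2) ^ 33) - ((379421 / 32768 : ℝ) + (107 / 256 : ℝ)) * (1 - (1 - xc) ^ 33)
      ≤ - C7.a1 * x1 - C7.a2 * x2 + C7.e * xc + C7.f := by
  have h := cell_lines 33 (α1 := (87579 / 65536 : ℝ)) (α2 := (868797 / 65536 : ℝ)) (c := (379421 / 32768 : ℝ) + (107 / 256 : ℝ)) (y1 := (325 / 16384 : ℝ)) (y2 := (3163 / 131072 : ℝ))
    (A1 := (48709961 / 2097152 : ℝ)) (B1 := (6232269 / 33554432 : ℝ)) (A2 := (839711113 / 4194304 : ℝ)) (B2 := (42030197 / 16777216 : ℝ)) (l := (7095 / 262144 : ℝ)) (u := (37 / 1024 : ℝ))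
    (E := (-596464897 / 4194304 : ℝ)) (F := (-885042401 / 268435456 : ℝ)) (by norm_num) (by norm_num) (by norm_num) (by norm_num) (by norm_num)
    (by norm_num) (by norm_num) (by norm_num) (by norm_num) (by norm_num) (by norm_num) (by norm_num) (by norm_num) (by norm_num) (by norm_num)
  have e1 : C7.l = (7095 / 262144 : ℝ) := rfl
  have e2 : C7.u = (37 / 1024 : ℝ) := rfl
  have e3 : C7.a1 = -(48709961 / 2097152 : ℝ) := by norm_num [C7]
  have e4 : C7.a2 = -(839711113 / 4194304 : ℝ) := by norm_num [C7]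
  have e5 : C7.e = (-596464897 / 4194304 : ℝ) := rfl
  have e6 : C7.f = (6232269 / 33554432 : ℝ) + (42030197 / 16777216 : ℝ) + (-885042401 / 268435456 : ℝ) := by norm_num [C7]
  rw [e1, e2, e3, e4, e5, e6]
  exact h

/-- The hypotheses at the origin. -/
lemma horig (lam : ℝ) (hd : (33 : ℝ) * lam ^ 2 = 1) (hb : |lam| ≤ (47850101715 / 274877906944 : ℝ)) :
    OriginH 33 lam (87579 / 65536 : ℝ) (868797 / 65536 : ℝ) (379421 / 32768 : ℝ) (107 / 256 : ℝ) (171 / 4096 : ℝ) (45 / 512 : ℝ) (4233 / 4096 : ℝ) (1 / 256 : ℝ) 3298534883328 := by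
  refine originH_of_num (d := 33) (by push_cast; exact hd) hb (by norm_num) (by norm_num) (by norm_num) (by norm_num)
    (by norm_num) (by norm_num) (by norm_num) (by norm_num) (by norm_num) (by norm_num) (by norm_num [S]) (by norm_num) ?_ ?_
  · rw [hch]
    norm_num [abs_of_pos, abs_of_neg]
  · norm_num [abs_of_pos, abs_of_neg]

/-- Nonreconstruction at the bound. -/
theorem main : Tendsto (reconError 3 33 (-(1 / Real.sqrt 33))) atTop (𝓝 0) := by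
  have hsq : Real.sqrt ((33 : ℕ) : ℝ) ^ 2 = 33 := by
    rw [Real.sq_sqrt (by positivity)]; norm_num
  have hsq' : Real.sqrt (33 : ℝ) ^ 2 = 33 := by
    rw [Real.sq_sqrt (by positivity)]
  have hs0 : 0 < Real.sqrt (33 : ℝ) := Real.sqrt_pos.2 (by norm_num)
  have hl2 : ((33 : ℝ)) * (-(1 / Real.sqrt 33)) ^ 2 = 1 := by
    have : (-(1 / Real.sqrt (33 : ℝ))) ^ 2 = 1 / 33 := by
      rw [neg_sq, div_pow, hsq']; norm_num
    rw [this]; norm_num
  have hb : |(-(1 / Real.sqrt (33 : ℝ)))| ≤ (47850101715 / 274877906944 : ℝ) := by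
    rw [abs_neg, abs_of_pos (by positivity)]
    rw [div_le_iff₀ hs0]
    have h1 : (1 : ℝ) ^ 2 ≤ ((47850101715 / 274877906944 : ℝ) * Real.sqrt 33) ^ 2 := by
      rw [mul_pow, hsq']; norm_num
    exact le_of_sq_le_sq h1 (by positivity)
  have hb2 : (-(1 / 2) : ℝ) < -(1 / Real.sqrt (33 : ℝ)) := by
    have h2 := (abs_le.1 hb).1
    have h3 : ((47850101715 / 274877906944 : ℝ) : ℝ) < 1 / 2 := by norm_num
    linarith
  have h1 : (-(1 / Real.sqrt (33 : ℝ))) < 1 := by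
    have : 0 < 1 / Real.sqrt (33 : ℝ) := by positivity
    linarith
  have hlam : |(S : ℝ) * (-(1 / Real.sqrt (33 : ℝ))) - ((P.lp : ℝ) - P.ln)| ≤ ((1 : ℕ) : ℝ) := by
    have h := lam_enc 33 12543617063929763 (by norm_num) (by norm_num [S]) (by norm_num [S])
    have e : ((33 : ℕ) : ℝ) = (33 : ℝ) := by norm_num
    rw [e] at h
    exact h
  obtain ⟨hOa, hON⟩ := horig _ hl2 hb
  refine final_of_box (d := 33) (by norm_num) hb2 h1 (box hlam) (87579 / 65536 : ℝ) (868797 / 65536 : ℝ) (379421 / 32768 : ℝ) (107 / 256 : ℝ) (45 / 512 : ℝ) (4233 / 4096 : ℝ) (5243 / 1048576 : ℝ) (80129 / 16384 : ℝ) (171 / 4096 : ℝ) (37 / 1024 : ℝ) cellsL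
    (by norm_num) (by norm_num) (by norm_num) (by norm_num) (by norm_num) (by norm_num) (by norm_num) (by norm_num) (by norm_num)
    (by norm_num) (by norm_num) (by norm_num) (by norm_num) (by norm_num) hOa hON rTa rTb rc1 rc2 rc3
    (forall_cons rcell0 (forall_cons rcell1 (forall_cons rcell2 (forall_cons rcell3 (forall_cons rcell4 (forall_cons rcell5 (forall_cons rcell6 (forall_cons rcell7 (forall_nil))))))))) hcover (forall_cons lcell0 (forall_cons lcell1 (forall_cons lcell2 (forall_cons lcell3 (forall_cons lcell4 (forall_cons lcell5 (forall_cons lcell6 (forall_cons lcell7 (forall_nil)))))))))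

end Vale.Agent.P154H.Tm.D33
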