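import Vale.Agent.P154H.D.D37
import Vale.Agent.P154H.FinalD
import Vale.Agent.P154H.OriginW

open Filter Topology

set_option maxRecDepth 100000

/-!
Nonreconstruction at the Kesten-Stigum bound for `d = 37`, negative eigenvalue.
-/

namespace Vale.Agent.P154H.Tm.D37

open Vale.Agent.P154 Vale.Agent.P154H

/-- A chord cell. -/
noncomputable def C0 : Cell := ⟨(5243 / 1048576 : ℝ), (53 / 8192 : ℝ), (-89163669 / 2097152 : ℝ), (-1714726363 / 4194304 : ℝ), (-756888743 / 2097152 : ℝ), (-3256079 / 268435456 : ℝ)⟩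

/-- A chord cell. -/
noncomputable def C1 : Cell := ⟨(53 / 8192 : ℝ), (549 / 65536 : ℝ), (-170247713 / 4194304 : ℝ), (-1626145663 / 4194304 : ℝ), (-1424042213 / 4194304 : ℝ), (-5191371 / 268435456 : ℝ)⟩

/-- A chord cell. -/
noncomputable def C2 : Cell := ⟨(549 / 65536 : ℝ), (1421 / 131072 : ℝ), (-159783237 / 4194304 : ℝ), (-1519974351 / 4194304 : ℝ), (-1315563521 / 4194304 : ℝ), (-2151717 / 67108864 : ℝ)⟩

/-- A chord cell. -/
noncomputable def C3 : Cell := ⟨(1421 / 131072 : ℝ), (1839 / 131072 : ℝ), (-37460331 / 1048576 : ℝ), (-1392832831 / 4194304 : ℝ), (-1187193829 / 4194304 : ℝ), (-3688309 / 67108864 : ℝ)⟩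

/-- A chord cell. -/
noncomputable def C4 : Cell := ⟨(1839 / 131072 : ℝ), (4761 / 262144 : ℝ), (-137529139 / 4194304 : ℝ), (-624582387 / 2097152 : ℝ), (-129879841 / 524288 : ℝ), (-13606973 / 134217728 : ℝ)⟩

/-- A chord cell. -/
noncomputable def C5 : Cell := ⟨(4761 / 262144 : ℝ), (3081 / 131072 : ℝ), (-123696913 / 4194304 : ℝ), (-1103329873 / 4194304 : ℝ), (-436928839 / 2097152 : ℝ), (-31959839 / 134217728 : ℝ)⟩

/-- A chord cell. -/
noncomputable def C6 : Cell := ⟨(3081 / 131072 : ℝ), (33 / 1024 : ℝ), (-109294899 / 4194304 : ℝ), (-473976481 / 2097152 : ℝ), (-337964705 / 2097152 : ℝ), (-39084141 / 67108864 : ℝ)⟩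

/-- The chord cells. -/
noncomputable def cellsL : List Cell := [C0, C1, C2, C3, C4, C5, C6]

lemma hcover : ∀ x : ℝ, (5243 / 1048576 : ℝ) ≤ x → x ≤ (33 / 1024 : ℝ) → ∃ D ∈ cellsL, D.l ≤ x ∧ x ≤ D.u := by
  refine cover_of_chain ?_ (by norm_num [C0])
  simp only [ChainP, C0, C1, C2, C3, C4, C5, C6]
  norm_num

lemma hch : ((Nat.choose 37 2 : ℕ) : ℝ) = 666 := by norm_num [Nat.choose]

lemma rTa : Rw4 P.r1 (1179648 : ℝ) (coTa 37 (87579 / 65536 : ℝ) (868797 / 65536 : ℝ) (379421 / 32768 : ℝ) (107 / 256 : ℝ) (175 / 4096 : ℝ)) := by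
  refine ⟨⟨Ra, List.mem_cons_self, ?_⟩, by norm_num⟩
  constructor <;> norm_num [Ra, coTa, hch]

lemma rTb : Rw4 P.r1 (9895604649984 : ℝ) (coTb 37 (87579 / 65536 : ℝ) (868797 / 65536 : ℝ) (379421 / 32768 : ℝ) (107 / 256 : ℝ) (175 / 4096 : ℝ) (45 / 512 : ℝ) (4233 / 4096 : ℝ) (25023 / 4096 : ℝ)) := by
  refine ⟨⟨Rb, List.mem_cons_of_mem _ (List.mem_cons_self), ?_⟩, by norm_num⟩
  constructor <;> norm_num [Rb, coTb, hch]

lemma rc1 : Rw4 P.r2 (16777216 : ℝ) ⟨0, 0, 0, -(87579 / 65536 : ℝ), 0, 0, 0, 0, (379421 / 32768 : ℝ) * (45 / 512 : ℝ)⟩ := by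
  refine ⟨⟨Q0, List.mem_cons_self, ?_⟩, by norm_num⟩
  constructor <;> norm_num [Q0]

lemma rc2 : Rw4 P.r2 (134217728 : ℝ) ⟨0, 0, 0, 0, -(868797 / 65536 : ℝ), 0, 0, 0, (379421 / 32768 : ℝ) * (4233 / 4096 : ℝ)⟩ := by
  refine ⟨⟨Q1, List.mem_cons_of_mem _ (List.mem_cons_self), ?_⟩, by norm_num⟩
  constructor <;> norm_num [Q1]

lemma rc3 : Rw4 P.r2 (3072 : ℝ) ⟨0, 0, 0, 0, 0, -1, 0, 0, (33 / 1024 : ℝ)⟩ := by
  refine ⟨⟨Q2, List.mem_cons_of_mem _ (List.mem_cons_of_mem _ (List.mem_cons_self)), ?_⟩, by norm_num⟩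
  constructor <;> norm_num [Q2]

lemma rcell0 : ∃ N : ℝ, Rw4 P.r2 N (coCell (87579 / 65536 : ℝ) (868797 / 65536 : ℝ) ((379421 / 32768 : ℝ) + (107 / 256 : ℝ)) (175 / 4096 : ℝ) C0) := by
  refine ⟨(2415919104 : ℝ), ⟨Q3, List.mem_cons_of_mem _ (List.mem_cons_of_mem _ (List.mem_cons_of_mem _ (List.mem_cons_self))), ?_⟩, by norm_num⟩
  constructor <;> norm_num [Q3, coCell, C0]

lemma lcell0 : ∀ x1 x2 xc : ℝ, 0 ≤ x1 → x1 ≤ 1 → 0 ≤ x2 → x2 ≤ 1 → C0.l ≤ xc → xc ≤ C0.u →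
    (87579 / 65536 : ℝ) * (1 - (1 - x1) ^ 37) + (868797 / 65536 : ℝ) * (1 - (1 - x2) ^ 37) - ((379421 / 32768 : ℝ) + (107 / 256 : ℝ)) * (1 - (1 - xc) ^ 37)
      ≤ - C0.a1 * x1 - C0.a2 * x2 + C0.e * xc + C0.f := by
  have h := cell_lines 37 (α1 := (87579 / 65536 : ℝ)) (α2 := (868797 / 65536 : ℝ)) (c := (379421 / 32768 : ℝ) + (107 / 256 : ℝ)) (y1 := (1097 / 262144 : ℝ)) (y2 := (1323 / 262144 : ℝ))
    (A1 := (89163669 / 2097152 : ℝ)) (B1 := (1898135 / 134217728 : ℝ)) (A2 := (1714726363 / 4194304 : ℝ)) (B2 := (53695095 / 268435456 : ℝ)) (l := (5243 / 1048576 : ℝ)) (u := (53 / 8192 : ℝ))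
    (E := (-756888743 / 2097152 : ℝ)) (F := (-15186861 / 67108864 : ℝ)) (by norm_num) (by norm_num) (by norm_num) (by norm_num) (by norm_num)
    (by norm_num) (by norm_num) (by norm_num) (by norm_num) (by norm_num) (by norm_num) (by norm_num) (by norm_num) (by norm_num) (by norm_num)
  have e1 : C0.l = (5243 / 1048576 : ℝ) := rfl
  have e2 : C0.u = (53 / 8192 : ℝ) := rfl
  have e3 : C0.a1 = -(89163669 / 2097152 : ℝ) := by norm_num [C0]
  have e4 : C0.a2 = -(1714726363 / 4194304 : ℝ) := by norm_num [C0]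
  have e5 : C0.e = (-756888743 / 2097152 : ℝ) := rfl
  have e6 : C0.f = (1898135 / 134217728 : ℝ) + (53695095 / 268435456 : ℝ) + (-15186861 / 67108864 : ℝ) := by norm_num [C0]
  rw [e1, e2, e3, e4, e5, e6]
  exact h

lemma rcell1 : ∃ N : ℝ, Rw4 P.r2 N (coCell (87579 / 65536 : ℝ) (868797 / 65536 : ℝ) ((379421 / 32768 : ℝ) + (107 / 256 : ℝ)) (175 / 4096 : ℝ) C1) := by
  refine ⟨(2415919104 : ℝ), ⟨Q4, List.mem_cons_of_mem _ (List.mem_cons_of_mem _ (List.mem_cons_of_mem _ (List.mem_cons_of_mem _ (List.mem_cons_self)))), ?_⟩, by norm_num⟩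
  constructor <;> norm_num [Q4, coCell, C1]

lemma lcell1 : ∀ x1 x2 xc : ℝ, 0 ≤ x1 → x1 ≤ 1 → 0 ≤ x2 → x2 ≤ 1 → C1.l ≤ xc → xc ≤ C1.u →
    (87579 / 65536 : ℝ) * (1 - (1 - x1) ^ 37) + (868797 / 65536 : ℝ) * (1 - (1 - x2) ^ 37) - ((379421 / 32768 : ℝ) + (107 / 256 : ℝ)) * (1 - (1 - xc) ^ 37)
      ≤ - C1.a1 * x1 - C1.a2 * x2 + C1.e * xc + C1.f := by
  have h := cell_lines 37 (α1 := (87579 / 65536 : ℝ)) (α2 := (868797 / 65536 : ℝ)) (c := (379421 / 32768 : ℝ) + (107 / 256 : ℝ)) (y1 := (1433 / 262144 : ℝ)) (y2 := (1707 / 262144 : ℝ))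
    (A1 := (170247713 / 4194304 : ℝ)) (B1 := (6289071 / 268435456 : ℝ)) (A2 := (1626145663 / 4194304 : ℝ)) (B2 := (86423013 / 268435456 : ℝ)) (l := (53 / 8192 : ℝ)) (u := (549 / 65536 : ℝ))
    (E := (-1424042213 / 4194304 : ℝ)) (F := (-97903455 / 268435456 : ℝ)) (by norm_num) (by norm_num) (by norm_num) (by norm_num) (by norm_num)
    (by norm_num) (by norm_num) (by norm_num) (by norm_num) (by norm_num) (by norm_num) (by norm_num) (by norm_num) (by norm_num) (by norm_num)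
  have e1 : C1.l = (53 / 8192 : ℝ) := rfl
  have e2 : C1.u = (549 / 65536 : ℝ) := rfl
  have e3 : C1.a1 = -(170247713 / 4194304 : ℝ) := by norm_num [C1]
  have e4 : C1.a2 = -(1626145663 / 4194304 : ℝ) := by norm_num [C1]
  have e5 : C1.e = (-1424042213 / 4194304 : ℝ) := rfl
  have e6 : C1.f = (6289071 / 268435456 : ℝ) + (86423013 / 268435456 : ℝ) + (-97903455 / 268435456 : ℝ) := by norm_num [C1]
  rw [e1, e2, e3, e4, e5, e6]
  exact h

lemma rcell2 : ∃ N : ℝ, Rw4 P.r2 N (coCell (87579 / 65536 : ℝ) (868797 / 65536 : ℝ) ((379421 / 32768 : ℝ) + (107 / 256 : ℝ)) (175 / 4096 : ℝ) C2) := by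
  refine ⟨(603979776 : ℝ), ⟨Q5, List.mem_cons_of_mem _ (List.mem_cons_of_mem _ (List.mem_cons_of_mem _ (List.mem_cons_of_mem _ (List.mem_cons_of_mem _ (List.mem_cons_self))))), ?_⟩, by norm_num⟩
  constructor <;> norm_num [Q5, coCell, C2]

lemma lcell2 : ∀ x1 x2 xc : ℝ, 0 ≤ x1 → x1 ≤ 1 → 0 ≤ x2 → x2 ≤ 1 → C2.l ≤ xc → xc ≤ C2.u →
    (87579 / 65536 : ℝ) * (1 - (1 - x1) ^ 37) + (868797 / 65536 : ℝ) * (1 - (1 - x2) ^ 37) - ((379421 / 32768 : ℝ) + (107 / 256 : ℝ)) * (1 - (1 - xc) ^ 37)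
      ≤ - C2.a1 * x1 - C2.a2 * x2 + C2.e * xc + C2.f := by
  have h := cell_lines 37 (α1 := (87579 / 65536 : ℝ)) (α2 := (868797 / 65536 : ℝ)) (c := (379421 / 32768 : ℝ) + (107 / 256 : ℝ)) (y1 := (473 / 65536 : ℝ)) (y2 := (2195 / 262144 : ℝ))
    (A1 := (159783237 / 4194304 : ℝ)) (B1 := (5265203 / 134217728 : ℝ)) (A2 := (1519974351 / 4194304 : ℝ)) (B2 := (8557823 / 16777216 : ℝ)) (l := (549 / 65536 : ℝ)) (u := (1421 / 131072 : ℝ))
    (E := (-1315563521 / 4194304 : ℝ)) (F := (-78031221 / 134217728 : ℝ)) (by norm_num) (by norm_num) (by norm_num) (by norm_num) (by norm_num)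
    (by norm_num) (by norm_num) (by norm_num) (by norm_num) (by norm_num) (by norm_num) (by norm_num) (by norm_num) (by norm_num) (by norm_num)
  have e1 : C2.l = (549 / 65536 : ℝ) := rfl
  have e2 : C2.u = (1421 / 131072 : ℝ) := rfl
  have e3 : C2.a1 = -(159783237 / 4194304 : ℝ) := by norm_num [C2]
  have e4 : C2.a2 = -(1519974351 / 4194304 : ℝ) := by norm_num [C2]
  have e5 : C2.e = (-1315563521 / 4194304 : ℝ) := rfl
  have e6 : C2.f = (5265203 / 134217728 : ℝ) + (8557823 / 16777216 : ℝ) + (-78031221 / 134217728 : ℝ) := by norm_num [C2]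
  rw [e1, e2, e3, e4, e5, e6]
  exact h

lemma rcell3 : ∃ N : ℝ, Rw4 P.r2 N (coCell (87579 / 65536 : ℝ) (868797 / 65536 : ℝ) ((379421 / 32768 : ℝ) + (107 / 256 : ℝ)) (175 / 4096 : ℝ) C3) := by
  refine ⟨(603979776 : ℝ), ⟨Q6, List.mem_cons_of_mem _ (List.mem_cons_of_mem _ (List.mem_cons_of_mem _ (List.mem_cons_of_mem _ (List.mem_cons_of_mem _ (List.mem_cons_of_mem _ (List.mem_cons_self)))))), ?_⟩, by norm_num⟩
  constructor <;> norm_num [Q6, coCell, C3]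

lemma lcell3 : ∀ x1 x2 xc : ℝ, 0 ≤ x1 → x1 ≤ 1 → 0 ≤ x2 → x2 ≤ 1 → C3.l ≤ xc → xc ≤ C3.u →
    (87579 / 65536 : ℝ) * (1 - (1 - x1) ^ 37) + (868797 / 65536 : ℝ) * (1 - (1 - x2) ^ 37) - ((379421 / 32768 : ℝ) + (107 / 256 : ℝ)) * (1 - (1 - xc) ^ 37)
      ≤ - C3.a1 * x1 - C3.a2 * x2 + C3.e * xc + C3.f := by
  have h := cell_lines 37 (α1 := (87579 / 65536 : ℝ)) (α2 := (868797 / 65536 : ℝ)) (c := (379421 / 32768 : ℝ) + (107 / 256 : ℝ)) (y1 := (589 / 65536 : ℝ)) (y2 := (2825 / 262144 : ℝ))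
    (A1 := (37460331 / 1048576 : ℝ)) (B1 := (15679999 / 268435456 : ℝ)) (A2 := (1392832831 / 4194304 : ℝ)) (B2 := (26837277 / 33554432 : ℝ)) (l := (1421 / 131072 : ℝ)) (u := (1839 / 131072 : ℝ))
    (E := (-1187193829 / 4194304 : ℝ)) (F := (-245131451 / 268435456 : ℝ)) (by norm_num) (by norm_num) (by norm_num) (by norm_num) (by norm_num)
    (by norm_num) (by norm_num) (by norm_num) (by norm_num) (by norm_num) (by norm_num) (by norm_num) (by norm_num) (by norm_num) (by norm_num)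
  have e1 : C3.l = (1421 / 131072 : ℝ) := rfl
  have e2 : C3.u = (1839 / 131072 : ℝ) := rfl
  have e3 : C3.a1 = -(37460331 / 1048576 : ℝ) := by norm_num [C3]
  have e4 : C3.a2 = -(1392832831 / 4194304 : ℝ) := by norm_num [C3]
  have e5 : C3.e = (-1187193829 / 4194304 : ℝ) := rfl
  have e6 : C3.f = (15679999 / 268435456 : ℝ) + (26837277 / 33554432 : ℝ) + (-245131451 / 268435456 : ℝ) := by norm_num [C3]
  rw [e1, e2, e3, e4, e5, e6]
  exact h

lemma rcell4 : ∃ N : ℝ, Rw4 P.r2 N (coCell (87579 / 65536 : ℝ) (868797 / 65536 : ℝ) ((379421 / 32768 : ℝ) + (107 / 256 : ℝ)) (175 / 4096 : ℝ) C4) := by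
  refine ⟨(1207959552 : ℝ), ⟨Q7, List.mem_cons_of_mem _ (List.mem_cons_of_mem _ (List.mem_cons_of_mem _ (List.mem_cons_of_mem _ (List.mem_cons_of_mem _ (List.mem_cons_of_mem _ (List.mem_cons_of_mem _ (List.mem_cons_self))))))), ?_⟩, by norm_num⟩
  constructor <;> norm_num [Q7, coCell, C4]

lemma lcell4 : ∀ x1 x2 xc : ℝ, 0 ≤ x1 → x1 ≤ 1 → 0 ≤ x2 → x2 ≤ 1 → C4.l ≤ xc → xc ≤ C4.u →
    (87579 / 65536 : ℝ) * (1 - (1 - x1) ^ 37) + (868797 / 65536 : ℝ) * (1 - (1 - x2) ^ 37) - ((379421 / 32768 : ℝ) + (107 / 256 : ℝ)) * (1 - (1 - xc) ^ 37)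
      ≤ - C4.a1 * x1 - C4.a2 * x2 + C4.e * xc + C4.f := by
  have h := cell_lines 37 (α1 := (87579 / 65536 : ℝ)) (α2 := (868797 / 65536 : ℝ)) (c := (379421 / 32768 : ℝ) + (107 / 256 : ℝ)) (y1 := (1487 / 131072 : ℝ)) (y2 := (451 / 32768 : ℝ))
    (A1 := (137529139 / 4194304 : ℝ)) (B1 := (23677803 / 268435456 : ℝ)) (A2 := (624582387 / 2097152 : ℝ)) (B2 := (81818865 / 67108864 : ℝ)) (l := (1839 / 131072 : ℝ)) (u := (4761 / 262144 : ℝ))
    (E := (-129879841 / 524288 : ℝ)) (F := (-378167209 / 268435456 : ℝ)) (by norm_num) (by norm_num) (by norm_num) (by norm_num) (by norm_num)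
    (by norm_num) (by norm_num) (by norm_num) (by norm_num) (by norm_num) (by norm_num) (by norm_num) (by norm_num) (by norm_num) (by norm_num)
  have e1 : C4.l = (1839 / 131072 : ℝ) := rfl
  have e2 : C4.u = (4761 / 262144 : ℝ) := rfl
  have e3 : C4.a1 = -(137529139 / 4194304 : ℝ) := by norm_num [C4]
  have e4 : C4.a2 = -(624582387 / 2097152 : ℝ) := by norm_num [C4]
  have e5 : C4.e = (-129879841 / 524288 : ℝ) := rfl
  have e6 : C4.f = (23677803 / 268435456 : ℝ) + (81818865 / 67108864 : ℝ) + (-378167209 / 268435456 : ℝ) := by norm_num [C4]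
  rw [e1, e2, e3, e4, e5, e6]
  exact h

lemma rcell5 : ∃ N : ℝ, Rw4 P.r2 N (coCell (87579 / 65536 : ℝ) (868797 / 65536 : ℝ) ((379421 / 32768 : ℝ) + (107 / 256 : ℝ)) (175 / 4096 : ℝ) C5) := by
  refine ⟨(1207959552 : ℝ), ⟨Q8, List.mem_cons_of_mem _ (List.mem_cons_of_mem _ (List.mem_cons_of_mem _ (List.mem_cons_of_mem _ (List.mem_cons_of_mem _ (List.mem_cons_of_mem _ (List.mem_cons_of_mem _ (List.mem_cons_of_mem _ (List.mem_cons_self)))))))), ?_⟩, by norm_num⟩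
  constructor <;> norm_num [Q8, coCell, C5]

lemma lcell5 : ∀ x1 x2 xc : ℝ, 0 ≤ x1 → x1 ≤ 1 → 0 ≤ x2 → x2 ≤ 1 → C5.l ≤ xc → xc ≤ C5.u →
    (87579 / 65536 : ℝ) * (1 - (1 - x1) ^ 37) + (868797 / 65536 : ℝ) * (1 - (1 - x2) ^ 37) - ((379421 / 32768 : ℝ) + (107 / 256 : ℝ)) * (1 - (1 - xc) ^ 37)
      ≤ - C5.a1 * x1 - C5.a2 * x2 + C5.e * xc + C5.f := by
  have h := cell_lines 37 (α1 := (87579 / 65536 : ℝ)) (α2 := (868797 / 65536 : ℝ)) (c := (379421 / 32768 : ℝ) + (107 / 256 : ℝ)) (y1 := (467 / 32768 : ℝ)) (y2 := (2249 / 131072 : ℝ))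
    (A1 := (123696913 / 4194304 : ℝ)) (B1 := (17492785 / 134217728 : ℝ)) (A2 := (1103329873 / 4194304 : ℝ)) (B2 := (471260735 / 268435456 : ℝ)) (l := (4761 / 262144 : ℝ)) (u := (3081 / 131072 : ℝ))
    (E := (-436928839 / 2097152 : ℝ)) (F := (-570165983 / 268435456 : ℝ)) (by norm_num) (by norm_num) (by norm_num) (by norm_num) (by norm_num)
    (by norm_num) (by norm_num) (by norm_num) (by norm_num) (by norm_num) (by norm_num) (by norm_num) (by norm_num) (by norm_num) (by norm_num)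
  have e1 : C5.l = (4761 / 262144 : ℝ) := rfl
  have e2 : C5.u = (3081 / 131072 : ℝ) := rfl
  have e3 : C5.a1 = -(123696913 / 4194304 : ℝ) := by norm_num [C5]
  have e4 : C5.a2 = -(1103329873 / 4194304 : ℝ) := by norm_num [C5]
  have e5 : C5.e = (-436928839 / 2097152 : ℝ) := rfl
  have e6 : C5.f = (17492785 / 134217728 : ℝ) + (471260735 / 268435456 : ℝ) + (-570165983 / 268435456 : ℝ) := by norm_num [C5]
  rw [e1, e2, e3, e4, e5, e6]
  exact h

lemma rcell6 : ∃ N : ℝ, Rw4 P.r2 N (coCell (87579 / 65536 : ℝ) (868797 / 65536 : ℝ) ((379421 / 32768 : ℝ) + (107 / 256 : ℝ)) (175 / 4096 : ℝ) C6) := by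
  refine ⟨(603979776 : ℝ), ⟨Q9, List.mem_cons_of_mem _ (List.mem_cons_of_mem _ (List.mem_cons_of_mem _ (List.mem_cons_of_mem _ (List.mem_cons_of_mem _ (List.mem_cons_of_mem _ (List.mem_cons_of_mem _ (List.mem_cons_of_mem _ (List.mem_cons_of_mem _ (List.mem_cons_self))))))))), ?_⟩, by norm_num⟩
  constructor <;> norm_num [Q9, coCell, C6]

lemma lcell6 : ∀ x1 x2 xc : ℝ, 0 ≤ x1 → x1 ≤ 1 → 0 ≤ x2 → x2 ≤ 1 → C6.l ≤ xc → xc ≤ C6.u →
    (87579 / 65536 : ℝ) * (1 - (1 - x1) ^ 37) + (868797 / 65536 : ℝ) * (1 - (1 - x2) ^ 37) - ((379421 / 32768 : ℝ) + (107 / 256 : ℝ)) * (1 - (1 - xc) ^ 37)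
      ≤ - C6.a1 * x1 - C6.a2 * x2 + C6.e * xc + C6.f := by
  have h := cell_lines 37 (α1 := (87579 / 65536 : ℝ)) (α2 := (868797 / 65536 : ℝ)) (c := (379421 / 32768 : ℝ) + (107 / 256 : ℝ)) (y1 := (4623 / 262144 : ℝ)) (y2 := (2791 / 131072 : ℝ))
    (A1 := (109294899 / 4194304 : ℝ)) (B1 := (6206241 / 33554432 : ℝ)) (A2 := (473976481 / 2097152 : ℝ)) (B2 := (661941695 / 268435456 : ℝ)) (l := (3081 / 131072 : ℝ)) (u := (33 / 1024 : ℝ))
    (E := (-337964705 / 2097152 : ℝ)) (F := (-867928187 / 268435456 : ℝ)) (by norm_num) (by norm_num) (by norm_num) (by norm_num) (by norm_num)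
    (by norm_num) (by norm_num) (by norm_num) (by norm_num) (by norm_num) (by norm_num) (by norm_num) (by norm_num) (by norm_num) (by norm_num)
  have e1 : C6.l = (3081 / 131072 : ℝ) := rfl
  have e2 : C6.u = (33 / 1024 : ℝ) := rfl
  have e3 : C6.a1 = -(109294899 / 4194304 : ℝ) := by norm_num [C6]
  have e4 : C6.a2 = -(473976481 / 2097152 : ℝ) := by norm_num [C6]
  have e5 : C6.e = (-337964705 / 2097152 : ℝ) := rfl
  have e6 : C6.f = (6206241 / 33554432 : ℝ) + (661941695 / 268435456 : ℝ) + (-867928187 / 268435456 : ℝ) := by norm_num [C6]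
  rw [e1, e2, e3, e4, e5, e6]
  exact h

/-- The hypotheses at the origin. -/
lemma horig (lam : ℝ) (hd : (37 : ℝ) * lam ^ 2 = 1) (hb : |lam| ≤ (180758598137 / 1099511627776 : ℝ)) :
    OriginH 37 lam (87579 / 65536 : ℝ) (868797 / 65536 : ℝ) (379421 / 32768 : ℝ) (107 / 256 : ℝ) (175 / 4096 : ℝ) (45 / 512 : ℝ) (4233 / 4096 : ℝ) (1 / 256 : ℝ) 3298534883328 := by
  refine originH_of_num (d := 37) (by push_cast; exact hd) hb (by norm_num) (by norm_num) (by norm_num) (by norm_num)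
    (by norm_num) (by norm_num) (by norm_num) (by norm_num) (by norm_num) (by norm_num) (by norm_num [S]) (by norm_num) ?_ ?_
  · rw [hch]
    norm_num [abs_of_pos, abs_of_neg]
  · norm_num [abs_of_pos, abs_of_neg]

/-- Nonreconstruction at the bound. -/
theorem main : Tendsto (reconError 3 37 (-(1 / Real.sqrt 37))) atTop (𝓝 0) := by
  have hsq : Real.sqrt ((37 : ℕ) : ℝ) ^ 2 = 37 := by
    rw [Real.sq_sqrt (by positivity)]; norm_num
  have hsq' : Real.sqrt (37 : ℝ) ^ 2 = 37 := by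
    rw [Real.sq_sqrt (by positivity)]
  have hs0 : 0 < Real.sqrt (37 : ℝ) := Real.sqrt_pos.2 (by norm_num)
  have hl2 : ((37 : ℝ)) * (-(1 / Real.sqrt 37)) ^ 2 = 1 := by
    have : (-(1 / Real.sqrt (37 : ℝ))) ^ 2 = 1 / 37 := by
      rw [neg_sq, div_pow, hsq']; norm_num
    rw [this]; norm_num
  have hb : |(-(1 / Real.sqrt (37 : ℝ)))| ≤ (180758598137 / 1099511627776 : ℝ) := by
    rw [abs_neg, abs_of_pos (by positivity)]
    rw [div_le_iff₀ hs0]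
    have h1 : (1 : ℝ) ^ 2 ≤ ((180758598137 / 1099511627776 : ℝ) * Real.sqrt 37) ^ 2 := by
      rw [mul_pow, hsq']; norm_num
    exact le_of_sq_le_sq h1 (by positivity)
  have hb2 : (-(1 / 2) : ℝ) < -(1 / Real.sqrt (37 : ℝ)) := by
    have h2 := (abs_le.1 hb).1
    have h3 : ((180758598137 / 1099511627776 : ℝ) : ℝ) < 1 / 2 := by norm_num
    linarith
  have h1 : (-(1 / Real.sqrt (37 : ℝ))) < 1 := by
    have : 0 < 1 / Real.sqrt (37 : ℝ) := by positivity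
    linarith
  have hlam : |(S : ℝ) * (-(1 / Real.sqrt (37 : ℝ))) - ((P.lp : ℝ) - P.ln)| ≤ ((1 : ℕ) : ℝ) := by
    have h := lam_enc 37 11846195487495903 (by norm_num) (by norm_num [S]) (by norm_num [S])
    have e : ((37 : ℕ) : ℝ) = (37 : ℝ) := by norm_num
    rw [e] at h
    exact h
  obtain ⟨hOa, hON⟩ := horig _ hl2 hb
  refine final_of_box (d := 37) (by norm_num) hb2 h1 (box hlam) (87579 / 65536 : ℝ) (868797 / 65536 : ℝ) (379421 / 32768 : ℝ) (107 / 256 : ℝ) (45 / 512 : ℝ) (4233 / 4096 : ℝ) (5243 / 1048576 : ℝ) (25023 / 4096 : ℝ) (175 / 4096 : ℝ) (33 / 1024 : ℝ) cellsL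
    (by norm_num) (by norm_num) (by norm_num) (by norm_num) (by norm_num) (by norm_num) (by norm_num) (by norm_num) (by norm_num)
    (by norm_num) (by norm_num) (by norm_num) (by norm_num) (by norm_num) hOa hON rTa rTb rc1 rc2 rc3
    (forall_cons rcell0 (forall_cons rcell1 (forall_cons rcell2 (forall_cons rcell3 (forall_cons rcell4 (forall_cons rcell5 (forall_cons rcell6 (forall_nil)))))))) hcover (forall_cons lcell0 (forall_cons lcell1 (forall_cons lcell2 (forall_cons lcell3 (forall_cons lcell4 (forall_cons lcell5 (forall_cons lcell6 (forall_nil))))))))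

end Vale.Agent.P154H.Tm.D37
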