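import Vale.Agent.P154H.D.D38
import Vale.Agent.P154H.FinalD
import Vale.Agent.P154H.OriginW

open Filter Topology

set_option maxRecDepth 100000

/-!
Nonreconstruction at the Kesten-Stigum bound for `d = 38`, negative eigenvalue.
-/

namespace Vale.Agent.P154H.Tm.D38

open Vale.Agent.P154 Vale.Agent.P154H

/-- A chord cell. -/
noncomputable def C0 : Cell := ⟨(5243 / 1048576 : ℝ), (1689 / 262144 : ℝ), (-182587491 / 4194304 : ℝ), (-1752182471 / 4194304 : ℝ), (-48329561 / 131072 : ℝ), (-3206623 / 268435456 : ℝ)⟩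

/-- A chord cell. -/
noncomputable def C1 : Cell := ⟨(1689 / 262144 : ℝ), (1089 / 131072 : ℝ), (-174263763 / 4194304 : ℝ), (-415217817 / 1048576 : ℝ), (-1454258579 / 4194304 : ℝ), (-1264443 / 67108864 : ℝ)⟩

/-- A chord cell. -/
noncomputable def C2 : Cell := ⟨(1089 / 131072 : ℝ), (2807 / 262144 : ℝ), (-164079425 / 4194304 : ℝ), (-1551733697 / 4194304 : ℝ), (-1343199875 / 4194304 : ℝ), (-529371 / 16777216 : ℝ)⟩

/-- A chord cell. -/
noncomputable def C3 : Cell := ⟨(2807 / 262144 : ℝ), (1809 / 131072 : ℝ), (-76482403 / 2097152 : ℝ), (-1422551025 / 4194304 : ℝ), (-303078787 / 1048576 : ℝ), (-14330901 / 268435456 : ℝ)⟩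

/-- A chord cell. -/
noncomputable def C4 : Cell := ⟨(1809 / 131072 : ℝ), (583 / 32768 : ℝ), (-139843217 / 4194304 : ℝ), (-1277640239 / 4194304 : ℝ), (-530909315 / 2097152 : ℝ), (-6771333 / 67108864 : ℝ)⟩

/-- A chord cell. -/
noncomputable def C5 : Cell := ⟨(583 / 32768 : ℝ), (6011 / 262144 : ℝ), (-126998813 / 4194304 : ℝ), (-1128839677 / 4194304 : ℝ), (-223647283 / 1048576 : ℝ), (-63189115 / 268435456 : ℝ)⟩

/-- A chord cell. -/
noncomputable def C6 : Cell := ⟨(6011 / 262144 : ℝ), (1 / 32 : ℝ), (-56392073 / 2097152 : ℝ), (-972410645 / 4194304 : ℝ), (-347483245 / 2097152 : ℝ), (-154592029 / 268435456 : ℝ)⟩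

/-- The chord cells. -/
noncomputable def cellsL : List Cell := [C0, C1, C2, C3, C4, C5, C6]

lemma hcover : ∀ x : ℝ, (5243 / 1048576 : ℝ) ≤ x → x ≤ (1 / 32 : ℝ) → ∃ D ∈ cellsL, D.l ≤ x ∧ x ≤ D.u := by
  refine cover_of_chain ?_ (by norm_num [C0])
  simp only [ChainP, C0, C1, C2, C3, C4, C5, C6]
  norm_num

lemma hch : ((Nat.choose 38 2 : ℕ) : ℝ) = 703 := by norm_num [Nat.choose]

lemma rTa : Rw4 P.r1 (1179648 : ℝ) (coTa 38 (87579 / 65536 : ℝ) (868797 / 65536 : ℝ) (379421 / 32768 : ℝ) (107 / 256 : ℝ) (187 / 4096 : ℝ)) := by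
  refine ⟨⟨Ra, List.mem_cons_self, ?_⟩, by norm_num⟩
  constructor <;> norm_num [Ra, coTa, hch]

lemma rTb : Rw4 P.r1 (9895604649984 : ℝ) (coTb 38 (87579 / 65536 : ℝ) (868797 / 65536 : ℝ) (379421 / 32768 : ℝ) (107 / 256 : ℝ) (187 / 4096 : ℝ) (45 / 512 : ℝ) (4233 / 4096 : ℝ) (26349 / 4096 : ℝ)) := by
  refine ⟨⟨Rb, List.mem_cons_of_mem _ (List.mem_cons_self), ?_⟩, by norm_num⟩
  constructor <;> norm_num [Rb, coTb, hch]

lemma rc1 : Rw4 P.r2 (16777216 : ℝ) ⟨0, 0, 0, -(87579 / 65536 : ℝ), 0, 0, 0, 0, (379421 / 32768 : ℝ) * (45 / 512 : ℝ)⟩ := by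
  refine ⟨⟨Q0, List.mem_cons_self, ?_⟩, by norm_num⟩
  constructor <;> norm_num [Q0]

lemma rc2 : Rw4 P.r2 (134217728 : ℝ) ⟨0, 0, 0, 0, -(868797 / 65536 : ℝ), 0, 0, 0, (379421 / 32768 : ℝ) * (4233 / 4096 : ℝ)⟩ := by
  refine ⟨⟨Q1, List.mem_cons_of_mem _ (List.mem_cons_self), ?_⟩, by norm_num⟩
  constructor <;> norm_num [Q1]

lemma rc3 : Rw4 P.r2 (96 : ℝ) ⟨0, 0, 0, 0, 0, -1, 0, 0, (1 / 32 : ℝ)⟩ := by
  refine ⟨⟨Q2, List.mem_cons_of_mem _ (List.mem_cons_of_mem _ (List.mem_cons_self)), ?_⟩, by norm_num⟩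
  constructor <;> norm_num [Q2]

lemma rcell0 : ∃ N : ℝ, Rw4 P.r2 N (coCell (87579 / 65536 : ℝ) (868797 / 65536 : ℝ) ((379421 / 32768 : ℝ) + (107 / 256 : ℝ)) (187 / 4096 : ℝ) C0) := by
  refine ⟨(2415919104 : ℝ), ⟨Q3, List.mem_cons_of_mem _ (List.mem_cons_of_mem _ (List.mem_cons_of_mem _ (List.mem_cons_self))), ?_⟩, by norm_num⟩
  constructor <;> norm_num [Q3, coCell, C0]

lemma lcell0 : ∀ x1 x2 xc : ℝ, 0 ≤ x1 → x1 ≤ 1 → 0 ≤ x2 → x2 ≤ 1 → C0.l ≤ xc → xc ≤ C0.u →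
    (87579 / 65536 : ℝ) * (1 - (1 - x1) ^ 38) + (868797 / 65536 : ℝ) * (1 - (1 - x2) ^ 38) - ((379421 / 32768 : ℝ) + (107 / 256 : ℝ)) * (1 - (1 - xc) ^ 38)
      ≤ - C0.a1 * x1 - C0.a2 * x2 + C0.e * xc + C0.f := by
  have h := cell_lines 38 (α1 := (87579 / 65536 : ℝ)) (α2 := (868797 / 65536 : ℝ)) (c := (379421 / 32768 : ℝ) + (107 / 256 : ℝ)) (y1 := (1089 / 262144 : ℝ)) (y2 := (1323 / 262144 : ℝ))
    (A1 := (182587491 / 4194304 : ℝ)) (B1 := (3940917 / 268435456 : ℝ)) (A2 := (1752182471 / 4194304 : ℝ)) (B2 := (7061287 / 33554432 : ℝ)) (l := (5243 / 1048576 : ℝ)) (u := (1689 / 262144 : ℝ))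
    (E := (-48329561 / 131072 : ℝ)) (F := (-15909459 / 67108864 : ℝ)) (by norm_num) (by norm_num) (by norm_num) (by norm_num) (by norm_num)
    (by norm_num) (by norm_num) (by norm_num) (by norm_num) (by norm_num) (by norm_num) (by norm_num) (by norm_num) (by norm_num) (by norm_num)
  have e1 : C0.l = (5243 / 1048576 : ℝ) := rfl
  have e2 : C0.u = (1689 / 262144 : ℝ) := rfl
  have e3 : C0.a1 = -(182587491 / 4194304 : ℝ) := by norm_num [C0]
  have e4 : C0.a2 = -(1752182471 / 4194304 : ℝ) := by norm_num [C0]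
  have e5 : C0.e = (-48329561 / 131072 : ℝ) := rfl
  have e6 : C0.f = (3940917 / 268435456 : ℝ) + (7061287 / 33554432 : ℝ) + (-15909459 / 67108864 : ℝ) := by norm_num [C0]
  rw [e1, e2, e3, e4, e5, e6]
  exact h

lemma rcell1 : ∃ N : ℝ, Rw4 P.r2 N (coCell (87579 / 65536 : ℝ) (868797 / 65536 : ℝ) ((379421 / 32768 : ℝ) + (107 / 256 : ℝ)) (187 / 4096 : ℝ) C1) := by
  refine ⟨(603979776 : ℝ), ⟨Q4, List.mem_cons_of_mem _ (List.mem_cons_of_mem _ (List.mem_cons_of_mem _ (List.mem_cons_of_mem _ (List.mem_cons_self)))), ?_⟩, by norm_num⟩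
  constructor <;> norm_num [Q4, coCell, C1]

lemma lcell1 : ∀ x1 x2 xc : ℝ, 0 ≤ x1 → x1 ≤ 1 → 0 ≤ x2 → x2 ≤ 1 → C1.l ≤ xc → xc ≤ C1.u →
    (87579 / 65536 : ℝ) * (1 - (1 - x1) ^ 38) + (868797 / 65536 : ℝ) * (1 - (1 - x2) ^ 38) - ((379421 / 32768 : ℝ) + (107 / 256 : ℝ)) * (1 - (1 - xc) ^ 38)
      ≤ - C1.a1 * x1 - C1.a2 * x2 + C1.e * xc + C1.f := by
  have h := cell_lines 38 (α1 := (87579 / 65536 : ℝ)) (α2 := (868797 / 65536 : ℝ)) (c := (379421 / 32768 : ℝ) + (107 / 256 : ℝ)) (y1 := (709 / 131072 : ℝ)) (y2 := (425 / 65536 : ℝ))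
    (A1 := (174263763 / 4194304 : ℝ)) (B1 := (6485719 / 268435456 : ℝ)) (A2 := (415217817 / 1048576 : ℝ)) (B2 := (11268671 / 33554432 : ℝ)) (l := (1689 / 262144 : ℝ)) (u := (1089 / 131072 : ℝ))
    (E := (-1454258579 / 4194304 : ℝ)) (F := (-101692859 / 268435456 : ℝ)) (by norm_num) (by norm_num) (by norm_num) (by norm_num) (by norm_num)
    (by norm_num) (by norm_num) (by norm_num) (by norm_num) (by norm_num) (by norm_num) (by norm_num) (by norm_num) (by norm_num) (by norm_num)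
  have e1 : C1.l = (1689 / 262144 : ℝ) := rfl
  have e2 : C1.u = (1089 / 131072 : ℝ) := rfl
  have e3 : C1.a1 = -(174263763 / 4194304 : ℝ) := by norm_num [C1]
  have e4 : C1.a2 = -(415217817 / 1048576 : ℝ) := by norm_num [C1]
  have e5 : C1.e = (-1454258579 / 4194304 : ℝ) := rfl
  have e6 : C1.f = (6485719 / 268435456 : ℝ) + (11268671 / 33554432 : ℝ) + (-101692859 / 268435456 : ℝ) := by norm_num [C1]
  rw [e1, e2, e3, e4, e5, e6]
  exact h

lemma rcell2 : ∃ N : ℝ, Rw4 P.r2 N (coCell (87579 / 65536 : ℝ) (868797 / 65536 : ℝ) ((379421 / 32768 : ℝ) + (107 / 256 : ℝ)) (187 / 4096 : ℝ) C2) := by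
  refine ⟨(150994944 : ℝ), ⟨Q5, List.mem_cons_of_mem _ (List.mem_cons_of_mem _ (List.mem_cons_of_mem _ (List.mem_cons_of_mem _ (List.mem_cons_of_mem _ (List.mem_cons_self))))), ?_⟩, by norm_num⟩
  constructor <;> norm_num [Q5, coCell, C2]

lemma lcell2 : ∀ x1 x2 xc : ℝ, 0 ≤ x1 → x1 ≤ 1 → 0 ≤ x2 → x2 ≤ 1 → C2.l ≤ xc → xc ≤ C2.u →
    (87579 / 65536 : ℝ) * (1 - (1 - x1) ^ 38) + (868797 / 65536 : ℝ) * (1 - (1 - x2) ^ 38) - ((379421 / 32768 : ℝ) + (107 / 256 : ℝ)) * (1 - (1 - xc) ^ 38)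
      ≤ - C2.a1 * x1 - C2.a2 * x2 + C2.e * xc + C2.f := by
  have h := cell_lines 38 (α1 := (87579 / 65536 : ℝ)) (α2 := (868797 / 65536 : ℝ)) (c := (379421 / 32768 : ℝ) + (107 / 256 : ℝ)) (y1 := (921 / 131072 : ℝ)) (y2 := (1089 / 131072 : ℝ))
    (A1 := (164079425 / 4194304 : ℝ)) (B1 := (1316675 / 33554432 : ℝ)) (A2 := (1551733697 / 4194304 : ℝ)) (B2 := (141743687 / 268435456 : ℝ)) (l := (1089 / 131072 : ℝ)) (u := (2807 / 262144 : ℝ))
    (E := (-1343199875 / 4194304 : ℝ)) (F := (-160747023 / 268435456 : ℝ)) (by norm_num) (by norm_num) (by norm_num) (by norm_num) (by norm_num)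
    (by norm_num) (by norm_num) (by norm_num) (by norm_num) (by norm_num) (by norm_num) (by norm_num) (by norm_num) (by norm_num) (by norm_num)
  have e1 : C2.l = (1089 / 131072 : ℝ) := rfl
  have e2 : C2.u = (2807 / 262144 : ℝ) := rfl
  have e3 : C2.a1 = -(164079425 / 4194304 : ℝ) := by norm_num [C2]
  have e4 : C2.a2 = -(1551733697 / 4194304 : ℝ) := by norm_num [C2]
  have e5 : C2.e = (-1343199875 / 4194304 : ℝ) := rfl
  have e6 : C2.f = (1316675 / 33554432 : ℝ) + (141743687 / 268435456 : ℝ) + (-160747023 / 268435456 : ℝ) := by norm_num [C2]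
  rw [e1, e2, e3, e4, e5, e6]
  exact h

lemma rcell3 : ∃ N : ℝ, Rw4 P.r2 N (coCell (87579 / 65536 : ℝ) (868797 / 65536 : ℝ) ((379421 / 32768 : ℝ) + (107 / 256 : ℝ)) (187 / 4096 : ℝ) C3) := by
  refine ⟨(2415919104 : ℝ), ⟨Q6, List.mem_cons_of_mem _ (List.mem_cons_of_mem _ (List.mem_cons_of_mem _ (List.mem_cons_of_mem _ (List.mem_cons_of_mem _ (List.mem_cons_of_mem _ (List.mem_cons_self)))))), ?_⟩, by norm_num⟩
  constructor <;> norm_num [Q6, coCell, C3]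

lemma lcell3 : ∀ x1 x2 xc : ℝ, 0 ≤ x1 → x1 ≤ 1 → 0 ≤ x2 → x2 ≤ 1 → C3.l ≤ xc → xc ≤ C3.u →
    (87579 / 65536 : ℝ) * (1 - (1 - x1) ^ 38) + (868797 / 65536 : ℝ) * (1 - (1 - x2) ^ 38) - ((379421 / 32768 : ℝ) + (107 / 256 : ℝ)) * (1 - (1 - xc) ^ 38)
      ≤ - C3.a1 * x1 - C3.a2 * x2 + C3.e * xc + C3.f := by
  have h := cell_lines 38 (α1 := (87579 / 65536 : ℝ)) (α2 := (868797 / 65536 : ℝ)) (c := (379421 / 32768 : ℝ) + (107 / 256 : ℝ)) (y1 := (2335 / 262144 : ℝ)) (y2 := (697 / 65536 : ℝ))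
    (A1 := (76482403 / 2097152 : ℝ)) (B1 := (2024125 / 33554432 : ℝ)) (A2 := (1422551025 / 4194304 : ℝ)) (B2 := (3436231 / 4194304 : ℝ)) (l := (2807 / 262144 : ℝ)) (u := (1809 / 131072 : ℝ))
    (E := (-303078787 / 1048576 : ℝ)) (F := (-250442685 / 268435456 : ℝ)) (by norm_num) (by norm_num) (by norm_num) (by norm_num) (by norm_num)
    (by norm_num) (by norm_num) (by norm_num) (by norm_num) (by norm_num) (by norm_num) (by norm_num) (by norm_num) (by norm_num) (by norm_num)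
  have e1 : C3.l = (2807 / 262144 : ℝ) := rfl
  have e2 : C3.u = (1809 / 131072 : ℝ) := rfl
  have e3 : C3.a1 = -(76482403 / 2097152 : ℝ) := by norm_num [C3]
  have e4 : C3.a2 = -(1422551025 / 4194304 : ℝ) := by norm_num [C3]
  have e5 : C3.e = (-303078787 / 1048576 : ℝ) := rfl
  have e6 : C3.f = (2024125 / 33554432 : ℝ) + (3436231 / 4194304 : ℝ) + (-250442685 / 268435456 : ℝ) := by norm_num [C3]
  rw [e1, e2, e3, e4, e5, e6]
  exact h

lemma rcell4 : ∃ N : ℝ, Rw4 P.r2 N (coCell (87579 / 65536 : ℝ) (868797 / 65536 : ℝ) ((379421 / 32768 : ℝ) + (107 / 256 : ℝ)) (187 / 4096 : ℝ) C4) := by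
  refine ⟨(603979776 : ℝ), ⟨Q7, List.mem_cons_of_mem _ (List.mem_cons_of_mem _ (List.mem_cons_of_mem _ (List.mem_cons_of_mem _ (List.mem_cons_of_mem _ (List.mem_cons_of_mem _ (List.mem_cons_of_mem _ (List.mem_cons_self))))))), ?_⟩, by norm_num⟩
  constructor <;> norm_num [Q7, coCell, C4]

lemma lcell4 : ∀ x1 x2 xc : ℝ, 0 ≤ x1 → x1 ≤ 1 → 0 ≤ x2 → x2 ≤ 1 → C4.l ≤ xc → xc ≤ C4.u →
    (87579 / 65536 : ℝ) * (1 - (1 - x1) ^ 38) + (868797 / 65536 : ℝ) * (1 - (1 - x2) ^ 38) - ((379421 / 32768 : ℝ) + (107 / 256 : ℝ)) * (1 - (1 - xc) ^ 38)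
      ≤ - C4.a1 * x1 - C4.a2 * x2 + C4.e * xc + C4.f := by
  have h := cell_lines 38 (α1 := (87579 / 65536 : ℝ)) (α2 := (868797 / 65536 : ℝ)) (c := (379421 / 32768 : ℝ) + (107 / 256 : ℝ)) (y1 := (741 / 65536 : ℝ)) (y2 := (885 / 65536 : ℝ))
    (A1 := (139843217 / 4194304 : ℝ)) (B1 := (24666057 / 268435456 : ℝ)) (A2 := (1277640239 / 4194304 : ℝ)) (B2 := (82906247 / 67108864 : ℝ)) (l := (1809 / 131072 : ℝ)) (u := (583 / 32768 : ℝ))
    (E := (-530909315 / 2097152 : ℝ)) (F := (-383376377 / 268435456 : ℝ)) (by norm_num) (by norm_num) (by norm_num) (by norm_num) (by norm_num)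
    (by norm_num) (by norm_num) (by norm_num) (by norm_num) (by norm_num) (by norm_num) (by norm_num) (by norm_num) (by norm_num) (by norm_num)
  have e1 : C4.l = (1809 / 131072 : ℝ) := rfl
  have e2 : C4.u = (583 / 32768 : ℝ) := rfl
  have e3 : C4.a1 = -(139843217 / 4194304 : ℝ) := by norm_num [C4]
  have e4 : C4.a2 = -(1277640239 / 4194304 : ℝ) := by norm_num [C4]
  have e5 : C4.e = (-530909315 / 2097152 : ℝ) := rfl
  have e6 : C4.f = (24666057 / 268435456 : ℝ) + (82906247 / 67108864 : ℝ) + (-383376377 / 268435456 : ℝ) := by norm_num [C4]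
  rw [e1, e2, e3, e4, e5, e6]
  exact h

lemma rcell5 : ∃ N : ℝ, Rw4 P.r2 N (coCell (87579 / 65536 : ℝ) (868797 / 65536 : ℝ) ((379421 / 32768 : ℝ) + (107 / 256 : ℝ)) (187 / 4096 : ℝ) C5) := by
  refine ⟨(2415919104 : ℝ), ⟨Q8, List.mem_cons_of_mem _ (List.mem_cons_of_mem _ (List.mem_cons_of_mem _ (List.mem_cons_of_mem _ (List.mem_cons_of_mem _ (List.mem_cons_of_mem _ (List.mem_cons_of_mem _ (List.mem_cons_of_mem _ (List.mem_cons_self)))))))), ?_⟩, by norm_num⟩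
  constructor <;> norm_num [Q8, coCell, C5]

lemma lcell5 : ∀ x1 x2 xc : ℝ, 0 ≤ x1 → x1 ≤ 1 → 0 ≤ x2 → x2 ≤ 1 → C5.l ≤ xc → xc ≤ C5.u →
    (87579 / 65536 : ℝ) * (1 - (1 - x1) ^ 38) + (868797 / 65536 : ℝ) * (1 - (1 - x2) ^ 38) - ((379421 / 32768 : ℝ) + (107 / 256 : ℝ)) * (1 - (1 - xc) ^ 38)
      ≤ - C5.a1 * x1 - C5.a2 * x2 + C5.e * xc + C5.f := by
  have h := cell_lines 38 (α1 := (87579 / 65536 : ℝ)) (α2 := (868797 / 65536 : ℝ)) (c := (379421 / 32768 : ℝ) + (107 / 256 : ℝ)) (y1 := (1819 / 131072 : ℝ)) (y2 := (1101 / 65536 : ℝ))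
    (A1 := (126998813 / 4194304 : ℝ)) (B1 := (8750247 / 67108864 : ℝ)) (A2 := (1128839677 / 4194304 : ℝ)) (B2 := (59450725 / 33554432 : ℝ)) (l := (583 / 32768 : ℝ)) (u := (6011 / 262144 : ℝ))
    (E := (-223647283 / 1048576 : ℝ)) (F := (-573795903 / 268435456 : ℝ)) (by norm_num) (by norm_num) (by norm_num) (by norm_num) (by norm_num)
    (by norm_num) (by norm_num) (by norm_num) (by norm_num) (by norm_num) (by norm_num) (by norm_num) (by norm_num) (by norm_num) (by norm_num)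
  have e1 : C5.l = (583 / 32768 : ℝ) := rfl
  have e2 : C5.u = (6011 / 262144 : ℝ) := rfl
  have e3 : C5.a1 = -(126998813 / 4194304 : ℝ) := by norm_num [C5]
  have e4 : C5.a2 = -(1128839677 / 4194304 : ℝ) := by norm_num [C5]
  have e5 : C5.e = (-223647283 / 1048576 : ℝ) := rfl
  have e6 : C5.f = (8750247 / 67108864 : ℝ) + (59450725 / 33554432 : ℝ) + (-573795903 / 268435456 : ℝ) := by norm_num [C5]
  rw [e1, e2, e3, e4, e5, e6]
  exact h

lemma rcell6 : ∃ N : ℝ, Rw4 P.r2 N (coCell (87579 / 65536 : ℝ) (868797 / 65536 : ℝ) ((379421 / 32768 : ℝ) + (107 / 256 : ℝ)) (187 / 4096 : ℝ) C6) := by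
  refine ⟨(2415919104 : ℝ), ⟨Q9, List.mem_cons_of_mem _ (List.mem_cons_of_mem _ (List.mem_cons_of_mem _ (List.mem_cons_of_mem _ (List.mem_cons_of_mem _ (List.mem_cons_of_mem _ (List.mem_cons_of_mem _ (List.mem_cons_of_mem _ (List.mem_cons_of_mem _ (List.mem_cons_self))))))))), ?_⟩, by norm_num⟩
  constructor <;> norm_num [Q9, coCell, C6]

lemma lcell6 : ∀ x1 x2 xc : ℝ, 0 ≤ x1 → x1 ≤ 1 → 0 ≤ x2 → x2 ≤ 1 → C6.l ≤ xc → xc ≤ C6.u →
    (87579 / 65536 : ℝ) * (1 - (1 - x1) ^ 38) + (868797 / 65536 : ℝ) * (1 - (1 - x2) ^ 38) - ((379421 / 32768 : ℝ) + (107 / 256 : ℝ)) * (1 - (1 - xc) ^ 38)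
      ≤ - C6.a1 * x1 - C6.a2 * x2 + C6.e * xc + C6.f := by
  have h := cell_lines 38 (α1 := (87579 / 65536 : ℝ)) (α2 := (868797 / 65536 : ℝ)) (c := (379421 / 32768 : ℝ) + (107 / 256 : ℝ)) (y1 := (2233 / 131072 : ℝ)) (y2 := (5441 / 262144 : ℝ))
    (A1 := (56392073 / 2097152 : ℝ)) (B1 := (49035309 / 268435456 : ℝ)) (A2 := (972410645 / 4194304 : ℝ)) (B2 := (2590315 / 1048576 : ℝ)) (l := (6011 / 262144 : ℝ)) (u := (1 / 32 : ℝ))
    (E := (-347483245 / 2097152 : ℝ)) (F := (-433373989 / 134217728 : ℝ)) (by norm_num) (by norm_num) (by norm_num) (by norm_num) (by norm_num)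
    (by norm_num) (by norm_num) (by norm_num) (by norm_num) (by norm_num) (by norm_num) (by norm_num) (by norm_num) (by norm_num) (by norm_num)
  have e1 : C6.l = (6011 / 262144 : ℝ) := rfl
  have e2 : C6.u = (1 / 32 : ℝ) := rfl
  have e3 : C6.a1 = -(56392073 / 2097152 : ℝ) := by norm_num [C6]
  have e4 : C6.a2 = -(972410645 / 4194304 : ℝ) := by norm_num [C6]
  have e5 : C6.e = (-347483245 / 2097152 : ℝ) := rfl
  have e6 : C6.f = (49035309 / 268435456 : ℝ) + (2590315 / 1048576 : ℝ) + (-433373989 / 134217728 : ℝ) := by norm_num [C6]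
  rw [e1, e2, e3, e4, e5, e6]
  exact h

/-- The hypotheses at the origin. -/
lemma horig (lam : ℝ) (hd : (38 : ℝ) * lam ^ 2 = 1) (hb : |lam| ≤ (22295542351 / 137438953472 : ℝ)) :
    OriginH 38 lam (87579 / 65536 : ℝ) (868797 / 65536 : ℝ) (379421 / 32768 : ℝ) (107 / 256 : ℝ) (187 / 4096 : ℝ) (45 / 512 : ℝ) (4233 / 4096 : ℝ) (1 / 256 : ℝ) 3298534883328 := by
  refine originH_of_num (d := 38) (by push_cast; exact hd) hb (by norm_num) (by norm_num) (by norm_num) (by norm_num)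
    (by norm_num) (by norm_num) (by norm_num) (by norm_num) (by norm_num) (by norm_num) (by norm_num [S]) (by norm_num) ?_ ?_
  · rw [hch]
    norm_num [abs_of_pos, abs_of_neg]
  · norm_num [abs_of_pos, abs_of_neg]

/-- Nonreconstruction at the bound. -/
theorem main : Tendsto (reconError 3 38 (-(1 / Real.sqrt 38))) atTop (𝓝 0) := by
  have hsq : Real.sqrt ((38 : ℕ) : ℝ) ^ 2 = 38 := by
    rw [Real.sq_sqrt (by positivity)]; norm_num
  have hsq' : Real.sqrt (38 : ℝ) ^ 2 = 38 := by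
    rw [Real.sq_sqrt (by positivity)]
  have hs0 : 0 < Real.sqrt (38 : ℝ) := Real.sqrt_pos.2 (by norm_num)
  have hl2 : ((38 : ℝ)) * (-(1 / Real.sqrt 38)) ^ 2 = 1 := by
    have : (-(1 / Real.sqrt (38 : ℝ))) ^ 2 = 1 / 38 := by
      rw [neg_sq, div_pow, hsq']; norm_num
    rw [this]; norm_num
  have hb : |(-(1 / Real.sqrt (38 : ℝ)))| ≤ (22295542351 / 137438953472 : ℝ) := by
    rw [abs_neg, abs_of_pos (by positivity)]
    rw [div_le_iff₀ hs0]
    have h1 : (1 : ℝ) ^ 2 ≤ ((22295542351 / 137438953472 : ℝ) * Real.sqrt 38) ^ 2 := by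
      rw [mul_pow, hsq']; norm_num
    exact le_of_sq_le_sq h1 (by positivity)
  have hb2 : (-(1 / 2) : ℝ) < -(1 / Real.sqrt (38 : ℝ)) := by
    have h2 := (abs_le.1 hb).1
    have h3 : ((22295542351 / 137438953472 : ℝ) : ℝ) < 1 / 2 := by norm_num
    linarith
  have h1 : (-(1 / Real.sqrt (38 : ℝ))) < 1 := by
    have : 0 < 1 / Real.sqrt (38 : ℝ) := by positivity
    linarith
  have hlam : |(S : ℝ) * (-(1 / Real.sqrt (38 : ℝ))) - ((P.lp : ℝ) - P.ln)| ≤ ((1 : ℕ) : ℝ) := by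
    have h := lam_enc 38 11689285308096231 (by norm_num) (by norm_num [S]) (by norm_num [S])
    have e : ((38 : ℕ) : ℝ) = (38 : ℝ) := by norm_num
    rw [e] at h
    exact h
  obtain ⟨hOa, hON⟩ := horig _ hl2 hb
  refine final_of_box (d := 38) (by norm_num) hb2 h1 (box hlam) (87579 / 65536 : ℝ) (868797 / 65536 : ℝ) (379421 / 32768 : ℝ) (107 / 256 : ℝ) (45 / 512 : ℝ) (4233 / 4096 : ℝ) (5243 / 1048576 : ℝ) (26349 / 4096 : ℝ) (187 / 4096 : ℝ) (1 / 32 : ℝ) cellsL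
    (by norm_num) (by norm_num) (by norm_num) (by norm_num) (by norm_num) (by norm_num) (by norm_num) (by norm_num) (by norm_num)
    (by norm_num) (by norm_num) (by norm_num) (by norm_num) (by norm_num) hOa hON rTa rTb rc1 rc2 rc3
    (forall_cons rcell0 (forall_cons rcell1 (forall_cons rcell2 (forall_cons rcell3 (forall_cons rcell4 (forall_cons rcell5 (forall_cons rcell6 (forall_nil)))))))) hcover (forall_cons lcell0 (forall_cons lcell1 (forall_cons lcell2 (forall_cons lcell3 (forall_cons lcell4 (forall_cons lcell5 (forall_cons lcell6 (forall_nil))))))))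

end Vale.Agent.P154H.Tm.D38
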