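import Vale.Agent.P154H.D.D40
import Vale.Agent.P154H.FinalD
import Vale.Agent.P154H.OriginW

open Filter Topology

set_option maxRecDepth 100000

/-!
Nonreconstruction at the Kesten-Stigum bound for `d = 40`, negative eigenvalue.
-/

namespace Vale.Agent.P154H.Tm.D40

open Vale.Agent.P154 Vale.Agent.P154H

/-- A chord cell. -/
noncomputable def C0 : Cell := ⟨(5243 / 1048576 : ℝ), (873 / 131072 : ℝ), (-94932435 / 2097152 : ℝ), (-1819563967 / 4194304 : ℝ), (-801303755 / 2097152 : ℝ), (-3397373 / 268435456 : ℝ)⟩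

/-- A chord cell. -/
noncomputable def C1 : Cell := ⟨(873 / 131072 : ℝ), (2327 / 262144 : ℝ), (-179673587 / 4194304 : ℝ), (-426602169 / 1048576 : ℝ), (-1485356653 / 4194304 : ℝ), (-1775099 / 67108864 : ℝ)⟩

/-- A chord cell. -/
noncomputable def C2 : Cell := ⟨(2327 / 262144 : ℝ), (775 / 65536 : ℝ), (-20838835 / 524288 : ℝ), (-782250939 / 2097152 : ℝ), (-671062803 / 2097152 : ℝ), (-2902593 / 67108864 : ℝ)⟩

/-- A chord cell. -/
noncomputable def C3 : Cell := ⟨(775 / 65536 : ℝ), (2065 / 131072 : ℝ), (-152951021 / 4194304 : ℝ), (-1395157061 / 4194304 : ℝ), (-73265887 / 262144 : ℝ), (-2472125 / 33554432 : ℝ)⟩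

/-- A chord cell. -/
noncomputable def C4 : Cell := ⟨(2065 / 131072 : ℝ), (2751 / 131072 : ℝ), (-136095589 / 4194304 : ℝ), (-1216594707 / 4194304 : ℝ), (-978344061 / 4194304 : ℝ), (-24006103 / 134217728 : ℝ)⟩

/-- A chord cell. -/
noncomputable def C5 : Cell := ⟨(2751 / 131072 : ℝ), (15 / 512 : ℝ), (-59718713 / 2097152 : ℝ), (-1040303309 / 4194304 : ℝ), (-187231591 / 1048576 : ℝ), (-2281573 / 4194304 : ℝ)⟩

/-- The chord cells. -/
noncomputable def cellsL : List Cell := [C0, C1, C2, C3, C4, C5]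

lemma hcover : ∀ x : ℝ, (5243 / 1048576 : ℝ) ≤ x → x ≤ (15 / 512 : ℝ) → ∃ D ∈ cellsL, D.l ≤ x ∧ x ≤ D.u := by
  refine cover_of_chain ?_ (by norm_num [C0])
  simp only [ChainP, C0, C1, C2, C3, C4, C5]
  norm_num

lemma hch : ((Nat.choose 40 2 : ℕ) : ℝ) = 780 := by norm_num [Nat.choose]

lemma rTa : Rw4 P.r1 (1179648 : ℝ) (coTa 40 (87579 / 65536 : ℝ) (868797 / 65536 : ℝ) (379421 / 32768 : ℝ) (107 / 256 : ℝ) (77 / 2048 : ℝ)) := by
  refine ⟨⟨Ra, List.mem_cons_self, ?_⟩, by norm_num⟩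
  constructor <;> norm_num [Ra, coTa, hch]

lemma rTb : Rw4 P.r1 (19791209299968 : ℝ) (coTb 40 (87579 / 65536 : ℝ) (868797 / 65536 : ℝ) (379421 / 32768 : ℝ) (107 / 256 : ℝ) (77 / 2048 : ℝ) (45 / 512 : ℝ) (4233 / 4096 : ℝ) (58187 / 8192 : ℝ)) := by
  refine ⟨⟨Rb, List.mem_cons_of_mem _ (List.mem_cons_self), ?_⟩, by norm_num⟩
  constructor <;> norm_num [Rb, coTb, hch]

lemma rc1 : Rw4 P.r2 (16777216 : ℝ) ⟨0, 0, 0, -(87579 / 65536 : ℝ), 0, 0, 0, 0, (379421 / 32768 : ℝ) * (45 / 512 : ℝ)⟩ := by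
  refine ⟨⟨Q0, List.mem_cons_self, ?_⟩, by norm_num⟩
  constructor <;> norm_num [Q0]

lemma rc2 : Rw4 P.r2 (134217728 : ℝ) ⟨0, 0, 0, 0, -(868797 / 65536 : ℝ), 0, 0, 0, (379421 / 32768 : ℝ) * (4233 / 4096 : ℝ)⟩ := by
  refine ⟨⟨Q1, List.mem_cons_of_mem _ (List.mem_cons_self), ?_⟩, by norm_num⟩
  constructor <;> norm_num [Q1]

lemma rc3 : Rw4 P.r2 (1536 : ℝ) ⟨0, 0, 0, 0, 0, -1, 0, 0, (15 / 512 : ℝ)⟩ := by
  refine ⟨⟨Q2, List.mem_cons_of_mem _ (List.mem_cons_of_mem _ (List.mem_cons_self)), ?_⟩, by norm_num⟩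
  constructor <;> norm_num [Q2]

lemma rcell0 : ∃ N : ℝ, Rw4 P.r2 N (coCell (87579 / 65536 : ℝ) (868797 / 65536 : ℝ) ((379421 / 32768 : ℝ) + (107 / 256 : ℝ)) (77 / 2048 : ℝ) C0) := by
  refine ⟨(2415919104 : ℝ), ⟨Q3, List.mem_cons_of_mem _ (List.mem_cons_of_mem _ (List.mem_cons_of_mem _ (List.mem_cons_self))), ?_⟩, by norm_num⟩
  constructor <;> norm_num [Q3, coCell, C0]

lemma lcell0 : ∀ x1 x2 xc : ℝ, 0 ≤ x1 → x1 ≤ 1 → 0 ≤ x2 → x2 ≤ 1 → C0.l ≤ xc → xc ≤ C0.u →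
    (87579 / 65536 : ℝ) * (1 - (1 - x1) ^ 40) + (868797 / 65536 : ℝ) * (1 - (1 - x2) ^ 40) - ((379421 / 32768 : ℝ) + (107 / 256 : ℝ)) * (1 - (1 - xc) ^ 40)
      ≤ - C0.a1 * x1 - C0.a2 * x2 + C0.e * xc + C0.f := by
  have h := cell_lines 40 (α1 := (87579 / 65536 : ℝ)) (α2 := (868797 / 65536 : ℝ)) (c := (379421 / 32768 : ℝ) + (107 / 256 : ℝ)) (y1 := (1115 / 262144 : ℝ)) (y2 := (673 / 131072 : ℝ))
    (A1 := (94932435 / 2097152 : ℝ)) (B1 := (568437 / 33554432 : ℝ)) (A2 := (1819563967 / 4194304 : ℝ)) (B2 := (8038203 / 33554432 : ℝ)) (l := (5243 / 1048576 : ℝ)) (u := (873 / 131072 : ℝ))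
    (E := (-801303755 / 2097152 : ℝ)) (F := (-72250493 / 268435456 : ℝ)) (by norm_num) (by norm_num) (by norm_num) (by norm_num) (by norm_num)
    (by norm_num) (by norm_num) (by norm_num) (by norm_num) (by norm_num) (by norm_num) (by norm_num) (by norm_num) (by norm_num) (by norm_num)
  have e1 : C0.l = (5243 / 1048576 : ℝ) := rfl
  have e2 : C0.u = (873 / 131072 : ℝ) := rfl
  have e3 : C0.a1 = -(94932435 / 2097152 : ℝ) := by norm_num [C0]
  have e4 : C0.a2 = -(1819563967 / 4194304 : ℝ) := by norm_num [C0]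
  have e5 : C0.e = (-801303755 / 2097152 : ℝ) := rfl
  have e6 : C0.f = (568437 / 33554432 : ℝ) + (8038203 / 33554432 : ℝ) + (-72250493 / 268435456 : ℝ) := by norm_num [C0]
  rw [e1, e2, e3, e4, e5, e6]
  exact h

lemma rcell1 : ∃ N : ℝ, Rw4 P.r2 N (coCell (87579 / 65536 : ℝ) (868797 / 65536 : ℝ) ((379421 / 32768 : ℝ) + (107 / 256 : ℝ)) (77 / 2048 : ℝ) C1) := by
  refine ⟨(603979776 : ℝ), ⟨Q4, List.mem_cons_of_mem _ (List.mem_cons_of_mem _ (List.mem_cons_of_mem _ (List.mem_cons_of_mem _ (List.mem_cons_self)))), ?_⟩, by norm_num⟩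
  constructor <;> norm_num [Q4, coCell, C1]

lemma lcell1 : ∀ x1 x2 xc : ℝ, 0 ≤ x1 → x1 ≤ 1 → 0 ≤ x2 → x2 ≤ 1 → C1.l ≤ xc → xc ≤ C1.u →
    (87579 / 65536 : ℝ) * (1 - (1 - x1) ^ 40) + (868797 / 65536 : ℝ) * (1 - (1 - x2) ^ 40) - ((379421 / 32768 : ℝ) + (107 / 256 : ℝ)) * (1 - (1 - xc) ^ 40)
      ≤ - C1.a1 * x1 - C1.a2 * x2 + C1.e * xc + C1.f := by
  have h := cell_lines 40 (α1 := (87579 / 65536 : ℝ)) (α2 := (868797 / 65536 : ℝ)) (c := (379421 / 32768 : ℝ) + (107 / 256 : ℝ)) (y1 := (371 / 65536 : ℝ)) (y2 := (1775 / 262144 : ℝ))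
    (A1 := (179673587 / 4194304 : ℝ)) (B1 := (3888339 / 134217728 : ℝ)) (A2 := (426602169 / 1048576 : ℝ)) (B2 := (107353887 / 268435456 : ℝ)) (l := (873 / 131072 : ℝ)) (u := (2327 / 262144 : ℝ))
    (E := (-1485356653 / 4194304 : ℝ)) (F := (-122230961 / 268435456 : ℝ)) (by norm_num) (by norm_num) (by norm_num) (by norm_num) (by norm_num)
    (by norm_num) (by norm_num) (by norm_num) (by norm_num) (by norm_num) (by norm_num) (by norm_num) (by norm_num) (by norm_num) (by norm_num)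
  have e1 : C1.l = (873 / 131072 : ℝ) := rfl
  have e2 : C1.u = (2327 / 262144 : ℝ) := rfl
  have e3 : C1.a1 = -(179673587 / 4194304 : ℝ) := by norm_num [C1]
  have e4 : C1.a2 = -(426602169 / 1048576 : ℝ) := by norm_num [C1]
  have e5 : C1.e = (-1485356653 / 4194304 : ℝ) := rfl
  have e6 : C1.f = (3888339 / 134217728 : ℝ) + (107353887 / 268435456 : ℝ) + (-122230961 / 268435456 : ℝ) := by norm_num [C1]
  rw [e1, e2, e3, e4, e5, e6]
  exact h

lemma rcell2 : ∃ N : ℝ, Rw4 P.r2 N (coCell (87579 / 65536 : ℝ) (868797 / 65536 : ℝ) ((379421 / 32768 : ℝ) + (107 / 256 : ℝ)) (77 / 2048 : ℝ) C2) := by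
  refine ⟨(603979776 : ℝ), ⟨Q5, List.mem_cons_of_mem _ (List.mem_cons_of_mem _ (List.mem_cons_of_mem _ (List.mem_cons_of_mem _ (List.mem_cons_of_mem _ (List.mem_cons_self))))), ?_⟩, by norm_num⟩
  constructor <;> norm_num [Q5, coCell, C2]

lemma lcell2 : ∀ x1 x2 xc : ℝ, 0 ≤ x1 → x1 ≤ 1 → 0 ≤ x2 → x2 ≤ 1 → C2.l ≤ xc → xc ≤ C2.u →
    (87579 / 65536 : ℝ) * (1 - (1 - x1) ^ 40) + (868797 / 65536 : ℝ) * (1 - (1 - x2) ^ 40) - ((379421 / 32768 : ℝ) + (107 / 256 : ℝ)) * (1 - (1 - xc) ^ 40)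
      ≤ - C2.a1 * x1 - C2.a2 * x2 + C2.e * xc + C2.f := by
  have h := cell_lines 40 (α1 := (87579 / 65536 : ℝ)) (α2 := (868797 / 65536 : ℝ)) (c := (379421 / 32768 : ℝ) + (107 / 256 : ℝ)) (y1 := (31 / 4096 : ℝ)) (y2 := (1177 / 131072 : ℝ))
    (A1 := (20838835 / 524288 : ℝ)) (B1 := (6627397 / 134217728 : ℝ)) (A2 := (782250939 / 2097152 : ℝ)) (B2 := (89368767 / 134217728 : ℝ)) (l := (2327 / 262144 : ℝ)) (u := (775 / 65536 : ℝ))
    (E := (-671062803 / 2097152 : ℝ)) (F := (-50900675 / 67108864 : ℝ)) (by norm_num) (by norm_num) (by norm_num) (by norm_num) (by norm_num)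
    (by norm_num) (by norm_num) (by norm_num) (by norm_num) (by norm_num) (by norm_num) (by norm_num) (by norm_num) (by norm_num) (by norm_num)
  have e1 : C2.l = (2327 / 262144 : ℝ) := rfl
  have e2 : C2.u = (775 / 65536 : ℝ) := rfl
  have e3 : C2.a1 = -(20838835 / 524288 : ℝ) := by norm_num [C2]
  have e4 : C2.a2 = -(782250939 / 2097152 : ℝ) := by norm_num [C2]
  have e5 : C2.e = (-671062803 / 2097152 : ℝ) := rfl
  have e6 : C2.f = (6627397 / 134217728 : ℝ) + (89368767 / 134217728 : ℝ) + (-50900675 / 67108864 : ℝ) := by norm_num [C2]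
  rw [e1, e2, e3, e4, e5, e6]
  exact h

lemma rcell3 : ∃ N : ℝ, Rw4 P.r2 N (coCell (87579 / 65536 : ℝ) (868797 / 65536 : ℝ) ((379421 / 32768 : ℝ) + (107 / 256 : ℝ)) (77 / 2048 : ℝ) C3) := by
  refine ⟨(301989888 : ℝ), ⟨Q6, List.mem_cons_of_mem _ (List.mem_cons_of_mem _ (List.mem_cons_of_mem _ (List.mem_cons_of_mem _ (List.mem_cons_of_mem _ (List.mem_cons_of_mem _ (List.mem_cons_self)))))), ?_⟩, by norm_num⟩
  constructor <;> norm_num [Q6, coCell, C3]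

lemma lcell3 : ∀ x1 x2 xc : ℝ, 0 ≤ x1 → x1 ≤ 1 → 0 ≤ x2 → x2 ≤ 1 → C3.l ≤ xc → xc ≤ C3.u →
    (87579 / 65536 : ℝ) * (1 - (1 - x1) ^ 40) + (868797 / 65536 : ℝ) * (1 - (1 - x2) ^ 40) - ((379421 / 32768 : ℝ) + (107 / 256 : ℝ)) * (1 - (1 - xc) ^ 40)
      ≤ - C3.a1 * x1 - C3.a2 * x2 + C3.e * xc + C3.f := by
  have h := cell_lines 40 (α1 := (87579 / 65536 : ℝ)) (α2 := (868797 / 65536 : ℝ)) (c := (379421 / 32768 : ℝ) + (107 / 256 : ℝ)) (y1 := (1279 / 131072 : ℝ)) (y2 := (779 / 65536 : ℝ))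
    (A1 := (152951021 / 4194304 : ℝ)) (B1 := (20870239 / 268435456 : ℝ)) (A2 := (1395157061 / 4194304 : ℝ)) (B2 := (72880063 / 67108864 : ℝ)) (l := (775 / 65536 : ℝ)) (u := (2065 / 131072 : ℝ))
    (E := (-73265887 / 262144 : ℝ)) (F := (-332167491 / 268435456 : ℝ)) (by norm_num) (by norm_num) (by norm_num) (by norm_num) (by norm_num)
    (by norm_num) (by norm_num) (by norm_num) (by norm_num) (by norm_num) (by norm_num) (by norm_num) (by norm_num) (by norm_num) (by norm_num)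
  have e1 : C3.l = (775 / 65536 : ℝ) := rfl
  have e2 : C3.u = (2065 / 131072 : ℝ) := rfl
  have e3 : C3.a1 = -(152951021 / 4194304 : ℝ) := by norm_num [C3]
  have e4 : C3.a2 = -(1395157061 / 4194304 : ℝ) := by norm_num [C3]
  have e5 : C3.e = (-73265887 / 262144 : ℝ) := rfl
  have e6 : C3.f = (20870239 / 268435456 : ℝ) + (72880063 / 67108864 : ℝ) + (-332167491 / 268435456 : ℝ) := by norm_num [C3]
  rw [e1, e2, e3, e4, e5, e6]
  exact h

lemma rcell4 : ∃ N : ℝ, Rw4 P.r2 N (coCell (87579 / 65536 : ℝ) (868797 / 65536 : ℝ) ((379421 / 32768 : ℝ) + (107 / 256 : ℝ)) (77 / 2048 : ℝ) C4) := by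
  refine ⟨(1207959552 : ℝ), ⟨Q7, List.mem_cons_of_mem _ (List.mem_cons_of_mem _ (List.mem_cons_of_mem _ (List.mem_cons_of_mem _ (List.mem_cons_of_mem _ (List.mem_cons_of_mem _ (List.mem_cons_of_mem _ (List.mem_cons_self))))))), ?_⟩, by norm_num⟩
  constructor <;> norm_num [Q7, coCell, C4]

lemma lcell4 : ∀ x1 x2 xc : ℝ, 0 ≤ x1 → x1 ≤ 1 → 0 ≤ x2 → x2 ≤ 1 → C4.l ≤ xc → xc ≤ C4.u →
    (87579 / 65536 : ℝ) * (1 - (1 - x1) ^ 40) + (868797 / 65536 : ℝ) * (1 - (1 - x2) ^ 40) - ((379421 / 32768 : ℝ) + (107 / 256 : ℝ)) * (1 - (1 - xc) ^ 40)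
      ≤ - C4.a1 * x1 - C4.a2 * x2 + C4.e * xc + C4.f := by
  have h := cell_lines 40 (α1 := (87579 / 65536 : ℝ)) (α2 := (868797 / 65536 : ℝ)) (c := (379421 / 32768 : ℝ) + (107 / 256 : ℝ)) (y1 := (1667 / 131072 : ℝ)) (y2 := (503 / 32768 : ℝ))
    (A1 := (136095589 / 4194304 : ℝ)) (B1 := (32963043 / 268435456 : ℝ)) (A2 := (1216594707 / 4194304 : ℝ)) (B2 := (446711979 / 268435456 : ℝ)) (l := (2065 / 131072 : ℝ)) (u := (2751 / 131072 : ℝ))
    (E := (-978344061 / 4194304 : ℝ)) (F := (-131921807 / 67108864 : ℝ)) (by norm_num) (by norm_num) (by norm_num) (by norm_num) (by norm_num)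
    (by norm_num) (by norm_num) (by norm_num) (by norm_num) (by norm_num) (by norm_num) (by norm_num) (by norm_num) (by norm_num) (by norm_num)
  have e1 : C4.l = (2065 / 131072 : ℝ) := rfl
  have e2 : C4.u = (2751 / 131072 : ℝ) := rfl
  have e3 : C4.a1 = -(136095589 / 4194304 : ℝ) := by norm_num [C4]
  have e4 : C4.a2 = -(1216594707 / 4194304 : ℝ) := by norm_num [C4]
  have e5 : C4.e = (-978344061 / 4194304 : ℝ) := rfl
  have e6 : C4.f = (32963043 / 268435456 : ℝ) + (446711979 / 268435456 : ℝ) + (-131921807 / 67108864 : ℝ) := by norm_num [C4]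
  rw [e1, e2, e3, e4, e5, e6]
  exact h

lemma rcell5 : ∃ N : ℝ, Rw4 P.r2 N (coCell (87579 / 65536 : ℝ) (868797 / 65536 : ℝ) ((379421 / 32768 : ℝ) + (107 / 256 : ℝ)) (77 / 2048 : ℝ) C5) := by
  refine ⟨(75497472 : ℝ), ⟨Q8, List.mem_cons_of_mem _ (List.mem_cons_of_mem _ (List.mem_cons_of_mem _ (List.mem_cons_of_mem _ (List.mem_cons_of_mem _ (List.mem_cons_of_mem _ (List.mem_cons_of_mem _ (List.mem_cons_of_mem _ (List.mem_cons_self)))))))), ?_⟩, by norm_num⟩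
  constructor <;> norm_num [Q8, coCell, C5]

lemma lcell5 : ∀ x1 x2 xc : ℝ, 0 ≤ x1 → x1 ≤ 1 → 0 ≤ x2 → x2 ≤ 1 → C5.l ≤ xc → xc ≤ C5.u →
    (87579 / 65536 : ℝ) * (1 - (1 - x1) ^ 40) + (868797 / 65536 : ℝ) * (1 - (1 - x2) ^ 40) - ((379421 / 32768 : ℝ) + (107 / 256 : ℝ)) * (1 - (1 - xc) ^ 40)
      ≤ - C5.a1 * x1 - C5.a2 * x2 + C5.e * xc + C5.f := by
  have h := cell_lines 40 (α1 := (87579 / 65536 : ℝ)) (α2 := (868797 / 65536 : ℝ)) (c := (379421 / 32768 : ℝ) + (107 / 256 : ℝ)) (y1 := (4199 / 262144 : ℝ)) (y2 := (2529 / 131072 : ℝ))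
    (A1 := (59718713 / 2097152 : ℝ)) (B1 := (48243867 / 268435456 : ℝ)) (A2 := (1040303309 / 4194304 : ℝ)) (B2 := (641590699 / 268435456 : ℝ)) (l := (2751 / 131072 : ℝ)) (u := (15 / 512 : ℝ))
    (E := (-187231591 / 1048576 : ℝ)) (F := (-417927619 / 134217728 : ℝ)) (by norm_num) (by norm_num) (by norm_num) (by norm_num) (by norm_num)
    (by norm_num) (by norm_num) (by norm_num) (by norm_num) (by norm_num) (by norm_num) (by norm_num) (by norm_num) (by norm_num) (by norm_num)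
  have e1 : C5.l = (2751 / 131072 : ℝ) := rfl
  have e2 : C5.u = (15 / 512 : ℝ) := rfl
  have e3 : C5.a1 = -(59718713 / 2097152 : ℝ) := by norm_num [C5]
  have e4 : C5.a2 = -(1040303309 / 4194304 : ℝ) := by norm_num [C5]
  have e5 : C5.e = (-187231591 / 1048576 : ℝ) := rfl
  have e6 : C5.f = (48243867 / 268435456 : ℝ) + (641590699 / 268435456 : ℝ) + (-417927619 / 134217728 : ℝ) := by norm_num [C5]
  rw [e1, e2, e3, e4, e5, e6]
  exact h

/-- The hypotheses at the origin. -/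
lemma horig (lam : ℝ) (hd : (40 : ℝ) * lam ^ 2 = 1) (hb : |lam| ≤ (173848052881 / 1099511627776 : ℝ)) :
    OriginH 40 lam (87579 / 65536 : ℝ) (868797 / 65536 : ℝ) (379421 / 32768 : ℝ) (107 / 256 : ℝ) (77 / 2048 : ℝ) (45 / 512 : ℝ) (4233 / 4096 : ℝ) (1 / 256 : ℝ) 3298534883328 := by
  refine originH_of_num (d := 40) (by push_cast; exact hd) hb (by norm_num) (by norm_num) (by norm_num) (by norm_num)
    (by norm_num) (by norm_num) (by norm_num) (by norm_num) (by norm_num) (by norm_num) (by norm_num [S]) (by norm_num) ?_ ?_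
  · rw [hch]
    norm_num [abs_of_pos, abs_of_neg]
  · norm_num [abs_of_pos, abs_of_neg]

/-- Nonreconstruction at the bound. -/
theorem main : Tendsto (reconError 3 40 (-(1 / Real.sqrt 40))) atTop (𝓝 0) := by
  have hsq : Real.sqrt ((40 : ℕ) : ℝ) ^ 2 = 40 := by
    rw [Real.sq_sqrt (by positivity)]; norm_num
  have hsq' : Real.sqrt (40 : ℝ) ^ 2 = 40 := by
    rw [Real.sq_sqrt (by positivity)]
  have hs0 : 0 < Real.sqrt (40 : ℝ) := Real.sqrt_pos.2 (by norm_num)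
  have hl2 : ((40 : ℝ)) * (-(1 / Real.sqrt 40)) ^ 2 = 1 := by
    have : (-(1 / Real.sqrt (40 : ℝ))) ^ 2 = 1 / 40 := by
      rw [neg_sq, div_pow, hsq']; norm_num
    rw [this]; norm_num
  have hb : |(-(1 / Real.sqrt (40 : ℝ)))| ≤ (173848052881 / 1099511627776 : ℝ) := by
    rw [abs_neg, abs_of_pos (by positivity)]
    rw [div_le_iff₀ hs0]
    have h1 : (1 : ℝ) ^ 2 ≤ ((173848052881 / 1099511627776 : ℝ) * Real.sqrt 40) ^ 2 := by
      rw [mul_pow, hsq']; norm_num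
    exact le_of_sq_le_sq h1 (by positivity)
  have hb2 : (-(1 / 2) : ℝ) < -(1 / Real.sqrt (40 : ℝ)) := by
    have h2 := (abs_le.1 hb).1
    have h3 : ((173848052881 / 1099511627776 : ℝ) : ℝ) < 1 / 2 := by norm_num
    linarith
  have h1 : (-(1 / Real.sqrt (40 : ℝ))) < 1 := by
    have : 0 < 1 / Real.sqrt (40 : ℝ) := by positivity
    linarith
  have hlam : |(S : ℝ) * (-(1 / Real.sqrt (40 : ℝ))) - ((P.lp : ℝ) - P.ln)| ≤ ((1 : ℕ) : ℝ) := by
    have h := lam_enc 40 11393305993581085 (by norm_num) (by norm_num [S]) (by norm_num [S])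
    have e : ((40 : ℕ) : ℝ) = (40 : ℝ) := by norm_num
    rw [e] at h
    exact h
  obtain ⟨hOa, hON⟩ := horig _ hl2 hb
  refine final_of_box (d := 40) (by norm_num) hb2 h1 (box hlam) (87579 / 65536 : ℝ) (868797 / 65536 : ℝ) (379421 / 32768 : ℝ) (107 / 256 : ℝ) (45 / 512 : ℝ) (4233 / 4096 : ℝ) (5243 / 1048576 : ℝ) (58187 / 8192 : ℝ) (77 / 2048 : ℝ) (15 / 512 : ℝ) cellsL
    (by norm_num) (by norm_num) (by norm_num) (by norm_num) (by norm_num) (by norm_num) (by norm_num) (by norm_num) (by norm_num)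
    (by norm_num) (by norm_num) (by norm_num) (by norm_num) (by norm_num) hOa hON rTa rTb rc1 rc2 rc3
    (forall_cons rcell0 (forall_cons rcell1 (forall_cons rcell2 (forall_cons rcell3 (forall_cons rcell4 (forall_cons rcell5 (forall_nil))))))) hcover (forall_cons lcell0 (forall_cons lcell1 (forall_cons lcell2 (forall_cons lcell3 (forall_cons lcell4 (forall_cons lcell5 (forall_nil)))))))

end Vale.Agent.P154H.Tm.D40
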