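import Vale.Agent.P154H.D.DP2
import Vale.Agent.P154H.PosEnc
import Vale.Agent.P154H.OriginW

open Filter Topology

set_option maxRecDepth 100000

/-!
Nonreconstruction at the Kesten-Stigum bound for `d = 2`, positive eigenvalue, by a chain of
potentials along the monotone quantity `1 - En`.
-/

namespace Vale.Agent.P154H.Tm.P2

open Vale.Agent.P154 Vale.Agent.P154H

/-- A chord cell. -/
noncomputable def C0 : Cell := ⟨(5243 / 1048576 : ℝ), (1441 / 262144 : ℝ), (-3629755 / 2097152 : ℝ), (-61618269 / 2097152 : ℝ), (-54244481 / 2097152 : ℝ), (-839 / 67108864 : ℝ)⟩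

/-- A chord cell. -/
noncomputable def C1 : Cell := ⟨(1441 / 262144 : ℝ), (1585 / 262144 : ℝ), (-7257341 / 4194304 : ℝ), (-15397305 / 524288 : ℝ), (-108431913 / 4194304 : ℝ), (-2199 / 134217728 : ℝ)⟩

/-- A chord cell. -/
noncomputable def C2 : Cell := ⟨(1585 / 262144 : ℝ), (1743 / 262144 : ℝ), (-1813355 / 1048576 : ℝ), (-61557809 / 2097152 : ℝ), (-27092273 / 1048576 : ℝ), (-5591 / 268435456 : ℝ)⟩

/-- A chord cell. -/
noncomputable def C3 : Cell := ⟨(1743 / 262144 : ℝ), (479 / 65536 : ℝ), (-3625181 / 2097152 : ℝ), (-30760601 / 1048576 : ℝ), (-54150119 / 2097152 : ℝ), (-5783 / 268435456 : ℝ)⟩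

/-- A chord cell. -/
noncomputable def C4 : Cell := ⟨(479 / 65536 : ℝ), (2107 / 262144 : ℝ), (-3622915 / 2097152 : ℝ), (-30741353 / 1048576 : ℝ), (-108224519 / 4194304 : ℝ), (-7007 / 268435456 : ℝ)⟩

/-- A chord cell. -/
noncomputable def C5 : Cell := ⟨(2107 / 262144 : ℝ), (2317 / 262144 : ℝ), (-7242605 / 4194304 : ℝ), (-122879917 / 4194304 : ℝ), (-6758819 / 262144 : ℝ), (-8883 / 268435456 : ℝ)⟩

/-- A chord cell. -/
noncomputable def C6 : Cell := ⟨(2317 / 262144 : ℝ), (637 / 65536 : ℝ), (-7236655 / 4194304 : ℝ), (-61394377 / 2097152 : ℝ), (-13506171 / 524288 : ℝ), (-11629 / 268435456 : ℝ)⟩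

/-- A chord cell. -/
noncomputable def C7 : Cell := ⟨(637 / 65536 : ℝ), (1401 / 131072 : ℝ), (-1808253 / 1048576 : ℝ), (-61342419 / 2097152 : ℝ), (-107948479 / 4194304 : ℝ), (-7169 / 134217728 : ℝ)⟩

/-- A chord cell. -/
noncomputable def C8 : Cell := ⟨(1401 / 131072 : ℝ), (3081 / 262144 : ℝ), (-7227757 / 4194304 : ℝ), (-122568169 / 4194304 : ℝ), (-53918803 / 2097152 : ℝ), (-15359 / 268435456 : ℝ)⟩

/-- A chord cell. -/
noncomputable def C9 : Cell := ⟨(3081 / 262144 : ℝ), (847 / 65536 : ℝ), (-7221473 / 4194304 : ℝ), (-61222443 / 2097152 : ℝ), (-107715707 / 4194304 : ℝ), (-4905 / 67108864 : ℝ)⟩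

/-- A chord cell. -/
noncomputable def C10 : Cell := ⟨(847 / 65536 : ℝ), (3725 / 262144 : ℝ), (-901857 / 524288 : ℝ), (-61154425 / 2097152 : ℝ), (-107581743 / 4194304 : ℝ), (-24675 / 268435456 : ℝ)⟩

/-- A chord cell. -/
noncomputable def C11 : Cell := ⟨(3725 / 262144 : ℝ), (1 / 64 : ℝ), (-1801719 / 1048576 : ℝ), (-122160061 / 4194304 : ℝ), (-107434467 / 4194304 : ℝ), (-7751 / 67108864 : ℝ)⟩

/-- The chord cells. -/
noncomputable def cellsL : List Cell := [C0, C1, C2, C3, C4, C5, C6, C7, C8, C9, C10, C11]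

lemma hcover : ∀ x : ℝ, (5243 / 1048576 : ℝ) ≤ x → x ≤ (1 / 64 : ℝ) → ∃ D ∈ cellsL, D.l ≤ x ∧ x ≤ D.u := by
  refine cover_of_chain ?_ (by norm_num [C0])
  simp only [ChainP, C0, C1, C2, C3, C4, C5, C6, C7, C8, C9, C10, C11]
  norm_num

lemma hch : ((Nat.choose 2 2 : ℕ) : ℝ) = 1 := by norm_num [Nat.choose]

lemma rTa : Rw4 P.r1 (1179648 : ℝ) (coTa 2 (56943 / 65536 : ℝ) (967365 / 65536 : ℝ) (410789 / 32768 : ℝ) (119 / 256 : ℝ) (17 / 2048 : ℝ)) := by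
  refine ⟨⟨Ra, List.mem_cons_self, ?_⟩, by norm_num⟩
  constructor <;> norm_num [Ra, coTa, hch]

lemma rTb : Rw4 P.r1 (4947802324992 : ℝ) (coTb 2 (56943 / 65536 : ℝ) (967365 / 65536 : ℝ) (410789 / 32768 : ℝ) (119 / 256 : ℝ) (17 / 2048 : ℝ) (27 / 512 : ℝ) (2177 / 2048 : ℝ) (41 / 4096 : ℝ)) := by
  refine ⟨⟨Rb, List.mem_cons_of_mem _ (List.mem_cons_self), ?_⟩, by norm_num⟩
  constructor <;> norm_num [Rb, coTb, hch]

lemma rc1 : Rw4 P.r2 (16777216 : ℝ) ⟨0, 0, 0, -(56943 / 65536 : ℝ), 0, 0, 0, 0, (410789 / 32768 : ℝ) * (27 / 512 : ℝ)⟩ := by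
  refine ⟨⟨Q0, List.mem_cons_self, ?_⟩, by norm_num⟩
  constructor <;> norm_num [Q0]

lemma rc2 : Rw4 P.r2 (67108864 : ℝ) ⟨0, 0, 0, 0, -(967365 / 65536 : ℝ), 0, 0, 0, (410789 / 32768 : ℝ) * (2177 / 2048 : ℝ)⟩ := by
  refine ⟨⟨Q1, List.mem_cons_of_mem _ (List.mem_cons_self), ?_⟩, by norm_num⟩
  constructor <;> norm_num [Q1]

lemma rc3 : Rw4 P.r2 (1536 : ℝ) ⟨0, 0, 0, 0, 0, -1, 0, 0, (207 / 512 : ℝ)⟩ := by
  refine ⟨⟨Q2, List.mem_cons_of_mem _ (List.mem_cons_of_mem _ (List.mem_cons_self)), ?_⟩, by norm_num⟩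
  constructor <;> norm_num [Q2]

lemma rcell0 : ∃ N : ℝ, Rw4 P.r2 N (coCell (56943 / 65536 : ℝ) (967365 / 65536 : ℝ) ((410789 / 32768 : ℝ) + (119 / 256 : ℝ)) (17 / 2048 : ℝ) C0) := by
  refine ⟨(603979776 : ℝ), ⟨Q3, List.mem_cons_of_mem _ (List.mem_cons_of_mem _ (List.mem_cons_of_mem _ (List.mem_cons_self))), ?_⟩, by norm_num⟩
  constructor <;> norm_num [Q3, coCell, C0]

lemma lcell0 : ∀ x1 x2 xc : ℝ, 0 ≤ x1 → x1 ≤ 1 → 0 ≤ x2 → x2 ≤ 1 → C0.l ≤ xc → xc ≤ C0.u →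
    (56943 / 65536 : ℝ) * (1 - (1 - x1) ^ 2) + (967365 / 65536 : ℝ) * (1 - (1 - x2) ^ 2) - ((410789 / 32768 : ℝ) + (119 / 256 : ℝ)) * (1 - (1 - xc) ^ 2)
      ≤ - C0.a1 * x1 - C0.a2 * x2 + C0.e * xc + C0.f := by
  have h := cell_lines 2 (α1 := (56943 / 65536 : ℝ)) (α2 := (967365 / 65536 : ℝ)) (c := (410789 / 32768 : ℝ) + (119 / 256 : ℝ)) (y1 := (525 / 131072 : ℝ)) (y2 := (1241 / 262144 : ℝ))
    (A1 := (3629755 / 2097152 : ℝ)) (B1 := (1871 / 134217728 : ℝ)) (A2 := (61618269 / 2097152 : ℝ)) (B2 := (88825 / 268435456 : ℝ)) (l := (5243 / 1048576 : ℝ)) (u := (1441 / 262144 : ℝ))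
    (E := (-54244481 / 2097152 : ℝ)) (F := (-95923 / 268435456 : ℝ)) (by norm_num) (by norm_num) (by norm_num) (by norm_num) (by norm_num)
    (by norm_num) (by norm_num) (by norm_num) (by norm_num) (by norm_num) (by norm_num) (by norm_num) (by norm_num) (by norm_num) (by norm_num)
  have e1 : C0.l = (5243 / 1048576 : ℝ) := rfl
  have e2 : C0.u = (1441 / 262144 : ℝ) := rfl
  have e3 : C0.a1 = -(3629755 / 2097152 : ℝ) := by norm_num [C0]
  have e4 : C0.a2 = -(61618269 / 2097152 : ℝ) := by norm_num [C0]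
  have e5 : C0.e = (-54244481 / 2097152 : ℝ) := rfl
  have e6 : C0.f = (1871 / 134217728 : ℝ) + (88825 / 268435456 : ℝ) + (-95923 / 268435456 : ℝ) := by norm_num [C0]
  rw [e1, e2, e3, e4, e5, e6]
  exact h

lemma rcell1 : ∃ N : ℝ, Rw4 P.r2 N (coCell (56943 / 65536 : ℝ) (967365 / 65536 : ℝ) ((410789 / 32768 : ℝ) + (119 / 256 : ℝ)) (17 / 2048 : ℝ) C1) := by
  refine ⟨(1207959552 : ℝ), ⟨Q4, List.mem_cons_of_mem _ (List.mem_cons_of_mem _ (List.mem_cons_of_mem _ (List.mem_cons_of_mem _ (List.mem_cons_self)))), ?_⟩, by norm_num⟩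
  constructor <;> norm_num [Q4, coCell, C1]

lemma lcell1 : ∀ x1 x2 xc : ℝ, 0 ≤ x1 → x1 ≤ 1 → 0 ≤ x2 → x2 ≤ 1 → C1.l ≤ xc → xc ≤ C1.u →
    (56943 / 65536 : ℝ) * (1 - (1 - x1) ^ 2) + (967365 / 65536 : ℝ) * (1 - (1 - x2) ^ 2) - ((410789 / 32768 : ℝ) + (119 / 256 : ℝ)) * (1 - (1 - xc) ^ 2)
      ≤ - C1.a1 * x1 - C1.a2 * x2 + C1.e * xc + C1.f := by
  have h := cell_lines 2 (α1 := (56943 / 65536 : ℝ)) (α2 := (967365 / 65536 : ℝ)) (c := (410789 / 32768 : ℝ) + (119 / 256 : ℝ)) (y1 := (141 / 32768 : ℝ)) (y2 := (341 / 65536 : ℝ))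
    (A1 := (7257341 / 4194304 : ℝ)) (B1 := (4319 / 268435456 : ℝ)) (A2 := (15397305 / 524288 : ℝ)) (B2 := (26819 / 67108864 : ℝ)) (l := (1441 / 262144 : ℝ)) (u := (1585 / 262144 : ℝ))
    (E := (-108431913 / 4194304 : ℝ)) (F := (-115993 / 268435456 : ℝ)) (by norm_num) (by norm_num) (by norm_num) (by norm_num) (by norm_num)
    (by norm_num) (by norm_num) (by norm_num) (by norm_num) (by norm_num) (by norm_num) (by norm_num) (by norm_num) (by norm_num) (by norm_num)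
  have e1 : C1.l = (1441 / 262144 : ℝ) := rfl
  have e2 : C1.u = (1585 / 262144 : ℝ) := rfl
  have e3 : C1.a1 = -(7257341 / 4194304 : ℝ) := by norm_num [C1]
  have e4 : C1.a2 = -(15397305 / 524288 : ℝ) := by norm_num [C1]
  have e5 : C1.e = (-108431913 / 4194304 : ℝ) := rfl
  have e6 : C1.f = (4319 / 268435456 : ℝ) + (26819 / 67108864 : ℝ) + (-115993 / 268435456 : ℝ) := by norm_num [C1]
  rw [e1, e2, e3, e4, e5, e6]
  exact h

lemma rcell2 : ∃ N : ℝ, Rw4 P.r2 N (coCell (56943 / 65536 : ℝ) (967365 / 65536 : ℝ) ((410789 / 32768 : ℝ) + (119 / 256 : ℝ)) (17 / 2048 : ℝ) C2) := by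
  refine ⟨(2415919104 : ℝ), ⟨Q5, List.mem_cons_of_mem _ (List.mem_cons_of_mem _ (List.mem_cons_of_mem _ (List.mem_cons_of_mem _ (List.mem_cons_of_mem _ (List.mem_cons_self))))), ?_⟩, by norm_num⟩
  constructor <;> norm_num [Q5, coCell, C2]

lemma lcell2 : ∀ x1 x2 xc : ℝ, 0 ≤ x1 → x1 ≤ 1 → 0 ≤ x2 → x2 ≤ 1 → C2.l ≤ xc → xc ≤ C2.u →
    (56943 / 65536 : ℝ) * (1 - (1 - x1) ^ 2) + (967365 / 65536 : ℝ) * (1 - (1 - x2) ^ 2) - ((410789 / 32768 : ℝ) + (119 / 256 : ℝ)) * (1 - (1 - xc) ^ 2)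
      ≤ - C2.a1 * x1 - C2.a2 * x2 + C2.e * xc + C2.f := by
  have h := cell_lines 2 (α1 := (56943 / 65536 : ℝ)) (α2 := (967365 / 65536 : ℝ)) (c := (410789 / 32768 : ℝ) + (119 / 256 : ℝ)) (y1 := (1269 / 262144 : ℝ)) (y2 := (1497 / 262144 : ℝ))
    (A1 := (1813355 / 1048576 : ℝ)) (B1 := (687 / 33554432 : ℝ)) (A2 := (61557809 / 2097152 : ℝ)) (B2 := (2019 / 4194304 : ℝ)) (l := (1585 / 262144 : ℝ)) (u := (1743 / 262144 : ℝ))
    (E := (-27092273 / 1048576 : ℝ)) (F := (-140303 / 268435456 : ℝ)) (by norm_num) (by norm_num) (by norm_num) (by norm_num) (by norm_num)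
    (by norm_num) (by norm_num) (by norm_num) (by norm_num) (by norm_num) (by norm_num) (by norm_num) (by norm_num) (by norm_num) (by norm_num)
  have e1 : C2.l = (1585 / 262144 : ℝ) := rfl
  have e2 : C2.u = (1743 / 262144 : ℝ) := rfl
  have e3 : C2.a1 = -(1813355 / 1048576 : ℝ) := by norm_num [C2]
  have e4 : C2.a2 = -(61557809 / 2097152 : ℝ) := by norm_num [C2]
  have e5 : C2.e = (-27092273 / 1048576 : ℝ) := rfl
  have e6 : C2.f = (687 / 33554432 : ℝ) + (2019 / 4194304 : ℝ) + (-140303 / 268435456 : ℝ) := by norm_num [C2]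
  rw [e1, e2, e3, e4, e5, e6]
  exact h

lemma rcell3 : ∃ N : ℝ, Rw4 P.r2 N (coCell (56943 / 65536 : ℝ) (967365 / 65536 : ℝ) ((410789 / 32768 : ℝ) + (119 / 256 : ℝ)) (17 / 2048 : ℝ) C3) := by
  refine ⟨(2415919104 : ℝ), ⟨Q6, List.mem_cons_of_mem _ (List.mem_cons_of_mem _ (List.mem_cons_of_mem _ (List.mem_cons_of_mem _ (List.mem_cons_of_mem _ (List.mem_cons_of_mem _ (List.mem_cons_self)))))), ?_⟩, by norm_num⟩
  constructor <;> norm_num [Q6, coCell, C3]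

lemma lcell3 : ∀ x1 x2 xc : ℝ, 0 ≤ x1 → x1 ≤ 1 → 0 ≤ x2 → x2 ≤ 1 → C3.l ≤ xc → xc ≤ C3.u →
    (56943 / 65536 : ℝ) * (1 - (1 - x1) ^ 2) + (967365 / 65536 : ℝ) * (1 - (1 - x2) ^ 2) - ((410789 / 32768 : ℝ) + (119 / 256 : ℝ)) * (1 - (1 - xc) ^ 2)
      ≤ - C3.a1 * x1 - C3.a2 * x2 + C3.e * xc + C3.f := by
  have h := cell_lines 2 (α1 := (56943 / 65536 : ℝ)) (α2 := (967365 / 65536 : ℝ)) (c := (410789 / 32768 : ℝ) + (119 / 256 : ℝ)) (y1 := (1379 / 262144 : ℝ)) (y2 := (413 / 65536 : ℝ))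
    (A1 := (3625181 / 2097152 : ℝ)) (B1 := (6455 / 268435456 : ℝ)) (A2 := (30760601 / 1048576 : ℝ)) (B2 := (157365 / 268435456 : ℝ)) (l := (1743 / 262144 : ℝ)) (u := (479 / 65536 : ℝ))
    (E := (-54150119 / 2097152 : ℝ)) (F := (-169603 / 268435456 : ℝ)) (by norm_num) (by norm_num) (by norm_num) (by norm_num) (by norm_num)
    (by norm_num) (by norm_num) (by norm_num) (by norm_num) (by norm_num) (by norm_num) (by norm_num) (by norm_num) (by norm_num) (by norm_num)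
  have e1 : C3.l = (1743 / 262144 : ℝ) := rfl
  have e2 : C3.u = (479 / 65536 : ℝ) := rfl
  have e3 : C3.a1 = -(3625181 / 2097152 : ℝ) := by norm_num [C3]
  have e4 : C3.a2 = -(30760601 / 1048576 : ℝ) := by norm_num [C3]
  have e5 : C3.e = (-54150119 / 2097152 : ℝ) := rfl
  have e6 : C3.f = (6455 / 268435456 : ℝ) + (157365 / 268435456 : ℝ) + (-169603 / 268435456 : ℝ) := by norm_num [C3]
  rw [e1, e2, e3, e4, e5, e6]
  exact h

lemma rcell4 : ∃ N : ℝ, Rw4 P.r2 N (coCell (56943 / 65536 : ℝ) (967365 / 65536 : ℝ) ((410789 / 32768 : ℝ) + (119 / 256 : ℝ)) (17 / 2048 : ℝ) C4) := by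
  refine ⟨(2415919104 : ℝ), ⟨Q7, List.mem_cons_of_mem _ (List.mem_cons_of_mem _ (List.mem_cons_of_mem _ (List.mem_cons_of_mem _ (List.mem_cons_of_mem _ (List.mem_cons_of_mem _ (List.mem_cons_of_mem _ (List.mem_cons_self))))))), ?_⟩, by norm_num⟩
  constructor <;> norm_num [Q7, coCell, C4]

lemma lcell4 : ∀ x1 x2 xc : ℝ, 0 ≤ x1 → x1 ≤ 1 → 0 ≤ x2 → x2 ≤ 1 → C4.l ≤ xc → xc ≤ C4.u →
    (56943 / 65536 : ℝ) * (1 - (1 - x1) ^ 2) + (967365 / 65536 : ℝ) * (1 - (1 - x2) ^ 2) - ((410789 / 32768 : ℝ) + (119 / 256 : ℝ)) * (1 - (1 - xc) ^ 2)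
      ≤ - C4.a1 * x1 - C4.a2 * x2 + C4.e * xc + C4.f := by
  have h := cell_lines 2 (α1 := (56943 / 65536 : ℝ)) (α2 := (967365 / 65536 : ℝ)) (c := (410789 / 32768 : ℝ) + (119 / 256 : ℝ)) (y1 := (771 / 131072 : ℝ)) (y2 := (1815 / 262144 : ℝ))
    (A1 := (3622915 / 2097152 : ℝ)) (B1 := (8071 / 268435456 : ℝ)) (A2 := (30741353 / 1048576 : ℝ)) (B2 := (23743 / 33554432 : ℝ)) (l := (479 / 65536 : ℝ)) (u := (2107 / 262144 : ℝ))
    (E := (-108224519 / 4194304 : ℝ)) (F := (-102511 / 134217728 : ℝ)) (by norm_num) (by norm_num) (by norm_num) (by norm_num) (by norm_num)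
    (by norm_num) (by norm_num) (by norm_num) (by norm_num) (by norm_num) (by norm_num) (by norm_num) (by norm_num) (by norm_num) (by norm_num)
  have e1 : C4.l = (479 / 65536 : ℝ) := rfl
  have e2 : C4.u = (2107 / 262144 : ℝ) := rfl
  have e3 : C4.a1 = -(3622915 / 2097152 : ℝ) := by norm_num [C4]
  have e4 : C4.a2 = -(30741353 / 1048576 : ℝ) := by norm_num [C4]
  have e5 : C4.e = (-108224519 / 4194304 : ℝ) := rfl
  have e6 : C4.f = (8071 / 268435456 : ℝ) + (23743 / 33554432 : ℝ) + (-102511 / 134217728 : ℝ) := by norm_num [C4]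
  rw [e1, e2, e3, e4, e5, e6]
  exact h

lemma rcell5 : ∃ N : ℝ, Rw4 P.r2 N (coCell (56943 / 65536 : ℝ) (967365 / 65536 : ℝ) ((410789 / 32768 : ℝ) + (119 / 256 : ℝ)) (17 / 2048 : ℝ) C5) := by
  refine ⟨(2415919104 : ℝ), ⟨Q8, List.mem_cons_of_mem _ (List.mem_cons_of_mem _ (List.mem_cons_of_mem _ (List.mem_cons_of_mem _ (List.mem_cons_of_mem _ (List.mem_cons_of_mem _ (List.mem_cons_of_mem _ (List.mem_cons_of_mem _ (List.mem_cons_self)))))))), ?_⟩, by norm_num⟩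
  constructor <;> norm_num [Q8, coCell, C5]

lemma lcell5 : ∀ x1 x2 xc : ℝ, 0 ≤ x1 → x1 ≤ 1 → 0 ≤ x2 → x2 ≤ 1 → C5.l ≤ xc → xc ≤ C5.u →
    (56943 / 65536 : ℝ) * (1 - (1 - x1) ^ 2) + (967365 / 65536 : ℝ) * (1 - (1 - x2) ^ 2) - ((410789 / 32768 : ℝ) + (119 / 256 : ℝ)) * (1 - (1 - xc) ^ 2)
      ≤ - C5.a1 * x1 - C5.a2 * x2 + C5.e * xc + C5.f := by
  have h := cell_lines 2 (α1 := (56943 / 65536 : ℝ)) (α2 := (967365 / 65536 : ℝ)) (c := (410789 / 32768 : ℝ) + (119 / 256 : ℝ)) (y1 := (829 / 131072 : ℝ)) (y2 := (499 / 65536 : ℝ))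
    (A1 := (7242605 / 4194304 : ℝ)) (B1 := (9331 / 268435456 : ℝ)) (A2 := (122879917 / 4194304 : ℝ)) (B2 := (229717 / 268435456 : ℝ)) (l := (2107 / 262144 : ℝ)) (u := (2317 / 262144 : ℝ))
    (E := (-6758819 / 262144 : ℝ)) (F := (-247931 / 268435456 : ℝ)) (by norm_num) (by norm_num) (by norm_num) (by norm_num) (by norm_num)
    (by norm_num) (by norm_num) (by norm_num) (by norm_num) (by norm_num) (by norm_num) (by norm_num) (by norm_num) (by norm_num) (by norm_num)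
  have e1 : C5.l = (2107 / 262144 : ℝ) := rfl
  have e2 : C5.u = (2317 / 262144 : ℝ) := rfl
  have e3 : C5.a1 = -(7242605 / 4194304 : ℝ) := by norm_num [C5]
  have e4 : C5.a2 = -(122879917 / 4194304 : ℝ) := by norm_num [C5]
  have e5 : C5.e = (-6758819 / 262144 : ℝ) := rfl
  have e6 : C5.f = (9331 / 268435456 : ℝ) + (229717 / 268435456 : ℝ) + (-247931 / 268435456 : ℝ) := by norm_num [C5]
  rw [e1, e2, e3, e4, e5, e6]
  exact h

lemma rcell6 : ∃ N : ℝ, Rw4 P.r2 N (coCell (56943 / 65536 : ℝ) (967365 / 65536 : ℝ) ((410789 / 32768 : ℝ) + (119 / 256 : ℝ)) (17 / 2048 : ℝ) C6) := by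
  refine ⟨(2415919104 : ℝ), ⟨Q9, List.mem_cons_of_mem _ (List.mem_cons_of_mem _ (List.mem_cons_of_mem _ (List.mem_cons_of_mem _ (List.mem_cons_of_mem _ (List.mem_cons_of_mem _ (List.mem_cons_of_mem _ (List.mem_cons_of_mem _ (List.mem_cons_of_mem _ (List.mem_cons_self))))))))), ?_⟩, by norm_num⟩
  constructor <;> norm_num [Q9, coCell, C6]

lemma lcell6 : ∀ x1 x2 xc : ℝ, 0 ≤ x1 → x1 ≤ 1 → 0 ≤ x2 → x2 ≤ 1 → C6.l ≤ xc → xc ≤ C6.u →
    (56943 / 65536 : ℝ) * (1 - (1 - x1) ^ 2) + (967365 / 65536 : ℝ) * (1 - (1 - x2) ^ 2) - ((410789 / 32768 : ℝ) + (119 / 256 : ℝ)) * (1 - (1 - xc) ^ 2)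
      ≤ - C6.a1 * x1 - C6.a2 * x2 + C6.e * xc + C6.f := by
  have h := cell_lines 2 (α1 := (56943 / 65536 : ℝ)) (α2 := (967365 / 65536 : ℝ)) (c := (410789 / 32768 : ℝ) + (119 / 256 : ℝ)) (y1 := (117 / 16384 : ℝ)) (y2 := (2189 / 262144 : ℝ))
    (A1 := (7236655 / 4194304 : ℝ)) (B1 := (11895 / 268435456 : ℝ)) (A2 := (61394377 / 2097152 : ℝ)) (B2 := (69075 / 67108864 : ℝ)) (l := (2317 / 262144 : ℝ)) (u := (637 / 65536 : ℝ))
    (E := (-13506171 / 524288 : ℝ)) (F := (-18739 / 16777216 : ℝ)) (by norm_num) (by norm_num) (by norm_num) (by norm_num) (by norm_num)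
    (by norm_num) (by norm_num) (by norm_num) (by norm_num) (by norm_num) (by norm_num) (by norm_num) (by norm_num) (by norm_num) (by norm_num)
  have e1 : C6.l = (2317 / 262144 : ℝ) := rfl
  have e2 : C6.u = (637 / 65536 : ℝ) := rfl
  have e3 : C6.a1 = -(7236655 / 4194304 : ℝ) := by norm_num [C6]
  have e4 : C6.a2 = -(61394377 / 2097152 : ℝ) := by norm_num [C6]
  have e5 : C6.e = (-13506171 / 524288 : ℝ) := rfl
  have e6 : C6.f = (11895 / 268435456 : ℝ) + (69075 / 67108864 : ℝ) + (-18739 / 16777216 : ℝ) := by norm_num [C6]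
  rw [e1, e2, e3, e4, e5, e6]
  exact h

lemma rcell7 : ∃ N : ℝ, Rw4 P.r2 N (coCell (56943 / 65536 : ℝ) (967365 / 65536 : ℝ) ((410789 / 32768 : ℝ) + (119 / 256 : ℝ)) (17 / 2048 : ℝ) C7) := by
  refine ⟨(1207959552 : ℝ), ⟨Q10, List.mem_cons_of_mem _ (List.mem_cons_of_mem _ (List.mem_cons_of_mem _ (List.mem_cons_of_mem _ (List.mem_cons_of_mem _ (List.mem_cons_of_mem _ (List.mem_cons_of_mem _ (List.mem_cons_of_mem _ (List.mem_cons_of_mem _ (List.mem_cons_of_mem _ (List.mem_cons_self)))))))))), ?_⟩, by norm_num⟩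
  constructor <;> norm_num [Q10, coCell, C7]

lemma lcell7 : ∀ x1 x2 xc : ℝ, 0 ≤ x1 → x1 ≤ 1 → 0 ≤ x2 → x2 ≤ 1 → C7.l ≤ xc → xc ≤ C7.u →
    (56943 / 65536 : ℝ) * (1 - (1 - x1) ^ 2) + (967365 / 65536 : ℝ) * (1 - (1 - x2) ^ 2) - ((410789 / 32768 : ℝ) + (119 / 256 : ℝ)) * (1 - (1 - xc) ^ 2)
      ≤ - C7.a1 * x1 - C7.a2 * x2 + C7.e * xc + C7.f := by
  have h := cell_lines 2 (α1 := (56943 / 65536 : ℝ)) (α2 := (967365 / 65536 : ℝ)) (c := (410789 / 32768 : ℝ) + (119 / 256 : ℝ)) (y1 := (2003 / 262144 : ℝ)) (y2 := (2409 / 262144 : ℝ))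
    (A1 := (1808253 / 1048576 : ℝ)) (B1 := (6815 / 134217728 : ℝ)) (A2 := (61342419 / 2097152 : ℝ)) (B2 := (41827 / 33554432 : ℝ)) (l := (637 / 65536 : ℝ)) (u := (1401 / 131072 : ℝ))
    (E := (-107948479 / 4194304 : ℝ)) (F := (-45323 / 33554432 : ℝ)) (by norm_num) (by norm_num) (by norm_num) (by norm_num) (by norm_num)
    (by norm_num) (by norm_num) (by norm_num) (by norm_num) (by norm_num) (by norm_num) (by norm_num) (by norm_num) (by norm_num) (by norm_num)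
  have e1 : C7.l = (637 / 65536 : ℝ) := rfl
  have e2 : C7.u = (1401 / 131072 : ℝ) := rfl
  have e3 : C7.a1 = -(1808253 / 1048576 : ℝ) := by norm_num [C7]
  have e4 : C7.a2 = -(61342419 / 2097152 : ℝ) := by norm_num [C7]
  have e5 : C7.e = (-107948479 / 4194304 : ℝ) := rfl
  have e6 : C7.f = (6815 / 134217728 : ℝ) + (41827 / 33554432 : ℝ) + (-45323 / 33554432 : ℝ) := by norm_num [C7]
  rw [e1, e2, e3, e4, e5, e6]
  exact h

lemma rcell8 : ∃ N : ℝ, Rw4 P.r2 N (coCell (56943 / 65536 : ℝ) (967365 / 65536 : ℝ) ((410789 / 32768 : ℝ) + (119 / 256 : ℝ)) (17 / 2048 : ℝ) C8) := by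
  refine ⟨(2415919104 : ℝ), ⟨Q11, List.mem_cons_of_mem _ (List.mem_cons_of_mem _ (List.mem_cons_of_mem _ (List.mem_cons_of_mem _ (List.mem_cons_of_mem _ (List.mem_cons_of_mem _ (List.mem_cons_of_mem _ (List.mem_cons_of_mem _ (List.mem_cons_of_mem _ (List.mem_cons_of_mem _ (List.mem_cons_of_mem _ (List.mem_cons_self))))))))))), ?_⟩, by norm_num⟩
  constructor <;> norm_num [Q11, coCell, C8]

lemma lcell8 : ∀ x1 x2 xc : ℝ, 0 ≤ x1 → x1 ≤ 1 → 0 ≤ x2 → x2 ≤ 1 → C8.l ≤ xc → xc ≤ C8.u →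
    (56943 / 65536 : ℝ) * (1 - (1 - x1) ^ 2) + (967365 / 65536 : ℝ) * (1 - (1 - x2) ^ 2) - ((410789 / 32768 : ℝ) + (119 / 256 : ℝ)) * (1 - (1 - xc) ^ 2)
      ≤ - C8.a1 * x1 - C8.a2 * x2 + C8.e * xc + C8.f := by
  have h := cell_lines 2 (α1 := (56943 / 65536 : ℝ)) (α2 := (967365 / 65536 : ℝ)) (c := (410789 / 32768 : ℝ) + (119 / 256 : ℝ)) (y1 := (137 / 16384 : ℝ)) (y2 := (83 / 8192 : ℝ))
    (A1 := (7227757 / 4194304 : ℝ)) (B1 := (16321 / 268435456 : ℝ)) (A2 := (122568169 / 4194304 : ℝ)) (B2 := (203375 / 134217728 : ℝ)) (l := (1401 / 131072 : ℝ)) (u := (3081 / 262144 : ℝ))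
    (E := (-53918803 / 2097152 : ℝ)) (F := (-219215 / 134217728 : ℝ)) (by norm_num) (by norm_num) (by norm_num) (by norm_num) (by norm_num)
    (by norm_num) (by norm_num) (by norm_num) (by norm_num) (by norm_num) (by norm_num) (by norm_num) (by norm_num) (by norm_num) (by norm_num)
  have e1 : C8.l = (1401 / 131072 : ℝ) := rfl
  have e2 : C8.u = (3081 / 262144 : ℝ) := rfl
  have e3 : C8.a1 = -(7227757 / 4194304 : ℝ) := by norm_num [C8]
  have e4 : C8.a2 = -(122568169 / 4194304 : ℝ) := by norm_num [C8]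
  have e5 : C8.e = (-53918803 / 2097152 : ℝ) := rfl
  have e6 : C8.f = (16321 / 268435456 : ℝ) + (203375 / 134217728 : ℝ) + (-219215 / 134217728 : ℝ) := by norm_num [C8]
  rw [e1, e2, e3, e4, e5, e6]
  exact h

lemma rcell9 : ∃ N : ℝ, Rw4 P.r2 N (coCell (56943 / 65536 : ℝ) (967365 / 65536 : ℝ) ((410789 / 32768 : ℝ) + (119 / 256 : ℝ)) (17 / 2048 : ℝ) C9) := by
  refine ⟨(603979776 : ℝ), ⟨Q12, List.mem_cons_of_mem _ (List.mem_cons_of_mem _ (List.mem_cons_of_mem _ (List.mem_cons_of_mem _ (List.mem_cons_of_mem _ (List.mem_cons_of_mem _ (List.mem_cons_of_mem _ (List.mem_cons_of_mem _ (List.mem_cons_of_mem _ (List.mem_cons_of_mem _ (List.mem_cons_of_mem _ (List.mem_cons_of_mem _ (List.mem_cons_self)))))))))))), ?_⟩, by norm_num⟩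
  constructor <;> norm_num [Q12, coCell, C9]

lemma lcell9 : ∀ x1 x2 xc : ℝ, 0 ≤ x1 → x1 ≤ 1 → 0 ≤ x2 → x2 ≤ 1 → C9.l ≤ xc → xc ≤ C9.u →
    (56943 / 65536 : ℝ) * (1 - (1 - x1) ^ 2) + (967365 / 65536 : ℝ) * (1 - (1 - x2) ^ 2) - ((410789 / 32768 : ℝ) + (119 / 256 : ℝ)) * (1 - (1 - xc) ^ 2)
      ≤ - C9.a1 * x1 - C9.a2 * x2 + C9.e * xc + C9.f := by
  have h := cell_lines 2 (α1 := (56943 / 65536 : ℝ)) (α2 := (967365 / 65536 : ℝ)) (c := (410789 / 32768 : ℝ) + (119 / 256 : ℝ)) (y1 := (1209 / 131072 : ℝ)) (y2 := (2917 / 262144 : ℝ))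
    (A1 := (7221473 / 4194304 : ℝ)) (B1 := (19873 / 268435456 : ℝ)) (A2 := (61222443 / 2097152 : ℝ)) (B2 := (490629 / 268435456 : ℝ)) (l := (3081 / 262144 : ℝ)) (u := (847 / 65536 : ℝ))
    (E := (-107715707 / 4194304 : ℝ)) (F := (-265061 / 134217728 : ℝ)) (by norm_num) (by norm_num) (by norm_num) (by norm_num) (by norm_num)
    (by norm_num) (by norm_num) (by norm_num) (by norm_num) (by norm_num) (by norm_num) (by norm_num) (by norm_num) (by norm_num) (by norm_num)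
  have e1 : C9.l = (3081 / 262144 : ℝ) := rfl
  have e2 : C9.u = (847 / 65536 : ℝ) := rfl
  have e3 : C9.a1 = -(7221473 / 4194304 : ℝ) := by norm_num [C9]
  have e4 : C9.a2 = -(61222443 / 2097152 : ℝ) := by norm_num [C9]
  have e5 : C9.e = (-107715707 / 4194304 : ℝ) := rfl
  have e6 : C9.f = (19873 / 268435456 : ℝ) + (490629 / 268435456 : ℝ) + (-265061 / 134217728 : ℝ) := by norm_num [C9]
  rw [e1, e2, e3, e4, e5, e6]
  exact h

lemma rcell10 : ∃ N : ℝ, Rw4 P.r2 N (coCell (56943 / 65536 : ℝ) (967365 / 65536 : ℝ) ((410789 / 32768 : ℝ) + (119 / 256 : ℝ)) (17 / 2048 : ℝ) C10) := by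
  refine ⟨(2415919104 : ℝ), ⟨Q13, List.mem_cons_of_mem _ (List.mem_cons_of_mem _ (List.mem_cons_of_mem _ (List.mem_cons_of_mem _ (List.mem_cons_of_mem _ (List.mem_cons_of_mem _ (List.mem_cons_of_mem _ (List.mem_cons_of_mem _ (List.mem_cons_of_mem _ (List.mem_cons_of_mem _ (List.mem_cons_of_mem _ (List.mem_cons_of_mem _ (List.mem_cons_of_mem _ (List.mem_cons_self))))))))))))), ?_⟩, by norm_num⟩
  constructor <;> norm_num [Q13, coCell, C10]

lemma lcell10 : ∀ x1 x2 xc : ℝ, 0 ≤ x1 → x1 ≤ 1 → 0 ≤ x2 → x2 ≤ 1 → C10.l ≤ xc → xc ≤ C10.u →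
    (56943 / 65536 : ℝ) * (1 - (1 - x1) ^ 2) + (967365 / 65536 : ℝ) * (1 - (1 - x2) ^ 2) - ((410789 / 32768 : ℝ) + (119 / 256 : ℝ)) * (1 - (1 - xc) ^ 2)
      ≤ - C10.a1 * x1 - C10.a2 * x2 + C10.e * xc + C10.f := by
  have h := cell_lines 2 (α1 := (56943 / 65536 : ℝ)) (α2 := (967365 / 65536 : ℝ)) (c := (410789 / 32768 : ℝ) + (119 / 256 : ℝ)) (y1 := (83 / 8192 : ℝ)) (y2 := (3205 / 262144 : ℝ))
    (A1 := (901857 / 524288 : ℝ)) (B1 := (11973 / 134217728 : ℝ)) (A2 := (61154425 / 2097152 : ℝ)) (B2 := (592309 / 268435456 : ℝ)) (l := (847 / 65536 : ℝ)) (u := (3725 / 262144 : ℝ))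
    (E := (-107581743 / 4194304 : ℝ)) (F := (-320465 / 134217728 : ℝ)) (by norm_num) (by norm_num) (by norm_num) (by norm_num) (by norm_num)
    (by norm_num) (by norm_num) (by norm_num) (by norm_num) (by norm_num) (by norm_num) (by norm_num) (by norm_num) (by norm_num) (by norm_num)
  have e1 : C10.l = (847 / 65536 : ℝ) := rfl
  have e2 : C10.u = (3725 / 262144 : ℝ) := rfl
  have e3 : C10.a1 = -(901857 / 524288 : ℝ) := by norm_num [C10]
  have e4 : C10.a2 = -(61154425 / 2097152 : ℝ) := by norm_num [C10]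
  have e5 : C10.e = (-107581743 / 4194304 : ℝ) := rfl
  have e6 : C10.f = (11973 / 134217728 : ℝ) + (592309 / 268435456 : ℝ) + (-320465 / 134217728 : ℝ) := by norm_num [C10]
  rw [e1, e2, e3, e4, e5, e6]
  exact h

lemma rcell11 : ∃ N : ℝ, Rw4 P.r2 N (coCell (56943 / 65536 : ℝ) (967365 / 65536 : ℝ) ((410789 / 32768 : ℝ) + (119 / 256 : ℝ)) (17 / 2048 : ℝ) C11) := by
  refine ⟨(603979776 : ℝ), ⟨Q14, List.mem_cons_of_mem _ (List.mem_cons_of_mem _ (List.mem_cons_of_mem _ (List.mem_cons_of_mem _ (List.mem_cons_of_mem _ (List.mem_cons_of_mem _ (List.mem_cons_of_mem _ (List.mem_cons_of_mem _ (List.mem_cons_of_mem _ (List.mem_cons_of_mem _ (List.mem_cons_of_mem _ (List.mem_cons_of_mem _ (List.mem_cons_of_mem _ (List.mem_cons_of_mem _ (List.mem_cons_self)))))))))))))), ?_⟩, by norm_num⟩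
  constructor <;> norm_num [Q14, coCell, C11]

lemma lcell11 : ∀ x1 x2 xc : ℝ, 0 ≤ x1 → x1 ≤ 1 → 0 ≤ x2 → x2 ≤ 1 → C11.l ≤ xc → xc ≤ C11.u →
    (56943 / 65536 : ℝ) * (1 - (1 - x1) ^ 2) + (967365 / 65536 : ℝ) * (1 - (1 - x2) ^ 2) - ((410789 / 32768 : ℝ) + (119 / 256 : ℝ)) * (1 - (1 - xc) ^ 2)
      ≤ - C11.a1 * x1 - C11.a2 * x2 + C11.e * xc + C11.f := by
  have h := cell_lines 2 (α1 := (56943 / 65536 : ℝ)) (α2 := (967365 / 65536 : ℝ)) (c := (410789 / 32768 : ℝ) + (119 / 256 : ℝ)) (y1 := (2943 / 262144 : ℝ)) (y2 := (55 / 4096 : ℝ))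
    (A1 := (1801719 / 1048576 : ℝ)) (B1 := (29413 / 268435456 : ℝ)) (A2 := (122160061 / 4194304 : ℝ)) (B2 := (357225 / 134217728 : ℝ)) (l := (3725 / 262144 : ℝ)) (u := (1 / 64 : ℝ))
    (E := (-107434467 / 4194304 : ℝ)) (F := (-774867 / 268435456 : ℝ)) (by norm_num) (by norm_num) (by norm_num) (by norm_num) (by norm_num)
    (by norm_num) (by norm_num) (by norm_num) (by norm_num) (by norm_num) (by norm_num) (by norm_num) (by norm_num) (by norm_num) (by norm_num)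
  have e1 : C11.l = (3725 / 262144 : ℝ) := rfl
  have e2 : C11.u = (1 / 64 : ℝ) := rfl
  have e3 : C11.a1 = -(1801719 / 1048576 : ℝ) := by norm_num [C11]
  have e4 : C11.a2 = -(122160061 / 4194304 : ℝ) := by norm_num [C11]
  have e5 : C11.e = (-107434467 / 4194304 : ℝ) := rfl
  have e6 : C11.f = (29413 / 268435456 : ℝ) + (357225 / 134217728 : ℝ) + (-774867 / 268435456 : ℝ) := by norm_num [C11]
  rw [e1, e2, e3, e4, e5, e6]
  exact h

/-- A chord cell of a link. -/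
noncomputable def P0C0 : Cell := ⟨(1 / 64 : ℝ), (4307 / 262144 : ℝ), (-1740735 / 524288 : ℝ), (-108220317 / 4194304 : ℝ), (-1547655 / 65536 : ℝ), (-240747 / 1073741824 : ℝ)⟩

/-- A chord cell of a link. -/
noncomputable def P0C1 : Cell := ⟨(4307 / 262144 : ℝ), (4565 / 262144 : ℝ), (-1740445 / 524288 : ℝ), (-108111495 / 4194304 : ℝ), (-193281 / 8192 : ℝ), (-215771 / 1073741824 : ℝ)⟩

/-- A chord cell of a link. -/
noncomputable def P0C2 : Cell := ⟨(4565 / 262144 : ℝ), (4839 / 262144 : ℝ), (-13906937 / 4194304 : ℝ), (-54005731 / 2097152 : ℝ), (-386163 / 16384 : ℝ), (-214119 / 1073741824 : ℝ)⟩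

/-- A chord cell of a link. -/
noncomputable def P0C3 : Cell := ⟨(4839 / 262144 : ℝ), (2565 / 131072 : ℝ), (-13896899 / 4194304 : ℝ), (-26974509 / 1048576 : ℝ), (-1542957 / 65536 : ℝ), (-215175 / 1073741824 : ℝ)⟩

/-- A chord cell of a link. -/
noncomputable def P0C4 : Cell := ⟨(2565 / 131072 : ℝ), (2719 / 131072 : ℝ), (-13897115 / 4194304 : ℝ), (-107767031 / 4194304 : ℝ), (-192645 / 8192 : ℝ), (-215559 / 1073741824 : ℝ)⟩

/-- A chord cell of a link. -/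
noncomputable def P0C5 : Cell := ⟨(2719 / 131072 : ℝ), (1441 / 65536 : ℝ), (-13897223 / 4194304 : ℝ), (-53815083 / 2097152 : ℝ), (-769629 / 32768 : ℝ), (-217131 / 1073741824 : ℝ)⟩

/-- A chord cell of a link. -/
noncomputable def P0C6 : Cell := ⟨(1441 / 65536 : ℝ), (3055 / 131072 : ℝ), (-13886051 / 4194304 : ℝ), (-53749371 / 2097152 : ℝ), (-768621 / 32768 : ℝ), (-230631 / 1073741824 : ℝ)⟩

/-- A chord cell of a link. -/
noncomputable def P0C7 : Cell := ⟨(3055 / 131072 : ℝ), (1619 / 65536 : ℝ), (-13875635 / 4194304 : ℝ), (-53677381 / 2097152 : ℝ), (-767553 / 32768 : ℝ), (-225827 / 1073741824 : ℝ)⟩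

/-- A chord cell of a link. -/
noncomputable def P0C8 : Cell := ⟨(1619 / 65536 : ℝ), (6865 / 262144 : ℝ), (-6933689 / 2097152 : ℝ), (-107202411 / 4194304 : ℝ), (-1532841 / 65536 : ℝ), (-233723 / 1073741824 : ℝ)⟩

/-- A chord cell of a link. -/
noncomputable def P0C9 : Cell := ⟨(6865 / 262144 : ℝ), (7277 / 262144 : ℝ), (-6931989 / 2097152 : ℝ), (-13380839 / 524288 : ℝ), (-765219 / 32768 : ℝ), (-304735 / 1073741824 : ℝ)⟩

/-- A chord cell of a link. -/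
noncomputable def P0C10 : Cell := ⟨(7277 / 262144 : ℝ), (7713 / 262144 : ℝ), (-13832137 / 4194304 : ℝ), (-53446971 / 2097152 : ℝ), (-763947 / 32768 : ℝ), (-309299 / 1073741824 : ℝ)⟩

/-- A chord cell of a link. -/
noncomputable def P0C11 : Cell := ⟨(7713 / 262144 : ℝ), (983 / 32768 : ℝ), (-13827279 / 4194304 : ℝ), (-106770889 / 4194304 : ℝ), (-1526133 / 65536 : ℝ), (-301171 / 1073741824 : ℝ)⟩

/-- The chord cells of a link. -/
noncomputable def cellsP0 : List Cell := [P0C0, P0C1, P0C2, P0C3, P0C4, P0C5, P0C6, P0C7, P0C8, P0C9, P0C10, P0C11]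

lemma hcoverP0 : ∀ x : ℝ, (1 / 64 : ℝ) ≤ x → x ≤ (983 / 32768 : ℝ) → ∃ D ∈ cellsP0, D.l ≤ x ∧ x ≤ D.u := by
  refine cover_of_chain ?_ (by norm_num [P0C0])
  simp only [ChainP, P0C0, P0C1, P0C2, P0C3, P0C4, P0C5, P0C6, P0C7, P0C8, P0C9, P0C10, P0C11]
  norm_num

lemma rP0C0 : ∃ N : ℝ, Rw4 P.r2 N (coCell (1727 / 1024 : ℝ) (26787 / 2048 : ℝ) (12 : ℝ) 0 P0C0) := by
  refine ⟨(3221225472 : ℝ), ⟨Q15, List.mem_cons_of_mem _ (List.mem_cons_of_mem _ (List.mem_cons_of_mem _ (List.mem_cons_of_mem _ (List.mem_cons_of_mem _ (List.mem_cons_of_mem _ (List.mem_cons_of_mem _ (List.mem_cons_of_mem _ (List.mem_cons_of_mem _ (List.mem_cons_of_mem _ (List.mem_cons_of_mem _ (List.mem_cons_of_mem _ (List.mem_cons_of_mem _ (List.mem_cons_of_mem _ (List.mem_cons_of_mem _ (List.mem_cons_self))))))))))))))), ?_⟩, by norm_num⟩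
  constructor <;> norm_num [Q15, coCell, P0C0]

lemma lP0C0 : ∀ x1 x2 xc : ℝ, 0 ≤ x1 → x1 ≤ 1 → 0 ≤ x2 → x2 ≤ 1 → P0C0.l ≤ xc → xc ≤ P0C0.u →
    (1727 / 1024 : ℝ) * (1 - (1 - x1) ^ 2) + (26787 / 2048 : ℝ) * (1 - (1 - x2) ^ 2) - (12 : ℝ) * (1 - (1 - xc) ^ 2) + (1 / 1073741824 : ℝ)
      ≤ - P0C0.a1 * x1 - P0C0.a2 * x2 + P0C0.e * xc + P0C0.f := by
  have h := cell_lines_delta 2 (α1 := (1727 / 1024 : ℝ)) (α2 := (26787 / 2048 : ℝ)) (c := (12 : ℝ)) (y1 := (1027 / 65536 : ℝ)) (y2 := (1791 / 131072 : ℝ))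
    (A1 := (1740735 / 524288 : ℝ)) (B1 := (111201 / 268435456 : ℝ)) (A2 := (108220317 / 4194304 : ℝ)) (B2 := (163889 / 67108864 : ℝ)) (l := (1 / 64 : ℝ)) (u := (4307 / 262144 : ℝ))
    (E := (-1547655 / 65536 : ℝ)) (F := (-12921 / 4194304 : ℝ)) (δ := (1 / 1073741824 : ℝ)) (by norm_num) (by norm_num) (by norm_num) (by norm_num) (by norm_num)
    (by norm_num) (by norm_num) (by norm_num) (by norm_num) (by norm_num) (by norm_num) (by norm_num) (by norm_num) (by norm_num) (by norm_num)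
  have e1 : P0C0.l = (1 / 64 : ℝ) := rfl
  have e2 : P0C0.u = (4307 / 262144 : ℝ) := rfl
  have e3 : P0C0.a1 = -(1740735 / 524288 : ℝ) := by norm_num [P0C0]
  have e4 : P0C0.a2 = -(108220317 / 4194304 : ℝ) := by norm_num [P0C0]
  have e5 : P0C0.e = (-1547655 / 65536 : ℝ) := rfl
  have e6 : P0C0.f = (111201 / 268435456 : ℝ) + (163889 / 67108864 : ℝ) + (-12921 / 4194304 : ℝ) + (1 / 1073741824 : ℝ) := by norm_num [P0C0]
  rw [e1, e2, e3, e4, e5, e6]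
  exact h

lemma rP0C1 : ∃ N : ℝ, Rw4 P.r2 N (coCell (1727 / 1024 : ℝ) (26787 / 2048 : ℝ) (12 : ℝ) 0 P0C1) := by
  refine ⟨(3221225472 : ℝ), ⟨Q16, List.mem_cons_of_mem _ (List.mem_cons_of_mem _ (List.mem_cons_of_mem _ (List.mem_cons_of_mem _ (List.mem_cons_of_mem _ (List.mem_cons_of_mem _ (List.mem_cons_of_mem _ (List.mem_cons_of_mem _ (List.mem_cons_of_mem _ (List.mem_cons_of_mem _ (List.mem_cons_of_mem _ (List.mem_cons_of_mem _ (List.mem_cons_of_mem _ (List.mem_cons_of_mem _ (List.mem_cons_of_mem _ (List.mem_cons_of_mem _ (List.mem_cons_self)))))))))))))))), ?_⟩, by norm_num⟩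
  constructor <;> norm_num [Q16, coCell, P0C1]

lemma lP0C1 : ∀ x1 x2 xc : ℝ, 0 ≤ x1 → x1 ≤ 1 → 0 ≤ x2 → x2 ≤ 1 → P0C1.l ≤ xc → xc ≤ P0C1.u →
    (1727 / 1024 : ℝ) * (1 - (1 - x1) ^ 2) + (26787 / 2048 : ℝ) * (1 - (1 - x2) ^ 2) - (12 : ℝ) * (1 - (1 - xc) ^ 2) + (1 / 1073741824 : ℝ)
      ≤ - P0C1.a1 * x1 - P0C1.a2 * x2 + P0C1.e * xc + P0C1.f := by
  have h := cell_lines_delta 2 (α1 := (1727 / 1024 : ℝ)) (α2 := (26787 / 2048 : ℝ)) (c := (12 : ℝ)) (y1 := (4151 / 262144 : ℝ)) (y2 := (1921 / 131072 : ℝ))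
    (A1 := (1740445 / 524288 : ℝ)) (B1 := (113517 / 268435456 : ℝ)) (A2 := (108111495 / 4194304 : ℝ)) (B2 := (377085 / 134217728 : ℝ)) (l := (4307 / 262144 : ℝ)) (u := (4565 / 262144 : ℝ))
    (E := (-193281 / 8192 : ℝ)) (F := (-460815 / 134217728 : ℝ)) (δ := (1 / 1073741824 : ℝ)) (by norm_num) (by norm_num) (by norm_num) (by norm_num) (by norm_num)
    (by norm_num) (by norm_num) (by norm_num) (by norm_num) (by norm_num) (by norm_num) (by norm_num) (by norm_num) (by norm_num) (by norm_num)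
  have e1 : P0C1.l = (4307 / 262144 : ℝ) := rfl
  have e2 : P0C1.u = (4565 / 262144 : ℝ) := rfl
  have e3 : P0C1.a1 = -(1740445 / 524288 : ℝ) := by norm_num [P0C1]
  have e4 : P0C1.a2 = -(108111495 / 4194304 : ℝ) := by norm_num [P0C1]
  have e5 : P0C1.e = (-193281 / 8192 : ℝ) := rfl
  have e6 : P0C1.f = (113517 / 268435456 : ℝ) + (377085 / 134217728 : ℝ) + (-460815 / 134217728 : ℝ) + (1 / 1073741824 : ℝ) := by norm_num [P0C1]
  rw [e1, e2, e3, e4, e5, e6]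
  exact h

lemma rP0C2 : ∃ N : ℝ, Rw4 P.r2 N (coCell (1727 / 1024 : ℝ) (26787 / 2048 : ℝ) (12 : ℝ) 0 P0C2) := by
  refine ⟨(3221225472 : ℝ), ⟨Q17, List.mem_cons_of_mem _ (List.mem_cons_of_mem _ (List.mem_cons_of_mem _ (List.mem_cons_of_mem _ (List.mem_cons_of_mem _ (List.mem_cons_of_mem _ (List.mem_cons_of_mem _ (List.mem_cons_of_mem _ (List.mem_cons_of_mem _ (List.mem_cons_of_mem _ (List.mem_cons_of_mem _ (List.mem_cons_of_mem _ (List.mem_cons_of_mem _ (List.mem_cons_of_mem _ (List.mem_cons_of_mem _ (List.mem_cons_of_mem _ (List.mem_cons_of_mem _ (List.mem_cons_self))))))))))))))))), ?_⟩, by norm_num⟩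
  constructor <;> norm_num [Q17, coCell, P0C2]

lemma lP0C2 : ∀ x1 x2 xc : ℝ, 0 ≤ x1 → x1 ≤ 1 → 0 ≤ x2 → x2 ≤ 1 → P0C2.l ≤ xc → xc ≤ P0C2.u →
    (1727 / 1024 : ℝ) * (1 - (1 - x1) ^ 2) + (26787 / 2048 : ℝ) * (1 - (1 - x2) ^ 2) - (12 : ℝ) * (1 - (1 - xc) ^ 2) + (1 / 1073741824 : ℝ)
      ≤ - P0C2.a1 * x1 - P0C2.a2 * x2 + P0C2.e * xc + P0C2.f := by
  have h := cell_lines_delta 2 (α1 := (1727 / 1024 : ℝ)) (α2 := (26787 / 2048 : ℝ)) (c := (12 : ℝ)) (y1 := (4459 / 262144 : ℝ)) (y2 := (4081 / 262144 : ℝ))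
    (A1 := (13906937 / 4194304 : ℝ)) (B1 := (131009 / 268435456 : ℝ)) (A2 := (54005731 / 2097152 : ℝ)) (B2 := (850931 / 268435456 : ℝ)) (l := (4565 / 262144 : ℝ)) (u := (4839 / 262144 : ℝ))
    (E := (-386163 / 16384 : ℝ)) (F := (-517735 / 134217728 : ℝ)) (δ := (1 / 1073741824 : ℝ)) (by norm_num) (by norm_num) (by norm_num) (by norm_num) (by norm_num)
    (by norm_num) (by norm_num) (by norm_num) (by norm_num) (by norm_num) (by norm_num) (by norm_num) (by norm_num) (by norm_num) (by norm_num)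
  have e1 : P0C2.l = (4565 / 262144 : ℝ) := rfl
  have e2 : P0C2.u = (4839 / 262144 : ℝ) := rfl
  have e3 : P0C2.a1 = -(13906937 / 4194304 : ℝ) := by norm_num [P0C2]
  have e4 : P0C2.a2 = -(54005731 / 2097152 : ℝ) := by norm_num [P0C2]
  have e5 : P0C2.e = (-386163 / 16384 : ℝ) := rfl
  have e6 : P0C2.f = (131009 / 268435456 : ℝ) + (850931 / 268435456 : ℝ) + (-517735 / 134217728 : ℝ) + (1 / 1073741824 : ℝ) := by norm_num [P0C2]
  rw [e1, e2, e3, e4, e5, e6]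
  exact h

lemma rP0C3 : ∃ N : ℝ, Rw4 P.r2 N (coCell (1727 / 1024 : ℝ) (26787 / 2048 : ℝ) (12 : ℝ) 0 P0C3) := by
  refine ⟨(3221225472 : ℝ), ⟨Q18, List.mem_cons_of_mem _ (List.mem_cons_of_mem _ (List.mem_cons_of_mem _ (List.mem_cons_of_mem _ (List.mem_cons_of_mem _ (List.mem_cons_of_mem _ (List.mem_cons_of_mem _ (List.mem_cons_of_mem _ (List.mem_cons_of_mem _ (List.mem_cons_of_mem _ (List.mem_cons_of_mem _ (List.mem_cons_of_mem _ (List.mem_cons_of_mem _ (List.mem_cons_of_mem _ (List.mem_cons_of_mem _ (List.mem_cons_of_mem _ (List.mem_cons_of_mem _ (List.mem_cons_of_mem _ (List.mem_cons_self)))))))))))))))))), ?_⟩, by norm_num⟩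
  constructor <;> norm_num [Q18, coCell, P0C3]

lemma lP0C3 : ∀ x1 x2 xc : ℝ, 0 ≤ x1 → x1 ≤ 1 → 0 ≤ x2 → x2 ≤ 1 → P0C3.l ≤ xc → xc ≤ P0C3.u →
    (1727 / 1024 : ℝ) * (1 - (1 - x1) ^ 2) + (26787 / 2048 : ℝ) * (1 - (1 - x2) ^ 2) - (12 : ℝ) * (1 - (1 - xc) ^ 2) + (1 / 1073741824 : ℝ)
      ≤ - P0C3.a1 * x1 - P0C3.a2 * x2 + P0C3.e * xc + P0C3.f := by
  have h := cell_lines_delta 2 (α1 := (1727 / 1024 : ℝ)) (α2 := (26787 / 2048 : ℝ)) (c := (12 : ℝ)) (y1 := (4645 / 262144 : ℝ)) (y2 := (17 / 1024 : ℝ))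
    (A1 := (13896899 / 4194304 : ℝ)) (B1 := (142153 / 268435456 : ℝ)) (A2 := (26974509 / 1048576 : ℝ)) (B2 := (967681 / 268435456 : ℝ)) (l := (4839 / 262144 : ℝ)) (u := (2565 / 131072 : ℝ))
    (E := (-1542957 / 65536 : ℝ)) (F := (-290907 / 67108864 : ℝ)) (δ := (1 / 1073741824 : ℝ)) (by norm_num) (by norm_num) (by norm_num) (by norm_num) (by norm_num)
    (by norm_num) (by norm_num) (by norm_num) (by norm_num) (by norm_num) (by norm_num) (by norm_num) (by norm_num) (by norm_num) (by norm_num)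
  have e1 : P0C3.l = (4839 / 262144 : ℝ) := rfl
  have e2 : P0C3.u = (2565 / 131072 : ℝ) := rfl
  have e3 : P0C3.a1 = -(13896899 / 4194304 : ℝ) := by norm_num [P0C3]
  have e4 : P0C3.a2 = -(26974509 / 1048576 : ℝ) := by norm_num [P0C3]
  have e5 : P0C3.e = (-1542957 / 65536 : ℝ) := rfl
  have e6 : P0C3.f = (142153 / 268435456 : ℝ) + (967681 / 268435456 : ℝ) + (-290907 / 67108864 : ℝ) + (1 / 1073741824 : ℝ) := by norm_num [P0C3]
  rw [e1, e2, e3, e4, e5, e6]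
  exact h

lemma rP0C4 : ∃ N : ℝ, Rw4 P.r2 N (coCell (1727 / 1024 : ℝ) (26787 / 2048 : ℝ) (12 : ℝ) 0 P0C4) := by
  refine ⟨(3221225472 : ℝ), ⟨Q19, List.mem_cons_of_mem _ (List.mem_cons_of_mem _ (List.mem_cons_of_mem _ (List.mem_cons_of_mem _ (List.mem_cons_of_mem _ (List.mem_cons_of_mem _ (List.mem_cons_of_mem _ (List.mem_cons_of_mem _ (List.mem_cons_of_mem _ (List.mem_cons_of_mem _ (List.mem_cons_of_mem _ (List.mem_cons_of_mem _ (List.mem_cons_of_mem _ (List.mem_cons_of_mem _ (List.mem_cons_of_mem _ (List.mem_cons_of_mem _ (List.mem_cons_of_mem _ (List.mem_cons_of_mem _ (List.mem_cons_of_mem _ (List.mem_cons_self))))))))))))))))))), ?_⟩, by norm_num⟩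
  constructor <;> norm_num [Q19, coCell, P0C4]

lemma lP0C4 : ∀ x1 x2 xc : ℝ, 0 ≤ x1 → x1 ≤ 1 → 0 ≤ x2 → x2 ≤ 1 → P0C4.l ≤ xc → xc ≤ P0C4.u →
    (1727 / 1024 : ℝ) * (1 - (1 - x1) ^ 2) + (26787 / 2048 : ℝ) * (1 - (1 - x2) ^ 2) - (12 : ℝ) * (1 - (1 - xc) ^ 2) + (1 / 1073741824 : ℝ)
      ≤ - P0C4.a1 * x1 - P0C4.a2 * x2 + P0C4.e * xc + P0C4.f := by
  have h := cell_lines_delta 2 (α1 := (1727 / 1024 : ℝ)) (α2 := (26787 / 2048 : ℝ)) (c := (12 : ℝ)) (y1 := (4641 / 262144 : ℝ)) (y2 := (4665 / 262144 : ℝ))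
    (A1 := (13897115 / 4194304 : ℝ)) (B1 := (35475 / 67108864 : ℝ)) (A2 := (107767031 / 4194304 : ℝ)) (B2 := (1111879 / 268435456 : ℝ)) (l := (2565 / 131072 : ℝ)) (u := (2719 / 131072 : ℝ))
    (E := (-192645 / 8192 : ℝ)) (F := (-1307669 / 268435456 : ℝ)) (δ := (1 / 1073741824 : ℝ)) (by norm_num) (by norm_num) (by norm_num) (by norm_num) (by norm_num)
    (by norm_num) (by norm_num) (by norm_num) (by norm_num) (by norm_num) (by norm_num) (by norm_num) (by norm_num) (by norm_num) (by norm_num)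
  have e1 : P0C4.l = (2565 / 131072 : ℝ) := rfl
  have e2 : P0C4.u = (2719 / 131072 : ℝ) := rfl
  have e3 : P0C4.a1 = -(13897115 / 4194304 : ℝ) := by norm_num [P0C4]
  have e4 : P0C4.a2 = -(107767031 / 4194304 : ℝ) := by norm_num [P0C4]
  have e5 : P0C4.e = (-192645 / 8192 : ℝ) := rfl
  have e6 : P0C4.f = (35475 / 67108864 : ℝ) + (1111879 / 268435456 : ℝ) + (-1307669 / 268435456 : ℝ) + (1 / 1073741824 : ℝ) := by norm_num [P0C4]
  rw [e1, e2, e3, e4, e5, e6]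
  exact h

lemma rP0C5 : ∃ N : ℝ, Rw4 P.r2 N (coCell (1727 / 1024 : ℝ) (26787 / 2048 : ℝ) (12 : ℝ) 0 P0C5) := by
  refine ⟨(3221225472 : ℝ), ⟨Q20, List.mem_cons_of_mem _ (List.mem_cons_of_mem _ (List.mem_cons_of_mem _ (List.mem_cons_of_mem _ (List.mem_cons_of_mem _ (List.mem_cons_of_mem _ (List.mem_cons_of_mem _ (List.mem_cons_of_mem _ (List.mem_cons_of_mem _ (List.mem_cons_of_mem _ (List.mem_cons_of_mem _ (List.mem_cons_of_mem _ (List.mem_cons_of_mem _ (List.mem_cons_of_mem _ (List.mem_cons_of_mem _ (List.mem_cons_of_mem _ (List.mem_cons_of_mem _ (List.mem_cons_of_mem _ (List.mem_cons_of_mem _ (List.mem_cons_of_mem _ (List.mem_cons_self)))))))))))))))))))), ?_⟩, by norm_num⟩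
  constructor <;> norm_num [Q20, coCell, P0C5]

lemma lP0C5 : ∀ x1 x2 xc : ℝ, 0 ≤ x1 → x1 ≤ 1 → 0 ≤ x2 → x2 ≤ 1 → P0C5.l ≤ xc → xc ≤ P0C5.u →
    (1727 / 1024 : ℝ) * (1 - (1 - x1) ^ 2) + (26787 / 2048 : ℝ) * (1 - (1 - x2) ^ 2) - (12 : ℝ) * (1 - (1 - xc) ^ 2) + (1 / 1073741824 : ℝ)
      ≤ - P0C5.a1 * x1 - P0C5.a2 * x2 + P0C5.e * xc + P0C5.f := by
  have h := cell_lines_delta 2 (α1 := (1727 / 1024 : ℝ)) (α2 := (26787 / 2048 : ℝ)) (c := (12 : ℝ)) (y1 := (4639 / 262144 : ℝ)) (y2 := (39 / 2048 : ℝ))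
    (A1 := (13897223 / 4194304 : ℝ)) (B1 := (8861 / 16777216 : ℝ)) (A2 := (53815083 / 2097152 : ℝ)) (B2 := (318305 / 67108864 : ℝ)) (l := (2719 / 131072 : ℝ)) (u := (1441 / 65536 : ℝ))
    (E := (-769629 / 32768 : ℝ)) (F := (-1469279 / 268435456 : ℝ)) (δ := (1 / 1073741824 : ℝ)) (by norm_num) (by norm_num) (by norm_num) (by norm_num) (by norm_num)
    (by norm_num) (by norm_num) (by norm_num) (by norm_num) (by norm_num) (by norm_num) (by norm_num) (by norm_num) (by norm_num) (by norm_num)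
  have e1 : P0C5.l = (2719 / 131072 : ℝ) := rfl
  have e2 : P0C5.u = (1441 / 65536 : ℝ) := rfl
  have e3 : P0C5.a1 = -(13897223 / 4194304 : ℝ) := by norm_num [P0C5]
  have e4 : P0C5.a2 = -(53815083 / 2097152 : ℝ) := by norm_num [P0C5]
  have e5 : P0C5.e = (-769629 / 32768 : ℝ) := rfl
  have e6 : P0C5.f = (8861 / 16777216 : ℝ) + (318305 / 67108864 : ℝ) + (-1469279 / 268435456 : ℝ) + (1 / 1073741824 : ℝ) := by norm_num [P0C5]
  rw [e1, e2, e3, e4, e5, e6]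
  exact h

lemma rP0C6 : ∃ N : ℝ, Rw4 P.r2 N (coCell (1727 / 1024 : ℝ) (26787 / 2048 : ℝ) (12 : ℝ) 0 P0C6) := by
  refine ⟨(3221225472 : ℝ), ⟨Q21, List.mem_cons_of_mem _ (List.mem_cons_of_mem _ (List.mem_cons_of_mem _ (List.mem_cons_of_mem _ (List.mem_cons_of_mem _ (List.mem_cons_of_mem _ (List.mem_cons_of_mem _ (List.mem_cons_of_mem _ (List.mem_cons_of_mem _ (List.mem_cons_of_mem _ (List.mem_cons_of_mem _ (List.mem_cons_of_mem _ (List.mem_cons_of_mem _ (List.mem_cons_of_mem _ (List.mem_cons_of_mem _ (List.mem_cons_of_mem _ (List.mem_cons_of_mem _ (List.mem_cons_of_mem _ (List.mem_cons_of_mem _ (List.mem_cons_of_mem _ (List.mem_cons_of_mem _ (List.mem_cons_self))))))))))))))))))))), ?_⟩, by norm_num⟩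
  constructor <;> norm_num [Q21, coCell, P0C6]

lemma lP0C6 : ∀ x1 x2 xc : ℝ, 0 ≤ x1 → x1 ≤ 1 → 0 ≤ x2 → x2 ≤ 1 → P0C6.l ≤ xc → xc ≤ P0C6.u →
    (1727 / 1024 : ℝ) * (1 - (1 - x1) ^ 2) + (26787 / 2048 : ℝ) * (1 - (1 - x2) ^ 2) - (12 : ℝ) * (1 - (1 - xc) ^ 2) + (1 / 1073741824 : ℝ)
      ≤ - P0C6.a1 * x1 - P0C6.a2 * x2 + P0C6.e * xc + P0C6.f := by
  have h := cell_lines_delta 2 (α1 := (1727 / 1024 : ℝ)) (α2 := (26787 / 2048 : ℝ)) (c := (12 : ℝ)) (y1 := (2423 / 131072 : ℝ)) (y2 := (2653 / 131072 : ℝ))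
    (A1 := (13886051 / 4194304 : ℝ)) (B1 := (154739 / 268435456 : ℝ)) (A2 := (53749371 / 2097152 : ℝ)) (B2 := (89903 / 16777216 : ℝ)) (l := (1441 / 65536 : ℝ)) (u := (3055 / 131072 : ℝ))
    (E := (-768621 / 32768 : ℝ)) (F := (-1650845 / 268435456 : ℝ)) (δ := (1 / 1073741824 : ℝ)) (by norm_num) (by norm_num) (by norm_num) (by norm_num) (by norm_num)
    (by norm_num) (by norm_num) (by norm_num) (by norm_num) (by norm_num) (by norm_num) (by norm_num) (by norm_num) (by norm_num) (by norm_num)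
  have e1 : P0C6.l = (1441 / 65536 : ℝ) := rfl
  have e2 : P0C6.u = (3055 / 131072 : ℝ) := rfl
  have e3 : P0C6.a1 = -(13886051 / 4194304 : ℝ) := by norm_num [P0C6]
  have e4 : P0C6.a2 = -(53749371 / 2097152 : ℝ) := by norm_num [P0C6]
  have e5 : P0C6.e = (-768621 / 32768 : ℝ) := rfl
  have e6 : P0C6.f = (154739 / 268435456 : ℝ) + (89903 / 16777216 : ℝ) + (-1650845 / 268435456 : ℝ) + (1 / 1073741824 : ℝ) := by norm_num [P0C6]
  rw [e1, e2, e3, e4, e5, e6]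
  exact h

lemma rP0C7 : ∃ N : ℝ, Rw4 P.r2 N (coCell (1727 / 1024 : ℝ) (26787 / 2048 : ℝ) (12 : ℝ) 0 P0C7) := by
  refine ⟨(3221225472 : ℝ), ⟨Q22, List.mem_cons_of_mem _ (List.mem_cons_of_mem _ (List.mem_cons_of_mem _ (List.mem_cons_of_mem _ (List.mem_cons_of_mem _ (List.mem_cons_of_mem _ (List.mem_cons_of_mem _ (List.mem_cons_of_mem _ (List.mem_cons_of_mem _ (List.mem_cons_of_mem _ (List.mem_cons_of_mem _ (List.mem_cons_of_mem _ (List.mem_cons_of_mem _ (List.mem_cons_of_mem _ (List.mem_cons_of_mem _ (List.mem_cons_of_mem _ (List.mem_cons_of_mem _ (List.mem_cons_of_mem _ (List.mem_cons_of_mem _ (List.mem_cons_of_mem _ (List.mem_cons_of_mem _ (List.mem_cons_of_mem _ (List.mem_cons_self)))))))))))))))))))))), ?_⟩, by norm_num⟩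
  constructor <;> norm_num [Q22, coCell, P0C7]

lemma lP0C7 : ∀ x1 x2 xc : ℝ, 0 ≤ x1 → x1 ≤ 1 → 0 ≤ x2 → x2 ≤ 1 → P0C7.l ≤ xc → xc ≤ P0C7.u →
    (1727 / 1024 : ℝ) * (1 - (1 - x1) ^ 2) + (26787 / 2048 : ℝ) * (1 - (1 - x2) ^ 2) - (12 : ℝ) * (1 - (1 - xc) ^ 2) + (1 / 1073741824 : ℝ)
      ≤ - P0C7.a1 * x1 - P0C7.a2 * x2 + P0C7.e * xc + P0C7.f := by
  have h := cell_lines_delta 2 (α1 := (1727 / 1024 : ℝ)) (α2 := (26787 / 2048 : ℝ)) (c := (12 : ℝ)) (y1 := (5039 / 262144 : ℝ)) (y2 := (2825 / 131072 : ℝ))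
    (A1 := (13875635 / 4194304 : ℝ)) (B1 := (167309 / 268435456 : ℝ)) (A2 := (53677381 / 2097152 : ℝ)) (B2 := (203875 / 33554432 : ℝ)) (l := (3055 / 131072 : ℝ)) (u := (1619 / 65536 : ℝ))
    (E := (-767553 / 32768 : ℝ)) (F := (-927383 / 134217728 : ℝ)) (δ := (1 / 1073741824 : ℝ)) (by norm_num) (by norm_num) (by norm_num) (by norm_num) (by norm_num)
    (by norm_num) (by norm_num) (by norm_num) (by norm_num) (by norm_num) (by norm_num) (by norm_num) (by norm_num) (by norm_num) (by norm_num)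
  have e1 : P0C7.l = (3055 / 131072 : ℝ) := rfl
  have e2 : P0C7.u = (1619 / 65536 : ℝ) := rfl
  have e3 : P0C7.a1 = -(13875635 / 4194304 : ℝ) := by norm_num [P0C7]
  have e4 : P0C7.a2 = -(53677381 / 2097152 : ℝ) := by norm_num [P0C7]
  have e5 : P0C7.e = (-767553 / 32768 : ℝ) := rfl
  have e6 : P0C7.f = (167309 / 268435456 : ℝ) + (203875 / 33554432 : ℝ) + (-927383 / 134217728 : ℝ) + (1 / 1073741824 : ℝ) := by norm_num [P0C7]
  rw [e1, e2, e3, e4, e5, e6]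
  exact h

lemma rP0C8 : ∃ N : ℝ, Rw4 P.r2 N (coCell (1727 / 1024 : ℝ) (26787 / 2048 : ℝ) (12 : ℝ) 0 P0C8) := by
  refine ⟨(3221225472 : ℝ), ⟨Q23, List.mem_cons_of_mem _ (List.mem_cons_of_mem _ (List.mem_cons_of_mem _ (List.mem_cons_of_mem _ (List.mem_cons_of_mem _ (List.mem_cons_of_mem _ (List.mem_cons_of_mem _ (List.mem_cons_of_mem _ (List.mem_cons_of_mem _ (List.mem_cons_of_mem _ (List.mem_cons_of_mem _ (List.mem_cons_of_mem _ (List.mem_cons_of_mem _ (List.mem_cons_of_mem _ (List.mem_cons_of_mem _ (List.mem_cons_of_mem _ (List.mem_cons_of_mem _ (List.mem_cons_of_mem _ (List.mem_cons_of_mem _ (List.mem_cons_of_mem _ (List.mem_cons_of_mem _ (List.mem_cons_of_mem _ (List.mem_cons_of_mem _ (List.mem_cons_self))))))))))))))))))))))), ?_⟩, by norm_num⟩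
  constructor <;> norm_num [Q23, coCell, P0C8]

lemma lP0C8 : ∀ x1 x2 xc : ℝ, 0 ≤ x1 → x1 ≤ 1 → 0 ≤ x2 → x2 ≤ 1 → P0C8.l ≤ xc → xc ≤ P0C8.u →
    (1727 / 1024 : ℝ) * (1 - (1 - x1) ^ 2) + (26787 / 2048 : ℝ) * (1 - (1 - x2) ^ 2) - (12 : ℝ) * (1 - (1 - xc) ^ 2) + (1 / 1073741824 : ℝ)
      ≤ - P0C8.a1 * x1 - P0C8.a2 * x2 + P0C8.e * xc + P0C8.f := by
  have h := cell_lines_delta 2 (α1 := (1727 / 1024 : ℝ)) (α2 := (26787 / 2048 : ℝ)) (c := (12 : ℝ)) (y1 := (649 / 32768 : ℝ)) (y2 := (3007 / 131072 : ℝ))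
    (A1 := (6933689 / 2097152 : ℝ)) (B1 := (22201 / 33554432 : ℝ)) (A2 := (107202411 / 4194304 : ℝ)) (B2 := (1847917 / 268435456 : ℝ)) (l := (1619 / 65536 : ℝ)) (u := (6865 / 262144 : ℝ))
    (E := (-1532841 / 65536 : ℝ)) (F := (-520989 / 67108864 : ℝ)) (δ := (1 / 1073741824 : ℝ)) (by norm_num) (by norm_num) (by norm_num) (by norm_num) (by norm_num)
    (by norm_num) (by norm_num) (by norm_num) (by norm_num) (by norm_num) (by norm_num) (by norm_num) (by norm_num) (by norm_num) (by norm_num)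
  have e1 : P0C8.l = (1619 / 65536 : ℝ) := rfl
  have e2 : P0C8.u = (6865 / 262144 : ℝ) := rfl
  have e3 : P0C8.a1 = -(6933689 / 2097152 : ℝ) := by norm_num [P0C8]
  have e4 : P0C8.a2 = -(107202411 / 4194304 : ℝ) := by norm_num [P0C8]
  have e5 : P0C8.e = (-1532841 / 65536 : ℝ) := rfl
  have e6 : P0C8.f = (22201 / 33554432 : ℝ) + (1847917 / 268435456 : ℝ) + (-520989 / 67108864 : ℝ) + (1 / 1073741824 : ℝ) := by norm_num [P0C8]
  rw [e1, e2, e3, e4, e5, e6]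
  exact h

lemma rP0C9 : ∃ N : ℝ, Rw4 P.r2 N (coCell (1727 / 1024 : ℝ) (26787 / 2048 : ℝ) (12 : ℝ) 0 P0C9) := by
  refine ⟨(3221225472 : ℝ), ⟨Q24, List.mem_cons_of_mem _ (List.mem_cons_of_mem _ (List.mem_cons_of_mem _ (List.mem_cons_of_mem _ (List.mem_cons_of_mem _ (List.mem_cons_of_mem _ (List.mem_cons_of_mem _ (List.mem_cons_of_mem _ (List.mem_cons_of_mem _ (List.mem_cons_of_mem _ (List.mem_cons_of_mem _ (List.mem_cons_of_mem _ (List.mem_cons_of_mem _ (List.mem_cons_of_mem _ (List.mem_cons_of_mem _ (List.mem_cons_of_mem _ (List.mem_cons_of_mem _ (List.mem_cons_of_mem _ (List.mem_cons_of_mem _ (List.mem_cons_of_mem _ (List.mem_cons_of_mem _ (List.mem_cons_of_mem _ (List.mem_cons_of_mem _ (List.mem_cons_of_mem _ (List.mem_cons_self)))))))))))))))))))))))), ?_⟩, by norm_num⟩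
  constructor <;> norm_num [Q24, coCell, P0C9]

lemma lP0C9 : ∀ x1 x2 xc : ℝ, 0 ≤ x1 → x1 ≤ 1 → 0 ≤ x2 → x2 ≤ 1 → P0C9.l ≤ xc → xc ≤ P0C9.u →
    (1727 / 1024 : ℝ) * (1 - (1 - x1) ^ 2) + (26787 / 2048 : ℝ) * (1 - (1 - x2) ^ 2) - (12 : ℝ) * (1 - (1 - xc) ^ 2) + (1 / 1073741824 : ℝ)
      ≤ - P0C9.a1 * x1 - P0C9.a2 * x2 + P0C9.e * xc + P0C9.f := by
  have h := cell_lines_delta 2 (α1 := (1727 / 1024 : ℝ)) (α2 := (26787 / 2048 : ℝ)) (c := (12 : ℝ)) (y1 := (5255 / 262144 : ℝ)) (y2 := (3193 / 131072 : ℝ))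
    (A1 := (6931989 / 2097152 : ℝ)) (B1 := (90971 / 134217728 : ℝ)) (A2 := (13380839 / 524288 : ℝ)) (B2 := (2083589 / 268435456 : ℝ)) (l := (6865 / 262144 : ℝ)) (u := (7277 / 262144 : ℝ))
    (E := (-765219 / 32768 : ℝ)) (F := (-2341715 / 268435456 : ℝ)) (δ := (1 / 1073741824 : ℝ)) (by norm_num) (by norm_num) (by norm_num) (by norm_num) (by norm_num)
    (by norm_num) (by norm_num) (by norm_num) (by norm_num) (by norm_num) (by norm_num) (by norm_num) (by norm_num) (by norm_num) (by norm_num)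
  have e1 : P0C9.l = (6865 / 262144 : ℝ) := rfl
  have e2 : P0C9.u = (7277 / 262144 : ℝ) := rfl
  have e3 : P0C9.a1 = -(6931989 / 2097152 : ℝ) := by norm_num [P0C9]
  have e4 : P0C9.a2 = -(13380839 / 524288 : ℝ) := by norm_num [P0C9]
  have e5 : P0C9.e = (-765219 / 32768 : ℝ) := rfl
  have e6 : P0C9.f = (90971 / 134217728 : ℝ) + (2083589 / 268435456 : ℝ) + (-2341715 / 268435456 : ℝ) + (1 / 1073741824 : ℝ) := by norm_num [P0C9]
  rw [e1, e2, e3, e4, e5, e6]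
  exact h

lemma rP0C10 : ∃ N : ℝ, Rw4 P.r2 N (coCell (1727 / 1024 : ℝ) (26787 / 2048 : ℝ) (12 : ℝ) 0 P0C10) := by
  refine ⟨(3221225472 : ℝ), ⟨Q25, List.mem_cons_of_mem _ (List.mem_cons_of_mem _ (List.mem_cons_of_mem _ (List.mem_cons_of_mem _ (List.mem_cons_of_mem _ (List.mem_cons_of_mem _ (List.mem_cons_of_mem _ (List.mem_cons_of_mem _ (List.mem_cons_of_mem _ (List.mem_cons_of_mem _ (List.mem_cons_of_mem _ (List.mem_cons_of_mem _ (List.mem_cons_of_mem _ (List.mem_cons_of_mem _ (List.mem_cons_of_mem _ (List.mem_cons_of_mem _ (List.mem_cons_of_mem _ (List.mem_cons_of_mem _ (List.mem_cons_of_mem _ (List.mem_cons_of_mem _ (List.mem_cons_of_mem _ (List.mem_cons_of_mem _ (List.mem_cons_of_mem _ (List.mem_cons_of_mem _ (List.mem_cons_of_mem _ (List.mem_cons_self))))))))))))))))))))))))), ?_⟩, by norm_num⟩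
  constructor <;> norm_num [Q25, coCell, P0C10]

lemma lP0C10 : ∀ x1 x2 xc : ℝ, 0 ≤ x1 → x1 ≤ 1 → 0 ≤ x2 → x2 ≤ 1 → P0C10.l ≤ xc → xc ≤ P0C10.u →
    (1727 / 1024 : ℝ) * (1 - (1 - x1) ^ 2) + (26787 / 2048 : ℝ) * (1 - (1 - x2) ^ 2) - (12 : ℝ) * (1 - (1 - xc) ^ 2) + (1 / 1073741824 : ℝ)
      ≤ - P0C10.a1 * x1 - P0C10.a2 * x2 + P0C10.e * xc + P0C10.f := by
  have h := cell_lines_delta 2 (α1 := (1727 / 1024 : ℝ)) (α2 := (26787 / 2048 : ℝ)) (c := (12 : ℝ)) (y1 := (5845 / 262144 : ℝ)) (y2 := (6751 / 262144 : ℝ))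
    (A1 := (13832137 / 4194304 : ℝ)) (B1 := (14067 / 16777216 : ℝ)) (A2 := (53446971 / 2097152 : ℝ)) (B2 := (2328579 / 268435456 : ℝ)) (l := (7277 / 262144 : ℝ)) (u := (7713 / 262144 : ℝ))
    (E := (-763947 / 32768 : ℝ)) (F := (-41109 / 4194304 : ℝ)) (δ := (1 / 1073741824 : ℝ)) (by norm_num) (by norm_num) (by norm_num) (by norm_num) (by norm_num)
    (by norm_num) (by norm_num) (by norm_num) (by norm_num) (by norm_num) (by norm_num) (by norm_num) (by norm_num) (by norm_num) (by norm_num)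
  have e1 : P0C10.l = (7277 / 262144 : ℝ) := rfl
  have e2 : P0C10.u = (7713 / 262144 : ℝ) := rfl
  have e3 : P0C10.a1 = -(13832137 / 4194304 : ℝ) := by norm_num [P0C10]
  have e4 : P0C10.a2 = -(53446971 / 2097152 : ℝ) := by norm_num [P0C10]
  have e5 : P0C10.e = (-763947 / 32768 : ℝ) := rfl
  have e6 : P0C10.f = (14067 / 16777216 : ℝ) + (2328579 / 268435456 : ℝ) + (-41109 / 4194304 : ℝ) + (1 / 1073741824 : ℝ) := by norm_num [P0C10]
  rw [e1, e2, e3, e4, e5, e6]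
  exact h

lemma rP0C11 : ∃ N : ℝ, Rw4 P.r2 N (coCell (1727 / 1024 : ℝ) (26787 / 2048 : ℝ) (12 : ℝ) 0 P0C11) := by
  refine ⟨(3221225472 : ℝ), ⟨Q26, List.mem_cons_of_mem _ (List.mem_cons_of_mem _ (List.mem_cons_of_mem _ (List.mem_cons_of_mem _ (List.mem_cons_of_mem _ (List.mem_cons_of_mem _ (List.mem_cons_of_mem _ (List.mem_cons_of_mem _ (List.mem_cons_of_mem _ (List.mem_cons_of_mem _ (List.mem_cons_of_mem _ (List.mem_cons_of_mem _ (List.mem_cons_of_mem _ (List.mem_cons_of_mem _ (List.mem_cons_of_mem _ (List.mem_cons_of_mem _ (List.mem_cons_of_mem _ (List.mem_cons_of_mem _ (List.mem_cons_of_mem _ (List.mem_cons_of_mem _ (List.mem_cons_of_mem _ (List.mem_cons_of_mem _ (List.mem_cons_of_mem _ (List.mem_cons_of_mem _ (List.mem_cons_of_mem _ (List.mem_cons_of_mem _ (List.mem_cons_self)))))))))))))))))))))))))), ?_⟩, by norm_num⟩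
  constructor <;> norm_num [Q26, coCell, P0C11]

lemma lP0C11 : ∀ x1 x2 xc : ℝ, 0 ≤ x1 → x1 ≤ 1 → 0 ≤ x2 → x2 ≤ 1 → P0C11.l ≤ xc → xc ≤ P0C11.u →
    (1727 / 1024 : ℝ) * (1 - (1 - x1) ^ 2) + (26787 / 2048 : ℝ) * (1 - (1 - x2) ^ 2) - (12 : ℝ) * (1 - (1 - xc) ^ 2) + (1 / 1073741824 : ℝ)
      ≤ - P0C11.a1 * x1 - P0C11.a2 * x2 + P0C11.e * xc + P0C11.f := by
  have h := cell_lines_delta 2 (α1 := (1727 / 1024 : ℝ)) (α2 := (26787 / 2048 : ℝ)) (c := (12 : ℝ)) (y1 := (5935 / 262144 : ℝ)) (y2 := (7045 / 262144 : ℝ))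
    (A1 := (13827279 / 4194304 : ℝ)) (B1 := (232087 / 268435456 : ℝ)) (A2 := (106770889 / 4194304 : ℝ)) (B2 := (158489 / 16777216 : ℝ)) (l := (7713 / 262144 : ℝ)) (u := (983 / 32768 : ℝ))
    (E := (-1526133 / 65536 : ℝ)) (F := (-710801 / 67108864 : ℝ)) (δ := (1 / 1073741824 : ℝ)) (by norm_num) (by norm_num) (by norm_num) (by norm_num) (by norm_num)
    (by norm_num) (by norm_num) (by norm_num) (by norm_num) (by norm_num) (by norm_num) (by norm_num) (by norm_num) (by norm_num) (by norm_num)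
  have e1 : P0C11.l = (7713 / 262144 : ℝ) := rfl
  have e2 : P0C11.u = (983 / 32768 : ℝ) := rfl
  have e3 : P0C11.a1 = -(13827279 / 4194304 : ℝ) := by norm_num [P0C11]
  have e4 : P0C11.a2 = -(106770889 / 4194304 : ℝ) := by norm_num [P0C11]
  have e5 : P0C11.e = (-1526133 / 65536 : ℝ) := rfl
  have e6 : P0C11.f = (232087 / 268435456 : ℝ) + (158489 / 16777216 : ℝ) + (-710801 / 67108864 : ℝ) + (1 / 1073741824 : ℝ) := by norm_num [P0C11]
  rw [e1, e2, e3, e4, e5, e6]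
  exact h

/-- A link of the chain. -/
lemma link0 {lam : ℝ} (h0 : -(1 / 2) < lam) (h1 : lam < 1) (hB : BoxS lam P 0 HH 0 HH)
    (h : ∃ n, 1 - En 2 lam n mc ≤ (983 / 32768 : ℝ)) : ∃ n, 1 - En 2 lam n mc ≤ (1 / 64 : ℝ) :=
  phase_of_box (by norm_num) h0 h1 hB (1727 / 1024 : ℝ) (26787 / 2048 : ℝ) (12 : ℝ) (1 / 1073741824 : ℝ) (1 / 64 : ℝ) (983 / 32768 : ℝ) (by norm_num) cellsP0 hcoverP0
    (forall_cons lP0C0 (forall_cons lP0C1 (forall_cons lP0C2 (forall_cons lP0C3 (forall_cons lP0C4 (forall_cons lP0C5 (forall_cons lP0C6 (forall_cons lP0C7 (forall_cons lP0C8 (forall_cons lP0C9 (forall_cons lP0C10 (forall_cons lP0C11 (forall_nil))))))))))))) (forall_cons rP0C0 (forall_cons rP0C1 (forall_cons rP0C2 (forall_cons rP0C3 (forall_cons rP0C4 (forall_cons rP0C5 (forall_cons rP0C6 (forall_cons rP0C7 (forall_cons rP0C8 (forall_cons rP0C9 (forall_cons rP0C10 (forall_cons rP0C11 (forall_nil)))))))))))))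 h

/-- A chord cell of a link. -/
noncomputable def P1C0 : Cell := ⟨(983 / 32768 : ℝ), (8493 / 262144 : ℝ), (-35837817 / 4194304 : ℝ), (-94189081 / 4194304 : ℝ), (-1523793 / 65536 : ℝ), (-368211 / 1073741824 : ℝ)⟩

/-- A chord cell of a link. -/
noncomputable def P1C1 : Cell := ⟨(8493 / 262144 : ℝ), (9173 / 262144 : ℝ), (-17878717 / 2097152 : ℝ), (-46993289 / 2097152 : ℝ), (-759933 / 32768 : ℝ), (-451935 / 1073741824 : ℝ)⟩

/-- A chord cell of a link. -/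
noncomputable def P1C2 : Cell := ⟨(9173 / 262144 : ℝ), (9907 / 262144 : ℝ), (-17841887 / 2097152 : ℝ), (-93757099 / 4194304 : ℝ), (-189453 / 8192 : ℝ), (-557055 / 1073741824 : ℝ)⟩

/-- A chord cell of a link. -/
noncomputable def P1C3 : Cell := ⟨(9907 / 262144 : ℝ), (10699 / 262144 : ℝ), (-35444027 / 4194304 : ℝ), (-93631459 / 4194304 : ℝ), (-755523 / 32768 : ℝ), (-420375 / 1073741824 : ℝ)⟩

/-- A chord cell of a link. -/
noncomputable def P1C4 : Cell := ⟨(10699 / 262144 : ℝ), (11555 / 262144 : ℝ), (-35696237 / 4194304 : ℝ), (-46530451 / 2097152 : ℝ), (-753051 / 32768 : ℝ), (-417883 / 1073741824 : ℝ)⟩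

/-- A chord cell of a link. -/
noncomputable def P1C5 : Cell := ⟨(11555 / 262144 : ℝ), (195 / 4096 : ℝ), (-35781941 / 4194304 : ℝ), (-46330165 / 2097152 : ℝ), (-1500759 / 65536 : ℝ), (-612299 / 1073741824 : ℝ)⟩

/-- A chord cell of a link. -/
noncomputable def P1C6 : Cell := ⟨(195 / 4096 : ℝ), (6739 / 131072 : ℝ), (-35681953 / 4194304 : ℝ), (-92316297 / 4194304 : ℝ), (-747495 / 32768 : ℝ), (-445867 / 1073741824 : ℝ)⟩

/-- A chord cell of a link. -/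
noncomputable def P1C7 : Cell := ⟨(6739 / 131072 : ℝ), (3639 / 65536 : ℝ), (-35574403 / 4194304 : ℝ), (-91951939 / 4194304 : ℝ), (-744381 / 32768 : ℝ), (-319967 / 1073741824 : ℝ)⟩

/-- A chord cell of a link. -/
noncomputable def P1C8 : Cell := ⟨(3639 / 65536 : ℝ), (15729 / 262144 : ℝ), (-35465313 / 4194304 : ℝ), (-45779379 / 2097152 : ℝ), (-1482009 / 65536 : ℝ), (-243007 / 1073741824 : ℝ)⟩

/-- The chord cells of a link. -/
noncomputable def cellsP1 : List Cell := [P1C0, P1C1, P1C2, P1C3, P1C4, P1C5, P1C6, P1C7, P1C8]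

lemma hcoverP1 : ∀ x : ℝ, (983 / 32768 : ℝ) ≤ x → x ≤ (15729 / 262144 : ℝ) → ∃ D ∈ cellsP1, D.l ≤ x ∧ x ≤ D.u := by
  refine cover_of_chain ?_ (by norm_num [P1C0])
  simp only [ChainP, P1C0, P1C1, P1C2, P1C3, P1C4, P1C5, P1C6, P1C7, P1C8]
  norm_num

lemma rP1C0 : ∃ N : ℝ, Rw4 P.r2 N (coCell (17925 / 4096 : ℝ) (11825 / 1024 : ℝ) (12 : ℝ) 0 P1C0) := by
  refine ⟨(3221225472 : ℝ), ⟨Q27, List.mem_cons_of_mem _ (List.mem_cons_of_mem _ (List.mem_cons_of_mem _ (List.mem_cons_of_mem _ (List.mem_cons_of_mem _ (List.mem_cons_of_mem _ (List.mem_cons_of_mem _ (List.mem_cons_of_mem _ (List.mem_cons_of_mem _ (List.mem_cons_of_mem _ (List.mem_cons_of_mem _ (List.mem_cons_of_mem _ (List.mem_cons_of_mem _ (List.mem_cons_of_mem _ (List.mem_cons_of_mem _ (List.mem_cons_of_mem _ (List.mem_cons_of_mem _ (List.mem_cons_of_mem _ (List.mem_cons_of_mem _ (List.mem_cons_of_mem _ (List.mem_cons_of_mem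 _ (List.mem_cons_of_mem _ (List.mem_cons_of_mem _ (List.mem_cons_of_mem _ (List.mem_cons_of_mem _ (List.mem_cons_of_mem _ (List.mem_cons_of_mem _ (List.mem_cons_self))))))))))))))))))))))))))), ?_⟩, by norm_num⟩
  constructor <;> norm_num [Q27, coCell, P1C0]

lemma lP1C0 : ∀ x1 x2 xc : ℝ, 0 ≤ x1 → x1 ≤ 1 → 0 ≤ x2 → x2 ≤ 1 → P1C0.l ≤ xc → xc ≤ P1C0.u →
    (17925 / 4096 : ℝ) * (1 - (1 - x1) ^ 2) + (11825 / 1024 : ℝ) * (1 - (1 - x2) ^ 2) - (12 : ℝ) * (1 - (1 - xc) ^ 2) + (1 / 1073741824 : ℝ)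
      ≤ - P1C0.a1 * x1 - P1C0.a2 * x2 + P1C0.e * xc + P1C0.f := by
  have h := cell_lines_delta 2 (α1 := (17925 / 4096 : ℝ)) (α2 := (11825 / 1024 : ℝ)) (c := (12 : ℝ)) (y1 := (6231 / 262144 : ℝ)) (y2 := (907 / 32768 : ℝ))
    (A1 := (35837817 / 4194304 : ℝ)) (B1 := (663705 / 268435456 : ℝ)) (A2 := (94189081 / 4194304 : ℝ)) (B2 := (1187487 / 134217728 : ℝ)) (l := (983 / 32768 : ℝ)) (u := (8493 / 262144 : ℝ))
    (E := (-1523793 / 65536 : ℝ)) (F := (-782683 / 67108864 : ℝ)) (δ := (1 / 1073741824 : ℝ)) (by norm_num) (by norm_num) (by norm_num) (by norm_num) (by norm_num)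
    (by norm_num) (by norm_num) (by norm_num) (by norm_num) (by norm_num) (by norm_num) (by norm_num) (by norm_num) (by norm_num) (by norm_num)
  have e1 : P1C0.l = (983 / 32768 : ℝ) := rfl
  have e2 : P1C0.u = (8493 / 262144 : ℝ) := rfl
  have e3 : P1C0.a1 = -(35837817 / 4194304 : ℝ) := by norm_num [P1C0]
  have e4 : P1C0.a2 = -(94189081 / 4194304 : ℝ) := by norm_num [P1C0]
  have e5 : P1C0.e = (-1523793 / 65536 : ℝ) := rfl
  have e6 : P1C0.f = (663705 / 268435456 : ℝ) + (1187487 / 134217728 : ℝ) + (-782683 / 67108864 : ℝ) + (1 / 1073741824 : ℝ) := by norm_num [P1C0]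
  rw [e1, e2, e3, e4, e5, e6]
  exact h

lemma rP1C1 : ∃ N : ℝ, Rw4 P.r2 N (coCell (17925 / 4096 : ℝ) (11825 / 1024 : ℝ) (12 : ℝ) 0 P1C1) := by
  refine ⟨(3221225472 : ℝ), ⟨Q28, List.mem_cons_of_mem _ (List.mem_cons_of_mem _ (List.mem_cons_of_mem _ (List.mem_cons_of_mem _ (List.mem_cons_of_mem _ (List.mem_cons_of_mem _ (List.mem_cons_of_mem _ (List.mem_cons_of_mem _ (List.mem_cons_of_mem _ (List.mem_cons_of_mem _ (List.mem_cons_of_mem _ (List.mem_cons_of_mem _ (List.mem_cons_of_mem _ (List.mem_cons_of_mem _ (List.mem_cons_of_mem _ (List.mem_cons_of_mem _ (List.mem_cons_of_mem _ (List.mem_cons_of_mem _ (List.mem_cons_of_mem _ (List.mem_cons_of_mem _ (List.mem_cons_of_mem _ (List.mem_cons_of_mem _ (List.mem_cons_of_mem _ (List.mem_cons_of_mem _ (List.mem_cons_of_mem _ (List.mem_cons_of_mem _ (List.mem_cons_of_mem _ (List.mem_cons_of_mem _ (List.mem_cons_self)))))))))))))))))))))))))))),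 ?_⟩, by norm_num⟩
  constructor <;> norm_num [Q28, coCell, P1C1]

lemma lP1C1 : ∀ x1 x2 xc : ℝ, 0 ≤ x1 → x1 ≤ 1 → 0 ≤ x2 → x2 ≤ 1 → P1C1.l ≤ xc → xc ≤ P1C1.u →
    (17925 / 4096 : ℝ) * (1 - (1 - x1) ^ 2) + (11825 / 1024 : ℝ) * (1 - (1 - x2) ^ 2) - (12 : ℝ) * (1 - (1 - xc) ^ 2) + (1 / 1073741824 : ℝ)
      ≤ - P1C1.a1 * x1 - P1C1.a2 * x2 + P1C1.e * xc + P1C1.f := by
  have h := cell_lines_delta 2 (α1 := (17925 / 4096 : ℝ)) (α2 := (11825 / 1024 : ℝ)) (c := (12 : ℝ)) (y1 := (6805 / 262144 : ℝ)) (y2 := (1951 / 65536 : ℝ))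
    (A1 := (17878717 / 2097152 : ℝ)) (B1 := (395815 / 134217728 : ℝ)) (A2 := (46993289 / 2097152 : ℝ)) (B2 := (2747243 / 268435456 : ℝ)) (l := (8493 / 262144 : ℝ)) (u := (9173 / 262144 : ℝ))
    (E := (-759933 / 32768 : ℝ)) (F := (-3651857 / 268435456 : ℝ)) (δ := (1 / 1073741824 : ℝ)) (by norm_num) (by norm_num) (by norm_num) (by norm_num) (by norm_num)
    (by norm_num) (by norm_num) (by norm_num) (by norm_num) (by norm_num) (by norm_num) (by norm_num) (by norm_num) (by norm_num) (by norm_num)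
  have e1 : P1C1.l = (8493 / 262144 : ℝ) := rfl
  have e2 : P1C1.u = (9173 / 262144 : ℝ) := rfl
  have e3 : P1C1.a1 = -(17878717 / 2097152 : ℝ) := by norm_num [P1C1]
  have e4 : P1C1.a2 = -(46993289 / 2097152 : ℝ) := by norm_num [P1C1]
  have e5 : P1C1.e = (-759933 / 32768 : ℝ) := rfl
  have e6 : P1C1.f = (395815 / 134217728 : ℝ) + (2747243 / 268435456 : ℝ) + (-3651857 / 268435456 : ℝ) + (1 / 1073741824 : ℝ) := by norm_num [P1C1]
  rw [e1, e2, e3, e4, e5, e6]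
  exact h

lemma rP1C2 : ∃ N : ℝ, Rw4 P.r2 N (coCell (17925 / 4096 : ℝ) (11825 / 1024 : ℝ) (12 : ℝ) 0 P1C2) := by
  refine ⟨(3221225472 : ℝ), ⟨Q29, List.mem_cons_of_mem _ (List.mem_cons_of_mem _ (List.mem_cons_of_mem _ (List.mem_cons_of_mem _ (List.mem_cons_of_mem _ (List.mem_cons_of_mem _ (List.mem_cons_of_mem _ (List.mem_cons_of_mem _ (List.mem_cons_of_mem _ (List.mem_cons_of_mem _ (List.mem_cons_of_mem _ (List.mem_cons_of_mem _ (List.mem_cons_of_mem _ (List.mem_cons_of_mem _ (List.mem_cons_of_mem _ (List.mem_cons_of_mem _ (List.mem_cons_of_mem _ (List.mem_cons_of_mem _ (List.mem_cons_of_mem _ (List.mem_cons_of_mem _ (List.mem_cons_of_mem _ (List.mem_cons_of_mem _ (List.mem_cons_of_mem _ (List.mem_cons_of_mem _ (List.mem_cons_of_mem _ (List.mem_cons_of_mem _ (List.mem_cons_of_mem _ (List.mem_cons_of_mem _ (List.mem_cons_of_mem _ (List.mem_cons_self))))))))))))))))))))))))))))),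 ?_⟩, by norm_num⟩
  constructor <;> norm_num [Q29, coCell, P1C2]

lemma lP1C2 : ∀ x1 x2 xc : ℝ, 0 ≤ x1 → x1 ≤ 1 → 0 ≤ x2 → x2 ≤ 1 → P1C2.l ≤ xc → xc ≤ P1C2.u →
    (17925 / 4096 : ℝ) * (1 - (1 - x1) ^ 2) + (11825 / 1024 : ℝ) * (1 - (1 - x2) ^ 2) - (12 : ℝ) * (1 - (1 - xc) ^ 2) + (1 / 1073741824 : ℝ)
      ≤ - P1C2.a1 * x1 - P1C2.a2 * x2 + P1C2.e * xc + P1C2.f := by
  have h := cell_lines_delta 2 (α1 := (17925 / 4096 : ℝ)) (α2 := (11825 / 1024 : ℝ)) (c := (12 : ℝ)) (y1 := (7331 / 262144 : ℝ)) (y2 := (8425 / 262144 : ℝ))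
    (A1 := (17841887 / 2097152 : ℝ)) (B1 := (459363 / 134217728 : ℝ)) (A2 := (93757099 / 4194304 : ℝ)) (B2 := (3201865 / 268435456 : ℝ)) (l := (9173 / 262144 : ℝ)) (u := (9907 / 262144 : ℝ))
    (E := (-189453 / 8192 : ℝ)) (F := (-4259855 / 268435456 : ℝ)) (δ := (1 / 1073741824 : ℝ)) (by norm_num) (by norm_num) (by norm_num) (by norm_num) (by norm_num)
    (by norm_num) (by norm_num) (by norm_num) (by norm_num) (by norm_num) (by norm_num) (by norm_num) (by norm_num) (by norm_num) (by norm_num)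
  have e1 : P1C2.l = (9173 / 262144 : ℝ) := rfl
  have e2 : P1C2.u = (9907 / 262144 : ℝ) := rfl
  have e3 : P1C2.a1 = -(17841887 / 2097152 : ℝ) := by norm_num [P1C2]
  have e4 : P1C2.a2 = -(93757099 / 4194304 : ℝ) := by norm_num [P1C2]
  have e5 : P1C2.e = (-189453 / 8192 : ℝ) := rfl
  have e6 : P1C2.f = (459363 / 134217728 : ℝ) + (3201865 / 268435456 : ℝ) + (-4259855 / 268435456 : ℝ) + (1 / 1073741824 : ℝ) := by norm_num [P1C2]
  rw [e1, e2, e3, e4, e5, e6]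
  exact h

lemma rP1C3 : ∃ N : ℝ, Rw4 P.r2 N (coCell (17925 / 4096 : ℝ) (11825 / 1024 : ℝ) (12 : ℝ) 0 P1C3) := by
  refine ⟨(3221225472 : ℝ), ⟨Q30, List.mem_cons_of_mem _ (List.mem_cons_of_mem _ (List.mem_cons_of_mem _ (List.mem_cons_of_mem _ (List.mem_cons_of_mem _ (List.mem_cons_of_mem _ (List.mem_cons_of_mem _ (List.mem_cons_of_mem _ (List.mem_cons_of_mem _ (List.mem_cons_of_mem _ (List.mem_cons_of_mem _ (List.mem_cons_of_mem _ (List.mem_cons_of_mem _ (List.mem_cons_of_mem _ (List.mem_cons_of_mem _ (List.mem_cons_of_mem _ (List.mem_cons_of_mem _ (List.mem_cons_of_mem _ (List.mem_cons_of_mem _ (List.mem_cons_of_mem _ (List.mem_cons_of_mem _ (List.mem_cons_of_mem _ (List.mem_cons_of_mem _ (List.mem_cons_of_mem _ (List.mem_cons_of_mem _ (List.mem_cons_of_mem _ (List.mem_cons_of_mem _ (List.mem_cons_of_mem _ (List.mem_cons_of_mem _ (List.mem_cons_of_mem _ (List.mem_cons_self)))))))))))))))))))))))))))))),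 ?_⟩, by norm_num⟩
  constructor <;> norm_num [Q30, coCell, P1C3]

lemma lP1C3 : ∀ x1 x2 xc : ℝ, 0 ≤ x1 → x1 ≤ 1 → 0 ≤ x2 → x2 ≤ 1 → P1C3.l ≤ xc → xc ≤ P1C3.u →
    (17925 / 4096 : ℝ) * (1 - (1 - x1) ^ 2) + (11825 / 1024 : ℝ) * (1 - (1 - x2) ^ 2) - (12 : ℝ) * (1 - (1 - xc) ^ 2) + (1 / 1073741824 : ℝ)
      ≤ - P1C3.a1 * x1 - P1C3.a2 * x2 + P1C3.e * xc + P1C3.f := by
  have h := cell_lines_delta 2 (α1 := (17925 / 4096 : ℝ)) (α2 := (11825 / 1024 : ℝ)) (c := (12 : ℝ)) (y1 := (9043 / 262144 : ℝ)) (y2 := (8765 / 262144 : ℝ))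
    (A1 := (35444027 / 4194304 : ℝ)) (B1 := (1397927 / 268435456 : ℝ)) (A2 := (93631459 / 4194304 : ℝ)) (B2 := (1732747 / 134217728 : ℝ)) (l := (9907 / 262144 : ℝ)) (u := (10699 / 262144 : ℝ))
    (E := (-755523 / 32768 : ℝ)) (F := (-4968515 / 268435456 : ℝ)) (δ := (1 / 1073741824 : ℝ)) (by norm_num) (by norm_num) (by norm_num) (by norm_num) (by norm_num)
    (by norm_num) (by norm_num) (by norm_num) (by norm_num) (by norm_num) (by norm_num) (by norm_num) (by norm_num) (by norm_num) (by norm_num)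
  have e1 : P1C3.l = (9907 / 262144 : ℝ) := rfl
  have e2 : P1C3.u = (10699 / 262144 : ℝ) := rfl
  have e3 : P1C3.a1 = -(35444027 / 4194304 : ℝ) := by norm_num [P1C3]
  have e4 : P1C3.a2 = -(93631459 / 4194304 : ℝ) := by norm_num [P1C3]
  have e5 : P1C3.e = (-755523 / 32768 : ℝ) := rfl
  have e6 : P1C3.f = (1397927 / 268435456 : ℝ) + (1732747 / 134217728 : ℝ) + (-4968515 / 268435456 : ℝ) + (1 / 1073741824 : ℝ) := by norm_num [P1C3]
  rw [e1, e2, e3, e4, e5, e6]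
  exact h

lemma rP1C4 : ∃ N : ℝ, Rw4 P.r2 N (coCell (17925 / 4096 : ℝ) (11825 / 1024 : ℝ) (12 : ℝ) 0 P1C4) := by
  refine ⟨(3221225472 : ℝ), ⟨Q31, List.mem_cons_of_mem _ (List.mem_cons_of_mem _ (List.mem_cons_of_mem _ (List.mem_cons_of_mem _ (List.mem_cons_of_mem _ (List.mem_cons_of_mem _ (List.mem_cons_of_mem _ (List.mem_cons_of_mem _ (List.mem_cons_of_mem _ (List.mem_cons_of_mem _ (List.mem_cons_of_mem _ (List.mem_cons_of_mem _ (List.mem_cons_of_mem _ (List.mem_cons_of_mem _ (List.mem_cons_of_mem _ (List.mem_cons_of_mem _ (List.mem_cons_of_mem _ (List.mem_cons_of_mem _ (List.mem_cons_of_mem _ (List.mem_cons_of_mem _ (List.mem_cons_of_mem _ (List.mem_cons_of_mem _ (List.mem_cons_of_mem _ (List.mem_cons_of_mem _ (List.mem_cons_of_mem _ (List.mem_cons_of_mem _ (List.mem_cons_of_mem _ (List.mem_cons_of_mem _ (List.mem_cons_of_mem _ (List.mem_cons_of_mem _ (List.mem_cons_of_mem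 _ (List.mem_cons_self))))))))))))))))))))))))))))))), ?_⟩, by norm_num⟩
  constructor <;> norm_num [Q31, coCell, P1C4]

lemma lP1C4 : ∀ x1 x2 xc : ℝ, 0 ≤ x1 → x1 ≤ 1 → 0 ≤ x2 → x2 ≤ 1 → P1C4.l ≤ xc → xc ≤ P1C4.u →
    (17925 / 4096 : ℝ) * (1 - (1 - x1) ^ 2) + (11825 / 1024 : ℝ) * (1 - (1 - x2) ^ 2) - (12 : ℝ) * (1 - (1 - xc) ^ 2) + (1 / 1073741824 : ℝ)
      ≤ - P1C4.a1 * x1 - P1C4.a2 * x2 + P1C4.e * xc + P1C4.f := by
  have h := cell_lines_delta 2 (α1 := (17925 / 4096 : ℝ)) (α2 := (11825 / 1024 : ℝ)) (c := (12 : ℝ)) (y1 := (3621 / 131072 : ℝ)) (y2 := (10309 / 262144 : ℝ))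
    (A1 := (35696237 / 4194304 : ℝ)) (B1 := (896561 / 268435456 : ℝ)) (A2 := (46530451 / 2097152 : ℝ)) (B2 := (4793981 / 268435456 : ℝ)) (l := (10699 / 262144 : ℝ)) (u := (11555 / 262144 : ℝ))
    (E := (-753051 / 32768 : ℝ)) (F := (-5795013 / 268435456 : ℝ)) (δ := (1 / 1073741824 : ℝ)) (by norm_num) (by norm_num) (by norm_num) (by norm_num) (by norm_num)
    (by norm_num) (by norm_num) (by norm_num) (by norm_num) (by norm_num) (by norm_num) (by norm_num) (by norm_num) (by norm_num) (by norm_num)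
  have e1 : P1C4.l = (10699 / 262144 : ℝ) := rfl
  have e2 : P1C4.u = (11555 / 262144 : ℝ) := rfl
  have e3 : P1C4.a1 = -(35696237 / 4194304 : ℝ) := by norm_num [P1C4]
  have e4 : P1C4.a2 = -(46530451 / 2097152 : ℝ) := by norm_num [P1C4]
  have e5 : P1C4.e = (-753051 / 32768 : ℝ) := rfl
  have e6 : P1C4.f = (896561 / 268435456 : ℝ) + (4793981 / 268435456 : ℝ) + (-5795013 / 268435456 : ℝ) + (1 / 1073741824 : ℝ) := by norm_num [P1C4]
  rw [e1, e2, e3, e4, e5, e6]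
  exact h

lemma rP1C5 : ∃ N : ℝ, Rw4 P.r2 N (coCell (17925 / 4096 : ℝ) (11825 / 1024 : ℝ) (12 : ℝ) 0 P1C5) := by
  refine ⟨(3221225472 : ℝ), ⟨Q32, List.mem_cons_of_mem _ (List.mem_cons_of_mem _ (List.mem_cons_of_mem _ (List.mem_cons_of_mem _ (List.mem_cons_of_mem _ (List.mem_cons_of_mem _ (List.mem_cons_of_mem _ (List.mem_cons_of_mem _ (List.mem_cons_of_mem _ (List.mem_cons_of_mem _ (List.mem_cons_of_mem _ (List.mem_cons_of_mem _ (List.mem_cons_of_mem _ (List.mem_cons_of_mem _ (List.mem_cons_of_mem _ (List.mem_cons_of_mem _ (List.mem_cons_of_mem _ (List.mem_cons_of_mem _ (List.mem_cons_of_mem _ (List.mem_cons_of_mem _ (List.mem_cons_of_mem _ (List.mem_cons_of_mem _ (List.mem_cons_of_mem _ (List.mem_cons_of_mem _ (List.mem_cons_of_mem _ (List.mem_cons_of_mem _ (List.mem_cons_of_mem _ (List.mem_cons_of_mem _ (List.mem_cons_of_mem _ (List.mem_cons_of_mem _ (List.mem_cons_of_mem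 _ (List.mem_cons_of_mem _ (List.mem_cons_self)))))))))))))))))))))))))))))))), ?_⟩, by norm_num⟩
  constructor <;> norm_num [Q32, coCell, P1C5]

lemma lP1C5 : ∀ x1 x2 xc : ℝ, 0 ≤ x1 → x1 ≤ 1 → 0 ≤ x2 → x2 ≤ 1 → P1C5.l ≤ xc → xc ≤ P1C5.u →
    (17925 / 4096 : ℝ) * (1 - (1 - x1) ^ 2) + (11825 / 1024 : ℝ) * (1 - (1 - x2) ^ 2) - (12 : ℝ) * (1 - (1 - xc) ^ 2) + (1 / 1073741824 : ℝ)
      ≤ - P1C5.a1 * x1 - P1C5.a2 * x2 + P1C5.e * xc + P1C5.f := by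
  have h := cell_lines_delta 2 (α1 := (17925 / 4096 : ℝ)) (α2 := (11825 / 1024 : ℝ)) (c := (12 : ℝ)) (y1 := (3315 / 131072 : ℝ)) (y2 := (11393 / 262144 : ℝ))
    (A1 := (35781941 / 4194304 : ℝ)) (B1 := (187857 / 67108864 : ℝ)) (A2 := (46330165 / 2097152 : ℝ)) (B2 := (1463793 / 67108864 : ℝ)) (l := (11555 / 262144 : ℝ)) (u := (195 / 4096 : ℝ))
    (E := (-1500759 / 65536 : ℝ)) (F := (-6759675 / 268435456 : ℝ)) (δ := (1 / 1073741824 : ℝ)) (by norm_num) (by norm_num) (by norm_num) (by norm_num) (by norm_num)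
    (by norm_num) (by norm_num) (by norm_num) (by norm_num) (by norm_num) (by norm_num) (by norm_num) (by norm_num) (by norm_num) (by norm_num)
  have e1 : P1C5.l = (11555 / 262144 : ℝ) := rfl
  have e2 : P1C5.u = (195 / 4096 : ℝ) := rfl
  have e3 : P1C5.a1 = -(35781941 / 4194304 : ℝ) := by norm_num [P1C5]
  have e4 : P1C5.a2 = -(46330165 / 2097152 : ℝ) := by norm_num [P1C5]
  have e5 : P1C5.e = (-1500759 / 65536 : ℝ) := rfl
  have e6 : P1C5.f = (187857 / 67108864 : ℝ) + (1463793 / 67108864 : ℝ) + (-6759675 / 268435456 : ℝ) + (1 / 1073741824 : ℝ) := by norm_num [P1C5]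
  rw [e1, e2, e3, e4, e5, e6]
  exact h

lemma rP1C6 : ∃ N : ℝ, Rw4 P.r2 N (coCell (17925 / 4096 : ℝ) (11825 / 1024 : ℝ) (12 : ℝ) 0 P1C6) := by
  refine ⟨(3221225472 : ℝ), ⟨Q33, List.mem_cons_of_mem _ (List.mem_cons_of_mem _ (List.mem_cons_of_mem _ (List.mem_cons_of_mem _ (List.mem_cons_of_mem _ (List.mem_cons_of_mem _ (List.mem_cons_of_mem _ (List.mem_cons_of_mem _ (List.mem_cons_of_mem _ (List.mem_cons_of_mem _ (List.mem_cons_of_mem _ (List.mem_cons_of_mem _ (List.mem_cons_of_mem _ (List.mem_cons_of_mem _ (List.mem_cons_of_mem _ (List.mem_cons_of_mem _ (List.mem_cons_of_mem _ (List.mem_cons_of_mem _ (List.mem_cons_of_mem _ (List.mem_cons_of_mem _ (List.mem_cons_of_mem _ (List.mem_cons_of_mem _ (List.mem_cons_of_mem _ (List.mem_cons_of_mem _ (List.mem_cons_of_mem _ (List.mem_cons_of_mem _ (List.mem_cons_of_mem _ (List.mem_cons_of_mem _ (List.mem_cons_of_mem _ (List.mem_cons_of_mem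 _ (List.mem_cons_of_mem _ (List.mem_cons_of_mem _ (List.mem_cons_of_mem _ (List.mem_cons_self))))))))))))))))))))))))))))))))), ?_⟩, by norm_num⟩
  constructor <;> norm_num [Q33, coCell, P1C6]

lemma lP1C6 : ∀ x1 x2 xc : ℝ, 0 ≤ x1 → x1 ≤ 1 → 0 ≤ x2 → x2 ≤ 1 → P1C6.l ≤ xc → xc ≤ P1C6.u →
    (17925 / 4096 : ℝ) * (1 - (1 - x1) ^ 2) + (11825 / 1024 : ℝ) * (1 - (1 - x2) ^ 2) - (12 : ℝ) * (1 - (1 - xc) ^ 2) + (1 / 1073741824 : ℝ)
      ≤ - P1C6.a1 * x1 - P1C6.a2 * x2 + P1C6.e * xc + P1C6.f := by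
  have h := cell_lines_delta 2 (α1 := (17925 / 4096 : ℝ)) (α2 := (11825 / 1024 : ℝ)) (c := (12 : ℝ)) (y1 := (459 / 16384 : ℝ)) (y2 := (3081 / 65536 : ℝ))
    (A1 := (35681953 / 4194304 : ℝ)) (B1 := (921995 / 268435456 : ℝ)) (A2 := (92316297 / 4194304 : ℝ)) (B2 := (214099 / 8388608 : ℝ)) (l := (195 / 4096 : ℝ)) (u := (6739 / 131072 : ℝ))
    (E := (-747495 / 32768 : ℝ)) (F := (-3942315 / 134217728 : ℝ)) (δ := (1 / 1073741824 : ℝ)) (by norm_num) (by norm_num) (by norm_num) (by norm_num) (by norm_num)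
    (by norm_num) (by norm_num) (by norm_num) (by norm_num) (by norm_num) (by norm_num) (by norm_num) (by norm_num) (by norm_num) (by norm_num)
  have e1 : P1C6.l = (195 / 4096 : ℝ) := rfl
  have e2 : P1C6.u = (6739 / 131072 : ℝ) := rfl
  have e3 : P1C6.a1 = -(35681953 / 4194304 : ℝ) := by norm_num [P1C6]
  have e4 : P1C6.a2 = -(92316297 / 4194304 : ℝ) := by norm_num [P1C6]
  have e5 : P1C6.e = (-747495 / 32768 : ℝ) := rfl
  have e6 : P1C6.f = (921995 / 268435456 : ℝ) + (214099 / 8388608 : ℝ) + (-3942315 / 134217728 : ℝ) + (1 / 1073741824 : ℝ) := by norm_num [P1C6]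
  rw [e1, e2, e3, e4, e5, e6]
  exact h

lemma rP1C7 : ∃ N : ℝ, Rw4 P.r2 N (coCell (17925 / 4096 : ℝ) (11825 / 1024 : ℝ) (12 : ℝ) 0 P1C7) := by
  refine ⟨(3221225472 : ℝ), ⟨Q34, List.mem_cons_of_mem _ (List.mem_cons_of_mem _ (List.mem_cons_of_mem _ (List.mem_cons_of_mem _ (List.mem_cons_of_mem _ (List.mem_cons_of_mem _ (List.mem_cons_of_mem _ (List.mem_cons_of_mem _ (List.mem_cons_of_mem _ (List.mem_cons_of_mem _ (List.mem_cons_of_mem _ (List.mem_cons_of_mem _ (List.mem_cons_of_mem _ (List.mem_cons_of_mem _ (List.mem_cons_of_mem _ (List.mem_cons_of_mem _ (List.mem_cons_of_mem _ (List.mem_cons_of_mem _ (List.mem_cons_of_mem _ (List.mem_cons_of_mem _ (List.mem_cons_of_mem _ (List.mem_cons_of_mem _ (List.mem_cons_of_mem _ (List.mem_cons_of_mem _ (List.mem_cons_of_mem _ (List.mem_cons_of_mem _ (List.mem_cons_of_mem _ (List.mem_cons_of_mem _ (List.mem_cons_of_mem _ (List.mem_cons_of_mem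 _ (List.mem_cons_of_mem _ (List.mem_cons_of_mem _ (List.mem_cons_of_mem _ (List.mem_cons_of_mem _ (List.mem_cons_self)))))))))))))))))))))))))))))))))), ?_⟩, by norm_num⟩
  constructor <;> norm_num [Q34, coCell, P1C7]

lemma lP1C7 : ∀ x1 x2 xc : ℝ, 0 ≤ x1 → x1 ≤ 1 → 0 ≤ x2 → x2 ≤ 1 → P1C7.l ≤ xc → xc ≤ P1C7.u →
    (17925 / 4096 : ℝ) * (1 - (1 - x1) ^ 2) + (11825 / 1024 : ℝ) * (1 - (1 - x2) ^ 2) - (12 : ℝ) * (1 - (1 - xc) ^ 2) + (1 / 1073741824 : ℝ)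
      ≤ - P1C7.a1 * x1 - P1C7.a2 * x2 + P1C7.e * xc + P1C7.f := by
  have h := cell_lines_delta 2 (α1 := (17925 / 4096 : ℝ)) (α2 := (11825 / 1024 : ℝ)) (c := (12 : ℝ)) (y1 := (507 / 16384 : ℝ)) (y2 := (6655 / 131072 : ℝ))
    (A1 := (35574403 / 4194304 : ℝ)) (B1 := (70307 / 16777216 : ℝ)) (A2 := (91951939 / 4194304 : ℝ)) (B2 := (7991303 / 268435456 : ℝ)) (l := (6739 / 131072 : ℝ)) (u := (3639 / 65536 : ℝ))
    (E := (-744381 / 32768 : ℝ)) (F := (-9196207 / 268435456 : ℝ)) (δ := (1 / 1073741824 : ℝ)) (by norm_num) (by norm_num) (by norm_num) (by norm_num) (by norm_num)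
    (by norm_num) (by norm_num) (by norm_num) (by norm_num) (by norm_num) (by norm_num) (by norm_num) (by norm_num) (by norm_num) (by norm_num)
  have e1 : P1C7.l = (6739 / 131072 : ℝ) := rfl
  have e2 : P1C7.u = (3639 / 65536 : ℝ) := rfl
  have e3 : P1C7.a1 = -(35574403 / 4194304 : ℝ) := by norm_num [P1C7]
  have e4 : P1C7.a2 = -(91951939 / 4194304 : ℝ) := by norm_num [P1C7]
  have e5 : P1C7.e = (-744381 / 32768 : ℝ) := rfl
  have e6 : P1C7.f = (70307 / 16777216 : ℝ) + (7991303 / 268435456 : ℝ) + (-9196207 / 268435456 : ℝ) + (1 / 1073741824 : ℝ) := by norm_num [P1C7]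
  rw [e1, e2, e3, e4, e5, e6]
  exact h

lemma rP1C8 : ∃ N : ℝ, Rw4 P.r2 N (coCell (17925 / 4096 : ℝ) (11825 / 1024 : ℝ) (12 : ℝ) 0 P1C8) := by
  refine ⟨(3221225472 : ℝ), ⟨Q35, List.mem_cons_of_mem _ (List.mem_cons_of_mem _ (List.mem_cons_of_mem _ (List.mem_cons_of_mem _ (List.mem_cons_of_mem _ (List.mem_cons_of_mem _ (List.mem_cons_of_mem _ (List.mem_cons_of_mem _ (List.mem_cons_of_mem _ (List.mem_cons_of_mem _ (List.mem_cons_of_mem _ (List.mem_cons_of_mem _ (List.mem_cons_of_mem _ (List.mem_cons_of_mem _ (List.mem_cons_of_mem _ (List.mem_cons_of_mem _ (List.mem_cons_of_mem _ (List.mem_cons_of_mem _ (List.mem_cons_of_mem _ (List.mem_cons_of_mem _ (List.mem_cons_of_mem _ (List.mem_cons_of_mem _ (List.mem_cons_of_mem _ (List.mem_cons_of_mem _ (List.mem_cons_of_mem _ (List.mem_cons_of_mem _ (List.mem_cons_of_mem _ (List.mem_cons_of_mem _ (List.mem_cons_of_mem _ (List.mem_cons_of_mem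 _ (List.mem_cons_of_mem _ (List.mem_cons_of_mem _ (List.mem_cons_of_mem _ (List.mem_cons_of_mem _ (List.mem_cons_of_mem _ (List.mem_cons_self))))))))))))))))))))))))))))))))))), ?_⟩, by norm_num⟩
  constructor <;> norm_num [Q35, coCell, P1C8]

lemma lP1C8 : ∀ x1 x2 xc : ℝ, 0 ≤ x1 → x1 ≤ 1 → 0 ≤ x2 → x2 ≤ 1 → P1C8.l ≤ xc → xc ≤ P1C8.u →
    (17925 / 4096 : ℝ) * (1 - (1 - x1) ^ 2) + (11825 / 1024 : ℝ) * (1 - (1 - x2) ^ 2) - (12 : ℝ) * (1 - (1 - xc) ^ 2) + (1 / 1073741824 : ℝ)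
      ≤ - P1C8.a1 * x1 - P1C8.a2 * x2 + P1C8.e * xc + P1C8.f := by
  have h := cell_lines_delta 2 (α1 := (17925 / 4096 : ℝ)) (α2 := (11825 / 1024 : ℝ)) (c := (12 : ℝ)) (y1 := (8891 / 262144 : ℝ)) (y2 := (7187 / 131072 : ℝ))
    (A1 := (35465313 / 4194304 : ℝ)) (B1 := (42229 / 8388608 : ℝ)) (A2 := (45779379 / 2097152 : ℝ)) (B2 := (9320013 / 268435456 : ℝ)) (l := (3639 / 65536 : ℝ)) (u := (15729 / 262144 : ℝ))
    (E := (-1482009 / 65536 : ℝ)) (F := (-10732093 / 268435456 : ℝ)) (δ := (1 / 1073741824 : ℝ)) (by norm_num) (by norm_num) (by norm_num) (by norm_num) (by norm_num)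
    (by norm_num) (by norm_num) (by norm_num) (by norm_num) (by norm_num) (by norm_num) (by norm_num) (by norm_num) (by norm_num) (by norm_num)
  have e1 : P1C8.l = (3639 / 65536 : ℝ) := rfl
  have e2 : P1C8.u = (15729 / 262144 : ℝ) := rfl
  have e3 : P1C8.a1 = -(35465313 / 4194304 : ℝ) := by norm_num [P1C8]
  have e4 : P1C8.a2 = -(45779379 / 2097152 : ℝ) := by norm_num [P1C8]
  have e5 : P1C8.e = (-1482009 / 65536 : ℝ) := rfl
  have e6 : P1C8.f = (42229 / 8388608 : ℝ) + (9320013 / 268435456 : ℝ) + (-10732093 / 268435456 : ℝ) + (1 / 1073741824 : ℝ) := by norm_num [P1C8]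
  rw [e1, e2, e3, e4, e5, e6]
  exact h

/-- A link of the chain. -/
lemma link1 {lam : ℝ} (h0 : -(1 / 2) < lam) (h1 : lam < 1) (hB : BoxS lam P 0 HH 0 HH)
    (h : ∃ n, 1 - En 2 lam n mc ≤ (15729 / 262144 : ℝ)) : ∃ n, 1 - En 2 lam n mc ≤ (983 / 32768 : ℝ) :=
  phase_of_box (by norm_num) h0 h1 hB (17925 / 4096 : ℝ) (11825 / 1024 : ℝ) (12 : ℝ) (1 / 1073741824 : ℝ) (983 / 32768 : ℝ) (15729 / 262144 : ℝ) (by norm_num) cellsP1 hcoverP1
    (forall_cons lP1C0 (forall_cons lP1C1 (forall_cons lP1C2 (forall_cons lP1C3 (forall_cons lP1C4 (forall_cons lP1C5 (forall_cons lP1C6 (forall_cons lP1C7 (forall_cons lP1C8 (forall_nil)))))))))) (forall_cons rP1C0 (forall_cons rP1C1 (forall_cons rP1C2 (forall_cons rP1C3 (forall_cons rP1C4 (forall_cons rP1C5 (forall_cons rP1C6 (forall_cons rP1C7 (forall_cons rP1C8 (forall_nil)))))))))) h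

/-- A chord cell of a link. -/
noncomputable def P2C0 : Cell := ⟨(15729 / 262144 : ℝ), (9437 / 131072 : ℝ), (-288407233 / 4194304 : ℝ), (0 : ℝ), (-1469055 / 65536 : ℝ), (-221683 / 1073741824 : ℝ)⟩

/-- A chord cell of a link. -/
noncomputable def P2C1 : Cell := ⟨(9437 / 131072 : ℝ), (22649 / 262144 : ℝ), (-286118777 / 4194304 : ℝ), (0 : ℝ), (-1448295 / 65536 : ℝ), (-207035 / 1073741824 : ℝ)⟩

/-- A chord cell of a link. -/
noncomputable def P2C2 : Cell := ⟨(22649 / 262144 : ℝ), (27179 / 262144 : ℝ), (-283376289 / 4194304 : ℝ), (0 : ℝ), (-355845 / 16384 : ℝ), (-219739 / 1073741824 : ℝ)⟩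

/-- A chord cell of a link. -/
noncomputable def P2C3 : Cell := ⟨(27179 / 262144 : ℝ), (32615 / 262144 : ℝ), (-280084847 / 4194304 : ℝ), (0 : ℝ), (-696741 / 32768 : ℝ), (-214811 / 1073741824 : ℝ)⟩

/-- A chord cell of a link. -/
noncomputable def P2C4 : Cell := ⟨(32615 / 262144 : ℝ), (19569 / 131072 : ℝ), (-276136945 / 4194304 : ℝ), (0 : ℝ), (-1357605 / 65536 : ℝ), (-222931 / 1073741824 : ℝ)⟩

/-- A chord cell of a link. -/
noncomputable def P2C5 : Cell := ⟨(19569 / 131072 : ℝ), (46965 / 262144 : ℝ), (-271399921 / 4194304 : ℝ), (0 : ℝ), (-1314555 / 65536 : ℝ), (-222391 / 1073741824 : ℝ)⟩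

/-- A chord cell of a link. -/
noncomputable def P2C6 : Cell := ⟨(46965 / 262144 : ℝ), (52429 / 262144 : ℝ), (-133462969 / 2097152 : ℝ), (0 : ℝ), (-637341 / 32768 : ℝ), (-208907 / 1073741824 : ℝ)⟩

/-- The chord cells of a link. -/
noncomputable def cellsP2 : List Cell := [P2C0, P2C1, P2C2, P2C3, P2C4, P2C5, P2C6]

lemma hcoverP2 : ∀ x : ℝ, (15729 / 262144 : ℝ) ≤ x → x ≤ (52429 / 262144 : ℝ) → ∃ D ∈ cellsP2, D.l ≤ x ∧ x ≤ D.u := by
  refine cover_of_chain ?_ (by norm_num [P2C0])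
  simp only [ChainP, P2C0, P2C1, P2C2, P2C3, P2C4, P2C5, P2C6]
  norm_num

lemma rP2C0 : ∃ N : ℝ, Rw4 P.r2 N (coCell (36597 / 1024 : ℝ) (0 : ℝ) (12 : ℝ) 0 P2C0) := by
  refine ⟨(3221225472 : ℝ), ⟨Q36, List.mem_cons_of_mem _ (List.mem_cons_of_mem _ (List.mem_cons_of_mem _ (List.mem_cons_of_mem _ (List.mem_cons_of_mem _ (List.mem_cons_of_mem _ (List.mem_cons_of_mem _ (List.mem_cons_of_mem _ (List.mem_cons_of_mem _ (List.mem_cons_of_mem _ (List.mem_cons_of_mem _ (List.mem_cons_of_mem _ (List.mem_cons_of_mem _ (List.mem_cons_of_mem _ (List.mem_cons_of_mem _ (List.mem_cons_of_mem _ (List.mem_cons_of_mem _ (List.mem_cons_of_mem _ (List.mem_cons_of_mem _ (List.mem_cons_of_mem _ (List.mem_cons_of_mem _ (List.mem_cons_of_mem _ (List.mem_cons_of_mem _ (List.mem_cons_of_mem _ (List.mem_cons_of_mem _ (List.mem_cons_of_mem _ (List.mem_cons_of_mem _ (List.mem_cons_of_mem _ (List.mem_cons_of_mem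 _ (List.mem_cons_of_mem _ (List.mem_cons_of_mem _ (List.mem_cons_of_mem _ (List.mem_cons_of_mem _ (List.mem_cons_of_mem _ (List.mem_cons_of_mem _ (List.mem_cons_of_mem _ (List.mem_cons_self)))))))))))))))))))))))))))))))))))), ?_⟩, by norm_num⟩
  constructor <;> norm_num [Q36, coCell, P2C0]

lemma lP2C0 : ∀ x1 x2 xc : ℝ, 0 ≤ x1 → x1 ≤ 1 → 0 ≤ x2 → x2 ≤ 1 → P2C0.l ≤ xc → xc ≤ P2C0.u →
    (36597 / 1024 : ℝ) * (1 - (1 - x1) ^ 2) + (0 : ℝ) * (1 - (1 - x2) ^ 2) - (12 : ℝ) * (1 - (1 - xc) ^ 2) + (1 / 1073741824 : ℝ)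
      ≤ - P2C0.a1 * x1 - P2C0.a2 * x2 + P2C0.e * xc + P2C0.f := by
  have h := cell_lines_delta 2 (α1 := (36597 / 1024 : ℝ)) (α2 := (0 : ℝ)) (c := (12 : ℝ)) (y1 := (2491 / 65536 : ℝ)) (y2 := (1899 / 131072 : ℝ))
    (A1 := (288407233 / 4194304 : ℝ)) (B1 := (433135 / 8388608 : ℝ)) (A2 := (0 : ℝ)) (B2 := (0 : ℝ)) (l := (15729 / 262144 : ℝ)) (u := (9437 / 131072 : ℝ))
    (E := (-1469055 / 65536 : ℝ)) (F := (-13915741 / 268435456 : ℝ)) (δ := (1 / 1073741824 : ℝ)) (by norm_num) (by norm_num) (by norm_num) (by norm_num) (by norm_num)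
    (by norm_num) (by norm_num) (by norm_num) (by norm_num) (by norm_num) (by norm_num) (by norm_num) (by norm_num) (by norm_num) (by norm_num)
  have e1 : P2C0.l = (15729 / 262144 : ℝ) := rfl
  have e2 : P2C0.u = (9437 / 131072 : ℝ) := rfl
  have e3 : P2C0.a1 = -(288407233 / 4194304 : ℝ) := by norm_num [P2C0]
  have e4 : P2C0.a2 = -(0 : ℝ) := by norm_num [P2C0]
  have e5 : P2C0.e = (-1469055 / 65536 : ℝ) := rfl
  have e6 : P2C0.f = (433135 / 8388608 : ℝ) + (0 : ℝ) + (-13915741 / 268435456 : ℝ) + (1 / 1073741824 : ℝ) := by norm_num [P2C0]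
  rw [e1, e2, e3, e4, e5, e6]
  exact h

lemma rP2C1 : ∃ N : ℝ, Rw4 P.r2 N (coCell (36597 / 1024 : ℝ) (0 : ℝ) (12 : ℝ) 0 P2C1) := by
  refine ⟨(3221225472 : ℝ), ⟨Q37, List.mem_cons_of_mem _ (List.mem_cons_of_mem _ (List.mem_cons_of_mem _ (List.mem_cons_of_mem _ (List.mem_cons_of_mem _ (List.mem_cons_of_mem _ (List.mem_cons_of_mem _ (List.mem_cons_of_mem _ (List.mem_cons_of_mem _ (List.mem_cons_of_mem _ (List.mem_cons_of_mem _ (List.mem_cons_of_mem _ (List.mem_cons_of_mem _ (List.mem_cons_of_mem _ (List.mem_cons_of_mem _ (List.mem_cons_of_mem _ (List.mem_cons_of_mem _ (List.mem_cons_of_mem _ (List.mem_cons_of_mem _ (List.mem_cons_of_mem _ (List.mem_cons_of_mem _ (List.mem_cons_of_mem _ (List.mem_cons_of_mem _ (List.mem_cons_of_mem _ (List.mem_cons_of_mem _ (List.mem_cons_of_mem _ (List.mem_cons_of_mem _ (List.mem_cons_of_mem _ (List.mem_cons_of_mem _ (List.mem_cons_of_mem _ (List.mem_cons_of_mem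 _ (List.mem_cons_of_mem _ (List.mem_cons_of_mem _ (List.mem_cons_of_mem _ (List.mem_cons_of_mem _ (List.mem_cons_of_mem _ (List.mem_cons_of_mem _ (List.mem_cons_self))))))))))))))))))))))))))))))))))))), ?_⟩, by norm_num⟩
  constructor <;> norm_num [Q37, coCell, P2C1]

lemma lP2C1 : ∀ x1 x2 xc : ℝ, 0 ≤ x1 → x1 ≤ 1 → 0 ≤ x2 → x2 ≤ 1 → P2C1.l ≤ xc → xc ≤ P2C1.u →
    (36597 / 1024 : ℝ) * (1 - (1 - x1) ^ 2) + (0 : ℝ) * (1 - (1 - x2) ^ 2) - (12 : ℝ) * (1 - (1 - xc) ^ 2) + (1 / 1073741824 : ℝ)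
      ≤ - P2C1.a1 * x1 - P2C1.a2 * x2 + P2C1.e * xc + P2C1.f := by
  have h := cell_lines_delta 2 (α1 := (36597 / 1024 : ℝ)) (α2 := (0 : ℝ)) (c := (12 : ℝ)) (y1 := (11965 / 262144 : ℝ)) (y2 := (2275 / 131072 : ℝ))
    (A1 := (286118777 / 4194304 : ℝ)) (B1 := (19986235 / 268435456 : ℝ)) (A2 := (0 : ℝ)) (B2 := (0 : ℝ)) (l := (9437 / 131072 : ℝ)) (u := (22649 / 262144 : ℝ))
    (E := (-1448295 / 65536 : ℝ)) (F := (-10018997 / 134217728 : ℝ)) (δ := (1 / 1073741824 : ℝ)) (by norm_num) (by norm_num) (by norm_num) (by norm_num) (by norm_num)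
    (by norm_num) (by norm_num) (by norm_num) (by norm_num) (by norm_num) (by norm_num) (by norm_num) (by norm_num) (by norm_num) (by norm_num)
  have e1 : P2C1.l = (9437 / 131072 : ℝ) := rfl
  have e2 : P2C1.u = (22649 / 262144 : ℝ) := rfl
  have e3 : P2C1.a1 = -(286118777 / 4194304 : ℝ) := by norm_num [P2C1]
  have e4 : P2C1.a2 = -(0 : ℝ) := by norm_num [P2C1]
  have e5 : P2C1.e = (-1448295 / 65536 : ℝ) := rfl
  have e6 : P2C1.f = (19986235 / 268435456 : ℝ) + (0 : ℝ) + (-10018997 / 134217728 : ℝ) + (1 / 1073741824 : ℝ) := by norm_num [P2C1]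
  rw [e1, e2, e3, e4, e5, e6]
  exact h

lemma rP2C2 : ∃ N : ℝ, Rw4 P.r2 N (coCell (36597 / 1024 : ℝ) (0 : ℝ) (12 : ℝ) 0 P2C2) := by
  refine ⟨(1073741824 : ℝ), ⟨Q38, List.mem_cons_of_mem _ (List.mem_cons_of_mem _ (List.mem_cons_of_mem _ (List.mem_cons_of_mem _ (List.mem_cons_of_mem _ (List.mem_cons_of_mem _ (List.mem_cons_of_mem _ (List.mem_cons_of_mem _ (List.mem_cons_of_mem _ (List.mem_cons_of_mem _ (List.mem_cons_of_mem _ (List.mem_cons_of_mem _ (List.mem_cons_of_mem _ (List.mem_cons_of_mem _ (List.mem_cons_of_mem _ (List.mem_cons_of_mem _ (List.mem_cons_of_mem _ (List.mem_cons_of_mem _ (List.mem_cons_of_mem _ (List.mem_cons_of_mem _ (List.mem_cons_of_mem _ (List.mem_cons_of_mem _ (List.mem_cons_of_mem _ (List.mem_cons_of_mem _ (List.mem_cons_of_mem _ (List.mem_cons_of_mem _ (List.mem_cons_of_mem _ (List.mem_cons_of_mem _ (List.mem_cons_of_mem _ (List.mem_cons_of_mem _ (List.mem_cons_of_mem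 _ (List.mem_cons_of_mem _ (List.mem_cons_of_mem _ (List.mem_cons_of_mem _ (List.mem_cons_of_mem _ (List.mem_cons_of_mem _ (List.mem_cons_of_mem _ (List.mem_cons_of_mem _ (List.mem_cons_self)))))))))))))))))))))))))))))))))))))), ?_⟩, by norm_num⟩
  constructor <;> norm_num [Q38, coCell, P2C2]

lemma lP2C2 : ∀ x1 x2 xc : ℝ, 0 ≤ x1 → x1 ≤ 1 → 0 ≤ x2 → x2 ≤ 1 → P2C2.l ≤ xc → xc ≤ P2C2.u →
    (36597 / 1024 : ℝ) * (1 - (1 - x1) ^ 2) + (0 : ℝ) * (1 - (1 - x2) ^ 2) - (12 : ℝ) * (1 - (1 - xc) ^ 2) + (1 / 1073741824 : ℝ)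
      ≤ - P2C2.a1 * x1 - P2C2.a2 * x2 + P2C2.e * xc + P2C2.f := by
  have h := cell_lines_delta 2 (α1 := (36597 / 1024 : ℝ)) (α2 := (0 : ℝ)) (c := (12 : ℝ)) (y1 := (14363 / 262144 : ℝ)) (y2 := (5455 / 262144 : ℝ))
    (A1 := (283376289 / 4194304 : ℝ)) (B1 := (7200061 / 67108864 : ℝ)) (A2 := (0 : ℝ)) (B2 := (0 : ℝ)) (l := (22649 / 262144 : ℝ)) (u := (27179 / 262144 : ℝ))
    (E := (-355845 / 16384 : ℝ)) (F := (-28855179 / 268435456 : ℝ)) (δ := (1 / 1073741824 : ℝ)) (by norm_num) (by norm_num) (by norm_num) (by norm_num) (by norm_num)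
    (by norm_num) (by norm_num) (by norm_num) (by norm_num) (by norm_num) (by norm_num) (by norm_num) (by norm_num) (by norm_num) (by norm_num)
  have e1 : P2C2.l = (22649 / 262144 : ℝ) := rfl
  have e2 : P2C2.u = (27179 / 262144 : ℝ) := rfl
  have e3 : P2C2.a1 = -(283376289 / 4194304 : ℝ) := by norm_num [P2C2]
  have e4 : P2C2.a2 = -(0 : ℝ) := by norm_num [P2C2]
  have e5 : P2C2.e = (-355845 / 16384 : ℝ) := rfl
  have e6 : P2C2.f = (7200061 / 67108864 : ℝ) + (0 : ℝ) + (-28855179 / 268435456 : ℝ) + (1 / 1073741824 : ℝ) := by norm_num [P2C2]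
  rw [e1, e2, e3, e4, e5, e6]
  exact h

lemma rP2C3 : ∃ N : ℝ, Rw4 P.r2 N (coCell (36597 / 1024 : ℝ) (0 : ℝ) (12 : ℝ) 0 P2C3) := by
  refine ⟨(3221225472 : ℝ), ⟨Q39, List.mem_cons_of_mem _ (List.mem_cons_of_mem _ (List.mem_cons_of_mem _ (List.mem_cons_of_mem _ (List.mem_cons_of_mem _ (List.mem_cons_of_mem _ (List.mem_cons_of_mem _ (List.mem_cons_of_mem _ (List.mem_cons_of_mem _ (List.mem_cons_of_mem _ (List.mem_cons_of_mem _ (List.mem_cons_of_mem _ (List.mem_cons_of_mem _ (List.mem_cons_of_mem _ (List.mem_cons_of_mem _ (List.mem_cons_of_mem _ (List.mem_cons_of_mem _ (List.mem_cons_of_mem _ (List.mem_cons_of_mem _ (List.mem_cons_of_mem _ (List.mem_cons_of_mem _ (List.mem_cons_of_mem _ (List.mem_cons_of_mem _ (List.mem_cons_of_mem _ (List.mem_cons_of_mem _ (List.mem_cons_of_mem _ (List.mem_cons_of_mem _ (List.mem_cons_of_mem _ (List.mem_cons_of_mem _ (List.mem_cons_of_mem _ (List.mem_cons_of_mem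 _ (List.mem_cons_of_mem _ (List.mem_cons_of_mem _ (List.mem_cons_of_mem _ (List.mem_cons_of_mem _ (List.mem_cons_of_mem _ (List.mem_cons_of_mem _ (List.mem_cons_of_mem _ (List.mem_cons_of_mem _ (List.mem_cons_self))))))))))))))))))))))))))))))))))))))), ?_⟩, by norm_num⟩
  constructor <;> norm_num [Q39, coCell, P2C3]

lemma lP2C3 : ∀ x1 x2 xc : ℝ, 0 ≤ x1 → x1 ≤ 1 → 0 ≤ x2 → x2 ≤ 1 → P2C3.l ≤ xc → xc ≤ P2C3.u →
    (36597 / 1024 : ℝ) * (1 - (1 - x1) ^ 2) + (0 : ℝ) * (1 - (1 - x2) ^ 2) - (12 : ℝ) * (1 - (1 - xc) ^ 2) + (1 / 1073741824 : ℝ)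
      ≤ - P2C3.a1 * x1 - P2C3.a2 * x2 + P2C3.e * xc + P2C3.f := by
  have h := cell_lines_delta 2 (α1 := (36597 / 1024 : ℝ)) (α2 := (0 : ℝ)) (c := (12 : ℝ)) (y1 := (17241 / 262144 : ℝ)) (y2 := (6541 / 262144 : ℝ))
    (A1 := (280084847 / 4194304 : ℝ)) (B1 := (10374579 / 67108864 : ℝ)) (A2 := (0 : ℝ)) (B2 := (0 : ℝ)) (l := (27179 / 262144 : ℝ)) (u := (32615 / 262144 : ℝ))
    (E := (-696741 / 32768 : ℝ)) (F := (-41552019 / 268435456 : ℝ)) (δ := (1 / 1073741824 : ℝ)) (by norm_num) (by norm_num) (by norm_num) (by norm_num) (by norm_num)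
    (by norm_num) (by norm_num) (by norm_num) (by norm_num) (by norm_num) (by norm_num) (by norm_num) (by norm_num) (by norm_num) (by norm_num)
  have e1 : P2C3.l = (27179 / 262144 : ℝ) := rfl
  have e2 : P2C3.u = (32615 / 262144 : ℝ) := rfl
  have e3 : P2C3.a1 = -(280084847 / 4194304 : ℝ) := by norm_num [P2C3]
  have e4 : P2C3.a2 = -(0 : ℝ) := by norm_num [P2C3]
  have e5 : P2C3.e = (-696741 / 32768 : ℝ) := rfl
  have e6 : P2C3.f = (10374579 / 67108864 : ℝ) + (0 : ℝ) + (-41552019 / 268435456 : ℝ) + (1 / 1073741824 : ℝ) := by norm_num [P2C3]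
  rw [e1, e2, e3, e4, e5, e6]
  exact h

lemma rP2C4 : ∃ N : ℝ, Rw4 P.r2 N (coCell (36597 / 1024 : ℝ) (0 : ℝ) (12 : ℝ) 0 P2C4) := by
  refine ⟨(3221225472 : ℝ), ⟨Q40, List.mem_cons_of_mem _ (List.mem_cons_of_mem _ (List.mem_cons_of_mem _ (List.mem_cons_of_mem _ (List.mem_cons_of_mem _ (List.mem_cons_of_mem _ (List.mem_cons_of_mem _ (List.mem_cons_of_mem _ (List.mem_cons_of_mem _ (List.mem_cons_of_mem _ (List.mem_cons_of_mem _ (List.mem_cons_of_mem _ (List.mem_cons_of_mem _ (List.mem_cons_of_mem _ (List.mem_cons_of_mem _ (List.mem_cons_of_mem _ (List.mem_cons_of_mem _ (List.mem_cons_of_mem _ (List.mem_cons_of_mem _ (List.mem_cons_of_mem _ (List.mem_cons_of_mem _ (List.mem_cons_of_mem _ (List.mem_cons_of_mem _ (List.mem_cons_of_mem _ (List.mem_cons_of_mem _ (List.mem_cons_of_mem _ (List.mem_cons_of_mem _ (List.mem_cons_of_mem _ (List.mem_cons_of_mem _ (List.mem_cons_of_mem _ (List.mem_cons_of_mem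 _ (List.mem_cons_of_mem _ (List.mem_cons_of_mem _ (List.mem_cons_of_mem _ (List.mem_cons_of_mem _ (List.mem_cons_of_mem _ (List.mem_cons_of_mem _ (List.mem_cons_of_mem _ (List.mem_cons_of_mem _ (List.mem_cons_of_mem _ (List.mem_cons_self)))))))))))))))))))))))))))))))))))))))), ?_⟩, by norm_num⟩
  constructor <;> norm_num [Q40, coCell, P2C4]

lemma lP2C4 : ∀ x1 x2 xc : ℝ, 0 ≤ x1 → x1 ≤ 1 → 0 ≤ x2 → x2 ≤ 1 → P2C4.l ≤ xc → xc ≤ P2C4.u →
    (36597 / 1024 : ℝ) * (1 - (1 - x1) ^ 2) + (0 : ℝ) * (1 - (1 - x2) ^ 2) - (12 : ℝ) * (1 - (1 - xc) ^ 2) + (1 / 1073741824 : ℝ)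
      ≤ - P2C4.a1 * x1 - P2C4.a2 * x2 + P2C4.e * xc + P2C4.f := by
  have h := cell_lines_delta 2 (α1 := (36597 / 1024 : ℝ)) (α2 := (0 : ℝ)) (c := (12 : ℝ)) (y1 := (20693 / 262144 : ℝ)) (y2 := (7845 / 262144 : ℝ))
    (A1 := (276136945 / 4194304 : ℝ)) (B1 := (29889771 / 134217728 : ℝ)) (A2 := (0 : ℝ)) (B2 := (0 : ℝ)) (l := (32615 / 262144 : ℝ)) (u := (19569 / 131072 : ℝ))
    (E := (-1357605 / 65536 : ℝ)) (F := (-59835275 / 268435456 : ℝ)) (δ := (1 / 1073741824 : ℝ)) (by norm_num) (by norm_num) (by norm_num) (by norm_num) (by norm_num)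
    (by norm_num) (by norm_num) (by norm_num) (by norm_num) (by norm_num) (by norm_num) (by norm_num) (by norm_num) (by norm_num) (by norm_num)
  have e1 : P2C4.l = (32615 / 262144 : ℝ) := rfl
  have e2 : P2C4.u = (19569 / 131072 : ℝ) := rfl
  have e3 : P2C4.a1 = -(276136945 / 4194304 : ℝ) := by norm_num [P2C4]
  have e4 : P2C4.a2 = -(0 : ℝ) := by norm_num [P2C4]
  have e5 : P2C4.e = (-1357605 / 65536 : ℝ) := rfl
  have e6 : P2C4.f = (29889771 / 134217728 : ℝ) + (0 : ℝ) + (-59835275 / 268435456 : ℝ) + (1 / 1073741824 : ℝ) := by norm_num [P2C4]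
  rw [e1, e2, e3, e4, e5, e6]
  exact h

lemma rP2C5 : ∃ N : ℝ, Rw4 P.r2 N (coCell (36597 / 1024 : ℝ) (0 : ℝ) (12 : ℝ) 0 P2C5) := by
  refine ⟨(3221225472 : ℝ), ⟨Q41, List.mem_cons_of_mem _ (List.mem_cons_of_mem _ (List.mem_cons_of_mem _ (List.mem_cons_of_mem _ (List.mem_cons_of_mem _ (List.mem_cons_of_mem _ (List.mem_cons_of_mem _ (List.mem_cons_of_mem _ (List.mem_cons_of_mem _ (List.mem_cons_of_mem _ (List.mem_cons_of_mem _ (List.mem_cons_of_mem _ (List.mem_cons_of_mem _ (List.mem_cons_of_mem _ (List.mem_cons_of_mem _ (List.mem_cons_of_mem _ (List.mem_cons_of_mem _ (List.mem_cons_of_mem _ (List.mem_cons_of_mem _ (List.mem_cons_of_mem _ (List.mem_cons_of_mem _ (List.mem_cons_of_mem _ (List.mem_cons_of_mem _ (List.mem_cons_of_mem _ (List.mem_cons_of_mem _ (List.mem_cons_of_mem _ (List.mem_cons_of_mem _ (List.mem_cons_of_mem _ (List.mem_cons_of_mem _ (List.mem_cons_of_mem _ (List.mem_cons_of_mem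 _ (List.mem_cons_of_mem _ (List.mem_cons_of_mem _ (List.mem_cons_of_mem _ (List.mem_cons_of_mem _ (List.mem_cons_of_mem _ (List.mem_cons_of_mem _ (List.mem_cons_of_mem _ (List.mem_cons_of_mem _ (List.mem_cons_of_mem _ (List.mem_cons_of_mem _ (List.mem_cons_self))))))))))))))))))))))))))))))))))))))))), ?_⟩, by norm_num⟩
  constructor <;> norm_num [Q41, coCell, P2C5]

lemma lP2C5 : ∀ x1 x2 xc : ℝ, 0 ≤ x1 → x1 ≤ 1 → 0 ≤ x2 → x2 ≤ 1 → P2C5.l ≤ xc → xc ≤ P2C5.u →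
    (36597 / 1024 : ℝ) * (1 - (1 - x1) ^ 2) + (0 : ℝ) * (1 - (1 - x2) ^ 2) - (12 : ℝ) * (1 - (1 - xc) ^ 2) + (1 / 1073741824 : ℝ)
      ≤ - P2C5.a1 * x1 - P2C5.a2 * x2 + P2C5.e * xc + P2C5.f := by
  have h := cell_lines_delta 2 (α1 := (36597 / 1024 : ℝ)) (α2 := (0 : ℝ)) (c := (12 : ℝ)) (y1 := (24835 / 262144 : ℝ)) (y2 := (4705 / 131072 : ℝ))
    (A1 := (271399921 / 4194304 : ℝ)) (B1 := (86106097 / 268435456 : ℝ)) (A2 := (0 : ℝ)) (B2 := (0 : ℝ)) (l := (19569 / 131072 : ℝ)) (u := (46965 / 262144 : ℝ))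
    (E := (-1314555 / 65536 : ℝ)) (F := (-86161695 / 268435456 : ℝ)) (δ := (1 / 1073741824 : ℝ)) (by norm_num) (by norm_num) (by norm_num) (by norm_num) (by norm_num)
    (by norm_num) (by norm_num) (by norm_num) (by norm_num) (by norm_num) (by norm_num) (by norm_num) (by norm_num) (by norm_num) (by norm_num)
  have e1 : P2C5.l = (19569 / 131072 : ℝ) := rfl
  have e2 : P2C5.u = (46965 / 262144 : ℝ) := rfl
  have e3 : P2C5.a1 = -(271399921 / 4194304 : ℝ) := by norm_num [P2C5]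
  have e4 : P2C5.a2 = -(0 : ℝ) := by norm_num [P2C5]
  have e5 : P2C5.e = (-1314555 / 65536 : ℝ) := rfl
  have e6 : P2C5.f = (86106097 / 268435456 : ℝ) + (0 : ℝ) + (-86161695 / 268435456 : ℝ) + (1 / 1073741824 : ℝ) := by norm_num [P2C5]
  rw [e1, e2, e3, e4, e5, e6]
  exact h

lemma rP2C6 : ∃ N : ℝ, Rw4 P.r2 N (coCell (36597 / 1024 : ℝ) (0 : ℝ) (12 : ℝ) 0 P2C6) := by
  refine ⟨(3221225472 : ℝ), ⟨Q42, List.mem_cons_of_mem _ (List.mem_cons_of_mem _ (List.mem_cons_of_mem _ (List.mem_cons_of_mem _ (List.mem_cons_of_mem _ (List.mem_cons_of_mem _ (List.mem_cons_of_mem _ (List.mem_cons_of_mem _ (List.mem_cons_of_mem _ (List.mem_cons_of_mem _ (List.mem_cons_of_mem _ (List.mem_cons_of_mem _ (List.mem_cons_of_mem _ (List.mem_cons_of_mem _ (List.mem_cons_of_mem _ (List.mem_cons_of_mem _ (List.mem_cons_of_mem _ (List.mem_cons_of_mem _ (List.mem_cons_of_mem _ (List.mem_cons_of_mem _ (List.mem_cons_of_mem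 _ (List.mem_cons_of_mem _ (List.mem_cons_of_mem _ (List.mem_cons_of_mem _ (List.mem_cons_of_mem _ (List.mem_cons_of_mem _ (List.mem_cons_of_mem _ (List.mem_cons_of_mem _ (List.mem_cons_of_mem _ (List.mem_cons_of_mem _ (List.mem_cons_of_mem _ (List.mem_cons_of_mem _ (List.mem_cons_of_mem _ (List.mem_cons_of_mem _ (List.mem_cons_of_mem _ (List.mem_cons_of_mem _ (List.mem_cons_of_mem _ (List.mem_cons_of_mem _ (List.mem_cons_of_mem _ (List.mem_cons_of_mem _ (List.mem_cons_of_mem _ (List.mem_cons_of_mem _ (List.mem_cons_self)))))))))))))))))))))))))))))))))))))))))), ?_⟩, by norm_num⟩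
  constructor <;> norm_num [Q42, coCell, P2C6]

lemma lP2C6 : ∀ x1 x2 xc : ℝ, 0 ≤ x1 → x1 ≤ 1 → 0 ≤ x2 → x2 ≤ 1 → P2C6.l ≤ xc → xc ≤ P2C6.u →
    (36597 / 1024 : ℝ) * (1 - (1 - x1) ^ 2) + (0 : ℝ) * (1 - (1 - x2) ^ 2) - (12 : ℝ) * (1 - (1 - xc) ^ 2) + (1 / 1073741824 : ℝ)
      ≤ - P2C6.a1 * x1 - P2C6.a2 * x2 + P2C6.e * xc + P2C6.f := by
  have h := cell_lines_delta 2 (α1 := (36597 / 1024 : ℝ)) (α2 := (0 : ℝ)) (c := (12 : ℝ)) (y1 := (28747 / 262144 : ℝ)) (y2 := (3087 / 65536 : ℝ))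
    (A1 := (133462969 / 2097152 : ℝ)) (B1 := (115369397 / 268435456 : ℝ)) (A2 := (0 : ℝ)) (B2 := (0 : ℝ)) (l := (46965 / 262144 : ℝ)) (u := (52429 / 262144 : ℝ))
    (E := (-637341 / 32768 : ℝ)) (F := (-14427703 / 33554432 : ℝ)) (δ := (1 / 1073741824 : ℝ)) (by norm_num) (by norm_num) (by norm_num) (by norm_num) (by norm_num)
    (by norm_num) (by norm_num) (by norm_num) (by norm_num) (by norm_num) (by norm_num) (by norm_num) (by norm_num) (by norm_num) (by norm_num)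
  have e1 : P2C6.l = (46965 / 262144 : ℝ) := rfl
  have e2 : P2C6.u = (52429 / 262144 : ℝ) := rfl
  have e3 : P2C6.a1 = -(133462969 / 2097152 : ℝ) := by norm_num [P2C6]
  have e4 : P2C6.a2 = -(0 : ℝ) := by norm_num [P2C6]
  have e5 : P2C6.e = (-637341 / 32768 : ℝ) := rfl
  have e6 : P2C6.f = (115369397 / 268435456 : ℝ) + (0 : ℝ) + (-14427703 / 33554432 : ℝ) + (1 / 1073741824 : ℝ) := by norm_num [P2C6]
  rw [e1, e2, e3, e4, e5, e6]
  exact h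

/-- A link of the chain. -/
lemma link2 {lam : ℝ} (h0 : -(1 / 2) < lam) (h1 : lam < 1) (hB : BoxS lam P 0 HH 0 HH)
    (h : ∃ n, 1 - En 2 lam n mc ≤ (52429 / 262144 : ℝ)) : ∃ n, 1 - En 2 lam n mc ≤ (15729 / 262144 : ℝ) :=
  phase_of_box (by norm_num) h0 h1 hB (36597 / 1024 : ℝ) (0 : ℝ) (12 : ℝ) (1 / 1073741824 : ℝ) (15729 / 262144 : ℝ) (52429 / 262144 : ℝ) (by norm_num) cellsP2 hcoverP2
    (forall_cons lP2C0 (forall_cons lP2C1 (forall_cons lP2C2 (forall_cons lP2C3 (forall_cons lP2C4 (forall_cons lP2C5 (forall_cons lP2C6 (forall_nil)))))))) (forall_cons rP2C0 (forall_cons rP2C1 (forall_cons rP2C2 (forall_cons rP2C3 (forall_cons rP2C4 (forall_cons rP2C5 (forall_cons rP2C6 (forall_nil)))))))) h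

/-- A chord cell of a link. -/
noncomputable def P3C0 : Cell := ⟨(52429 / 262144 : ℝ), (62915 / 262144 : ℝ), (-75399143 / 1048576 : ℝ), (0 : ℝ), (-76677 / 4096 : ℝ), (-218287 / 1073741824 : ℝ)⟩

/-- A chord cell of a link. -/
noncomputable def P3C1 : Cell := ⟨(62915 / 262144 : ℝ), (75497 / 262144 : ℝ), (-146731337 / 2097152 : ℝ), (0 : ℝ), (-289407 / 16384 : ℝ), (-229083 / 1073741824 : ℝ)⟩

/-- A chord cell of a link. -/
noncomputable def P3C2 : Cell := ⟨(75497 / 262144 : ℝ), (90597 / 262144 : ℝ), (-283701997 / 4194304 : ℝ), (0 : ℝ), (-537291 / 32768 : ℝ), (-230023 / 1073741824 : ℝ)⟩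

/-- A chord cell of a link. -/
noncomputable def P3C3 : Cell := ⟨(90597 / 262144 : ℝ), (207 / 512 : ℝ), (-275419261 / 4194304 : ℝ), (0 : ℝ), (-983121 / 65536 : ℝ), (-129695779 / 1073741824 : ℝ)⟩

/-- The chord cells of a link. -/
noncomputable def cellsP3 : List Cell := [P3C0, P3C1, P3C2, P3C3]

lemma hcoverP3 : ∀ x : ℝ, (52429 / 262144 : ℝ) ≤ x → x ≤ (207 / 512 : ℝ) → ∃ D ∈ cellsP3, D.l ≤ x ∧ x ≤ D.u := by
  refine cover_of_chain ?_ (by norm_num [P3C0])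
  simp only [ChainP, P3C0, P3C1, P3C2, P3C3]
  norm_num

lemma rP3C0 : ∃ N : ℝ, Rw4 P.r2 N (coCell (167117 / 4096 : ℝ) (0 : ℝ) (12 : ℝ) 0 P3C0) := by
  refine ⟨(3221225472 : ℝ), ⟨Q43, List.mem_cons_of_mem _ (List.mem_cons_of_mem _ (List.mem_cons_of_mem _ (List.mem_cons_of_mem _ (List.mem_cons_of_mem _ (List.mem_cons_of_mem _ (List.mem_cons_of_mem _ (List.mem_cons_of_mem _ (List.mem_cons_of_mem _ (List.mem_cons_of_mem _ (List.mem_cons_of_mem _ (List.mem_cons_of_mem _ (List.mem_cons_of_mem _ (List.mem_cons_of_mem _ (List.mem_cons_of_mem _ (List.mem_cons_of_mem _ (List.mem_cons_of_mem _ (List.mem_cons_of_mem _ (List.mem_cons_of_mem _ (List.mem_cons_of_mem _ (List.mem_cons_of_mem _ (List.mem_cons_of_mem _ (List.mem_cons_of_mem _ (List.mem_cons_of_mem _ (List.mem_cons_of_mem _ (List.mem_cons_of_mem _ (List.mem_cons_of_mem _ (List.mem_cons_of_mem _ (List.mem_cons_of_mem _ (List.mem_cons_of_mem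 _ (List.mem_cons_of_mem _ (List.mem_cons_of_mem _ (List.mem_cons_of_mem _ (List.mem_cons_of_mem _ (List.mem_cons_of_mem _ (List.mem_cons_of_mem _ (List.mem_cons_of_mem _ (List.mem_cons_of_mem _ (List.mem_cons_of_mem _ (List.mem_cons_of_mem _ (List.mem_cons_of_mem _ (List.mem_cons_of_mem _ (List.mem_cons_of_mem _ (List.mem_cons_self))))))))))))))))))))))))))))))))))))))))))), ?_⟩, by norm_num⟩
  constructor <;> norm_num [Q43, coCell, P3C0]

lemma lP3C0 : ∀ x1 x2 xc : ℝ, 0 ≤ x1 → x1 ≤ 1 → 0 ≤ x2 → x2 ≤ 1 → P3C0.l ≤ xc → xc ≤ P3C0.u →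
    (167117 / 4096 : ℝ) * (1 - (1 - x1) ^ 2) + (0 : ℝ) * (1 - (1 - x2) ^ 2) - (12 : ℝ) * (1 - (1 - xc) ^ 2) + (1 / 1073741824 : ℝ)
      ≤ - P3C0.a1 * x1 - P3C0.a2 * x2 + P3C0.e * xc + P3C0.f := by
  have h := cell_lines_delta 2 (α1 := (167117 / 4096 : ℝ)) (α2 := (0 : ℝ)) (c := (12 : ℝ)) (y1 := (15571 / 131072 : ℝ)) (y2 := (14733 / 262144 : ℝ))
    (A1 := (75399143 / 1048576 : ℝ)) (B1 := (154565921 / 268435456 : ℝ)) (A2 := (0 : ℝ)) (B2 := (0 : ℝ)) (l := (52429 / 262144 : ℝ)) (u := (62915 / 262144 : ℝ))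
    (E := (-76677 / 4096 : ℝ)) (F := (-154620493 / 268435456 : ℝ)) (δ := (1 / 1073741824 : ℝ)) (by norm_num) (by norm_num) (by norm_num) (by norm_num) (by norm_num)
    (by norm_num) (by norm_num) (by norm_num) (by norm_num) (by norm_num) (by norm_num) (by norm_num) (by norm_num) (by norm_num) (by norm_num)
  have e1 : P3C0.l = (52429 / 262144 : ℝ) := rfl
  have e2 : P3C0.u = (62915 / 262144 : ℝ) := rfl
  have e3 : P3C0.a1 = -(75399143 / 1048576 : ℝ) := by norm_num [P3C0]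
  have e4 : P3C0.a2 = -(0 : ℝ) := by norm_num [P3C0]
  have e5 : P3C0.e = (-76677 / 4096 : ℝ) := rfl
  have e6 : P3C0.f = (154565921 / 268435456 : ℝ) + (0 : ℝ) + (-154620493 / 268435456 : ℝ) + (1 / 1073741824 : ℝ) := by norm_num [P3C0]
  rw [e1, e2, e3, e4, e5, e6]
  exact h

lemma rP3C1 : ∃ N : ℝ, Rw4 P.r2 N (coCell (167117 / 4096 : ℝ) (0 : ℝ) (12 : ℝ) 0 P3C1) := by
  refine ⟨(3221225472 : ℝ), ⟨Q44, List.mem_cons_of_mem _ (List.mem_cons_of_mem _ (List.mem_cons_of_mem _ (List.mem_cons_of_mem _ (List.mem_cons_of_mem _ (List.mem_cons_of_mem _ (List.mem_cons_of_mem _ (List.mem_cons_of_mem _ (List.mem_cons_of_mem _ (List.mem_cons_of_mem _ (List.mem_cons_of_mem _ (List.mem_cons_of_mem _ (List.mem_cons_of_mem _ (List.mem_cons_of_mem _ (List.mem_cons_of_mem _ (List.mem_cons_of_mem _ (List.mem_cons_of_mem _ (List.mem_cons_of_mem _ (List.mem_cons_of_mem _ (List.mem_cons_of_mem _ (List.mem_cons_of_mem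 _ (List.mem_cons_of_mem _ (List.mem_cons_of_mem _ (List.mem_cons_of_mem _ (List.mem_cons_of_mem _ (List.mem_cons_of_mem _ (List.mem_cons_of_mem _ (List.mem_cons_of_mem _ (List.mem_cons_of_mem _ (List.mem_cons_of_mem _ (List.mem_cons_of_mem _ (List.mem_cons_of_mem _ (List.mem_cons_of_mem _ (List.mem_cons_of_mem _ (List.mem_cons_of_mem _ (List.mem_cons_of_mem _ (List.mem_cons_of_mem _ (List.mem_cons_of_mem _ (List.mem_cons_of_mem _ (List.mem_cons_of_mem _ (List.mem_cons_of_mem _ (List.mem_cons_of_mem _ (List.mem_cons_of_mem _ (List.mem_cons_of_mem _ (List.mem_cons_self)))))))))))))))))))))))))))))))))))))))))))), ?_⟩, by norm_num⟩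
  constructor <;> norm_num [Q44, coCell, P3C1]

lemma lP3C1 : ∀ x1 x2 xc : ℝ, 0 ≤ x1 → x1 ≤ 1 → 0 ≤ x2 → x2 ≤ 1 → P3C1.l ≤ xc → xc ≤ P3C1.u →
    (167117 / 4096 : ℝ) * (1 - (1 - x1) ^ 2) + (0 : ℝ) * (1 - (1 - x2) ^ 2) - (12 : ℝ) * (1 - (1 - xc) ^ 2) + (1 / 1073741824 : ℝ)
      ≤ - P3C1.a1 * x1 - P3C1.a2 * x2 + P3C1.e * xc + P3C1.f := by
  have h := cell_lines_delta 2 (α1 := (167117 / 4096 : ℝ)) (α2 := (0 : ℝ)) (c := (12 : ℝ)) (y1 := (9343 / 65536 : ℝ)) (y2 := (8839 / 131072 : ℝ))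
    (A1 := (146731337 / 2097152 : ℝ)) (B1 := (111296999 / 134217728 : ℝ)) (A2 := (0 : ℝ)) (B2 := (0 : ℝ)) (l := (62915 / 262144 : ℝ)) (u := (75497 / 262144 : ℝ))
    (E := (-289407 / 16384 : ℝ)) (F := (-222651269 / 268435456 : ℝ)) (δ := (1 / 1073741824 : ℝ)) (by norm_num) (by norm_num) (by norm_num) (by norm_num) (by norm_num)
    (by norm_num) (by norm_num) (by norm_num) (by norm_num) (by norm_num) (by norm_num) (by norm_num) (by norm_num) (by norm_num) (by norm_num)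
  have e1 : P3C1.l = (62915 / 262144 : ℝ) := rfl
  have e2 : P3C1.u = (75497 / 262144 : ℝ) := rfl
  have e3 : P3C1.a1 = -(146731337 / 2097152 : ℝ) := by norm_num [P3C1]
  have e4 : P3C1.a2 = -(0 : ℝ) := by norm_num [P3C1]
  have e5 : P3C1.e = (-289407 / 16384 : ℝ) := rfl
  have e6 : P3C1.f = (111296999 / 134217728 : ℝ) + (0 : ℝ) + (-222651269 / 268435456 : ℝ) + (1 / 1073741824 : ℝ) := by norm_num [P3C1]
  rw [e1, e2, e3, e4, e5, e6]
  exact h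

lemma rP3C2 : ∃ N : ℝ, Rw4 P.r2 N (coCell (167117 / 4096 : ℝ) (0 : ℝ) (12 : ℝ) 0 P3C2) := by
  refine ⟨(3221225472 : ℝ), ⟨Q45, List.mem_cons_of_mem _ (List.mem_cons_of_mem _ (List.mem_cons_of_mem _ (List.mem_cons_of_mem _ (List.mem_cons_of_mem _ (List.mem_cons_of_mem _ (List.mem_cons_of_mem _ (List.mem_cons_of_mem _ (List.mem_cons_of_mem _ (List.mem_cons_of_mem _ (List.mem_cons_of_mem _ (List.mem_cons_of_mem _ (List.mem_cons_of_mem _ (List.mem_cons_of_mem _ (List.mem_cons_of_mem _ (List.mem_cons_of_mem _ (List.mem_cons_of_mem _ (List.mem_cons_of_mem _ (List.mem_cons_of_mem _ (List.mem_cons_of_mem _ (List.mem_cons_of_mem _ (List.mem_cons_of_mem _ (List.mem_cons_of_mem _ (List.mem_cons_of_mem _ (List.mem_cons_of_mem _ (List.mem_cons_of_mem _ (List.mem_cons_of_mem _ (List.mem_cons_of_mem _ (List.mem_cons_of_mem _ (List.mem_cons_of_mem _ (List.mem_cons_of_mem _ (List.mem_cons_of_mem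 _ (List.mem_cons_of_mem _ (List.mem_cons_of_mem _ (List.mem_cons_of_mem _ (List.mem_cons_of_mem _ (List.mem_cons_of_mem _ (List.mem_cons_of_mem _ (List.mem_cons_of_mem _ (List.mem_cons_of_mem _ (List.mem_cons_of_mem _ (List.mem_cons_of_mem _ (List.mem_cons_of_mem _ (List.mem_cons_of_mem _ (List.mem_cons_of_mem _ (List.mem_cons_self))))))))))))))))))))))))))))))))))))))))))))), ?_⟩, by norm_num⟩
  constructor <;> norm_num [Q45, coCell, P3C2]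

lemma lP3C2 : ∀ x1 x2 xc : ℝ, 0 ≤ x1 → x1 ≤ 1 → 0 ≤ x2 → x2 ≤ 1 → P3C2.l ≤ xc → xc ≤ P3C2.u →
    (167117 / 4096 : ℝ) * (1 - (1 - x1) ^ 2) + (0 : ℝ) * (1 - (1 - x2) ^ 2) - (12 : ℝ) * (1 - (1 - xc) ^ 2) + (1 / 1073741824 : ℝ)
      ≤ - P3C2.a1 * x1 - P3C2.a2 * x2 + P3C2.e * xc + P3C2.f := by
  have h := cell_lines_delta 2 (α1 := (167117 / 4096 : ℝ)) (α2 := (0 : ℝ)) (c := (12 : ℝ)) (y1 := (2803 / 16384 : ℝ)) (y2 := (5303 / 65536 : ℝ))
    (A1 := (283701997 / 4194304 : ℝ)) (B1 := (320558199 / 268435456 : ℝ)) (A2 := (0 : ℝ)) (B2 := (0 : ℝ)) (l := (75497 / 262144 : ℝ)) (u := (90597 / 262144 : ℝ))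
    (E := (-537291 / 32768 : ℝ)) (F := (-320615705 / 268435456 : ℝ)) (δ := (1 / 1073741824 : ℝ)) (by norm_num) (by norm_num) (by norm_num) (by norm_num) (by norm_num)
    (by norm_num) (by norm_num) (by norm_num) (by norm_num) (by norm_num) (by norm_num) (by norm_num) (by norm_num) (by norm_num) (by norm_num)
  have e1 : P3C2.l = (75497 / 262144 : ℝ) := rfl
  have e2 : P3C2.u = (90597 / 262144 : ℝ) := rfl
  have e3 : P3C2.a1 = -(283701997 / 4194304 : ℝ) := by norm_num [P3C2]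
  have e4 : P3C2.a2 = -(0 : ℝ) := by norm_num [P3C2]
  have e5 : P3C2.e = (-537291 / 32768 : ℝ) := rfl
  have e6 : P3C2.f = (320558199 / 268435456 : ℝ) + (0 : ℝ) + (-320615705 / 268435456 : ℝ) + (1 / 1073741824 : ℝ) := by norm_num [P3C2]
  rw [e1, e2, e3, e4, e5, e6]
  exact h

lemma rP3C3 : ∃ N : ℝ, Rw4 P.r2 N (coCell (167117 / 4096 : ℝ) (0 : ℝ) (12 : ℝ) 0 P3C3) := by
  refine ⟨(3221225472 : ℝ), ⟨Q46, List.mem_cons_of_mem _ (List.mem_cons_of_mem _ (List.mem_cons_of_mem _ (List.mem_cons_of_mem _ (List.mem_cons_of_mem _ (List.mem_cons_of_mem _ (List.mem_cons_of_mem _ (List.mem_cons_of_mem _ (List.mem_cons_of_mem _ (List.mem_cons_of_mem _ (List.mem_cons_of_mem _ (List.mem_cons_of_mem _ (List.mem_cons_of_mem _ (List.mem_cons_of_mem _ (List.mem_cons_of_mem _ (List.mem_cons_of_mem _ (List.mem_cons_of_mem _ (List.mem_cons_of_mem _ (List.mem_cons_of_mem _ (List.mem_cons_of_mem _ (List.mem_cons_of_mem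 _ (List.mem_cons_of_mem _ (List.mem_cons_of_mem _ (List.mem_cons_of_mem _ (List.mem_cons_of_mem _ (List.mem_cons_of_mem _ (List.mem_cons_of_mem _ (List.mem_cons_of_mem _ (List.mem_cons_of_mem _ (List.mem_cons_of_mem _ (List.mem_cons_of_mem _ (List.mem_cons_of_mem _ (List.mem_cons_of_mem _ (List.mem_cons_of_mem _ (List.mem_cons_of_mem _ (List.mem_cons_of_mem _ (List.mem_cons_of_mem _ (List.mem_cons_of_mem _ (List.mem_cons_of_mem _ (List.mem_cons_of_mem _ (List.mem_cons_of_mem _ (List.mem_cons_of_mem _ (List.mem_cons_of_mem _ (List.mem_cons_of_mem _ (List.mem_cons_of_mem _ (List.mem_cons_of_mem _ (List.mem_cons_self)))))))))))))))))))))))))))))))))))))))))))))), ?_⟩, by norm_num⟩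
  constructor <;> norm_num [Q46, coCell, P3C3]

lemma lP3C3 : ∀ x1 x2 xc : ℝ, 0 ≤ x1 → x1 ≤ 1 → 0 ≤ x2 → x2 ≤ 1 → P3C3.l ≤ xc → xc ≤ P3C3.u →
    (167117 / 4096 : ℝ) * (1 - (1 - x1) ^ 2) + (0 : ℝ) * (1 - (1 - x2) ^ 2) - (12 : ℝ) * (1 - (1 - xc) ^ 2) + (1 / 1073741824 : ℝ)
      ≤ - P3C3.a1 * x1 - P3C3.a2 * x2 + P3C3.e * xc + P3C3.f := by
  have h := cell_lines_delta 2 (α1 := (167117 / 4096 : ℝ)) (α2 := (0 : ℝ)) (c := (12 : ℝ)) (y1 := (6399 / 32768 : ℝ)) (y2 := (12131 / 131072 : ℝ))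
    (A1 := (275419261 / 4194304 : ℝ)) (B1 := (417661951 / 268435456 : ℝ)) (A2 := (0 : ℝ)) (B2 := (0 : ℝ)) (l := (90597 / 262144 : ℝ)) (u := (207 / 512 : ℝ))
    (E := (-983121 / 65536 : ℝ)) (F := (-56260737 / 33554432 : ℝ)) (δ := (1 / 1073741824 : ℝ)) (by norm_num) (by norm_num) (by norm_num) (by norm_num) (by norm_num)
    (by norm_num) (by norm_num) (by norm_num) (by norm_num) (by norm_num) (by norm_num) (by norm_num) (by norm_num) (by norm_num) (by norm_num)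
  have e1 : P3C3.l = (90597 / 262144 : ℝ) := rfl
  have e2 : P3C3.u = (207 / 512 : ℝ) := rfl
  have e3 : P3C3.a1 = -(275419261 / 4194304 : ℝ) := by norm_num [P3C3]
  have e4 : P3C3.a2 = -(0 : ℝ) := by norm_num [P3C3]
  have e5 : P3C3.e = (-983121 / 65536 : ℝ) := rfl
  have e6 : P3C3.f = (417661951 / 268435456 : ℝ) + (0 : ℝ) + (-56260737 / 33554432 : ℝ) + (1 / 1073741824 : ℝ) := by norm_num [P3C3]
  rw [e1, e2, e3, e4, e5, e6]
  exact h

/-- A link of the chain. -/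
lemma link3 {lam : ℝ} (h0 : -(1 / 2) < lam) (h1 : lam < 1) (hB : BoxS lam P 0 HH 0 HH)
    (h : ∃ n, 1 - En 2 lam n mc ≤ (207 / 512 : ℝ)) : ∃ n, 1 - En 2 lam n mc ≤ (52429 / 262144 : ℝ) :=
  phase_of_box (by norm_num) h0 h1 hB (167117 / 4096 : ℝ) (0 : ℝ) (12 : ℝ) (1 / 1073741824 : ℝ) (52429 / 262144 : ℝ) (207 / 512 : ℝ) (by norm_num) cellsP3 hcoverP3
    (forall_cons lP3C0 (forall_cons lP3C1 (forall_cons lP3C2 (forall_cons lP3C3 (forall_nil))))) (forall_cons rP3C0 (forall_cons rP3C1 (forall_cons rP3C2 (forall_cons rP3C3 (forall_nil))))) h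

/-- The whole chain. -/
lemma chain {lam : ℝ} (h0 : -(1 / 2) < lam) (h1 : lam < 1) (hB : BoxS lam P 0 HH 0 HH) :
    ∃ n, 1 - En 2 lam n mc ≤ (1 / 64 : ℝ) := (link0 h0 h1 hB (link1 h0 h1 hB (link2 h0 h1 hB (link3 h0 h1 hB (start_of_box h0 h1 hB _ rc3)))))

/-- The hypotheses at the origin. -/
lemma horig (lam : ℝ) (hd : (2 : ℝ) * lam ^ 2 = 1) (hb : |lam| ≤ (388736063997 / 549755813888 : ℝ)) :
    OriginH 2 lam (56943 / 65536 : ℝ) (967365 / 65536 : ℝ) (410789 / 32768 : ℝ) (119 / 256 : ℝ) (17 / 2048 : ℝ) (27 / 512 : ℝ) (2177 / 2048 : ℝ) (1 / 256 : ℝ) 3298534883328 := by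
  refine originH_of_num (d := 2) (by push_cast; exact hd) hb (by norm_num) (by norm_num) (by norm_num) (by norm_num)
    (by norm_num) (by norm_num) (by norm_num) (by norm_num) (by norm_num) (by norm_num) (by norm_num [S]) (by norm_num) ?_ ?_
  · rw [hch]
    norm_num [abs_of_pos, abs_of_neg]
  · norm_num [abs_of_pos, abs_of_neg]

/-- Nonreconstruction at the bound. -/
theorem main : Tendsto (reconError 3 2 (1 / Real.sqrt 2)) atTop (𝓝 0) := by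
  have hsq' : Real.sqrt (2 : ℝ) ^ 2 = 2 := by
    rw [Real.sq_sqrt (by positivity)]
  have hs0 : 0 < Real.sqrt (2 : ℝ) := Real.sqrt_pos.2 (by norm_num)
  have hl2 : ((2 : ℝ)) * (1 / Real.sqrt 2) ^ 2 = 1 := by
    have : (1 / Real.sqrt (2 : ℝ)) ^ 2 = 1 / 2 := by
      rw [div_pow, hsq']; norm_num
    rw [this]; norm_num
  have hb : |(1 / Real.sqrt (2 : ℝ))| ≤ (388736063997 / 549755813888 : ℝ) := by
    rw [abs_of_pos (by positivity)]
    rw [div_le_iff₀ hs0]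
    have h1 : (1 : ℝ) ^ 2 ≤ ((388736063997 / 549755813888 : ℝ) * Real.sqrt 2) ^ 2 := by
      rw [mul_pow, hsq']; norm_num
    exact le_of_sq_le_sq h1 (by positivity)
  have hb2 : (-(1 / 2) : ℝ) < 1 / Real.sqrt (2 : ℝ) := by
    have : 0 < 1 / Real.sqrt (2 : ℝ) := by positivity
    linarith
  have h1 : (1 / Real.sqrt (2 : ℝ)) < 1 := by
    have h2 := (abs_le.1 hb).2
    have h3 : ((388736063997 / 549755813888 : ℝ) : ℝ) < 1 := by norm_num
    linarith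
  have hlam : |(S : ℝ) * (1 / Real.sqrt (2 : ℝ)) - ((P.lp : ℝ) - P.ln)| ≤ ((1 : ℕ) : ℝ) := by
    have h := lam_enc_pos 2 50952413380206180 (by norm_num) (by norm_num [S]) (by norm_num [S])
    have e : ((2 : ℕ) : ℝ) = (2 : ℝ) := by norm_num
    rw [e] at h
    exact h
  obtain ⟨hOa, hON⟩ := horig _ hl2 hb
  have hB := box hlam
  refine final_of_boxB (d := 2) (by norm_num) hb2 h1 hB (56943 / 65536 : ℝ) (967365 / 65536 : ℝ) (410789 / 32768 : ℝ) (119 / 256 : ℝ) (27 / 512 : ℝ) (2177 / 2048 : ℝ) (5243 / 1048576 : ℝ) (41 / 4096 : ℝ) (17 / 2048 : ℝ) (1 / 64 : ℝ) cellsL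
    (by norm_num) (by norm_num) (by norm_num) (by norm_num) (by norm_num) (by norm_num) (by norm_num) (by norm_num)
    (by norm_num) (by norm_num) (by norm_num) (by norm_num) (by norm_num) hOa hON rTa rTb rc1 rc2
    (forall_cons rcell0 (forall_cons rcell1 (forall_cons rcell2 (forall_cons rcell3 (forall_cons rcell4 (forall_cons rcell5 (forall_cons rcell6 (forall_cons rcell7 (forall_cons rcell8 (forall_cons rcell9 (forall_cons rcell10 (forall_cons rcell11 (forall_nil))))))))))))) hcover (forall_cons lcell0 (forall_cons lcell1 (forall_cons lcell2 (forall_cons lcell3 (forall_cons lcell4 (forall_cons lcell5 (forall_cons lcell6 (forall_cons lcell7 (forall_cons lcell8 (forall_cons lcell9 (forall_cons lcell10 (forall_cons lcell11 (forall_nil))))))))))))) (chain hb2 h1 hB)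

end Vale.Agent.P154H.Tm.P2
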