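import Vale.Agent.P154H.D.DP3
import Vale.Agent.P154H.PosEnc
import Vale.Agent.P154H.OriginW

open Filter Topology

set_option maxRecDepth 100000

/-!
Nonreconstruction at the Kesten-Stigum bound for `d = 3`, positive eigenvalue, by a chain of
potentials along the monotone quantity `1 - En`.
-/

namespace Vale.Agent.P154H.Tm.P3

open Vale.Agent.P154 Vale.Agent.P154H

/-- A chord cell. -/
noncomputable def C0 : Cell := ⟨(5243 / 1048576 : ℝ), (727 / 131072 : ℝ), (-5423281 / 2097152 : ℝ), (-183975467 / 4194304 : ℝ), (-161871263 / 4194304 : ℝ), (-5767 / 134217728 : ℝ)⟩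

/-- A chord cell. -/
noncomputable def C1 : Cell := ⟨(727 / 131072 : ℝ), (403 / 65536 : ℝ), (-10837591 / 4194304 : ℝ), (-45944519 / 1048576 : ℝ), (-161684313 / 4194304 : ℝ), (-12181 / 268435456 : ℝ)⟩

/-- A chord cell. -/
noncomputable def C2 : Cell := ⟨(403 / 65536 : ℝ), (447 / 65536 : ℝ), (-1353329 / 524288 : ℝ), (-11473007 / 262144 : ℝ), (-80738583 / 2097152 : ℝ), (-3925 / 67108864 : ℝ)⟩

/-- A chord cell. -/
noncomputable def C3 : Cell := ⟨(447 / 65536 : ℝ), (31 / 4096 : ℝ), (-5406221 / 2097152 : ℝ), (-183335741 / 4194304 : ℝ), (-161246607 / 4194304 : ℝ), (-19941 / 268435456 : ℝ)⟩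

/-- A chord cell. -/
noncomputable def C4 : Cell := ⟨(31 / 4096 : ℝ), (275 / 32768 : ℝ), (-2700063 / 1048576 : ℝ), (-183073973 / 4194304 : ℝ), (-160991449 / 4194304 : ℝ), (-24567 / 268435456 : ℝ)⟩

/-- A chord cell. -/
noncomputable def C5 : Cell := ⟨(275 / 32768 : ℝ), (305 / 32768 : ℝ), (-2697535 / 1048576 : ℝ), (-91391435 / 2097152 : ℝ), (-160709277 / 4194304 : ℝ), (-7695 / 67108864 : ℝ)⟩

/-- A chord cell. -/
noncomputable def C6 : Cell := ⟨(305 / 32768 : ℝ), (2707 / 262144 : ℝ), (-673457 / 262144 : ℝ), (-5702041 / 131072 : ℝ), (-80197919 / 2097152 : ℝ), (-40077 / 268435456 : ℝ)⟩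

/-- A chord cell. -/
noncomputable def C7 : Cell := ⟨(2707 / 262144 : ℝ), (1501 / 131072 : ℝ), (-2689379 / 1048576 : ℝ), (-91055773 / 2097152 : ℝ), (-160048753 / 4194304 : ℝ), (-49753 / 268435456 : ℝ)⟩

/-- A chord cell. -/
noncomputable def C8 : Cell := ⟨(1501 / 131072 : ℝ), (1665 / 131072 : ℝ), (-5367139 / 2097152 : ℝ), (-181713269 / 4194304 : ℝ), (-39916109 / 1048576 : ℝ), (-27515 / 134217728 : ℝ)⟩

/-- A chord cell. -/
noncomputable def C9 : Cell := ⟨(1665 / 131072 : ℝ), (3693 / 262144 : ℝ), (-5358547 / 2097152 : ℝ), (-181273427 / 4194304 : ℝ), (-19904839 / 524288 : ℝ), (-16853 / 67108864 : ℝ)⟩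

/-- A chord cell. -/
noncomputable def C10 : Cell := ⟨(3693 / 262144 : ℝ), (1 / 64 : ℝ), (-5347445 / 2097152 : ℝ), (-180790777 / 4194304 : ℝ), (-158767445 / 4194304 : ℝ), (-2625 / 8388608 : ℝ)⟩

/-- The chord cells. -/
noncomputable def cellsL : List Cell := [C0, C1, C2, C3, C4, C5, C6, C7, C8, C9, C10]

lemma hcover : ∀ x : ℝ, (5243 / 1048576 : ℝ) ≤ x → x ≤ (1 / 64 : ℝ) → ∃ D ∈ cellsL, D.l ≤ x ∧ x ≤ D.u := by
  refine cover_of_chain ?_ (by norm_num [C0])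
  simp only [ChainP, C0, C1, C2, C3, C4, C5, C6, C7, C8, C9, C10]
  norm_num

lemma hch : ((Nat.choose 3 2 : ℕ) : ℝ) = 3 := by norm_num [Nat.choose]

lemma rTa : Rw4 P.r1 (1179648 : ℝ) (coTa 3 (56943 / 65536 : ℝ) (967365 / 65536 : ℝ) (410789 / 32768 : ℝ) (119 / 256 : ℝ) (29 / 2048 : ℝ)) := by
  refine ⟨⟨Ra, List.mem_cons_self, ?_⟩, by norm_num⟩
  constructor <;> norm_num [Ra, coTa, hch]

lemma rTb : Rw4 P.r1 (19791209299968 : ℝ) (coTb 3 (56943 / 65536 : ℝ) (967365 / 65536 : ℝ) (410789 / 32768 : ℝ) (119 / 256 : ℝ) (29 / 2048 : ℝ) (27 / 512 : ℝ) (2177 / 2048 : ℝ) (491 / 16384 : ℝ)) := by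
  refine ⟨⟨Rb, List.mem_cons_of_mem _ (List.mem_cons_self), ?_⟩, by norm_num⟩
  constructor <;> norm_num [Rb, coTb, hch]

lemma rc1 : Rw4 P.r2 (16777216 : ℝ) ⟨0, 0, 0, -(56943 / 65536 : ℝ), 0, 0, 0, 0, (410789 / 32768 : ℝ) * (27 / 512 : ℝ)⟩ := by
  refine ⟨⟨Q0, List.mem_cons_self, ?_⟩, by norm_num⟩
  constructor <;> norm_num [Q0]

lemma rc2 : Rw4 P.r2 (67108864 : ℝ) ⟨0, 0, 0, 0, -(967365 / 65536 : ℝ), 0, 0, 0, (410789 / 32768 : ℝ) * (2177 / 2048 : ℝ)⟩ := by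
  refine ⟨⟨Q1, List.mem_cons_of_mem _ (List.mem_cons_self), ?_⟩, by norm_num⟩
  constructor <;> norm_num [Q1]

lemma rc3 : Rw4 P.r2 (768 : ℝ) ⟨0, 0, 0, 0, 0, -1, 0, 0, (69 / 256 : ℝ)⟩ := by
  refine ⟨⟨Q2, List.mem_cons_of_mem _ (List.mem_cons_of_mem _ (List.mem_cons_self)), ?_⟩, by norm_num⟩
  constructor <;> norm_num [Q2]

lemma rcell0 : ∃ N : ℝ, Rw4 P.r2 N (coCell (56943 / 65536 : ℝ) (967365 / 65536 : ℝ) ((410789 / 32768 : ℝ) + (119 / 256 : ℝ)) (29 / 2048 : ℝ) C0) := by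
  refine ⟨(1207959552 : ℝ), ⟨Q3, List.mem_cons_of_mem _ (List.mem_cons_of_mem _ (List.mem_cons_of_mem _ (List.mem_cons_self))), ?_⟩, by norm_num⟩
  constructor <;> norm_num [Q3, coCell, C0]

lemma lcell0 : ∀ x1 x2 xc : ℝ, 0 ≤ x1 → x1 ≤ 1 → 0 ≤ x2 → x2 ≤ 1 → C0.l ≤ xc → xc ≤ C0.u →
    (56943 / 65536 : ℝ) * (1 - (1 - x1) ^ 3) + (967365 / 65536 : ℝ) * (1 - (1 - x2) ^ 3) - ((410789 / 32768 : ℝ) + (119 / 256 : ℝ)) * (1 - (1 - xc) ^ 3)
      ≤ - C0.a1 * x1 - C0.a2 * x2 + C0.e * xc + C0.f := by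
  have h := cell_lines 3 (α1 := (56943 / 65536 : ℝ)) (α2 := (967365 / 65536 : ℝ)) (c := (410789 / 32768 : ℝ) + (119 / 256 : ℝ)) (y1 := (1039 / 262144 : ℝ)) (y2 := (311 / 65536 : ℝ))
    (A1 := (5423281 / 2097152 : ℝ)) (B1 := (10967 / 268435456 : ℝ)) (A2 := (183975467 / 4194304 : ℝ)) (B2 := (66711 / 67108864 : ℝ)) (l := (5243 / 1048576 : ℝ)) (u := (727 / 131072 : ℝ))
    (E := (-161871263 / 4194304 : ℝ)) (F := (-289345 / 268435456 : ℝ)) (by norm_num) (by norm_num) (by norm_num) (by norm_num) (by norm_num)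
    (by norm_num) (by norm_num) (by norm_num) (by norm_num) (by norm_num) (by norm_num) (by norm_num) (by norm_num) (by norm_num) (by norm_num)
  have e1 : C0.l = (5243 / 1048576 : ℝ) := rfl
  have e2 : C0.u = (727 / 131072 : ℝ) := rfl
  have e3 : C0.a1 = -(5423281 / 2097152 : ℝ) := by norm_num [C0]
  have e4 : C0.a2 = -(183975467 / 4194304 : ℝ) := by norm_num [C0]
  have e5 : C0.e = (-161871263 / 4194304 : ℝ) := rfl
  have e6 : C0.f = (10967 / 268435456 : ℝ) + (66711 / 67108864 : ℝ) + (-289345 / 268435456 : ℝ) := by norm_num [C0]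
  rw [e1, e2, e3, e4, e5, e6]
  exact h

lemma rcell1 : ∃ N : ℝ, Rw4 P.r2 N (coCell (56943 / 65536 : ℝ) (967365 / 65536 : ℝ) ((410789 / 32768 : ℝ) + (119 / 256 : ℝ)) (29 / 2048 : ℝ) C1) := by
  refine ⟨(2415919104 : ℝ), ⟨Q4, List.mem_cons_of_mem _ (List.mem_cons_of_mem _ (List.mem_cons_of_mem _ (List.mem_cons_of_mem _ (List.mem_cons_self)))), ?_⟩, by norm_num⟩
  constructor <;> norm_num [Q4, coCell, C1]

lemma lcell1 : ∀ x1 x2 xc : ℝ, 0 ≤ x1 → x1 ≤ 1 → 0 ≤ x2 → x2 ≤ 1 → C1.l ≤ xc → xc ≤ C1.u →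
    (56943 / 65536 : ℝ) * (1 - (1 - x1) ^ 3) + (967365 / 65536 : ℝ) * (1 - (1 - x2) ^ 3) - ((410789 / 32768 : ℝ) + (119 / 256 : ℝ)) * (1 - (1 - xc) ^ 3)
      ≤ - C1.a1 * x1 - C1.a2 * x2 + C1.e * xc + C1.f := by
  have h := cell_lines 3 (α1 := (56943 / 65536 : ℝ)) (α2 := (967365 / 65536 : ℝ)) (c := (410789 / 32768 : ℝ) + (119 / 256 : ℝ)) (y1 := (1147 / 262144 : ℝ)) (y2 := (173 / 32768 : ℝ))
    (A1 := (10837591 / 4194304 : ℝ)) (B1 := (13361 / 268435456 : ℝ)) (A2 := (45944519 / 1048576 : ℝ)) (B2 := (330167 / 268435456 : ℝ)) (l := (727 / 131072 : ℝ)) (u := (403 / 65536 : ℝ))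
    (E := (-161684313 / 4194304 : ℝ)) (F := (-355709 / 268435456 : ℝ)) (by norm_num) (by norm_num) (by norm_num) (by norm_num) (by norm_num)
    (by norm_num) (by norm_num) (by norm_num) (by norm_num) (by norm_num) (by norm_num) (by norm_num) (by norm_num) (by norm_num) (by norm_num)
  have e1 : C1.l = (727 / 131072 : ℝ) := rfl
  have e2 : C1.u = (403 / 65536 : ℝ) := rfl
  have e3 : C1.a1 = -(10837591 / 4194304 : ℝ) := by norm_num [C1]
  have e4 : C1.a2 = -(45944519 / 1048576 : ℝ) := by norm_num [C1]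
  have e5 : C1.e = (-161684313 / 4194304 : ℝ) := rfl
  have e6 : C1.f = (13361 / 268435456 : ℝ) + (330167 / 268435456 : ℝ) + (-355709 / 268435456 : ℝ) := by norm_num [C1]
  rw [e1, e2, e3, e4, e5, e6]
  exact h

lemma rcell2 : ∃ N : ℝ, Rw4 P.r2 N (coCell (56943 / 65536 : ℝ) (967365 / 65536 : ℝ) ((410789 / 32768 : ℝ) + (119 / 256 : ℝ)) (29 / 2048 : ℝ) C2) := by
  refine ⟨(603979776 : ℝ), ⟨Q5, List.mem_cons_of_mem _ (List.mem_cons_of_mem _ (List.mem_cons_of_mem _ (List.mem_cons_of_mem _ (List.mem_cons_of_mem _ (List.mem_cons_self))))), ?_⟩, by norm_num⟩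
  constructor <;> norm_num [Q5, coCell, C2]

lemma lcell2 : ∀ x1 x2 xc : ℝ, 0 ≤ x1 → x1 ≤ 1 → 0 ≤ x2 → x2 ≤ 1 → C2.l ≤ xc → xc ≤ C2.u →
    (56943 / 65536 : ℝ) * (1 - (1 - x1) ^ 3) + (967365 / 65536 : ℝ) * (1 - (1 - x2) ^ 3) - ((410789 / 32768 : ℝ) + (119 / 256 : ℝ)) * (1 - (1 - xc) ^ 3)
      ≤ - C2.a1 * x1 - C2.a2 * x2 + C2.e * xc + C2.f := by
  have h := cell_lines 3 (α1 := (56943 / 65536 : ℝ)) (α2 := (967365 / 65536 : ℝ)) (c := (410789 / 32768 : ℝ) + (119 / 256 : ℝ)) (y1 := (1279 / 262144 : ℝ)) (y2 := (1533 / 262144 : ℝ))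
    (A1 := (1353329 / 524288 : ℝ)) (B1 := (16603 / 268435456 : ℝ)) (A2 := (11473007 / 262144 : ℝ)) (B2 := (202465 / 134217728 : ℝ)) (l := (403 / 65536 : ℝ)) (u := (447 / 65536 : ℝ))
    (E := (-80738583 / 2097152 : ℝ)) (F := (-437233 / 268435456 : ℝ)) (by norm_num) (by norm_num) (by norm_num) (by norm_num) (by norm_num)
    (by norm_num) (by norm_num) (by norm_num) (by norm_num) (by norm_num) (by norm_num) (by norm_num) (by norm_num) (by norm_num) (by norm_num)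
  have e1 : C2.l = (403 / 65536 : ℝ) := rfl
  have e2 : C2.u = (447 / 65536 : ℝ) := rfl
  have e3 : C2.a1 = -(1353329 / 524288 : ℝ) := by norm_num [C2]
  have e4 : C2.a2 = -(11473007 / 262144 : ℝ) := by norm_num [C2]
  have e5 : C2.e = (-80738583 / 2097152 : ℝ) := rfl
  have e6 : C2.f = (16603 / 268435456 : ℝ) + (202465 / 134217728 : ℝ) + (-437233 / 268435456 : ℝ) := by norm_num [C2]
  rw [e1, e2, e3, e4, e5, e6]
  exact h

lemma rcell3 : ∃ N : ℝ, Rw4 P.r2 N (coCell (56943 / 65536 : ℝ) (967365 / 65536 : ℝ) ((410789 / 32768 : ℝ) + (119 / 256 : ℝ)) (29 / 2048 : ℝ) C3) := by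
  refine ⟨(2415919104 : ℝ), ⟨Q6, List.mem_cons_of_mem _ (List.mem_cons_of_mem _ (List.mem_cons_of_mem _ (List.mem_cons_of_mem _ (List.mem_cons_of_mem _ (List.mem_cons_of_mem _ (List.mem_cons_self)))))), ?_⟩, by norm_num⟩
  constructor <;> norm_num [Q6, coCell, C3]

lemma lcell3 : ∀ x1 x2 xc : ℝ, 0 ≤ x1 → x1 ≤ 1 → 0 ≤ x2 → x2 ≤ 1 → C3.l ≤ xc → xc ≤ C3.u →
    (56943 / 65536 : ℝ) * (1 - (1 - x1) ^ 3) + (967365 / 65536 : ℝ) * (1 - (1 - x2) ^ 3) - ((410789 / 32768 : ℝ) + (119 / 256 : ℝ)) * (1 - (1 - xc) ^ 3)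
      ≤ - C3.a1 * x1 - C3.a2 * x2 + C3.e * xc + C3.f := by
  have h := cell_lines 3 (α1 := (56943 / 65536 : ℝ)) (α2 := (967365 / 65536 : ℝ)) (c := (410789 / 32768 : ℝ) + (119 / 256 : ℝ)) (y1 := (725 / 131072 : ℝ)) (y2 := (849 / 131072 : ℝ))
    (A1 := (5406221 / 2097152 : ℝ)) (B1 := (21345 / 268435456 : ℝ)) (A2 := (183335741 / 4194304 : ℝ)) (B2 := (496591 / 268435456 : ℝ)) (l := (447 / 65536 : ℝ)) (u := (31 / 4096 : ℝ))
    (E := (-161246607 / 4194304 : ℝ)) (F := (-537877 / 268435456 : ℝ)) (by norm_num) (by norm_num) (by norm_num) (by norm_num) (by norm_num)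
    (by norm_num) (by norm_num) (by norm_num) (by norm_num) (by norm_num) (by norm_num) (by norm_num) (by norm_num) (by norm_num) (by norm_num)
  have e1 : C3.l = (447 / 65536 : ℝ) := rfl
  have e2 : C3.u = (31 / 4096 : ℝ) := rfl
  have e3 : C3.a1 = -(5406221 / 2097152 : ℝ) := by norm_num [C3]
  have e4 : C3.a2 = -(183335741 / 4194304 : ℝ) := by norm_num [C3]
  have e5 : C3.e = (-161246607 / 4194304 : ℝ) := rfl
  have e6 : C3.f = (21345 / 268435456 : ℝ) + (496591 / 268435456 : ℝ) + (-537877 / 268435456 : ℝ) := by norm_num [C3]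
  rw [e1, e2, e3, e4, e5, e6]
  exact h

lemma rcell4 : ∃ N : ℝ, Rw4 P.r2 N (coCell (56943 / 65536 : ℝ) (967365 / 65536 : ℝ) ((410789 / 32768 : ℝ) + (119 / 256 : ℝ)) (29 / 2048 : ℝ) C4) := by
  refine ⟨(2415919104 : ℝ), ⟨Q7, List.mem_cons_of_mem _ (List.mem_cons_of_mem _ (List.mem_cons_of_mem _ (List.mem_cons_of_mem _ (List.mem_cons_of_mem _ (List.mem_cons_of_mem _ (List.mem_cons_of_mem _ (List.mem_cons_self))))))), ?_⟩, by norm_num⟩
  constructor <;> norm_num [Q7, coCell, C4]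

lemma lcell4 : ∀ x1 x2 xc : ℝ, 0 ≤ x1 → x1 ≤ 1 → 0 ≤ x2 → x2 ≤ 1 → C4.l ≤ xc → xc ≤ C4.u →
    (56943 / 65536 : ℝ) * (1 - (1 - x1) ^ 3) + (967365 / 65536 : ℝ) * (1 - (1 - x2) ^ 3) - ((410789 / 32768 : ℝ) + (119 / 256 : ℝ)) * (1 - (1 - xc) ^ 3)
      ≤ - C4.a1 * x1 - C4.a2 * x2 + C4.e * xc + C4.f := by
  have h := cell_lines 3 (α1 := (56943 / 65536 : ℝ)) (α2 := (967365 / 65536 : ℝ)) (c := (410789 / 32768 : ℝ) + (119 / 256 : ℝ)) (y1 := (1597 / 262144 : ℝ)) (y2 := (471 / 65536 : ℝ))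
    (A1 := (2700063 / 1048576 : ℝ)) (B1 := (3233 / 33554432 : ℝ)) (A2 := (183073973 / 4194304 : ℝ)) (B2 := (305519 / 134217728 : ℝ)) (l := (31 / 4096 : ℝ)) (u := (275 / 32768 : ℝ))
    (E := (-160991449 / 4194304 : ℝ)) (F := (-661469 / 268435456 : ℝ)) (by norm_num) (by norm_num) (by norm_num) (by norm_num) (by norm_num)
    (by norm_num) (by norm_num) (by norm_num) (by norm_num) (by norm_num) (by norm_num) (by norm_num) (by norm_num) (by norm_num) (by norm_num)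
  have e1 : C4.l = (31 / 4096 : ℝ) := rfl
  have e2 : C4.u = (275 / 32768 : ℝ) := rfl
  have e3 : C4.a1 = -(2700063 / 1048576 : ℝ) := by norm_num [C4]
  have e4 : C4.a2 = -(183073973 / 4194304 : ℝ) := by norm_num [C4]
  have e5 : C4.e = (-160991449 / 4194304 : ℝ) := rfl
  have e6 : C4.f = (3233 / 33554432 : ℝ) + (305519 / 134217728 : ℝ) + (-661469 / 268435456 : ℝ) := by norm_num [C4]
  rw [e1, e2, e3, e4, e5, e6]
  exact h

lemma rcell5 : ∃ N : ℝ, Rw4 P.r2 N (coCell (56943 / 65536 : ℝ) (967365 / 65536 : ℝ) ((410789 / 32768 : ℝ) + (119 / 256 : ℝ)) (29 / 2048 : ℝ) C5) := by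
  refine ⟨(603979776 : ℝ), ⟨Q8, List.mem_cons_of_mem _ (List.mem_cons_of_mem _ (List.mem_cons_of_mem _ (List.mem_cons_of_mem _ (List.mem_cons_of_mem _ (List.mem_cons_of_mem _ (List.mem_cons_of_mem _ (List.mem_cons_of_mem _ (List.mem_cons_self)))))))), ?_⟩, by norm_num⟩
  constructor <;> norm_num [Q8, coCell, C5]

lemma lcell5 : ∀ x1 x2 xc : ℝ, 0 ≤ x1 → x1 ≤ 1 → 0 ≤ x2 → x2 ≤ 1 → C5.l ≤ xc → xc ≤ C5.u →
    (56943 / 65536 : ℝ) * (1 - (1 - x1) ^ 3) + (967365 / 65536 : ℝ) * (1 - (1 - x2) ^ 3) - ((410789 / 32768 : ℝ) + (119 / 256 : ℝ)) * (1 - (1 - xc) ^ 3)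
      ≤ - C5.a1 * x1 - C5.a2 * x2 + C5.e * xc + C5.f := by
  have h := cell_lines 3 (α1 := (56943 / 65536 : ℝ)) (α2 := (967365 / 65536 : ℝ)) (c := (410789 / 32768 : ℝ) + (119 / 256 : ℝ)) (y1 := (1719 / 262144 : ℝ)) (y2 := (2091 / 262144 : ℝ))
    (A1 := (2697535 / 1048576 : ℝ)) (B1 := (29957 / 268435456 : ℝ)) (A2 := (91391435 / 2097152 : ℝ)) (B2 := (752289 / 268435456 : ℝ)) (l := (275 / 32768 : ℝ)) (u := (305 / 32768 : ℝ))
    (E := (-160709277 / 4194304 : ℝ)) (F := (-406513 / 134217728 : ℝ)) (by norm_num) (by norm_num) (by norm_num) (by norm_num) (by norm_num)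
    (by norm_num) (by norm_num) (by norm_num) (by norm_num) (by norm_num) (by norm_num) (by norm_num) (by norm_num) (by norm_num) (by norm_num)
  have e1 : C5.l = (275 / 32768 : ℝ) := rfl
  have e2 : C5.u = (305 / 32768 : ℝ) := rfl
  have e3 : C5.a1 = -(2697535 / 1048576 : ℝ) := by norm_num [C5]
  have e4 : C5.a2 = -(91391435 / 2097152 : ℝ) := by norm_num [C5]
  have e5 : C5.e = (-160709277 / 4194304 : ℝ) := rfl
  have e6 : C5.f = (29957 / 268435456 : ℝ) + (752289 / 268435456 : ℝ) + (-406513 / 134217728 : ℝ) := by norm_num [C5]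
  rw [e1, e2, e3, e4, e5, e6]
  exact h

lemma rcell6 : ∃ N : ℝ, Rw4 P.r2 N (coCell (56943 / 65536 : ℝ) (967365 / 65536 : ℝ) ((410789 / 32768 : ℝ) + (119 / 256 : ℝ)) (29 / 2048 : ℝ) C6) := by
  refine ⟨(2415919104 : ℝ), ⟨Q9, List.mem_cons_of_mem _ (List.mem_cons_of_mem _ (List.mem_cons_of_mem _ (List.mem_cons_of_mem _ (List.mem_cons_of_mem _ (List.mem_cons_of_mem _ (List.mem_cons_of_mem _ (List.mem_cons_of_mem _ (List.mem_cons_of_mem _ (List.mem_cons_self))))))))), ?_⟩, by norm_num⟩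
  constructor <;> norm_num [Q9, coCell, C6]

lemma lcell6 : ∀ x1 x2 xc : ℝ, 0 ≤ x1 → x1 ≤ 1 → 0 ≤ x2 → x2 ≤ 1 → C6.l ≤ xc → xc ≤ C6.u →
    (56943 / 65536 : ℝ) * (1 - (1 - x1) ^ 3) + (967365 / 65536 : ℝ) * (1 - (1 - x2) ^ 3) - ((410789 / 32768 : ℝ) + (119 / 256 : ℝ)) * (1 - (1 - xc) ^ 3)
      ≤ - C6.a1 * x1 - C6.a2 * x2 + C6.e * xc + C6.f := by
  have h := cell_lines 3 (α1 := (56943 / 65536 : ℝ)) (α2 := (967365 / 65536 : ℝ)) (c := (410789 / 32768 : ℝ) + (119 / 256 : ℝ)) (y1 := (949 / 131072 : ℝ)) (y2 := (2317 / 262144 : ℝ))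
    (A1 := (673457 / 262144 : ℝ)) (B1 := (36505 / 268435456 : ℝ)) (A2 := (5702041 / 131072 : ℝ)) (B2 := (923161 / 268435456 : ℝ)) (l := (305 / 32768 : ℝ)) (u := (2707 / 262144 : ℝ))
    (E := (-80197919 / 2097152 : ℝ)) (F := (-999743 / 268435456 : ℝ)) (by norm_num) (by norm_num) (by norm_num) (by norm_num) (by norm_num)
    (by norm_num) (by norm_num) (by norm_num) (by norm_num) (by norm_num) (by norm_num) (by norm_num) (by norm_num) (by norm_num) (by norm_num)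
  have e1 : C6.l = (305 / 32768 : ℝ) := rfl
  have e2 : C6.u = (2707 / 262144 : ℝ) := rfl
  have e3 : C6.a1 = -(673457 / 262144 : ℝ) := by norm_num [C6]
  have e4 : C6.a2 = -(5702041 / 131072 : ℝ) := by norm_num [C6]
  have e5 : C6.e = (-80197919 / 2097152 : ℝ) := rfl
  have e6 : C6.f = (36505 / 268435456 : ℝ) + (923161 / 268435456 : ℝ) + (-999743 / 268435456 : ℝ) := by norm_num [C6]
  rw [e1, e2, e3, e4, e5, e6]
  exact h

lemma rcell7 : ∃ N : ℝ, Rw4 P.r2 N (coCell (56943 / 65536 : ℝ) (967365 / 65536 : ℝ) ((410789 / 32768 : ℝ) + (119 / 256 : ℝ)) (29 / 2048 : ℝ) C7) := by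
  refine ⟨(2415919104 : ℝ), ⟨Q10, List.mem_cons_of_mem _ (List.mem_cons_of_mem _ (List.mem_cons_of_mem _ (List.mem_cons_of_mem _ (List.mem_cons_of_mem _ (List.mem_cons_of_mem _ (List.mem_cons_of_mem _ (List.mem_cons_of_mem _ (List.mem_cons_of_mem _ (List.mem_cons_of_mem _ (List.mem_cons_self)))))))))), ?_⟩, by norm_num⟩
  constructor <;> norm_num [Q10, coCell, C7]

lemma lcell7 : ∀ x1 x2 xc : ℝ, 0 ≤ x1 → x1 ≤ 1 → 0 ≤ x2 → x2 ≤ 1 → C7.l ≤ xc → xc ≤ C7.u →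
    (56943 / 65536 : ℝ) * (1 - (1 - x1) ^ 3) + (967365 / 65536 : ℝ) * (1 - (1 - x2) ^ 3) - ((410789 / 32768 : ℝ) + (119 / 256 : ℝ)) * (1 - (1 - xc) ^ 3)
      ≤ - C7.a1 * x1 - C7.a2 * x2 + C7.e * xc + C7.f := by
  have h := cell_lines 3 (α1 := (56943 / 65536 : ℝ)) (α2 := (967365 / 65536 : ℝ)) (c := (410789 / 32768 : ℝ) + (119 / 256 : ℝ)) (y1 := (2113 / 262144 : ℝ)) (y2 := (2569 / 262144 : ℝ))
    (A1 := (2689379 / 1048576 : ℝ)) (B1 := (45217 / 268435456 : ℝ)) (A2 := (91055773 / 2097152 : ℝ)) (B2 := (567079 / 134217728 : ℝ)) (l := (2707 / 262144 : ℝ)) (u := (1501 / 131072 : ℝ))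
    (E := (-160048753 / 4194304 : ℝ)) (F := (-153641 / 33554432 : ℝ)) (by norm_num) (by norm_num) (by norm_num) (by norm_num) (by norm_num)
    (by norm_num) (by norm_num) (by norm_num) (by norm_num) (by norm_num) (by norm_num) (by norm_num) (by norm_num) (by norm_num) (by norm_num)
  have e1 : C7.l = (2707 / 262144 : ℝ) := rfl
  have e2 : C7.u = (1501 / 131072 : ℝ) := rfl
  have e3 : C7.a1 = -(2689379 / 1048576 : ℝ) := by norm_num [C7]
  have e4 : C7.a2 = -(91055773 / 2097152 : ℝ) := by norm_num [C7]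
  have e5 : C7.e = (-160048753 / 4194304 : ℝ) := rfl
  have e6 : C7.f = (45217 / 268435456 : ℝ) + (567079 / 134217728 : ℝ) + (-153641 / 33554432 : ℝ) := by norm_num [C7]
  rw [e1, e2, e3, e4, e5, e6]
  exact h

lemma rcell8 : ∃ N : ℝ, Rw4 P.r2 N (coCell (56943 / 65536 : ℝ) (967365 / 65536 : ℝ) ((410789 / 32768 : ℝ) + (119 / 256 : ℝ)) (29 / 2048 : ℝ) C8) := by
  refine ⟨(1207959552 : ℝ), ⟨Q11, List.mem_cons_of_mem _ (List.mem_cons_of_mem _ (List.mem_cons_of_mem _ (List.mem_cons_of_mem _ (List.mem_cons_of_mem _ (List.mem_cons_of_mem _ (List.mem_cons_of_mem _ (List.mem_cons_of_mem _ (List.mem_cons_of_mem _ (List.mem_cons_of_mem _ (List.mem_cons_of_mem _ (List.mem_cons_self))))))))))), ?_⟩, by norm_num⟩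
  constructor <;> norm_num [Q11, coCell, C8]

lemma lcell8 : ∀ x1 x2 xc : ℝ, 0 ≤ x1 → x1 ≤ 1 → 0 ≤ x2 → x2 ≤ 1 → C8.l ≤ xc → xc ≤ C8.u →
    (56943 / 65536 : ℝ) * (1 - (1 - x1) ^ 3) + (967365 / 65536 : ℝ) * (1 - (1 - x2) ^ 3) - ((410789 / 32768 : ℝ) + (119 / 256 : ℝ)) * (1 - (1 - xc) ^ 3)
      ≤ - C8.a1 * x1 - C8.a2 * x2 + C8.e * xc + C8.f := by
  have h := cell_lines 3 (α1 := (56943 / 65536 : ℝ)) (α2 := (967365 / 65536 : ℝ)) (c := (410789 / 32768 : ℝ) + (119 / 256 : ℝ)) (y1 := (1197 / 131072 : ℝ)) (y2 := (2853 / 262144 : ℝ))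
    (A1 := (5367139 / 2097152 : ℝ)) (B1 := (29003 / 134217728 : ℝ)) (A2 := (181713269 / 4194304 : ℝ)) (B2 := (1397761 / 268435456 : ℝ)) (l := (1501 / 131072 : ℝ)) (u := (1665 / 131072 : ℝ))
    (E := (-39916109 / 1048576 : ℝ)) (F := (-1510797 / 268435456 : ℝ)) (by norm_num) (by norm_num) (by norm_num) (by norm_num) (by norm_num)
    (by norm_num) (by norm_num) (by norm_num) (by norm_num) (by norm_num) (by norm_num) (by norm_num) (by norm_num) (by norm_num) (by norm_num)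
  have e1 : C8.l = (1501 / 131072 : ℝ) := rfl
  have e2 : C8.u = (1665 / 131072 : ℝ) := rfl
  have e3 : C8.a1 = -(5367139 / 2097152 : ℝ) := by norm_num [C8]
  have e4 : C8.a2 = -(181713269 / 4194304 : ℝ) := by norm_num [C8]
  have e5 : C8.e = (-39916109 / 1048576 : ℝ) := rfl
  have e6 : C8.f = (29003 / 134217728 : ℝ) + (1397761 / 268435456 : ℝ) + (-1510797 / 268435456 : ℝ) := by norm_num [C8]
  rw [e1, e2, e3, e4, e5, e6]
  exact h

lemma rcell9 : ∃ N : ℝ, Rw4 P.r2 N (coCell (56943 / 65536 : ℝ) (967365 / 65536 : ℝ) ((410789 / 32768 : ℝ) + (119 / 256 : ℝ)) (29 / 2048 : ℝ) C9) := by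
  refine ⟨(603979776 : ℝ), ⟨Q12, List.mem_cons_of_mem _ (List.mem_cons_of_mem _ (List.mem_cons_of_mem _ (List.mem_cons_of_mem _ (List.mem_cons_of_mem _ (List.mem_cons_of_mem _ (List.mem_cons_of_mem _ (List.mem_cons_of_mem _ (List.mem_cons_of_mem _ (List.mem_cons_of_mem _ (List.mem_cons_of_mem _ (List.mem_cons_of_mem _ (List.mem_cons_self)))))))))))), ?_⟩, by norm_num⟩
  constructor <;> norm_num [Q12, coCell, C9]

lemma lcell9 : ∀ x1 x2 xc : ℝ, 0 ≤ x1 → x1 ≤ 1 → 0 ≤ x2 → x2 ≤ 1 → C9.l ≤ xc → xc ≤ C9.u →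
    (56943 / 65536 : ℝ) * (1 - (1 - x1) ^ 3) + (967365 / 65536 : ℝ) * (1 - (1 - x2) ^ 3) - ((410789 / 32768 : ℝ) + (119 / 256 : ℝ)) * (1 - (1 - xc) ^ 3)
      ≤ - C9.a1 * x1 - C9.a2 * x2 + C9.e * xc + C9.f := by
  have h := cell_lines 3 (α1 := (56943 / 65536 : ℝ)) (α2 := (967365 / 65536 : ℝ)) (c := (410789 / 32768 : ℝ) + (119 / 256 : ℝ)) (y1 := (1301 / 131072 : ℝ)) (y2 := (3167 / 262144 : ℝ))
    (A1 := (5358547 / 2097152 : ℝ)) (B1 := (34241 / 134217728 : ℝ)) (A2 := (181273427 / 4194304 : ℝ)) (B2 := (430253 / 67108864 : ℝ)) (l := (1665 / 131072 : ℝ)) (u := (3693 / 262144 : ℝ))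
    (E := (-19904839 / 524288 : ℝ)) (F := (-928453 / 134217728 : ℝ)) (by norm_num) (by norm_num) (by norm_num) (by norm_num) (by norm_num)
    (by norm_num) (by norm_num) (by norm_num) (by norm_num) (by norm_num) (by norm_num) (by norm_num) (by norm_num) (by norm_num) (by norm_num)
  have e1 : C9.l = (1665 / 131072 : ℝ) := rfl
  have e2 : C9.u = (3693 / 262144 : ℝ) := rfl
  have e3 : C9.a1 = -(5358547 / 2097152 : ℝ) := by norm_num [C9]
  have e4 : C9.a2 = -(181273427 / 4194304 : ℝ) := by norm_num [C9]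
  have e5 : C9.e = (-19904839 / 524288 : ℝ) := rfl
  have e6 : C9.f = (34241 / 134217728 : ℝ) + (430253 / 67108864 : ℝ) + (-928453 / 134217728 : ℝ) := by norm_num [C9]
  rw [e1, e2, e3, e4, e5, e6]
  exact h

lemma rcell10 : ∃ N : ℝ, Rw4 P.r2 N (coCell (56943 / 65536 : ℝ) (967365 / 65536 : ℝ) ((410789 / 32768 : ℝ) + (119 / 256 : ℝ)) (29 / 2048 : ℝ) C10) := by
  refine ⟨(75497472 : ℝ), ⟨Q13, List.mem_cons_of_mem _ (List.mem_cons_of_mem _ (List.mem_cons_of_mem _ (List.mem_cons_of_mem _ (List.mem_cons_of_mem _ (List.mem_cons_of_mem _ (List.mem_cons_of_mem _ (List.mem_cons_of_mem _ (List.mem_cons_of_mem _ (List.mem_cons_of_mem _ (List.mem_cons_of_mem _ (List.mem_cons_of_mem _ (List.mem_cons_of_mem _ (List.mem_cons_self))))))))))))), ?_⟩, by norm_num⟩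
  constructor <;> norm_num [Q13, coCell, C10]

lemma lcell10 : ∀ x1 x2 xc : ℝ, 0 ≤ x1 → x1 ≤ 1 → 0 ≤ x2 → x2 ≤ 1 → C10.l ≤ xc → xc ≤ C10.u →
    (56943 / 65536 : ℝ) * (1 - (1 - x1) ^ 3) + (967365 / 65536 : ℝ) * (1 - (1 - x2) ^ 3) - ((410789 / 32768 : ℝ) + (119 / 256 : ℝ)) * (1 - (1 - xc) ^ 3)
      ≤ - C10.a1 * x1 - C10.a2 * x2 + C10.e * xc + C10.f := by
  have h := cell_lines 3 (α1 := (56943 / 65536 : ℝ)) (α2 := (967365 / 65536 : ℝ)) (c := (410789 / 32768 : ℝ) + (119 / 256 : ℝ)) (y1 := (2871 / 262144 : ℝ)) (y2 := (439 / 32768 : ℝ))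
    (A1 := (5347445 / 2097152 : ℝ)) (B1 := (20829 / 67108864 : ℝ)) (A2 := (180790777 / 4194304 : ℝ)) (B2 := (1057245 / 134217728 : ℝ)) (l := (3693 / 262144 : ℝ)) (u := (1 / 64 : ℝ))
    (E := (-158767445 / 4194304 : ℝ)) (F := (-1140903 / 134217728 : ℝ)) (by norm_num) (by norm_num) (by norm_num) (by norm_num) (by norm_num)
    (by norm_num) (by norm_num) (by norm_num) (by norm_num) (by norm_num) (by norm_num) (by norm_num) (by norm_num) (by norm_num) (by norm_num)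
  have e1 : C10.l = (3693 / 262144 : ℝ) := rfl
  have e2 : C10.u = (1 / 64 : ℝ) := rfl
  have e3 : C10.a1 = -(5347445 / 2097152 : ℝ) := by norm_num [C10]
  have e4 : C10.a2 = -(180790777 / 4194304 : ℝ) := by norm_num [C10]
  have e5 : C10.e = (-158767445 / 4194304 : ℝ) := rfl
  have e6 : C10.f = (20829 / 67108864 : ℝ) + (1057245 / 134217728 : ℝ) + (-1140903 / 134217728 : ℝ) := by norm_num [C10]
  rw [e1, e2, e3, e4, e5, e6]
  exact h

/-- A chord cell of a link. -/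
noncomputable def P0C0 : Cell := ⟨(1 / 64 : ℝ), (1097 / 65536 : ℝ), (-44827857 / 4194304 : ℝ), (-145722873 / 4194304 : ℝ), (-73073857 / 2097152 : ℝ), (-449703 / 1073741824 : ℝ)⟩

/-- A chord cell of a link. -/
noncomputable def P0C1 : Cell := ⟨(1097 / 65536 : ℝ), (4739 / 262144 : ℝ), (-22381557 / 2097152 : ℝ), (-9085559 / 262144 : ℝ), (-72891787 / 2097152 : ℝ), (-451403 / 1073741824 : ℝ)⟩

/-- A chord cell of a link. -/
noncomputable def P0C2 : Cell := ⟨(4739 / 262144 : ℝ), (5119 / 262144 : ℝ), (-22328635 / 2097152 : ℝ), (-144988445 / 4194304 : ℝ), (-145370145 / 4194304 : ℝ), (-422811 / 1073741824 : ℝ)⟩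

/-- A chord cell of a link. -/
noncomputable def P0C3 : Cell := ⟨(5119 / 262144 : ℝ), (691 / 32768 : ℝ), (-44520483 / 4194304 : ℝ), (-36157167 / 1048576 : ℝ), (-36231143 / 1048576 : ℝ), (-521795 / 1073741824 : ℝ)⟩

/-- A chord cell of a link. -/
noncomputable def P0C4 : Cell := ⟨(691 / 32768 : ℝ), (2985 / 131072 : ℝ), (-11108731 / 1048576 : ℝ), (-36046857 / 1048576 : ℝ), (-72222377 / 2097152 : ℝ), (-639991 / 1073741824 : ℝ)⟩

/-- A chord cell of a link. -/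
noncomputable def P0C5 : Cell := ⟨(2985 / 131072 : ℝ), (403 / 16384 : ℝ), (-44322237 / 4194304 : ℝ), (-35923555 / 1048576 : ℝ), (-71963463 / 2097152 : ℝ), (-592179 / 1073741824 : ℝ)⟩

/-- A chord cell of a link. -/
noncomputable def P0C6 : Cell := ⟨(403 / 16384 : ℝ), (1741 / 65536 : ℝ), (-5504521 / 524288 : ℝ), (-143331579 / 4194304 : ℝ), (-143368493 / 4194304 : ℝ), (-646671 / 1073741824 : ℝ)⟩

/-- A chord cell of a link. -/
noncomputable def P0C7 : Cell := ⟨(1741 / 65536 : ℝ), (7521 / 262144 : ℝ), (-43817773 / 4194304 : ℝ), (-17853863 / 524288 : ℝ), (-8922931 / 262144 : ℝ), (-503395 / 1073741824 : ℝ)⟩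

/-- A chord cell of a link. -/
noncomputable def P0C8 : Cell := ⟨(7521 / 262144 : ℝ), (4061 / 131072 : ℝ), (-5439961 / 524288 : ℝ), (-142383499 / 4194304 : ℝ), (-71059531 / 2097152 : ℝ), (-479631 / 1073741824 : ℝ)⟩

/-- A chord cell of a link. -/
noncomputable def P0C9 : Cell := ⟨(4061 / 131072 : ℝ), (2193 / 65536 : ℝ), (-21645673 / 2097152 : ℝ), (-8862773 / 262144 : ℝ), (-17677607 / 524288 : ℝ), (-418531 / 1073741824 : ℝ)⟩

/-- A chord cell of a link. -/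
noncomputable def P0C10 : Cell := ⟨(2193 / 65536 : ℝ), (4737 / 131072 : ℝ), (-5540581 / 524288 : ℝ), (-70108921 / 2097152 : ℝ), (-140668215 / 4194304 : ℝ), (-856563 / 1073741824 : ℝ)⟩

/-- A chord cell of a link. -/
noncomputable def P0C11 : Cell := ⟨(4737 / 131072 : ℝ), (1279 / 32768 : ℝ), (-22066513 / 2097152 : ℝ), (-139452197 / 4194304 : ℝ), (-139857707 / 4194304 : ℝ), (-679727 / 1073741824 : ℝ)⟩

/-- A chord cell of a link. -/
noncomputable def P0C12 : Cell := ⟨(1279 / 32768 : ℝ), (5243 / 131072 : ℝ), (-10633411 / 1048576 : ℝ), (-140134879 / 4194304 : ℝ), (-69648587 / 2097152 : ℝ), (-380403 / 1073741824 : ℝ)⟩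

/-- The chord cells of a link. -/
noncomputable def cellsP0 : List Cell := [P0C0, P0C1, P0C2, P0C3, P0C4, P0C5, P0C6, P0C7, P0C8, P0C9, P0C10, P0C11, P0C12]

lemma hcoverP0 : ∀ x : ℝ, (1 / 64 : ℝ) ≤ x → x ≤ (5243 / 131072 : ℝ) → ∃ D ∈ cellsP0, D.l ≤ x ∧ x ≤ D.u := by
  refine cover_of_chain ?_ (by norm_num [P0C0])
  simp only [ChainP, P0C0, P0C1, P0C2, P0C3, P0C4, P0C5, P0C6, P0C7, P0C8, P0C9, P0C10, P0C11, P0C12]
  norm_num

lemma rP0C0 : ∃ N : ℝ, Rw4 P.r2 N (coCell (14965 / 4096 : ℝ) (48817 / 4096 : ℝ) (12 : ℝ) 0 P0C0) := by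
  refine ⟨(3221225472 : ℝ), ⟨Q14, List.mem_cons_of_mem _ (List.mem_cons_of_mem _ (List.mem_cons_of_mem _ (List.mem_cons_of_mem _ (List.mem_cons_of_mem _ (List.mem_cons_of_mem _ (List.mem_cons_of_mem _ (List.mem_cons_of_mem _ (List.mem_cons_of_mem _ (List.mem_cons_of_mem _ (List.mem_cons_of_mem _ (List.mem_cons_of_mem _ (List.mem_cons_of_mem _ (List.mem_cons_of_mem _ (List.mem_cons_self)))))))))))))), ?_⟩, by norm_num⟩
  constructor <;> norm_num [Q14, coCell, P0C0]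

lemma lP0C0 : ∀ x1 x2 xc : ℝ, 0 ≤ x1 → x1 ≤ 1 → 0 ≤ x2 → x2 ≤ 1 → P0C0.l ≤ xc → xc ≤ P0C0.u →
    (14965 / 4096 : ℝ) * (1 - (1 - x1) ^ 3) + (48817 / 4096 : ℝ) * (1 - (1 - x2) ^ 3) - (12 : ℝ) * (1 - (1 - xc) ^ 3) + (1 / 1073741824 : ℝ)
      ≤ - P0C0.a1 * x1 - P0C0.a2 * x2 + P0C0.e * xc + P0C0.f := by
  have h := cell_lines_delta 3 (α1 := (14965 / 4096 : ℝ)) (α2 := (48817 / 4096 : ℝ)) (c := (12 : ℝ)) (y1 := (821 / 65536 : ℝ)) (y2 := (3735 / 262144 : ℝ))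
    (A1 := (44827857 / 4194304 : ℝ)) (B1 := (457921 / 268435456 : ℝ)) (A2 := (145722873 / 4194304 : ℝ)) (B2 := (1929875 / 268435456 : ℝ)) (l := (1 / 64 : ℝ)) (u := (1097 / 65536 : ℝ))
    (E := (-73073857 / 2097152 : ℝ)) (F := (-1250111 / 134217728 : ℝ)) (δ := (1 / 1073741824 : ℝ)) (by norm_num) (by norm_num) (by norm_num) (by norm_num) (by norm_num)
    (by norm_num) (by norm_num) (by norm_num) (by norm_num) (by norm_num) (by norm_num) (by norm_num) (by norm_num) (by norm_num) (by norm_num)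
  have e1 : P0C0.l = (1 / 64 : ℝ) := rfl
  have e2 : P0C0.u = (1097 / 65536 : ℝ) := rfl
  have e3 : P0C0.a1 = -(44827857 / 4194304 : ℝ) := by norm_num [P0C0]
  have e4 : P0C0.a2 = -(145722873 / 4194304 : ℝ) := by norm_num [P0C0]
  have e5 : P0C0.e = (-73073857 / 2097152 : ℝ) := rfl
  have e6 : P0C0.f = (457921 / 268435456 : ℝ) + (1929875 / 268435456 : ℝ) + (-1250111 / 134217728 : ℝ) + (1 / 1073741824 : ℝ) := by norm_num [P0C0]
  rw [e1, e2, e3, e4, e5, e6]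
  exact h

lemma rP0C1 : ∃ N : ℝ, Rw4 P.r2 N (coCell (14965 / 4096 : ℝ) (48817 / 4096 : ℝ) (12 : ℝ) 0 P0C1) := by
  refine ⟨(3221225472 : ℝ), ⟨Q15, List.mem_cons_of_mem _ (List.mem_cons_of_mem _ (List.mem_cons_of_mem _ (List.mem_cons_of_mem _ (List.mem_cons_of_mem _ (List.mem_cons_of_mem _ (List.mem_cons_of_mem _ (List.mem_cons_of_mem _ (List.mem_cons_of_mem _ (List.mem_cons_of_mem _ (List.mem_cons_of_mem _ (List.mem_cons_of_mem _ (List.mem_cons_of_mem _ (List.mem_cons_of_mem _ (List.mem_cons_of_mem _ (List.mem_cons_self))))))))))))))), ?_⟩, by norm_num⟩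
  constructor <;> norm_num [Q15, coCell, P0C1]

lemma lP0C1 : ∀ x1 x2 xc : ℝ, 0 ≤ x1 → x1 ≤ 1 → 0 ≤ x2 → x2 ≤ 1 → P0C1.l ≤ xc → xc ≤ P0C1.u →
    (14965 / 4096 : ℝ) * (1 - (1 - x1) ^ 3) + (48817 / 4096 : ℝ) * (1 - (1 - x2) ^ 3) - (12 : ℝ) * (1 - (1 - xc) ^ 3) + (1 / 1073741824 : ℝ)
      ≤ - P0C1.a1 * x1 - P0C1.a2 * x2 + P0C1.e * xc + P0C1.f := by
  have h := cell_lines_delta 3 (α1 := (14965 / 4096 : ℝ)) (α2 := (48817 / 4096 : ℝ)) (c := (12 : ℝ)) (y1 := (3471 / 262144 : ℝ)) (y2 := (4049 / 262144 : ℝ))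
    (A1 := (22381557 / 2097152 : ℝ)) (B1 := (255639 / 134217728 : ℝ)) (A2 := (9085559 / 262144 : ℝ)) (B2 := (141637 / 16777216 : ℝ)) (l := (1097 / 65536 : ℝ)) (u := (4739 / 262144 : ℝ))
    (E := (-72891787 / 2097152 : ℝ)) (F := (-2890321 / 268435456 : ℝ)) (δ := (1 / 1073741824 : ℝ)) (by norm_num) (by norm_num) (by norm_num) (by norm_num) (by norm_num)
    (by norm_num) (by norm_num) (by norm_num) (by norm_num) (by norm_num) (by norm_num) (by norm_num) (by norm_num) (by norm_num) (by norm_num)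
  have e1 : P0C1.l = (1097 / 65536 : ℝ) := rfl
  have e2 : P0C1.u = (4739 / 262144 : ℝ) := rfl
  have e3 : P0C1.a1 = -(22381557 / 2097152 : ℝ) := by norm_num [P0C1]
  have e4 : P0C1.a2 = -(9085559 / 262144 : ℝ) := by norm_num [P0C1]
  have e5 : P0C1.e = (-72891787 / 2097152 : ℝ) := rfl
  have e6 : P0C1.f = (255639 / 134217728 : ℝ) + (141637 / 16777216 : ℝ) + (-2890321 / 268435456 : ℝ) + (1 / 1073741824 : ℝ) := by norm_num [P0C1]
  rw [e1, e2, e3, e4, e5, e6]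
  exact h

lemma rP0C2 : ∃ N : ℝ, Rw4 P.r2 N (coCell (14965 / 4096 : ℝ) (48817 / 4096 : ℝ) (12 : ℝ) 0 P0C2) := by
  refine ⟨(3221225472 : ℝ), ⟨Q16, List.mem_cons_of_mem _ (List.mem_cons_of_mem _ (List.mem_cons_of_mem _ (List.mem_cons_of_mem _ (List.mem_cons_of_mem _ (List.mem_cons_of_mem _ (List.mem_cons_of_mem _ (List.mem_cons_of_mem _ (List.mem_cons_of_mem _ (List.mem_cons_of_mem _ (List.mem_cons_of_mem _ (List.mem_cons_of_mem _ (List.mem_cons_of_mem _ (List.mem_cons_of_mem _ (List.mem_cons_of_mem _ (List.mem_cons_of_mem _ (List.mem_cons_self)))))))))))))))), ?_⟩, by norm_num⟩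
  constructor <;> norm_num [Q16, coCell, P0C2]

lemma lP0C2 : ∀ x1 x2 xc : ℝ, 0 ≤ x1 → x1 ≤ 1 → 0 ≤ x2 → x2 ≤ 1 → P0C2.l ≤ xc → xc ≤ P0C2.u →
    (14965 / 4096 : ℝ) * (1 - (1 - x1) ^ 3) + (48817 / 4096 : ℝ) * (1 - (1 - x2) ^ 3) - (12 : ℝ) * (1 - (1 - xc) ^ 3) + (1 / 1073741824 : ℝ)
      ≤ - P0C2.a1 * x1 - P0C2.a2 * x2 + P0C2.e * xc + P0C2.f := by
  have h := cell_lines_delta 3 (α1 := (14965 / 4096 : ℝ)) (α2 := (48817 / 4096 : ℝ)) (c := (12 : ℝ)) (y1 := (3777 / 262144 : ℝ)) (y2 := (4387 / 262144 : ℝ))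
    (A1 := (22328635 / 2097152 : ℝ)) (B1 := (302473 / 134217728 : ℝ)) (A2 := (144988445 / 4194304 : ℝ)) (B2 := (1329001 / 134217728 : ℝ)) (l := (4739 / 262144 : ℝ)) (u := (5119 / 262144 : ℝ))
    (E := (-145370145 / 4194304 : ℝ)) (F := (-3368651 / 268435456 : ℝ)) (δ := (1 / 1073741824 : ℝ)) (by norm_num) (by norm_num) (by norm_num) (by norm_num) (by norm_num)
    (by norm_num) (by norm_num) (by norm_num) (by norm_num) (by norm_num) (by norm_num) (by norm_num) (by norm_num) (by norm_num) (by norm_num)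
  have e1 : P0C2.l = (4739 / 262144 : ℝ) := rfl
  have e2 : P0C2.u = (5119 / 262144 : ℝ) := rfl
  have e3 : P0C2.a1 = -(22328635 / 2097152 : ℝ) := by norm_num [P0C2]
  have e4 : P0C2.a2 = -(144988445 / 4194304 : ℝ) := by norm_num [P0C2]
  have e5 : P0C2.e = (-145370145 / 4194304 : ℝ) := rfl
  have e6 : P0C2.f = (302473 / 134217728 : ℝ) + (1329001 / 134217728 : ℝ) + (-3368651 / 268435456 : ℝ) + (1 / 1073741824 : ℝ) := by norm_num [P0C2]
  rw [e1, e2, e3, e4, e5, e6]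
  exact h

lemma rP0C3 : ∃ N : ℝ, Rw4 P.r2 N (coCell (14965 / 4096 : ℝ) (48817 / 4096 : ℝ) (12 : ℝ) 0 P0C3) := by
  refine ⟨(3221225472 : ℝ), ⟨Q17, List.mem_cons_of_mem _ (List.mem_cons_of_mem _ (List.mem_cons_of_mem _ (List.mem_cons_of_mem _ (List.mem_cons_of_mem _ (List.mem_cons_of_mem _ (List.mem_cons_of_mem _ (List.mem_cons_of_mem _ (List.mem_cons_of_mem _ (List.mem_cons_of_mem _ (List.mem_cons_of_mem _ (List.mem_cons_of_mem _ (List.mem_cons_of_mem _ (List.mem_cons_of_mem _ (List.mem_cons_of_mem _ (List.mem_cons_of_mem _ (List.mem_cons_of_mem _ (List.mem_cons_self))))))))))))))))), ?_⟩, by norm_num⟩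
  constructor <;> norm_num [Q17, coCell, P0C3]

lemma lP0C3 : ∀ x1 x2 xc : ℝ, 0 ≤ x1 → x1 ≤ 1 → 0 ≤ x2 → x2 ≤ 1 → P0C3.l ≤ xc → xc ≤ P0C3.u →
    (14965 / 4096 : ℝ) * (1 - (1 - x1) ^ 3) + (48817 / 4096 : ℝ) * (1 - (1 - x2) ^ 3) - (12 : ℝ) * (1 - (1 - xc) ^ 3) + (1 / 1073741824 : ℝ)
      ≤ - P0C3.a1 * x1 - P0C3.a2 * x2 + P0C3.e * xc + P0C3.f := by
  have h := cell_lines_delta 3 (α1 := (14965 / 4096 : ℝ)) (α2 := (48817 / 4096 : ℝ)) (c := (12 : ℝ)) (y1 := (4173 / 262144 : ℝ)) (y2 := (4707 / 262144 : ℝ))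
    (A1 := (44520483 / 4194304 : ℝ)) (B1 := (737669 / 268435456 : ℝ)) (A2 := (36157167 / 1048576 : ℝ)) (B2 := (1528695 / 134217728 : ℝ)) (l := (5119 / 262144 : ℝ)) (u := (691 / 32768 : ℝ))
    (E := (-36231143 / 1048576 : ℝ)) (F := (-981377 / 67108864 : ℝ)) (δ := (1 / 1073741824 : ℝ)) (by norm_num) (by norm_num) (by norm_num) (by norm_num) (by norm_num)
    (by norm_num) (by norm_num) (by norm_num) (by norm_num) (by norm_num) (by norm_num) (by norm_num) (by norm_num) (by norm_num) (by norm_num)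
  have e1 : P0C3.l = (5119 / 262144 : ℝ) := rfl
  have e2 : P0C3.u = (691 / 32768 : ℝ) := rfl
  have e3 : P0C3.a1 = -(44520483 / 4194304 : ℝ) := by norm_num [P0C3]
  have e4 : P0C3.a2 = -(36157167 / 1048576 : ℝ) := by norm_num [P0C3]
  have e5 : P0C3.e = (-36231143 / 1048576 : ℝ) := rfl
  have e6 : P0C3.f = (737669 / 268435456 : ℝ) + (1528695 / 134217728 : ℝ) + (-981377 / 67108864 : ℝ) + (1 / 1073741824 : ℝ) := by norm_num [P0C3]
  rw [e1, e2, e3, e4, e5, e6]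
  exact h

lemma rP0C4 : ∃ N : ℝ, Rw4 P.r2 N (coCell (14965 / 4096 : ℝ) (48817 / 4096 : ℝ) (12 : ℝ) 0 P0C4) := by
  refine ⟨(3221225472 : ℝ), ⟨Q18, List.mem_cons_of_mem _ (List.mem_cons_of_mem _ (List.mem_cons_of_mem _ (List.mem_cons_of_mem _ (List.mem_cons_of_mem _ (List.mem_cons_of_mem _ (List.mem_cons_of_mem _ (List.mem_cons_of_mem _ (List.mem_cons_of_mem _ (List.mem_cons_of_mem _ (List.mem_cons_of_mem _ (List.mem_cons_of_mem _ (List.mem_cons_of_mem _ (List.mem_cons_of_mem _ (List.mem_cons_of_mem _ (List.mem_cons_of_mem _ (List.mem_cons_of_mem _ (List.mem_cons_of_mem _ (List.mem_cons_self)))))))))))))))))), ?_⟩, by norm_num⟩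
  constructor <;> norm_num [Q18, coCell, P0C4]

lemma lP0C4 : ∀ x1 x2 xc : ℝ, 0 ≤ x1 → x1 ≤ 1 → 0 ≤ x2 → x2 ≤ 1 → P0C4.l ≤ xc → xc ≤ P0C4.u →
    (14965 / 4096 : ℝ) * (1 - (1 - x1) ^ 3) + (48817 / 4096 : ℝ) * (1 - (1 - x2) ^ 3) - (12 : ℝ) * (1 - (1 - xc) ^ 3) + (1 / 1073741824 : ℝ)
      ≤ - P0C4.a1 * x1 - P0C4.a2 * x2 + P0C4.e * xc + P0C4.f := by
  have h := cell_lines_delta 3 (α1 := (14965 / 4096 : ℝ)) (α2 := (48817 / 4096 : ℝ)) (c := (12 : ℝ)) (y1 := (4421 / 262144 : ℝ)) (y2 := (1275 / 65536 : ℝ))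
    (A1 := (11108731 / 1048576 : ℝ)) (B1 := (827445 / 268435456 : ℝ)) (A2 := (36046857 / 1048576 : ℝ)) (B2 := (112051 / 8388608 : ℝ)) (l := (691 / 32768 : ℝ)) (u := (2985 / 131072 : ℝ))
    (E := (-72222377 / 2097152 : ℝ)) (F := (-4573075 / 268435456 : ℝ)) (δ := (1 / 1073741824 : ℝ)) (by norm_num) (by norm_num) (by norm_num) (by norm_num) (by norm_num)
    (by norm_num) (by norm_num) (by norm_num) (by norm_num) (by norm_num) (by norm_num) (by norm_num) (by norm_num) (by norm_num) (by norm_num)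
  have e1 : P0C4.l = (691 / 32768 : ℝ) := rfl
  have e2 : P0C4.u = (2985 / 131072 : ℝ) := rfl
  have e3 : P0C4.a1 = -(11108731 / 1048576 : ℝ) := by norm_num [P0C4]
  have e4 : P0C4.a2 = -(36046857 / 1048576 : ℝ) := by norm_num [P0C4]
  have e5 : P0C4.e = (-72222377 / 2097152 : ℝ) := rfl
  have e6 : P0C4.f = (827445 / 268435456 : ℝ) + (112051 / 8388608 : ℝ) + (-4573075 / 268435456 : ℝ) + (1 / 1073741824 : ℝ) := by norm_num [P0C4]
  rw [e1, e2, e3, e4, e5, e6]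
  exact h

lemma rP0C5 : ∃ N : ℝ, Rw4 P.r2 N (coCell (14965 / 4096 : ℝ) (48817 / 4096 : ℝ) (12 : ℝ) 0 P0C5) := by
  refine ⟨(3221225472 : ℝ), ⟨Q19, List.mem_cons_of_mem _ (List.mem_cons_of_mem _ (List.mem_cons_of_mem _ (List.mem_cons_of_mem _ (List.mem_cons_of_mem _ (List.mem_cons_of_mem _ (List.mem_cons_of_mem _ (List.mem_cons_of_mem _ (List.mem_cons_of_mem _ (List.mem_cons_of_mem _ (List.mem_cons_of_mem _ (List.mem_cons_of_mem _ (List.mem_cons_of_mem _ (List.mem_cons_of_mem _ (List.mem_cons_of_mem _ (List.mem_cons_of_mem _ (List.mem_cons_of_mem _ (List.mem_cons_of_mem _ (List.mem_cons_of_mem _ (List.mem_cons_self))))))))))))))))))), ?_⟩, by norm_num⟩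
  constructor <;> norm_num [Q19, coCell, P0C5]

lemma lP0C5 : ∀ x1 x2 xc : ℝ, 0 ≤ x1 → x1 ≤ 1 → 0 ≤ x2 → x2 ≤ 1 → P0C5.l ≤ xc → xc ≤ P0C5.u →
    (14965 / 4096 : ℝ) * (1 - (1 - x1) ^ 3) + (48817 / 4096 : ℝ) * (1 - (1 - x2) ^ 3) - (12 : ℝ) * (1 - (1 - xc) ^ 3) + (1 / 1073741824 : ℝ)
      ≤ - P0C5.a1 * x1 - P0C5.a2 * x2 + P0C5.e * xc + P0C5.f := by
  have h := cell_lines_delta 3 (α1 := (14965 / 4096 : ℝ)) (α2 := (48817 / 4096 : ℝ)) (c := (12 : ℝ)) (y1 := (1187 / 65536 : ℝ)) (y2 := (1385 / 65536 : ℝ))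
    (A1 := (44322237 / 4194304 : ℝ)) (B1 := (476789 / 134217728 : ℝ)) (A2 := (35923555 / 1048576 : ℝ)) (B2 := (4226197 / 268435456 : ℝ)) (l := (2985 / 131072 : ℝ)) (u := (403 / 16384 : ℝ))
    (E := (-71963463 / 2097152 : ℝ)) (F := (-1331955 / 67108864 : ℝ)) (δ := (1 / 1073741824 : ℝ)) (by norm_num) (by norm_num) (by norm_num) (by norm_num) (by norm_num)
    (by norm_num) (by norm_num) (by norm_num) (by norm_num) (by norm_num) (by norm_num) (by norm_num) (by norm_num) (by norm_num) (by norm_num)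
  have e1 : P0C5.l = (2985 / 131072 : ℝ) := rfl
  have e2 : P0C5.u = (403 / 16384 : ℝ) := rfl
  have e3 : P0C5.a1 = -(44322237 / 4194304 : ℝ) := by norm_num [P0C5]
  have e4 : P0C5.a2 = -(35923555 / 1048576 : ℝ) := by norm_num [P0C5]
  have e5 : P0C5.e = (-71963463 / 2097152 : ℝ) := rfl
  have e6 : P0C5.f = (476789 / 134217728 : ℝ) + (4226197 / 268435456 : ℝ) + (-1331955 / 67108864 : ℝ) + (1 / 1073741824 : ℝ) := by norm_num [P0C5]
  rw [e1, e2, e3, e4, e5, e6]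
  exact h

lemma rP0C6 : ∃ N : ℝ, Rw4 P.r2 N (coCell (14965 / 4096 : ℝ) (48817 / 4096 : ℝ) (12 : ℝ) 0 P0C6) := by
  refine ⟨(3221225472 : ℝ), ⟨Q20, List.mem_cons_of_mem _ (List.mem_cons_of_mem _ (List.mem_cons_of_mem _ (List.mem_cons_of_mem _ (List.mem_cons_of_mem _ (List.mem_cons_of_mem _ (List.mem_cons_of_mem _ (List.mem_cons_of_mem _ (List.mem_cons_of_mem _ (List.mem_cons_of_mem _ (List.mem_cons_of_mem _ (List.mem_cons_of_mem _ (List.mem_cons_of_mem _ (List.mem_cons_of_mem _ (List.mem_cons_of_mem _ (List.mem_cons_of_mem _ (List.mem_cons_of_mem _ (List.mem_cons_of_mem _ (List.mem_cons_of_mem _ (List.mem_cons_of_mem _ (List.mem_cons_self)))))))))))))))))))), ?_⟩, by norm_num⟩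
  constructor <;> norm_num [Q20, coCell, P0C6]

lemma lP0C6 : ∀ x1 x2 xc : ℝ, 0 ≤ x1 → x1 ≤ 1 → 0 ≤ x2 → x2 ≤ 1 → P0C6.l ≤ xc → xc ≤ P0C6.u →
    (14965 / 4096 : ℝ) * (1 - (1 - x1) ^ 3) + (48817 / 4096 : ℝ) * (1 - (1 - x2) ^ 3) - (12 : ℝ) * (1 - (1 - xc) ^ 3) + (1 / 1073741824 : ℝ)
      ≤ - P0C6.a1 * x1 - P0C6.a2 * x2 + P0C6.e * xc + P0C6.f := by
  have h := cell_lines_delta 3 (α1 := (14965 / 4096 : ℝ)) (α2 := (48817 / 4096 : ℝ)) (c := (12 : ℝ)) (y1 := (1395 / 65536 : ℝ)) (y2 := (733 / 32768 : ℝ))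
    (A1 := (5504521 / 524288 : ℝ)) (B1 := (82139 / 16777216 : ℝ)) (A2 := (143331579 / 4194304 : ℝ)) (B2 := (4731023 / 268435456 : ℝ)) (l := (403 / 16384 : ℝ)) (u := (1741 / 65536 : ℝ))
    (E := (-143368493 / 4194304 : ℝ)) (F := (-6206915 / 268435456 : ℝ)) (δ := (1 / 1073741824 : ℝ)) (by norm_num) (by norm_num) (by norm_num) (by norm_num) (by norm_num)
    (by norm_num) (by norm_num) (by norm_num) (by norm_num) (by norm_num) (by norm_num) (by norm_num) (by norm_num) (by norm_num) (by norm_num)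
  have e1 : P0C6.l = (403 / 16384 : ℝ) := rfl
  have e2 : P0C6.u = (1741 / 65536 : ℝ) := rfl
  have e3 : P0C6.a1 = -(5504521 / 524288 : ℝ) := by norm_num [P0C6]
  have e4 : P0C6.a2 = -(143331579 / 4194304 : ℝ) := by norm_num [P0C6]
  have e5 : P0C6.e = (-143368493 / 4194304 : ℝ) := rfl
  have e6 : P0C6.f = (82139 / 16777216 : ℝ) + (4731023 / 268435456 : ℝ) + (-6206915 / 268435456 : ℝ) + (1 / 1073741824 : ℝ) := by norm_num [P0C6]
  rw [e1, e2, e3, e4, e5, e6]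
  exact h

lemma rP0C7 : ∃ N : ℝ, Rw4 P.r2 N (coCell (14965 / 4096 : ℝ) (48817 / 4096 : ℝ) (12 : ℝ) 0 P0C7) := by
  refine ⟨(3221225472 : ℝ), ⟨Q21, List.mem_cons_of_mem _ (List.mem_cons_of_mem _ (List.mem_cons_of_mem _ (List.mem_cons_of_mem _ (List.mem_cons_of_mem _ (List.mem_cons_of_mem _ (List.mem_cons_of_mem _ (List.mem_cons_of_mem _ (List.mem_cons_of_mem _ (List.mem_cons_of_mem _ (List.mem_cons_of_mem _ (List.mem_cons_of_mem _ (List.mem_cons_of_mem _ (List.mem_cons_of_mem _ (List.mem_cons_of_mem _ (List.mem_cons_of_mem _ (List.mem_cons_of_mem _ (List.mem_cons_of_mem _ (List.mem_cons_of_mem _ (List.mem_cons_of_mem _ (List.mem_cons_of_mem _ (List.mem_cons_self))))))))))))))))))))), ?_⟩, by norm_num⟩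
  constructor <;> norm_num [Q21, coCell, P0C7]

lemma lP0C7 : ∀ x1 x2 xc : ℝ, 0 ≤ x1 → x1 ≤ 1 → 0 ≤ x2 → x2 ≤ 1 → P0C7.l ≤ xc → xc ≤ P0C7.u →
    (14965 / 4096 : ℝ) * (1 - (1 - x1) ^ 3) + (48817 / 4096 : ℝ) * (1 - (1 - x2) ^ 3) - (12 : ℝ) * (1 - (1 - xc) ^ 3) + (1 / 1073741824 : ℝ)
      ≤ - P0C7.a1 * x1 - P0C7.a2 * x2 + P0C7.e * xc + P0C7.f := by
  have h := cell_lines_delta 3 (α1 := (14965 / 4096 : ℝ)) (α2 := (48817 / 4096 : ℝ)) (c := (12 : ℝ)) (y1 := (6217 / 262144 : ℝ)) (y2 := (789 / 32768 : ℝ))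
    (A1 := (43817773 / 4194304 : ℝ)) (B1 := (1628691 / 268435456 : ℝ)) (A2 := (17853863 / 524288 : ℝ)) (B2 := (684401 / 33554432 : ℝ)) (l := (1741 / 65536 : ℝ)) (u := (7521 / 262144 : ℝ))
    (E := (-8922931 / 262144 : ℝ)) (F := (-1807437 / 67108864 : ℝ)) (δ := (1 / 1073741824 : ℝ)) (by norm_num) (by norm_num) (by norm_num) (by norm_num) (by norm_num)
    (by norm_num) (by norm_num) (by norm_num) (by norm_num) (by norm_num) (by norm_num) (by norm_num) (by norm_num) (by norm_num) (by norm_num)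
  have e1 : P0C7.l = (1741 / 65536 : ℝ) := rfl
  have e2 : P0C7.u = (7521 / 262144 : ℝ) := rfl
  have e3 : P0C7.a1 = -(43817773 / 4194304 : ℝ) := by norm_num [P0C7]
  have e4 : P0C7.a2 = -(17853863 / 524288 : ℝ) := by norm_num [P0C7]
  have e5 : P0C7.e = (-8922931 / 262144 : ℝ) := rfl
  have e6 : P0C7.f = (1628691 / 268435456 : ℝ) + (684401 / 33554432 : ℝ) + (-1807437 / 67108864 : ℝ) + (1 / 1073741824 : ℝ) := by norm_num [P0C7]
  rw [e1, e2, e3, e4, e5, e6]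
  exact h

lemma rP0C8 : ∃ N : ℝ, Rw4 P.r2 N (coCell (14965 / 4096 : ℝ) (48817 / 4096 : ℝ) (12 : ℝ) 0 P0C8) := by
  refine ⟨(3221225472 : ℝ), ⟨Q22, List.mem_cons_of_mem _ (List.mem_cons_of_mem _ (List.mem_cons_of_mem _ (List.mem_cons_of_mem _ (List.mem_cons_of_mem _ (List.mem_cons_of_mem _ (List.mem_cons_of_mem _ (List.mem_cons_of_mem _ (List.mem_cons_of_mem _ (List.mem_cons_of_mem _ (List.mem_cons_of_mem _ (List.mem_cons_of_mem _ (List.mem_cons_of_mem _ (List.mem_cons_of_mem _ (List.mem_cons_of_mem _ (List.mem_cons_of_mem _ (List.mem_cons_of_mem _ (List.mem_cons_of_mem _ (List.mem_cons_of_mem _ (List.mem_cons_of_mem _ (List.mem_cons_of_mem _ (List.mem_cons_of_mem _ (List.mem_cons_self)))))))))))))))))))))), ?_⟩, by norm_num⟩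
  constructor <;> norm_num [Q22, coCell, P0C8]

lemma lP0C8 : ∀ x1 x2 xc : ℝ, 0 ≤ x1 → x1 ≤ 1 → 0 ≤ x2 → x2 ≤ 1 → P0C8.l ≤ xc → xc ≤ P0C8.u →
    (14965 / 4096 : ℝ) * (1 - (1 - x1) ^ 3) + (48817 / 4096 : ℝ) * (1 - (1 - x2) ^ 3) - (12 : ℝ) * (1 - (1 - xc) ^ 3) + (1 / 1073741824 : ℝ)
      ≤ - P0C8.a1 * x1 - P0C8.a2 * x2 + P0C8.e * xc + P0C8.f := by
  have h := cell_lines_delta 3 (α1 := (14965 / 4096 : ℝ)) (α2 := (48817 / 4096 : ℝ)) (c := (12 : ℝ)) (y1 := (7089 / 262144 : ℝ)) (y2 := (6713 / 262144 : ℝ))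
    (A1 := (5439961 / 524288 : ℝ)) (B1 := (1056421 / 134217728 : ℝ)) (A2 := (142383499 / 4194304 : ℝ)) (B2 := (3093269 / 134217728 : ℝ)) (l := (7521 / 262144 : ℝ)) (u := (4061 / 131072 : ℝ))
    (E := (-71059531 / 2097152 : ℝ)) (F := (-1052411 / 33554432 : ℝ)) (δ := (1 / 1073741824 : ℝ)) (by norm_num) (by norm_num) (by norm_num) (by norm_num) (by norm_num)
    (by norm_num) (by norm_num) (by norm_num) (by norm_num) (by norm_num) (by norm_num) (by norm_num) (by norm_num) (by norm_num) (by norm_num)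
  have e1 : P0C8.l = (7521 / 262144 : ℝ) := rfl
  have e2 : P0C8.u = (4061 / 131072 : ℝ) := rfl
  have e3 : P0C8.a1 = -(5439961 / 524288 : ℝ) := by norm_num [P0C8]
  have e4 : P0C8.a2 = -(142383499 / 4194304 : ℝ) := by norm_num [P0C8]
  have e5 : P0C8.e = (-71059531 / 2097152 : ℝ) := rfl
  have e6 : P0C8.f = (1056421 / 134217728 : ℝ) + (3093269 / 134217728 : ℝ) + (-1052411 / 33554432 : ℝ) + (1 / 1073741824 : ℝ) := by norm_num [P0C8]
  rw [e1, e2, e3, e4, e5, e6]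
  exact h

lemma rP0C9 : ∃ N : ℝ, Rw4 P.r2 N (coCell (14965 / 4096 : ℝ) (48817 / 4096 : ℝ) (12 : ℝ) 0 P0C9) := by
  refine ⟨(3221225472 : ℝ), ⟨Q23, List.mem_cons_of_mem _ (List.mem_cons_of_mem _ (List.mem_cons_of_mem _ (List.mem_cons_of_mem _ (List.mem_cons_of_mem _ (List.mem_cons_of_mem _ (List.mem_cons_of_mem _ (List.mem_cons_of_mem _ (List.mem_cons_of_mem _ (List.mem_cons_of_mem _ (List.mem_cons_of_mem _ (List.mem_cons_of_mem _ (List.mem_cons_of_mem _ (List.mem_cons_of_mem _ (List.mem_cons_of_mem _ (List.mem_cons_of_mem _ (List.mem_cons_of_mem _ (List.mem_cons_of_mem _ (List.mem_cons_of_mem _ (List.mem_cons_of_mem _ (List.mem_cons_of_mem _ (List.mem_cons_of_mem _ (List.mem_cons_of_mem _ (List.mem_cons_self))))))))))))))))))))))), ?_⟩, by norm_num⟩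
  constructor <;> norm_num [Q23, coCell, P0C9]

lemma lP0C9 : ∀ x1 x2 xc : ℝ, 0 ≤ x1 → x1 ≤ 1 → 0 ≤ x2 → x2 ≤ 1 → P0C9.l ≤ xc → xc ≤ P0C9.u →
    (14965 / 4096 : ℝ) * (1 - (1 - x1) ^ 3) + (48817 / 4096 : ℝ) * (1 - (1 - x2) ^ 3) - (12 : ℝ) * (1 - (1 - xc) ^ 3) + (1 / 1073741824 : ℝ)
      ≤ - P0C9.a1 * x1 - P0C9.a2 * x2 + P0C9.e * xc + P0C9.f := by
  have h := cell_lines_delta 3 (α1 := (14965 / 4096 : ℝ)) (α2 := (48817 / 4096 : ℝ)) (c := (12 : ℝ)) (y1 := (7759 / 262144 : ℝ)) (y2 := (7233 / 262144 : ℝ))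
    (A1 := (21645673 / 2097152 : ℝ)) (B1 := (157919 / 16777216 : ℝ)) (A2 := (8862773 / 262144 : ℝ)) (B2 := (7172431 / 268435456 : ℝ)) (l := (4061 / 131072 : ℝ)) (u := (2193 / 65536 : ℝ))
    (E := (-17677607 / 524288 : ℝ)) (F := (-1225471 / 33554432 : ℝ)) (δ := (1 / 1073741824 : ℝ)) (by norm_num) (by norm_num) (by norm_num) (by norm_num) (by norm_num)
    (by norm_num) (by norm_num) (by norm_num) (by norm_num) (by norm_num) (by norm_num) (by norm_num) (by norm_num) (by norm_num) (by norm_num)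
  have e1 : P0C9.l = (4061 / 131072 : ℝ) := rfl
  have e2 : P0C9.u = (2193 / 65536 : ℝ) := rfl
  have e3 : P0C9.a1 = -(21645673 / 2097152 : ℝ) := by norm_num [P0C9]
  have e4 : P0C9.a2 = -(8862773 / 262144 : ℝ) := by norm_num [P0C9]
  have e5 : P0C9.e = (-17677607 / 524288 : ℝ) := rfl
  have e6 : P0C9.f = (157919 / 16777216 : ℝ) + (7172431 / 268435456 : ℝ) + (-1225471 / 33554432 : ℝ) + (1 / 1073741824 : ℝ) := by norm_num [P0C9]
  rw [e1, e2, e3, e4, e5, e6]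
  exact h

lemma rP0C10 : ∃ N : ℝ, Rw4 P.r2 N (coCell (14965 / 4096 : ℝ) (48817 / 4096 : ℝ) (12 : ℝ) 0 P0C10) := by
  refine ⟨(3221225472 : ℝ), ⟨Q24, List.mem_cons_of_mem _ (List.mem_cons_of_mem _ (List.mem_cons_of_mem _ (List.mem_cons_of_mem _ (List.mem_cons_of_mem _ (List.mem_cons_of_mem _ (List.mem_cons_of_mem _ (List.mem_cons_of_mem _ (List.mem_cons_of_mem _ (List.mem_cons_of_mem _ (List.mem_cons_of_mem _ (List.mem_cons_of_mem _ (List.mem_cons_of_mem _ (List.mem_cons_of_mem _ (List.mem_cons_of_mem _ (List.mem_cons_of_mem _ (List.mem_cons_of_mem _ (List.mem_cons_of_mem _ (List.mem_cons_of_mem _ (List.mem_cons_of_mem _ (List.mem_cons_of_mem _ (List.mem_cons_of_mem _ (List.mem_cons_of_mem _ (List.mem_cons_of_mem _ (List.mem_cons_self)))))))))))))))))))))))), ?_⟩, by norm_num⟩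
  constructor <;> norm_num [Q24, coCell, P0C10]

lemma lP0C10 : ∀ x1 x2 xc : ℝ, 0 ≤ x1 → x1 ≤ 1 → 0 ≤ x2 → x2 ≤ 1 → P0C10.l ≤ xc → xc ≤ P0C10.u →
    (14965 / 4096 : ℝ) * (1 - (1 - x1) ^ 3) + (48817 / 4096 : ℝ) * (1 - (1 - x2) ^ 3) - (12 : ℝ) * (1 - (1 - xc) ^ 3) + (1 / 1073741824 : ℝ)
      ≤ - P0C10.a1 * x1 - P0C10.a2 * x2 + P0C10.e * xc + P0C10.f := by
  have h := cell_lines_delta 3 (α1 := (14965 / 4096 : ℝ)) (α2 := (48817 / 4096 : ℝ)) (c := (12 : ℝ)) (y1 := (4741 / 262144 : ℝ)) (y2 := (8663 / 262144 : ℝ))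
    (A1 := (5540581 / 524288 : ℝ)) (B1 := (475385 / 134217728 : ℝ)) (A2 := (70108921 / 2097152 : ℝ)) (B2 := (5125357 / 134217728 : ℝ)) (l := (2193 / 65536 : ℝ)) (u := (4737 / 131072 : ℝ))
    (E := (-140668215 / 4194304 : ℝ)) (F := (-11415625 / 268435456 : ℝ)) (δ := (1 / 1073741824 : ℝ)) (by norm_num) (by norm_num) (by norm_num) (by norm_num) (by norm_num)
    (by norm_num) (by norm_num) (by norm_num) (by norm_num) (by norm_num) (by norm_num) (by norm_num) (by norm_num) (by norm_num) (by norm_num)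
  have e1 : P0C10.l = (2193 / 65536 : ℝ) := rfl
  have e2 : P0C10.u = (4737 / 131072 : ℝ) := rfl
  have e3 : P0C10.a1 = -(5540581 / 524288 : ℝ) := by norm_num [P0C10]
  have e4 : P0C10.a2 = -(70108921 / 2097152 : ℝ) := by norm_num [P0C10]
  have e5 : P0C10.e = (-140668215 / 4194304 : ℝ) := rfl
  have e6 : P0C10.f = (475385 / 134217728 : ℝ) + (5125357 / 134217728 : ℝ) + (-11415625 / 268435456 : ℝ) + (1 / 1073741824 : ℝ) := by norm_num [P0C10]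
  rw [e1, e2, e3, e4, e5, e6]
  exact h

lemma rP0C11 : ∃ N : ℝ, Rw4 P.r2 N (coCell (14965 / 4096 : ℝ) (48817 / 4096 : ℝ) (12 : ℝ) 0 P0C11) := by
  refine ⟨(3221225472 : ℝ), ⟨Q25, List.mem_cons_of_mem _ (List.mem_cons_of_mem _ (List.mem_cons_of_mem _ (List.mem_cons_of_mem _ (List.mem_cons_of_mem _ (List.mem_cons_of_mem _ (List.mem_cons_of_mem _ (List.mem_cons_of_mem _ (List.mem_cons_of_mem _ (List.mem_cons_of_mem _ (List.mem_cons_of_mem _ (List.mem_cons_of_mem _ (List.mem_cons_of_mem _ (List.mem_cons_of_mem _ (List.mem_cons_of_mem _ (List.mem_cons_of_mem _ (List.mem_cons_of_mem _ (List.mem_cons_of_mem _ (List.mem_cons_of_mem _ (List.mem_cons_of_mem _ (List.mem_cons_of_mem _ (List.mem_cons_of_mem _ (List.mem_cons_of_mem _ (List.mem_cons_of_mem _ (List.mem_cons_of_mem _ (List.mem_cons_self))))))))))))))))))))))))), ?_⟩, by norm_num⟩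
  constructor <;> norm_num [Q25, coCell, P0C11]

lemma lP0C11 : ∀ x1 x2 xc : ℝ, 0 ≤ x1 → x1 ≤ 1 → 0 ≤ x2 → x2 ≤ 1 → P0C11.l ≤ xc → xc ≤ P0C11.u →
    (14965 / 4096 : ℝ) * (1 - (1 - x1) ^ 3) + (48817 / 4096 : ℝ) * (1 - (1 - x2) ^ 3) - (12 : ℝ) * (1 - (1 - xc) ^ 3) + (1 / 1073741824 : ℝ)
      ≤ - P0C11.a1 * x1 - P0C11.a2 * x2 + P0C11.e * xc + P0C11.f := by
  have h := cell_lines_delta 3 (α1 := (14965 / 4096 : ℝ)) (α2 := (48817 / 4096 : ℝ)) (c := (12 : ℝ)) (y1 := (2649 / 131072 : ℝ)) (y2 := (2339 / 65536 : ℝ))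
    (A1 := (22066513 / 2097152 : ℝ)) (B1 := (296395 / 67108864 : ℝ)) (A2 := (139452197 / 4194304 : ℝ)) (B2 := (11934809 / 268435456 : ℝ)) (l := (4737 / 131072 : ℝ)) (u := (1279 / 32768 : ℝ))
    (E := (-139857707 / 4194304 : ℝ)) (F := (-13290321 / 268435456 : ℝ)) (δ := (1 / 1073741824 : ℝ)) (by norm_num) (by norm_num) (by norm_num) (by norm_num) (by norm_num)
    (by norm_num) (by norm_num) (by norm_num) (by norm_num) (by norm_num) (by norm_num) (by norm_num) (by norm_num) (by norm_num) (by norm_num)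
  have e1 : P0C11.l = (4737 / 131072 : ℝ) := rfl
  have e2 : P0C11.u = (1279 / 32768 : ℝ) := rfl
  have e3 : P0C11.a1 = -(22066513 / 2097152 : ℝ) := by norm_num [P0C11]
  have e4 : P0C11.a2 = -(139452197 / 4194304 : ℝ) := by norm_num [P0C11]
  have e5 : P0C11.e = (-139857707 / 4194304 : ℝ) := rfl
  have e6 : P0C11.f = (296395 / 67108864 : ℝ) + (11934809 / 268435456 : ℝ) + (-13290321 / 268435456 : ℝ) + (1 / 1073741824 : ℝ) := by norm_num [P0C11]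
  rw [e1, e2, e3, e4, e5, e6]
  exact h

lemma rP0C12 : ∃ N : ℝ, Rw4 P.r2 N (coCell (14965 / 4096 : ℝ) (48817 / 4096 : ℝ) (12 : ℝ) 0 P0C12) := by
  refine ⟨(3221225472 : ℝ), ⟨Q26, List.mem_cons_of_mem _ (List.mem_cons_of_mem _ (List.mem_cons_of_mem _ (List.mem_cons_of_mem _ (List.mem_cons_of_mem _ (List.mem_cons_of_mem _ (List.mem_cons_of_mem _ (List.mem_cons_of_mem _ (List.mem_cons_of_mem _ (List.mem_cons_of_mem _ (List.mem_cons_of_mem _ (List.mem_cons_of_mem _ (List.mem_cons_of_mem _ (List.mem_cons_of_mem _ (List.mem_cons_of_mem _ (List.mem_cons_of_mem _ (List.mem_cons_of_mem _ (List.mem_cons_of_mem _ (List.mem_cons_of_mem _ (List.mem_cons_of_mem _ (List.mem_cons_of_mem _ (List.mem_cons_of_mem _ (List.mem_cons_of_mem _ (List.mem_cons_of_mem _ (List.mem_cons_of_mem _ (List.mem_cons_of_mem _ (List.mem_cons_self)))))))))))))))))))))))))), ?_⟩, by norm_num⟩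
  constructor <;> norm_num [Q26, coCell, P0C12]

lemma lP0C12 : ∀ x1 x2 xc : ℝ, 0 ≤ x1 → x1 ≤ 1 → 0 ≤ x2 → x2 ≤ 1 → P0C12.l ≤ xc → xc ≤ P0C12.u →
    (14965 / 4096 : ℝ) * (1 - (1 - x1) ^ 3) + (48817 / 4096 : ℝ) * (1 - (1 - x2) ^ 3) - (12 : ℝ) * (1 - (1 - xc) ^ 3) + (1 / 1073741824 : ℝ)
      ≤ - P0C12.a1 * x1 - P0C12.a2 * x2 + P0C12.e * xc + P0C12.f := by
  have h := cell_lines_delta 3 (α1 := (14965 / 4096 : ℝ)) (α2 := (48817 / 4096 : ℝ)) (c := (12 : ℝ)) (y1 := (9995 / 262144 : ℝ)) (y2 := (4369 / 131072 : ℝ))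
    (A1 := (10633411 / 1048576 : ℝ)) (B1 := (4168519 / 268435456 : ℝ)) (A2 := (140134879 / 4194304 : ℝ)) (B2 := (10426939 / 268435456 : ℝ)) (l := (1279 / 32768 : ℝ)) (u := (5243 / 131072 : ℝ))
    (E := (-69648587 / 2097152 : ℝ)) (F := (-14690559 / 268435456 : ℝ)) (δ := (1 / 1073741824 : ℝ)) (by norm_num) (by norm_num) (by norm_num) (by norm_num) (by norm_num)
    (by norm_num) (by norm_num) (by norm_num) (by norm_num) (by norm_num) (by norm_num) (by norm_num) (by norm_num) (by norm_num) (by norm_num)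
  have e1 : P0C12.l = (1279 / 32768 : ℝ) := rfl
  have e2 : P0C12.u = (5243 / 131072 : ℝ) := rfl
  have e3 : P0C12.a1 = -(10633411 / 1048576 : ℝ) := by norm_num [P0C12]
  have e4 : P0C12.a2 = -(140134879 / 4194304 : ℝ) := by norm_num [P0C12]
  have e5 : P0C12.e = (-69648587 / 2097152 : ℝ) := rfl
  have e6 : P0C12.f = (4168519 / 268435456 : ℝ) + (10426939 / 268435456 : ℝ) + (-14690559 / 268435456 : ℝ) + (1 / 1073741824 : ℝ) := by norm_num [P0C12]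
  rw [e1, e2, e3, e4, e5, e6]
  exact h

/-- A link of the chain. -/
lemma link0 {lam : ℝ} (h0 : -(1 / 2) < lam) (h1 : lam < 1) (hB : BoxS lam P 0 HH 0 HH)
    (h : ∃ n, 1 - En 3 lam n mc ≤ (5243 / 131072 : ℝ)) : ∃ n, 1 - En 3 lam n mc ≤ (1 / 64 : ℝ) :=
  phase_of_box (by norm_num) h0 h1 hB (14965 / 4096 : ℝ) (48817 / 4096 : ℝ) (12 : ℝ) (1 / 1073741824 : ℝ) (1 / 64 : ℝ) (5243 / 131072 : ℝ) (by norm_num) cellsP0 hcoverP0
    (forall_cons lP0C0 (forall_cons lP0C1 (forall_cons lP0C2 (forall_cons lP0C3 (forall_cons lP0C4 (forall_cons lP0C5 (forall_cons lP0C6 (forall_cons lP0C7 (forall_cons lP0C8 (forall_cons lP0C9 (forall_cons lP0C10 (forall_cons lP0C11 (forall_cons lP0C12 (forall_nil)))))))))))))) (forall_cons rP0C0 (forall_cons rP0C1 (forall_cons rP0C2 (forall_cons rP0C3 (forall_cons rP0C4 (forall_cons rP0C5 (forall_cons rP0C6 (forall_cons rP0C7 (forall_cons rP0C8 (forall_cons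 rP0C9 (forall_cons rP0C10 (forall_cons rP0C11 (forall_cons rP0C12 (forall_nil)))))))))))))) h

/-- A chord cell of a link. -/
noncomputable def P1C0 : Cell := ⟨(5243 / 131072 : ℝ), (12583 / 262144 : ℝ), (-181770671 / 2097152 : ℝ), (0 : ℝ), (-34500085 / 1048576 : ℝ), (-1443691 / 1073741824 : ℝ)⟩

/-- A chord cell of a link. -/
noncomputable def P1C1 : Cell := ⟨(12583 / 262144 : ℝ), (15099 / 262144 : ℝ), (-359317557 / 4194304 : ℝ), (0 : ℝ), (-8467013 / 262144 : ℝ), (-207175 / 1073741824 : ℝ)⟩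

/-- A chord cell of a link. -/
noncomputable def P1C2 : Cell := ⟨(15099 / 262144 : ℝ), (18119 / 262144 : ℝ), (-354507325 / 4194304 : ℝ), (0 : ℝ), (-132469181 / 4194304 : ℝ), (-210783 / 1073741824 : ℝ)⟩

/-- A chord cell of a link. -/
noncomputable def P1C3 : Cell := ⟨(18119 / 262144 : ℝ), (21743 / 262144 : ℝ), (-174398131 / 2097152 : ℝ), (0 : ℝ), (-128909689 / 4194304 : ℝ), (-198371 / 1073741824 : ℝ)⟩

/-- A chord cell of a link. -/
noncomputable def P1C4 : Cell := ⟨(21743 / 262144 : ℝ), (6523 / 65536 : ℝ), (-342035725 / 4194304 : ℝ), (0 : ℝ), (-62351193 / 2097152 : ℝ), (-210675 / 1073741824 : ℝ)⟩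

/-- A chord cell of a link. -/
noncomputable def P1C5 : Cell := ⟨(6523 / 65536 : ℝ), (15655 / 131072 : ℝ), (-334053041 / 4194304 : ℝ), (0 : ℝ), (-119746369 / 4194304 : ℝ), (-226023 / 1073741824 : ℝ)⟩

/-- A chord cell of a link. -/
noncomputable def P1C6 : Cell := ⟨(15655 / 131072 : ℝ), (9393 / 65536 : ℝ), (-326151111 / 4194304 : ℝ), (0 : ℝ), (-56966225 / 2097152 : ℝ), (-30576039 / 1073741824 : ℝ)⟩

/-- A chord cell of a link. -/
noncomputable def P1C7 : Cell := ⟨(9393 / 65536 : ℝ), (45087 / 262144 : ℝ), (-314521957 / 4194304 : ℝ), (0 : ℝ), (-107146911 / 4194304 : ℝ), (-21440855 / 1073741824 : ℝ)⟩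

/-- A chord cell of a link. -/
noncomputable def P1C8 : Cell := ⟨(45087 / 262144 : ℝ), (52429 / 262144 : ℝ), (-75829347 / 1048576 : ℝ), (0 : ℝ), (-100059251 / 4194304 : ℝ), (-37723323 / 1073741824 : ℝ)⟩

/-- The chord cells of a link. -/
noncomputable def cellsP1 : List Cell := [P1C0, P1C1, P1C2, P1C3, P1C4, P1C5, P1C6, P1C7, P1C8]

lemma hcoverP1 : ∀ x : ℝ, (5243 / 131072 : ℝ) ≤ x → x ≤ (52429 / 262144 : ℝ) → ∃ D ∈ cellsP1, D.l ≤ x ∧ x ≤ D.u := by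
  refine cover_of_chain ?_ (by norm_num [P1C0])
  simp only [ChainP, P1C0, P1C1, P1C2, P1C3, P1C4, P1C5, P1C6, P1C7, P1C8]
  norm_num

lemma rP1C0 : ∃ N : ℝ, Rw4 P.r2 N (coCell (62505 / 2048 : ℝ) (0 : ℝ) (12 : ℝ) 0 P1C0) := by
  refine ⟨(3221225472 : ℝ), ⟨Q27, List.mem_cons_of_mem _ (List.mem_cons_of_mem _ (List.mem_cons_of_mem _ (List.mem_cons_of_mem _ (List.mem_cons_of_mem _ (List.mem_cons_of_mem _ (List.mem_cons_of_mem _ (List.mem_cons_of_mem _ (List.mem_cons_of_mem _ (List.mem_cons_of_mem _ (List.mem_cons_of_mem _ (List.mem_cons_of_mem _ (List.mem_cons_of_mem _ (List.mem_cons_of_mem _ (List.mem_cons_of_mem _ (List.mem_cons_of_mem _ (List.mem_cons_of_mem _ (List.mem_cons_of_mem _ (List.mem_cons_of_mem _ (List.mem_cons_of_mem _ (List.mem_cons_of_mem _ (List.mem_cons_of_mem _ (List.mem_cons_of_mem _ (List.mem_cons_of_mem _ (List.mem_cons_of_mem _ (List.mem_cons_of_mem _ (List.mem_cons_of_mem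 _ (List.mem_cons_self))))))))))))))))))))))))))), ?_⟩, by norm_num⟩
  constructor <;> norm_num [Q27, coCell, P1C0]

lemma lP1C0 : ∀ x1 x2 xc : ℝ, 0 ≤ x1 → x1 ≤ 1 → 0 ≤ x2 → x2 ≤ 1 → P1C0.l ≤ xc → xc ≤ P1C0.u →
    (62505 / 2048 : ℝ) * (1 - (1 - x1) ^ 3) + (0 : ℝ) * (1 - (1 - x2) ^ 3) - (12 : ℝ) * (1 - (1 - xc) ^ 3) + (1 / 1073741824 : ℝ)
      ≤ - P1C0.a1 * x1 - P1C0.a2 * x2 + P1C0.e * xc + P1C0.f := by
  have h := cell_lines_delta 3 (α1 := (62505 / 2048 : ℝ)) (α2 := (0 : ℝ)) (c := (12 : ℝ)) (y1 := (7089 / 262144 : ℝ)) (y2 := (2437 / 262144 : ℝ))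
    (A1 := (181770671 / 2097152 : ℝ)) (B1 := (17649607 / 268435456 : ℝ)) (A2 := (0 : ℝ)) (B2 := (0 : ℝ)) (l := (5243 / 131072 : ℝ)) (u := (12583 / 262144 : ℝ))
    (E := (-34500085 / 1048576 : ℝ)) (F := (-9005265 / 134217728 : ℝ)) (δ := (1 / 1073741824 : ℝ)) (by norm_num) (by norm_num) (by norm_num) (by norm_num) (by norm_num)
    (by norm_num) (by norm_num) (by norm_num) (by norm_num) (by norm_num) (by norm_num) (by norm_num) (by norm_num) (by norm_num) (by norm_num)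
  have e1 : P1C0.l = (5243 / 131072 : ℝ) := rfl
  have e2 : P1C0.u = (12583 / 262144 : ℝ) := rfl
  have e3 : P1C0.a1 = -(181770671 / 2097152 : ℝ) := by norm_num [P1C0]
  have e4 : P1C0.a2 = -(0 : ℝ) := by norm_num [P1C0]
  have e5 : P1C0.e = (-34500085 / 1048576 : ℝ) := rfl
  have e6 : P1C0.f = (17649607 / 268435456 : ℝ) + (0 : ℝ) + (-9005265 / 134217728 : ℝ) + (1 / 1073741824 : ℝ) := by norm_num [P1C0]
  rw [e1, e2, e3, e4, e5, e6]
  exact h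

lemma rP1C1 : ∃ N : ℝ, Rw4 P.r2 N (coCell (62505 / 2048 : ℝ) (0 : ℝ) (12 : ℝ) 0 P1C1) := by
  refine ⟨(3221225472 : ℝ), ⟨Q28, List.mem_cons_of_mem _ (List.mem_cons_of_mem _ (List.mem_cons_of_mem _ (List.mem_cons_of_mem _ (List.mem_cons_of_mem _ (List.mem_cons_of_mem _ (List.mem_cons_of_mem _ (List.mem_cons_of_mem _ (List.mem_cons_of_mem _ (List.mem_cons_of_mem _ (List.mem_cons_of_mem _ (List.mem_cons_of_mem _ (List.mem_cons_of_mem _ (List.mem_cons_of_mem _ (List.mem_cons_of_mem _ (List.mem_cons_of_mem _ (List.mem_cons_of_mem _ (List.mem_cons_of_mem _ (List.mem_cons_of_mem _ (List.mem_cons_of_mem _ (List.mem_cons_of_mem _ (List.mem_cons_of_mem _ (List.mem_cons_of_mem _ (List.mem_cons_of_mem _ (List.mem_cons_of_mem _ (List.mem_cons_of_mem _ (List.mem_cons_of_mem _ (List.mem_cons_of_mem _ (List.mem_cons_self)))))))))))))))))))))))))))), ?_⟩, by norm_num⟩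
  constructor <;> norm_num [Q28, coCell, P1C1]

lemma lP1C1 : ∀ x1 x2 xc : ℝ, 0 ≤ x1 → x1 ≤ 1 → 0 ≤ x2 → x2 ≤ 1 → P1C1.l ≤ xc → xc ≤ P1C1.u →
    (62505 / 2048 : ℝ) * (1 - (1 - x1) ^ 3) + (0 : ℝ) * (1 - (1 - x2) ^ 3) - (12 : ℝ) * (1 - (1 - xc) ^ 3) + (1 / 1073741824 : ℝ)
      ≤ - P1C1.a1 * x1 - P1C1.a2 * x2 + P1C1.e * xc + P1C1.f := by
  have h := cell_lines_delta 3 (α1 := (62505 / 2048 : ℝ)) (α2 := (0 : ℝ)) (c := (12 : ℝ)) (y1 := (8575 / 262144 : ℝ)) (y2 := (2939 / 262144 : ℝ))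
    (A1 := (359317557 / 4194304 : ℝ)) (B1 := (25725211 / 268435456 : ℝ)) (A2 := (0 : ℝ)) (B2 := (0 : ℝ)) (l := (12583 / 262144 : ℝ)) (u := (15099 / 262144 : ℝ))
    (E := (-8467013 / 262144 : ℝ)) (F := (-25777005 / 268435456 : ℝ)) (δ := (1 / 1073741824 : ℝ)) (by norm_num) (by norm_num) (by norm_num) (by norm_num) (by norm_num)
    (by norm_num) (by norm_num) (by norm_num) (by norm_num) (by norm_num) (by norm_num) (by norm_num) (by norm_num) (by norm_num) (by norm_num)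
  have e1 : P1C1.l = (12583 / 262144 : ℝ) := rfl
  have e2 : P1C1.u = (15099 / 262144 : ℝ) := rfl
  have e3 : P1C1.a1 = -(359317557 / 4194304 : ℝ) := by norm_num [P1C1]
  have e4 : P1C1.a2 = -(0 : ℝ) := by norm_num [P1C1]
  have e5 : P1C1.e = (-8467013 / 262144 : ℝ) := rfl
  have e6 : P1C1.f = (25725211 / 268435456 : ℝ) + (0 : ℝ) + (-25777005 / 268435456 : ℝ) + (1 / 1073741824 : ℝ) := by norm_num [P1C1]
  rw [e1, e2, e3, e4, e5, e6]
  exact h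

lemma rP1C2 : ∃ N : ℝ, Rw4 P.r2 N (coCell (62505 / 2048 : ℝ) (0 : ℝ) (12 : ℝ) 0 P1C2) := by
  refine ⟨(3221225472 : ℝ), ⟨Q29, List.mem_cons_of_mem _ (List.mem_cons_of_mem _ (List.mem_cons_of_mem _ (List.mem_cons_of_mem _ (List.mem_cons_of_mem _ (List.mem_cons_of_mem _ (List.mem_cons_of_mem _ (List.mem_cons_of_mem _ (List.mem_cons_of_mem _ (List.mem_cons_of_mem _ (List.mem_cons_of_mem _ (List.mem_cons_of_mem _ (List.mem_cons_of_mem _ (List.mem_cons_of_mem _ (List.mem_cons_of_mem _ (List.mem_cons_of_mem _ (List.mem_cons_of_mem _ (List.mem_cons_of_mem _ (List.mem_cons_of_mem _ (List.mem_cons_of_mem _ (List.mem_cons_of_mem _ (List.mem_cons_of_mem _ (List.mem_cons_of_mem _ (List.mem_cons_of_mem _ (List.mem_cons_of_mem _ (List.mem_cons_of_mem _ (List.mem_cons_of_mem _ (List.mem_cons_of_mem _ (List.mem_cons_of_mem _ (List.mem_cons_self))))))))))))))))))))))))))))), ?_⟩, by norm_num⟩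
  constructor <;> norm_num [Q29, coCell, P1C2]

lemma lP1C2 : ∀ x1 x2 xc : ℝ, 0 ≤ x1 → x1 ≤ 1 → 0 ≤ x2 → x2 ≤ 1 → P1C2.l ≤ xc → xc ≤ P1C2.u →
    (62505 / 2048 : ℝ) * (1 - (1 - x1) ^ 3) + (0 : ℝ) * (1 - (1 - x2) ^ 3) - (12 : ℝ) * (1 - (1 - xc) ^ 3) + (1 / 1073741824 : ℝ)
      ≤ - P1C2.a1 * x1 - P1C2.a2 * x2 + P1C2.e * xc + P1C2.f := by
  have h := cell_lines_delta 3 (α1 := (62505 / 2048 : ℝ)) (α2 := (0 : ℝ)) (c := (12 : ℝ)) (y1 := (5139 / 131072 : ℝ)) (y2 := (1769 / 131072 : ℝ))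
    (A1 := (354507325 / 4194304 : ℝ)) (B1 := (18397153 / 134217728 : ℝ)) (A2 := (0 : ℝ)) (B2 := (0 : ℝ)) (l := (15099 / 262144 : ℝ)) (u := (18119 / 262144 : ℝ))
    (E := (-132469181 / 4194304 : ℝ)) (F := (-18423501 / 134217728 : ℝ)) (δ := (1 / 1073741824 : ℝ)) (by norm_num) (by norm_num) (by norm_num) (by norm_num) (by norm_num)
    (by norm_num) (by norm_num) (by norm_num) (by norm_num) (by norm_num) (by norm_num) (by norm_num) (by norm_num) (by norm_num) (by norm_num)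
  have e1 : P1C2.l = (15099 / 262144 : ℝ) := rfl
  have e2 : P1C2.u = (18119 / 262144 : ℝ) := rfl
  have e3 : P1C2.a1 = -(354507325 / 4194304 : ℝ) := by norm_num [P1C2]
  have e4 : P1C2.a2 = -(0 : ℝ) := by norm_num [P1C2]
  have e5 : P1C2.e = (-132469181 / 4194304 : ℝ) := rfl
  have e6 : P1C2.f = (18397153 / 134217728 : ℝ) + (0 : ℝ) + (-18423501 / 134217728 : ℝ) + (1 / 1073741824 : ℝ) := by norm_num [P1C2]
  rw [e1, e2, e3, e4, e5, e6]
  exact h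

lemma rP1C3 : ∃ N : ℝ, Rw4 P.r2 N (coCell (62505 / 2048 : ℝ) (0 : ℝ) (12 : ℝ) 0 P1C3) := by
  refine ⟨(3221225472 : ℝ), ⟨Q30, List.mem_cons_of_mem _ (List.mem_cons_of_mem _ (List.mem_cons_of_mem _ (List.mem_cons_of_mem _ (List.mem_cons_of_mem _ (List.mem_cons_of_mem _ (List.mem_cons_of_mem _ (List.mem_cons_of_mem _ (List.mem_cons_of_mem _ (List.mem_cons_of_mem _ (List.mem_cons_of_mem _ (List.mem_cons_of_mem _ (List.mem_cons_of_mem _ (List.mem_cons_of_mem _ (List.mem_cons_of_mem _ (List.mem_cons_of_mem _ (List.mem_cons_of_mem _ (List.mem_cons_of_mem _ (List.mem_cons_of_mem _ (List.mem_cons_of_mem _ (List.mem_cons_of_mem _ (List.mem_cons_of_mem _ (List.mem_cons_of_mem _ (List.mem_cons_of_mem _ (List.mem_cons_of_mem _ (List.mem_cons_of_mem _ (List.mem_cons_of_mem _ (List.mem_cons_of_mem _ (List.mem_cons_of_mem _ (List.mem_cons_of_mem _ (List.mem_cons_self)))))))))))))))))))))))))))))),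 ?_⟩, by norm_num⟩
  constructor <;> norm_num [Q30, coCell, P1C3]

lemma lP1C3 : ∀ x1 x2 xc : ℝ, 0 ≤ x1 → x1 ≤ 1 → 0 ≤ x2 → x2 ≤ 1 → P1C3.l ≤ xc → xc ≤ P1C3.u →
    (62505 / 2048 : ℝ) * (1 - (1 - x1) ^ 3) + (0 : ℝ) * (1 - (1 - x2) ^ 3) - (12 : ℝ) * (1 - (1 - xc) ^ 3) + (1 / 1073741824 : ℝ)
      ≤ - P1C3.a1 * x1 - P1C3.a2 * x2 + P1C3.e * xc + P1C3.f := by
  have h := cell_lines_delta 3 (α1 := (62505 / 2048 : ℝ)) (α2 := (0 : ℝ)) (c := (12 : ℝ)) (y1 := (12315 / 262144 : ℝ)) (y2 := (4265 / 262144 : ℝ))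
    (A1 := (174398131 / 2097152 : ℝ)) (B1 := (52543121 / 268435456 : ℝ)) (A2 := (0 : ℝ)) (B2 := (0 : ℝ)) (l := (18119 / 262144 : ℝ)) (u := (21743 / 262144 : ℝ))
    (E := (-128909689 / 4194304 : ℝ)) (F := (-26296357 / 134217728 : ℝ)) (δ := (1 / 1073741824 : ℝ)) (by norm_num) (by norm_num) (by norm_num) (by norm_num) (by norm_num)
    (by norm_num) (by norm_num) (by norm_num) (by norm_num) (by norm_num) (by norm_num) (by norm_num) (by norm_num) (by norm_num) (by norm_num)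
  have e1 : P1C3.l = (18119 / 262144 : ℝ) := rfl
  have e2 : P1C3.u = (21743 / 262144 : ℝ) := rfl
  have e3 : P1C3.a1 = -(174398131 / 2097152 : ℝ) := by norm_num [P1C3]
  have e4 : P1C3.a2 = -(0 : ℝ) := by norm_num [P1C3]
  have e5 : P1C3.e = (-128909689 / 4194304 : ℝ) := rfl
  have e6 : P1C3.f = (52543121 / 268435456 : ℝ) + (0 : ℝ) + (-26296357 / 134217728 : ℝ) + (1 / 1073741824 : ℝ) := by norm_num [P1C3]
  rw [e1, e2, e3, e4, e5, e6]
  exact h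

lemma rP1C4 : ∃ N : ℝ, Rw4 P.r2 N (coCell (62505 / 2048 : ℝ) (0 : ℝ) (12 : ℝ) 0 P1C4) := by
  refine ⟨(3221225472 : ℝ), ⟨Q31, List.mem_cons_of_mem _ (List.mem_cons_of_mem _ (List.mem_cons_of_mem _ (List.mem_cons_of_mem _ (List.mem_cons_of_mem _ (List.mem_cons_of_mem _ (List.mem_cons_of_mem _ (List.mem_cons_of_mem _ (List.mem_cons_of_mem _ (List.mem_cons_of_mem _ (List.mem_cons_of_mem _ (List.mem_cons_of_mem _ (List.mem_cons_of_mem _ (List.mem_cons_of_mem _ (List.mem_cons_of_mem _ (List.mem_cons_of_mem _ (List.mem_cons_of_mem _ (List.mem_cons_of_mem _ (List.mem_cons_of_mem _ (List.mem_cons_of_mem _ (List.mem_cons_of_mem _ (List.mem_cons_of_mem _ (List.mem_cons_of_mem _ (List.mem_cons_of_mem _ (List.mem_cons_of_mem _ (List.mem_cons_of_mem _ (List.mem_cons_of_mem _ (List.mem_cons_of_mem _ (List.mem_cons_of_mem _ (List.mem_cons_of_mem _ (List.mem_cons_of_mem _ (List.mem_cons_self))))))))))))))))))))))))))))))),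 ?_⟩, by norm_num⟩
  constructor <;> norm_num [Q31, coCell, P1C4]

lemma lP1C4 : ∀ x1 x2 xc : ℝ, 0 ≤ x1 → x1 ≤ 1 → 0 ≤ x2 → x2 ≤ 1 → P1C4.l ≤ xc → xc ≤ P1C4.u →
    (62505 / 2048 : ℝ) * (1 - (1 - x1) ^ 3) + (0 : ℝ) * (1 - (1 - x2) ^ 3) - (12 : ℝ) * (1 - (1 - xc) ^ 3) + (1 / 1073741824 : ℝ)
      ≤ - P1C4.a1 * x1 - P1C4.a2 * x2 + P1C4.e * xc + P1C4.f := by
  have h := cell_lines_delta 3 (α1 := (62505 / 2048 : ℝ)) (α2 := (0 : ℝ)) (c := (12 : ℝ)) (y1 := (3687 / 65536 : ℝ)) (y2 := (5147 / 262144 : ℝ))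
    (A1 := (342035725 / 4194304 : ℝ)) (B1 := (9359235 / 33554432 : ℝ)) (A2 := (0 : ℝ)) (B2 := (0 : ℝ)) (l := (21743 / 262144 : ℝ)) (u := (6523 / 65536 : ℝ))
    (E := (-62351193 / 2097152 : ℝ)) (F := (-74926549 / 268435456 : ℝ)) (δ := (1 / 1073741824 : ℝ)) (by norm_num) (by norm_num) (by norm_num) (by norm_num) (by norm_num)
    (by norm_num) (by norm_num) (by norm_num) (by norm_num) (by norm_num) (by norm_num) (by norm_num) (by norm_num) (by norm_num) (by norm_num)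
  have e1 : P1C4.l = (21743 / 262144 : ℝ) := rfl
  have e2 : P1C4.u = (6523 / 65536 : ℝ) := rfl
  have e3 : P1C4.a1 = -(342035725 / 4194304 : ℝ) := by norm_num [P1C4]
  have e4 : P1C4.a2 = -(0 : ℝ) := by norm_num [P1C4]
  have e5 : P1C4.e = (-62351193 / 2097152 : ℝ) := rfl
  have e6 : P1C4.f = (9359235 / 33554432 : ℝ) + (0 : ℝ) + (-74926549 / 268435456 : ℝ) + (1 / 1073741824 : ℝ) := by norm_num [P1C4]
  rw [e1, e2, e3, e4, e5, e6]
  exact h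

lemma rP1C5 : ∃ N : ℝ, Rw4 P.r2 N (coCell (62505 / 2048 : ℝ) (0 : ℝ) (12 : ℝ) 0 P1C5) := by
  refine ⟨(3221225472 : ℝ), ⟨Q32, List.mem_cons_of_mem _ (List.mem_cons_of_mem _ (List.mem_cons_of_mem _ (List.mem_cons_of_mem _ (List.mem_cons_of_mem _ (List.mem_cons_of_mem _ (List.mem_cons_of_mem _ (List.mem_cons_of_mem _ (List.mem_cons_of_mem _ (List.mem_cons_of_mem _ (List.mem_cons_of_mem _ (List.mem_cons_of_mem _ (List.mem_cons_of_mem _ (List.mem_cons_of_mem _ (List.mem_cons_of_mem _ (List.mem_cons_of_mem _ (List.mem_cons_of_mem _ (List.mem_cons_of_mem _ (List.mem_cons_of_mem _ (List.mem_cons_of_mem _ (List.mem_cons_of_mem _ (List.mem_cons_of_mem _ (List.mem_cons_of_mem _ (List.mem_cons_of_mem _ (List.mem_cons_of_mem _ (List.mem_cons_of_mem _ (List.mem_cons_of_mem _ (List.mem_cons_of_mem _ (List.mem_cons_of_mem _ (List.mem_cons_of_mem _ (List.mem_cons_of_mem _ (List.mem_cons_of_mem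 _ (List.mem_cons_self)))))))))))))))))))))))))))))))), ?_⟩, by norm_num⟩
  constructor <;> norm_num [Q32, coCell, P1C5]

lemma lP1C5 : ∀ x1 x2 xc : ℝ, 0 ≤ x1 → x1 ≤ 1 → 0 ≤ x2 → x2 ≤ 1 → P1C5.l ≤ xc → xc ≤ P1C5.u →
    (62505 / 2048 : ℝ) * (1 - (1 - x1) ^ 3) + (0 : ℝ) * (1 - (1 - x2) ^ 3) - (12 : ℝ) * (1 - (1 - xc) ^ 3) + (1 / 1073741824 : ℝ)
      ≤ - P1C5.a1 * x1 - P1C5.a2 * x2 + P1C5.e * xc + P1C5.f := by
  have h := cell_lines_delta 3 (α1 := (62505 / 2048 : ℝ)) (α2 := (0 : ℝ)) (c := (12 : ℝ)) (y1 := (4413 / 65536 : ℝ)) (y2 := (3111 / 131072 : ℝ))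
    (A1 := (334053041 / 4194304 : ℝ)) (B1 := (26610113 / 67108864 : ℝ)) (A2 := (0 : ℝ)) (B2 := (0 : ℝ)) (l := (6523 / 65536 : ℝ)) (u := (15655 / 131072 : ℝ))
    (E := (-119746369 / 4194304 : ℝ)) (F := (-53248479 / 134217728 : ℝ)) (δ := (1 / 1073741824 : ℝ)) (by norm_num) (by norm_num) (by norm_num) (by norm_num) (by norm_num)
    (by norm_num) (by norm_num) (by norm_num) (by norm_num) (by norm_num) (by norm_num) (by norm_num) (by norm_num) (by norm_num) (by norm_num)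
  have e1 : P1C5.l = (6523 / 65536 : ℝ) := rfl
  have e2 : P1C5.u = (15655 / 131072 : ℝ) := rfl
  have e3 : P1C5.a1 = -(334053041 / 4194304 : ℝ) := by norm_num [P1C5]
  have e4 : P1C5.a2 = -(0 : ℝ) := by norm_num [P1C5]
  have e5 : P1C5.e = (-119746369 / 4194304 : ℝ) := rfl
  have e6 : P1C5.f = (26610113 / 67108864 : ℝ) + (0 : ℝ) + (-53248479 / 134217728 : ℝ) + (1 / 1073741824 : ℝ) := by norm_num [P1C5]
  rw [e1, e2, e3, e4, e5, e6]
  exact h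

lemma rP1C6 : ∃ N : ℝ, Rw4 P.r2 N (coCell (62505 / 2048 : ℝ) (0 : ℝ) (12 : ℝ) 0 P1C6) := by
  refine ⟨(3221225472 : ℝ), ⟨Q33, List.mem_cons_of_mem _ (List.mem_cons_of_mem _ (List.mem_cons_of_mem _ (List.mem_cons_of_mem _ (List.mem_cons_of_mem _ (List.mem_cons_of_mem _ (List.mem_cons_of_mem _ (List.mem_cons_of_mem _ (List.mem_cons_of_mem _ (List.mem_cons_of_mem _ (List.mem_cons_of_mem _ (List.mem_cons_of_mem _ (List.mem_cons_of_mem _ (List.mem_cons_of_mem _ (List.mem_cons_of_mem _ (List.mem_cons_of_mem _ (List.mem_cons_of_mem _ (List.mem_cons_of_mem _ (List.mem_cons_of_mem _ (List.mem_cons_of_mem _ (List.mem_cons_of_mem _ (List.mem_cons_of_mem _ (List.mem_cons_of_mem _ (List.mem_cons_of_mem _ (List.mem_cons_of_mem _ (List.mem_cons_of_mem _ (List.mem_cons_of_mem _ (List.mem_cons_of_mem _ (List.mem_cons_of_mem _ (List.mem_cons_of_mem _ (List.mem_cons_of_mem _ (List.mem_cons_of_mem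 _ (List.mem_cons_of_mem _ (List.mem_cons_self))))))))))))))))))))))))))))))))), ?_⟩, by norm_num⟩
  constructor <;> norm_num [Q33, coCell, P1C6]

lemma lP1C6 : ∀ x1 x2 xc : ℝ, 0 ≤ x1 → x1 ≤ 1 → 0 ≤ x2 → x2 ≤ 1 → P1C6.l ≤ xc → xc ≤ P1C6.u →
    (62505 / 2048 : ℝ) * (1 - (1 - x1) ^ 3) + (0 : ℝ) * (1 - (1 - x2) ^ 3) - (12 : ℝ) * (1 - (1 - xc) ^ 3) + (1 / 1073741824 : ℝ)
      ≤ - P1C6.a1 * x1 - P1C6.a2 * x2 + P1C6.e * xc + P1C6.f := by
  have h := cell_lines_delta 3 (α1 := (62505 / 2048 : ℝ)) (α2 := (0 : ℝ)) (c := (12 : ℝ)) (y1 := (20561 / 262144 : ℝ)) (y2 := (3969 / 131072 : ℝ))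
    (A1 := (326151111 / 4194304 : ℝ)) (B1 := (143294795 / 268435456 : ℝ)) (A2 := (0 : ℝ)) (B2 := (0 : ℝ)) (l := (15655 / 131072 : ℝ)) (u := (9393 / 65536 : ℝ))
    (E := (-56966225 / 2097152 : ℝ)) (F := (-150938805 / 268435456 : ℝ)) (δ := (1 / 1073741824 : ℝ)) (by norm_num) (by norm_num) (by norm_num) (by norm_num) (by norm_num)
    (by norm_num) (by norm_num) (by norm_num) (by norm_num) (by norm_num) (by norm_num) (by norm_num) (by norm_num) (by norm_num) (by norm_num)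
  have e1 : P1C6.l = (15655 / 131072 : ℝ) := rfl
  have e2 : P1C6.u = (9393 / 65536 : ℝ) := rfl
  have e3 : P1C6.a1 = -(326151111 / 4194304 : ℝ) := by norm_num [P1C6]
  have e4 : P1C6.a2 = -(0 : ℝ) := by norm_num [P1C6]
  have e5 : P1C6.e = (-56966225 / 2097152 : ℝ) := rfl
  have e6 : P1C6.f = (143294795 / 268435456 : ℝ) + (0 : ℝ) + (-150938805 / 268435456 : ℝ) + (1 / 1073741824 : ℝ) := by norm_num [P1C6]
  rw [e1, e2, e3, e4, e5, e6]
  exact h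

lemma rP1C7 : ∃ N : ℝ, Rw4 P.r2 N (coCell (62505 / 2048 : ℝ) (0 : ℝ) (12 : ℝ) 0 P1C7) := by
  refine ⟨(3221225472 : ℝ), ⟨Q34, List.mem_cons_of_mem _ (List.mem_cons_of_mem _ (List.mem_cons_of_mem _ (List.mem_cons_of_mem _ (List.mem_cons_of_mem _ (List.mem_cons_of_mem _ (List.mem_cons_of_mem _ (List.mem_cons_of_mem _ (List.mem_cons_of_mem _ (List.mem_cons_of_mem _ (List.mem_cons_of_mem _ (List.mem_cons_of_mem _ (List.mem_cons_of_mem _ (List.mem_cons_of_mem _ (List.mem_cons_of_mem _ (List.mem_cons_of_mem _ (List.mem_cons_of_mem _ (List.mem_cons_of_mem _ (List.mem_cons_of_mem _ (List.mem_cons_of_mem _ (List.mem_cons_of_mem _ (List.mem_cons_of_mem _ (List.mem_cons_of_mem _ (List.mem_cons_of_mem _ (List.mem_cons_of_mem _ (List.mem_cons_of_mem _ (List.mem_cons_of_mem _ (List.mem_cons_of_mem _ (List.mem_cons_of_mem _ (List.mem_cons_of_mem _ (List.mem_cons_of_mem _ (List.mem_cons_of_mem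 _ (List.mem_cons_of_mem _ (List.mem_cons_of_mem _ (List.mem_cons_self)))))))))))))))))))))))))))))))))), ?_⟩, by norm_num⟩
  constructor <;> norm_num [Q34, coCell, P1C7]

lemma lP1C7 : ∀ x1 x2 xc : ℝ, 0 ≤ x1 → x1 ≤ 1 → 0 ≤ x2 → x2 ≤ 1 → P1C7.l ≤ xc → xc ≤ P1C7.u →
    (62505 / 2048 : ℝ) * (1 - (1 - x1) ^ 3) + (0 : ℝ) * (1 - (1 - x2) ^ 3) - (12 : ℝ) * (1 - (1 - xc) ^ 3) + (1 / 1073741824 : ℝ)
      ≤ - P1C7.a1 * x1 - P1C7.a2 * x2 + P1C7.e * xc + P1C7.f := by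
  have h := cell_lines_delta 3 (α1 := (62505 / 2048 : ℝ)) (α2 := (0 : ℝ)) (c := (12 : ℝ)) (y1 := (24907 / 262144 : ℝ)) (y2 := (9231 / 262144 : ℝ))
    (A1 := (314521957 / 4194304 : ℝ)) (B1 := (207821333 / 268435456 : ℝ)) (A2 := (0 : ℝ)) (B2 := (0 : ℝ)) (l := (9393 / 65536 : ℝ)) (u := (45087 / 262144 : ℝ))
    (E := (-107146911 / 4194304 : ℝ)) (F := (-213181547 / 268435456 : ℝ)) (δ := (1 / 1073741824 : ℝ)) (by norm_num) (by norm_num) (by norm_num) (by norm_num) (by norm_num)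
    (by norm_num) (by norm_num) (by norm_num) (by norm_num) (by norm_num) (by norm_num) (by norm_num) (by norm_num) (by norm_num) (by norm_num)
  have e1 : P1C7.l = (9393 / 65536 : ℝ) := rfl
  have e2 : P1C7.u = (45087 / 262144 : ℝ) := rfl
  have e3 : P1C7.a1 = -(314521957 / 4194304 : ℝ) := by norm_num [P1C7]
  have e4 : P1C7.a2 = -(0 : ℝ) := by norm_num [P1C7]
  have e5 : P1C7.e = (-107146911 / 4194304 : ℝ) := rfl
  have e6 : P1C7.f = (207821333 / 268435456 : ℝ) + (0 : ℝ) + (-213181547 / 268435456 : ℝ) + (1 / 1073741824 : ℝ) := by norm_num [P1C7]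
  rw [e1, e2, e3, e4, e5, e6]
  exact h

lemma rP1C8 : ∃ N : ℝ, Rw4 P.r2 N (coCell (62505 / 2048 : ℝ) (0 : ℝ) (12 : ℝ) 0 P1C8) := by
  refine ⟨(3221225472 : ℝ), ⟨Q35, List.mem_cons_of_mem _ (List.mem_cons_of_mem _ (List.mem_cons_of_mem _ (List.mem_cons_of_mem _ (List.mem_cons_of_mem _ (List.mem_cons_of_mem _ (List.mem_cons_of_mem _ (List.mem_cons_of_mem _ (List.mem_cons_of_mem _ (List.mem_cons_of_mem _ (List.mem_cons_of_mem _ (List.mem_cons_of_mem _ (List.mem_cons_of_mem _ (List.mem_cons_of_mem _ (List.mem_cons_of_mem _ (List.mem_cons_of_mem _ (List.mem_cons_of_mem _ (List.mem_cons_of_mem _ (List.mem_cons_of_mem _ (List.mem_cons_of_mem _ (List.mem_cons_of_mem _ (List.mem_cons_of_mem _ (List.mem_cons_of_mem _ (List.mem_cons_of_mem _ (List.mem_cons_of_mem _ (List.mem_cons_of_mem _ (List.mem_cons_of_mem _ (List.mem_cons_of_mem _ (List.mem_cons_of_mem _ (List.mem_cons_of_mem _ (List.mem_cons_of_mem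 _ (List.mem_cons_of_mem _ (List.mem_cons_of_mem _ (List.mem_cons_of_mem _ (List.mem_cons_of_mem _ (List.mem_cons_self))))))))))))))))))))))))))))))))))), ?_⟩, by norm_num⟩
  constructor <;> norm_num [Q35, coCell, P1C8]

lemma lP1C8 : ∀ x1 x2 xc : ℝ, 0 ≤ x1 → x1 ≤ 1 → 0 ≤ x2 → x2 ≤ 1 → P1C8.l ≤ xc → xc ≤ P1C8.u →
    (62505 / 2048 : ℝ) * (1 - (1 - x1) ^ 3) + (0 : ℝ) * (1 - (1 - x2) ^ 3) - (12 : ℝ) * (1 - (1 - xc) ^ 3) + (1 / 1073741824 : ℝ)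
      ≤ - P1C8.a1 * x1 - P1C8.a2 * x2 + P1C8.e * xc + P1C8.f := by
  have h := cell_lines_delta 3 (α1 := (62505 / 2048 : ℝ)) (α2 := (0 : ℝ)) (c := (12 : ℝ)) (y1 := (29171 / 262144 : ℝ)) (y2 := (10453 / 262144 : ℝ))
    (A1 := (75829347 / 1048576 : ℝ)) (B1 := (140884309 / 134217728 : ℝ)) (A2 := (0 : ℝ)) (B2 := (0 : ℝ)) (l := (45087 / 262144 : ℝ)) (u := (52429 / 262144 : ℝ))
    (E := (-100059251 / 4194304 : ℝ)) (F := (-291199449 / 268435456 : ℝ)) (δ := (1 / 1073741824 : ℝ)) (by norm_num) (by norm_num) (by norm_num) (by norm_num) (by norm_num)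
    (by norm_num) (by norm_num) (by norm_num) (by norm_num) (by norm_num) (by norm_num) (by norm_num) (by norm_num) (by norm_num) (by norm_num)
  have e1 : P1C8.l = (45087 / 262144 : ℝ) := rfl
  have e2 : P1C8.u = (52429 / 262144 : ℝ) := rfl
  have e3 : P1C8.a1 = -(75829347 / 1048576 : ℝ) := by norm_num [P1C8]
  have e4 : P1C8.a2 = -(0 : ℝ) := by norm_num [P1C8]
  have e5 : P1C8.e = (-100059251 / 4194304 : ℝ) := rfl
  have e6 : P1C8.f = (140884309 / 134217728 : ℝ) + (0 : ℝ) + (-291199449 / 268435456 : ℝ) + (1 / 1073741824 : ℝ) := by norm_num [P1C8]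
  rw [e1, e2, e3, e4, e5, e6]
  exact h

/-- A link of the chain. -/
lemma link1 {lam : ℝ} (h0 : -(1 / 2) < lam) (h1 : lam < 1) (hB : BoxS lam P 0 HH 0 HH)
    (h : ∃ n, 1 - En 3 lam n mc ≤ (52429 / 262144 : ℝ)) : ∃ n, 1 - En 3 lam n mc ≤ (5243 / 131072 : ℝ) :=
  phase_of_box (by norm_num) h0 h1 hB (62505 / 2048 : ℝ) (0 : ℝ) (12 : ℝ) (1 / 1073741824 : ℝ) (5243 / 131072 : ℝ) (52429 / 262144 : ℝ) (by norm_num) cellsP1 hcoverP1
    (forall_cons lP1C0 (forall_cons lP1C1 (forall_cons lP1C2 (forall_cons lP1C3 (forall_cons lP1C4 (forall_cons lP1C5 (forall_cons lP1C6 (forall_cons lP1C7 (forall_cons lP1C8 (forall_nil)))))))))) (forall_cons rP1C0 (forall_cons rP1C1 (forall_cons rP1C2 (forall_cons rP1C3 (forall_cons rP1C4 (forall_cons rP1C5 (forall_cons rP1C6 (forall_cons rP1C7 (forall_cons rP1C8 (forall_nil)))))))))) h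

/-- A chord cell of a link. -/
noncomputable def P2C0 : Cell := ⟨(52429 / 262144 : ℝ), (62915 / 262144 : ℝ), (-402835351 / 4194304 : ℝ), (0 : ℝ), (-45942585 / 2097152 : ℝ), (-183071 / 1073741824 : ℝ)⟩

/-- A chord cell of a link. -/
noncomputable def P2C1 : Cell := ⟨(62915 / 262144 : ℝ), (69 / 256 : ℝ), (-12154809 / 131072 : ℝ), (0 : ℝ), (-83869491 / 4194304 : ℝ), (-59618383 / 1073741824 : ℝ)⟩

/-- The chord cells of a link. -/
noncomputable def cellsP2 : List Cell := [P2C0, P2C1]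

lemma hcoverP2 : ∀ x : ℝ, (52429 / 262144 : ℝ) ≤ x → x ≤ (69 / 256 : ℝ) → ∃ D ∈ cellsP2, D.l ≤ x ∧ x ≤ D.u := by
  refine cover_of_chain ?_ (by norm_num [P2C0])
  simp only [ChainP, P2C0, P2C1]
  norm_num

lemma rP2C0 : ∃ N : ℝ, Rw4 P.r2 N (coCell (167117 / 4096 : ℝ) (0 : ℝ) (12 : ℝ) 0 P2C0) := by
  refine ⟨(3221225472 : ℝ), ⟨Q36, List.mem_cons_of_mem _ (List.mem_cons_of_mem _ (List.mem_cons_of_mem _ (List.mem_cons_of_mem _ (List.mem_cons_of_mem _ (List.mem_cons_of_mem _ (List.mem_cons_of_mem _ (List.mem_cons_of_mem _ (List.mem_cons_of_mem _ (List.mem_cons_of_mem _ (List.mem_cons_of_mem _ (List.mem_cons_of_mem _ (List.mem_cons_of_mem _ (List.mem_cons_of_mem _ (List.mem_cons_of_mem _ (List.mem_cons_of_mem _ (List.mem_cons_of_mem _ (List.mem_cons_of_mem _ (List.mem_cons_of_mem _ (List.mem_cons_of_mem _ (List.mem_cons_of_mem _ (List.mem_cons_of_mem _ (List.mem_cons_of_mem _ (List.mem_cons_of_mem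 _ (List.mem_cons_of_mem _ (List.mem_cons_of_mem _ (List.mem_cons_of_mem _ (List.mem_cons_of_mem _ (List.mem_cons_of_mem _ (List.mem_cons_of_mem _ (List.mem_cons_of_mem _ (List.mem_cons_of_mem _ (List.mem_cons_of_mem _ (List.mem_cons_of_mem _ (List.mem_cons_of_mem _ (List.mem_cons_of_mem _ (List.mem_cons_self)))))))))))))))))))))))))))))))))))), ?_⟩, by norm_num⟩
  constructor <;> norm_num [Q36, coCell, P2C0]

lemma lP2C0 : ∀ x1 x2 xc : ℝ, 0 ≤ x1 → x1 ≤ 1 → 0 ≤ x2 → x2 ≤ 1 → P2C0.l ≤ xc → xc ≤ P2C0.u →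
    (167117 / 4096 : ℝ) * (1 - (1 - x1) ^ 3) + (0 : ℝ) * (1 - (1 - x2) ^ 3) - (12 : ℝ) * (1 - (1 - xc) ^ 3) + (1 / 1073741824 : ℝ)
      ≤ - P2C0.a1 * x1 - P2C0.a2 * x2 + P2C0.e * xc + P2C0.f := by
  have h := cell_lines_delta 3 (α1 := (167117 / 4096 : ℝ)) (α2 := (0 : ℝ)) (c := (12 : ℝ)) (y1 := (29933 / 262144 : ℝ)) (y2 := (15025 / 262144 : ℝ))
    (A1 := (402835351 / 4194304 : ℝ)) (B1 := (197891159 / 134217728 : ℝ)) (A2 := (0 : ℝ)) (B2 := (0 : ℝ)) (l := (52429 / 262144 : ℝ)) (u := (62915 / 262144 : ℝ))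
    (E := (-45942585 / 2097152 : ℝ)) (F := (-197914043 / 134217728 : ℝ)) (δ := (1 / 1073741824 : ℝ)) (by norm_num) (by norm_num) (by norm_num) (by norm_num) (by norm_num)
    (by norm_num) (by norm_num) (by norm_num) (by norm_num) (by norm_num) (by norm_num) (by norm_num) (by norm_num) (by norm_num) (by norm_num)
  have e1 : P2C0.l = (52429 / 262144 : ℝ) := rfl
  have e2 : P2C0.u = (62915 / 262144 : ℝ) := rfl
  have e3 : P2C0.a1 = -(402835351 / 4194304 : ℝ) := by norm_num [P2C0]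
  have e4 : P2C0.a2 = -(0 : ℝ) := by norm_num [P2C0]
  have e5 : P2C0.e = (-45942585 / 2097152 : ℝ) := rfl
  have e6 : P2C0.f = (197891159 / 134217728 : ℝ) + (0 : ℝ) + (-197914043 / 134217728 : ℝ) + (1 / 1073741824 : ℝ) := by norm_num [P2C0]
  rw [e1, e2, e3, e4, e5, e6]
  exact h

lemma rP2C1 : ∃ N : ℝ, Rw4 P.r2 N (coCell (167117 / 4096 : ℝ) (0 : ℝ) (12 : ℝ) 0 P2C1) := by
  refine ⟨(3221225472 : ℝ), ⟨Q37, List.mem_cons_of_mem _ (List.mem_cons_of_mem _ (List.mem_cons_of_mem _ (List.mem_cons_of_mem _ (List.mem_cons_of_mem _ (List.mem_cons_of_mem _ (List.mem_cons_of_mem _ (List.mem_cons_of_mem _ (List.mem_cons_of_mem _ (List.mem_cons_of_mem _ (List.mem_cons_of_mem _ (List.mem_cons_of_mem _ (List.mem_cons_of_mem _ (List.mem_cons_of_mem _ (List.mem_cons_of_mem _ (List.mem_cons_of_mem _ (List.mem_cons_of_mem _ (List.mem_cons_of_mem _ (List.mem_cons_of_mem _ (List.mem_cons_of_mem _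 (List.mem_cons_of_mem _ (List.mem_cons_of_mem _ (List.mem_cons_of_mem _ (List.mem_cons_of_mem _ (List.mem_cons_of_mem _ (List.mem_cons_of_mem _ (List.mem_cons_of_mem _ (List.mem_cons_of_mem _ (List.mem_cons_of_mem _ (List.mem_cons_of_mem _ (List.mem_cons_of_mem _ (List.mem_cons_of_mem _ (List.mem_cons_of_mem _ (List.mem_cons_of_mem _ (List.mem_cons_of_mem _ (List.mem_cons_of_mem _ (List.mem_cons_of_mem _ (List.mem_cons_self))))))))))))))))))))))))))))))))))))), ?_⟩, by norm_num⟩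
  constructor <;> norm_num [Q37, coCell, P2C1]

lemma lP2C1 : ∀ x1 x2 xc : ℝ, 0 ≤ x1 → x1 ≤ 1 → 0 ≤ x2 → x2 ≤ 1 → P2C1.l ≤ xc → xc ≤ P2C1.u →
    (167117 / 4096 : ℝ) * (1 - (1 - x1) ^ 3) + (0 : ℝ) * (1 - (1 - x2) ^ 3) - (12 : ℝ) * (1 - (1 - xc) ^ 3) + (1 / 1073741824 : ℝ)
      ≤ - P2C1.a1 * x1 - P2C1.a2 * x2 + P2C1.e * xc + P2C1.f := by
  have h := cell_lines_delta 3 (α1 := (167117 / 4096 : ℝ)) (α2 := (0 : ℝ)) (c := (12 : ℝ)) (y1 := (33969 / 262144 : ℝ)) (y2 := (3665 / 65536 : ℝ))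
    (A1 := (12154809 / 131072 : ℝ)) (B1 := (126011295 / 67108864 : ℝ)) (A2 := (0 : ℝ)) (B2 := (0 : ℝ)) (l := (62915 / 262144 : ℝ)) (u := (69 / 256 : ℝ))
    (E := (-83869491 / 4194304 : ℝ)) (F := (-32434361 / 16777216 : ℝ)) (δ := (1 / 1073741824 : ℝ)) (by norm_num) (by norm_num) (by norm_num) (by norm_num) (by norm_num)
    (by norm_num) (by norm_num) (by norm_num) (by norm_num) (by norm_num) (by norm_num) (by norm_num) (by norm_num) (by norm_num) (by norm_num)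
  have e1 : P2C1.l = (62915 / 262144 : ℝ) := rfl
  have e2 : P2C1.u = (69 / 256 : ℝ) := rfl
  have e3 : P2C1.a1 = -(12154809 / 131072 : ℝ) := by norm_num [P2C1]
  have e4 : P2C1.a2 = -(0 : ℝ) := by norm_num [P2C1]
  have e5 : P2C1.e = (-83869491 / 4194304 : ℝ) := rfl
  have e6 : P2C1.f = (126011295 / 67108864 : ℝ) + (0 : ℝ) + (-32434361 / 16777216 : ℝ) + (1 / 1073741824 : ℝ) := by norm_num [P2C1]
  rw [e1, e2, e3, e4, e5, e6]
  exact h

/-- A link of the chain. -/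
lemma link2 {lam : ℝ} (h0 : -(1 / 2) < lam) (h1 : lam < 1) (hB : BoxS lam P 0 HH 0 HH)
    (h : ∃ n, 1 - En 3 lam n mc ≤ (69 / 256 : ℝ)) : ∃ n, 1 - En 3 lam n mc ≤ (52429 / 262144 : ℝ) :=
  phase_of_box (by norm_num) h0 h1 hB (167117 / 4096 : ℝ) (0 : ℝ) (12 : ℝ) (1 / 1073741824 : ℝ) (52429 / 262144 : ℝ) (69 / 256 : ℝ) (by norm_num) cellsP2 hcoverP2
    (forall_cons lP2C0 (forall_cons lP2C1 (forall_nil))) (forall_cons rP2C0 (forall_cons rP2C1 (forall_nil))) h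

/-- The whole chain. -/
lemma chain {lam : ℝ} (h0 : -(1 / 2) < lam) (h1 : lam < 1) (hB : BoxS lam P 0 HH 0 HH) :
    ∃ n, 1 - En 3 lam n mc ≤ (1 / 64 : ℝ) := (link0 h0 h1 hB (link1 h0 h1 hB (link2 h0 h1 hB (start_of_box h0 h1 hB _ rc3))))

/-- The hypotheses at the origin. -/
lemma horig (lam : ℝ) (hd : (3 : ℝ) * lam ^ 2 = 1) (hb : |lam| ≤ (317401667137 / 549755813888 : ℝ)) :
    OriginH 3 lam (56943 / 65536 : ℝ) (967365 / 65536 : ℝ) (410789 / 32768 : ℝ) (119 / 256 : ℝ) (29 / 2048 : ℝ) (27 / 512 : ℝ) (2177 / 2048 : ℝ) (1 / 256 : ℝ) 3298534883328 := by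
  refine originH_of_num (d := 3) (by push_cast; exact hd) hb (by norm_num) (by norm_num) (by norm_num) (by norm_num)
    (by norm_num) (by norm_num) (by norm_num) (by norm_num) (by norm_num) (by norm_num) (by norm_num [S]) (by norm_num) ?_ ?_
  · rw [hch]
    norm_num [abs_of_pos, abs_of_neg]
  · norm_num [abs_of_pos, abs_of_neg]

/-- Nonreconstruction at the bound. -/
theorem main : Tendsto (reconError 3 3 (1 / Real.sqrt 3)) atTop (𝓝 0) := by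
  have hsq' : Real.sqrt (3 : ℝ) ^ 2 = 3 := by
    rw [Real.sq_sqrt (by positivity)]
  have hs0 : 0 < Real.sqrt (3 : ℝ) := Real.sqrt_pos.2 (by norm_num)
  have hl2 : ((3 : ℝ)) * (1 / Real.sqrt 3) ^ 2 = 1 := by
    have : (1 / Real.sqrt (3 : ℝ)) ^ 2 = 1 / 3 := by
      rw [div_pow, hsq']; norm_num
    rw [this]; norm_num
  have hb : |(1 / Real.sqrt (3 : ℝ))| ≤ (317401667137 / 549755813888 : ℝ) := by
    rw [abs_of_pos (by positivity)]
    rw [div_le_iff₀ hs0]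
    have h1 : (1 : ℝ) ^ 2 ≤ ((317401667137 / 549755813888 : ℝ) * Real.sqrt 3) ^ 2 := by
      rw [mul_pow, hsq']; norm_num
    exact le_of_sq_le_sq h1 (by positivity)
  have hb2 : (-(1 / 2) : ℝ) < 1 / Real.sqrt (3 : ℝ) := by
    have : 0 < 1 / Real.sqrt (3 : ℝ) := by positivity
    linarith
  have h1 : (1 / Real.sqrt (3 : ℝ)) < 1 := by
    have h2 := (abs_le.1 hb).2
    have h3 : ((317401667137 / 549755813888 : ℝ) : ℝ) < 1 := by norm_num
    linarith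
  have hlam : |(S : ℝ) * (1 / Real.sqrt (3 : ℝ)) - ((P.lp : ℝ) - P.ln)| ≤ ((1 : ℕ) : ℝ) := by
    have h := lam_enc_pos 3 41602471314954466 (by norm_num) (by norm_num [S]) (by norm_num [S])
    have e : ((3 : ℕ) : ℝ) = (3 : ℝ) := by norm_num
    rw [e] at h
    exact h
  obtain ⟨hOa, hON⟩ := horig _ hl2 hb
  have hB := box hlam
  refine final_of_boxB (d := 3) (by norm_num) hb2 h1 hB (56943 / 65536 : ℝ) (967365 / 65536 : ℝ) (410789 / 32768 : ℝ) (119 / 256 : ℝ) (27 / 512 : ℝ) (2177 / 2048 : ℝ) (5243 / 1048576 : ℝ) (491 / 16384 : ℝ) (29 / 2048 : ℝ) (1 / 64 : ℝ) cellsL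
    (by norm_num) (by norm_num) (by norm_num) (by norm_num) (by norm_num) (by norm_num) (by norm_num) (by norm_num)
    (by norm_num) (by norm_num) (by norm_num) (by norm_num) (by norm_num) hOa hON rTa rTb rc1 rc2
    (forall_cons rcell0 (forall_cons rcell1 (forall_cons rcell2 (forall_cons rcell3 (forall_cons rcell4 (forall_cons rcell5 (forall_cons rcell6 (forall_cons rcell7 (forall_cons rcell8 (forall_cons rcell9 (forall_cons rcell10 (forall_nil)))))))))))) hcover (forall_cons lcell0 (forall_cons lcell1 (forall_cons lcell2 (forall_cons lcell3 (forall_cons lcell4 (forall_cons lcell5 (forall_cons lcell6 (forall_cons lcell7 (forall_cons lcell8 (forall_cons lcell9 (forall_cons lcell10 (forall_nil)))))))))))) (chain hb2 h1 hB)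

end Vale.Agent.P154H.Tm.P3
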