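import Vale.Agent.P154H.D.DS2
import Vale.Agent.P154H.Phase
import Vale.Agent.P154H.OriginS

open Filter Topology

set_option maxRecDepth 100000

/-!
Nonreconstruction for `d = 2` at a negative eigenvalue below the Kesten-Stigum bound, by a chain of
potentials along the monotone quantity `1 - En`.
-/

namespace Vale.Agent.P154H.Tm.S2

open Vale.Agent.P154 Vale.Agent.P154H

/-- A chord cell. -/
noncomputable def C0 : Cell := ⟨(5243 / 1048576 : ℝ), (3277 / 262144 : ℝ), (-4748593 / 1048576 : ℝ), (-85439039 / 4194304 : ℝ), (-10394227 / 524288 : ℝ), (-4107 / 134217728 : ℝ)⟩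

/-- A chord cell. -/
noncomputable def C1 : Cell := ⟨(3277 / 262144 : ℝ), (1 / 32 : ℝ), (-18823845 / 4194304 : ℝ), (-42243835 / 2097152 : ℝ), (-82052793 / 4194304 : ℝ), (-8147 / 268435456 : ℝ)⟩

/-- The chord cells. -/
noncomputable def cellsL : List Cell := [C0, C1]

lemma hcover : ∀ x : ℝ, (5243 / 1048576 : ℝ) ≤ x → x ≤ (1 / 32 : ℝ) → ∃ D ∈ cellsL, D.l ≤ x ∧ x ≤ D.u := by
  refine cover_of_chain ?_ (by norm_num [C0])
  simp only [ChainP, C0, C1]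
  norm_num

lemma hch : ((Nat.choose 2 2 : ℕ) : ℝ) = 1 := by norm_num [Nat.choose]

lemma rTa : Rw4 P.r1 (1179648 : ℝ) (coTa 2 (2331 / 1024 : ℝ) (672327 / 65536 : ℝ) (317191 / 32768 : ℝ) (41 / 128 : ℝ) (1 / 64 : ℝ)) := by
  refine ⟨⟨Ra, List.mem_cons_self, ?_⟩, by norm_num⟩
  constructor <;> norm_num [Ra, coTa, hch]

lemma rTb : Rw4 P.r1 (9895604649984 : ℝ) (coTb 2 (2331 / 1024 : ℝ) (672327 / 65536 : ℝ) (317191 / 32768 : ℝ) (41 / 128 : ℝ) (1 / 64 : ℝ) (731 / 4096 : ℝ) (3919 / 4096 : ℝ) (41 / 4096 : ℝ)) := by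
  refine ⟨⟨Rb, List.mem_cons_of_mem _ (List.mem_cons_self), ?_⟩, by norm_num⟩
  constructor <;> norm_num [Rb, coTb, hch]

lemma rc1 : Rw4 P.r2 (134217728 : ℝ) ⟨0, 0, 0, -(2331 / 1024 : ℝ), 0, 0, 0, 0, (317191 / 32768 : ℝ) * (731 / 4096 : ℝ)⟩ := by
  refine ⟨⟨Q0, List.mem_cons_self, ?_⟩, by norm_num⟩
  constructor <;> norm_num [Q0]

lemma rc2 : Rw4 P.r2 (134217728 : ℝ) ⟨0, 0, 0, 0, -(672327 / 65536 : ℝ), 0, 0, 0, (317191 / 32768 : ℝ) * (3919 / 4096 : ℝ)⟩ := by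
  refine ⟨⟨Q1, List.mem_cons_of_mem _ (List.mem_cons_self), ?_⟩, by norm_num⟩
  constructor <;> norm_num [Q1]

lemma rc3 : Rw4 P.r2 (3072 : ℝ) ⟨0, 0, 0, 0, 0, -1, 0, 0, (649 / 1024 : ℝ)⟩ := by
  refine ⟨⟨Q2, List.mem_cons_of_mem _ (List.mem_cons_of_mem _ (List.mem_cons_self)), ?_⟩, by norm_num⟩
  constructor <;> norm_num [Q2]

lemma rcell0 : ∃ N : ℝ, Rw4 P.r2 N (coCell (2331 / 1024 : ℝ) (672327 / 65536 : ℝ) ((317191 / 32768 : ℝ) + (41 / 128 : ℝ)) (1 / 64 : ℝ) C0) := by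
  refine ⟨(1207959552 : ℝ), ⟨Q3, List.mem_cons_of_mem _ (List.mem_cons_of_mem _ (List.mem_cons_of_mem _ (List.mem_cons_self))), ?_⟩, by norm_num⟩
  constructor <;> norm_num [Q3, coCell, C0]

lemma lcell0 : ∀ x1 x2 xc : ℝ, 0 ≤ x1 → x1 ≤ 1 → 0 ≤ x2 → x2 ≤ 1 → C0.l ≤ xc → xc ≤ C0.u →
    (2331 / 1024 : ℝ) * (1 - (1 - x1) ^ 2) + (672327 / 65536 : ℝ) * (1 - (1 - x2) ^ 2) - ((317191 / 32768 : ℝ) + (41 / 128 : ℝ)) * (1 - (1 - xc) ^ 2)
      ≤ - C0.a1 * x1 - C0.a2 * x2 + C0.e * xc + C0.f := by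
  have h := cell_lines 2 (α1 := (2331 / 1024 : ℝ)) (α2 := (672327 / 65536 : ℝ)) (c := (317191 / 32768 : ℝ) + (41 / 128 : ℝ)) (y1 := (1389 / 262144 : ℝ)) (y2 := (1885 / 262144 : ℝ))
    (A1 := (4748593 / 1048576 : ℝ)) (B1 := (8579 / 134217728 : ℝ)) (A2 := (85439039 / 4194304 : ℝ)) (B2 := (142417 / 268435456 : ℝ)) (l := (5243 / 1048576 : ℝ)) (u := (3277 / 262144 : ℝ))
    (E := (-10394227 / 524288 : ℝ)) (F := (-167789 / 268435456 : ℝ)) (by norm_num) (by norm_num) (by norm_num) (by norm_num) (by norm_num)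
    (by norm_num) (by norm_num) (by norm_num) (by norm_num) (by norm_num) (by norm_num) (by norm_num) (by norm_num) (by norm_num) (by norm_num)
  have e1 : C0.l = (5243 / 1048576 : ℝ) := rfl
  have e2 : C0.u = (3277 / 262144 : ℝ) := rfl
  have e3 : C0.a1 = -(4748593 / 1048576 : ℝ) := by norm_num [C0]
  have e4 : C0.a2 = -(85439039 / 4194304 : ℝ) := by norm_num [C0]
  have e5 : C0.e = (-10394227 / 524288 : ℝ) := rfl
  have e6 : C0.f = (8579 / 134217728 : ℝ) + (142417 / 268435456 : ℝ) + (-167789 / 268435456 : ℝ) := by norm_num [C0]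
  rw [e1, e2, e3, e4, e5, e6]
  exact h

lemma rcell1 : ∃ N : ℝ, Rw4 P.r2 N (coCell (2331 / 1024 : ℝ) (672327 / 65536 : ℝ) ((317191 / 32768 : ℝ) + (41 / 128 : ℝ)) (1 / 64 : ℝ) C1) := by
  refine ⟨(2415919104 : ℝ), ⟨Q4, List.mem_cons_of_mem _ (List.mem_cons_of_mem _ (List.mem_cons_of_mem _ (List.mem_cons_of_mem _ (List.mem_cons_self)))), ?_⟩, by norm_num⟩
  constructor <;> norm_num [Q4, coCell, C1]

lemma lcell1 : ∀ x1 x2 xc : ℝ, 0 ≤ x1 → x1 ≤ 1 → 0 ≤ x2 → x2 ≤ 1 → C1.l ≤ xc → xc ≤ C1.u →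
    (2331 / 1024 : ℝ) * (1 - (1 - x1) ^ 2) + (672327 / 65536 : ℝ) * (1 - (1 - x2) ^ 2) - ((317191 / 32768 : ℝ) + (41 / 128 : ℝ)) * (1 - (1 - xc) ^ 2)
      ≤ - C1.a1 * x1 - C1.a2 * x2 + C1.e * xc + C1.f := by
  have h := cell_lines 2 (α1 := (2331 / 1024 : ℝ)) (α2 := (672327 / 65536 : ℝ)) (c := (317191 / 32768 : ℝ) + (41 / 128 : ℝ)) (y1 := (1865 / 131072 : ℝ)) (y2 := (4783 / 262144 : ℝ))
    (A1 := (18823845 / 4194304 : ℝ)) (B1 := (123715 / 268435456 : ℝ)) (A2 := (42243835 / 2097152 : ℝ)) (B2 := (14325 / 4194304 : ℝ)) (l := (3277 / 262144 : ℝ)) (u := (1 / 32 : ℝ))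
    (E := (-82052793 / 4194304 : ℝ)) (F := (-524331 / 134217728 : ℝ)) (by norm_num) (by norm_num) (by norm_num) (by norm_num) (by norm_num)
    (by norm_num) (by norm_num) (by norm_num) (by norm_num) (by norm_num) (by norm_num) (by norm_num) (by norm_num) (by norm_num) (by norm_num)
  have e1 : C1.l = (3277 / 262144 : ℝ) := rfl
  have e2 : C1.u = (1 / 32 : ℝ) := rfl
  have e3 : C1.a1 = -(18823845 / 4194304 : ℝ) := by norm_num [C1]
  have e4 : C1.a2 = -(42243835 / 2097152 : ℝ) := by norm_num [C1]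
  have e5 : C1.e = (-82052793 / 4194304 : ℝ) := rfl
  have e6 : C1.f = (123715 / 268435456 : ℝ) + (14325 / 4194304 : ℝ) + (-524331 / 134217728 : ℝ) := by norm_num [C1]
  rw [e1, e2, e3, e4, e5, e6]
  exact h

/-- A chord cell of a link. -/
noncomputable def P0C0 : Cell := ⟨(1 / 32 : ℝ), (521 / 16384 : ℝ), (-84143083 / 1048576 : ℝ), (0 : ℝ), (-95205 / 4096 : ℝ), (-724239 / 1073741824 : ℝ)⟩

/-- A chord cell of a link. -/
noncomputable def P0C1 : Cell := ⟨(521 / 16384 : ℝ), (2209 / 65536 : ℝ), (-84056587 / 1048576 : ℝ), (0 : ℝ), (-380337 / 16384 : ℝ), (-215371 / 1073741824 : ℝ)⟩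

/-- A chord cell of a link. -/
noncomputable def P0C2 : Cell := ⟨(2209 / 65536 : ℝ), (9367 / 262144 : ℝ), (-41982271 / 524288 : ℝ), (0 : ℝ), (-1518255 / 65536 : ℝ), (-212291 / 1073741824 : ℝ)⟩

/-- A chord cell of a link. -/
noncomputable def P0C3 : Cell := ⟨(9367 / 262144 : ℝ), (9929 / 262144 : ℝ), (-335469099 / 4194304 : ℝ), (0 : ℝ), (-47343 / 2048 : ℝ), (-213639 / 1073741824 : ℝ)⟩

/-- A chord cell of a link. -/
noncomputable def P0C4 : Cell := ⟨(9929 / 262144 : ℝ), (2631 / 65536 : ℝ), (-335057835 / 4194304 : ℝ), (0 : ℝ), (-1511505 / 65536 : ℝ), (-216723 / 1073741824 : ℝ)⟩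

/-- A chord cell of a link. -/
noncomputable def P0C5 : Cell := ⟨(2631 / 65536 : ℝ), (2789 / 65536 : ℝ), (-167310229 / 2097152 : ℝ), (0 : ℝ), (-94239 / 4096 : ℝ), (-211603 / 1073741824 : ℝ)⟩

/-- A chord cell of a link. -/
noncomputable def P0C6 : Cell := ⟨(2789 / 65536 : ℝ), (11825 / 262144 : ℝ), (-334158275 / 4194304 : ℝ), (0 : ℝ), (-1503921 / 65536 : ℝ), (-213567 / 1073741824 : ℝ)⟩

/-- A chord cell of a link. -/
noncomputable def P0C7 : Cell := ⟨(11825 / 262144 : ℝ), (12535 / 262144 : ℝ), (-333668675 / 4194304 : ℝ), (0 : ℝ), (-187473 / 8192 : ℝ), (-216115 / 1073741824 : ℝ)⟩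

/-- A chord cell of a link. -/
noncomputable def P0C8 : Cell := ⟨(12535 / 262144 : ℝ), (13287 / 262144 : ℝ), (-333149045 / 4194304 : ℝ), (0 : ℝ), (-747699 / 32768 : ℝ), (-213759 / 1073741824 : ℝ)⟩

/-- A chord cell of a link. -/
noncomputable def P0C9 : Cell := ⟨(13287 / 262144 : ℝ), (3521 / 65536 : ℝ), (-332599387 / 4194304 : ℝ), (0 : ℝ), (-1490751 / 65536 : ℝ), (-215831 / 1073741824 : ℝ)⟩

/-- A chord cell of a link. -/
noncomputable def P0C10 : Cell := ⟨(3521 / 65536 : ℝ), (14929 / 262144 : ℝ), (-332017089 / 4194304 : ℝ), (0 : ℝ), (-1485825 / 65536 : ℝ), (-219391 / 1073741824 : ℝ)⟩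

/-- A chord cell of a link. -/
noncomputable def P0C11 : Cell := ⟨(14929 / 262144 : ℝ), (15825 / 262144 : ℝ), (-331399539 / 4194304 : ℝ), (0 : ℝ), (-740301 / 32768 : ℝ), (-220827 / 1073741824 : ℝ)⟩

/-- A chord cell of a link. -/
noncomputable def P0C12 : Cell := ⟨(15825 / 262144 : ℝ), (8387 / 131072 : ℝ), (-330744127 / 4194304 : ℝ), (0 : ℝ), (-1475067 / 65536 : ℝ), (-212607 / 1073741824 : ℝ)⟩

/-- A chord cell of a link. -/
noncomputable def P0C13 : Cell := ⟨(8387 / 131072 : ℝ), (4445 / 65536 : ℝ), (-330050853 / 4194304 : ℝ), (0 : ℝ), (-734601 / 32768 : ℝ), (-212247 / 1073741824 : ℝ)⟩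

/-- A chord cell of a link. -/
noncomputable def P0C14 : Cell := ⟨(4445 / 65536 : ℝ), (9175 / 131072 : ℝ), (-164744069 / 2097152 : ℝ), (0 : ℝ), (-732237 / 32768 : ℝ), (-210767 / 1073741824 : ℝ)⟩

/-- The chord cells of a link. -/
noncomputable def cellsP0 : List Cell := [P0C0, P0C1, P0C2, P0C3, P0C4, P0C5, P0C6, P0C7, P0C8, P0C9, P0C10, P0C11, P0C12, P0C13, P0C14]

lemma hcoverP0 : ∀ x : ℝ, (1 / 32 : ℝ) ≤ x → x ≤ (9175 / 131072 : ℝ) → ∃ D ∈ cellsP0, D.l ≤ x ∧ x ≤ D.u := by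
  refine cover_of_chain ?_ (by norm_num [P0C0])
  simp only [ChainP, P0C0, P0C1, P0C2, P0C3, P0C4, P0C5, P0C6, P0C7, P0C8, P0C9, P0C10, P0C11, P0C12, P0C13, P0C14]
  norm_num

lemma rP0C0 : ∃ N : ℝ, Rw4 P.r2 N (coCell (167117 / 4096 : ℝ) (0 : ℝ) (12 : ℝ) 0 P0C0) := by
  refine ⟨(3221225472 : ℝ), ⟨Q5, List.mem_cons_of_mem _ (List.mem_cons_of_mem _ (List.mem_cons_of_mem _ (List.mem_cons_of_mem _ (List.mem_cons_of_mem _ (List.mem_cons_self))))), ?_⟩, by norm_num⟩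
  constructor <;> norm_num [Q5, coCell, P0C0]

lemma lP0C0 : ∀ x1 x2 xc : ℝ, 0 ≤ x1 → x1 ≤ 1 → 0 ≤ x2 → x2 ≤ 1 → P0C0.l ≤ xc → xc ≤ P0C0.u →
    (167117 / 4096 : ℝ) * (1 - (1 - x1) ^ 2) + (0 : ℝ) * (1 - (1 - x2) ^ 2) - (12 : ℝ) * (1 - (1 - xc) ^ 2) + (1 / 1073741824 : ℝ)
      ≤ - P0C0.a1 * x1 - P0C0.a2 * x2 + P0C0.e * xc + P0C0.f := by
  have h := cell_lines_delta 2 (α1 := (167117 / 4096 : ℝ)) (α2 := (0 : ℝ)) (c := (12 : ℝ)) (y1 := (4353 / 262144 : ℝ)) (y2 := (881 / 131072 : ℝ))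
    (A1 := (84143083 / 1048576 : ℝ)) (B1 := (754991 / 67108864 : ℝ)) (A2 := (0 : ℝ)) (B2 := (0 : ℝ)) (l := (1 / 32 : ℝ)) (u := (521 / 16384 : ℝ))
    (E := (-95205 / 4096 : ℝ)) (F := (-1563 / 131072 : ℝ)) (δ := (1 / 1073741824 : ℝ)) (by norm_num) (by norm_num) (by norm_num) (by norm_num) (by norm_num)
    (by norm_num) (by norm_num) (by norm_num) (by norm_num) (by norm_num) (by norm_num) (by norm_num) (by norm_num) (by norm_num) (by norm_num)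
  have e1 : P0C0.l = (1 / 32 : ℝ) := rfl
  have e2 : P0C0.u = (521 / 16384 : ℝ) := rfl
  have e3 : P0C0.a1 = -(84143083 / 1048576 : ℝ) := by norm_num [P0C0]
  have e4 : P0C0.a2 = -(0 : ℝ) := by norm_num [P0C0]
  have e5 : P0C0.e = (-95205 / 4096 : ℝ) := rfl
  have e6 : P0C0.f = (754991 / 67108864 : ℝ) + (0 : ℝ) + (-1563 / 131072 : ℝ) + (1 / 1073741824 : ℝ) := by norm_num [P0C0]
  rw [e1, e2, e3, e4, e5, e6]
  exact h

lemma rP0C1 : ∃ N : ℝ, Rw4 P.r2 N (coCell (167117 / 4096 : ℝ) (0 : ℝ) (12 : ℝ) 0 P0C1) := by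
  refine ⟨(3221225472 : ℝ), ⟨Q6, List.mem_cons_of_mem _ (List.mem_cons_of_mem _ (List.mem_cons_of_mem _ (List.mem_cons_of_mem _ (List.mem_cons_of_mem _ (List.mem_cons_of_mem _ (List.mem_cons_self)))))), ?_⟩, by norm_num⟩
  constructor <;> norm_num [Q6, coCell, P0C1]

lemma lP0C1 : ∀ x1 x2 xc : ℝ, 0 ≤ x1 → x1 ≤ 1 → 0 ≤ x2 → x2 ≤ 1 → P0C1.l ≤ xc → xc ≤ P0C1.u →
    (167117 / 4096 : ℝ) * (1 - (1 - x1) ^ 2) + (0 : ℝ) * (1 - (1 - x2) ^ 2) - (12 : ℝ) * (1 - (1 - xc) ^ 2) + (1 / 1073741824 : ℝ)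
      ≤ - P0C1.a1 * x1 - P0C1.a2 * x2 + P0C1.e * xc + P0C1.f := by
  have h := cell_lines_delta 2 (α1 := (167117 / 4096 : ℝ)) (α2 := (0 : ℝ)) (c := (12 : ℝ)) (y1 := (2309 / 131072 : ℝ)) (y2 := (1863 / 262144 : ℝ))
    (A1 := (84056587 / 1048576 : ℝ)) (B1 := (424853 / 33554432 : ℝ)) (A2 := (0 : ℝ)) (B2 := (0 : ℝ)) (l := (521 / 16384 : ℝ)) (u := (2209 / 65536 : ℝ))
    (E := (-380337 / 16384 : ℝ)) (F := (-3452667 / 268435456 : ℝ)) (δ := (1 / 1073741824 : ℝ)) (by norm_num) (by norm_num) (by norm_num) (by norm_num) (by norm_num)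
    (by norm_num) (by norm_num) (by norm_num) (by norm_num) (by norm_num) (by norm_num) (by norm_num) (by norm_num) (by norm_num) (by norm_num)
  have e1 : P0C1.l = (521 / 16384 : ℝ) := rfl
  have e2 : P0C1.u = (2209 / 65536 : ℝ) := rfl
  have e3 : P0C1.a1 = -(84056587 / 1048576 : ℝ) := by norm_num [P0C1]
  have e4 : P0C1.a2 = -(0 : ℝ) := by norm_num [P0C1]
  have e5 : P0C1.e = (-380337 / 16384 : ℝ) := rfl
  have e6 : P0C1.f = (424853 / 33554432 : ℝ) + (0 : ℝ) + (-3452667 / 268435456 : ℝ) + (1 / 1073741824 : ℝ) := by norm_num [P0C1]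
  rw [e1, e2, e3, e4, e5, e6]
  exact h

lemma rP0C2 : ∃ N : ℝ, Rw4 P.r2 N (coCell (167117 / 4096 : ℝ) (0 : ℝ) (12 : ℝ) 0 P0C2) := by
  refine ⟨(3221225472 : ℝ), ⟨Q7, List.mem_cons_of_mem _ (List.mem_cons_of_mem _ (List.mem_cons_of_mem _ (List.mem_cons_of_mem _ (List.mem_cons_of_mem _ (List.mem_cons_of_mem _ (List.mem_cons_of_mem _ (List.mem_cons_self))))))), ?_⟩, by norm_num⟩
  constructor <;> norm_num [Q7, coCell, P0C2]

lemma lP0C2 : ∀ x1 x2 xc : ℝ, 0 ≤ x1 → x1 ≤ 1 → 0 ≤ x2 → x2 ≤ 1 → P0C2.l ≤ xc → xc ≤ P0C2.u →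
    (167117 / 4096 : ℝ) * (1 - (1 - x1) ^ 2) + (0 : ℝ) * (1 - (1 - x2) ^ 2) - (12 : ℝ) * (1 - (1 - xc) ^ 2) + (1 / 1073741824 : ℝ)
      ≤ - P0C2.a1 * x1 - P0C2.a2 * x2 + P0C2.e * xc + P0C2.f := by
  have h := cell_lines_delta 2 (α1 := (167117 / 4096 : ℝ)) (α2 := (0 : ℝ)) (c := (12 : ℝ)) (y1 := (1225 / 65536 : ℝ)) (y2 := (1971 / 262144 : ℝ))
    (A1 := (41982271 / 524288 : ℝ)) (B1 := (3826621 / 268435456 : ℝ)) (A2 := (0 : ℝ)) (B2 := (0 : ℝ)) (l := (2209 / 65536 : ℝ)) (u := (9367 / 262144 : ℝ))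
    (E := (-1518255 / 65536 : ℝ)) (F := (-1939847 / 134217728 : ℝ)) (δ := (1 / 1073741824 : ℝ)) (by norm_num) (by norm_num) (by norm_num) (by norm_num) (by norm_num)
    (by norm_num) (by norm_num) (by norm_num) (by norm_num) (by norm_num) (by norm_num) (by norm_num) (by norm_num) (by norm_num) (by norm_num)
  have e1 : P0C2.l = (2209 / 65536 : ℝ) := rfl
  have e2 : P0C2.u = (9367 / 262144 : ℝ) := rfl
  have e3 : P0C2.a1 = -(41982271 / 524288 : ℝ) := by norm_num [P0C2]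
  have e4 : P0C2.a2 = -(0 : ℝ) := by norm_num [P0C2]
  have e5 : P0C2.e = (-1518255 / 65536 : ℝ) := rfl
  have e6 : P0C2.f = (3826621 / 268435456 : ℝ) + (0 : ℝ) + (-1939847 / 134217728 : ℝ) + (1 / 1073741824 : ℝ) := by norm_num [P0C2]
  rw [e1, e2, e3, e4, e5, e6]
  exact h

lemma rP0C3 : ∃ N : ℝ, Rw4 P.r2 N (coCell (167117 / 4096 : ℝ) (0 : ℝ) (12 : ℝ) 0 P0C3) := by
  refine ⟨(3221225472 : ℝ), ⟨Q8, List.mem_cons_of_mem _ (List.mem_cons_of_mem _ (List.mem_cons_of_mem _ (List.mem_cons_of_mem _ (List.mem_cons_of_mem _ (List.mem_cons_of_mem _ (List.mem_cons_of_mem _ (List.mem_cons_of_mem _ (List.mem_cons_self)))))))), ?_⟩, by norm_num⟩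
  constructor <;> norm_num [Q8, coCell, P0C3]

lemma lP0C3 : ∀ x1 x2 xc : ℝ, 0 ≤ x1 → x1 ≤ 1 → 0 ≤ x2 → x2 ≤ 1 → P0C3.l ≤ xc → xc ≤ P0C3.u →
    (167117 / 4096 : ℝ) * (1 - (1 - x1) ^ 2) + (0 : ℝ) * (1 - (1 - x2) ^ 2) - (12 : ℝ) * (1 - (1 - xc) ^ 2) + (1 / 1073741824 : ℝ)
      ≤ - P0C3.a1 * x1 - P0C3.a2 * x2 + P0C3.e * xc + P0C3.f := by
  have h := cell_lines_delta 2 (α1 := (167117 / 4096 : ℝ)) (α2 := (0 : ℝ)) (c := (12 : ℝ)) (y1 := (2599 / 131072 : ℝ)) (y2 := (2085 / 262144 : ℝ))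
    (A1 := (335469099 / 4194304 : ℝ)) (B1 := (1076549 / 67108864 : ℝ)) (A2 := (0 : ℝ)) (B2 := (0 : ℝ)) (l := (9367 / 262144 : ℝ)) (u := (9929 / 262144 : ℝ))
    (E := (-47343 / 2048 : ℝ)) (F := (-2179803 / 134217728 : ℝ)) (δ := (1 / 1073741824 : ℝ)) (by norm_num) (by norm_num) (by norm_num) (by norm_num) (by norm_num)
    (by norm_num) (by norm_num) (by norm_num) (by norm_num) (by norm_num) (by norm_num) (by norm_num) (by norm_num) (by norm_num) (by norm_num)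
  have e1 : P0C3.l = (9367 / 262144 : ℝ) := rfl
  have e2 : P0C3.u = (9929 / 262144 : ℝ) := rfl
  have e3 : P0C3.a1 = -(335469099 / 4194304 : ℝ) := by norm_num [P0C3]
  have e4 : P0C3.a2 = -(0 : ℝ) := by norm_num [P0C3]
  have e5 : P0C3.e = (-47343 / 2048 : ℝ) := rfl
  have e6 : P0C3.f = (1076549 / 67108864 : ℝ) + (0 : ℝ) + (-2179803 / 134217728 : ℝ) + (1 / 1073741824 : ℝ) := by norm_num [P0C3]
  rw [e1, e2, e3, e4, e5, e6]
  exact h

lemma rP0C4 : ∃ N : ℝ, Rw4 P.r2 N (coCell (167117 / 4096 : ℝ) (0 : ℝ) (12 : ℝ) 0 P0C4) := by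
  refine ⟨(3221225472 : ℝ), ⟨Q9, List.mem_cons_of_mem _ (List.mem_cons_of_mem _ (List.mem_cons_of_mem _ (List.mem_cons_of_mem _ (List.mem_cons_of_mem _ (List.mem_cons_of_mem _ (List.mem_cons_of_mem _ (List.mem_cons_of_mem _ (List.mem_cons_of_mem _ (List.mem_cons_self))))))))), ?_⟩, by norm_num⟩
  constructor <;> norm_num [Q9, coCell, P0C4]

lemma lP0C4 : ∀ x1 x2 xc : ℝ, 0 ≤ x1 → x1 ≤ 1 → 0 ≤ x2 → x2 ≤ 1 → P0C4.l ≤ xc → xc ≤ P0C4.u →
    (167117 / 4096 : ℝ) * (1 - (1 - x1) ^ 2) + (0 : ℝ) * (1 - (1 - x2) ^ 2) - (12 : ℝ) * (1 - (1 - xc) ^ 2) + (1 / 1073741824 : ℝ)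
      ≤ - P0C4.a1 * x1 - P0C4.a2 * x2 + P0C4.e * xc + P0C4.f := by
  have h := cell_lines_delta 2 (α1 := (167117 / 4096 : ℝ)) (α2 := (0 : ℝ)) (c := (12 : ℝ)) (y1 := (5513 / 262144 : ℝ)) (y2 := (1103 / 131072 : ℝ))
    (A1 := (335057835 / 4194304 : ℝ)) (B1 := (2421959 / 134217728 : ℝ)) (A2 := (0 : ℝ)) (B2 := (0 : ℝ)) (l := (9929 / 262144 : ℝ)) (u := (2631 / 65536 : ℝ))
    (E := (-1511505 / 65536 : ℝ)) (F := (-4898099 / 268435456 : ℝ)) (δ := (1 / 1073741824 : ℝ)) (by norm_num) (by norm_num) (by norm_num) (by norm_num) (by norm_num)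
    (by norm_num) (by norm_num) (by norm_num) (by norm_num) (by norm_num) (by norm_num) (by norm_num) (by norm_num) (by norm_num) (by norm_num)
  have e1 : P0C4.l = (9929 / 262144 : ℝ) := rfl
  have e2 : P0C4.u = (2631 / 65536 : ℝ) := rfl
  have e3 : P0C4.a1 = -(335057835 / 4194304 : ℝ) := by norm_num [P0C4]
  have e4 : P0C4.a2 = -(0 : ℝ) := by norm_num [P0C4]
  have e5 : P0C4.e = (-1511505 / 65536 : ℝ) := rfl
  have e6 : P0C4.f = (2421959 / 134217728 : ℝ) + (0 : ℝ) + (-4898099 / 268435456 : ℝ) + (1 / 1073741824 : ℝ) := by norm_num [P0C4]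
  rw [e1, e2, e3, e4, e5, e6]
  exact h

lemma rP0C5 : ∃ N : ℝ, Rw4 P.r2 N (coCell (167117 / 4096 : ℝ) (0 : ℝ) (12 : ℝ) 0 P0C5) := by
  refine ⟨(3221225472 : ℝ), ⟨Q10, List.mem_cons_of_mem _ (List.mem_cons_of_mem _ (List.mem_cons_of_mem _ (List.mem_cons_of_mem _ (List.mem_cons_of_mem _ (List.mem_cons_of_mem _ (List.mem_cons_of_mem _ (List.mem_cons_of_mem _ (List.mem_cons_of_mem _ (List.mem_cons_of_mem _ (List.mem_cons_self)))))))))), ?_⟩, by norm_num⟩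
  constructor <;> norm_num [Q10, coCell, P0C5]

lemma lP0C5 : ∀ x1 x2 xc : ℝ, 0 ≤ x1 → x1 ≤ 1 → 0 ≤ x2 → x2 ≤ 1 → P0C5.l ≤ xc → xc ≤ P0C5.u →
    (167117 / 4096 : ℝ) * (1 - (1 - x1) ^ 2) + (0 : ℝ) * (1 - (1 - x2) ^ 2) - (12 : ℝ) * (1 - (1 - xc) ^ 2) + (1 / 1073741824 : ℝ)
      ≤ - P0C5.a1 * x1 - P0C5.a2 * x2 + P0C5.e * xc + P0C5.f := by
  have h := cell_lines_delta 2 (α1 := (167117 / 4096 : ℝ)) (α2 := (0 : ℝ)) (c := (12 : ℝ)) (y1 := (731 / 32768 : ℝ)) (y2 := (2335 / 262144 : ℝ))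
    (A1 := (167310229 / 2097152 : ℝ)) (B1 := (5450493 / 268435456 : ℝ)) (A2 := (0 : ℝ)) (B2 := (0 : ℝ)) (l := (2631 / 65536 : ℝ)) (u := (2789 / 65536 : ℝ))
    (E := (-94239 / 4096 : ℝ)) (F := (-2751697 / 134217728 : ℝ)) (δ := (1 / 1073741824 : ℝ)) (by norm_num) (by norm_num) (by norm_num) (by norm_num) (by norm_num)
    (by norm_num) (by norm_num) (by norm_num) (by norm_num) (by norm_num) (by norm_num) (by norm_num) (by norm_num) (by norm_num) (by norm_num)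
  have e1 : P0C5.l = (2631 / 65536 : ℝ) := rfl
  have e2 : P0C5.u = (2789 / 65536 : ℝ) := rfl
  have e3 : P0C5.a1 = -(167310229 / 2097152 : ℝ) := by norm_num [P0C5]
  have e4 : P0C5.a2 = -(0 : ℝ) := by norm_num [P0C5]
  have e5 : P0C5.e = (-94239 / 4096 : ℝ) := rfl
  have e6 : P0C5.f = (5450493 / 268435456 : ℝ) + (0 : ℝ) + (-2751697 / 134217728 : ℝ) + (1 / 1073741824 : ℝ) := by norm_num [P0C5]
  rw [e1, e2, e3, e4, e5, e6]
  exact h

lemma rP0C6 : ∃ N : ℝ, Rw4 P.r2 N (coCell (167117 / 4096 : ℝ) (0 : ℝ) (12 : ℝ) 0 P0C6) := by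
  refine ⟨(3221225472 : ℝ), ⟨Q11, List.mem_cons_of_mem _ (List.mem_cons_of_mem _ (List.mem_cons_of_mem _ (List.mem_cons_of_mem _ (List.mem_cons_of_mem _ (List.mem_cons_of_mem _ (List.mem_cons_of_mem _ (List.mem_cons_of_mem _ (List.mem_cons_of_mem _ (List.mem_cons_of_mem _ (List.mem_cons_of_mem _ (List.mem_cons_self))))))))))), ?_⟩, by norm_num⟩
  constructor <;> norm_num [Q11, coCell, P0C6]

lemma lP0C6 : ∀ x1 x2 xc : ℝ, 0 ≤ x1 → x1 ≤ 1 → 0 ≤ x2 → x2 ≤ 1 → P0C6.l ≤ xc → xc ≤ P0C6.u →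
    (167117 / 4096 : ℝ) * (1 - (1 - x1) ^ 2) + (0 : ℝ) * (1 - (1 - x2) ^ 2) - (12 : ℝ) * (1 - (1 - xc) ^ 2) + (1 / 1073741824 : ℝ)
      ≤ - P0C6.a1 * x1 - P0C6.a2 * x2 + P0C6.e * xc + P0C6.f := by
  have h := cell_lines_delta 2 (α1 := (167117 / 4096 : ℝ)) (α2 := (0 : ℝ)) (c := (12 : ℝ)) (y1 := (3101 / 131072 : ℝ)) (y2 := (309 / 32768 : ℝ))
    (A1 := (334158275 / 4194304 : ℝ)) (B1 := (6130343 / 268435456 : ℝ)) (A2 := (0 : ℝ)) (B2 := (0 : ℝ)) (l := (2789 / 65536 : ℝ)) (u := (11825 / 262144 : ℝ))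
    (E := (-1503921 / 65536 : ℝ)) (F := (-6183735 / 268435456 : ℝ)) (δ := (1 / 1073741824 : ℝ)) (by norm_num) (by norm_num) (by norm_num) (by norm_num) (by norm_num)
    (by norm_num) (by norm_num) (by norm_num) (by norm_num) (by norm_num) (by norm_num) (by norm_num) (by norm_num) (by norm_num) (by norm_num)
  have e1 : P0C6.l = (2789 / 65536 : ℝ) := rfl
  have e2 : P0C6.u = (11825 / 262144 : ℝ) := rfl
  have e3 : P0C6.a1 = -(334158275 / 4194304 : ℝ) := by norm_num [P0C6]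
  have e4 : P0C6.a2 = -(0 : ℝ) := by norm_num [P0C6]
  have e5 : P0C6.e = (-1503921 / 65536 : ℝ) := rfl
  have e6 : P0C6.f = (6130343 / 268435456 : ℝ) + (0 : ℝ) + (-6183735 / 268435456 : ℝ) + (1 / 1073741824 : ℝ) := by norm_num [P0C6]
  rw [e1, e2, e3, e4, e5, e6]
  exact h

lemma rP0C7 : ∃ N : ℝ, Rw4 P.r2 N (coCell (167117 / 4096 : ℝ) (0 : ℝ) (12 : ℝ) 0 P0C7) := by
  refine ⟨(3221225472 : ℝ), ⟨Q12, List.mem_cons_of_mem _ (List.mem_cons_of_mem _ (List.mem_cons_of_mem _ (List.mem_cons_of_mem _ (List.mem_cons_of_mem _ (List.mem_cons_of_mem _ (List.mem_cons_of_mem _ (List.mem_cons_of_mem _ (List.mem_cons_of_mem _ (List.mem_cons_of_mem _ (List.mem_cons_of_mem _ (List.mem_cons_of_mem _ (List.mem_cons_self)))))))))))), ?_⟩, by norm_num⟩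
  constructor <;> norm_num [Q12, coCell, P0C7]

lemma lP0C7 : ∀ x1 x2 xc : ℝ, 0 ≤ x1 → x1 ≤ 1 → 0 ≤ x2 → x2 ≤ 1 → P0C7.l ≤ xc → xc ≤ P0C7.u →
    (167117 / 4096 : ℝ) * (1 - (1 - x1) ^ 2) + (0 : ℝ) * (1 - (1 - x2) ^ 2) - (12 : ℝ) * (1 - (1 - xc) ^ 2) + (1 / 1073741824 : ℝ)
      ≤ - P0C7.a1 * x1 - P0C7.a2 * x2 + P0C7.e * xc + P0C7.f := by
  have h := cell_lines_delta 2 (α1 := (167117 / 4096 : ℝ)) (α2 := (0 : ℝ)) (c := (12 : ℝ)) (y1 := (6577 / 262144 : ℝ)) (y2 := (2617 / 262144 : ℝ))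
    (A1 := (333668675 / 4194304 : ℝ)) (B1 := (3447041 / 134217728 : ℝ)) (A2 := (0 : ℝ)) (B2 := (0 : ℝ)) (l := (11825 / 262144 : ℝ)) (u := (12535 / 262144 : ℝ))
    (E := (-187473 / 8192 : ℝ)) (F := (-6948111 / 268435456 : ℝ)) (δ := (1 / 1073741824 : ℝ)) (by norm_num) (by norm_num) (by norm_num) (by norm_num) (by norm_num)
    (by norm_num) (by norm_num) (by norm_num) (by norm_num) (by norm_num) (by norm_num) (by norm_num) (by norm_num) (by norm_num) (by norm_num)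
  have e1 : P0C7.l = (11825 / 262144 : ℝ) := rfl
  have e2 : P0C7.u = (12535 / 262144 : ℝ) := rfl
  have e3 : P0C7.a1 = -(333668675 / 4194304 : ℝ) := by norm_num [P0C7]
  have e4 : P0C7.a2 = -(0 : ℝ) := by norm_num [P0C7]
  have e5 : P0C7.e = (-187473 / 8192 : ℝ) := rfl
  have e6 : P0C7.f = (3447041 / 134217728 : ℝ) + (0 : ℝ) + (-6948111 / 268435456 : ℝ) + (1 / 1073741824 : ℝ) := by norm_num [P0C7]
  rw [e1, e2, e3, e4, e5, e6]
  exact h

lemma rP0C8 : ∃ N : ℝ, Rw4 P.r2 N (coCell (167117 / 4096 : ℝ) (0 : ℝ) (12 : ℝ) 0 P0C8) := by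
  refine ⟨(3221225472 : ℝ), ⟨Q13, List.mem_cons_of_mem _ (List.mem_cons_of_mem _ (List.mem_cons_of_mem _ (List.mem_cons_of_mem _ (List.mem_cons_of_mem _ (List.mem_cons_of_mem _ (List.mem_cons_of_mem _ (List.mem_cons_of_mem _ (List.mem_cons_of_mem _ (List.mem_cons_of_mem _ (List.mem_cons_of_mem _ (List.mem_cons_of_mem _ (List.mem_cons_of_mem _ (List.mem_cons_self))))))))))))), ?_⟩, by norm_num⟩
  constructor <;> norm_num [Q13, coCell, P0C8]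

lemma lP0C8 : ∀ x1 x2 xc : ℝ, 0 ≤ x1 → x1 ≤ 1 → 0 ≤ x2 → x2 ≤ 1 → P0C8.l ≤ xc → xc ≤ P0C8.u →
    (167117 / 4096 : ℝ) * (1 - (1 - x1) ^ 2) + (0 : ℝ) * (1 - (1 - x2) ^ 2) - (12 : ℝ) * (1 - (1 - xc) ^ 2) + (1 / 1073741824 : ℝ)
      ≤ - P0C8.a1 * x1 - P0C8.a2 * x2 + P0C8.e * xc + P0C8.f := by
  have h := cell_lines_delta 2 (α1 := (167117 / 4096 : ℝ)) (α2 := (0 : ℝ)) (c := (12 : ℝ)) (y1 := (6975 / 262144 : ℝ)) (y2 := (2771 / 262144 : ℝ))
    (A1 := (333149045 / 4194304 : ℝ)) (B1 := (3876855 / 134217728 : ℝ)) (A2 := (0 : ℝ)) (B2 := (0 : ℝ)) (l := (12535 / 262144 : ℝ)) (u := (13287 / 262144 : ℝ))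
    (E := (-747699 / 32768 : ℝ)) (F := (-3903575 / 134217728 : ℝ)) (δ := (1 / 1073741824 : ℝ)) (by norm_num) (by norm_num) (by norm_num) (by norm_num) (by norm_num)
    (by norm_num) (by norm_num) (by norm_num) (by norm_num) (by norm_num) (by norm_num) (by norm_num) (by norm_num) (by norm_num) (by norm_num)
  have e1 : P0C8.l = (12535 / 262144 : ℝ) := rfl
  have e2 : P0C8.u = (13287 / 262144 : ℝ) := rfl
  have e3 : P0C8.a1 = -(333149045 / 4194304 : ℝ) := by norm_num [P0C8]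
  have e4 : P0C8.a2 = -(0 : ℝ) := by norm_num [P0C8]
  have e5 : P0C8.e = (-747699 / 32768 : ℝ) := rfl
  have e6 : P0C8.f = (3876855 / 134217728 : ℝ) + (0 : ℝ) + (-3903575 / 134217728 : ℝ) + (1 / 1073741824 : ℝ) := by norm_num [P0C8]
  rw [e1, e2, e3, e4, e5, e6]
  exact h

lemma rP0C9 : ∃ N : ℝ, Rw4 P.r2 N (coCell (167117 / 4096 : ℝ) (0 : ℝ) (12 : ℝ) 0 P0C9) := by
  refine ⟨(3221225472 : ℝ), ⟨Q14, List.mem_cons_of_mem _ (List.mem_cons_of_mem _ (List.mem_cons_of_mem _ (List.mem_cons_of_mem _ (List.mem_cons_of_mem _ (List.mem_cons_of_mem _ (List.mem_cons_of_mem _ (List.mem_cons_of_mem _ (List.mem_cons_of_mem _ (List.mem_cons_of_mem _ (List.mem_cons_of_mem _ (List.mem_cons_of_mem _ (List.mem_cons_of_mem _ (List.mem_cons_of_mem _ (List.mem_cons_self)))))))))))))), ?_⟩, by norm_num⟩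
  constructor <;> norm_num [Q14, coCell, P0C9]

lemma lP0C9 : ∀ x1 x2 xc : ℝ, 0 ≤ x1 → x1 ≤ 1 → 0 ≤ x2 → x2 ≤ 1 → P0C9.l ≤ xc → xc ≤ P0C9.u →
    (167117 / 4096 : ℝ) * (1 - (1 - x1) ^ 2) + (0 : ℝ) * (1 - (1 - x2) ^ 2) - (12 : ℝ) * (1 - (1 - xc) ^ 2) + (1 / 1073741824 : ℝ)
      ≤ - P0C9.a1 * x1 - P0C9.a2 * x2 + P0C9.e * xc + P0C9.f := by
  have h := cell_lines_delta 2 (α1 := (167117 / 4096 : ℝ)) (α2 := (0 : ℝ)) (c := (12 : ℝ)) (y1 := (1849 / 65536 : ℝ)) (y2 := (1467 / 131072 : ℝ))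
    (A1 := (332599387 / 4194304 : ℝ)) (B1 := (8717953 / 268435456 : ℝ)) (A2 := (0 : ℝ)) (B2 := (0 : ℝ)) (l := (13287 / 262144 : ℝ)) (u := (3521 / 65536 : ℝ))
    (E := (-1490751 / 65536 : ℝ)) (F := (-8771911 / 268435456 : ℝ)) (δ := (1 / 1073741824 : ℝ)) (by norm_num) (by norm_num) (by norm_num) (by norm_num) (by norm_num)
    (by norm_num) (by norm_num) (by norm_num) (by norm_num) (by norm_num) (by norm_num) (by norm_num) (by norm_num) (by norm_num) (by norm_num)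
  have e1 : P0C9.l = (13287 / 262144 : ℝ) := rfl
  have e2 : P0C9.u = (3521 / 65536 : ℝ) := rfl
  have e3 : P0C9.a1 = -(332599387 / 4194304 : ℝ) := by norm_num [P0C9]
  have e4 : P0C9.a2 = -(0 : ℝ) := by norm_num [P0C9]
  have e5 : P0C9.e = (-1490751 / 65536 : ℝ) := rfl
  have e6 : P0C9.f = (8717953 / 268435456 : ℝ) + (0 : ℝ) + (-8771911 / 268435456 : ℝ) + (1 / 1073741824 : ℝ) := by norm_num [P0C9]
  rw [e1, e2, e3, e4, e5, e6]
  exact h

lemma rP0C10 : ∃ N : ℝ, Rw4 P.r2 N (coCell (167117 / 4096 : ℝ) (0 : ℝ) (12 : ℝ) 0 P0C10) := by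
  refine ⟨(3221225472 : ℝ), ⟨Q15, List.mem_cons_of_mem _ (List.mem_cons_of_mem _ (List.mem_cons_of_mem _ (List.mem_cons_of_mem _ (List.mem_cons_of_mem _ (List.mem_cons_of_mem _ (List.mem_cons_of_mem _ (List.mem_cons_of_mem _ (List.mem_cons_of_mem _ (List.mem_cons_of_mem _ (List.mem_cons_of_mem _ (List.mem_cons_of_mem _ (List.mem_cons_of_mem _ (List.mem_cons_of_mem _ (List.mem_cons_of_mem _ (List.mem_cons_self))))))))))))))), ?_⟩, by norm_num⟩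
  constructor <;> norm_num [Q15, coCell, P0C10]

lemma lP0C10 : ∀ x1 x2 xc : ℝ, 0 ≤ x1 → x1 ≤ 1 → 0 ≤ x2 → x2 ≤ 1 → P0C10.l ≤ xc → xc ≤ P0C10.u →
    (167117 / 4096 : ℝ) * (1 - (1 - x1) ^ 2) + (0 : ℝ) * (1 - (1 - x2) ^ 2) - (12 : ℝ) * (1 - (1 - xc) ^ 2) + (1 / 1073741824 : ℝ)
      ≤ - P0C10.a1 * x1 - P0C10.a2 * x2 + P0C10.e * xc + P0C10.f := by
  have h := cell_lines_delta 2 (α1 := (167117 / 4096 : ℝ)) (α2 := (0 : ℝ)) (c := (12 : ℝ)) (y1 := (3921 / 131072 : ℝ)) (y2 := (777 / 65536 : ℝ))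
    (A1 := (332017089 / 4194304 : ℝ)) (B1 := (9801091 / 268435456 : ℝ)) (A2 := (0 : ℝ)) (B2 := (0 : ℝ)) (l := (3521 / 65536 : ℝ)) (u := (14929 / 262144 : ℝ))
    (E := (-1485825 / 65536 : ℝ)) (F := (-9855939 / 268435456 : ℝ)) (δ := (1 / 1073741824 : ℝ)) (by norm_num) (by norm_num) (by norm_num) (by norm_num) (by norm_num)
    (by norm_num) (by norm_num) (by norm_num) (by norm_num) (by norm_num) (by norm_num) (by norm_num) (by norm_num) (by norm_num) (by norm_num)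
  have e1 : P0C10.l = (3521 / 65536 : ℝ) := rfl
  have e2 : P0C10.u = (14929 / 262144 : ℝ) := rfl
  have e3 : P0C10.a1 = -(332017089 / 4194304 : ℝ) := by norm_num [P0C10]
  have e4 : P0C10.a2 = -(0 : ℝ) := by norm_num [P0C10]
  have e5 : P0C10.e = (-1485825 / 65536 : ℝ) := rfl
  have e6 : P0C10.f = (9801091 / 268435456 : ℝ) + (0 : ℝ) + (-9855939 / 268435456 : ℝ) + (1 / 1073741824 : ℝ) := by norm_num [P0C10]
  rw [e1, e2, e3, e4, e5, e6]
  exact h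

lemma rP0C11 : ∃ N : ℝ, Rw4 P.r2 N (coCell (167117 / 4096 : ℝ) (0 : ℝ) (12 : ℝ) 0 P0C11) := by
  refine ⟨(3221225472 : ℝ), ⟨Q16, List.mem_cons_of_mem _ (List.mem_cons_of_mem _ (List.mem_cons_of_mem _ (List.mem_cons_of_mem _ (List.mem_cons_of_mem _ (List.mem_cons_of_mem _ (List.mem_cons_of_mem _ (List.mem_cons_of_mem _ (List.mem_cons_of_mem _ (List.mem_cons_of_mem _ (List.mem_cons_of_mem _ (List.mem_cons_of_mem _ (List.mem_cons_of_mem _ (List.mem_cons_of_mem _ (List.mem_cons_of_mem _ (List.mem_cons_of_mem _ (List.mem_cons_self)))))))))))))))), ?_⟩, by norm_num⟩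
  constructor <;> norm_num [Q16, coCell, P0C11]

lemma lP0C11 : ∀ x1 x2 xc : ℝ, 0 ≤ x1 → x1 ≤ 1 → 0 ≤ x2 → x2 ≤ 1 → P0C11.l ≤ xc → xc ≤ P0C11.u →
    (167117 / 4096 : ℝ) * (1 - (1 - x1) ^ 2) + (0 : ℝ) * (1 - (1 - x2) ^ 2) - (12 : ℝ) * (1 - (1 - xc) ^ 2) + (1 / 1073741824 : ℝ)
      ≤ - P0C11.a1 * x1 - P0C11.a2 * x2 + P0C11.e * xc + P0C11.f := by
  have h := cell_lines_delta 2 (α1 := (167117 / 4096 : ℝ)) (α2 := (0 : ℝ)) (c := (12 : ℝ)) (y1 := (8315 / 262144 : ℝ)) (y2 := (823 / 65536 : ℝ))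
    (A1 := (331399539 / 4194304 : ℝ)) (B1 := (5509539 / 134217728 : ℝ)) (A2 := (0 : ℝ)) (B2 := (0 : ℝ)) (l := (14929 / 262144 : ℝ)) (u := (15825 / 262144 : ℝ))
    (E := (-740301 / 32768 : ℝ)) (F := (-11074285 / 268435456 : ℝ)) (δ := (1 / 1073741824 : ℝ)) (by norm_num) (by norm_num) (by norm_num) (by norm_num) (by norm_num)
    (by norm_num) (by norm_num) (by norm_num) (by norm_num) (by norm_num) (by norm_num) (by norm_num) (by norm_num) (by norm_num) (by norm_num)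
  have e1 : P0C11.l = (14929 / 262144 : ℝ) := rfl
  have e2 : P0C11.u = (15825 / 262144 : ℝ) := rfl
  have e3 : P0C11.a1 = -(331399539 / 4194304 : ℝ) := by norm_num [P0C11]
  have e4 : P0C11.a2 = -(0 : ℝ) := by norm_num [P0C11]
  have e5 : P0C11.e = (-740301 / 32768 : ℝ) := rfl
  have e6 : P0C11.f = (5509539 / 134217728 : ℝ) + (0 : ℝ) + (-11074285 / 268435456 : ℝ) + (1 / 1073741824 : ℝ) := by norm_num [P0C11]
  rw [e1, e2, e3, e4, e5, e6]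
  exact h

lemma rP0C12 : ∃ N : ℝ, Rw4 P.r2 N (coCell (167117 / 4096 : ℝ) (0 : ℝ) (12 : ℝ) 0 P0C12) := by
  refine ⟨(3221225472 : ℝ), ⟨Q17, List.mem_cons_of_mem _ (List.mem_cons_of_mem _ (List.mem_cons_of_mem _ (List.mem_cons_of_mem _ (List.mem_cons_of_mem _ (List.mem_cons_of_mem _ (List.mem_cons_of_mem _ (List.mem_cons_of_mem _ (List.mem_cons_of_mem _ (List.mem_cons_of_mem _ (List.mem_cons_of_mem _ (List.mem_cons_of_mem _ (List.mem_cons_of_mem _ (List.mem_cons_of_mem _ (List.mem_cons_of_mem _ (List.mem_cons_of_mem _ (List.mem_cons_of_mem _ (List.mem_cons_self))))))))))))))))), ?_⟩, by norm_num⟩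
  constructor <;> norm_num [Q17, coCell, P0C12]

lemma lP0C12 : ∀ x1 x2 xc : ℝ, 0 ≤ x1 → x1 ≤ 1 → 0 ≤ x2 → x2 ≤ 1 → P0C12.l ≤ xc → xc ≤ P0C12.u →
    (167117 / 4096 : ℝ) * (1 - (1 - x1) ^ 2) + (0 : ℝ) * (1 - (1 - x2) ^ 2) - (12 : ℝ) * (1 - (1 - xc) ^ 2) + (1 / 1073741824 : ℝ)
      ≤ - P0C12.a1 * x1 - P0C12.a2 * x2 + P0C12.e * xc + P0C12.f := by
  have h := cell_lines_delta 2 (α1 := (167117 / 4096 : ℝ)) (α2 := (0 : ℝ)) (c := (12 : ℝ)) (y1 := (8817 / 262144 : ℝ)) (y2 := (3487 / 262144 : ℝ))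
    (A1 := (330744127 / 4194304 : ℝ)) (B1 := (3097437 / 67108864 : ℝ)) (A2 := (0 : ℝ)) (B2 := (0 : ℝ)) (l := (15825 / 262144 : ℝ)) (u := (8387 / 131072 : ℝ))
    (E := (-1475067 / 65536 : ℝ)) (F := (-3110725 / 67108864 : ℝ)) (δ := (1 / 1073741824 : ℝ)) (by norm_num) (by norm_num) (by norm_num) (by norm_num) (by norm_num)
    (by norm_num) (by norm_num) (by norm_num) (by norm_num) (by norm_num) (by norm_num) (by norm_num) (by norm_num) (by norm_num) (by norm_num)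
  have e1 : P0C12.l = (15825 / 262144 : ℝ) := rfl
  have e2 : P0C12.u = (8387 / 131072 : ℝ) := rfl
  have e3 : P0C12.a1 = -(330744127 / 4194304 : ℝ) := by norm_num [P0C12]
  have e4 : P0C12.a2 = -(0 : ℝ) := by norm_num [P0C12]
  have e5 : P0C12.e = (-1475067 / 65536 : ℝ) := rfl
  have e6 : P0C12.f = (3097437 / 67108864 : ℝ) + (0 : ℝ) + (-3110725 / 67108864 : ℝ) + (1 / 1073741824 : ℝ) := by norm_num [P0C12]
  rw [e1, e2, e3, e4, e5, e6]
  exact h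

lemma rP0C13 : ∃ N : ℝ, Rw4 P.r2 N (coCell (167117 / 4096 : ℝ) (0 : ℝ) (12 : ℝ) 0 P0C13) := by
  refine ⟨(3221225472 : ℝ), ⟨Q18, List.mem_cons_of_mem _ (List.mem_cons_of_mem _ (List.mem_cons_of_mem _ (List.mem_cons_of_mem _ (List.mem_cons_of_mem _ (List.mem_cons_of_mem _ (List.mem_cons_of_mem _ (List.mem_cons_of_mem _ (List.mem_cons_of_mem _ (List.mem_cons_of_mem _ (List.mem_cons_of_mem _ (List.mem_cons_of_mem _ (List.mem_cons_of_mem _ (List.mem_cons_of_mem _ (List.mem_cons_of_mem _ (List.mem_cons_of_mem _ (List.mem_cons_of_mem _ (List.mem_cons_of_mem _ (List.mem_cons_self)))))))))))))))))), ?_⟩, by norm_num⟩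
  constructor <;> norm_num [Q18, coCell, P0C13]

lemma lP0C13 : ∀ x1 x2 xc : ℝ, 0 ≤ x1 → x1 ≤ 1 → 0 ≤ x2 → x2 ≤ 1 → P0C13.l ≤ xc → xc ≤ P0C13.u →
    (167117 / 4096 : ℝ) * (1 - (1 - x1) ^ 2) + (0 : ℝ) * (1 - (1 - x2) ^ 2) - (12 : ℝ) * (1 - (1 - xc) ^ 2) + (1 / 1073741824 : ℝ)
      ≤ - P0C13.a1 * x1 - P0C13.a2 * x2 + P0C13.e * xc + P0C13.f := by
  have h := cell_lines_delta 2 (α1 := (167117 / 4096 : ℝ)) (α2 := (0 : ℝ)) (c := (12 : ℝ)) (y1 := (2337 / 65536 : ℝ)) (y2 := (1847 / 131072 : ℝ))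
    (A1 := (330050853 / 4194304 : ℝ)) (B1 := (6963509 / 134217728 : ℝ)) (A2 := (0 : ℝ)) (B2 := (0 : ℝ)) (l := (8387 / 131072 : ℝ)) (u := (4445 / 65536 : ℝ))
    (E := (-734601 / 32768 : ℝ)) (F := (-873755 / 16777216 : ℝ)) (δ := (1 / 1073741824 : ℝ)) (by norm_num) (by norm_num) (by norm_num) (by norm_num) (by norm_num)
    (by norm_num) (by norm_num) (by norm_num) (by norm_num) (by norm_num) (by norm_num) (by norm_num) (by norm_num) (by norm_num) (by norm_num)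
  have e1 : P0C13.l = (8387 / 131072 : ℝ) := rfl
  have e2 : P0C13.u = (4445 / 65536 : ℝ) := rfl
  have e3 : P0C13.a1 = -(330050853 / 4194304 : ℝ) := by norm_num [P0C13]
  have e4 : P0C13.a2 = -(0 : ℝ) := by norm_num [P0C13]
  have e5 : P0C13.e = (-734601 / 32768 : ℝ) := rfl
  have e6 : P0C13.f = (6963509 / 134217728 : ℝ) + (0 : ℝ) + (-873755 / 16777216 : ℝ) + (1 / 1073741824 : ℝ) := by norm_num [P0C13]
  rw [e1, e2, e3, e4, e5, e6]
  exact h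

lemma rP0C14 : ∃ N : ℝ, Rw4 P.r2 N (coCell (167117 / 4096 : ℝ) (0 : ℝ) (12 : ℝ) 0 P0C14) := by
  refine ⟨(3221225472 : ℝ), ⟨Q19, List.mem_cons_of_mem _ (List.mem_cons_of_mem _ (List.mem_cons_of_mem _ (List.mem_cons_of_mem _ (List.mem_cons_of_mem _ (List.mem_cons_of_mem _ (List.mem_cons_of_mem _ (List.mem_cons_of_mem _ (List.mem_cons_of_mem _ (List.mem_cons_of_mem _ (List.mem_cons_of_mem _ (List.mem_cons_of_mem _ (List.mem_cons_of_mem _ (List.mem_cons_of_mem _ (List.mem_cons_of_mem _ (List.mem_cons_of_mem _ (List.mem_cons_of_mem _ (List.mem_cons_of_mem _ (List.mem_cons_of_mem _ (List.mem_cons_self))))))))))))))))))), ?_⟩, by norm_num⟩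
  constructor <;> norm_num [Q19, coCell, P0C14]

lemma lP0C14 : ∀ x1 x2 xc : ℝ, 0 ≤ x1 → x1 ≤ 1 → 0 ≤ x2 → x2 ≤ 1 → P0C14.l ≤ xc → xc ≤ P0C14.u →
    (167117 / 4096 : ℝ) * (1 - (1 - x1) ^ 2) + (0 : ℝ) * (1 - (1 - x2) ^ 2) - (12 : ℝ) * (1 - (1 - xc) ^ 2) + (1 / 1073741824 : ℝ)
      ≤ - P0C14.a1 * x1 - P0C14.a2 * x2 + P0C14.e * xc + P0C14.f := by
  have h := cell_lines_delta 2 (α1 := (167117 / 4096 : ℝ)) (α2 := (0 : ℝ)) (c := (12 : ℝ)) (y1 := (9779 / 262144 : ℝ)) (y2 := (4045 / 262144 : ℝ))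
    (A1 := (164744069 / 2097152 : ℝ)) (B1 := (7620443 / 134217728 : ℝ)) (A2 := (0 : ℝ)) (B2 := (0 : ℝ)) (l := (4445 / 65536 : ℝ)) (u := (9175 / 131072 : ℝ))
    (E := (-732237 / 32768 : ℝ)) (F := (-7646789 / 134217728 : ℝ)) (δ := (1 / 1073741824 : ℝ)) (by norm_num) (by norm_num) (by norm_num) (by norm_num) (by norm_num)
    (by norm_num) (by norm_num) (by norm_num) (by norm_num) (by norm_num) (by norm_num) (by norm_num) (by norm_num) (by norm_num) (by norm_num)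
  have e1 : P0C14.l = (4445 / 65536 : ℝ) := rfl
  have e2 : P0C14.u = (9175 / 131072 : ℝ) := rfl
  have e3 : P0C14.a1 = -(164744069 / 2097152 : ℝ) := by norm_num [P0C14]
  have e4 : P0C14.a2 = -(0 : ℝ) := by norm_num [P0C14]
  have e5 : P0C14.e = (-732237 / 32768 : ℝ) := rfl
  have e6 : P0C14.f = (7620443 / 134217728 : ℝ) + (0 : ℝ) + (-7646789 / 134217728 : ℝ) + (1 / 1073741824 : ℝ) := by norm_num [P0C14]
  rw [e1, e2, e3, e4, e5, e6]
  exact h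

/-- A link of the chain. -/
lemma link0 {lam : ℝ} (h0 : -(1 / 2) < lam) (h1 : lam < 1) (hB : BoxS lam P 0 HH 0 HH)
    (h : ∃ n, 1 - En 2 lam n mc ≤ (9175 / 131072 : ℝ)) : ∃ n, 1 - En 2 lam n mc ≤ (1 / 32 : ℝ) :=
  phase_of_box (by norm_num) h0 h1 hB (167117 / 4096 : ℝ) (0 : ℝ) (12 : ℝ) (1 / 1073741824 : ℝ) (1 / 32 : ℝ) (9175 / 131072 : ℝ) (by norm_num) cellsP0 hcoverP0
    (forall_cons lP0C0 (forall_cons lP0C1 (forall_cons lP0C2 (forall_cons lP0C3 (forall_cons lP0C4 (forall_cons lP0C5 (forall_cons lP0C6 (forall_cons lP0C7 (forall_cons lP0C8 (forall_cons lP0C9 (forall_cons lP0C10 (forall_cons lP0C11 (forall_cons lP0C12 (forall_cons lP0C13 (forall_cons lP0C14 (forall_nil)))))))))))))))) (forall_cons rP0C0 (forall_cons rP0C1 (forall_cons rP0C2 (forall_cons rP0C3 (forall_cons rP0C4 (forall_cons rP0C5 (forall_cons rP0C6 (forall_cons rP0C7 (forall_cons rP0C8 (forall_cons rP0C9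 (forall_cons rP0C10 (forall_cons rP0C11 (forall_cons rP0C12 (forall_cons rP0C13 (forall_cons rP0C14 (forall_nil)))))))))))))))) h

/-- A chord cell of a link. -/
noncomputable def P1C0 : Cell := ⟨(9175 / 131072 : ℝ), (19451 / 262144 : ℝ), (-164860635 / 2097152 : ℝ), (0 : ℝ), (-1459461 / 65536 : ℝ), (-213795 / 1073741824 : ℝ)⟩

/-- A chord cell of a link. -/
noncomputable def P1C1 : Cell := ⟨(19451 / 262144 : ℝ), (10309 / 131072 : ℝ), (-41114545 / 524288 : ℝ), (0 : ℝ), (-1452657 / 65536 : ℝ), (-212619 / 1073741824 : ℝ)⟩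

/-- A chord cell of a link. -/
noncomputable def P1C2 : Cell := ⟨(10309 / 131072 : ℝ), (21855 / 262144 : ℝ), (-328063025 / 4194304 : ℝ), (0 : ℝ), (-1445445 / 65536 : ℝ), (-207891 / 1073741824 : ℝ)⟩

/-- A chord cell of a link. -/
noncomputable def P1C3 : Cell := ⟨(21855 / 262144 : ℝ), (23167 / 262144 : ℝ), (-327159955 / 4194304 : ℝ), (0 : ℝ), (-718899 / 32768 : ℝ), (-221171 / 1073741824 : ℝ)⟩

/-- A chord cell of a link. -/
noncomputable def P1C4 : Cell := ⟨(23167 / 262144 : ℝ), (24557 / 262144 : ℝ), (-81550479 / 1048576 : ℝ), (0 : ℝ), (-357423 / 16384 : ℝ), (-225911 / 1073741824 : ℝ)⟩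

/-- A chord cell of a link. -/
noncomputable def P1C5 : Cell := ⟨(24557 / 262144 : ℝ), (13015 / 131072 : ℝ), (-325186289 / 4194304 : ℝ), (0 : ℝ), (-1421103 / 65536 : ℝ), (-223087 / 1073741824 : ℝ)⟩

/-- A chord cell of a link. -/
noncomputable def P1C6 : Cell := ⟨(13015 / 131072 : ℝ), (3449 / 32768 : ℝ), (-324109149 / 4194304 : ℝ), (0 : ℝ), (-705999 / 32768 : ℝ), (-210867 / 1073741824 : ℝ)⟩

/-- A chord cell of a link. -/
noncomputable def P1C7 : Cell := ⟨(3449 / 32768 : ℝ), (29247 / 262144 : ℝ), (-322969187 / 4194304 : ℝ), (0 : ℝ), (-1402347 / 65536 : ℝ), (-221611 / 1073741824 : ℝ)⟩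

/-- A chord cell of a link. -/
noncomputable def P1C8 : Cell := ⟨(29247 / 262144 : ℝ), (15501 / 131072 : ℝ), (-321759859 / 4194304 : ℝ), (0 : ℝ), (-1392117 / 65536 : ℝ), (-217039 / 1073741824 : ℝ)⟩

/-- A chord cell of a link. -/
noncomputable def P1C9 : Cell := ⟨(15501 / 131072 : ℝ), (16431 / 131072 : ℝ), (-320478547 / 4194304 : ℝ), (0 : ℝ), (-172659 / 8192 : ℝ), (-222195 / 1073741824 : ℝ)⟩

/-- A chord cell of a link. -/
noncomputable def P1C10 : Cell := ⟨(16431 / 131072 : ℝ), (17417 / 131072 : ℝ), (-19945001 / 262144 : ℝ), (0 : ℝ), (-85611 / 4096 : ℝ), (-221103 / 1073741824 : ℝ)⟩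

/-- A chord cell of a link. -/
noncomputable def P1C11 : Cell := ⟨(17417 / 131072 : ℝ), (9175 / 65536 : ℝ), (-158878779 / 2097152 : ℝ), (0 : ℝ), (-679131 / 32768 : ℝ), (-224731 / 1073741824 : ℝ)⟩

/-- The chord cells of a link. -/
noncomputable def cellsP1 : List Cell := [P1C0, P1C1, P1C2, P1C3, P1C4, P1C5, P1C6, P1C7, P1C8, P1C9, P1C10, P1C11]

lemma hcoverP1 : ∀ x : ℝ, (9175 / 131072 : ℝ) ≤ x → x ≤ (9175 / 65536 : ℝ) → ∃ D ∈ cellsP1, D.l ≤ x ∧ x ≤ D.u := by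
  refine cover_of_chain ?_ (by norm_num [P1C0])
  simp only [ChainP, P1C0, P1C1, P1C2, P1C3, P1C4, P1C5, P1C6, P1C7, P1C8, P1C9, P1C10, P1C11]
  norm_num

lemma rP1C0 : ∃ N : ℝ, Rw4 P.r2 N (coCell (83763 / 2048 : ℝ) (0 : ℝ) (12 : ℝ) 0 P1C0) := by
  refine ⟨(1073741824 : ℝ), ⟨Q20, List.mem_cons_of_mem _ (List.mem_cons_of_mem _ (List.mem_cons_of_mem _ (List.mem_cons_of_mem _ (List.mem_cons_of_mem _ (List.mem_cons_of_mem _ (List.mem_cons_of_mem _ (List.mem_cons_of_mem _ (List.mem_cons_of_mem _ (List.mem_cons_of_mem _ (List.mem_cons_of_mem _ (List.mem_cons_of_mem _ (List.mem_cons_of_mem _ (List.mem_cons_of_mem _ (List.mem_cons_of_mem _ (List.mem_cons_of_mem _ (List.mem_cons_of_mem _ (List.mem_cons_of_mem _ (List.mem_cons_of_mem _ (List.mem_cons_of_mem _ (List.mem_cons_self)))))))))))))))))))), ?_⟩, by norm_num⟩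
  constructor <;> norm_num [Q20, coCell, P1C0]

lemma lP1C0 : ∀ x1 x2 xc : ℝ, 0 ≤ x1 → x1 ≤ 1 → 0 ≤ x2 → x2 ≤ 1 → P1C0.l ≤ xc → xc ≤ P1C0.u →
    (83763 / 2048 : ℝ) * (1 - (1 - x1) ^ 2) + (0 : ℝ) * (1 - (1 - x2) ^ 2) - (12 : ℝ) * (1 - (1 - xc) ^ 2) + (1 / 1073741824 : ℝ)
      ≤ - P1C0.a1 * x1 - P1C0.a2 * x2 + P1C0.e * xc + P1C0.f := by
  have h := cell_lines_delta 2 (α1 := (83763 / 2048 : ℝ)) (α2 := (0 : ℝ)) (c := (12 : ℝ)) (y1 := (10217 / 262144 : ℝ)) (y2 := (2025 / 131072 : ℝ))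
    (A1 := (164860635 / 2097152 : ℝ)) (B1 := (8338725 / 134217728 : ℝ)) (A2 := (0 : ℝ)) (B2 := (0 : ℝ)) (l := (9175 / 131072 : ℝ)) (u := (19451 / 262144 : ℝ))
    (E := (-1459461 / 65536 : ℝ)) (F := (-16730899 / 268435456 : ℝ)) (δ := (1 / 1073741824 : ℝ)) (by norm_num) (by norm_num) (by norm_num) (by norm_num) (by norm_num)
    (by norm_num) (by norm_num) (by norm_num) (by norm_num) (by norm_num) (by norm_num) (by norm_num) (by norm_num) (by norm_num) (by norm_num)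
  have e1 : P1C0.l = (9175 / 131072 : ℝ) := rfl
  have e2 : P1C0.u = (19451 / 262144 : ℝ) := rfl
  have e3 : P1C0.a1 = -(164860635 / 2097152 : ℝ) := by norm_num [P1C0]
  have e4 : P1C0.a2 = -(0 : ℝ) := by norm_num [P1C0]
  have e5 : P1C0.e = (-1459461 / 65536 : ℝ) := rfl
  have e6 : P1C0.f = (8338725 / 134217728 : ℝ) + (0 : ℝ) + (-16730899 / 268435456 : ℝ) + (1 / 1073741824 : ℝ) := by norm_num [P1C0]
  rw [e1, e2, e3, e4, e5, e6]
  exact h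

lemma rP1C1 : ∃ N : ℝ, Rw4 P.r2 N (coCell (83763 / 2048 : ℝ) (0 : ℝ) (12 : ℝ) 0 P1C1) := by
  refine ⟨(3221225472 : ℝ), ⟨Q21, List.mem_cons_of_mem _ (List.mem_cons_of_mem _ (List.mem_cons_of_mem _ (List.mem_cons_of_mem _ (List.mem_cons_of_mem _ (List.mem_cons_of_mem _ (List.mem_cons_of_mem _ (List.mem_cons_of_mem _ (List.mem_cons_of_mem _ (List.mem_cons_of_mem _ (List.mem_cons_of_mem _ (List.mem_cons_of_mem _ (List.mem_cons_of_mem _ (List.mem_cons_of_mem _ (List.mem_cons_of_mem _ (List.mem_cons_of_mem _ (List.mem_cons_of_mem _ (List.mem_cons_of_mem _ (List.mem_cons_of_mem _ (List.mem_cons_of_mem _ (List.mem_cons_of_mem _ (List.mem_cons_self))))))))))))))))))))), ?_⟩, by norm_num⟩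
  constructor <;> norm_num [Q21, coCell, P1C1]

lemma lP1C1 : ∀ x1 x2 xc : ℝ, 0 ≤ x1 → x1 ≤ 1 → 0 ≤ x2 → x2 ≤ 1 → P1C1.l ≤ xc → xc ≤ P1C1.u →
    (83763 / 2048 : ℝ) * (1 - (1 - x1) ^ 2) + (0 : ℝ) * (1 - (1 - x2) ^ 2) - (12 : ℝ) * (1 - (1 - xc) ^ 2) + (1 / 1073741824 : ℝ)
      ≤ - P1C1.a1 * x1 - P1C1.a2 * x2 + P1C1.e * xc + P1C1.f := by
  have h := cell_lines_delta 2 (α1 := (83763 / 2048 : ℝ)) (α2 := (0 : ℝ)) (c := (12 : ℝ)) (y1 := (677 / 16384 : ℝ)) (y2 := (4291 / 262144 : ℝ))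
    (A1 := (41114545 / 524288 : ℝ)) (B1 := (4686407 / 67108864 : ℝ)) (A2 := (0 : ℝ)) (B2 := (0 : ℝ)) (l := (19451 / 262144 : ℝ)) (u := (10309 / 131072 : ℝ))
    (E := (-1452657 / 65536 : ℝ)) (F := (-18798783 / 268435456 : ℝ)) (δ := (1 / 1073741824 : ℝ)) (by norm_num) (by norm_num) (by norm_num) (by norm_num) (by norm_num)
    (by norm_num) (by norm_num) (by norm_num) (by norm_num) (by norm_num) (by norm_num) (by norm_num) (by norm_num) (by norm_num) (by norm_num)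
  have e1 : P1C1.l = (19451 / 262144 : ℝ) := rfl
  have e2 : P1C1.u = (10309 / 131072 : ℝ) := rfl
  have e3 : P1C1.a1 = -(41114545 / 524288 : ℝ) := by norm_num [P1C1]
  have e4 : P1C1.a2 = -(0 : ℝ) := by norm_num [P1C1]
  have e5 : P1C1.e = (-1452657 / 65536 : ℝ) := rfl
  have e6 : P1C1.f = (4686407 / 67108864 : ℝ) + (0 : ℝ) + (-18798783 / 268435456 : ℝ) + (1 / 1073741824 : ℝ) := by norm_num [P1C1]
  rw [e1, e2, e3, e4, e5, e6]
  exact h

lemma rP1C2 : ∃ N : ℝ, Rw4 P.r2 N (coCell (83763 / 2048 : ℝ) (0 : ℝ) (12 : ℝ) 0 P1C2) := by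
  refine ⟨(3221225472 : ℝ), ⟨Q22, List.mem_cons_of_mem _ (List.mem_cons_of_mem _ (List.mem_cons_of_mem _ (List.mem_cons_of_mem _ (List.mem_cons_of_mem _ (List.mem_cons_of_mem _ (List.mem_cons_of_mem _ (List.mem_cons_of_mem _ (List.mem_cons_of_mem _ (List.mem_cons_of_mem _ (List.mem_cons_of_mem _ (List.mem_cons_of_mem _ (List.mem_cons_of_mem _ (List.mem_cons_of_mem _ (List.mem_cons_of_mem _ (List.mem_cons_of_mem _ (List.mem_cons_of_mem _ (List.mem_cons_of_mem _ (List.mem_cons_of_mem _ (List.mem_cons_of_mem _ (List.mem_cons_of_mem _ (List.mem_cons_of_mem _ (List.mem_cons_self)))))))))))))))))))))), ?_⟩, by norm_num⟩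
  constructor <;> norm_num [Q22, coCell, P1C2]

lemma lP1C2 : ∀ x1 x2 xc : ℝ, 0 ≤ x1 → x1 ≤ 1 → 0 ≤ x2 → x2 ≤ 1 → P1C2.l ≤ xc → xc ≤ P1C2.u →
    (83763 / 2048 : ℝ) * (1 - (1 - x1) ^ 2) + (0 : ℝ) * (1 - (1 - x2) ^ 2) - (12 : ℝ) * (1 - (1 - xc) ^ 2) + (1 / 1073741824 : ℝ)
      ≤ - P1C2.a1 * x1 - P1C2.a2 * x2 + P1C2.e * xc + P1C2.f := by
  have h := cell_lines_delta 2 (α1 := (83763 / 2048 : ℝ)) (α2 := (0 : ℝ)) (c := (12 : ℝ)) (y1 := (2871 / 65536 : ℝ)) (y2 := (4547 / 262144 : ℝ))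
    (A1 := (328063025 / 4194304 : ℝ)) (B1 := (21070201 / 268435456 : ℝ)) (A2 := (0 : ℝ)) (B2 := (0 : ℝ)) (l := (10309 / 131072 : ℝ)) (u := (21855 / 262144 : ℝ))
    (E := (-1445445 / 65536 : ℝ)) (F := (-10561087 / 134217728 : ℝ)) (δ := (1 / 1073741824 : ℝ)) (by norm_num) (by norm_num) (by norm_num) (by norm_num) (by norm_num)
    (by norm_num) (by norm_num) (by norm_num) (by norm_num) (by norm_num) (by norm_num) (by norm_num) (by norm_num) (by norm_num) (by norm_num)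
  have e1 : P1C2.l = (10309 / 131072 : ℝ) := rfl
  have e2 : P1C2.u = (21855 / 262144 : ℝ) := rfl
  have e3 : P1C2.a1 = -(328063025 / 4194304 : ℝ) := by norm_num [P1C2]
  have e4 : P1C2.a2 = -(0 : ℝ) := by norm_num [P1C2]
  have e5 : P1C2.e = (-1445445 / 65536 : ℝ) := rfl
  have e6 : P1C2.f = (21070201 / 268435456 : ℝ) + (0 : ℝ) + (-10561087 / 134217728 : ℝ) + (1 / 1073741824 : ℝ) := by norm_num [P1C2]
  rw [e1, e2, e3, e4, e5, e6]
  exact h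

lemma rP1C3 : ∃ N : ℝ, Rw4 P.r2 N (coCell (83763 / 2048 : ℝ) (0 : ℝ) (12 : ℝ) 0 P1C3) := by
  refine ⟨(3221225472 : ℝ), ⟨Q23, List.mem_cons_of_mem _ (List.mem_cons_of_mem _ (List.mem_cons_of_mem _ (List.mem_cons_of_mem _ (List.mem_cons_of_mem _ (List.mem_cons_of_mem _ (List.mem_cons_of_mem _ (List.mem_cons_of_mem _ (List.mem_cons_of_mem _ (List.mem_cons_of_mem _ (List.mem_cons_of_mem _ (List.mem_cons_of_mem _ (List.mem_cons_of_mem _ (List.mem_cons_of_mem _ (List.mem_cons_of_mem _ (List.mem_cons_of_mem _ (List.mem_cons_of_mem _ (List.mem_cons_of_mem _ (List.mem_cons_of_mem _ (List.mem_cons_of_mem _ (List.mem_cons_of_mem _ (List.mem_cons_of_mem _ (List.mem_cons_of_mem _ (List.mem_cons_self))))))))))))))))))))))), ?_⟩, by norm_num⟩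
  constructor <;> norm_num [Q23, coCell, P1C3]

lemma lP1C3 : ∀ x1 x2 xc : ℝ, 0 ≤ x1 → x1 ≤ 1 → 0 ≤ x2 → x2 ≤ 1 → P1C3.l ≤ xc → xc ≤ P1C3.u →
    (83763 / 2048 : ℝ) * (1 - (1 - x1) ^ 2) + (0 : ℝ) * (1 - (1 - x2) ^ 2) - (12 : ℝ) * (1 - (1 - xc) ^ 2) + (1 / 1073741824 : ℝ)
      ≤ - P1C3.a1 * x1 - P1C3.a2 * x2 + P1C3.e * xc + P1C3.f := by
  have h := cell_lines_delta 2 (α1 := (83763 / 2048 : ℝ)) (α2 := (0 : ℝ)) (c := (12 : ℝ)) (y1 := (6087 / 131072 : ℝ)) (y2 := (2409 / 131072 : ℝ))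
    (A1 := (327159955 / 4194304 : ℝ)) (B1 := (5919553 / 67108864 : ℝ)) (A2 := (0 : ℝ)) (B2 := (0 : ℝ)) (l := (21855 / 262144 : ℝ)) (u := (23167 / 262144 : ℝ))
    (E := (-718899 / 32768 : ℝ)) (F := (-23733505 / 268435456 : ℝ)) (δ := (1 / 1073741824 : ℝ)) (by norm_num) (by norm_num) (by norm_num) (by norm_num) (by norm_num)
    (by norm_num) (by norm_num) (by norm_num) (by norm_num) (by norm_num) (by norm_num) (by norm_num) (by norm_num) (by norm_num) (by norm_num)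
  have e1 : P1C3.l = (21855 / 262144 : ℝ) := rfl
  have e2 : P1C3.u = (23167 / 262144 : ℝ) := rfl
  have e3 : P1C3.a1 = -(327159955 / 4194304 : ℝ) := by norm_num [P1C3]
  have e4 : P1C3.a2 = -(0 : ℝ) := by norm_num [P1C3]
  have e5 : P1C3.e = (-718899 / 32768 : ℝ) := rfl
  have e6 : P1C3.f = (5919553 / 67108864 : ℝ) + (0 : ℝ) + (-23733505 / 268435456 : ℝ) + (1 / 1073741824 : ℝ) := by norm_num [P1C3]
  rw [e1, e2, e3, e4, e5, e6]
  exact h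

lemma rP1C4 : ∃ N : ℝ, Rw4 P.r2 N (coCell (83763 / 2048 : ℝ) (0 : ℝ) (12 : ℝ) 0 P1C4) := by
  refine ⟨(1073741824 : ℝ), ⟨Q24, List.mem_cons_of_mem _ (List.mem_cons_of_mem _ (List.mem_cons_of_mem _ (List.mem_cons_of_mem _ (List.mem_cons_of_mem _ (List.mem_cons_of_mem _ (List.mem_cons_of_mem _ (List.mem_cons_of_mem _ (List.mem_cons_of_mem _ (List.mem_cons_of_mem _ (List.mem_cons_of_mem _ (List.mem_cons_of_mem _ (List.mem_cons_of_mem _ (List.mem_cons_of_mem _ (List.mem_cons_of_mem _ (List.mem_cons_of_mem _ (List.mem_cons_of_mem _ (List.mem_cons_of_mem _ (List.mem_cons_of_mem _ (List.mem_cons_of_mem _ (List.mem_cons_of_mem _ (List.mem_cons_of_mem _ (List.mem_cons_of_mem _ (List.mem_cons_of_mem _ (List.mem_cons_self)))))))))))))))))))))))), ?_⟩, by norm_num⟩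
  constructor <;> norm_num [Q24, coCell, P1C4]

lemma lP1C4 : ∀ x1 x2 xc : ℝ, 0 ≤ x1 → x1 ≤ 1 → 0 ≤ x2 → x2 ≤ 1 → P1C4.l ≤ xc → xc ≤ P1C4.u →
    (83763 / 2048 : ℝ) * (1 - (1 - x1) ^ 2) + (0 : ℝ) * (1 - (1 - x2) ^ 2) - (12 : ℝ) * (1 - (1 - xc) ^ 2) + (1 / 1073741824 : ℝ)
      ≤ - P1C4.a1 * x1 - P1C4.a2 * x2 + P1C4.e * xc + P1C4.f := by
  have h := cell_lines_delta 2 (α1 := (83763 / 2048 : ℝ)) (α2 := (0 : ℝ)) (c := (12 : ℝ)) (y1 := (6453 / 131072 : ℝ)) (y2 := (2553 / 131072 : ℝ))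
    (A1 := (81550479 / 1048576 : ℝ)) (B1 := (3326409 / 33554432 : ℝ)) (A2 := (0 : ℝ)) (B2 := (0 : ℝ)) (l := (23167 / 262144 : ℝ)) (u := (24557 / 262144 : ℝ))
    (E := (-357423 / 16384 : ℝ)) (F := (-13333875 / 134217728 : ℝ)) (δ := (1 / 1073741824 : ℝ)) (by norm_num) (by norm_num) (by norm_num) (by norm_num) (by norm_num)
    (by norm_num) (by norm_num) (by norm_num) (by norm_num) (by norm_num) (by norm_num) (by norm_num) (by norm_num) (by norm_num) (by norm_num)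
  have e1 : P1C4.l = (23167 / 262144 : ℝ) := rfl
  have e2 : P1C4.u = (24557 / 262144 : ℝ) := rfl
  have e3 : P1C4.a1 = -(81550479 / 1048576 : ℝ) := by norm_num [P1C4]
  have e4 : P1C4.a2 = -(0 : ℝ) := by norm_num [P1C4]
  have e5 : P1C4.e = (-357423 / 16384 : ℝ) := rfl
  have e6 : P1C4.f = (3326409 / 33554432 : ℝ) + (0 : ℝ) + (-13333875 / 134217728 : ℝ) + (1 / 1073741824 : ℝ) := by norm_num [P1C4]
  rw [e1, e2, e3, e4, e5, e6]
  exact h

lemma rP1C5 : ∃ N : ℝ, Rw4 P.r2 N (coCell (83763 / 2048 : ℝ) (0 : ℝ) (12 : ℝ) 0 P1C5) := by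
  refine ⟨(3221225472 : ℝ), ⟨Q25, List.mem_cons_of_mem _ (List.mem_cons_of_mem _ (List.mem_cons_of_mem _ (List.mem_cons_of_mem _ (List.mem_cons_of_mem _ (List.mem_cons_of_mem _ (List.mem_cons_of_mem _ (List.mem_cons_of_mem _ (List.mem_cons_of_mem _ (List.mem_cons_of_mem _ (List.mem_cons_of_mem _ (List.mem_cons_of_mem _ (List.mem_cons_of_mem _ (List.mem_cons_of_mem _ (List.mem_cons_of_mem _ (List.mem_cons_of_mem _ (List.mem_cons_of_mem _ (List.mem_cons_of_mem _ (List.mem_cons_of_mem _ (List.mem_cons_of_mem _ (List.mem_cons_of_mem _ (List.mem_cons_of_mem _ (List.mem_cons_of_mem _ (List.mem_cons_of_mem _ (List.mem_cons_of_mem _ (List.mem_cons_self))))))))))))))))))))))))), ?_⟩, by norm_num⟩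
  constructor <;> norm_num [Q25, coCell, P1C5]

lemma lP1C5 : ∀ x1 x2 xc : ℝ, 0 ≤ x1 → x1 ≤ 1 → 0 ≤ x2 → x2 ≤ 1 → P1C5.l ≤ xc → xc ≤ P1C5.u →
    (83763 / 2048 : ℝ) * (1 - (1 - x1) ^ 2) + (0 : ℝ) * (1 - (1 - x2) ^ 2) - (12 : ℝ) * (1 - (1 - xc) ^ 2) + (1 / 1073741824 : ℝ)
      ≤ - P1C5.a1 * x1 - P1C5.a2 * x2 + P1C5.e * xc + P1C5.f := by
  have h := cell_lines_delta 2 (α1 := (83763 / 2048 : ℝ)) (α2 := (0 : ℝ)) (c := (12 : ℝ)) (y1 := (6841 / 131072 : ℝ)) (y2 := (2705 / 131072 : ℝ))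
    (A1 := (325186289 / 4194304 : ℝ)) (B1 := (29907605 / 268435456 : ℝ)) (A2 := (0 : ℝ)) (B2 := (0 : ℝ)) (l := (24557 / 262144 : ℝ)) (u := (13015 / 131072 : ℝ))
    (E := (-1421103 / 65536 : ℝ)) (F := (-29963377 / 268435456 : ℝ)) (δ := (1 / 1073741824 : ℝ)) (by norm_num) (by norm_num) (by norm_num) (by norm_num) (by norm_num)
    (by norm_num) (by norm_num) (by norm_num) (by norm_num) (by norm_num) (by norm_num) (by norm_num) (by norm_num) (by norm_num) (by norm_num)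
  have e1 : P1C5.l = (24557 / 262144 : ℝ) := rfl
  have e2 : P1C5.u = (13015 / 131072 : ℝ) := rfl
  have e3 : P1C5.a1 = -(325186289 / 4194304 : ℝ) := by norm_num [P1C5]
  have e4 : P1C5.a2 = -(0 : ℝ) := by norm_num [P1C5]
  have e5 : P1C5.e = (-1421103 / 65536 : ℝ) := rfl
  have e6 : P1C5.f = (29907605 / 268435456 : ℝ) + (0 : ℝ) + (-29963377 / 268435456 : ℝ) + (1 / 1073741824 : ℝ) := by norm_num [P1C5]
  rw [e1, e2, e3, e4, e5, e6]
  exact h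

lemma rP1C6 : ∃ N : ℝ, Rw4 P.r2 N (coCell (83763 / 2048 : ℝ) (0 : ℝ) (12 : ℝ) 0 P1C6) := by
  refine ⟨(1073741824 : ℝ), ⟨Q26, List.mem_cons_of_mem _ (List.mem_cons_of_mem _ (List.mem_cons_of_mem _ (List.mem_cons_of_mem _ (List.mem_cons_of_mem _ (List.mem_cons_of_mem _ (List.mem_cons_of_mem _ (List.mem_cons_of_mem _ (List.mem_cons_of_mem _ (List.mem_cons_of_mem _ (List.mem_cons_of_mem _ (List.mem_cons_of_mem _ (List.mem_cons_of_mem _ (List.mem_cons_of_mem _ (List.mem_cons_of_mem _ (List.mem_cons_of_mem _ (List.mem_cons_of_mem _ (List.mem_cons_of_mem _ (List.mem_cons_of_mem _ (List.mem_cons_of_mem _ (List.mem_cons_of_mem _ (List.mem_cons_of_mem _ (List.mem_cons_of_mem _ (List.mem_cons_of_mem _ (List.mem_cons_of_mem _ (List.mem_cons_of_mem _ (List.mem_cons_self)))))))))))))))))))))))))), ?_⟩, by norm_num⟩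
  constructor <;> norm_num [Q26, coCell, P1C6]

lemma lP1C6 : ∀ x1 x2 xc : ℝ, 0 ≤ x1 → x1 ≤ 1 → 0 ≤ x2 → x2 ≤ 1 → P1C6.l ≤ xc → xc ≤ P1C6.u →
    (83763 / 2048 : ℝ) * (1 - (1 - x1) ^ 2) + (0 : ℝ) * (1 - (1 - x2) ^ 2) - (12 : ℝ) * (1 - (1 - xc) ^ 2) + (1 / 1073741824 : ℝ)
      ≤ - P1C6.a1 * x1 - P1C6.a2 * x2 + P1C6.e * xc + P1C6.f := by
  have h := cell_lines_delta 2 (α1 := (83763 / 2048 : ℝ)) (α2 := (0 : ℝ)) (c := (12 : ℝ)) (y1 := (14505 / 262144 : ℝ)) (y2 := (2867 / 131072 : ℝ))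
    (A1 := (324109149 / 4194304 : ℝ)) (B1 := (16806917 / 134217728 : ℝ)) (A2 := (0 : ℝ)) (B2 := (0 : ℝ)) (l := (13015 / 131072 : ℝ)) (u := (3449 / 32768 : ℝ))
    (E := (-705999 / 32768 : ℝ)) (F := (-33666551 / 268435456 : ℝ)) (δ := (1 / 1073741824 : ℝ)) (by norm_num) (by norm_num) (by norm_num) (by norm_num) (by norm_num)
    (by norm_num) (by norm_num) (by norm_num) (by norm_num) (by norm_num) (by norm_num) (by norm_num) (by norm_num) (by norm_num) (by norm_num)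
  have e1 : P1C6.l = (13015 / 131072 : ℝ) := rfl
  have e2 : P1C6.u = (3449 / 32768 : ℝ) := rfl
  have e3 : P1C6.a1 = -(324109149 / 4194304 : ℝ) := by norm_num [P1C6]
  have e4 : P1C6.a2 = -(0 : ℝ) := by norm_num [P1C6]
  have e5 : P1C6.e = (-705999 / 32768 : ℝ) := rfl
  have e6 : P1C6.f = (16806917 / 134217728 : ℝ) + (0 : ℝ) + (-33666551 / 268435456 : ℝ) + (1 / 1073741824 : ℝ) := by norm_num [P1C6]
  rw [e1, e2, e3, e4, e5, e6]
  exact h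

lemma rP1C7 : ∃ N : ℝ, Rw4 P.r2 N (coCell (83763 / 2048 : ℝ) (0 : ℝ) (12 : ℝ) 0 P1C7) := by
  refine ⟨(3221225472 : ℝ), ⟨Q27, List.mem_cons_of_mem _ (List.mem_cons_of_mem _ (List.mem_cons_of_mem _ (List.mem_cons_of_mem _ (List.mem_cons_of_mem _ (List.mem_cons_of_mem _ (List.mem_cons_of_mem _ (List.mem_cons_of_mem _ (List.mem_cons_of_mem _ (List.mem_cons_of_mem _ (List.mem_cons_of_mem _ (List.mem_cons_of_mem _ (List.mem_cons_of_mem _ (List.mem_cons_of_mem _ (List.mem_cons_of_mem _ (List.mem_cons_of_mem _ (List.mem_cons_of_mem _ (List.mem_cons_of_mem _ (List.mem_cons_of_mem _ (List.mem_cons_of_mem _ (List.mem_cons_of_mem _ (List.mem_cons_of_mem _ (List.mem_cons_of_mem _ (List.mem_cons_of_mem _ (List.mem_cons_of_mem _ (List.mem_cons_of_mem _ (List.mem_cons_of_mem _ (List.mem_cons_self))))))))))))))))))))))))))), ?_⟩, by norm_num⟩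
  constructor <;> norm_num [Q27, coCell, P1C7]

lemma lP1C7 : ∀ x1 x2 xc : ℝ, 0 ≤ x1 → x1 ≤ 1 → 0 ≤ x2 → x2 ≤ 1 → P1C7.l ≤ xc → xc ≤ P1C7.u →
    (83763 / 2048 : ℝ) * (1 - (1 - x1) ^ 2) + (0 : ℝ) * (1 - (1 - x2) ^ 2) - (12 : ℝ) * (1 - (1 - xc) ^ 2) + (1 / 1073741824 : ℝ)
      ≤ - P1C7.a1 * x1 - P1C7.a2 * x2 + P1C7.e * xc + P1C7.f := by
  have h := cell_lines_delta 2 (α1 := (83763 / 2048 : ℝ)) (α2 := (0 : ℝ)) (c := (12 : ℝ)) (y1 := (961 / 16384 : ℝ)) (y2 := (1519 / 65536 : ℝ))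
    (A1 := (322969187 / 4194304 : ℝ)) (B1 := (37771935 / 268435456 : ℝ)) (A2 := (0 : ℝ)) (B2 := (0 : ℝ)) (l := (3449 / 32768 : ℝ)) (u := (29247 / 262144 : ℝ))
    (E := (-1402347 / 65536 : ℝ)) (F := (-18913669 / 134217728 : ℝ)) (δ := (1 / 1073741824 : ℝ)) (by norm_num) (by norm_num) (by norm_num) (by norm_num) (by norm_num)
    (by norm_num) (by norm_num) (by norm_num) (by norm_num) (by norm_num) (by norm_num) (by norm_num) (by norm_num) (by norm_num) (by norm_num)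
  have e1 : P1C7.l = (3449 / 32768 : ℝ) := rfl
  have e2 : P1C7.u = (29247 / 262144 : ℝ) := rfl
  have e3 : P1C7.a1 = -(322969187 / 4194304 : ℝ) := by norm_num [P1C7]
  have e4 : P1C7.a2 = -(0 : ℝ) := by norm_num [P1C7]
  have e5 : P1C7.e = (-1402347 / 65536 : ℝ) := rfl
  have e6 : P1C7.f = (37771935 / 268435456 : ℝ) + (0 : ℝ) + (-18913669 / 134217728 : ℝ) + (1 / 1073741824 : ℝ) := by norm_num [P1C7]
  rw [e1, e2, e3, e4, e5, e6]
  exact h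

lemma rP1C8 : ∃ N : ℝ, Rw4 P.r2 N (coCell (83763 / 2048 : ℝ) (0 : ℝ) (12 : ℝ) 0 P1C8) := by
  refine ⟨(3221225472 : ℝ), ⟨Q28, List.mem_cons_of_mem _ (List.mem_cons_of_mem _ (List.mem_cons_of_mem _ (List.mem_cons_of_mem _ (List.mem_cons_of_mem _ (List.mem_cons_of_mem _ (List.mem_cons_of_mem _ (List.mem_cons_of_mem _ (List.mem_cons_of_mem _ (List.mem_cons_of_mem _ (List.mem_cons_of_mem _ (List.mem_cons_of_mem _ (List.mem_cons_of_mem _ (List.mem_cons_of_mem _ (List.mem_cons_of_mem _ (List.mem_cons_of_mem _ (List.mem_cons_of_mem _ (List.mem_cons_of_mem _ (List.mem_cons_of_mem _ (List.mem_cons_of_mem _ (List.mem_cons_of_mem _ (List.mem_cons_of_mem _ (List.mem_cons_of_mem _ (List.mem_cons_of_mem _ (List.mem_cons_of_mem _ (List.mem_cons_of_mem _ (List.mem_cons_of_mem _ (List.mem_cons_of_mem _ (List.mem_cons_self)))))))))))))))))))))))))))), ?_⟩, by norm_num⟩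
  constructor <;> norm_num [Q28, coCell, P1C8]

lemma lP1C8 : ∀ x1 x2 xc : ℝ, 0 ≤ x1 → x1 ≤ 1 → 0 ≤ x2 → x2 ≤ 1 → P1C8.l ≤ xc → xc ≤ P1C8.u →
    (83763 / 2048 : ℝ) * (1 - (1 - x1) ^ 2) + (0 : ℝ) * (1 - (1 - x2) ^ 2) - (12 : ℝ) * (1 - (1 - xc) ^ 2) + (1 / 1073741824 : ℝ)
      ≤ - P1C8.a1 * x1 - P1C8.a2 * x2 + P1C8.e * xc + P1C8.f := by
  have h := cell_lines_delta 2 (α1 := (83763 / 2048 : ℝ)) (α2 := (0 : ℝ)) (c := (12 : ℝ)) (y1 := (4075 / 65536 : ℝ)) (y2 := (805 / 32768 : ℝ))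
    (A1 := (321759859 / 4194304 : ℝ)) (B1 := (10612007 / 67108864 : ℝ)) (A2 := (0 : ℝ)) (B2 := (0 : ℝ)) (l := (29247 / 262144 : ℝ)) (u := (15501 / 131072 : ℝ))
    (E := (-1392117 / 65536 : ℝ)) (F := (-2656393 / 16777216 : ℝ)) (δ := (1 / 1073741824 : ℝ)) (by norm_num) (by norm_num) (by norm_num) (by norm_num) (by norm_num)
    (by norm_num) (by norm_num) (by norm_num) (by norm_num) (by norm_num) (by norm_num) (by norm_num) (by norm_num) (by norm_num) (by norm_num)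
  have e1 : P1C8.l = (29247 / 262144 : ℝ) := rfl
  have e2 : P1C8.u = (15501 / 131072 : ℝ) := rfl
  have e3 : P1C8.a1 = -(321759859 / 4194304 : ℝ) := by norm_num [P1C8]
  have e4 : P1C8.a2 = -(0 : ℝ) := by norm_num [P1C8]
  have e5 : P1C8.e = (-1392117 / 65536 : ℝ) := rfl
  have e6 : P1C8.f = (10612007 / 67108864 : ℝ) + (0 : ℝ) + (-2656393 / 16777216 : ℝ) + (1 / 1073741824 : ℝ) := by norm_num [P1C8]
  rw [e1, e2, e3, e4, e5, e6]
  exact h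

lemma rP1C9 : ∃ N : ℝ, Rw4 P.r2 N (coCell (83763 / 2048 : ℝ) (0 : ℝ) (12 : ℝ) 0 P1C9) := by
  refine ⟨(3221225472 : ℝ), ⟨Q29, List.mem_cons_of_mem _ (List.mem_cons_of_mem _ (List.mem_cons_of_mem _ (List.mem_cons_of_mem _ (List.mem_cons_of_mem _ (List.mem_cons_of_mem _ (List.mem_cons_of_mem _ (List.mem_cons_of_mem _ (List.mem_cons_of_mem _ (List.mem_cons_of_mem _ (List.mem_cons_of_mem _ (List.mem_cons_of_mem _ (List.mem_cons_of_mem _ (List.mem_cons_of_mem _ (List.mem_cons_of_mem _ (List.mem_cons_of_mem _ (List.mem_cons_of_mem _ (List.mem_cons_of_mem _ (List.mem_cons_of_mem _ (List.mem_cons_of_mem _ (List.mem_cons_of_mem _ (List.mem_cons_of_mem _ (List.mem_cons_of_mem _ (List.mem_cons_of_mem _ (List.mem_cons_of_mem _ (List.mem_cons_of_mem _ (List.mem_cons_of_mem _ (List.mem_cons_of_mem _ (List.mem_cons_of_mem _ (List.mem_cons_self))))))))))))))))))))))))))))), ?_⟩, by norm_num⟩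
  constructor <;> norm_num [Q29, coCell, P1C9]

lemma lP1C9 : ∀ x1 x2 xc : ℝ, 0 ≤ x1 → x1 ≤ 1 → 0 ≤ x2 → x2 ≤ 1 → P1C9.l ≤ xc → xc ≤ P1C9.u →
    (83763 / 2048 : ℝ) * (1 - (1 - x1) ^ 2) + (0 : ℝ) * (1 - (1 - x2) ^ 2) - (12 : ℝ) * (1 - (1 - xc) ^ 2) + (1 / 1073741824 : ℝ)
      ≤ - P1C9.a1 * x1 - P1C9.a2 * x2 + P1C9.e * xc + P1C9.f := by
  have h := cell_lines_delta 2 (α1 := (83763 / 2048 : ℝ)) (α2 := (0 : ℝ)) (c := (12 : ℝ)) (y1 := (17279 / 262144 : ℝ)) (y2 := (6825 / 262144 : ℝ))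
    (A1 := (320478547 / 4194304 : ℝ)) (B1 := (47700125 / 268435456 : ℝ)) (A2 := (0 : ℝ)) (B2 := (0 : ℝ)) (l := (15501 / 131072 : ℝ)) (u := (16431 / 131072 : ℝ))
    (E := (-172659 / 8192 : ℝ)) (F := (-23877837 / 134217728 : ℝ)) (δ := (1 / 1073741824 : ℝ)) (by norm_num) (by norm_num) (by norm_num) (by norm_num) (by norm_num)
    (by norm_num) (by norm_num) (by norm_num) (by norm_num) (by norm_num) (by norm_num) (by norm_num) (by norm_num) (by norm_num) (by norm_num)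
  have e1 : P1C9.l = (15501 / 131072 : ℝ) := rfl
  have e2 : P1C9.u = (16431 / 131072 : ℝ) := rfl
  have e3 : P1C9.a1 = -(320478547 / 4194304 : ℝ) := by norm_num [P1C9]
  have e4 : P1C9.a2 = -(0 : ℝ) := by norm_num [P1C9]
  have e5 : P1C9.e = (-172659 / 8192 : ℝ) := rfl
  have e6 : P1C9.f = (47700125 / 268435456 : ℝ) + (0 : ℝ) + (-23877837 / 134217728 : ℝ) + (1 / 1073741824 : ℝ) := by norm_num [P1C9]
  rw [e1, e2, e3, e4, e5, e6]
  exact h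

lemma rP1C10 : ∃ N : ℝ, Rw4 P.r2 N (coCell (83763 / 2048 : ℝ) (0 : ℝ) (12 : ℝ) 0 P1C10) := by
  refine ⟨(3221225472 : ℝ), ⟨Q30, List.mem_cons_of_mem _ (List.mem_cons_of_mem _ (List.mem_cons_of_mem _ (List.mem_cons_of_mem _ (List.mem_cons_of_mem _ (List.mem_cons_of_mem _ (List.mem_cons_of_mem _ (List.mem_cons_of_mem _ (List.mem_cons_of_mem _ (List.mem_cons_of_mem _ (List.mem_cons_of_mem _ (List.mem_cons_of_mem _ (List.mem_cons_of_mem _ (List.mem_cons_of_mem _ (List.mem_cons_of_mem _ (List.mem_cons_of_mem _ (List.mem_cons_of_mem _ (List.mem_cons_of_mem _ (List.mem_cons_of_mem _ (List.mem_cons_of_mem _ (List.mem_cons_of_mem _ (List.mem_cons_of_mem _ (List.mem_cons_of_mem _ (List.mem_cons_of_mem _ (List.mem_cons_of_mem _ (List.mem_cons_of_mem _ (List.mem_cons_of_mem _ (List.mem_cons_of_mem _ (List.mem_cons_of_mem _ (List.mem_cons_of_mem _ (List.mem_cons_self)))))))))))))))))))))))))))))),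 ?_⟩, by norm_num⟩
  constructor <;> norm_num [Q30, coCell, P1C10]

lemma lP1C10 : ∀ x1 x2 xc : ℝ, 0 ≤ x1 → x1 ≤ 1 → 0 ≤ x2 → x2 ≤ 1 → P1C10.l ≤ xc → xc ≤ P1C10.u →
    (83763 / 2048 : ℝ) * (1 - (1 - x1) ^ 2) + (0 : ℝ) * (1 - (1 - x2) ^ 2) - (12 : ℝ) * (1 - (1 - xc) ^ 2) + (1 / 1073741824 : ℝ)
      ≤ - P1C10.a1 * x1 - P1C10.a2 * x2 + P1C10.e * xc + P1C10.f := by
  have h := cell_lines_delta 2 (α1 := (83763 / 2048 : ℝ)) (α2 := (0 : ℝ)) (c := (12 : ℝ)) (y1 := (18317 / 262144 : ℝ)) (y2 := (7233 / 262144 : ℝ))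
    (A1 := (19945001 / 262144 : ℝ)) (B1 := (53603235 / 268435456 : ℝ)) (A2 := (0 : ℝ)) (B2 := (0 : ℝ)) (l := (16431 / 131072 : ℝ)) (u := (17417 / 131072 : ℝ))
    (E := (-85611 / 4096 : ℝ)) (F := (-53658511 / 268435456 : ℝ)) (δ := (1 / 1073741824 : ℝ)) (by norm_num) (by norm_num) (by norm_num) (by norm_num) (by norm_num)
    (by norm_num) (by norm_num) (by norm_num) (by norm_num) (by norm_num) (by norm_num) (by norm_num) (by norm_num) (by norm_num) (by norm_num)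
  have e1 : P1C10.l = (16431 / 131072 : ℝ) := rfl
  have e2 : P1C10.u = (17417 / 131072 : ℝ) := rfl
  have e3 : P1C10.a1 = -(19945001 / 262144 : ℝ) := by norm_num [P1C10]
  have e4 : P1C10.a2 = -(0 : ℝ) := by norm_num [P1C10]
  have e5 : P1C10.e = (-85611 / 4096 : ℝ) := rfl
  have e6 : P1C10.f = (53603235 / 268435456 : ℝ) + (0 : ℝ) + (-53658511 / 268435456 : ℝ) + (1 / 1073741824 : ℝ) := by norm_num [P1C10]
  rw [e1, e2, e3, e4, e5, e6]
  exact h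

lemma rP1C11 : ∃ N : ℝ, Rw4 P.r2 N (coCell (83763 / 2048 : ℝ) (0 : ℝ) (12 : ℝ) 0 P1C11) := by
  refine ⟨(1073741824 : ℝ), ⟨Q31, List.mem_cons_of_mem _ (List.mem_cons_of_mem _ (List.mem_cons_of_mem _ (List.mem_cons_of_mem _ (List.mem_cons_of_mem _ (List.mem_cons_of_mem _ (List.mem_cons_of_mem _ (List.mem_cons_of_mem _ (List.mem_cons_of_mem _ (List.mem_cons_of_mem _ (List.mem_cons_of_mem _ (List.mem_cons_of_mem _ (List.mem_cons_of_mem _ (List.mem_cons_of_mem _ (List.mem_cons_of_mem _ (List.mem_cons_of_mem _ (List.mem_cons_of_mem _ (List.mem_cons_of_mem _ (List.mem_cons_of_mem _ (List.mem_cons_of_mem _ (List.mem_cons_of_mem _ (List.mem_cons_of_mem _ (List.mem_cons_of_mem _ (List.mem_cons_of_mem _ (List.mem_cons_of_mem _ (List.mem_cons_of_mem _ (List.mem_cons_of_mem _ (List.mem_cons_of_mem _ (List.mem_cons_of_mem _ (List.mem_cons_of_mem _ (List.mem_cons_of_mem _ (List.mem_cons_self))))))))))))))))))))))))))))))),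 ?_⟩, by norm_num⟩
  constructor <;> norm_num [Q31, coCell, P1C11]

lemma lP1C11 : ∀ x1 x2 xc : ℝ, 0 ≤ x1 → x1 ≤ 1 → 0 ≤ x2 → x2 ≤ 1 → P1C11.l ≤ xc → xc ≤ P1C11.u →
    (83763 / 2048 : ℝ) * (1 - (1 - x1) ^ 2) + (0 : ℝ) * (1 - (1 - x2) ^ 2) - (12 : ℝ) * (1 - (1 - xc) ^ 2) + (1 / 1073741824 : ℝ)
      ≤ - P1C11.a1 * x1 - P1C11.a2 * x2 + P1C11.e * xc + P1C11.f := by
  have h := cell_lines_delta 2 (α1 := (83763 / 2048 : ℝ)) (α2 := (0 : ℝ)) (c := (12 : ℝ)) (y1 := (9679 / 131072 : ℝ)) (y2 := (7725 / 262144 : ℝ))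
    (A1 := (158878779 / 2097152 : ℝ)) (B1 := (29934591 / 134217728 : ℝ)) (A2 := (0 : ℝ)) (B2 := (0 : ℝ)) (l := (17417 / 131072 : ℝ)) (u := (9175 / 65536 : ℝ))
    (E := (-679131 / 32768 : ℝ)) (F := (-59925365 / 268435456 : ℝ)) (δ := (1 / 1073741824 : ℝ)) (by norm_num) (by norm_num) (by norm_num) (by norm_num) (by norm_num)
    (by norm_num) (by norm_num) (by norm_num) (by norm_num) (by norm_num) (by norm_num) (by norm_num) (by norm_num) (by norm_num) (by norm_num)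
  have e1 : P1C11.l = (17417 / 131072 : ℝ) := rfl
  have e2 : P1C11.u = (9175 / 65536 : ℝ) := rfl
  have e3 : P1C11.a1 = -(158878779 / 2097152 : ℝ) := by norm_num [P1C11]
  have e4 : P1C11.a2 = -(0 : ℝ) := by norm_num [P1C11]
  have e5 : P1C11.e = (-679131 / 32768 : ℝ) := rfl
  have e6 : P1C11.f = (29934591 / 134217728 : ℝ) + (0 : ℝ) + (-59925365 / 268435456 : ℝ) + (1 / 1073741824 : ℝ) := by norm_num [P1C11]
  rw [e1, e2, e3, e4, e5, e6]
  exact h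

/-- A link of the chain. -/
lemma link1 {lam : ℝ} (h0 : -(1 / 2) < lam) (h1 : lam < 1) (hB : BoxS lam P 0 HH 0 HH)
    (h : ∃ n, 1 - En 2 lam n mc ≤ (9175 / 65536 : ℝ)) : ∃ n, 1 - En 2 lam n mc ≤ (9175 / 131072 : ℝ) :=
  phase_of_box (by norm_num) h0 h1 hB (83763 / 2048 : ℝ) (0 : ℝ) (12 : ℝ) (1 / 1073741824 : ℝ) (9175 / 131072 : ℝ) (9175 / 65536 : ℝ) (by norm_num) cellsP1 hcoverP1
    (forall_cons lP1C0 (forall_cons lP1C1 (forall_cons lP1C2 (forall_cons lP1C3 (forall_cons lP1C4 (forall_cons lP1C5 (forall_cons lP1C6 (forall_cons lP1C7 (forall_cons lP1C8 (forall_cons lP1C9 (forall_cons lP1C10 (forall_cons lP1C11 (forall_nil))))))))))))) (forall_cons rP1C0 (forall_cons rP1C1 (forall_cons rP1C2 (forall_cons rP1C3 (forall_cons rP1C4 (forall_cons rP1C5 (forall_cons rP1C6 (forall_cons rP1C7 (forall_cons rP1C8 (forall_cons rP1C9 (forall_cons rP1C10 (forall_cons rP1C11 (forall_nil)))))))))))))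 h

/-- A chord cell of a link. -/
noncomputable def P2C0 : Cell := ⟨(9175 / 65536 : ℝ), (19451 / 131072 : ℝ), (-157755837 / 2097152 : ℝ), (0 : ℝ), (-673029 / 32768 : ℝ), (-202723 / 1073741824 : ℝ)⟩

/-- A chord cell of a link. -/
noncomputable def P2C1 : Cell := ⟨(19451 / 131072 : ℝ), (10309 / 65536 : ℝ), (-39238223 / 524288 : ℝ), (0 : ℝ), (-666225 / 32768 : ℝ), (-200327 / 1073741824 : ℝ)⟩

/-- A chord cell of a link. -/
noncomputable def P2C2 : Cell := ⟨(10309 / 65536 : ℝ), (21855 / 131072 : ℝ), (-312204585 / 4194304 : ℝ), (0 : ℝ), (-659013 / 32768 : ℝ), (-218175 / 1073741824 : ℝ)⟩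

/-- A chord cell of a link. -/
noncomputable def P2C3 : Cell := ⟨(21855 / 131072 : ℝ), (46333 / 262144 : ℝ), (-310400243 / 4194304 : ℝ), (0 : ℝ), (-1302735 / 65536 : ℝ), (-216423 / 1073741824 : ℝ)⟩

/-- A chord cell of a link. -/
noncomputable def P2C4 : Cell := ⟨(46333 / 262144 : ℝ), (49113 / 262144 : ℝ), (-308487537 / 4194304 : ℝ), (0 : ℝ), (-643263 / 32768 : ℝ), (-212163 / 1073741824 : ℝ)⟩

/-- A chord cell of a link. -/
noncomputable def P2C5 : Cell := ⟨(49113 / 262144 : ℝ), (13015 / 65536 : ℝ), (-153229969 / 2097152 : ℝ), (0 : ℝ), (-1269345 / 65536 : ℝ), (-200111 / 1073741824 : ℝ)⟩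

/-- A chord cell of a link. -/
noncomputable def P2C6 : Cell := ⟨(13015 / 65536 : ℝ), (55183 / 262144 : ℝ), (-304312223 / 4194304 : ℝ), (0 : ℝ), (-1251135 / 65536 : ℝ), (-221907 / 1073741824 : ℝ)⟩

/-- A chord cell of a link. -/
noncomputable def P2C7 : Cell := ⟨(55183 / 262144 : ℝ), (29247 / 131072 : ℝ), (-302033949 / 4194304 : ℝ), (0 : ℝ), (-1231833 / 65536 : ℝ), (-192799 / 1073741824 : ℝ)⟩

/-- A chord cell of a link. -/
noncomputable def P2C8 : Cell := ⟨(29247 / 131072 : ℝ), (15501 / 65536 : ℝ), (-299619891 / 4194304 : ℝ), (0 : ℝ), (-605685 / 32768 : ℝ), (-196567 / 1073741824 : ℝ)⟩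

/-- A chord cell of a link. -/
noncomputable def P2C9 : Cell := ⟨(15501 / 65536 : ℝ), (16431 / 65536 : ℝ), (-18566307 / 262144 : ℝ), (0 : ℝ), (-74355 / 4096 : ℝ), (-194291 / 1073741824 : ℝ)⟩

/-- A chord cell of a link. -/
noncomputable def P2C10 : Cell := ⟨(16431 / 65536 : ℝ), (17417 / 65536 : ℝ), (-147174589 / 2097152 : ℝ), (0 : ℝ), (-36459 / 2048 : ℝ), (-220291 / 1073741824 : ℝ)⟩

/-- A chord cell of a link. -/
noncomputable def P2C11 : Cell := ⟨(17417 / 65536 : ℝ), (9175 / 32768 : ℝ), (-18226769 / 262144 : ℝ), (0 : ℝ), (-285915 / 16384 : ℝ), (-224115 / 1073741824 : ℝ)⟩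

/-- The chord cells of a link. -/
noncomputable def cellsP2 : List Cell := [P2C0, P2C1, P2C2, P2C3, P2C4, P2C5, P2C6, P2C7, P2C8, P2C9, P2C10, P2C11]

lemma hcoverP2 : ∀ x : ℝ, (9175 / 65536 : ℝ) ≤ x → x ≤ (9175 / 32768 : ℝ) → ∃ D ∈ cellsP2, D.l ≤ x ∧ x ≤ D.u := by
  refine cover_of_chain ?_ (by norm_num [P2C0])
  simp only [ChainP, P2C0, P2C1, P2C2, P2C3, P2C4, P2C5, P2C6, P2C7, P2C8, P2C9, P2C10, P2C11]
  norm_num

lemma rP2C0 : ∃ N : ℝ, Rw4 P.r2 N (coCell (167117 / 4096 : ℝ) (0 : ℝ) (12 : ℝ) 0 P2C0) := by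
  refine ⟨(3221225472 : ℝ), ⟨Q32, List.mem_cons_of_mem _ (List.mem_cons_of_mem _ (List.mem_cons_of_mem _ (List.mem_cons_of_mem _ (List.mem_cons_of_mem _ (List.mem_cons_of_mem _ (List.mem_cons_of_mem _ (List.mem_cons_of_mem _ (List.mem_cons_of_mem _ (List.mem_cons_of_mem _ (List.mem_cons_of_mem _ (List.mem_cons_of_mem _ (List.mem_cons_of_mem _ (List.mem_cons_of_mem _ (List.mem_cons_of_mem _ (List.mem_cons_of_mem _ (List.mem_cons_of_mem _ (List.mem_cons_of_mem _ (List.mem_cons_of_mem _ (List.mem_cons_of_mem _ (List.mem_cons_of_mem _ (List.mem_cons_of_mem _ (List.mem_cons_of_mem _ (List.mem_cons_of_mem _ (List.mem_cons_of_mem _ (List.mem_cons_of_mem _ (List.mem_cons_of_mem _ (List.mem_cons_of_mem _ (List.mem_cons_of_mem _ (List.mem_cons_of_mem _ (List.mem_cons_of_mem _ (List.mem_cons_of_mem _ (List.mem_cons_self)))))))))))))))))))))))))))))))), ?_⟩, by norm_num⟩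
  constructor <;> norm_num [Q32, coCell, P2C0]

lemma lP2C0 : ∀ x1 x2 xc : ℝ, 0 ≤ x1 → x1 ≤ 1 → 0 ≤ x2 → x2 ≤ 1 → P2C0.l ≤ xc → xc ≤ P2C0.u →
    (167117 / 4096 : ℝ) * (1 - (1 - x1) ^ 2) + (0 : ℝ) * (1 - (1 - x2) ^ 2) - (12 : ℝ) * (1 - (1 - xc) ^ 2) + (1 / 1073741824 : ℝ)
      ≤ - P2C0.a1 * x1 - P2C0.a2 * x2 + P2C0.e * xc + P2C0.f := by
  have h := cell_lines_delta 2 (α1 := (167117 / 4096 : ℝ)) (α2 := (0 : ℝ)) (c := (12 : ℝ)) (y1 := (5121 / 65536 : ℝ)) (y2 := (10987 / 262144 : ℝ))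
    (A1 := (157755837 / 2097152 : ℝ)) (B1 := (66872915 / 268435456 : ℝ)) (A2 := (0 : ℝ)) (B2 := (0 : ℝ)) (l := (9175 / 65536 : ℝ)) (u := (19451 / 131072 : ℝ))
    (E := (-673029 / 32768 : ℝ)) (F := (-16730899 / 67108864 : ℝ)) (δ := (1 / 1073741824 : ℝ)) (by norm_num) (by norm_num) (by norm_num) (by norm_num) (by norm_num)
    (by norm_num) (by norm_num) (by norm_num) (by norm_num) (by norm_num) (by norm_num) (by norm_num) (by norm_num) (by norm_num) (by norm_num)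
  have e1 : P2C0.l = (9175 / 65536 : ℝ) := rfl
  have e2 : P2C0.u = (19451 / 131072 : ℝ) := rfl
  have e3 : P2C0.a1 = -(157755837 / 2097152 : ℝ) := by norm_num [P2C0]
  have e4 : P2C0.a2 = -(0 : ℝ) := by norm_num [P2C0]
  have e5 : P2C0.e = (-673029 / 32768 : ℝ) := rfl
  have e6 : P2C0.f = (66872915 / 268435456 : ℝ) + (0 : ℝ) + (-16730899 / 67108864 : ℝ) + (1 / 1073741824 : ℝ) := by norm_num [P2C0]
  rw [e1, e2, e3, e4, e5, e6]
  exact h

lemma rP2C1 : ∃ N : ℝ, Rw4 P.r2 N (coCell (167117 / 4096 : ℝ) (0 : ℝ) (12 : ℝ) 0 P2C1) := by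
  refine ⟨(3221225472 : ℝ), ⟨Q33, List.mem_cons_of_mem _ (List.mem_cons_of_mem _ (List.mem_cons_of_mem _ (List.mem_cons_of_mem _ (List.mem_cons_of_mem _ (List.mem_cons_of_mem _ (List.mem_cons_of_mem _ (List.mem_cons_of_mem _ (List.mem_cons_of_mem _ (List.mem_cons_of_mem _ (List.mem_cons_of_mem _ (List.mem_cons_of_mem _ (List.mem_cons_of_mem _ (List.mem_cons_of_mem _ (List.mem_cons_of_mem _ (List.mem_cons_of_mem _ (List.mem_cons_of_mem _ (List.mem_cons_of_mem _ (List.mem_cons_of_mem _ (List.mem_cons_of_mem _ (List.mem_cons_of_mem _ (List.mem_cons_of_mem _ (List.mem_cons_of_mem _ (List.mem_cons_of_mem _ (List.mem_cons_of_mem _ (List.mem_cons_of_mem _ (List.mem_cons_of_mem _ (List.mem_cons_of_mem _ (List.mem_cons_of_mem _ (List.mem_cons_of_mem _ (List.mem_cons_of_mem _ (List.mem_cons_of_mem _ (List.mem_cons_of_mem _ (List.mem_cons_self))))))))))))))))))))))))))))))))), ?_⟩, by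 norm_num⟩
  constructor <;> norm_num [Q33, coCell, P2C1]

lemma lP2C1 : ∀ x1 x2 xc : ℝ, 0 ≤ x1 → x1 ≤ 1 → 0 ≤ x2 → x2 ≤ 1 → P2C1.l ≤ xc → xc ≤ P2C1.u →
    (167117 / 4096 : ℝ) * (1 - (1 - x1) ^ 2) + (0 : ℝ) * (1 - (1 - x2) ^ 2) - (12 : ℝ) * (1 - (1 - xc) ^ 2) + (1 / 1073741824 : ℝ)
      ≤ - P2C1.a1 * x1 - P2C1.a2 * x2 + P2C1.e * xc + P2C1.f := by
  have h := cell_lines_delta 2 (α1 := (167117 / 4096 : ℝ)) (α2 := (0 : ℝ)) (c := (12 : ℝ)) (y1 := (10857 / 131072 : ℝ)) (y2 := (11645 / 262144 : ℝ))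
    (A1 := (39238223 / 524288 : ℝ)) (B1 := (18786263 / 67108864 : ℝ)) (A2 := (0 : ℝ)) (B2 := (0 : ℝ)) (l := (19451 / 131072 : ℝ)) (u := (10309 / 65536 : ℝ))
    (E := (-666225 / 32768 : ℝ)) (F := (-37597567 / 134217728 : ℝ)) (δ := (1 / 1073741824 : ℝ)) (by norm_num) (by norm_num) (by norm_num) (by norm_num) (by norm_num)
    (by norm_num) (by norm_num) (by norm_num) (by norm_num) (by norm_num) (by norm_num) (by norm_num) (by norm_num) (by norm_num) (by norm_num)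
  have e1 : P2C1.l = (19451 / 131072 : ℝ) := rfl
  have e2 : P2C1.u = (10309 / 65536 : ℝ) := rfl
  have e3 : P2C1.a1 = -(39238223 / 524288 : ℝ) := by norm_num [P2C1]
  have e4 : P2C1.a2 = -(0 : ℝ) := by norm_num [P2C1]
  have e5 : P2C1.e = (-666225 / 32768 : ℝ) := rfl
  have e6 : P2C1.f = (18786263 / 67108864 : ℝ) + (0 : ℝ) + (-37597567 / 134217728 : ℝ) + (1 / 1073741824 : ℝ) := by norm_num [P2C1]
  rw [e1, e2, e3, e4, e5, e6]
  exact h

lemma rP2C2 : ∃ N : ℝ, Rw4 P.r2 N (coCell (167117 / 4096 : ℝ) (0 : ℝ) (12 : ℝ) 0 P2C2) := by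
  refine ⟨(3221225472 : ℝ), ⟨Q34, List.mem_cons_of_mem _ (List.mem_cons_of_mem _ (List.mem_cons_of_mem _ (List.mem_cons_of_mem _ (List.mem_cons_of_mem _ (List.mem_cons_of_mem _ (List.mem_cons_of_mem _ (List.mem_cons_of_mem _ (List.mem_cons_of_mem _ (List.mem_cons_of_mem _ (List.mem_cons_of_mem _ (List.mem_cons_of_mem _ (List.mem_cons_of_mem _ (List.mem_cons_of_mem _ (List.mem_cons_of_mem _ (List.mem_cons_of_mem _ (List.mem_cons_of_mem _ (List.mem_cons_of_mem _ (List.mem_cons_of_mem _ (List.mem_cons_of_mem _ (List.mem_cons_of_mem _ (List.mem_cons_of_mem _ (List.mem_cons_of_mem _ (List.mem_cons_of_mem _ (List.mem_cons_of_mem _ (List.mem_cons_of_mem _ (List.mem_cons_of_mem _ (List.mem_cons_of_mem _ (List.mem_cons_of_mem _ (List.mem_cons_of_mem _ (List.mem_cons_of_mem _ (List.mem_cons_of_mem _ (List.mem_cons_of_mem _ (List.mem_cons_of_mem _ (List.mem_cons_self)))))))))))))))))))))))))))))))))),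 ?_⟩, by norm_num⟩
  constructor <;> norm_num [Q34, coCell, P2C2]

lemma lP2C2 : ∀ x1 x2 xc : ℝ, 0 ≤ x1 → x1 ≤ 1 → 0 ≤ x2 → x2 ≤ 1 → P2C2.l ≤ xc → xc ≤ P2C2.u →
    (167117 / 4096 : ℝ) * (1 - (1 - x1) ^ 2) + (0 : ℝ) * (1 - (1 - x2) ^ 2) - (12 : ℝ) * (1 - (1 - xc) ^ 2) + (1 / 1073741824 : ℝ)
      ≤ - P2C2.a1 * x1 - P2C2.a2 * x2 + P2C2.e * xc + P2C2.f := by
  have h := cell_lines_delta 2 (α1 := (167117 / 4096 : ℝ)) (α2 := (0 : ℝ)) (c := (12 : ℝ)) (y1 := (23017 / 262144 : ℝ)) (y2 := (12343 / 262144 : ℝ))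
    (A1 := (312204585 / 4194304 : ℝ)) (B1 := (42217077 / 134217728 : ℝ)) (A2 := (0 : ℝ)) (B2 := (0 : ℝ)) (l := (10309 / 65536 : ℝ)) (u := (21855 / 131072 : ℝ))
    (E := (-659013 / 32768 : ℝ)) (F := (-42244349 / 134217728 : ℝ)) (δ := (1 / 1073741824 : ℝ)) (by norm_num) (by norm_num) (by norm_num) (by norm_num) (by norm_num)
    (by norm_num) (by norm_num) (by norm_num) (by norm_num) (by norm_num) (by norm_num) (by norm_num) (by norm_num) (by norm_num) (by norm_num)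
  have e1 : P2C2.l = (10309 / 65536 : ℝ) := rfl
  have e2 : P2C2.u = (21855 / 131072 : ℝ) := rfl
  have e3 : P2C2.a1 = -(312204585 / 4194304 : ℝ) := by norm_num [P2C2]
  have e4 : P2C2.a2 = -(0 : ℝ) := by norm_num [P2C2]
  have e5 : P2C2.e = (-659013 / 32768 : ℝ) := rfl
  have e6 : P2C2.f = (42217077 / 134217728 : ℝ) + (0 : ℝ) + (-42244349 / 134217728 : ℝ) + (1 / 1073741824 : ℝ) := by norm_num [P2C2]
  rw [e1, e2, e3, e4, e5, e6]
  exact h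

lemma rP2C3 : ∃ N : ℝ, Rw4 P.r2 N (coCell (167117 / 4096 : ℝ) (0 : ℝ) (12 : ℝ) 0 P2C3) := by
  refine ⟨(3221225472 : ℝ), ⟨Q35, List.mem_cons_of_mem _ (List.mem_cons_of_mem _ (List.mem_cons_of_mem _ (List.mem_cons_of_mem _ (List.mem_cons_of_mem _ (List.mem_cons_of_mem _ (List.mem_cons_of_mem _ (List.mem_cons_of_mem _ (List.mem_cons_of_mem _ (List.mem_cons_of_mem _ (List.mem_cons_of_mem _ (List.mem_cons_of_mem _ (List.mem_cons_of_mem _ (List.mem_cons_of_mem _ (List.mem_cons_of_mem _ (List.mem_cons_of_mem _ (List.mem_cons_of_mem _ (List.mem_cons_of_mem _ (List.mem_cons_of_mem _ (List.mem_cons_of_mem _ (List.mem_cons_of_mem _ (List.mem_cons_of_mem _ (List.mem_cons_of_mem _ (List.mem_cons_of_mem _ (List.mem_cons_of_mem _ (List.mem_cons_of_mem _ (List.mem_cons_of_mem _ (List.mem_cons_of_mem _ (List.mem_cons_of_mem _ (List.mem_cons_of_mem _ (List.mem_cons_of_mem _ (List.mem_cons_of_mem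 _ (List.mem_cons_of_mem _ (List.mem_cons_of_mem _ (List.mem_cons_of_mem _ (List.mem_cons_self))))))))))))))))))))))))))))))))))), ?_⟩, by norm_num⟩
  constructor <;> norm_num [Q35, coCell, P2C3]

lemma lP2C3 : ∀ x1 x2 xc : ℝ, 0 ≤ x1 → x1 ≤ 1 → 0 ≤ x2 → x2 ≤ 1 → P2C3.l ≤ xc → xc ≤ P2C3.u →
    (167117 / 4096 : ℝ) * (1 - (1 - x1) ^ 2) + (0 : ℝ) * (1 - (1 - x2) ^ 2) - (12 : ℝ) * (1 - (1 - xc) ^ 2) + (1 / 1073741824 : ℝ)
      ≤ - P2C3.a1 * x1 - P2C3.a2 * x2 + P2C3.e * xc + P2C3.f := by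
  have h := cell_lines_delta 2 (α1 := (167117 / 4096 : ℝ)) (α2 := (0 : ℝ)) (c := (12 : ℝ)) (y1 := (24399 / 262144 : ℝ)) (y2 := (13083 / 262144 : ℝ))
    (A1 := (310400243 / 4194304 : ℝ)) (B1 := (94877867 / 268435456 : ℝ)) (A2 := (0 : ℝ)) (B2 := (0 : ℝ)) (l := (21855 / 131072 : ℝ)) (u := (46333 / 262144 : ℝ))
    (E := (-1302735 / 65536 : ℝ)) (F := (-94931973 / 268435456 : ℝ)) (δ := (1 / 1073741824 : ℝ)) (by norm_num) (by norm_num) (by norm_num) (by norm_num) (by norm_num)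
    (by norm_num) (by norm_num) (by norm_num) (by norm_num) (by norm_num) (by norm_num) (by norm_num) (by norm_num) (by norm_num) (by norm_num)
  have e1 : P2C3.l = (21855 / 131072 : ℝ) := rfl
  have e2 : P2C3.u = (46333 / 262144 : ℝ) := rfl
  have e3 : P2C3.a1 = -(310400243 / 4194304 : ℝ) := by norm_num [P2C3]
  have e4 : P2C3.a2 = -(0 : ℝ) := by norm_num [P2C3]
  have e5 : P2C3.e = (-1302735 / 65536 : ℝ) := rfl
  have e6 : P2C3.f = (94877867 / 268435456 : ℝ) + (0 : ℝ) + (-94931973 / 268435456 : ℝ) + (1 / 1073741824 : ℝ) := by norm_num [P2C3]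
  rw [e1, e2, e3, e4, e5, e6]
  exact h

lemma rP2C4 : ∃ N : ℝ, Rw4 P.r2 N (coCell (167117 / 4096 : ℝ) (0 : ℝ) (12 : ℝ) 0 P2C4) := by
  refine ⟨(3221225472 : ℝ), ⟨Q36, List.mem_cons_of_mem _ (List.mem_cons_of_mem _ (List.mem_cons_of_mem _ (List.mem_cons_of_mem _ (List.mem_cons_of_mem _ (List.mem_cons_of_mem _ (List.mem_cons_of_mem _ (List.mem_cons_of_mem _ (List.mem_cons_of_mem _ (List.mem_cons_of_mem _ (List.mem_cons_of_mem _ (List.mem_cons_of_mem _ (List.mem_cons_of_mem _ (List.mem_cons_of_mem _ (List.mem_cons_of_mem _ (List.mem_cons_of_mem _ (List.mem_cons_of_mem _ (List.mem_cons_of_mem _ (List.mem_cons_of_mem _ (List.mem_cons_of_mem _ (List.mem_cons_of_mem _ (List.mem_cons_of_mem _ (List.mem_cons_of_mem _ (List.mem_cons_of_mem _ (List.mem_cons_of_mem _ (List.mem_cons_of_mem _ (List.mem_cons_of_mem _ (List.mem_cons_of_mem _ (List.mem_cons_of_mem _ (List.mem_cons_of_mem _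 (List.mem_cons_of_mem _ (List.mem_cons_of_mem _ (List.mem_cons_of_mem _ (List.mem_cons_of_mem _ (List.mem_cons_of_mem _ (List.mem_cons_of_mem _ (List.mem_cons_self)))))))))))))))))))))))))))))))))))), ?_⟩, by norm_num⟩
  constructor <;> norm_num [Q36, coCell, P2C4]

lemma lP2C4 : ∀ x1 x2 xc : ℝ, 0 ≤ x1 → x1 ≤ 1 → 0 ≤ x2 → x2 ≤ 1 → P2C4.l ≤ xc → xc ≤ P2C4.u →
    (167117 / 4096 : ℝ) * (1 - (1 - x1) ^ 2) + (0 : ℝ) * (1 - (1 - x2) ^ 2) - (12 : ℝ) * (1 - (1 - xc) ^ 2) + (1 / 1073741824 : ℝ)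
      ≤ - P2C4.a1 * x1 - P2C4.a2 * x2 + P2C4.e * xc + P2C4.f := by
  have h := cell_lines_delta 2 (α1 := (167117 / 4096 : ℝ)) (α2 := (0 : ℝ)) (c := (12 : ℝ)) (y1 := (3233 / 32768 : ℝ)) (y2 := (13867 / 262144 : ℝ))
    (A1 := (308487537 / 4194304 : ℝ)) (B1 := (6663343 / 16777216 : ℝ)) (A2 := (0 : ℝ)) (B2 := (0 : ℝ)) (l := (46333 / 262144 : ℝ)) (u := (49113 / 262144 : ℝ))
    (E := (-643263 / 32768 : ℝ)) (F := (-106666529 / 268435456 : ℝ)) (δ := (1 / 1073741824 : ℝ)) (by norm_num) (by norm_num) (by norm_num) (by norm_num) (by norm_num)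
    (by norm_num) (by norm_num) (by norm_num) (by norm_num) (by norm_num) (by norm_num) (by norm_num) (by norm_num) (by norm_num) (by norm_num)
  have e1 : P2C4.l = (46333 / 262144 : ℝ) := rfl
  have e2 : P2C4.u = (49113 / 262144 : ℝ) := rfl
  have e3 : P2C4.a1 = -(308487537 / 4194304 : ℝ) := by norm_num [P2C4]
  have e4 : P2C4.a2 = -(0 : ℝ) := by norm_num [P2C4]
  have e5 : P2C4.e = (-643263 / 32768 : ℝ) := rfl
  have e6 : P2C4.f = (6663343 / 16777216 : ℝ) + (0 : ℝ) + (-106666529 / 268435456 : ℝ) + (1 / 1073741824 : ℝ) := by norm_num [P2C4]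
  rw [e1, e2, e3, e4, e5, e6]
  exact h

lemma rP2C5 : ∃ N : ℝ, Rw4 P.r2 N (coCell (167117 / 4096 : ℝ) (0 : ℝ) (12 : ℝ) 0 P2C5) := by
  refine ⟨(3221225472 : ℝ), ⟨Q37, List.mem_cons_of_mem _ (List.mem_cons_of_mem _ (List.mem_cons_of_mem _ (List.mem_cons_of_mem _ (List.mem_cons_of_mem _ (List.mem_cons_of_mem _ (List.mem_cons_of_mem _ (List.mem_cons_of_mem _ (List.mem_cons_of_mem _ (List.mem_cons_of_mem _ (List.mem_cons_of_mem _ (List.mem_cons_of_mem _ (List.mem_cons_of_mem _ (List.mem_cons_of_mem _ (List.mem_cons_of_mem _ (List.mem_cons_of_mem _ (List.mem_cons_of_mem _ (List.mem_cons_of_mem _ (List.mem_cons_of_mem _ (List.mem_cons_of_mem _ (List.mem_cons_of_mem _ (List.mem_cons_of_mem _ (List.mem_cons_of_mem _ (List.mem_cons_of_mem _ (List.mem_cons_of_mem _ (List.mem_cons_of_mem _ (List.mem_cons_of_mem _ (List.mem_cons_of_mem _ (List.mem_cons_of_mem _ (List.mem_cons_of_mem _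 (List.mem_cons_of_mem _ (List.mem_cons_of_mem _ (List.mem_cons_of_mem _ (List.mem_cons_of_mem _ (List.mem_cons_of_mem _ (List.mem_cons_of_mem _ (List.mem_cons_of_mem _ (List.mem_cons_self))))))))))))))))))))))))))))))))))))), ?_⟩, by norm_num⟩
  constructor <;> norm_num [Q37, coCell, P2C5]

lemma lP2C5 : ∀ x1 x2 xc : ℝ, 0 ≤ x1 → x1 ≤ 1 → 0 ≤ x2 → x2 ≤ 1 → P2C5.l ≤ xc → xc ≤ P2C5.u →
    (167117 / 4096 : ℝ) * (1 - (1 - x1) ^ 2) + (0 : ℝ) * (1 - (1 - x2) ^ 2) - (12 : ℝ) * (1 - (1 - xc) ^ 2) + (1 / 1073741824 : ℝ)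
      ≤ - P2C5.a1 * x1 - P2C5.a2 * x2 + P2C5.e * xc + P2C5.f := by
  have h := cell_lines_delta 2 (α1 := (167117 / 4096 : ℝ)) (α2 := (0 : ℝ)) (c := (12 : ℝ)) (y1 := (27417 / 262144 : ℝ)) (y2 := (7349 / 131072 : ℝ))
    (A1 := (153229969 / 2097152 : ℝ)) (B1 := (119801039 / 268435456 : ℝ)) (A2 := (0 : ℝ)) (B2 := (0 : ℝ)) (l := (49113 / 262144 : ℝ)) (u := (13015 / 65536 : ℝ))
    (E := (-1269345 / 65536 : ℝ)) (F := (-119851067 / 268435456 : ℝ)) (δ := (1 / 1073741824 : ℝ)) (by norm_num) (by norm_num) (by norm_num) (by norm_num) (by norm_num)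
    (by norm_num) (by norm_num) (by norm_num) (by norm_num) (by norm_num) (by norm_num) (by norm_num) (by norm_num) (by norm_num) (by norm_num)
  have e1 : P2C5.l = (49113 / 262144 : ℝ) := rfl
  have e2 : P2C5.u = (13015 / 65536 : ℝ) := rfl
  have e3 : P2C5.a1 = -(153229969 / 2097152 : ℝ) := by norm_num [P2C5]
  have e4 : P2C5.a2 = -(0 : ℝ) := by norm_num [P2C5]
  have e5 : P2C5.e = (-1269345 / 65536 : ℝ) := rfl
  have e6 : P2C5.f = (119801039 / 268435456 : ℝ) + (0 : ℝ) + (-119851067 / 268435456 : ℝ) + (1 / 1073741824 : ℝ) := by norm_num [P2C5]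
  rw [e1, e2, e3, e4, e5, e6]
  exact h

lemma rP2C6 : ∃ N : ℝ, Rw4 P.r2 N (coCell (167117 / 4096 : ℝ) (0 : ℝ) (12 : ℝ) 0 P2C6) := by
  refine ⟨(3221225472 : ℝ), ⟨Q38, List.mem_cons_of_mem _ (List.mem_cons_of_mem _ (List.mem_cons_of_mem _ (List.mem_cons_of_mem _ (List.mem_cons_of_mem _ (List.mem_cons_of_mem _ (List.mem_cons_of_mem _ (List.mem_cons_of_mem _ (List.mem_cons_of_mem _ (List.mem_cons_of_mem _ (List.mem_cons_of_mem _ (List.mem_cons_of_mem _ (List.mem_cons_of_mem _ (List.mem_cons_of_mem _ (List.mem_cons_of_mem _ (List.mem_cons_of_mem _ (List.mem_cons_of_mem _ (List.mem_cons_of_mem _ (List.mem_cons_of_mem _ (List.mem_cons_of_mem _ (List.mem_cons_of_mem _ (List.mem_cons_of_mem _ (List.mem_cons_of_mem _ (List.mem_cons_of_mem _ (List.mem_cons_of_mem _ (List.mem_cons_of_mem _ (List.mem_cons_of_mem _ (List.mem_cons_of_mem _ (List.mem_cons_of_mem _ (List.mem_cons_of_mem _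 (List.mem_cons_of_mem _ (List.mem_cons_of_mem _ (List.mem_cons_of_mem _ (List.mem_cons_of_mem _ (List.mem_cons_of_mem _ (List.mem_cons_of_mem _ (List.mem_cons_of_mem _ (List.mem_cons_of_mem _ (List.mem_cons_self)))))))))))))))))))))))))))))))))))))), ?_⟩, by norm_num⟩
  constructor <;> norm_num [Q38, coCell, P2C6]

lemma lP2C6 : ∀ x1 x2 xc : ℝ, 0 ≤ x1 → x1 ≤ 1 → 0 ≤ x2 → x2 ≤ 1 → P2C6.l ≤ xc → xc ≤ P2C6.u →
    (167117 / 4096 : ℝ) * (1 - (1 - x1) ^ 2) + (0 : ℝ) * (1 - (1 - x2) ^ 2) - (12 : ℝ) * (1 - (1 - xc) ^ 2) + (1 / 1073741824 : ℝ)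
      ≤ - P2C6.a1 * x1 - P2C6.a2 * x2 + P2C6.e * xc + P2C6.f := by
  have h := cell_lines_delta 2 (α1 := (167117 / 4096 : ℝ)) (α2 := (0 : ℝ)) (c := (12 : ℝ)) (y1 := (14531 / 131072 : ℝ)) (y2 := (15579 / 262144 : ℝ))
    (A1 := (304312223 / 4194304 : ℝ)) (B1 := (134608287 / 268435456 : ℝ)) (A2 := (0 : ℝ)) (B2 := (0 : ℝ)) (l := (13015 / 65536 : ℝ)) (u := (55183 / 262144 : ℝ))
    (E := (-1251135 / 65536 : ℝ)) (F := (-33665941 / 67108864 : ℝ)) (δ := (1 / 1073741824 : ℝ)) (by norm_num) (by norm_num) (by norm_num) (by norm_num) (by norm_num)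
    (by norm_num) (by norm_num) (by norm_num) (by norm_num) (by norm_num) (by norm_num) (by norm_num) (by norm_num) (by norm_num) (by norm_num)
  have e1 : P2C6.l = (13015 / 65536 : ℝ) := rfl
  have e2 : P2C6.u = (55183 / 262144 : ℝ) := rfl
  have e3 : P2C6.a1 = -(304312223 / 4194304 : ℝ) := by norm_num [P2C6]
  have e4 : P2C6.a2 = -(0 : ℝ) := by norm_num [P2C6]
  have e5 : P2C6.e = (-1251135 / 65536 : ℝ) := rfl
  have e6 : P2C6.f = (134608287 / 268435456 : ℝ) + (0 : ℝ) + (-33665941 / 67108864 : ℝ) + (1 / 1073741824 : ℝ) := by norm_num [P2C6]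
  rw [e1, e2, e3, e4, e5, e6]
  exact h

lemma rP2C7 : ∃ N : ℝ, Rw4 P.r2 N (coCell (167117 / 4096 : ℝ) (0 : ℝ) (12 : ℝ) 0 P2C7) := by
  refine ⟨(3221225472 : ℝ), ⟨Q39, List.mem_cons_of_mem _ (List.mem_cons_of_mem _ (List.mem_cons_of_mem _ (List.mem_cons_of_mem _ (List.mem_cons_of_mem _ (List.mem_cons_of_mem _ (List.mem_cons_of_mem _ (List.mem_cons_of_mem _ (List.mem_cons_of_mem _ (List.mem_cons_of_mem _ (List.mem_cons_of_mem _ (List.mem_cons_of_mem _ (List.mem_cons_of_mem _ (List.mem_cons_of_mem _ (List.mem_cons_of_mem _ (List.mem_cons_of_mem _ (List.mem_cons_of_mem _ (List.mem_cons_of_mem _ (List.mem_cons_of_mem _ (List.mem_cons_of_mem _ (List.mem_cons_of_mem _ (List.mem_cons_of_mem _ (List.mem_cons_of_mem _ (List.mem_cons_of_mem _ (List.mem_cons_of_mem _ (List.mem_cons_of_mem _ (List.mem_cons_of_mem _ (List.mem_cons_of_mem _ (List.mem_cons_of_mem _ (List.mem_cons_of_mem _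 (List.mem_cons_of_mem _ (List.mem_cons_of_mem _ (List.mem_cons_of_mem _ (List.mem_cons_of_mem _ (List.mem_cons_of_mem _ (List.mem_cons_of_mem _ (List.mem_cons_of_mem _ (List.mem_cons_of_mem _ (List.mem_cons_of_mem _ (List.mem_cons_self))))))))))))))))))))))))))))))))))))))), ?_⟩, by norm_num⟩
  constructor <;> norm_num [Q39, coCell, P2C7]

lemma lP2C7 : ∀ x1 x2 xc : ℝ, 0 ≤ x1 → x1 ≤ 1 → 0 ≤ x2 → x2 ≤ 1 → P2C7.l ≤ xc → xc ≤ P2C7.u →
    (167117 / 4096 : ℝ) * (1 - (1 - x1) ^ 2) + (0 : ℝ) * (1 - (1 - x2) ^ 2) - (12 : ℝ) * (1 - (1 - xc) ^ 2) + (1 / 1073741824 : ℝ)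
      ≤ - P2C7.a1 * x1 - P2C7.a2 * x2 + P2C7.e * xc + P2C7.f := by
  have h := cell_lines_delta 2 (α1 := (167117 / 4096 : ℝ)) (α2 := (0 : ℝ)) (c := (12 : ℝ)) (y1 := (30807 / 262144 : ℝ)) (y2 := (16513 / 262144 : ℝ))
    (A1 := (302033949 / 4194304 : ℝ)) (B1 := (37814603 / 67108864 : ℝ)) (A2 := (0 : ℝ)) (B2 := (0 : ℝ)) (l := (55183 / 262144 : ℝ)) (u := (29247 / 131072 : ℝ))
    (E := (-1231833 / 65536 : ℝ)) (F := (-37826653 / 67108864 : ℝ)) (δ := (1 / 1073741824 : ℝ)) (by norm_num) (by norm_num) (by norm_num) (by norm_num) (by norm_num)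
    (by norm_num) (by norm_num) (by norm_num) (by norm_num) (by norm_num) (by norm_num) (by norm_num) (by norm_num) (by norm_num) (by norm_num)
  have e1 : P2C7.l = (55183 / 262144 : ℝ) := rfl
  have e2 : P2C7.u = (29247 / 131072 : ℝ) := rfl
  have e3 : P2C7.a1 = -(302033949 / 4194304 : ℝ) := by norm_num [P2C7]
  have e4 : P2C7.a2 = -(0 : ℝ) := by norm_num [P2C7]
  have e5 : P2C7.e = (-1231833 / 65536 : ℝ) := rfl
  have e6 : P2C7.f = (37814603 / 67108864 : ℝ) + (0 : ℝ) + (-37826653 / 67108864 : ℝ) + (1 / 1073741824 : ℝ) := by norm_num [P2C7]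
  rw [e1, e2, e3, e4, e5, e6]
  exact h

lemma rP2C8 : ∃ N : ℝ, Rw4 P.r2 N (coCell (167117 / 4096 : ℝ) (0 : ℝ) (12 : ℝ) 0 P2C8) := by
  refine ⟨(3221225472 : ℝ), ⟨Q40, List.mem_cons_of_mem _ (List.mem_cons_of_mem _ (List.mem_cons_of_mem _ (List.mem_cons_of_mem _ (List.mem_cons_of_mem _ (List.mem_cons_of_mem _ (List.mem_cons_of_mem _ (List.mem_cons_of_mem _ (List.mem_cons_of_mem _ (List.mem_cons_of_mem _ (List.mem_cons_of_mem _ (List.mem_cons_of_mem _ (List.mem_cons_of_mem _ (List.mem_cons_of_mem _ (List.mem_cons_of_mem _ (List.mem_cons_of_mem _ (List.mem_cons_of_mem _ (List.mem_cons_of_mem _ (List.mem_cons_of_mem _ (List.mem_cons_of_mem _ (List.mem_cons_of_mem _ (List.mem_cons_of_mem _ (List.mem_cons_of_mem _ (List.mem_cons_of_mem _ (List.mem_cons_of_mem _ (List.mem_cons_of_mem _ (List.mem_cons_of_mem _ (List.mem_cons_of_mem _ (List.mem_cons_of_mem _ (List.mem_cons_of_mem _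 (List.mem_cons_of_mem _ (List.mem_cons_of_mem _ (List.mem_cons_of_mem _ (List.mem_cons_of_mem _ (List.mem_cons_of_mem _ (List.mem_cons_of_mem _ (List.mem_cons_of_mem _ (List.mem_cons_of_mem _ (List.mem_cons_of_mem _ (List.mem_cons_of_mem _ (List.mem_cons_self)))))))))))))))))))))))))))))))))))))))), ?_⟩, by norm_num⟩
  constructor <;> norm_num [Q40, coCell, P2C8]

lemma lP2C8 : ∀ x1 x2 xc : ℝ, 0 ≤ x1 → x1 ≤ 1 → 0 ≤ x2 → x2 ≤ 1 → P2C8.l ≤ xc → xc ≤ P2C8.u →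
    (167117 / 4096 : ℝ) * (1 - (1 - x1) ^ 2) + (0 : ℝ) * (1 - (1 - x2) ^ 2) - (12 : ℝ) * (1 - (1 - xc) ^ 2) + (1 / 1073741824 : ℝ)
      ≤ - P2C8.a1 * x1 - P2C8.a2 * x2 + P2C8.e * xc + P2C8.f := by
  have h := cell_lines_delta 2 (α1 := (167117 / 4096 : ℝ)) (α2 := (0 : ℝ)) (c := (12 : ℝ)) (y1 := (2041 / 16384 : ℝ)) (y2 := (17503 / 262144 : ℝ))
    (A1 := (299619891 / 4194304 : ℝ)) (B1 := (169960013 / 268435456 : ℝ)) (A2 := (0 : ℝ)) (B2 := (0 : ℝ)) (l := (29247 / 131072 : ℝ)) (u := (15501 / 65536 : ℝ))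
    (E := (-605685 / 32768 : ℝ)) (F := (-170009155 / 268435456 : ℝ)) (δ := (1 / 1073741824 : ℝ)) (by norm_num) (by norm_num) (by norm_num) (by norm_num) (by norm_num)
    (by norm_num) (by norm_num) (by norm_num) (by norm_num) (by norm_num) (by norm_num) (by norm_num) (by norm_num) (by norm_num) (by norm_num)
  have e1 : P2C8.l = (29247 / 131072 : ℝ) := rfl
  have e2 : P2C8.u = (15501 / 65536 : ℝ) := rfl
  have e3 : P2C8.a1 = -(299619891 / 4194304 : ℝ) := by norm_num [P2C8]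
  have e4 : P2C8.a2 = -(0 : ℝ) := by norm_num [P2C8]
  have e5 : P2C8.e = (-605685 / 32768 : ℝ) := rfl
  have e6 : P2C8.f = (169960013 / 268435456 : ℝ) + (0 : ℝ) + (-170009155 / 268435456 : ℝ) + (1 / 1073741824 : ℝ) := by norm_num [P2C8]
  rw [e1, e2, e3, e4, e5, e6]
  exact h

lemma rP2C9 : ∃ N : ℝ, Rw4 P.r2 N (coCell (167117 / 4096 : ℝ) (0 : ℝ) (12 : ℝ) 0 P2C9) := by
  refine ⟨(3221225472 : ℝ), ⟨Q41, List.mem_cons_of_mem _ (List.mem_cons_of_mem _ (List.mem_cons_of_mem _ (List.mem_cons_of_mem _ (List.mem_cons_of_mem _ (List.mem_cons_of_mem _ (List.mem_cons_of_mem _ (List.mem_cons_of_mem _ (List.mem_cons_of_mem _ (List.mem_cons_of_mem _ (List.mem_cons_of_mem _ (List.mem_cons_of_mem _ (List.mem_cons_of_mem _ (List.mem_cons_of_mem _ (List.mem_cons_of_mem _ (List.mem_cons_of_mem _ (List.mem_cons_of_mem _ (List.mem_cons_of_mem _ (List.mem_cons_of_mem _ (List.mem_cons_of_mem _ (List.mem_cons_of_mem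 _ (List.mem_cons_of_mem _ (List.mem_cons_of_mem _ (List.mem_cons_of_mem _ (List.mem_cons_of_mem _ (List.mem_cons_of_mem _ (List.mem_cons_of_mem _ (List.mem_cons_of_mem _ (List.mem_cons_of_mem _ (List.mem_cons_of_mem _ (List.mem_cons_of_mem _ (List.mem_cons_of_mem _ (List.mem_cons_of_mem _ (List.mem_cons_of_mem _ (List.mem_cons_of_mem _ (List.mem_cons_of_mem _ (List.mem_cons_of_mem _ (List.mem_cons_of_mem _ (List.mem_cons_of_mem _ (List.mem_cons_of_mem _ (List.mem_cons_of_mem _ (List.mem_cons_self))))))))))))))))))))))))))))))))))))))))), ?_⟩, by norm_num⟩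
  constructor <;> norm_num [Q41, coCell, P2C9]

lemma lP2C9 : ∀ x1 x2 xc : ℝ, 0 ≤ x1 → x1 ≤ 1 → 0 ≤ x2 → x2 ≤ 1 → P2C9.l ≤ xc → xc ≤ P2C9.u →
    (167117 / 4096 : ℝ) * (1 - (1 - x1) ^ 2) + (0 : ℝ) * (1 - (1 - x2) ^ 2) - (12 : ℝ) * (1 - (1 - xc) ^ 2) + (1 / 1073741824 : ℝ)
      ≤ - P2C9.a1 * x1 - P2C9.a2 * x2 + P2C9.e * xc + P2C9.f := by
  have h := cell_lines_delta 2 (α1 := (167117 / 4096 : ℝ)) (α2 := (0 : ℝ)) (c := (12 : ℝ)) (y1 := (4327 / 32768 : ℝ)) (y2 := (18553 / 262144 : ℝ))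
    (A1 := (18566307 / 262144 : ℝ)) (B1 := (190974125 / 268435456 : ℝ)) (A2 := (0 : ℝ)) (B2 := (0 : ℝ)) (l := (15501 / 65536 : ℝ)) (u := (16431 / 65536 : ℝ))
    (E := (-74355 / 4096 : ℝ)) (F := (-95511349 / 134217728 : ℝ)) (δ := (1 / 1073741824 : ℝ)) (by norm_num) (by norm_num) (by norm_num) (by norm_num) (by norm_num)
    (by norm_num) (by norm_num) (by norm_num) (by norm_num) (by norm_num) (by norm_num) (by norm_num) (by norm_num) (by norm_num) (by norm_num)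
  have e1 : P2C9.l = (15501 / 65536 : ℝ) := rfl
  have e2 : P2C9.u = (16431 / 65536 : ℝ) := rfl
  have e3 : P2C9.a1 = -(18566307 / 262144 : ℝ) := by norm_num [P2C9]
  have e4 : P2C9.a2 = -(0 : ℝ) := by norm_num [P2C9]
  have e5 : P2C9.e = (-74355 / 4096 : ℝ) := rfl
  have e6 : P2C9.f = (190974125 / 268435456 : ℝ) + (0 : ℝ) + (-95511349 / 134217728 : ℝ) + (1 / 1073741824 : ℝ) := by norm_num [P2C9]
  rw [e1, e2, e3, e4, e5, e6]
  exact h

lemma rP2C10 : ∃ N : ℝ, Rw4 P.r2 N (coCell (167117 / 4096 : ℝ) (0 : ℝ) (12 : ℝ) 0 P2C10) := by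
  refine ⟨(3221225472 : ℝ), ⟨Q42, List.mem_cons_of_mem _ (List.mem_cons_of_mem _ (List.mem_cons_of_mem _ (List.mem_cons_of_mem _ (List.mem_cons_of_mem _ (List.mem_cons_of_mem _ (List.mem_cons_of_mem _ (List.mem_cons_of_mem _ (List.mem_cons_of_mem _ (List.mem_cons_of_mem _ (List.mem_cons_of_mem _ (List.mem_cons_of_mem _ (List.mem_cons_of_mem _ (List.mem_cons_of_mem _ (List.mem_cons_of_mem _ (List.mem_cons_of_mem _ (List.mem_cons_of_mem _ (List.mem_cons_of_mem _ (List.mem_cons_of_mem _ (List.mem_cons_of_mem _ (List.mem_cons_of_mem _ (List.mem_cons_of_mem _ (List.mem_cons_of_mem _ (List.mem_cons_of_mem _ (List.mem_cons_of_mem _ (List.mem_cons_of_mem _ (List.mem_cons_of_mem _ (List.mem_cons_of_mem _ (List.mem_cons_of_mem _ (List.mem_cons_of_mem _ (List.mem_cons_of_mem _ (List.mem_cons_of_mem _ (List.mem_cons_of_mem _ (List.mem_cons_of_mem _ (List.mem_cons_of_mem _ (List.mem_cons_of_mem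 _ (List.mem_cons_of_mem _ (List.mem_cons_of_mem _ (List.mem_cons_of_mem _ (List.mem_cons_of_mem _ (List.mem_cons_of_mem _ (List.mem_cons_of_mem _ (List.mem_cons_self)))))))))))))))))))))))))))))))))))))))))), ?_⟩, by norm_num⟩
  constructor <;> norm_num [Q42, coCell, P2C10]

lemma lP2C10 : ∀ x1 x2 xc : ℝ, 0 ≤ x1 → x1 ≤ 1 → 0 ≤ x2 → x2 ≤ 1 → P2C10.l ≤ xc → xc ≤ P2C10.u →
    (167117 / 4096 : ℝ) * (1 - (1 - x1) ^ 2) + (0 : ℝ) * (1 - (1 - x2) ^ 2) - (12 : ℝ) * (1 - (1 - xc) ^ 2) + (1 / 1073741824 : ℝ)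
      ≤ - P2C10.a1 * x1 - P2C10.a2 * x2 + P2C10.e * xc + P2C10.f := by
  have h := cell_lines_delta 2 (α1 := (167117 / 4096 : ℝ)) (α2 := (0 : ℝ)) (c := (12 : ℝ)) (y1 := (36693 / 262144 : ℝ)) (y2 := (19665 / 262144 : ℝ))
    (A1 := (147174589 / 2097152 : ℝ)) (B1 := (53644743 / 67108864 : ℝ)) (A2 := (0 : ℝ)) (B2 := (0 : ℝ)) (l := (16431 / 65536 : ℝ)) (u := (17417 / 65536 : ℝ))
    (E := (-36459 / 2048 : ℝ)) (F := (-214634045 / 268435456 : ℝ)) (δ := (1 / 1073741824 : ℝ)) (by norm_num) (by norm_num) (by norm_num) (by norm_num) (by norm_num)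
    (by norm_num) (by norm_num) (by norm_num) (by norm_num) (by norm_num) (by norm_num) (by norm_num) (by norm_num) (by norm_num) (by norm_num)
  have e1 : P2C10.l = (16431 / 65536 : ℝ) := rfl
  have e2 : P2C10.u = (17417 / 65536 : ℝ) := rfl
  have e3 : P2C10.a1 = -(147174589 / 2097152 : ℝ) := by norm_num [P2C10]
  have e4 : P2C10.a2 = -(0 : ℝ) := by norm_num [P2C10]
  have e5 : P2C10.e = (-36459 / 2048 : ℝ) := rfl
  have e6 : P2C10.f = (53644743 / 67108864 : ℝ) + (0 : ℝ) + (-214634045 / 268435456 : ℝ) + (1 / 1073741824 : ℝ) := by norm_num [P2C10]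
  rw [e1, e2, e3, e4, e5, e6]
  exact h

lemma rP2C11 : ∃ N : ℝ, Rw4 P.r2 N (coCell (167117 / 4096 : ℝ) (0 : ℝ) (12 : ℝ) 0 P2C11) := by
  refine ⟨(3221225472 : ℝ), ⟨Q43, List.mem_cons_of_mem _ (List.mem_cons_of_mem _ (List.mem_cons_of_mem _ (List.mem_cons_of_mem _ (List.mem_cons_of_mem _ (List.mem_cons_of_mem _ (List.mem_cons_of_mem _ (List.mem_cons_of_mem _ (List.mem_cons_of_mem _ (List.mem_cons_of_mem _ (List.mem_cons_of_mem _ (List.mem_cons_of_mem _ (List.mem_cons_of_mem _ (List.mem_cons_of_mem _ (List.mem_cons_of_mem _ (List.mem_cons_of_mem _ (List.mem_cons_of_mem _ (List.mem_cons_of_mem _ (List.mem_cons_of_mem _ (List.mem_cons_of_mem _ (List.mem_cons_of_mem _ (List.mem_cons_of_mem _ (List.mem_cons_of_mem _ (List.mem_cons_of_mem _ (List.mem_cons_of_mem _ (List.mem_cons_of_mem _ (List.mem_cons_of_mem _ (List.mem_cons_of_mem _ (List.mem_cons_of_mem _ (List.mem_cons_of_mem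 _ (List.mem_cons_of_mem _ (List.mem_cons_of_mem _ (List.mem_cons_of_mem _ (List.mem_cons_of_mem _ (List.mem_cons_of_mem _ (List.mem_cons_of_mem _ (List.mem_cons_of_mem _ (List.mem_cons_of_mem _ (List.mem_cons_of_mem _ (List.mem_cons_of_mem _ (List.mem_cons_of_mem _ (List.mem_cons_of_mem _ (List.mem_cons_of_mem _ (List.mem_cons_self))))))))))))))))))))))))))))))))))))))))))), ?_⟩, by norm_num⟩
  constructor <;> norm_num [Q43, coCell, P2C11]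

lemma lP2C11 : ∀ x1 x2 xc : ℝ, 0 ≤ x1 → x1 ≤ 1 → 0 ≤ x2 → x2 ≤ 1 → P2C11.l ≤ xc → xc ≤ P2C11.u →
    (167117 / 4096 : ℝ) * (1 - (1 - x1) ^ 2) + (0 : ℝ) * (1 - (1 - x2) ^ 2) - (12 : ℝ) * (1 - (1 - xc) ^ 2) + (1 / 1073741824 : ℝ)
      ≤ - P2C11.a1 * x1 - P2C11.a2 * x2 + P2C11.e * xc + P2C11.f := by
  have h := cell_lines_delta 2 (α1 := (167117 / 4096 : ℝ)) (α2 := (0 : ℝ)) (c := (12 : ℝ)) (y1 := (38777 / 262144 : ℝ)) (y2 := (7695 / 131072 : ℝ))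
    (A1 := (18226769 / 262144 : ℝ)) (B1 := (239645433 / 268435456 : ℝ)) (A2 := (0 : ℝ)) (B2 := (0 : ℝ)) (l := (17417 / 65536 : ℝ)) (u := (9175 / 32768 : ℝ))
    (E := (-285915 / 16384 : ℝ)) (F := (-119850731 / 134217728 : ℝ)) (δ := (1 / 1073741824 : ℝ)) (by norm_num) (by norm_num) (by norm_num) (by norm_num) (by norm_num)
    (by norm_num) (by norm_num) (by norm_num) (by norm_num) (by norm_num) (by norm_num) (by norm_num) (by norm_num) (by norm_num) (by norm_num)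
  have e1 : P2C11.l = (17417 / 65536 : ℝ) := rfl
  have e2 : P2C11.u = (9175 / 32768 : ℝ) := rfl
  have e3 : P2C11.a1 = -(18226769 / 262144 : ℝ) := by norm_num [P2C11]
  have e4 : P2C11.a2 = -(0 : ℝ) := by norm_num [P2C11]
  have e5 : P2C11.e = (-285915 / 16384 : ℝ) := rfl
  have e6 : P2C11.f = (239645433 / 268435456 : ℝ) + (0 : ℝ) + (-119850731 / 134217728 : ℝ) + (1 / 1073741824 : ℝ) := by norm_num [P2C11]
  rw [e1, e2, e3, e4, e5, e6]
  exact h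

/-- A link of the chain. -/
lemma link2 {lam : ℝ} (h0 : -(1 / 2) < lam) (h1 : lam < 1) (hB : BoxS lam P 0 HH 0 HH)
    (h : ∃ n, 1 - En 2 lam n mc ≤ (9175 / 32768 : ℝ)) : ∃ n, 1 - En 2 lam n mc ≤ (9175 / 65536 : ℝ) :=
  phase_of_box (by norm_num) h0 h1 hB (167117 / 4096 : ℝ) (0 : ℝ) (12 : ℝ) (1 / 1073741824 : ℝ) (9175 / 65536 : ℝ) (9175 / 32768 : ℝ) (by norm_num) cellsP2 hcoverP2
    (forall_cons lP2C0 (forall_cons lP2C1 (forall_cons lP2C2 (forall_cons lP2C3 (forall_cons lP2C4 (forall_cons lP2C5 (forall_cons lP2C6 (forall_cons lP2C7 (forall_cons lP2C8 (forall_cons lP2C9 (forall_cons lP2C10 (forall_cons lP2C11 (forall_nil))))))))))))) (forall_cons rP2C0 (forall_cons rP2C1 (forall_cons rP2C2 (forall_cons rP2C3 (forall_cons rP2C4 (forall_cons rP2C5 (forall_cons rP2C6 (forall_cons rP2C7 (forall_cons rP2C8 (forall_cons rP2C9 (forall_cons rP2C10 (forall_cons rP2C11 (forall_nil)))))))))))))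 h

/-- A chord cell of a link. -/
noncomputable def P3C0 : Cell := ⟨(9175 / 32768 : ℝ), (19451 / 65536 : ℝ), (-289525501 / 4194304 : ℝ), (0 : ℝ), (-279813 / 16384 : ℝ), (-233439 / 1073741824 : ℝ)⟩

/-- A chord cell of a link. -/
noncomputable def P3C1 : Cell := ⟨(19451 / 65536 : ℝ), (82473 / 262144 : ℝ), (-286309787 / 4194304 : ℝ), (0 : ℝ), (-1092033 / 65536 : ℝ), (-203511 / 1073741824 : ℝ)⟩

/-- A chord cell of a link. -/
noncomputable def P3C2 : Cell := ⟨(82473 / 262144 : ℝ), (87421 / 262144 : ℝ), (-282902989 / 4194304 : ℝ), (0 : ℝ), (-531591 / 32768 : ℝ), (-244651 / 1073741824 : ℝ)⟩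

/-- A chord cell of a link. -/
noncomputable def P3C3 : Cell := ⟨(87421 / 262144 : ℝ), (46333 / 131072 : ℝ), (-279290709 / 4194304 : ℝ), (0 : ℝ), (-1032603 / 65536 : ℝ), (-222867 / 1073741824 : ℝ)⟩

/-- A chord cell of a link. -/
noncomputable def P3C4 : Cell := ⟨(46333 / 131072 : ℝ), (49113 / 131072 : ℝ), (-137731239 / 2097152 : ℝ), (0 : ℝ), (-250047 / 16384 : ℝ), (-242327 / 1073741824 : ℝ)⟩

/-- A chord cell of a link. -/
noncomputable def P3C5 : Cell := ⟨(49113 / 131072 : ℝ), (13015 / 32768 : ℝ), (-271403899 / 4194304 : ℝ), (0 : ℝ), (-482913 / 32768 : ℝ), (-241995 / 1073741824 : ℝ)⟩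

/-- A chord cell of a link. -/
noncomputable def P3C6 : Cell := ⟨(13015 / 32768 : ℝ), (110367 / 262144 : ℝ), (-66775471 / 1048576 : ℝ), (0 : ℝ), (-929403 / 65536 : ℝ), (-240051 / 1073741824 : ℝ)⟩

/-- A chord cell of a link. -/
noncomputable def P3C7 : Cell := ⟨(110367 / 262144 : ℝ), (116989 / 262144 : ℝ), (-65635509 / 1048576 : ℝ), (0 : ℝ), (-222699 / 16384 : ℝ), (-242895 / 1073741824 : ℝ)⟩

/-- A chord cell of a link. -/
noncomputable def P3C8 : Cell := ⟨(116989 / 262144 : ℝ), (15501 / 32768 : ℝ), (-257708649 / 4194304 : ℝ), (0 : ℝ), (-849873 / 65536 : ℝ), (-244987 / 1073741824 : ℝ)⟩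

/-- A chord cell of a link. -/
noncomputable def P3C9 : Cell := ⟨(15501 / 32768 : ℝ), (131449 / 262144 : ℝ), (-252584709 / 4194304 : ℝ), (0 : ℝ), (-806493 / 65536 : ℝ), (-220639 / 1073741824 : ℝ)⟩

/-- A chord cell of a link. -/
noncomputable def P3C10 : Cell := ⟨(131449 / 262144 : ℝ), (17417 / 32768 : ℝ), (-123576601 / 2097152 : ℝ), (0 : ℝ), (-760509 / 65536 : ℝ), (-191771 / 1073741824 : ℝ)⟩

/-- A chord cell of a link. -/
noncomputable def P3C11 : Cell := ⟨(17417 / 32768 : ℝ), (144179 / 262144 : ℝ), (-242615603 / 4194304 : ℝ), (0 : ℝ), (-722319 / 65536 : ℝ), (-259527 / 1073741824 : ℝ)⟩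

/-- The chord cells of a link. -/
noncomputable def cellsP3 : List Cell := [P3C0, P3C1, P3C2, P3C3, P3C4, P3C5, P3C6, P3C7, P3C8, P3C9, P3C10, P3C11]

lemma hcoverP3 : ∀ x : ℝ, (9175 / 32768 : ℝ) ≤ x → x ≤ (144179 / 262144 : ℝ) → ∃ D ∈ cellsP3, D.l ≤ x ∧ x ≤ D.u := by
  refine cover_of_chain ?_ (by norm_num [P3C0])
  simp only [ChainP, P3C0, P3C1, P3C2, P3C3, P3C4, P3C5, P3C6, P3C7, P3C8, P3C9, P3C10, P3C11]
  norm_num

lemma rP3C0 : ∃ N : ℝ, Rw4 P.r2 N (coCell (83763 / 2048 : ℝ) (0 : ℝ) (12 : ℝ) 0 P3C0) := by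
  refine ⟨(3221225472 : ℝ), ⟨Q44, List.mem_cons_of_mem _ (List.mem_cons_of_mem _ (List.mem_cons_of_mem _ (List.mem_cons_of_mem _ (List.mem_cons_of_mem _ (List.mem_cons_of_mem _ (List.mem_cons_of_mem _ (List.mem_cons_of_mem _ (List.mem_cons_of_mem _ (List.mem_cons_of_mem _ (List.mem_cons_of_mem _ (List.mem_cons_of_mem _ (List.mem_cons_of_mem _ (List.mem_cons_of_mem _ (List.mem_cons_of_mem _ (List.mem_cons_of_mem _ (List.mem_cons_of_mem _ (List.mem_cons_of_mem _ (List.mem_cons_of_mem _ (List.mem_cons_of_mem _ (List.mem_cons_of_mem _ (List.mem_cons_of_mem _ (List.mem_cons_of_mem _ (List.mem_cons_of_mem _ (List.mem_cons_of_mem _ (List.mem_cons_of_mem _ (List.mem_cons_of_mem _ (List.mem_cons_of_mem _ (List.mem_cons_of_mem _ (List.mem_cons_of_mem _ (List.mem_cons_of_mem _ (List.mem_cons_of_mem _ (List.mem_cons_of_mem _ (List.mem_cons_of_mem _ (List.mem_cons_of_mem _ (List.mem_cons_of_mem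 _ (List.mem_cons_of_mem _ (List.mem_cons_of_mem _ (List.mem_cons_of_mem _ (List.mem_cons_of_mem _ (List.mem_cons_of_mem _ (List.mem_cons_of_mem _ (List.mem_cons_of_mem _ (List.mem_cons_of_mem _ (List.mem_cons_self)))))))))))))))))))))))))))))))))))))))))))), ?_⟩, by norm_num⟩
  constructor <;> norm_num [Q44, coCell, P3C0]

lemma lP3C0 : ∀ x1 x2 xc : ℝ, 0 ≤ x1 → x1 ≤ 1 → 0 ≤ x2 → x2 ≤ 1 → P3C0.l ≤ xc → xc ≤ P3C0.u →
    (83763 / 2048 : ℝ) * (1 - (1 - x1) ^ 2) + (0 : ℝ) * (1 - (1 - x2) ^ 2) - (12 : ℝ) * (1 - (1 - xc) ^ 2) + (1 / 1073741824 : ℝ)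
      ≤ - P3C0.a1 * x1 - P3C0.a2 * x2 + P3C0.e * xc + P3C0.f := by
  have h := cell_lines_delta 2 (α1 := (83763 / 2048 : ℝ)) (α2 := (0 : ℝ)) (c := (12 : ℝ)) (y1 := (40929 / 262144 : ℝ)) (y2 := (22011 / 262144 : ℝ))
    (A1 := (289525501 / 4194304 : ℝ)) (B1 := (267636027 / 268435456 : ℝ)) (A2 := (0 : ℝ)) (B2 := (0 : ℝ)) (l := (9175 / 32768 : ℝ)) (u := (19451 / 65536 : ℝ))
    (E := (-279813 / 16384 : ℝ)) (F := (-267694387 / 268435456 : ℝ)) (δ := (1 / 1073741824 : ℝ)) (by norm_num) (by norm_num) (by norm_num) (by norm_num) (by norm_num)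
    (by norm_num) (by norm_num) (by norm_num) (by norm_num) (by norm_num) (by norm_num) (by norm_num) (by norm_num) (by norm_num) (by norm_num)
  have e1 : P3C0.l = (9175 / 32768 : ℝ) := rfl
  have e2 : P3C0.u = (19451 / 65536 : ℝ) := rfl
  have e3 : P3C0.a1 = -(289525501 / 4194304 : ℝ) := by norm_num [P3C0]
  have e4 : P3C0.a2 = -(0 : ℝ) := by norm_num [P3C0]
  have e5 : P3C0.e = (-279813 / 16384 : ℝ) := rfl
  have e6 : P3C0.f = (267636027 / 268435456 : ℝ) + (0 : ℝ) + (-267694387 / 268435456 : ℝ) + (1 / 1073741824 : ℝ) := by norm_num [P3C0]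
  rw [e1, e2, e3, e4, e5, e6]
  exact h

lemma rP3C1 : ∃ N : ℝ, Rw4 P.r2 N (coCell (83763 / 2048 : ℝ) (0 : ℝ) (12 : ℝ) 0 P3C1) := by
  refine ⟨(3221225472 : ℝ), ⟨Q45, List.mem_cons_of_mem _ (List.mem_cons_of_mem _ (List.mem_cons_of_mem _ (List.mem_cons_of_mem _ (List.mem_cons_of_mem _ (List.mem_cons_of_mem _ (List.mem_cons_of_mem _ (List.mem_cons_of_mem _ (List.mem_cons_of_mem _ (List.mem_cons_of_mem _ (List.mem_cons_of_mem _ (List.mem_cons_of_mem _ (List.mem_cons_of_mem _ (List.mem_cons_of_mem _ (List.mem_cons_of_mem _ (List.mem_cons_of_mem _ (List.mem_cons_of_mem _ (List.mem_cons_of_mem _ (List.mem_cons_of_mem _ (List.mem_cons_of_mem _ (List.mem_cons_of_mem _ (List.mem_cons_of_mem _ (List.mem_cons_of_mem _ (List.mem_cons_of_mem _ (List.mem_cons_of_mem _ (List.mem_cons_of_mem _ (List.mem_cons_of_mem _ (List.mem_cons_of_mem _ (List.mem_cons_of_mem _ (List.mem_cons_of_mem _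 (List.mem_cons_of_mem _ (List.mem_cons_of_mem _ (List.mem_cons_of_mem _ (List.mem_cons_of_mem _ (List.mem_cons_of_mem _ (List.mem_cons_of_mem _ (List.mem_cons_of_mem _ (List.mem_cons_of_mem _ (List.mem_cons_of_mem _ (List.mem_cons_of_mem _ (List.mem_cons_of_mem _ (List.mem_cons_of_mem _ (List.mem_cons_of_mem _ (List.mem_cons_of_mem _ (List.mem_cons_of_mem _ (List.mem_cons_self))))))))))))))))))))))))))))))))))))))))))))), ?_⟩, by norm_num⟩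
  constructor <;> norm_num [Q45, coCell, P3C1]

lemma lP3C1 : ∀ x1 x2 xc : ℝ, 0 ≤ x1 → x1 ≤ 1 → 0 ≤ x2 → x2 ≤ 1 → P3C1.l ≤ xc → xc ≤ P3C1.u →
    (83763 / 2048 : ℝ) * (1 - (1 - x1) ^ 2) + (0 : ℝ) * (1 - (1 - x2) ^ 2) - (12 : ℝ) * (1 - (1 - xc) ^ 2) + (1 / 1073741824 : ℝ)
      ≤ - P3C1.a1 * x1 - P3C1.a2 * x2 + P3C1.e * xc + P3C1.f := by
  have h := cell_lines_delta 2 (α1 := (83763 / 2048 : ℝ)) (α2 := (0 : ℝ)) (c := (12 : ℝ)) (y1 := (21693 / 131072 : ℝ)) (y2 := (23331 / 262144 : ℝ))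
    (A1 := (286309787 / 4194304 : ℝ)) (B1 := (300733307 / 268435456 : ℝ)) (A2 := (0 : ℝ)) (B2 := (0 : ℝ)) (l := (19451 / 65536 : ℝ)) (u := (82473 / 262144 : ℝ))
    (E := (-1092033 / 65536 : ℝ)) (F := (-300784185 / 268435456 : ℝ)) (δ := (1 / 1073741824 : ℝ)) (by norm_num) (by norm_num) (by norm_num) (by norm_num) (by norm_num)
    (by norm_num) (by norm_num) (by norm_num) (by norm_num) (by norm_num) (by norm_num) (by norm_num) (by norm_num) (by norm_num) (by norm_num)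
  have e1 : P3C1.l = (19451 / 65536 : ℝ) := rfl
  have e2 : P3C1.u = (82473 / 262144 : ℝ) := rfl
  have e3 : P3C1.a1 = -(286309787 / 4194304 : ℝ) := by norm_num [P3C1]
  have e4 : P3C1.a2 = -(0 : ℝ) := by norm_num [P3C1]
  have e5 : P3C1.e = (-1092033 / 65536 : ℝ) := rfl
  have e6 : P3C1.f = (300733307 / 268435456 : ℝ) + (0 : ℝ) + (-300784185 / 268435456 : ℝ) + (1 / 1073741824 : ℝ) := by norm_num [P3C1]
  rw [e1, e2, e3, e4, e5, e6]
  exact h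

lemma rP3C2 : ∃ N : ℝ, Rw4 P.r2 N (coCell (83763 / 2048 : ℝ) (0 : ℝ) (12 : ℝ) 0 P3C2) := by
  refine ⟨(3221225472 : ℝ), ⟨Q46, List.mem_cons_of_mem _ (List.mem_cons_of_mem _ (List.mem_cons_of_mem _ (List.mem_cons_of_mem _ (List.mem_cons_of_mem _ (List.mem_cons_of_mem _ (List.mem_cons_of_mem _ (List.mem_cons_of_mem _ (List.mem_cons_of_mem _ (List.mem_cons_of_mem _ (List.mem_cons_of_mem _ (List.mem_cons_of_mem _ (List.mem_cons_of_mem _ (List.mem_cons_of_mem _ (List.mem_cons_of_mem _ (List.mem_cons_of_mem _ (List.mem_cons_of_mem _ (List.mem_cons_of_mem _ (List.mem_cons_of_mem _ (List.mem_cons_of_mem _ (List.mem_cons_of_mem _ (List.mem_cons_of_mem _ (List.mem_cons_of_mem _ (List.mem_cons_of_mem _ (List.mem_cons_of_mem _ (List.mem_cons_of_mem _ (List.mem_cons_of_mem _ (List.mem_cons_of_mem _ (List.mem_cons_of_mem _ (List.mem_cons_of_mem _ (List.mem_cons_of_mem _ (List.mem_cons_of_mem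 _ (List.mem_cons_of_mem _ (List.mem_cons_of_mem _ (List.mem_cons_of_mem _ (List.mem_cons_of_mem _ (List.mem_cons_of_mem _ (List.mem_cons_of_mem _ (List.mem_cons_of_mem _ (List.mem_cons_of_mem _ (List.mem_cons_of_mem _ (List.mem_cons_of_mem _ (List.mem_cons_of_mem _ (List.mem_cons_of_mem _ (List.mem_cons_of_mem _ (List.mem_cons_of_mem _ (List.mem_cons_self)))))))))))))))))))))))))))))))))))))))))))))), ?_⟩, by norm_num⟩
  constructor <;> norm_num [Q46, coCell, P3C2]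

lemma lP3C2 : ∀ x1 x2 xc : ℝ, 0 ≤ x1 → x1 ≤ 1 → 0 ≤ x2 → x2 ≤ 1 → P3C2.l ≤ xc → xc ≤ P3C2.u →
    (83763 / 2048 : ℝ) * (1 - (1 - x1) ^ 2) + (0 : ℝ) * (1 - (1 - x2) ^ 2) - (12 : ℝ) * (1 - (1 - xc) ^ 2) + (1 / 1073741824 : ℝ)
      ≤ - P3C2.a1 * x1 - P3C2.a2 * x2 + P3C2.e * xc + P3C2.f := by
  have h := cell_lines_delta 2 (α1 := (83763 / 2048 : ℝ)) (α2 := (0 : ℝ)) (c := (12 : ℝ)) (y1 := (45989 / 262144 : ℝ)) (y2 := (24731 / 262144 : ℝ))
    (A1 := (282902989 / 4194304 : ℝ)) (B1 := (337901593 / 268435456 : ℝ)) (A2 := (0 : ℝ)) (B2 := (0 : ℝ)) (l := (82473 / 262144 : ℝ)) (u := (87421 / 262144 : ℝ))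
    (E := (-531591 / 32768 : ℝ)) (F := (-84490689 / 67108864 : ℝ)) (δ := (1 / 1073741824 : ℝ)) (by norm_num) (by norm_num) (by norm_num) (by norm_num) (by norm_num)
    (by norm_num) (by norm_num) (by norm_num) (by norm_num) (by norm_num) (by norm_num) (by norm_num) (by norm_num) (by norm_num) (by norm_num)
  have e1 : P3C2.l = (82473 / 262144 : ℝ) := rfl
  have e2 : P3C2.u = (87421 / 262144 : ℝ) := rfl
  have e3 : P3C2.a1 = -(282902989 / 4194304 : ℝ) := by norm_num [P3C2]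
  have e4 : P3C2.a2 = -(0 : ℝ) := by norm_num [P3C2]
  have e5 : P3C2.e = (-531591 / 32768 : ℝ) := rfl
  have e6 : P3C2.f = (337901593 / 268435456 : ℝ) + (0 : ℝ) + (-84490689 / 67108864 : ℝ) + (1 / 1073741824 : ℝ) := by norm_num [P3C2]
  rw [e1, e2, e3, e4, e5, e6]
  exact h

lemma rP3C3 : ∃ N : ℝ, Rw4 P.r2 N (coCell (83763 / 2048 : ℝ) (0 : ℝ) (12 : ℝ) 0 P3C3) := by
  refine ⟨(1073741824 : ℝ), ⟨Q47, List.mem_cons_of_mem _ (List.mem_cons_of_mem _ (List.mem_cons_of_mem _ (List.mem_cons_of_mem _ (List.mem_cons_of_mem _ (List.mem_cons_of_mem _ (List.mem_cons_of_mem _ (List.mem_cons_of_mem _ (List.mem_cons_of_mem _ (List.mem_cons_of_mem _ (List.mem_cons_of_mem _ (List.mem_cons_of_mem _ (List.mem_cons_of_mem _ (List.mem_cons_of_mem _ (List.mem_cons_of_mem _ (List.mem_cons_of_mem _ (List.mem_cons_of_mem _ (List.mem_cons_of_mem _ (List.mem_cons_of_mem _ (List.mem_cons_of_mem _ (List.mem_cons_of_mem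 _ (List.mem_cons_of_mem _ (List.mem_cons_of_mem _ (List.mem_cons_of_mem _ (List.mem_cons_of_mem _ (List.mem_cons_of_mem _ (List.mem_cons_of_mem _ (List.mem_cons_of_mem _ (List.mem_cons_of_mem _ (List.mem_cons_of_mem _ (List.mem_cons_of_mem _ (List.mem_cons_of_mem _ (List.mem_cons_of_mem _ (List.mem_cons_of_mem _ (List.mem_cons_of_mem _ (List.mem_cons_of_mem _ (List.mem_cons_of_mem _ (List.mem_cons_of_mem _ (List.mem_cons_of_mem _ (List.mem_cons_of_mem _ (List.mem_cons_of_mem _ (List.mem_cons_of_mem _ (List.mem_cons_of_mem _ (List.mem_cons_of_mem _ (List.mem_cons_of_mem _ (List.mem_cons_of_mem _ (List.mem_cons_of_mem _ (List.mem_cons_self))))))))))))))))))))))))))))))))))))))))))))))), ?_⟩, by norm_num⟩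
  constructor <;> norm_num [Q47, coCell, P3C3]

lemma lP3C3 : ∀ x1 x2 xc : ℝ, 0 ≤ x1 → x1 ≤ 1 → 0 ≤ x2 → x2 ≤ 1 → P3C3.l ≤ xc → xc ≤ P3C3.u →
    (83763 / 2048 : ℝ) * (1 - (1 - x1) ^ 2) + (0 : ℝ) * (1 - (1 - x2) ^ 2) - (12 : ℝ) * (1 - (1 - xc) ^ 2) + (1 / 1073741824 : ℝ)
      ≤ - P3C3.a1 * x1 - P3C3.a2 * x2 + P3C3.e * xc + P3C3.f := by
  have h := cell_lines_delta 2 (α1 := (83763 / 2048 : ℝ)) (α2 := (0 : ℝ)) (c := (12 : ℝ)) (y1 := (48749 / 262144 : ℝ)) (y2 := (13107 / 131072 : ℝ))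
    (A1 := (279290709 / 4194304 : ℝ)) (B1 := (379676519 / 268435456 : ℝ)) (A2 := (0 : ℝ)) (B2 := (0 : ℝ)) (l := (87421 / 262144 : ℝ)) (u := (46333 / 131072 : ℝ))
    (E := (-1032603 / 65536 : ℝ)) (F := (-94933059 / 67108864 : ℝ)) (δ := (1 / 1073741824 : ℝ)) (by norm_num) (by norm_num) (by norm_num) (by norm_num) (by norm_num)
    (by norm_num) (by norm_num) (by norm_num) (by norm_num) (by norm_num) (by norm_num) (by norm_num) (by norm_num) (by norm_num) (by norm_num)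
  have e1 : P3C3.l = (87421 / 262144 : ℝ) := rfl
  have e2 : P3C3.u = (46333 / 131072 : ℝ) := rfl
  have e3 : P3C3.a1 = -(279290709 / 4194304 : ℝ) := by norm_num [P3C3]
  have e4 : P3C3.a2 = -(0 : ℝ) := by norm_num [P3C3]
  have e5 : P3C3.e = (-1032603 / 65536 : ℝ) := rfl
  have e6 : P3C3.f = (379676519 / 268435456 : ℝ) + (0 : ℝ) + (-94933059 / 67108864 : ℝ) + (1 / 1073741824 : ℝ) := by norm_num [P3C3]
  rw [e1, e2, e3, e4, e5, e6]
  exact h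

lemma rP3C4 : ∃ N : ℝ, Rw4 P.r2 N (coCell (83763 / 2048 : ℝ) (0 : ℝ) (12 : ℝ) 0 P3C4) := by
  refine ⟨(1073741824 : ℝ), ⟨Q48, List.mem_cons_of_mem _ (List.mem_cons_of_mem _ (List.mem_cons_of_mem _ (List.mem_cons_of_mem _ (List.mem_cons_of_mem _ (List.mem_cons_of_mem _ (List.mem_cons_of_mem _ (List.mem_cons_of_mem _ (List.mem_cons_of_mem _ (List.mem_cons_of_mem _ (List.mem_cons_of_mem _ (List.mem_cons_of_mem _ (List.mem_cons_of_mem _ (List.mem_cons_of_mem _ (List.mem_cons_of_mem _ (List.mem_cons_of_mem _ (List.mem_cons_of_mem _ (List.mem_cons_of_mem _ (List.mem_cons_of_mem _ (List.mem_cons_of_mem _ (List.mem_cons_of_mem _ (List.mem_cons_of_mem _ (List.mem_cons_of_mem _ (List.mem_cons_of_mem _ (List.mem_cons_of_mem _ (List.mem_cons_of_mem _ (List.mem_cons_of_mem _ (List.mem_cons_of_mem _ (List.mem_cons_of_mem _ (List.mem_cons_of_mem _ (List.mem_cons_of_mem _ (List.mem_cons_of_mem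 _ (List.mem_cons_of_mem _ (List.mem_cons_of_mem _ (List.mem_cons_of_mem _ (List.mem_cons_of_mem _ (List.mem_cons_of_mem _ (List.mem_cons_of_mem _ (List.mem_cons_of_mem _ (List.mem_cons_of_mem _ (List.mem_cons_of_mem _ (List.mem_cons_of_mem _ (List.mem_cons_of_mem _ (List.mem_cons_of_mem _ (List.mem_cons_of_mem _ (List.mem_cons_of_mem _ (List.mem_cons_of_mem _ (List.mem_cons_of_mem _ (List.mem_cons_self)))))))))))))))))))))))))))))))))))))))))))))))), ?_⟩, by norm_num⟩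
  constructor <;> norm_num [Q48, coCell, P3C4]

lemma lP3C4 : ∀ x1 x2 xc : ℝ, 0 ≤ x1 → x1 ≤ 1 → 0 ≤ x2 → x2 ≤ 1 → P3C4.l ≤ xc → xc ≤ P3C4.u →
    (83763 / 2048 : ℝ) * (1 - (1 - x1) ^ 2) + (0 : ℝ) * (1 - (1 - x2) ^ 2) - (12 : ℝ) * (1 - (1 - xc) ^ 2) + (1 / 1073741824 : ℝ)
      ≤ - P3C4.a1 * x1 - P3C4.a2 * x2 + P3C4.e * xc + P3C4.f := by
  have h := cell_lines_delta 2 (α1 := (83763 / 2048 : ℝ)) (α2 := (0 : ℝ)) (c := (12 : ℝ)) (y1 := (25837 / 131072 : ℝ)) (y2 := (27787 / 262144 : ℝ))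
    (A1 := (137731239 / 2097152 : ℝ)) (B1 := (426605535 / 268435456 : ℝ)) (A2 := (0 : ℝ)) (B2 := (0 : ℝ)) (l := (46333 / 131072 : ℝ)) (u := (49113 / 131072 : ℝ))
    (E := (-250047 / 16384 : ℝ)) (F := (-426666117 / 268435456 : ℝ)) (δ := (1 / 1073741824 : ℝ)) (by norm_num) (by norm_num) (by norm_num) (by norm_num) (by norm_num)
    (by norm_num) (by norm_num) (by norm_num) (by norm_num) (by norm_num) (by norm_num) (by norm_num) (by norm_num) (by norm_num) (by norm_num)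
  have e1 : P3C4.l = (46333 / 131072 : ℝ) := rfl
  have e2 : P3C4.u = (49113 / 131072 : ℝ) := rfl
  have e3 : P3C4.a1 = -(137731239 / 2097152 : ℝ) := by norm_num [P3C4]
  have e4 : P3C4.a2 = -(0 : ℝ) := by norm_num [P3C4]
  have e5 : P3C4.e = (-250047 / 16384 : ℝ) := rfl
  have e6 : P3C4.f = (426605535 / 268435456 : ℝ) + (0 : ℝ) + (-426666117 / 268435456 : ℝ) + (1 / 1073741824 : ℝ) := by norm_num [P3C4]
  rw [e1, e2, e3, e4, e5, e6]
  exact h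

lemma rP3C5 : ∃ N : ℝ, Rw4 P.r2 N (coCell (83763 / 2048 : ℝ) (0 : ℝ) (12 : ℝ) 0 P3C5) := by
  refine ⟨(3221225472 : ℝ), ⟨Q49, List.mem_cons_of_mem _ (List.mem_cons_of_mem _ (List.mem_cons_of_mem _ (List.mem_cons_of_mem _ (List.mem_cons_of_mem _ (List.mem_cons_of_mem _ (List.mem_cons_of_mem _ (List.mem_cons_of_mem _ (List.mem_cons_of_mem _ (List.mem_cons_of_mem _ (List.mem_cons_of_mem _ (List.mem_cons_of_mem _ (List.mem_cons_of_mem _ (List.mem_cons_of_mem _ (List.mem_cons_of_mem _ (List.mem_cons_of_mem _ (List.mem_cons_of_mem _ (List.mem_cons_of_mem _ (List.mem_cons_of_mem _ (List.mem_cons_of_mem _ (List.mem_cons_of_mem _ (List.mem_cons_of_mem _ (List.mem_cons_of_mem _ (List.mem_cons_of_mem _ (List.mem_cons_of_mem _ (List.mem_cons_of_mem _ (List.mem_cons_of_mem _ (List.mem_cons_of_mem _ (List.mem_cons_of_mem _ (List.mem_cons_of_mem _ (List.mem_cons_of_mem _ (List.mem_cons_of_mem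 _ (List.mem_cons_of_mem _ (List.mem_cons_of_mem _ (List.mem_cons_of_mem _ (List.mem_cons_of_mem _ (List.mem_cons_of_mem _ (List.mem_cons_of_mem _ (List.mem_cons_of_mem _ (List.mem_cons_of_mem _ (List.mem_cons_of_mem _ (List.mem_cons_of_mem _ (List.mem_cons_of_mem _ (List.mem_cons_of_mem _ (List.mem_cons_of_mem _ (List.mem_cons_of_mem _ (List.mem_cons_of_mem _ (List.mem_cons_of_mem _ (List.mem_cons_of_mem _ (List.mem_cons_self))))))))))))))))))))))))))))))))))))))))))))))))), ?_⟩, by norm_num⟩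
  constructor <;> norm_num [Q49, coCell, P3C5]

lemma lP3C5 : ∀ x1 x2 xc : ℝ, 0 ≤ x1 → x1 ≤ 1 → 0 ≤ x2 → x2 ≤ 1 → P3C5.l ≤ xc → xc ≤ P3C5.u →
    (83763 / 2048 : ℝ) * (1 - (1 - x1) ^ 2) + (0 : ℝ) * (1 - (1 - x2) ^ 2) - (12 : ℝ) * (1 - (1 - xc) ^ 2) + (1 / 1073741824 : ℝ)
      ≤ - P3C5.a1 * x1 - P3C5.a2 * x2 + P3C5.e * xc + P3C5.f := by
  have h := cell_lines_delta 2 (α1 := (83763 / 2048 : ℝ)) (α2 := (0 : ℝ)) (c := (12 : ℝ)) (y1 := (54775 / 262144 : ℝ)) (y2 := (14727 / 131072 : ℝ))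
    (A1 := (271403899 / 4194304 : ℝ)) (B1 := (119835943 / 67108864 : ℝ)) (A2 := (0 : ℝ)) (B2 := (0 : ℝ)) (l := (49113 / 131072 : ℝ)) (u := (13015 / 32768 : ℝ))
    (E := (-482913 / 32768 : ℝ)) (F := (-479404271 / 268435456 : ℝ)) (δ := (1 / 1073741824 : ℝ)) (by norm_num) (by norm_num) (by norm_num) (by norm_num) (by norm_num)
    (by norm_num) (by norm_num) (by norm_num) (by norm_num) (by norm_num) (by norm_num) (by norm_num) (by norm_num) (by norm_num) (by norm_num)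
  have e1 : P3C5.l = (49113 / 131072 : ℝ) := rfl
  have e2 : P3C5.u = (13015 / 32768 : ℝ) := rfl
  have e3 : P3C5.a1 = -(271403899 / 4194304 : ℝ) := by norm_num [P3C5]
  have e4 : P3C5.a2 = -(0 : ℝ) := by norm_num [P3C5]
  have e5 : P3C5.e = (-482913 / 32768 : ℝ) := rfl
  have e6 : P3C5.f = (119835943 / 67108864 : ℝ) + (0 : ℝ) + (-479404271 / 268435456 : ℝ) + (1 / 1073741824 : ℝ) := by norm_num [P3C5]
  rw [e1, e2, e3, e4, e5, e6]
  exact h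

lemma rP3C6 : ∃ N : ℝ, Rw4 P.r2 N (coCell (83763 / 2048 : ℝ) (0 : ℝ) (12 : ℝ) 0 P3C6) := by
  refine ⟨(3221225472 : ℝ), ⟨Q50, List.mem_cons_of_mem _ (List.mem_cons_of_mem _ (List.mem_cons_of_mem _ (List.mem_cons_of_mem _ (List.mem_cons_of_mem _ (List.mem_cons_of_mem _ (List.mem_cons_of_mem _ (List.mem_cons_of_mem _ (List.mem_cons_of_mem _ (List.mem_cons_of_mem _ (List.mem_cons_of_mem _ (List.mem_cons_of_mem _ (List.mem_cons_of_mem _ (List.mem_cons_of_mem _ (List.mem_cons_of_mem _ (List.mem_cons_of_mem _ (List.mem_cons_of_mem _ (List.mem_cons_of_mem _ (List.mem_cons_of_mem _ (List.mem_cons_of_mem _ (List.mem_cons_of_mem _ (List.mem_cons_of_mem _ (List.mem_cons_of_mem _ (List.mem_cons_of_mem _ (List.mem_cons_of_mem _ (List.mem_cons_of_mem _ (List.mem_cons_of_mem _ (List.mem_cons_of_mem _ (List.mem_cons_of_mem _ (List.mem_cons_of_mem _ (List.mem_cons_of_mem _ (List.mem_cons_of_mem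 _ (List.mem_cons_of_mem _ (List.mem_cons_of_mem _ (List.mem_cons_of_mem _ (List.mem_cons_of_mem _ (List.mem_cons_of_mem _ (List.mem_cons_of_mem _ (List.mem_cons_of_mem _ (List.mem_cons_of_mem _ (List.mem_cons_of_mem _ (List.mem_cons_of_mem _ (List.mem_cons_of_mem _ (List.mem_cons_of_mem _ (List.mem_cons_of_mem _ (List.mem_cons_of_mem _ (List.mem_cons_of_mem _ (List.mem_cons_of_mem _ (List.mem_cons_of_mem _ (List.mem_cons_of_mem _ (List.mem_cons_self)))))))))))))))))))))))))))))))))))))))))))))))))), ?_⟩, by norm_num⟩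
  constructor <;> norm_num [Q50, coCell, P3C6]

lemma lP3C6 : ∀ x1 x2 xc : ℝ, 0 ≤ x1 → x1 ≤ 1 → 0 ≤ x2 → x2 ≤ 1 → P3C6.l ≤ xc → xc ≤ P3C6.u →
    (83763 / 2048 : ℝ) * (1 - (1 - x1) ^ 2) + (0 : ℝ) * (1 - (1 - x2) ^ 2) - (12 : ℝ) * (1 - (1 - xc) ^ 2) + (1 / 1073741824 : ℝ)
      ≤ - P3C6.a1 * x1 - P3C6.a2 * x2 + P3C6.e * xc + P3C6.f := by
  have h := cell_lines_delta 2 (α1 := (83763 / 2048 : ℝ)) (α2 := (0 : ℝ)) (c := (12 : ℝ)) (y1 := (29031 / 131072 : ℝ)) (y2 := (31221 / 262144 : ℝ))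
    (A1 := (66775471 / 1048576 : ℝ)) (B1 := (269299963 / 134217728 : ℝ)) (A2 := (0 : ℝ)) (B2 := (0 : ℝ)) (l := (13015 / 32768 : ℝ)) (u := (110367 / 262144 : ℝ))
    (E := (-929403 / 65536 : ℝ)) (F := (-538659939 / 268435456 : ℝ)) (δ := (1 / 1073741824 : ℝ)) (by norm_num) (by norm_num) (by norm_num) (by norm_num) (by norm_num)
    (by norm_num) (by norm_num) (by norm_num) (by norm_num) (by norm_num) (by norm_num) (by norm_num) (by norm_num) (by norm_num) (by norm_num)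
  have e1 : P3C6.l = (13015 / 32768 : ℝ) := rfl
  have e2 : P3C6.u = (110367 / 262144 : ℝ) := rfl
  have e3 : P3C6.a1 = -(66775471 / 1048576 : ℝ) := by norm_num [P3C6]
  have e4 : P3C6.a2 = -(0 : ℝ) := by norm_num [P3C6]
  have e5 : P3C6.e = (-929403 / 65536 : ℝ) := rfl
  have e6 : P3C6.f = (269299963 / 134217728 : ℝ) + (0 : ℝ) + (-538659939 / 268435456 : ℝ) + (1 / 1073741824 : ℝ) := by norm_num [P3C6]
  rw [e1, e2, e3, e4, e5, e6]
  exact h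

lemma rP3C7 : ∃ N : ℝ, Rw4 P.r2 N (coCell (83763 / 2048 : ℝ) (0 : ℝ) (12 : ℝ) 0 P3C7) := by
  refine ⟨(1073741824 : ℝ), ⟨Q51, List.mem_cons_of_mem _ (List.mem_cons_of_mem _ (List.mem_cons_of_mem _ (List.mem_cons_of_mem _ (List.mem_cons_of_mem _ (List.mem_cons_of_mem _ (List.mem_cons_of_mem _ (List.mem_cons_of_mem _ (List.mem_cons_of_mem _ (List.mem_cons_of_mem _ (List.mem_cons_of_mem _ (List.mem_cons_of_mem _ (List.mem_cons_of_mem _ (List.mem_cons_of_mem _ (List.mem_cons_of_mem _ (List.mem_cons_of_mem _ (List.mem_cons_of_mem _ (List.mem_cons_of_mem _ (List.mem_cons_of_mem _ (List.mem_cons_of_mem _ (List.mem_cons_of_mem _ (List.mem_cons_of_mem _ (List.mem_cons_of_mem _ (List.mem_cons_of_mem _ (List.mem_cons_of_mem _ (List.mem_cons_of_mem _ (List.mem_cons_of_mem _ (List.mem_cons_of_mem _ (List.mem_cons_of_mem _ (List.mem_cons_of_mem _ (List.mem_cons_of_mem _ (List.mem_cons_of_mem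 _ (List.mem_cons_of_mem _ (List.mem_cons_of_mem _ (List.mem_cons_of_mem _ (List.mem_cons_of_mem _ (List.mem_cons_of_mem _ (List.mem_cons_of_mem _ (List.mem_cons_of_mem _ (List.mem_cons_of_mem _ (List.mem_cons_of_mem _ (List.mem_cons_of_mem _ (List.mem_cons_of_mem _ (List.mem_cons_of_mem _ (List.mem_cons_of_mem _ (List.mem_cons_of_mem _ (List.mem_cons_of_mem _ (List.mem_cons_of_mem _ (List.mem_cons_of_mem _ (List.mem_cons_of_mem _ (List.mem_cons_of_mem _ (List.mem_cons_self))))))))))))))))))))))))))))))))))))))))))))))))))), ?_⟩, by norm_num⟩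
  constructor <;> norm_num [Q51, coCell, P3C7]

lemma lP3C7 : ∀ x1 x2 xc : ℝ, 0 ≤ x1 → x1 ≤ 1 → 0 ≤ x2 → x2 ≤ 1 → P3C7.l ≤ xc → xc ≤ P3C7.u →
    (83763 / 2048 : ℝ) * (1 - (1 - x1) ^ 2) + (0 : ℝ) * (1 - (1 - x2) ^ 2) - (12 : ℝ) * (1 - (1 - xc) ^ 2) + (1 / 1073741824 : ℝ)
      ≤ - P3C7.a1 * x1 - P3C7.a2 * x2 + P3C7.e * xc + P3C7.f := by
  have h := cell_lines_delta 2 (α1 := (83763 / 2048 : ℝ)) (α2 := (0 : ℝ)) (c := (12 : ℝ)) (y1 := (30773 / 131072 : ℝ)) (y2 := (33093 / 262144 : ℝ))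
    (A1 := (65635509 / 1048576 : ℝ)) (B1 := (605176383 / 268435456 : ℝ)) (A2 := (0 : ℝ)) (B2 := (0 : ℝ)) (l := (110367 / 262144 : ℝ)) (u := (116989 / 262144 : ℝ))
    (E := (-222699 / 16384 : ℝ)) (F := (-605237107 / 268435456 : ℝ)) (δ := (1 / 1073741824 : ℝ)) (by norm_num) (by norm_num) (by norm_num) (by norm_num) (by norm_num)
    (by norm_num) (by norm_num) (by norm_num) (by norm_num) (by norm_num) (by norm_num) (by norm_num) (by norm_num) (by norm_num) (by norm_num)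
  have e1 : P3C7.l = (110367 / 262144 : ℝ) := rfl
  have e2 : P3C7.u = (116989 / 262144 : ℝ) := rfl
  have e3 : P3C7.a1 = -(65635509 / 1048576 : ℝ) := by norm_num [P3C7]
  have e4 : P3C7.a2 = -(0 : ℝ) := by norm_num [P3C7]
  have e5 : P3C7.e = (-222699 / 16384 : ℝ) := rfl
  have e6 : P3C7.f = (605176383 / 268435456 : ℝ) + (0 : ℝ) + (-605237107 / 268435456 : ℝ) + (1 / 1073741824 : ℝ) := by norm_num [P3C7]
  rw [e1, e2, e3, e4, e5, e6]
  exact h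

lemma rP3C8 : ∃ N : ℝ, Rw4 P.r2 N (coCell (83763 / 2048 : ℝ) (0 : ℝ) (12 : ℝ) 0 P3C8) := by
  refine ⟨(1073741824 : ℝ), ⟨Q52, List.mem_cons_of_mem _ (List.mem_cons_of_mem _ (List.mem_cons_of_mem _ (List.mem_cons_of_mem _ (List.mem_cons_of_mem _ (List.mem_cons_of_mem _ (List.mem_cons_of_mem _ (List.mem_cons_of_mem _ (List.mem_cons_of_mem _ (List.mem_cons_of_mem _ (List.mem_cons_of_mem _ (List.mem_cons_of_mem _ (List.mem_cons_of_mem _ (List.mem_cons_of_mem _ (List.mem_cons_of_mem _ (List.mem_cons_of_mem _ (List.mem_cons_of_mem _ (List.mem_cons_of_mem _ (List.mem_cons_of_mem _ (List.mem_cons_of_mem _ (List.mem_cons_of_mem _ (List.mem_cons_of_mem _ (List.mem_cons_of_mem _ (List.mem_cons_of_mem _ (List.mem_cons_of_mem _ (List.mem_cons_of_mem _ (List.mem_cons_of_mem _ (List.mem_cons_of_mem _ (List.mem_cons_of_mem _ (List.mem_cons_of_mem _ (List.mem_cons_of_mem _ (List.mem_cons_of_mem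 _ (List.mem_cons_of_mem _ (List.mem_cons_of_mem _ (List.mem_cons_of_mem _ (List.mem_cons_of_mem _ (List.mem_cons_of_mem _ (List.mem_cons_of_mem _ (List.mem_cons_of_mem _ (List.mem_cons_of_mem _ (List.mem_cons_of_mem _ (List.mem_cons_of_mem _ (List.mem_cons_of_mem _ (List.mem_cons_of_mem _ (List.mem_cons_of_mem _ (List.mem_cons_of_mem _ (List.mem_cons_of_mem _ (List.mem_cons_of_mem _ (List.mem_cons_of_mem _ (List.mem_cons_of_mem _ (List.mem_cons_of_mem _ (List.mem_cons_of_mem _ (List.mem_cons_self)))))))))))))))))))))))))))))))))))))))))))))))))))), ?_⟩, by norm_num⟩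
  constructor <;> norm_num [Q52, coCell, P3C8]

lemma lP3C8 : ∀ x1 x2 xc : ℝ, 0 ≤ x1 → x1 ≤ 1 → 0 ≤ x2 → x2 ≤ 1 → P3C8.l ≤ xc → xc ≤ P3C8.u →
    (83763 / 2048 : ℝ) * (1 - (1 - x1) ^ 2) + (0 : ℝ) * (1 - (1 - x2) ^ 2) - (12 : ℝ) * (1 - (1 - xc) ^ 2) + (1 / 1073741824 : ℝ)
      ≤ - P3C8.a1 * x1 - P3C8.a2 * x2 + P3C8.e * xc + P3C8.f := by
  have h := cell_lines_delta 2 (α1 := (83763 / 2048 : ℝ)) (α2 := (0 : ℝ)) (c := (12 : ℝ)) (y1 := (65239 / 262144 : ℝ)) (y2 := (35079 / 262144 : ℝ))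
    (A1 := (257708649 / 4194304 : ℝ)) (B1 := (339990593 / 134217728 : ℝ)) (A2 := (0 : ℝ)) (B2 := (0 : ℝ)) (l := (116989 / 262144 : ℝ)) (u := (15501 / 32768 : ℝ))
    (E := (-849873 / 65536 : ℝ)) (F := (-680042433 / 268435456 : ℝ)) (δ := (1 / 1073741824 : ℝ)) (by norm_num) (by norm_num) (by norm_num) (by norm_num) (by norm_num)
    (by norm_num) (by norm_num) (by norm_num) (by norm_num) (by norm_num) (by norm_num) (by norm_num) (by norm_num) (by norm_num) (by norm_num)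
  have e1 : P3C8.l = (116989 / 262144 : ℝ) := rfl
  have e2 : P3C8.u = (15501 / 32768 : ℝ) := rfl
  have e3 : P3C8.a1 = -(257708649 / 4194304 : ℝ) := by norm_num [P3C8]
  have e4 : P3C8.a2 = -(0 : ℝ) := by norm_num [P3C8]
  have e5 : P3C8.e = (-849873 / 65536 : ℝ) := rfl
  have e6 : P3C8.f = (339990593 / 134217728 : ℝ) + (0 : ℝ) + (-680042433 / 268435456 : ℝ) + (1 / 1073741824 : ℝ) := by norm_num [P3C8]
  rw [e1, e2, e3, e4, e5, e6]
  exact h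

lemma rP3C9 : ∃ N : ℝ, Rw4 P.r2 N (coCell (83763 / 2048 : ℝ) (0 : ℝ) (12 : ℝ) 0 P3C9) := by
  refine ⟨(1073741824 : ℝ), ⟨Q53, List.mem_cons_of_mem _ (List.mem_cons_of_mem _ (List.mem_cons_of_mem _ (List.mem_cons_of_mem _ (List.mem_cons_of_mem _ (List.mem_cons_of_mem _ (List.mem_cons_of_mem _ (List.mem_cons_of_mem _ (List.mem_cons_of_mem _ (List.mem_cons_of_mem _ (List.mem_cons_of_mem _ (List.mem_cons_of_mem _ (List.mem_cons_of_mem _ (List.mem_cons_of_mem _ (List.mem_cons_of_mem _ (List.mem_cons_of_mem _ (List.mem_cons_of_mem _ (List.mem_cons_of_mem _ (List.mem_cons_of_mem _ (List.mem_cons_of_mem _ (List.mem_cons_of_mem _ (List.mem_cons_of_mem _ (List.mem_cons_of_mem _ (List.mem_cons_of_mem _ (List.mem_cons_of_mem _ (List.mem_cons_of_mem _ (List.mem_cons_of_mem _ (List.mem_cons_of_mem _ (List.mem_cons_of_mem _ (List.mem_cons_of_mem _ (List.mem_cons_of_mem _ (List.mem_cons_of_mem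 _ (List.mem_cons_of_mem _ (List.mem_cons_of_mem _ (List.mem_cons_of_mem _ (List.mem_cons_of_mem _ (List.mem_cons_of_mem _ (List.mem_cons_of_mem _ (List.mem_cons_of_mem _ (List.mem_cons_of_mem _ (List.mem_cons_of_mem _ (List.mem_cons_of_mem _ (List.mem_cons_of_mem _ (List.mem_cons_of_mem _ (List.mem_cons_of_mem _ (List.mem_cons_of_mem _ (List.mem_cons_of_mem _ (List.mem_cons_of_mem _ (List.mem_cons_of_mem _ (List.mem_cons_of_mem _ (List.mem_cons_of_mem _ (List.mem_cons_of_mem _ (List.mem_cons_of_mem _ (List.mem_cons_self))))))))))))))))))))))))))))))))))))))))))))))))))))), ?_⟩, by norm_num⟩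
  constructor <;> norm_num [Q53, coCell, P3C9]

lemma lP3C9 : ∀ x1 x2 xc : ℝ, 0 ≤ x1 → x1 ≤ 1 → 0 ≤ x2 → x2 ≤ 1 → P3C9.l ≤ xc → xc ≤ P3C9.u →
    (83763 / 2048 : ℝ) * (1 - (1 - x1) ^ 2) + (0 : ℝ) * (1 - (1 - x2) ^ 2) - (12 : ℝ) * (1 - (1 - xc) ^ 2) + (1 / 1073741824 : ℝ)
      ≤ - P3C9.a1 * x1 - P3C9.a2 * x2 + P3C9.e * xc + P3C9.f := by
  have h := cell_lines_delta 2 (α1 := (83763 / 2048 : ℝ)) (α2 := (0 : ℝ)) (c := (12 : ℝ)) (y1 := (34577 / 131072 : ℝ)) (y2 := (37183 / 262144 : ℝ))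
    (A1 := (252584709 / 4194304 : ℝ)) (B1 := (764041445 / 268435456 : ℝ)) (A2 := (0 : ℝ)) (B2 := (0 : ℝ)) (l := (15501 / 32768 : ℝ)) (u := (131449 / 262144 : ℝ))
    (E := (-806493 / 65536 : ℝ)) (F := (-764096605 / 268435456 : ℝ)) (δ := (1 / 1073741824 : ℝ)) (by norm_num) (by norm_num) (by norm_num) (by norm_num) (by norm_num)
    (by norm_num) (by norm_num) (by norm_num) (by norm_num) (by norm_num) (by norm_num) (by norm_num) (by norm_num) (by norm_num) (by norm_num)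
  have e1 : P3C9.l = (15501 / 32768 : ℝ) := rfl
  have e2 : P3C9.u = (131449 / 262144 : ℝ) := rfl
  have e3 : P3C9.a1 = -(252584709 / 4194304 : ℝ) := by norm_num [P3C9]
  have e4 : P3C9.a2 = -(0 : ℝ) := by norm_num [P3C9]
  have e5 : P3C9.e = (-806493 / 65536 : ℝ) := rfl
  have e6 : P3C9.f = (764041445 / 268435456 : ℝ) + (0 : ℝ) + (-764096605 / 268435456 : ℝ) + (1 / 1073741824 : ℝ) := by norm_num [P3C9]
  rw [e1, e2, e3, e4, e5, e6]
  exact h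

lemma rP3C10 : ∃ N : ℝ, Rw4 P.r2 N (coCell (83763 / 2048 : ℝ) (0 : ℝ) (12 : ℝ) 0 P3C10) := by
  refine ⟨(3221225472 : ℝ), ⟨Q54, List.mem_cons_of_mem _ (List.mem_cons_of_mem _ (List.mem_cons_of_mem _ (List.mem_cons_of_mem _ (List.mem_cons_of_mem _ (List.mem_cons_of_mem _ (List.mem_cons_of_mem _ (List.mem_cons_of_mem _ (List.mem_cons_of_mem _ (List.mem_cons_of_mem _ (List.mem_cons_of_mem _ (List.mem_cons_of_mem _ (List.mem_cons_of_mem _ (List.mem_cons_of_mem _ (List.mem_cons_of_mem _ (List.mem_cons_of_mem _ (List.mem_cons_of_mem _ (List.mem_cons_of_mem _ (List.mem_cons_of_mem _ (List.mem_cons_of_mem _ (List.mem_cons_of_mem _ (List.mem_cons_of_mem _ (List.mem_cons_of_mem _ (List.mem_cons_of_mem _ (List.mem_cons_of_mem _ (List.mem_cons_of_mem _ (List.mem_cons_of_mem _ (List.mem_cons_of_mem _ (List.mem_cons_of_mem _ (List.mem_cons_of_mem _ (List.mem_cons_of_mem _ (List.mem_cons_of_mem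 _ (List.mem_cons_of_mem _ (List.mem_cons_of_mem _ (List.mem_cons_of_mem _ (List.mem_cons_of_mem _ (List.mem_cons_of_mem _ (List.mem_cons_of_mem _ (List.mem_cons_of_mem _ (List.mem_cons_of_mem _ (List.mem_cons_of_mem _ (List.mem_cons_of_mem _ (List.mem_cons_of_mem _ (List.mem_cons_of_mem _ (List.mem_cons_of_mem _ (List.mem_cons_of_mem _ (List.mem_cons_of_mem _ (List.mem_cons_of_mem _ (List.mem_cons_of_mem _ (List.mem_cons_of_mem _ (List.mem_cons_of_mem _ (List.mem_cons_of_mem _ (List.mem_cons_of_mem _ (List.mem_cons_of_mem _ (List.mem_cons_self)))))))))))))))))))))))))))))))))))))))))))))))))))))), ?_⟩, by norm_num⟩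
  constructor <;> norm_num [Q54, coCell, P3C10]

lemma lP3C10 : ∀ x1 x2 xc : ℝ, 0 ≤ x1 → x1 ≤ 1 → 0 ≤ x2 → x2 ≤ 1 → P3C10.l ≤ xc → xc ≤ P3C10.u →
    (83763 / 2048 : ℝ) * (1 - (1 - x1) ^ 2) + (0 : ℝ) * (1 - (1 - x2) ^ 2) - (12 : ℝ) * (1 - (1 - xc) ^ 2) + (1 / 1073741824 : ℝ)
      ≤ - P3C10.a1 * x1 - P3C10.a2 * x2 + P3C10.e * xc + P3C10.f := by
  have h := cell_lines_delta 2 (α1 := (83763 / 2048 : ℝ)) (α2 := (0 : ℝ)) (c := (12 : ℝ)) (y1 := (9163 / 32768 : ℝ)) (y2 := (19707 / 131072 : ℝ))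
    (A1 := (123576601 / 2097152 : ℝ)) (B1 := (858494769 / 268435456 : ℝ)) (A2 := (0 : ℝ)) (B2 := (0 : ℝ)) (l := (131449 / 262144 : ℝ)) (u := (17417 / 32768 : ℝ))
    (E := (-760509 / 65536 : ℝ)) (F := (-107317839 / 33554432 : ℝ)) (δ := (1 / 1073741824 : ℝ)) (by norm_num) (by norm_num) (by norm_num) (by norm_num) (by norm_num)
    (by norm_num) (by norm_num) (by norm_num) (by norm_num) (by norm_num) (by norm_num) (by norm_num) (by norm_num) (by norm_num) (by norm_num)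
  have e1 : P3C10.l = (131449 / 262144 : ℝ) := rfl
  have e2 : P3C10.u = (17417 / 32768 : ℝ) := rfl
  have e3 : P3C10.a1 = -(123576601 / 2097152 : ℝ) := by norm_num [P3C10]
  have e4 : P3C10.a2 = -(0 : ℝ) := by norm_num [P3C10]
  have e5 : P3C10.e = (-760509 / 65536 : ℝ) := rfl
  have e6 : P3C10.f = (858494769 / 268435456 : ℝ) + (0 : ℝ) + (-107317839 / 33554432 : ℝ) + (1 / 1073741824 : ℝ) := by norm_num [P3C10]
  rw [e1, e2, e3, e4, e5, e6]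
  exact h

lemma rP3C11 : ∃ N : ℝ, Rw4 P.r2 N (coCell (83763 / 2048 : ℝ) (0 : ℝ) (12 : ℝ) 0 P3C11) := by
  refine ⟨(3221225472 : ℝ), ⟨Q55, List.mem_cons_of_mem _ (List.mem_cons_of_mem _ (List.mem_cons_of_mem _ (List.mem_cons_of_mem _ (List.mem_cons_of_mem _ (List.mem_cons_of_mem _ (List.mem_cons_of_mem _ (List.mem_cons_of_mem _ (List.mem_cons_of_mem _ (List.mem_cons_of_mem _ (List.mem_cons_of_mem _ (List.mem_cons_of_mem _ (List.mem_cons_of_mem _ (List.mem_cons_of_mem _ (List.mem_cons_of_mem _ (List.mem_cons_of_mem _ (List.mem_cons_of_mem _ (List.mem_cons_of_mem _ (List.mem_cons_of_mem _ (List.mem_cons_of_mem _ (List.mem_cons_of_mem _ (List.mem_cons_of_mem _ (List.mem_cons_of_mem _ (List.mem_cons_of_mem _ (List.mem_cons_of_mem _ (List.mem_cons_of_mem _ (List.mem_cons_of_mem _ (List.mem_cons_of_mem _ (List.mem_cons_of_mem _ (List.mem_cons_of_mem _ (List.mem_cons_of_mem _ (List.mem_cons_of_mem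 _ (List.mem_cons_of_mem _ (List.mem_cons_of_mem _ (List.mem_cons_of_mem _ (List.mem_cons_of_mem _ (List.mem_cons_of_mem _ (List.mem_cons_of_mem _ (List.mem_cons_of_mem _ (List.mem_cons_of_mem _ (List.mem_cons_of_mem _ (List.mem_cons_of_mem _ (List.mem_cons_of_mem _ (List.mem_cons_of_mem _ (List.mem_cons_of_mem _ (List.mem_cons_of_mem _ (List.mem_cons_of_mem _ (List.mem_cons_of_mem _ (List.mem_cons_of_mem _ (List.mem_cons_of_mem _ (List.mem_cons_of_mem _ (List.mem_cons_of_mem _ (List.mem_cons_of_mem _ (List.mem_cons_of_mem _ (List.mem_cons_of_mem _ (List.mem_cons_self))))))))))))))))))))))))))))))))))))))))))))))))))))))), ?_⟩, by norm_num⟩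
  constructor <;> norm_num [Q55, coCell, P3C11]

lemma lP3C11 : ∀ x1 x2 xc : ℝ, 0 ≤ x1 → x1 ≤ 1 → 0 ≤ x2 → x2 ≤ 1 → P3C11.l ≤ xc → xc ≤ P3C11.u →
    (83763 / 2048 : ℝ) * (1 - (1 - x1) ^ 2) + (0 : ℝ) * (1 - (1 - x2) ^ 2) - (12 : ℝ) * (1 - (1 - xc) ^ 2) + (1 / 1073741824 : ℝ)
      ≤ - P3C11.a1 * x1 - P3C11.a2 * x2 + P3C11.e * xc + P3C11.f := by
  have h := cell_lines_delta 2 (α1 := (83763 / 2048 : ℝ)) (α2 := (0 : ℝ)) (c := (12 : ℝ)) (y1 := (76771 / 262144 : ℝ)) (y2 := (15781 / 131072 : ℝ))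
    (A1 := (242615603 / 4194304 : ℝ)) (B1 := (470811117 / 134217728 : ℝ)) (A2 := (0 : ℝ)) (B2 := (0 : ℝ)) (l := (17417 / 32768 : ℝ)) (u := (144179 / 262144 : ℝ))
    (E := (-722319 / 65536 : ℝ)) (F := (-235421779 / 67108864 : ℝ)) (δ := (1 / 1073741824 : ℝ)) (by norm_num) (by norm_num) (by norm_num) (by norm_num) (by norm_num)
    (by norm_num) (by norm_num) (by norm_num) (by norm_num) (by norm_num) (by norm_num) (by norm_num) (by norm_num) (by norm_num) (by norm_num)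
  have e1 : P3C11.l = (17417 / 32768 : ℝ) := rfl
  have e2 : P3C11.u = (144179 / 262144 : ℝ) := rfl
  have e3 : P3C11.a1 = -(242615603 / 4194304 : ℝ) := by norm_num [P3C11]
  have e4 : P3C11.a2 = -(0 : ℝ) := by norm_num [P3C11]
  have e5 : P3C11.e = (-722319 / 65536 : ℝ) := rfl
  have e6 : P3C11.f = (470811117 / 134217728 : ℝ) + (0 : ℝ) + (-235421779 / 67108864 : ℝ) + (1 / 1073741824 : ℝ) := by norm_num [P3C11]
  rw [e1, e2, e3, e4, e5, e6]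
  exact h

/-- A link of the chain. -/
lemma link3 {lam : ℝ} (h0 : -(1 / 2) < lam) (h1 : lam < 1) (hB : BoxS lam P 0 HH 0 HH)
    (h : ∃ n, 1 - En 2 lam n mc ≤ (144179 / 262144 : ℝ)) : ∃ n, 1 - En 2 lam n mc ≤ (9175 / 32768 : ℝ) :=
  phase_of_box (by norm_num) h0 h1 hB (83763 / 2048 : ℝ) (0 : ℝ) (12 : ℝ) (1 / 1073741824 : ℝ) (9175 / 32768 : ℝ) (144179 / 262144 : ℝ) (by norm_num) cellsP3 hcoverP3
    (forall_cons lP3C0 (forall_cons lP3C1 (forall_cons lP3C2 (forall_cons lP3C3 (forall_cons lP3C4 (forall_cons lP3C5 (forall_cons lP3C6 (forall_cons lP3C7 (forall_cons lP3C8 (forall_cons lP3C9 (forall_cons lP3C10 (forall_cons lP3C11 (forall_nil))))))))))))) (forall_cons rP3C0 (forall_cons rP3C1 (forall_cons rP3C2 (forall_cons rP3C3 (forall_cons rP3C4 (forall_cons rP3C5 (forall_cons rP3C6 (forall_cons rP3C7 (forall_cons rP3C8 (forall_cons rP3C9 (forall_cons rP3C10 (forall_cons rP3C11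 (forall_nil))))))))))))) h

/-- A chord cell of a link. -/
noncomputable def P4C0 : Cell := ⟨(144179 / 262144 : ℝ), (158597 / 262144 : ℝ), (-265306357 / 4194304 : ℝ), (-107979 / 32768 : ℝ), (-83067 / 8192 : ℝ), (-185951 / 1073741824 : ℝ)⟩

/-- A chord cell of a link. -/
noncomputable def P4C1 : Cell := ⟨(158597 / 262144 : ℝ), (649 / 1024 : ℝ), (-256509905 / 4194304 : ℝ), (-216021 / 65536 : ℝ), (-598641 / 65536 : ℝ), (-1012879 / 1073741824 : ℝ)⟩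

/-- The chord cells of a link. -/
noncomputable def cellsP4 : List Cell := [P4C0, P4C1]

lemma hcoverP4 : ∀ x : ℝ, (144179 / 262144 : ℝ) ≤ x → x ≤ (649 / 1024 : ℝ) → ∃ D ∈ cellsP4, D.l ≤ x ∧ x ≤ D.u := by
  refine cover_of_chain ?_ (by norm_num [P4C0])
  simp only [ChainP, P4C0, P4C1]
  norm_num

lemma rP4C0 : ∃ N : ℝ, Rw4 P.r2 N (coCell (179405 / 4096 : ℝ) (3 : ℝ) (12 : ℝ) 0 P4C0) := by
  refine ⟨(3221225472 : ℝ), ⟨Q56, List.mem_cons_of_mem _ (List.mem_cons_of_mem _ (List.mem_cons_of_mem _ (List.mem_cons_of_mem _ (List.mem_cons_of_mem _ (List.mem_cons_of_mem _ (List.mem_cons_of_mem _ (List.mem_cons_of_mem _ (List.mem_cons_of_mem _ (List.mem_cons_of_mem _ (List.mem_cons_of_mem _ (List.mem_cons_of_mem _ (List.mem_cons_of_mem _ (List.mem_cons_of_mem _ (List.mem_cons_of_mem _ (List.mem_cons_of_mem _ (List.mem_cons_of_mem _ (List.mem_cons_of_mem _ (List.mem_cons_of_mem _ (List.mem_cons_of_mem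 _ (List.mem_cons_of_mem _ (List.mem_cons_of_mem _ (List.mem_cons_of_mem _ (List.mem_cons_of_mem _ (List.mem_cons_of_mem _ (List.mem_cons_of_mem _ (List.mem_cons_of_mem _ (List.mem_cons_of_mem _ (List.mem_cons_of_mem _ (List.mem_cons_of_mem _ (List.mem_cons_of_mem _ (List.mem_cons_of_mem _ (List.mem_cons_of_mem _ (List.mem_cons_of_mem _ (List.mem_cons_of_mem _ (List.mem_cons_of_mem _ (List.mem_cons_of_mem _ (List.mem_cons_of_mem _ (List.mem_cons_of_mem _ (List.mem_cons_of_mem _ (List.mem_cons_of_mem _ (List.mem_cons_of_mem _ (List.mem_cons_of_mem _ (List.mem_cons_of_mem _ (List.mem_cons_of_mem _ (List.mem_cons_of_mem _ (List.mem_cons_of_mem _ (List.mem_cons_of_mem _ (List.mem_cons_of_mem _ (List.mem_cons_of_mem _ (List.mem_cons_of_mem _ (List.mem_cons_of_mem _ (List.mem_cons_of_mem _ (List.mem_cons_of_mem _ (List.mem_cons_of_mem _ (List.mem_cons_of_mem _ (List.mem_cons_self)))))))))))))))))))))))))))))))))))))))))))))))))))))))),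 ?_⟩, by norm_num⟩
  constructor <;> norm_num [Q56, coCell, P4C0]

lemma lP4C0 : ∀ x1 x2 xc : ℝ, 0 ≤ x1 → x1 ≤ 1 → 0 ≤ x2 → x2 ≤ 1 → P4C0.l ≤ xc → xc ≤ P4C0.u →
    (179405 / 4096 : ℝ) * (1 - (1 - x1) ^ 2) + (3 : ℝ) * (1 - (1 - x2) ^ 2) - (12 : ℝ) * (1 - (1 - xc) ^ 2) + (1 / 1073741824 : ℝ)
      ≤ - P4C0.a1 * x1 - P4C0.a2 * x2 + P4C0.e * xc + P4C0.f := by
  have h := cell_lines_delta 2 (α1 := (179405 / 4096 : ℝ)) (α2 := (3 : ℝ)) (c := (12 : ℝ)) (y1 := (9107 / 32768 : ℝ)) (y2 := (29543 / 65536 : ℝ))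
    (A1 := (265306357 / 4194304 : ℝ)) (B1 := (908166079 / 268435456 : ℝ)) (A2 := (107979 / 32768 : ℝ)) (B2 := (81823955 / 134217728 : ℝ)) (l := (144179 / 262144 : ℝ)) (u := (158597 / 262144 : ℝ))
    (E := (-83067 / 8192 : ℝ)) (F := (-1071860477 / 268435456 : ℝ)) (δ := (1 / 1073741824 : ℝ)) (by norm_num) (by norm_num) (by norm_num) (by norm_num) (by norm_num)
    (by norm_num) (by norm_num) (by norm_num) (by norm_num) (by norm_num) (by norm_num) (by norm_num) (by norm_num) (by norm_num) (by norm_num)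
  have e1 : P4C0.l = (144179 / 262144 : ℝ) := rfl
  have e2 : P4C0.u = (158597 / 262144 : ℝ) := rfl
  have e3 : P4C0.a1 = -(265306357 / 4194304 : ℝ) := by norm_num [P4C0]
  have e4 : P4C0.a2 = -(107979 / 32768 : ℝ) := by norm_num [P4C0]
  have e5 : P4C0.e = (-83067 / 8192 : ℝ) := rfl
  have e6 : P4C0.f = (908166079 / 268435456 : ℝ) + (81823955 / 134217728 : ℝ) + (-1071860477 / 268435456 : ℝ) + (1 / 1073741824 : ℝ) := by norm_num [P4C0]
  rw [e1, e2, e3, e4, e5, e6]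
  exact h

lemma rP4C1 : ∃ N : ℝ, Rw4 P.r2 N (coCell (179405 / 4096 : ℝ) (3 : ℝ) (12 : ℝ) 0 P4C1) := by
  refine ⟨(3221225472 : ℝ), ⟨Q57, List.mem_cons_of_mem _ (List.mem_cons_of_mem _ (List.mem_cons_of_mem _ (List.mem_cons_of_mem _ (List.mem_cons_of_mem _ (List.mem_cons_of_mem _ (List.mem_cons_of_mem _ (List.mem_cons_of_mem _ (List.mem_cons_of_mem _ (List.mem_cons_of_mem _ (List.mem_cons_of_mem _ (List.mem_cons_of_mem _ (List.mem_cons_of_mem _ (List.mem_cons_of_mem _ (List.mem_cons_of_mem _ (List.mem_cons_of_mem _ (List.mem_cons_of_mem _ (List.mem_cons_of_mem _ (List.mem_cons_of_mem _ (List.mem_cons_of_mem _ (List.mem_cons_of_mem _ (List.mem_cons_of_mem _ (List.mem_cons_of_mem _ (List.mem_cons_of_mem _ (List.mem_cons_of_mem _ (List.mem_cons_of_mem _ (List.mem_cons_of_mem _ (List.mem_cons_of_mem _ (List.mem_cons_of_mem _ (List.mem_cons_of_mem _ (List.mem_cons_of_mem _ (List.mem_cons_of_mem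 _ (List.mem_cons_of_mem _ (List.mem_cons_of_mem _ (List.mem_cons_of_mem _ (List.mem_cons_of_mem _ (List.mem_cons_of_mem _ (List.mem_cons_of_mem _ (List.mem_cons_of_mem _ (List.mem_cons_of_mem _ (List.mem_cons_of_mem _ (List.mem_cons_of_mem _ (List.mem_cons_of_mem _ (List.mem_cons_of_mem _ (List.mem_cons_of_mem _ (List.mem_cons_of_mem _ (List.mem_cons_of_mem _ (List.mem_cons_of_mem _ (List.mem_cons_of_mem _ (List.mem_cons_of_mem _ (List.mem_cons_of_mem _ (List.mem_cons_of_mem _ (List.mem_cons_of_mem _ (List.mem_cons_of_mem _ (List.mem_cons_of_mem _ (List.mem_cons_of_mem _ (List.mem_cons_of_mem _ (List.mem_cons_self))))))))))))))))))))))))))))))))))))))))))))))))))))))))), ?_⟩, by norm_num⟩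
  constructor <;> norm_num [Q57, coCell, P4C1]

lemma lP4C1 : ∀ x1 x2 xc : ℝ, 0 ≤ x1 → x1 ≤ 1 → 0 ≤ x2 → x2 ≤ 1 → P4C1.l ≤ xc → xc ≤ P4C1.u →
    (179405 / 4096 : ℝ) * (1 - (1 - x1) ^ 2) + (3 : ℝ) * (1 - (1 - x2) ^ 2) - (12 : ℝ) * (1 - (1 - xc) ^ 2) + (1 / 1073741824 : ℝ)
      ≤ - P4C1.a1 * x1 - P4C1.a2 * x2 + P4C1.e * xc + P4C1.f := by
  have h := cell_lines_delta 2 (α1 := (179405 / 4096 : ℝ)) (α2 := (3 : ℝ)) (c := (12 : ℝ)) (y1 := (19783 / 65536 : ℝ)) (y2 := (59065 / 131072 : ℝ))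
    (A1 := (256509905 / 4194304 : ℝ)) (B1 := (1071368611 / 268435456 : ℝ)) (A2 := (216021 / 65536 : ℝ)) (B2 := (163531605 / 268435456 : ℝ)) (l := (158597 / 262144 : ℝ)) (u := (649 / 1024 : ℝ))
    (E := (-598641 / 65536 : ℝ)) (F := (-308788359 / 67108864 : ℝ)) (δ := (1 / 1073741824 : ℝ)) (by norm_num) (by norm_num) (by norm_num) (by norm_num) (by norm_num)
    (by norm_num) (by norm_num) (by norm_num) (by norm_num) (by norm_num) (by norm_num) (by norm_num) (by norm_num) (by norm_num) (by norm_num)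
  have e1 : P4C1.l = (158597 / 262144 : ℝ) := rfl
  have e2 : P4C1.u = (649 / 1024 : ℝ) := rfl
  have e3 : P4C1.a1 = -(256509905 / 4194304 : ℝ) := by norm_num [P4C1]
  have e4 : P4C1.a2 = -(216021 / 65536 : ℝ) := by norm_num [P4C1]
  have e5 : P4C1.e = (-598641 / 65536 : ℝ) := rfl
  have e6 : P4C1.f = (1071368611 / 268435456 : ℝ) + (163531605 / 268435456 : ℝ) + (-308788359 / 67108864 : ℝ) + (1 / 1073741824 : ℝ) := by norm_num [P4C1]
  rw [e1, e2, e3, e4, e5, e6]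
  exact h

/-- A link of the chain. -/
lemma link4 {lam : ℝ} (h0 : -(1 / 2) < lam) (h1 : lam < 1) (hB : BoxS lam P 0 HH 0 HH)
    (h : ∃ n, 1 - En 2 lam n mc ≤ (649 / 1024 : ℝ)) : ∃ n, 1 - En 2 lam n mc ≤ (144179 / 262144 : ℝ) :=
  phase_of_box (by norm_num) h0 h1 hB (179405 / 4096 : ℝ) (3 : ℝ) (12 : ℝ) (1 / 1073741824 : ℝ) (144179 / 262144 : ℝ) (649 / 1024 : ℝ) (by norm_num) cellsP4 hcoverP4
    (forall_cons lP4C0 (forall_cons lP4C1 (forall_nil))) (forall_cons rP4C0 (forall_cons rP4C1 (forall_nil))) h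

/-- The whole chain. -/
lemma chain {lam : ℝ} (h0 : -(1 / 2) < lam) (h1 : lam < 1) (hB : BoxS lam P 0 HH 0 HH) :
    ∃ n, 1 - En 2 lam n mc ≤ (1 / 32 : ℝ) := (link0 h0 h1 hB (link1 h0 h1 hB (link2 h0 h1 hB (link3 h0 h1 hB (link4 h0 h1 hB (start_of_box h0 h1 hB _ rc3))))))

/-- The hypotheses at the origin. -/
lemma horig : OriginH 2 (-49 / 100 : ℝ) (2331 / 1024 : ℝ) (672327 / 65536 : ℝ) (317191 / 32768 : ℝ) (41 / 128 : ℝ) (1 / 64 : ℝ) (731 / 4096 : ℝ) (3919 / 4096 : ℝ) (1 / 256 : ℝ) 3298534883328 := by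
  refine originH_sub (d := 2) (by norm_num) (by norm_num) (by norm_num) (by norm_num) (by norm_num) (by norm_num) (by norm_num)
    (by norm_num) (by norm_num) (by norm_num) (by norm_num) (by norm_num [S]) (by norm_num) ?_ ?_ ?_
  · rw [hch]
    norm_num [orB1, orB2, orB3, orB4, abs_of_pos, abs_of_neg]
  · norm_num [orB1, orB2, orB3, orB4, abs_of_pos, abs_of_neg]
  · norm_num [abs_of_pos, abs_of_neg]

/-- Nonreconstruction at the eigenvalue. -/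
theorem main : Tendsto (reconError 3 2 (-49 / 100 : ℝ)) atTop (𝓝 0) := by
  have hb2 : (-(1 / 2) : ℝ) < (-49 / 100 : ℝ) := by norm_num
  have h1 : (-49 / 100 : ℝ) < 1 := by norm_num
  have hlam : |(S : ℝ) * (-49 / 100 : ℝ) - ((P.lp : ℝ) - P.ln)| ≤ ((1 : ℕ) : ℝ) := by
    have e1 : P.lp = 0 := rfl
    have e2 : P.ln = 35308221078584688 := rfl
    rw [e1, e2, abs_le]
    constructor <;> norm_num [S]
  obtain ⟨hOa, hON⟩ := horig
  have hB := box hlam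
  refine final_of_boxB (d := 2) (by norm_num) hb2 h1 hB (2331 / 1024 : ℝ) (672327 / 65536 : ℝ) (317191 / 32768 : ℝ) (41 / 128 : ℝ) (731 / 4096 : ℝ) (3919 / 4096 : ℝ) (5243 / 1048576 : ℝ) (41 / 4096 : ℝ) (1 / 64 : ℝ) (1 / 32 : ℝ) cellsL
    (by norm_num) (by norm_num) (by norm_num) (by norm_num) (by norm_num) (by norm_num) (by norm_num) (by norm_num)
    (by norm_num) (by norm_num) (by norm_num) (by norm_num) (by norm_num) hOa hON rTa rTb rc1 rc2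
    (forall_cons rcell0 (forall_cons rcell1 (forall_nil))) hcover (forall_cons lcell0 (forall_cons lcell1 (forall_nil))) (chain hb2 h1 hB)

end Vale.Agent.P154H.Tm.S2
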