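import Vale.Agent.P154H.D.DS3
import Vale.Agent.P154H.Phase
import Vale.Agent.P154H.OriginS

open Filter Topology

set_option maxRecDepth 100000

/-!
Nonreconstruction for `d = 3` at a negative eigenvalue below the Kesten-Stigum bound, by a chain of
potentials along the monotone quantity `1 - En`.
-/

namespace Vale.Agent.P154H.Tm.S3

open Vale.Agent.P154 Vale.Agent.P154H

/-- A chord cell. -/
noncomputable def C0 : Cell := ⟨(5243 / 1048576 : ℝ), (3277 / 262144 : ℝ), (-7068583 / 1048576 : ℝ), (-127256565 / 4194304 : ℝ), (-61819933 / 2097152 : ℝ), (-8025 / 268435456 : ℝ)⟩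

/-- A chord cell. -/
noncomputable def C1 : Cell := ⟨(3277 / 262144 : ℝ), (1 / 32 : ℝ), (-27729409 / 4194304 : ℝ), (-15562675 / 524288 : ℝ), (-120390471 / 4194304 : ℝ), (-2325 / 67108864 : ℝ)⟩

/-- The chord cells. -/
noncomputable def cellsL : List Cell := [C0, C1]

lemma hcover : ∀ x : ℝ, (5243 / 1048576 : ℝ) ≤ x → x ≤ (1 / 32 : ℝ) → ∃ D ∈ cellsL, D.l ≤ x ∧ x ≤ D.u := by
  refine cover_of_chain ?_ (by norm_num [C0])
  simp only [ChainP, C0, C1]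
  norm_num

lemma hch : ((Nat.choose 3 2 : ℕ) : ℝ) = 3 := by norm_num [Nat.choose]

lemma rTa : Rw4 P.r1 (1179648 : ℝ) (coTa 3 (2331 / 1024 : ℝ) (672327 / 65536 : ℝ) (317191 / 32768 : ℝ) (41 / 128 : ℝ) (1 / 64 : ℝ)) := by
  refine ⟨⟨Ra, List.mem_cons_self, ?_⟩, by norm_num⟩
  constructor <;> norm_num [Ra, coTa, hch]

lemma rTb : Rw4 P.r1 (39582418599936 : ℝ) (coTb 3 (2331 / 1024 : ℝ) (672327 / 65536 : ℝ) (317191 / 32768 : ℝ) (41 / 128 : ℝ) (1 / 64 : ℝ) (731 / 4096 : ℝ) (3919 / 4096 : ℝ) (491 / 16384 : ℝ)) := by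
  refine ⟨⟨Rb, List.mem_cons_of_mem _ (List.mem_cons_self), ?_⟩, by norm_num⟩
  constructor <;> norm_num [Rb, coTb, hch]

lemma rc1 : Rw4 P.r2 (134217728 : ℝ) ⟨0, 0, 0, -(2331 / 1024 : ℝ), 0, 0, 0, 0, (317191 / 32768 : ℝ) * (731 / 4096 : ℝ)⟩ := by
  refine ⟨⟨Q0, List.mem_cons_self, ?_⟩, by norm_num⟩
  constructor <;> norm_num [Q0]

lemma rc2 : Rw4 P.r2 (134217728 : ℝ) ⟨0, 0, 0, 0, -(672327 / 65536 : ℝ), 0, 0, 0, (317191 / 32768 : ℝ) * (3919 / 4096 : ℝ)⟩ := by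
  refine ⟨⟨Q1, List.mem_cons_of_mem _ (List.mem_cons_self), ?_⟩, by norm_num⟩
  constructor <;> norm_num [Q1]

lemma rc3 : Rw4 P.r2 (3072 : ℝ) ⟨0, 0, 0, 0, 0, -1, 0, 0, (649 / 1024 : ℝ)⟩ := by
  refine ⟨⟨Q2, List.mem_cons_of_mem _ (List.mem_cons_of_mem _ (List.mem_cons_self)), ?_⟩, by norm_num⟩
  constructor <;> norm_num [Q2]

lemma rcell0 : ∃ N : ℝ, Rw4 P.r2 N (coCell (2331 / 1024 : ℝ) (672327 / 65536 : ℝ) ((317191 / 32768 : ℝ) + (41 / 128 : ℝ)) (1 / 64 : ℝ) C0) := by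
  refine ⟨(2415919104 : ℝ), ⟨Q3, List.mem_cons_of_mem _ (List.mem_cons_of_mem _ (List.mem_cons_of_mem _ (List.mem_cons_self))), ?_⟩, by norm_num⟩
  constructor <;> norm_num [Q3, coCell, C0]

lemma lcell0 : ∀ x1 x2 xc : ℝ, 0 ≤ x1 → x1 ≤ 1 → 0 ≤ x2 → x2 ≤ 1 → C0.l ≤ xc → xc ≤ C0.u →
    (2331 / 1024 : ℝ) * (1 - (1 - x1) ^ 3) + (672327 / 65536 : ℝ) * (1 - (1 - x2) ^ 3) - ((317191 / 32768 : ℝ) + (41 / 128 : ℝ)) * (1 - (1 - xc) ^ 3)
      ≤ - C0.a1 * x1 - C0.a2 * x2 + C0.e * xc + C0.f := by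
  have h := cell_lines 3 (α1 := (2331 / 1024 : ℝ)) (α2 := (672327 / 65536 : ℝ)) (c := (317191 / 32768 : ℝ) + (41 / 128 : ℝ)) (y1 := (847 / 131072 : ℝ)) (y2 := (1865 / 262144 : ℝ))
    (A1 := (7068583 / 1048576 : ℝ)) (B1 := (76233 / 268435456 : ℝ)) (A2 := (127256565 / 4194304 : ℝ)) (B2 := (208087 / 134217728 : ℝ)) (l := (5243 / 1048576 : ℝ)) (u := (3277 / 262144 : ℝ))
    (E := (-61819933 / 2097152 : ℝ)) (F := (-31277 / 16777216 : ℝ)) (by norm_num) (by norm_num) (by norm_num) (by norm_num) (by norm_num)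
    (by norm_num) (by norm_num) (by norm_num) (by norm_num) (by norm_num) (by norm_num) (by norm_num) (by norm_num) (by norm_num) (by norm_num)
  have e1 : C0.l = (5243 / 1048576 : ℝ) := rfl
  have e2 : C0.u = (3277 / 262144 : ℝ) := rfl
  have e3 : C0.a1 = -(7068583 / 1048576 : ℝ) := by norm_num [C0]
  have e4 : C0.a2 = -(127256565 / 4194304 : ℝ) := by norm_num [C0]
  have e5 : C0.e = (-61819933 / 2097152 : ℝ) := rfl
  have e6 : C0.f = (76233 / 268435456 : ℝ) + (208087 / 134217728 : ℝ) + (-31277 / 16777216 : ℝ) := by norm_num [C0]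
  rw [e1, e2, e3, e4, e5, e6]
  exact h

lemma rcell1 : ∃ N : ℝ, Rw4 P.r2 N (coCell (2331 / 1024 : ℝ) (672327 / 65536 : ℝ) ((317191 / 32768 : ℝ) + (41 / 128 : ℝ)) (1 / 64 : ℝ) C1) := by
  refine ⟨(603979776 : ℝ), ⟨Q4, List.mem_cons_of_mem _ (List.mem_cons_of_mem _ (List.mem_cons_of_mem _ (List.mem_cons_of_mem _ (List.mem_cons_self)))), ?_⟩, by norm_num⟩
  constructor <;> norm_num [Q4, coCell, C1]

lemma lcell1 : ∀ x1 x2 xc : ℝ, 0 ≤ x1 → x1 ≤ 1 → 0 ≤ x2 → x2 ≤ 1 → C1.l ≤ xc → xc ≤ C1.u →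
    (2331 / 1024 : ℝ) * (1 - (1 - x1) ^ 3) + (672327 / 65536 : ℝ) * (1 - (1 - x2) ^ 3) - ((317191 / 32768 : ℝ) + (41 / 128 : ℝ)) * (1 - (1 - xc) ^ 3)
      ≤ - C1.a1 * x1 - C1.a2 * x2 + C1.e * xc + C1.f := by
  have h := cell_lines 3 (α1 := (2331 / 1024 : ℝ)) (α2 := (672327 / 65536 : ℝ)) (c := (317191 / 32768 : ℝ) + (41 / 128 : ℝ)) (y1 := (527 / 32768 : ℝ)) (y2 := (2349 / 131072 : ℝ))
    (A1 := (27729409 / 4194304 : ℝ)) (B1 := (469077 / 268435456 : ℝ)) (A2 := (15562675 / 524288 : ℝ)) (B2 := (1310865 / 134217728 : ℝ)) (l := (3277 / 262144 : ℝ)) (u := (1 / 32 : ℝ))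
    (E := (-120390471 / 4194304 : ℝ)) (F := (-3100107 / 268435456 : ℝ)) (by norm_num) (by norm_num) (by norm_num) (by norm_num) (by norm_num)
    (by norm_num) (by norm_num) (by norm_num) (by norm_num) (by norm_num) (by norm_num) (by norm_num) (by norm_num) (by norm_num) (by norm_num)
  have e1 : C1.l = (3277 / 262144 : ℝ) := rfl
  have e2 : C1.u = (1 / 32 : ℝ) := rfl
  have e3 : C1.a1 = -(27729409 / 4194304 : ℝ) := by norm_num [C1]
  have e4 : C1.a2 = -(15562675 / 524288 : ℝ) := by norm_num [C1]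
  have e5 : C1.e = (-120390471 / 4194304 : ℝ) := rfl
  have e6 : C1.f = (469077 / 268435456 : ℝ) + (1310865 / 134217728 : ℝ) + (-3100107 / 268435456 : ℝ) := by norm_num [C1]
  rw [e1, e2, e3, e4, e5, e6]
  exact h

/-- A chord cell of a link. -/
noncomputable def P0C0 : Cell := ⟨(1 / 32 : ℝ), (521 / 16384 : ℝ), (-331224627 / 4194304 : ℝ), (-1109757 / 2097152 : ℝ), (-141624879 / 4194304 : ℝ), (-1705099 / 1073741824 : ℝ)⟩

/-- A chord cell of a link. -/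
noncomputable def P0C1 : Cell := ⟨(521 / 16384 : ℝ), (2209 / 65536 : ℝ), (-165214299 / 2097152 : ℝ), (-2201593 / 4194304 : ℝ), (-141265899 / 4194304 : ℝ), (-215595 / 1073741824 : ℝ)⟩

/-- A chord cell of a link. -/
noncomputable def P0C2 : Cell := ⟨(2209 / 65536 : ℝ), (9367 / 262144 : ℝ), (-329584671 / 4194304 : ℝ), (-2182869 / 4194304 : ℝ), (-140692083 / 4194304 : ℝ), (-213055 / 1073741824 : ℝ)⟩

/-- A chord cell of a link. -/
noncomputable def P0C3 : Cell := ⟨(9367 / 262144 : ℝ), (9929 / 262144 : ℝ), (-41086629 / 524288 : ℝ), (-2163335 / 4194304 : ℝ), (-35021259 / 1048576 : ℝ), (-221887 / 1073741824 : ℝ)⟩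

/-- A chord cell of a link. -/
noncomputable def P0C4 : Cell := ⟨(9929 / 262144 : ℝ), (2631 / 65536 : ℝ), (-20484297 / 262144 : ℝ), (-1071457 / 2097152 : ℝ), (-69721937 / 2097152 : ℝ), (-220127 / 1073741824 : ℝ)⟩

/-- A chord cell of a link. -/
noncomputable def P0C5 : Cell := ⟨(2631 / 65536 : ℝ), (2789 / 65536 : ℝ), (-326749503 / 4194304 : ℝ), (-2121603 / 4194304 : ℝ), (-17345691 / 524288 : ℝ), (-222435 / 1073741824 : ℝ)⟩

/-- A chord cell of a link. -/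
noncomputable def P0C6 : Cell := ⟨(2789 / 65536 : ℝ), (11825 / 262144 : ℝ), (-325690431 / 4194304 : ℝ), (-1049699 / 2097152 : ℝ), (-69024039 / 2097152 : ℝ), (-217363 / 1073741824 : ℝ)⟩

/-- A chord cell of a link. -/
noncomputable def P0C7 : Cell := ⟨(11825 / 262144 : ℝ), (12535 / 262144 : ℝ), (-324571835 / 4194304 : ℝ), (-1038115 / 2097152 : ℝ), (-68644823 / 2097152 : ℝ), (-226343 / 1073741824 : ℝ)⟩

/-- A chord cell of a link. -/
noncomputable def P0C8 : Cell := ⟨(12535 / 262144 : ℝ), (13287 / 262144 : ℝ), (-161693195 / 2097152 : ℝ), (-1026057 / 2097152 : ℝ), (-68243923 / 2097152 : ℝ), (-224331 / 1073741824 : ℝ)⟩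

/-- A chord cell of a link. -/
noncomputable def P0C9 : Cell := ⟨(13287 / 262144 : ℝ), (3521 / 65536 : ℝ), (-80532983 / 1048576 : ℝ), (-2027037 / 4194304 : ℝ), (-135640897 / 4194304 : ℝ), (-214695 / 1073741824 : ℝ)⟩

/-- A chord cell of a link. -/
noncomputable def P0C10 : Cell := ⟨(3521 / 65536 : ℝ), (14929 / 262144 : ℝ), (-80201585 / 1048576 : ℝ), (-2000967 / 4194304 : ℝ), (-16843247 / 524288 : ℝ), (-216639 / 1073741824 : ℝ)⟩

/-- A chord cell of a link. -/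
noncomputable def P0C11 : Cell := ⟨(14929 / 262144 : ℝ), (15825 / 262144 : ℝ), (-319405007 / 4194304 : ℝ), (-1973927 / 4194304 : ℝ), (-133800335 / 4194304 : ℝ), (-230907 / 1073741824 : ℝ)⟩

/-- A chord cell of a link. -/
noncomputable def P0C12 : Cell := ⟨(15825 / 262144 : ℝ), (8387 / 131072 : ℝ), (-317920871 / 4194304 : ℝ), (-972961 / 2097152 : ℝ), (-132801841 / 4194304 : ℝ), (-223123 / 1073741824 : ℝ)⟩

/-- A chord cell of a link. -/
noncomputable def P0C13 : Cell := ⟨(8387 / 131072 : ℝ), (4445 / 65536 : ℝ), (-316352015 / 4194304 : ℝ), (-119809 / 262144 : ℝ), (-65873949 / 2097152 : ℝ), (-212607 / 1073741824 : ℝ)⟩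

/-- A chord cell of a link. -/
noncomputable def P0C14 : Cell := ⟨(4445 / 65536 : ℝ), (9175 / 131072 : ℝ), (-78673517 / 1048576 : ℝ), (-2042245 / 4194304 : ℝ), (-32725297 / 1048576 : ℝ), (-217207 / 1073741824 : ℝ)⟩

/-- The chord cells of a link. -/
noncomputable def cellsP0 : List Cell := [P0C0, P0C1, P0C2, P0C3, P0C4, P0C5, P0C6, P0C7, P0C8, P0C9, P0C10, P0C11, P0C12, P0C13, P0C14]

lemma hcoverP0 : ∀ x : ℝ, (1 / 32 : ℝ) ≤ x → x ≤ (9175 / 131072 : ℝ) → ∃ D ∈ cellsP0, D.l ≤ x ∧ x ≤ D.u := by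
  refine cover_of_chain ?_ (by norm_num [P0C0])
  simp only [ChainP, P0C0, P0C1, P0C2, P0C3, P0C4, P0C5, P0C6, P0C7, P0C8, P0C9, P0C10, P0C11, P0C12, P0C13, P0C14]
  norm_num

lemma rP0C0 : ∃ N : ℝ, Rw4 P.r2 N (coCell (56093 / 2048 : ℝ) (819 / 4096 : ℝ) (12 : ℝ) 0 P0C0) := by
  refine ⟨(3221225472 : ℝ), ⟨Q5, List.mem_cons_of_mem _ (List.mem_cons_of_mem _ (List.mem_cons_of_mem _ (List.mem_cons_of_mem _ (List.mem_cons_of_mem _ (List.mem_cons_self))))), ?_⟩, by norm_num⟩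
  constructor <;> norm_num [Q5, coCell, P0C0]

lemma lP0C0 : ∀ x1 x2 xc : ℝ, 0 ≤ x1 → x1 ≤ 1 → 0 ≤ x2 → x2 ≤ 1 → P0C0.l ≤ xc → xc ≤ P0C0.u →
    (56093 / 2048 : ℝ) * (1 - (1 - x1) ^ 3) + (819 / 4096 : ℝ) * (1 - (1 - x2) ^ 3) - (12 : ℝ) * (1 - (1 - xc) ^ 3) + (1 / 1073741824 : ℝ)
      ≤ - P0C0.a1 * x1 - P0C0.a2 * x2 + P0C0.e * xc + P0C0.f := by
  have h := cell_lines_delta 3 (α1 := (56093 / 2048 : ℝ)) (α2 := (819 / 4096 : ℝ)) (c := (12 : ℝ)) (y1 := (5151 / 262144 : ℝ)) (y2 := (1991 / 32768 : ℝ))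
    (A1 := (331224627 / 4194304 : ℝ)) (B1 := (2101147 / 67108864 : ℝ)) (A2 := (1109757 / 2097152 : ℝ)) (B2 := (570387 / 268435456 : ℝ)) (l := (1 / 32 : ℝ)) (u := (521 / 16384 : ℝ))
    (E := (-141624879 / 4194304 : ℝ)) (F := (-4700625 / 134217728 : ℝ)) (δ := (1 / 1073741824 : ℝ)) (by norm_num) (by norm_num) (by norm_num) (by norm_num) (by norm_num)
    (by norm_num) (by norm_num) (by norm_num) (by norm_num) (by norm_num) (by norm_num) (by norm_num) (by norm_num) (by norm_num) (by norm_num)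
  have e1 : P0C0.l = (1 / 32 : ℝ) := rfl
  have e2 : P0C0.u = (521 / 16384 : ℝ) := rfl
  have e3 : P0C0.a1 = -(331224627 / 4194304 : ℝ) := by norm_num [P0C0]
  have e4 : P0C0.a2 = -(1109757 / 2097152 : ℝ) := by norm_num [P0C0]
  have e5 : P0C0.e = (-141624879 / 4194304 : ℝ) := rfl
  have e6 : P0C0.f = (2101147 / 67108864 : ℝ) + (570387 / 268435456 : ℝ) + (-4700625 / 134217728 : ℝ) + (1 / 1073741824 : ℝ) := by norm_num [P0C0]
  rw [e1, e2, e3, e4, e5, e6]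
  exact h

lemma rP0C1 : ∃ N : ℝ, Rw4 P.r2 N (coCell (56093 / 2048 : ℝ) (819 / 4096 : ℝ) (12 : ℝ) 0 P0C1) := by
  refine ⟨(3221225472 : ℝ), ⟨Q6, List.mem_cons_of_mem _ (List.mem_cons_of_mem _ (List.mem_cons_of_mem _ (List.mem_cons_of_mem _ (List.mem_cons_of_mem _ (List.mem_cons_of_mem _ (List.mem_cons_self)))))), ?_⟩, by norm_num⟩
  constructor <;> norm_num [Q6, coCell, P0C1]

lemma lP0C1 : ∀ x1 x2 xc : ℝ, 0 ≤ x1 → x1 ≤ 1 → 0 ≤ x2 → x2 ≤ 1 → P0C1.l ≤ xc → xc ≤ P0C1.u →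
    (56093 / 2048 : ℝ) * (1 - (1 - x1) ^ 3) + (819 / 4096 : ℝ) * (1 - (1 - x2) ^ 3) - (12 : ℝ) * (1 - (1 - xc) ^ 3) + (1 / 1073741824 : ℝ)
      ≤ - P0C1.a1 * x1 - P0C1.a2 * x2 + P0C1.e * xc + P0C1.f := by
  have h := cell_lines_delta 3 (α1 := (56093 / 2048 : ℝ)) (α2 := (819 / 4096 : ℝ)) (c := (12 : ℝ)) (y1 := (1365 / 65536 : ℝ)) (y2 := (4231 / 65536 : ℝ))
    (A1 := (165214299 / 2097152 : ℝ)) (B1 := (2358919 / 67108864 : ℝ)) (A2 := (2201593 / 4194304 : ℝ)) (B2 := (642255 / 268435456 : ℝ)) (l := (521 / 16384 : ℝ)) (u := (2209 / 65536 : ℝ))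
    (E := (-141265899 / 4194304 : ℝ)) (F := (-5065915 / 134217728 : ℝ)) (δ := (1 / 1073741824 : ℝ)) (by norm_num) (by norm_num) (by norm_num) (by norm_num) (by norm_num)
    (by norm_num) (by norm_num) (by norm_num) (by norm_num) (by norm_num) (by norm_num) (by norm_num) (by norm_num) (by norm_num) (by norm_num)
  have e1 : P0C1.l = (521 / 16384 : ℝ) := rfl
  have e2 : P0C1.u = (2209 / 65536 : ℝ) := rfl
  have e3 : P0C1.a1 = -(165214299 / 2097152 : ℝ) := by norm_num [P0C1]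
  have e4 : P0C1.a2 = -(2201593 / 4194304 : ℝ) := by norm_num [P0C1]
  have e5 : P0C1.e = (-141265899 / 4194304 : ℝ) := rfl
  have e6 : P0C1.f = (2358919 / 67108864 : ℝ) + (642255 / 268435456 : ℝ) + (-5065915 / 134217728 : ℝ) + (1 / 1073741824 : ℝ) := by norm_num [P0C1]
  rw [e1, e2, e3, e4, e5, e6]
  exact h

lemma rP0C2 : ∃ N : ℝ, Rw4 P.r2 N (coCell (56093 / 2048 : ℝ) (819 / 4096 : ℝ) (12 : ℝ) 0 P0C2) := by
  refine ⟨(3221225472 : ℝ), ⟨Q7, List.mem_cons_of_mem _ (List.mem_cons_of_mem _ (List.mem_cons_of_mem _ (List.mem_cons_of_mem _ (List.mem_cons_of_mem _ (List.mem_cons_of_mem _ (List.mem_cons_of_mem _ (List.mem_cons_self))))))), ?_⟩, by norm_num⟩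
  constructor <;> norm_num [Q7, coCell, P0C2]

lemma lP0C2 : ∀ x1 x2 xc : ℝ, 0 ≤ x1 → x1 ≤ 1 → 0 ≤ x2 → x2 ≤ 1 → P0C2.l ≤ xc → xc ≤ P0C2.u →
    (56093 / 2048 : ℝ) * (1 - (1 - x1) ^ 3) + (819 / 4096 : ℝ) * (1 - (1 - x2) ^ 3) - (12 : ℝ) * (1 - (1 - xc) ^ 3) + (1 / 1073741824 : ℝ)
      ≤ - P0C2.a1 * x1 - P0C2.a2 * x2 + P0C2.e * xc + P0C2.f := by
  have h := cell_lines_delta 3 (α1 := (56093 / 2048 : ℝ)) (α2 := (819 / 4096 : ℝ)) (c := (12 : ℝ)) (y1 := (1447 / 65536 : ℝ)) (y2 := (17969 / 262144 : ℝ))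
    (A1 := (329584671 / 4194304 : ℝ)) (B1 := (10594413 / 268435456 : ℝ)) (A2 := (2182869 / 4194304 : ℝ)) (B2 := (180501 / 67108864 : ℝ)) (l := (2209 / 65536 : ℝ)) (u := (9367 / 262144 : ℝ))
    (E := (-140692083 / 4194304 : ℝ)) (F := (-11369681 / 268435456 : ℝ)) (δ := (1 / 1073741824 : ℝ)) (by norm_num) (by norm_num) (by norm_num) (by norm_num) (by norm_num)
    (by norm_num) (by norm_num) (by norm_num) (by norm_num) (by norm_num) (by norm_num) (by norm_num) (by norm_num) (by norm_num) (by norm_num)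
  have e1 : P0C2.l = (2209 / 65536 : ℝ) := rfl
  have e2 : P0C2.u = (9367 / 262144 : ℝ) := rfl
  have e3 : P0C2.a1 = -(329584671 / 4194304 : ℝ) := by norm_num [P0C2]
  have e4 : P0C2.a2 = -(2182869 / 4194304 : ℝ) := by norm_num [P0C2]
  have e5 : P0C2.e = (-140692083 / 4194304 : ℝ) := rfl
  have e6 : P0C2.f = (10594413 / 268435456 : ℝ) + (180501 / 67108864 : ℝ) + (-11369681 / 268435456 : ℝ) + (1 / 1073741824 : ℝ) := by norm_num [P0C2]
  rw [e1, e2, e3, e4, e5, e6]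
  exact h

lemma rP0C3 : ∃ N : ℝ, Rw4 P.r2 N (coCell (56093 / 2048 : ℝ) (819 / 4096 : ℝ) (12 : ℝ) 0 P0C3) := by
  refine ⟨(3221225472 : ℝ), ⟨Q8, List.mem_cons_of_mem _ (List.mem_cons_of_mem _ (List.mem_cons_of_mem _ (List.mem_cons_of_mem _ (List.mem_cons_of_mem _ (List.mem_cons_of_mem _ (List.mem_cons_of_mem _ (List.mem_cons_of_mem _ (List.mem_cons_self)))))))), ?_⟩, by norm_num⟩
  constructor <;> norm_num [Q8, coCell, P0C3]

lemma lP0C3 : ∀ x1 x2 xc : ℝ, 0 ≤ x1 → x1 ≤ 1 → 0 ≤ x2 → x2 ≤ 1 → P0C3.l ≤ xc → xc ≤ P0C3.u →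
    (56093 / 2048 : ℝ) * (1 - (1 - x1) ^ 3) + (819 / 4096 : ℝ) * (1 - (1 - x2) ^ 3) - (12 : ℝ) * (1 - (1 - xc) ^ 3) + (1 / 1073741824 : ℝ)
      ≤ - P0C3.a1 * x1 - P0C3.a2 * x2 + P0C3.e * xc + P0C3.f := by
  have h := cell_lines_delta 3 (α1 := (56093 / 2048 : ℝ)) (α2 := (819 / 4096 : ℝ)) (c := (12 : ℝ)) (y1 := (6135 / 262144 : ℝ)) (y2 := (2383 / 32768 : ℝ))
    (A1 := (41086629 / 524288 : ℝ)) (B1 := (11892135 / 268435456 : ℝ)) (A2 := (2163335 / 4194304 : ℝ)) (B2 := (810309 / 268435456 : ℝ)) (l := (9367 / 262144 : ℝ)) (u := (9929 / 262144 : ℝ))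
    (E := (-35021259 / 1048576 : ℝ)) (F := (-3189479 / 67108864 : ℝ)) (δ := (1 / 1073741824 : ℝ)) (by norm_num) (by norm_num) (by norm_num) (by norm_num) (by norm_num)
    (by norm_num) (by norm_num) (by norm_num) (by norm_num) (by norm_num) (by norm_num) (by norm_num) (by norm_num) (by norm_num) (by norm_num)
  have e1 : P0C3.l = (9367 / 262144 : ℝ) := rfl
  have e2 : P0C3.u = (9929 / 262144 : ℝ) := rfl
  have e3 : P0C3.a1 = -(41086629 / 524288 : ℝ) := by norm_num [P0C3]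
  have e4 : P0C3.a2 = -(2163335 / 4194304 : ℝ) := by norm_num [P0C3]
  have e5 : P0C3.e = (-35021259 / 1048576 : ℝ) := rfl
  have e6 : P0C3.f = (11892135 / 268435456 : ℝ) + (810309 / 268435456 : ℝ) + (-3189479 / 67108864 : ℝ) + (1 / 1073741824 : ℝ) := by norm_num [P0C3]
  rw [e1, e2, e3, e4, e5, e6]
  exact h

lemma rP0C4 : ∃ N : ℝ, Rw4 P.r2 N (coCell (56093 / 2048 : ℝ) (819 / 4096 : ℝ) (12 : ℝ) 0 P0C4) := by
  refine ⟨(3221225472 : ℝ), ⟨Q9, List.mem_cons_of_mem _ (List.mem_cons_of_mem _ (List.mem_cons_of_mem _ (List.mem_cons_of_mem _ (List.mem_cons_of_mem _ (List.mem_cons_of_mem _ (List.mem_cons_of_mem _ (List.mem_cons_of_mem _ (List.mem_cons_of_mem _ (List.mem_cons_self))))))))), ?_⟩, by norm_num⟩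
  constructor <;> norm_num [Q9, coCell, P0C4]

lemma lP0C4 : ∀ x1 x2 xc : ℝ, 0 ≤ x1 → x1 ≤ 1 → 0 ≤ x2 → x2 ≤ 1 → P0C4.l ≤ xc → xc ≤ P0C4.u →
    (56093 / 2048 : ℝ) * (1 - (1 - x1) ^ 3) + (819 / 4096 : ℝ) * (1 - (1 - x2) ^ 3) - (12 : ℝ) * (1 - (1 - xc) ^ 3) + (1 / 1073741824 : ℝ)
      ≤ - P0C4.a1 * x1 - P0C4.a2 * x2 + P0C4.e * xc + P0C4.f := by
  have h := cell_lines_delta 3 (α1 := (56093 / 2048 : ℝ)) (α2 := (819 / 4096 : ℝ)) (c := (12 : ℝ)) (y1 := (6503 / 262144 : ℝ)) (y2 := (10107 / 131072 : ℝ))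
    (A1 := (20484297 / 262144 : ℝ)) (B1 := (13348889 / 268435456 : ℝ)) (A2 := (1071457 / 2097152 : ℝ)) (B2 := (454109 / 134217728 : ℝ)) (l := (9929 / 262144 : ℝ)) (u := (2631 / 65536 : ℝ))
    (E := (-69721937 / 2097152 : ℝ)) (F := (-14312139 / 268435456 : ℝ)) (δ := (1 / 1073741824 : ℝ)) (by norm_num) (by norm_num) (by norm_num) (by norm_num) (by norm_num)
    (by norm_num) (by norm_num) (by norm_num) (by norm_num) (by norm_num) (by norm_num) (by norm_num) (by norm_num) (by norm_num) (by norm_num)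
  have e1 : P0C4.l = (9929 / 262144 : ℝ) := rfl
  have e2 : P0C4.u = (2631 / 65536 : ℝ) := rfl
  have e3 : P0C4.a1 = -(20484297 / 262144 : ℝ) := by norm_num [P0C4]
  have e4 : P0C4.a2 = -(1071457 / 2097152 : ℝ) := by norm_num [P0C4]
  have e5 : P0C4.e = (-69721937 / 2097152 : ℝ) := rfl
  have e6 : P0C4.f = (13348889 / 268435456 : ℝ) + (454109 / 134217728 : ℝ) + (-14312139 / 268435456 : ℝ) + (1 / 1073741824 : ℝ) := by norm_num [P0C4]
  rw [e1, e2, e3, e4, e5, e6]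
  exact h

lemma rP0C5 : ∃ N : ℝ, Rw4 P.r2 N (coCell (56093 / 2048 : ℝ) (819 / 4096 : ℝ) (12 : ℝ) 0 P0C5) := by
  refine ⟨(3221225472 : ℝ), ⟨Q10, List.mem_cons_of_mem _ (List.mem_cons_of_mem _ (List.mem_cons_of_mem _ (List.mem_cons_of_mem _ (List.mem_cons_of_mem _ (List.mem_cons_of_mem _ (List.mem_cons_of_mem _ (List.mem_cons_of_mem _ (List.mem_cons_of_mem _ (List.mem_cons_of_mem _ (List.mem_cons_self)))))))))), ?_⟩, by norm_num⟩
  constructor <;> norm_num [Q10, coCell, P0C5]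

lemma lP0C5 : ∀ x1 x2 xc : ℝ, 0 ≤ x1 → x1 ≤ 1 → 0 ≤ x2 → x2 ≤ 1 → P0C5.l ≤ xc → xc ≤ P0C5.u →
    (56093 / 2048 : ℝ) * (1 - (1 - x1) ^ 3) + (819 / 4096 : ℝ) * (1 - (1 - x2) ^ 3) - (12 : ℝ) * (1 - (1 - xc) ^ 3) + (1 / 1073741824 : ℝ)
      ≤ - P0C5.a1 * x1 - P0C5.a2 * x2 + P0C5.e * xc + P0C5.f := by
  have h := cell_lines_delta 3 (α1 := (56093 / 2048 : ℝ)) (α2 := (819 / 4096 : ℝ)) (c := (12 : ℝ)) (y1 := (6893 / 262144 : ℝ)) (y2 := (5355 / 65536 : ℝ))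
    (A1 := (326749503 / 4194304 : ℝ)) (B1 := (14982903 / 268435456 : ℝ)) (A2 := (2121603 / 4194304 : ℝ)) (B2 := (1016525 / 268435456 : ℝ)) (l := (2631 / 65536 : ℝ)) (u := (2789 / 65536 : ℝ))
    (E := (-17345691 / 524288 : ℝ)) (F := (-16055037 / 268435456 : ℝ)) (δ := (1 / 1073741824 : ℝ)) (by norm_num) (by norm_num) (by norm_num) (by norm_num) (by norm_num)
    (by norm_num) (by norm_num) (by norm_num) (by norm_num) (by norm_num) (by norm_num) (by norm_num) (by norm_num) (by norm_num) (by norm_num)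
  have e1 : P0C5.l = (2631 / 65536 : ℝ) := rfl
  have e2 : P0C5.u = (2789 / 65536 : ℝ) := rfl
  have e3 : P0C5.a1 = -(326749503 / 4194304 : ℝ) := by norm_num [P0C5]
  have e4 : P0C5.a2 = -(2121603 / 4194304 : ℝ) := by norm_num [P0C5]
  have e5 : P0C5.e = (-17345691 / 524288 : ℝ) := rfl
  have e6 : P0C5.f = (14982903 / 268435456 : ℝ) + (1016525 / 268435456 : ℝ) + (-16055037 / 268435456 : ℝ) + (1 / 1073741824 : ℝ) := by norm_num [P0C5]
  rw [e1, e2, e3, e4, e5, e6]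
  exact h

lemma rP0C6 : ∃ N : ℝ, Rw4 P.r2 N (coCell (56093 / 2048 : ℝ) (819 / 4096 : ℝ) (12 : ℝ) 0 P0C6) := by
  refine ⟨(3221225472 : ℝ), ⟨Q11, List.mem_cons_of_mem _ (List.mem_cons_of_mem _ (List.mem_cons_of_mem _ (List.mem_cons_of_mem _ (List.mem_cons_of_mem _ (List.mem_cons_of_mem _ (List.mem_cons_of_mem _ (List.mem_cons_of_mem _ (List.mem_cons_of_mem _ (List.mem_cons_of_mem _ (List.mem_cons_of_mem _ (List.mem_cons_self))))))))))), ?_⟩, by norm_num⟩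
  constructor <;> norm_num [Q11, coCell, P0C6]

lemma lP0C6 : ∀ x1 x2 xc : ℝ, 0 ≤ x1 → x1 ≤ 1 → 0 ≤ x2 → x2 ≤ 1 → P0C6.l ≤ xc → xc ≤ P0C6.u →
    (56093 / 2048 : ℝ) * (1 - (1 - x1) ^ 3) + (819 / 4096 : ℝ) * (1 - (1 - x2) ^ 3) - (12 : ℝ) * (1 - (1 - xc) ^ 3) + (1 / 1073741824 : ℝ)
      ≤ - P0C6.a1 * x1 - P0C6.a2 * x2 + P0C6.e * xc + P0C6.f := by
  have h := cell_lines_delta 3 (α1 := (56093 / 2048 : ℝ)) (α2 := (819 / 4096 : ℝ)) (c := (12 : ℝ)) (y1 := (7307 / 262144 : ℝ)) (y2 := (22683 / 262144 : ℝ))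
    (A1 := (325690431 / 4194304 : ℝ)) (B1 := (8409341 / 134217728 : ℝ)) (A2 := (1049699 / 2097152 : ℝ)) (B2 := (1136085 / 268435456 : ℝ)) (l := (2789 / 65536 : ℝ)) (u := (11825 / 262144 : ℝ))
    (E := (-69024039 / 2097152 : ℝ)) (F := (-4502277 / 67108864 : ℝ)) (δ := (1 / 1073741824 : ℝ)) (by norm_num) (by norm_num) (by norm_num) (by norm_num) (by norm_num)
    (by norm_num) (by norm_num) (by norm_num) (by norm_num) (by norm_num) (by norm_num) (by norm_num) (by norm_num) (by norm_num) (by norm_num)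
  have e1 : P0C6.l = (2789 / 65536 : ℝ) := rfl
  have e2 : P0C6.u = (11825 / 262144 : ℝ) := rfl
  have e3 : P0C6.a1 = -(325690431 / 4194304 : ℝ) := by norm_num [P0C6]
  have e4 : P0C6.a2 = -(1049699 / 2097152 : ℝ) := by norm_num [P0C6]
  have e5 : P0C6.e = (-69024039 / 2097152 : ℝ) := rfl
  have e6 : P0C6.f = (8409341 / 134217728 : ℝ) + (1136085 / 268435456 : ℝ) + (-4502277 / 67108864 : ℝ) + (1 / 1073741824 : ℝ) := by norm_num [P0C6]
  rw [e1, e2, e3, e4, e5, e6]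
  exact h

lemma rP0C7 : ∃ N : ℝ, Rw4 P.r2 N (coCell (56093 / 2048 : ℝ) (819 / 4096 : ℝ) (12 : ℝ) 0 P0C7) := by
  refine ⟨(3221225472 : ℝ), ⟨Q12, List.mem_cons_of_mem _ (List.mem_cons_of_mem _ (List.mem_cons_of_mem _ (List.mem_cons_of_mem _ (List.mem_cons_of_mem _ (List.mem_cons_of_mem _ (List.mem_cons_of_mem _ (List.mem_cons_of_mem _ (List.mem_cons_of_mem _ (List.mem_cons_of_mem _ (List.mem_cons_of_mem _ (List.mem_cons_of_mem _ (List.mem_cons_self)))))))))))), ?_⟩, by norm_num⟩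
  constructor <;> norm_num [Q12, coCell, P0C7]

lemma lP0C7 : ∀ x1 x2 xc : ℝ, 0 ≤ x1 → x1 ≤ 1 → 0 ≤ x2 → x2 ≤ 1 → P0C7.l ≤ xc → xc ≤ P0C7.u →
    (56093 / 2048 : ℝ) * (1 - (1 - x1) ^ 3) + (819 / 4096 : ℝ) * (1 - (1 - x2) ^ 3) - (12 : ℝ) * (1 - (1 - xc) ^ 3) + (1 / 1073741824 : ℝ)
      ≤ - P0C7.a1 * x1 - P0C7.a2 * x2 + P0C7.e * xc + P0C7.f := by
  have h := cell_lines_delta 3 (α1 := (56093 / 2048 : ℝ)) (α2 := (819 / 4096 : ℝ)) (c := (12 : ℝ)) (y1 := (7745 / 262144 : ℝ)) (y2 := (3001 / 32768 : ℝ))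
    (A1 := (324571835 / 4194304 : ℝ)) (B1 := (2359247 / 33554432 : ℝ)) (A2 := (1038115 / 2097152 : ℝ)) (B2 := (1268111 / 268435456 : ℝ)) (l := (11825 / 262144 : ℝ)) (u := (12535 / 262144 : ℝ))
    (E := (-68644823 / 2097152 : ℝ)) (F := (-20198673 / 268435456 : ℝ)) (δ := (1 / 1073741824 : ℝ)) (by norm_num) (by norm_num) (by norm_num) (by norm_num) (by norm_num)
    (by norm_num) (by norm_num) (by norm_num) (by norm_num) (by norm_num) (by norm_num) (by norm_num) (by norm_num) (by norm_num) (by norm_num)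
  have e1 : P0C7.l = (11825 / 262144 : ℝ) := rfl
  have e2 : P0C7.u = (12535 / 262144 : ℝ) := rfl
  have e3 : P0C7.a1 = -(324571835 / 4194304 : ℝ) := by norm_num [P0C7]
  have e4 : P0C7.a2 = -(1038115 / 2097152 : ℝ) := by norm_num [P0C7]
  have e5 : P0C7.e = (-68644823 / 2097152 : ℝ) := rfl
  have e6 : P0C7.f = (2359247 / 33554432 : ℝ) + (1268111 / 268435456 : ℝ) + (-20198673 / 268435456 : ℝ) + (1 / 1073741824 : ℝ) := by norm_num [P0C7]
  rw [e1, e2, e3, e4, e5, e6]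
  exact h

lemma rP0C8 : ∃ N : ℝ, Rw4 P.r2 N (coCell (56093 / 2048 : ℝ) (819 / 4096 : ℝ) (12 : ℝ) 0 P0C8) := by
  refine ⟨(3221225472 : ℝ), ⟨Q13, List.mem_cons_of_mem _ (List.mem_cons_of_mem _ (List.mem_cons_of_mem _ (List.mem_cons_of_mem _ (List.mem_cons_of_mem _ (List.mem_cons_of_mem _ (List.mem_cons_of_mem _ (List.mem_cons_of_mem _ (List.mem_cons_of_mem _ (List.mem_cons_of_mem _ (List.mem_cons_of_mem _ (List.mem_cons_of_mem _ (List.mem_cons_of_mem _ (List.mem_cons_self))))))))))))), ?_⟩, by norm_num⟩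
  constructor <;> norm_num [Q13, coCell, P0C8]

lemma lP0C8 : ∀ x1 x2 xc : ℝ, 0 ≤ x1 → x1 ≤ 1 → 0 ≤ x2 → x2 ≤ 1 → P0C8.l ≤ xc → xc ≤ P0C8.u →
    (56093 / 2048 : ℝ) * (1 - (1 - x1) ^ 3) + (819 / 4096 : ℝ) * (1 - (1 - x2) ^ 3) - (12 : ℝ) * (1 - (1 - xc) ^ 3) + (1 / 1073741824 : ℝ)
      ≤ - P0C8.a1 * x1 - P0C8.a2 * x2 + P0C8.e * xc + P0C8.f := by
  have h := cell_lines_delta 3 (α1 := (56093 / 2048 : ℝ)) (α2 := (819 / 4096 : ℝ)) (c := (12 : ℝ)) (y1 := (4105 / 131072 : ℝ)) (y2 := (25395 / 262144 : ℝ))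
    (A1 := (161693195 / 2097152 : ℝ)) (B1 := (2647847 / 33554432 : ℝ)) (A2 := (1026057 / 2097152 : ℝ)) (B2 := (1413565 / 268435456 : ℝ)) (l := (12535 / 262144 : ℝ)) (u := (13287 / 262144 : ℝ))
    (E := (-68243923 / 2097152 : ℝ)) (F := (-2831553 / 33554432 : ℝ)) (δ := (1 / 1073741824 : ℝ)) (by norm_num) (by norm_num) (by norm_num) (by norm_num) (by norm_num)
    (by norm_num) (by norm_num) (by norm_num) (by norm_num) (by norm_num) (by norm_num) (by norm_num) (by norm_num) (by norm_num) (by norm_num)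
  have e1 : P0C8.l = (12535 / 262144 : ℝ) := rfl
  have e2 : P0C8.u = (13287 / 262144 : ℝ) := rfl
  have e3 : P0C8.a1 = -(161693195 / 2097152 : ℝ) := by norm_num [P0C8]
  have e4 : P0C8.a2 = -(1026057 / 2097152 : ℝ) := by norm_num [P0C8]
  have e5 : P0C8.e = (-68243923 / 2097152 : ℝ) := rfl
  have e6 : P0C8.f = (2647847 / 33554432 : ℝ) + (1413565 / 268435456 : ℝ) + (-2831553 / 33554432 : ℝ) + (1 / 1073741824 : ℝ) := by norm_num [P0C8]
  rw [e1, e2, e3, e4, e5, e6]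
  exact h

lemma rP0C9 : ∃ N : ℝ, Rw4 P.r2 N (coCell (56093 / 2048 : ℝ) (819 / 4096 : ℝ) (12 : ℝ) 0 P0C9) := by
  refine ⟨(3221225472 : ℝ), ⟨Q14, List.mem_cons_of_mem _ (List.mem_cons_of_mem _ (List.mem_cons_of_mem _ (List.mem_cons_of_mem _ (List.mem_cons_of_mem _ (List.mem_cons_of_mem _ (List.mem_cons_of_mem _ (List.mem_cons_of_mem _ (List.mem_cons_of_mem _ (List.mem_cons_of_mem _ (List.mem_cons_of_mem _ (List.mem_cons_of_mem _ (List.mem_cons_of_mem _ (List.mem_cons_of_mem _ (List.mem_cons_self)))))))))))))), ?_⟩, by norm_num⟩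
  constructor <;> norm_num [Q14, coCell, P0C9]

lemma lP0C9 : ∀ x1 x2 xc : ℝ, 0 ≤ x1 → x1 ≤ 1 → 0 ≤ x2 → x2 ≤ 1 → P0C9.l ≤ xc → xc ≤ P0C9.u →
    (56093 / 2048 : ℝ) * (1 - (1 - x1) ^ 3) + (819 / 4096 : ℝ) * (1 - (1 - x2) ^ 3) - (12 : ℝ) * (1 - (1 - xc) ^ 3) + (1 / 1073741824 : ℝ)
      ≤ - P0C9.a1 * x1 - P0C9.a2 * x2 + P0C9.e * xc + P0C9.f := by
  have h := cell_lines_delta 3 (α1 := (56093 / 2048 : ℝ)) (α2 := (819 / 4096 : ℝ)) (c := (12 : ℝ)) (y1 := (8703 / 262144 : ℝ)) (y2 := (13423 / 131072 : ℝ))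
    (A1 := (80532983 / 1048576 : ℝ)) (B1 := (11886347 / 134217728 : ℝ)) (A2 := (2027037 / 4194304 : ℝ)) (B2 := (1573471 / 268435456 : ℝ)) (l := (13287 / 262144 : ℝ)) (u := (3521 / 65536 : ℝ))
    (E := (-135640897 / 4194304 : ℝ)) (F := (-25399839 / 268435456 : ℝ)) (δ := (1 / 1073741824 : ℝ)) (by norm_num) (by norm_num) (by norm_num) (by norm_num) (by norm_num)
    (by norm_num) (by norm_num) (by norm_num) (by norm_num) (by norm_num) (by norm_num) (by norm_num) (by norm_num) (by norm_num) (by norm_num)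
  have e1 : P0C9.l = (13287 / 262144 : ℝ) := rfl
  have e2 : P0C9.u = (3521 / 65536 : ℝ) := rfl
  have e3 : P0C9.a1 = -(80532983 / 1048576 : ℝ) := by norm_num [P0C9]
  have e4 : P0C9.a2 = -(2027037 / 4194304 : ℝ) := by norm_num [P0C9]
  have e5 : P0C9.e = (-135640897 / 4194304 : ℝ) := rfl
  have e6 : P0C9.f = (11886347 / 134217728 : ℝ) + (1573471 / 268435456 : ℝ) + (-25399839 / 268435456 : ℝ) + (1 / 1073741824 : ℝ) := by norm_num [P0C9]
  rw [e1, e2, e3, e4, e5, e6]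
  exact h

lemma rP0C10 : ∃ N : ℝ, Rw4 P.r2 N (coCell (56093 / 2048 : ℝ) (819 / 4096 : ℝ) (12 : ℝ) 0 P0C10) := by
  refine ⟨(3221225472 : ℝ), ⟨Q15, List.mem_cons_of_mem _ (List.mem_cons_of_mem _ (List.mem_cons_of_mem _ (List.mem_cons_of_mem _ (List.mem_cons_of_mem _ (List.mem_cons_of_mem _ (List.mem_cons_of_mem _ (List.mem_cons_of_mem _ (List.mem_cons_of_mem _ (List.mem_cons_of_mem _ (List.mem_cons_of_mem _ (List.mem_cons_of_mem _ (List.mem_cons_of_mem _ (List.mem_cons_of_mem _ (List.mem_cons_of_mem _ (List.mem_cons_self))))))))))))))), ?_⟩, by norm_num⟩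
  constructor <;> norm_num [Q15, coCell, P0C10]

lemma lP0C10 : ∀ x1 x2 xc : ℝ, 0 ≤ x1 → x1 ≤ 1 → 0 ≤ x2 → x2 ≤ 1 → P0C10.l ≤ xc → xc ≤ P0C10.u →
    (56093 / 2048 : ℝ) * (1 - (1 - x1) ^ 3) + (819 / 4096 : ℝ) * (1 - (1 - x2) ^ 3) - (12 : ℝ) * (1 - (1 - xc) ^ 3) + (1 / 1073741824 : ℝ)
      ≤ - P0C10.a1 * x1 - P0C10.a2 * x2 + P0C10.e * xc + P0C10.f := by
  have h := cell_lines_delta 3 (α1 := (56093 / 2048 : ℝ)) (α2 := (819 / 4096 : ℝ)) (c := (12 : ℝ)) (y1 := (9225 / 262144 : ℝ)) (y2 := (7091 / 65536 : ℝ))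
    (A1 := (80201585 / 1048576 : ℝ)) (B1 := (26673683 / 268435456 : ℝ)) (A2 := (2000967 / 4194304 : ℝ)) (B2 := (218645 / 33554432 : ℝ)) (l := (3521 / 65536 : ℝ)) (u := (14929 / 262144 : ℝ))
    (E := (-16843247 / 524288 : ℝ)) (F := (-28477003 / 268435456 : ℝ)) (δ := (1 / 1073741824 : ℝ)) (by norm_num) (by norm_num) (by norm_num) (by norm_num) (by norm_num)
    (by norm_num) (by norm_num) (by norm_num) (by norm_num) (by norm_num) (by norm_num) (by norm_num) (by norm_num) (by norm_num) (by norm_num)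
  have e1 : P0C10.l = (3521 / 65536 : ℝ) := rfl
  have e2 : P0C10.u = (14929 / 262144 : ℝ) := rfl
  have e3 : P0C10.a1 = -(80201585 / 1048576 : ℝ) := by norm_num [P0C10]
  have e4 : P0C10.a2 = -(2000967 / 4194304 : ℝ) := by norm_num [P0C10]
  have e5 : P0C10.e = (-16843247 / 524288 : ℝ) := rfl
  have e6 : P0C10.f = (26673683 / 268435456 : ℝ) + (218645 / 33554432 : ℝ) + (-28477003 / 268435456 : ℝ) + (1 / 1073741824 : ℝ) := by norm_num [P0C10]
  rw [e1, e2, e3, e4, e5, e6]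
  exact h

lemma rP0C11 : ∃ N : ℝ, Rw4 P.r2 N (coCell (56093 / 2048 : ℝ) (819 / 4096 : ℝ) (12 : ℝ) 0 P0C11) := by
  refine ⟨(3221225472 : ℝ), ⟨Q16, List.mem_cons_of_mem _ (List.mem_cons_of_mem _ (List.mem_cons_of_mem _ (List.mem_cons_of_mem _ (List.mem_cons_of_mem _ (List.mem_cons_of_mem _ (List.mem_cons_of_mem _ (List.mem_cons_of_mem _ (List.mem_cons_of_mem _ (List.mem_cons_of_mem _ (List.mem_cons_of_mem _ (List.mem_cons_of_mem _ (List.mem_cons_of_mem _ (List.mem_cons_of_mem _ (List.mem_cons_of_mem _ (List.mem_cons_of_mem _ (List.mem_cons_self)))))))))))))))), ?_⟩, by norm_num⟩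
  constructor <;> norm_num [Q16, coCell, P0C11]

lemma lP0C11 : ∀ x1 x2 xc : ℝ, 0 ≤ x1 → x1 ≤ 1 → 0 ≤ x2 → x2 ≤ 1 → P0C11.l ≤ xc → xc ≤ P0C11.u →
    (56093 / 2048 : ℝ) * (1 - (1 - x1) ^ 3) + (819 / 4096 : ℝ) * (1 - (1 - x2) ^ 3) - (12 : ℝ) * (1 - (1 - xc) ^ 3) + (1 / 1073741824 : ℝ)
      ≤ - P0C11.a1 * x1 - P0C11.a2 * x2 + P0C11.e * xc + P0C11.f := by
  have h := cell_lines_delta 3 (α1 := (56093 / 2048 : ℝ)) (α2 := (819 / 4096 : ℝ)) (c := (12 : ℝ)) (y1 := (4889 / 131072 : ℝ)) (y2 := (29949 / 262144 : ℝ))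
    (A1 := (319405007 / 4194304 : ℝ)) (B1 := (29924303 / 268435456 : ℝ)) (A2 := (1973927 / 4194304 : ℝ)) (B2 := (970811 / 134217728 : ℝ)) (l := (14929 / 262144 : ℝ)) (u := (15825 / 262144 : ℝ))
    (E := (-133800335 / 4194304 : ℝ)) (F := (-7980913 / 67108864 : ℝ)) (δ := (1 / 1073741824 : ℝ)) (by norm_num) (by norm_num) (by norm_num) (by norm_num) (by norm_num)
    (by norm_num) (by norm_num) (by norm_num) (by norm_num) (by norm_num) (by norm_num) (by norm_num) (by norm_num) (by norm_num) (by norm_num)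
  have e1 : P0C11.l = (14929 / 262144 : ℝ) := rfl
  have e2 : P0C11.u = (15825 / 262144 : ℝ) := rfl
  have e3 : P0C11.a1 = -(319405007 / 4194304 : ℝ) := by norm_num [P0C11]
  have e4 : P0C11.a2 = -(1973927 / 4194304 : ℝ) := by norm_num [P0C11]
  have e5 : P0C11.e = (-133800335 / 4194304 : ℝ) := rfl
  have e6 : P0C11.f = (29924303 / 268435456 : ℝ) + (970811 / 134217728 : ℝ) + (-7980913 / 67108864 : ℝ) + (1 / 1073741824 : ℝ) := by norm_num [P0C11]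
  rw [e1, e2, e3, e4, e5, e6]
  exact h

lemma rP0C12 : ∃ N : ℝ, Rw4 P.r2 N (coCell (56093 / 2048 : ℝ) (819 / 4096 : ℝ) (12 : ℝ) 0 P0C12) := by
  refine ⟨(3221225472 : ℝ), ⟨Q17, List.mem_cons_of_mem _ (List.mem_cons_of_mem _ (List.mem_cons_of_mem _ (List.mem_cons_of_mem _ (List.mem_cons_of_mem _ (List.mem_cons_of_mem _ (List.mem_cons_of_mem _ (List.mem_cons_of_mem _ (List.mem_cons_of_mem _ (List.mem_cons_of_mem _ (List.mem_cons_of_mem _ (List.mem_cons_of_mem _ (List.mem_cons_of_mem _ (List.mem_cons_of_mem _ (List.mem_cons_of_mem _ (List.mem_cons_of_mem _ (List.mem_cons_of_mem _ (List.mem_cons_self))))))))))))))))), ?_⟩, by norm_num⟩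
  constructor <;> norm_num [Q17, coCell, P0C12]

lemma lP0C12 : ∀ x1 x2 xc : ℝ, 0 ≤ x1 → x1 ≤ 1 → 0 ≤ x2 → x2 ≤ 1 → P0C12.l ≤ xc → xc ≤ P0C12.u →
    (56093 / 2048 : ℝ) * (1 - (1 - x1) ^ 3) + (819 / 4096 : ℝ) * (1 - (1 - x2) ^ 3) - (12 : ℝ) * (1 - (1 - xc) ^ 3) + (1 / 1073741824 : ℝ)
      ≤ - P0C12.a1 * x1 - P0C12.a2 * x2 + P0C12.e * xc + P0C12.f := by
  have h := cell_lines_delta 3 (α1 := (56093 / 2048 : ℝ)) (α2 := (819 / 4096 : ℝ)) (c := (12 : ℝ)) (y1 := (10365 / 262144 : ℝ)) (y2 := (15801 / 131072 : ℝ))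
    (A1 := (317920871 / 4194304 : ℝ)) (B1 := (33573547 / 268435456 : ℝ)) (A2 := (972961 / 2097152 : ℝ)) (B2 := (2152031 / 268435456 : ℝ)) (l := (15825 / 262144 : ℝ)) (u := (8387 / 131072 : ℝ))
    (E := (-132801841 / 4194304 : ℝ)) (F := (-35781359 / 268435456 : ℝ)) (δ := (1 / 1073741824 : ℝ)) (by norm_num) (by norm_num) (by norm_num) (by norm_num) (by norm_num)
    (by norm_num) (by norm_num) (by norm_num) (by norm_num) (by norm_num) (by norm_num) (by norm_num) (by norm_num) (by norm_num) (by norm_num)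
  have e1 : P0C12.l = (15825 / 262144 : ℝ) := rfl
  have e2 : P0C12.u = (8387 / 131072 : ℝ) := rfl
  have e3 : P0C12.a1 = -(317920871 / 4194304 : ℝ) := by norm_num [P0C12]
  have e4 : P0C12.a2 = -(972961 / 2097152 : ℝ) := by norm_num [P0C12]
  have e5 : P0C12.e = (-132801841 / 4194304 : ℝ) := rfl
  have e6 : P0C12.f = (33573547 / 268435456 : ℝ) + (2152031 / 268435456 : ℝ) + (-35781359 / 268435456 : ℝ) + (1 / 1073741824 : ℝ) := by norm_num [P0C12]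
  rw [e1, e2, e3, e4, e5, e6]
  exact h

lemma rP0C13 : ∃ N : ℝ, Rw4 P.r2 N (coCell (56093 / 2048 : ℝ) (819 / 4096 : ℝ) (12 : ℝ) 0 P0C13) := by
  refine ⟨(3221225472 : ℝ), ⟨Q18, List.mem_cons_of_mem _ (List.mem_cons_of_mem _ (List.mem_cons_of_mem _ (List.mem_cons_of_mem _ (List.mem_cons_of_mem _ (List.mem_cons_of_mem _ (List.mem_cons_of_mem _ (List.mem_cons_of_mem _ (List.mem_cons_of_mem _ (List.mem_cons_of_mem _ (List.mem_cons_of_mem _ (List.mem_cons_of_mem _ (List.mem_cons_of_mem _ (List.mem_cons_of_mem _ (List.mem_cons_of_mem _ (List.mem_cons_of_mem _ (List.mem_cons_of_mem _ (List.mem_cons_of_mem _ (List.mem_cons_self)))))))))))))))))), ?_⟩, by norm_num⟩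
  constructor <;> norm_num [Q18, coCell, P0C13]

lemma lP0C13 : ∀ x1 x2 xc : ℝ, 0 ≤ x1 → x1 ≤ 1 → 0 ≤ x2 → x2 ≤ 1 → P0C13.l ≤ xc → xc ≤ P0C13.u →
    (56093 / 2048 : ℝ) * (1 - (1 - x1) ^ 3) + (819 / 4096 : ℝ) * (1 - (1 - x2) ^ 3) - (12 : ℝ) * (1 - (1 - xc) ^ 3) + (1 / 1073741824 : ℝ)
      ≤ - P0C13.a1 * x1 - P0C13.a2 * x2 + P0C13.e * xc + P0C13.f := by
  have h := cell_lines_delta 3 (α1 := (56093 / 2048 : ℝ)) (α2 := (819 / 4096 : ℝ)) (c := (12 : ℝ)) (y1 := (10987 / 262144 : ℝ)) (y2 := (33325 / 262144 : ℝ))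
    (A1 := (316352015 / 4194304 : ℝ)) (B1 := (9415659 / 67108864 : ℝ)) (A2 := (119809 / 262144 : ℝ)) (B2 := (1190847 / 134217728 : ℝ)) (l := (8387 / 131072 : ℝ)) (u := (4445 / 65536 : ℝ))
    (E := (-65873949 / 2097152 : ℝ)) (F := (-20048741 / 134217728 : ℝ)) (δ := (1 / 1073741824 : ℝ)) (by norm_num) (by norm_num) (by norm_num) (by norm_num) (by norm_num)
    (by norm_num) (by norm_num) (by norm_num) (by norm_num) (by norm_num) (by norm_num) (by norm_num) (by norm_num) (by norm_num) (by norm_num)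
  have e1 : P0C13.l = (8387 / 131072 : ℝ) := rfl
  have e2 : P0C13.u = (4445 / 65536 : ℝ) := rfl
  have e3 : P0C13.a1 = -(316352015 / 4194304 : ℝ) := by norm_num [P0C13]
  have e4 : P0C13.a2 = -(119809 / 262144 : ℝ) := by norm_num [P0C13]
  have e5 : P0C13.e = (-65873949 / 2097152 : ℝ) := rfl
  have e6 : P0C13.f = (9415659 / 67108864 : ℝ) + (1190847 / 134217728 : ℝ) + (-20048741 / 134217728 : ℝ) + (1 / 1073741824 : ℝ) := by norm_num [P0C13]
  rw [e1, e2, e3, e4, e5, e6]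
  exact h

lemma rP0C14 : ∃ N : ℝ, Rw4 P.r2 N (coCell (56093 / 2048 : ℝ) (819 / 4096 : ℝ) (12 : ℝ) 0 P0C14) := by
  refine ⟨(3221225472 : ℝ), ⟨Q19, List.mem_cons_of_mem _ (List.mem_cons_of_mem _ (List.mem_cons_of_mem _ (List.mem_cons_of_mem _ (List.mem_cons_of_mem _ (List.mem_cons_of_mem _ (List.mem_cons_of_mem _ (List.mem_cons_of_mem _ (List.mem_cons_of_mem _ (List.mem_cons_of_mem _ (List.mem_cons_of_mem _ (List.mem_cons_of_mem _ (List.mem_cons_of_mem _ (List.mem_cons_of_mem _ (List.mem_cons_of_mem _ (List.mem_cons_of_mem _ (List.mem_cons_of_mem _ (List.mem_cons_of_mem _ (List.mem_cons_of_mem _ (List.mem_cons_self))))))))))))))))))), ?_⟩, by norm_num⟩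
  constructor <;> norm_num [Q19, coCell, P0C14]

lemma lP0C14 : ∀ x1 x2 xc : ℝ, 0 ≤ x1 → x1 ≤ 1 → 0 ≤ x2 → x2 ≤ 1 → P0C14.l ≤ xc → xc ≤ P0C14.u →
    (56093 / 2048 : ℝ) * (1 - (1 - x1) ^ 3) + (819 / 4096 : ℝ) * (1 - (1 - x2) ^ 3) - (12 : ℝ) * (1 - (1 - xc) ^ 3) + (1 / 1073741824 : ℝ)
      ≤ - P0C14.a1 * x1 - P0C14.a2 * x2 + P0C14.e * xc + P0C14.f := by
  have h := cell_lines_delta 3 (α1 := (56093 / 2048 : ℝ)) (α2 := (819 / 4096 : ℝ)) (c := (12 : ℝ)) (y1 := (5823 / 131072 : ℝ)) (y2 := (25965 / 262144 : ℝ))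
    (A1 := (78673517 / 1048576 : ℝ)) (B1 := (21121591 / 134217728 : ℝ)) (A2 := (2042245 / 4194304 : ℝ)) (B2 := (737707 / 134217728 : ℝ)) (l := (4445 / 65536 : ℝ)) (u := (9175 / 131072 : ℝ))
    (E := (-32725297 / 1048576 : ℝ)) (F := (-21886449 / 134217728 : ℝ)) (δ := (1 / 1073741824 : ℝ)) (by norm_num) (by norm_num) (by norm_num) (by norm_num) (by norm_num)
    (by norm_num) (by norm_num) (by norm_num) (by norm_num) (by norm_num) (by norm_num) (by norm_num) (by norm_num) (by norm_num) (by norm_num)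
  have e1 : P0C14.l = (4445 / 65536 : ℝ) := rfl
  have e2 : P0C14.u = (9175 / 131072 : ℝ) := rfl
  have e3 : P0C14.a1 = -(78673517 / 1048576 : ℝ) := by norm_num [P0C14]
  have e4 : P0C14.a2 = -(2042245 / 4194304 : ℝ) := by norm_num [P0C14]
  have e5 : P0C14.e = (-32725297 / 1048576 : ℝ) := rfl
  have e6 : P0C14.f = (21121591 / 134217728 : ℝ) + (737707 / 134217728 : ℝ) + (-21886449 / 134217728 : ℝ) + (1 / 1073741824 : ℝ) := by norm_num [P0C14]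
  rw [e1, e2, e3, e4, e5, e6]
  exact h

/-- A link of the chain. -/
lemma link0 {lam : ℝ} (h0 : -(1 / 2) < lam) (h1 : lam < 1) (hB : BoxS lam P 0 HH 0 HH)
    (h : ∃ n, 1 - En 3 lam n mc ≤ (9175 / 131072 : ℝ)) : ∃ n, 1 - En 3 lam n mc ≤ (1 / 32 : ℝ) :=
  phase_of_box (by norm_num) h0 h1 hB (56093 / 2048 : ℝ) (819 / 4096 : ℝ) (12 : ℝ) (1 / 1073741824 : ℝ) (1 / 32 : ℝ) (9175 / 131072 : ℝ) (by norm_num) cellsP0 hcoverP0
    (forall_cons lP0C0 (forall_cons lP0C1 (forall_cons lP0C2 (forall_cons lP0C3 (forall_cons lP0C4 (forall_cons lP0C5 (forall_cons lP0C6 (forall_cons lP0C7 (forall_cons lP0C8 (forall_cons lP0C9 (forall_cons lP0C10 (forall_cons lP0C11 (forall_cons lP0C12 (forall_cons lP0C13 (forall_cons lP0C14 (forall_nil)))))))))))))))) (forall_cons rP0C0 (forall_cons rP0C1 (forall_cons rP0C2 (forall_cons rP0C3 (forall_cons rP0C4 (forall_cons rP0C5 (forall_cons rP0C6 (forall_cons rP0C7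 (forall_cons rP0C8 (forall_cons rP0C9 (forall_cons rP0C10 (forall_cons rP0C11 (forall_cons rP0C12 (forall_cons rP0C13 (forall_cons rP0C14 (forall_nil)))))))))))))))) h

/-- A chord cell of a link. -/
noncomputable def P1C0 : Cell := ⟨(9175 / 131072 : ℝ), (19451 / 262144 : ℝ), (-156490043 / 2097152 : ℝ), (-2055381 / 4194304 : ℝ), (-130006717 / 4194304 : ℝ), (-220571 / 1073741824 : ℝ)⟩

/-- A chord cell of a link. -/
noncomputable def P1C1 : Cell := ⟨(19451 / 262144 : ℝ), (10309 / 131072 : ℝ), (-311178319 / 4194304 : ℝ), (-2021823 / 4194304 : ℝ), (-64398695 / 2097152 : ℝ), (-224871 / 1073741824 : ℝ)⟩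

/-- A chord cell of a link. -/
noncomputable def P1C2 : Cell := ⟨(10309 / 131072 : ℝ), (21855 / 262144 : ℝ), (-309272285 / 4194304 : ℝ), (-1987383 / 4194304 : ℝ), (-127521719 / 4194304 : ℝ), (-204927 / 1073741824 : ℝ)⟩

/-- A chord cell of a link. -/
noncomputable def P1C3 : Cell := ⟨(21855 / 262144 : ℝ), (23167 / 262144 : ℝ), (-307260513 / 4194304 : ℝ), (-1952143 / 4194304 : ℝ), (-126176041 / 4194304 : ℝ), (-220887 / 1073741824 : ℝ)⟩

/-- A chord cell of a link. -/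
noncomputable def P1C4 : Cell := ⟨(23167 / 262144 : ℝ), (24557 / 262144 : ℝ), (-305134213 / 4194304 : ℝ), (-119765 / 262144 : ℝ), (-62378693 / 2097152 : ℝ), (-227171 / 1073741824 : ℝ)⟩

/-- A chord cell of a link. -/
noncomputable def P1C5 : Cell := ⟨(24557 / 262144 : ℝ), (13015 / 131072 : ℝ), (-302887263 / 4194304 : ℝ), (-1879785 / 4194304 : ℝ), (-61631477 / 2097152 : ℝ), (-200843 / 1073741824 : ℝ)⟩

/-- A chord cell of a link. -/
noncomputable def P1C6 : Cell := ⟨(13015 / 131072 : ℝ), (3449 / 32768 : ℝ), (-300516181 / 4194304 : ℝ), (-460753 / 1048576 : ℝ), (-121688579 / 4194304 : ℝ), (-200491 / 1073741824 : ℝ)⟩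

/-- A chord cell of a link. -/
noncomputable def P1C7 : Cell := ⟨(3449 / 32768 : ℝ), (29247 / 262144 : ℝ), (-149006381 / 2097152 : ℝ), (-1806127 / 4194304 : ℝ), (-120030843 / 4194304 : ℝ), (-194379 / 1073741824 : ℝ)⟩

/-- A chord cell of a link. -/
noncomputable def P1C8 : Cell := ⟨(29247 / 262144 : ℝ), (15501 / 131072 : ℝ), (-147685747 / 2097152 : ℝ), (-884723 / 2097152 : ℝ), (-118286071 / 4194304 : ℝ), (-204127 / 1073741824 : ℝ)⟩

/-- A chord cell of a link. -/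
noncomputable def P1C9 : Cell := ⟨(15501 / 131072 : ℝ), (16431 / 131072 : ℝ), (-292584683 / 4194304 : ℝ), (-433327 / 1048576 : ℝ), (-116450361 / 4194304 : ℝ), (-223611 / 1073741824 : ℝ)⟩

/-- A chord cell of a link. -/
noncomputable def P1C10 : Cell := ⟨(16431 / 131072 : ℝ), (17417 / 131072 : ℝ), (-289642533 / 4194304 : ℝ), (-1698201 / 4194304 : ℝ), (-114520139 / 4194304 : ℝ), (-195259 / 1073741824 : ℝ)⟩

/-- A chord cell of a link. -/
noncomputable def P1C11 : Cell := ⟨(17417 / 131072 : ℝ), (9175 / 65536 : ℝ), (-8954463 / 131072 : ℝ), (-1734007 / 4194304 : ℝ), (-3518841 / 131072 : ℝ), (-221335 / 1073741824 : ℝ)⟩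

/-- The chord cells of a link. -/
noncomputable def cellsP1 : List Cell := [P1C0, P1C1, P1C2, P1C3, P1C4, P1C5, P1C6, P1C7, P1C8, P1C9, P1C10, P1C11]

lemma hcoverP1 : ∀ x : ℝ, (9175 / 131072 : ℝ) ≤ x → x ≤ (9175 / 65536 : ℝ) → ∃ D ∈ cellsP1, D.l ≤ x ∧ x ≤ D.u := by
  refine cover_of_chain ?_ (by norm_num [P1C0])
  simp only [ChainP, P1C0, P1C1, P1C2, P1C3, P1C4, P1C5, P1C6, P1C7, P1C8, P1C9, P1C10, P1C11]
  norm_num

lemma rP1C0 : ∃ N : ℝ, Rw4 P.r2 N (coCell (27977 / 1024 : ℝ) (893 / 4096 : ℝ) (12 : ℝ) 0 P1C0) := by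
  refine ⟨(3221225472 : ℝ), ⟨Q20, List.mem_cons_of_mem _ (List.mem_cons_of_mem _ (List.mem_cons_of_mem _ (List.mem_cons_of_mem _ (List.mem_cons_of_mem _ (List.mem_cons_of_mem _ (List.mem_cons_of_mem _ (List.mem_cons_of_mem _ (List.mem_cons_of_mem _ (List.mem_cons_of_mem _ (List.mem_cons_of_mem _ (List.mem_cons_of_mem _ (List.mem_cons_of_mem _ (List.mem_cons_of_mem _ (List.mem_cons_of_mem _ (List.mem_cons_of_mem _ (List.mem_cons_of_mem _ (List.mem_cons_of_mem _ (List.mem_cons_of_mem _ (List.mem_cons_of_mem _ (List.mem_cons_self)))))))))))))))))))), ?_⟩, by norm_num⟩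
  constructor <;> norm_num [Q20, coCell, P1C0]

lemma lP1C0 : ∀ x1 x2 xc : ℝ, 0 ≤ x1 → x1 ≤ 1 → 0 ≤ x2 → x2 ≤ 1 → P1C0.l ≤ xc → xc ≤ P1C0.u →
    (27977 / 1024 : ℝ) * (1 - (1 - x1) ^ 3) + (893 / 4096 : ℝ) * (1 - (1 - x2) ^ 3) - (12 : ℝ) * (1 - (1 - xc) ^ 3) + (1 / 1073741824 : ℝ)
      ≤ - P1C0.a1 * x1 - P1C0.a2 * x2 + P1C0.e * xc + P1C0.f := by
  have h := cell_lines_delta 3 (α1 := (27977 / 1024 : ℝ)) (α2 := (893 / 4096 : ℝ)) (c := (12 : ℝ)) (y1 := (12019 / 262144 : ℝ)) (y2 := (8809 / 65536 : ℝ))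
    (A1 := (156490043 / 2097152 : ℝ)) (B1 := (44837093 / 268435456 : ℝ)) (A2 := (2055381 / 4194304 : ℝ)) (B2 := (2887875 / 268435456 : ℝ)) (l := (9175 / 131072 : ℝ)) (u := (19451 / 262144 : ℝ))
    (E := (-130006717 / 4194304 : ℝ)) (F := (-47780111 / 268435456 : ℝ)) (δ := (1 / 1073741824 : ℝ)) (by norm_num) (by norm_num) (by norm_num) (by norm_num) (by norm_num)
    (by norm_num) (by norm_num) (by norm_num) (by norm_num) (by norm_num) (by norm_num) (by norm_num) (by norm_num) (by norm_num) (by norm_num)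
  have e1 : P1C0.l = (9175 / 131072 : ℝ) := rfl
  have e2 : P1C0.u = (19451 / 262144 : ℝ) := rfl
  have e3 : P1C0.a1 = -(156490043 / 2097152 : ℝ) := by norm_num [P1C0]
  have e4 : P1C0.a2 = -(2055381 / 4194304 : ℝ) := by norm_num [P1C0]
  have e5 : P1C0.e = (-130006717 / 4194304 : ℝ) := rfl
  have e6 : P1C0.f = (44837093 / 268435456 : ℝ) + (2887875 / 268435456 : ℝ) + (-47780111 / 268435456 : ℝ) + (1 / 1073741824 : ℝ) := by norm_num [P1C0]
  rw [e1, e2, e3, e4, e5, e6]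
  exact h

lemma rP1C1 : ∃ N : ℝ, Rw4 P.r2 N (coCell (27977 / 1024 : ℝ) (893 / 4096 : ℝ) (12 : ℝ) 0 P1C1) := by
  refine ⟨(3221225472 : ℝ), ⟨Q21, List.mem_cons_of_mem _ (List.mem_cons_of_mem _ (List.mem_cons_of_mem _ (List.mem_cons_of_mem _ (List.mem_cons_of_mem _ (List.mem_cons_of_mem _ (List.mem_cons_of_mem _ (List.mem_cons_of_mem _ (List.mem_cons_of_mem _ (List.mem_cons_of_mem _ (List.mem_cons_of_mem _ (List.mem_cons_of_mem _ (List.mem_cons_of_mem _ (List.mem_cons_of_mem _ (List.mem_cons_of_mem _ (List.mem_cons_of_mem _ (List.mem_cons_of_mem _ (List.mem_cons_of_mem _ (List.mem_cons_of_mem _ (List.mem_cons_of_mem _ (List.mem_cons_of_mem _ (List.mem_cons_self))))))))))))))))))))), ?_⟩, by norm_num⟩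
  constructor <;> norm_num [Q21, coCell, P1C1]

lemma lP1C1 : ∀ x1 x2 xc : ℝ, 0 ≤ x1 → x1 ≤ 1 → 0 ≤ x2 → x2 ≤ 1 → P1C1.l ≤ xc → xc ≤ P1C1.u →
    (27977 / 1024 : ℝ) * (1 - (1 - x1) ^ 3) + (893 / 4096 : ℝ) * (1 - (1 - x2) ^ 3) - (12 : ℝ) * (1 - (1 - xc) ^ 3) + (1 / 1073741824 : ℝ)
      ≤ - P1C1.a1 * x1 - P1C1.a2 * x2 + P1C1.e * xc + P1C1.f := by
  have h := cell_lines_delta 3 (α1 := (27977 / 1024 : ℝ)) (α2 := (893 / 4096 : ℝ)) (c := (12 : ℝ)) (y1 := (3185 / 65536 : ℝ)) (y2 := (4637 / 32768 : ℝ))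
    (A1 := (311178319 / 4194304 : ℝ)) (B1 := (50282577 / 268435456 : ℝ)) (A2 := (2021823 / 4194304 : ℝ)) (B2 := (3184143 / 268435456 : ℝ)) (l := (19451 / 262144 : ℝ)) (u := (10309 / 131072 : ℝ))
    (E := (-64398695 / 2097152 : ℝ)) (F := (-26761469 / 134217728 : ℝ)) (δ := (1 / 1073741824 : ℝ)) (by norm_num) (by norm_num) (by norm_num) (by norm_num) (by norm_num)
    (by norm_num) (by norm_num) (by norm_num) (by norm_num) (by norm_num) (by norm_num) (by norm_num) (by norm_num) (by norm_num) (by norm_num)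
  have e1 : P1C1.l = (19451 / 262144 : ℝ) := rfl
  have e2 : P1C1.u = (10309 / 131072 : ℝ) := rfl
  have e3 : P1C1.a1 = -(311178319 / 4194304 : ℝ) := by norm_num [P1C1]
  have e4 : P1C1.a2 = -(2021823 / 4194304 : ℝ) := by norm_num [P1C1]
  have e5 : P1C1.e = (-64398695 / 2097152 : ℝ) := rfl
  have e6 : P1C1.f = (50282577 / 268435456 : ℝ) + (3184143 / 268435456 : ℝ) + (-26761469 / 134217728 : ℝ) + (1 / 1073741824 : ℝ) := by norm_num [P1C1]
  rw [e1, e2, e3, e4, e5, e6]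
  exact h

lemma rP1C2 : ∃ N : ℝ, Rw4 P.r2 N (coCell (27977 / 1024 : ℝ) (893 / 4096 : ℝ) (12 : ℝ) 0 P1C2) := by
  refine ⟨(3221225472 : ℝ), ⟨Q22, List.mem_cons_of_mem _ (List.mem_cons_of_mem _ (List.mem_cons_of_mem _ (List.mem_cons_of_mem _ (List.mem_cons_of_mem _ (List.mem_cons_of_mem _ (List.mem_cons_of_mem _ (List.mem_cons_of_mem _ (List.mem_cons_of_mem _ (List.mem_cons_of_mem _ (List.mem_cons_of_mem _ (List.mem_cons_of_mem _ (List.mem_cons_of_mem _ (List.mem_cons_of_mem _ (List.mem_cons_of_mem _ (List.mem_cons_of_mem _ (List.mem_cons_of_mem _ (List.mem_cons_of_mem _ (List.mem_cons_of_mem _ (List.mem_cons_of_mem _ (List.mem_cons_of_mem _ (List.mem_cons_of_mem _ (List.mem_cons_self)))))))))))))))))))))), ?_⟩, by norm_num⟩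
  constructor <;> norm_num [Q22, coCell, P1C2]

lemma lP1C2 : ∀ x1 x2 xc : ℝ, 0 ≤ x1 → x1 ≤ 1 → 0 ≤ x2 → x2 ≤ 1 → P1C2.l ≤ xc → xc ≤ P1C2.u →
    (27977 / 1024 : ℝ) * (1 - (1 - x1) ^ 3) + (893 / 4096 : ℝ) * (1 - (1 - x2) ^ 3) - (12 : ℝ) * (1 - (1 - xc) ^ 3) + (1 / 1073741824 : ℝ)
      ≤ - P1C2.a1 * x1 - P1C2.a2 * x2 + P1C2.e * xc + P1C2.f := by
  have h := cell_lines_delta 3 (α1 := (27977 / 1024 : ℝ)) (α2 := (893 / 4096 : ℝ)) (c := (12 : ℝ)) (y1 := (13505 / 262144 : ℝ)) (y2 := (39021 / 262144 : ℝ))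
    (A1 := (309272285 / 4194304 : ℝ)) (B1 := (7048613 / 33554432 : ℝ)) (A2 := (1987383 / 4194304 : ℝ)) (B2 := (438017 / 33554432 : ℝ)) (l := (10309 / 131072 : ℝ)) (u := (21855 / 262144 : ℝ))
    (E := (-127521719 / 4194304 : ℝ)) (F := (-3746517 / 16777216 : ℝ)) (δ := (1 / 1073741824 : ℝ)) (by norm_num) (by norm_num) (by norm_num) (by norm_num) (by norm_num)
    (by norm_num) (by norm_num) (by norm_num) (by norm_num) (by norm_num) (by norm_num) (by norm_num) (by norm_num) (by norm_num) (by norm_num)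
  have e1 : P1C2.l = (10309 / 131072 : ℝ) := rfl
  have e2 : P1C2.u = (21855 / 262144 : ℝ) := rfl
  have e3 : P1C2.a1 = -(309272285 / 4194304 : ℝ) := by norm_num [P1C2]
  have e4 : P1C2.a2 = -(1987383 / 4194304 : ℝ) := by norm_num [P1C2]
  have e5 : P1C2.e = (-127521719 / 4194304 : ℝ) := rfl
  have e6 : P1C2.f = (7048613 / 33554432 : ℝ) + (438017 / 33554432 : ℝ) + (-3746517 / 16777216 : ℝ) + (1 / 1073741824 : ℝ) := by norm_num [P1C2]
  rw [e1, e2, e3, e4, e5, e6]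
  exact h

lemma rP1C3 : ∃ N : ℝ, Rw4 P.r2 N (coCell (27977 / 1024 : ℝ) (893 / 4096 : ℝ) (12 : ℝ) 0 P1C3) := by
  refine ⟨(3221225472 : ℝ), ⟨Q23, List.mem_cons_of_mem _ (List.mem_cons_of_mem _ (List.mem_cons_of_mem _ (List.mem_cons_of_mem _ (List.mem_cons_of_mem _ (List.mem_cons_of_mem _ (List.mem_cons_of_mem _ (List.mem_cons_of_mem _ (List.mem_cons_of_mem _ (List.mem_cons_of_mem _ (List.mem_cons_of_mem _ (List.mem_cons_of_mem _ (List.mem_cons_of_mem _ (List.mem_cons_of_mem _ (List.mem_cons_of_mem _ (List.mem_cons_of_mem _ (List.mem_cons_of_mem _ (List.mem_cons_of_mem _ (List.mem_cons_of_mem _ (List.mem_cons_of_mem _ (List.mem_cons_of_mem _ (List.mem_cons_of_mem _ (List.mem_cons_of_mem _ (List.mem_cons_self))))))))))))))))))))))), ?_⟩, by norm_num⟩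
  constructor <;> norm_num [Q23, coCell, P1C3]

lemma lP1C3 : ∀ x1 x2 xc : ℝ, 0 ≤ x1 → x1 ≤ 1 → 0 ≤ x2 → x2 ≤ 1 → P1C3.l ≤ xc → xc ≤ P1C3.u →
    (27977 / 1024 : ℝ) * (1 - (1 - x1) ^ 3) + (893 / 4096 : ℝ) * (1 - (1 - x2) ^ 3) - (12 : ℝ) * (1 - (1 - xc) ^ 3) + (1 / 1073741824 : ℝ)
      ≤ - P1C3.a1 * x1 - P1C3.a2 * x2 + P1C3.e * xc + P1C3.f := by
  have h := cell_lines_delta 3 (α1 := (27977 / 1024 : ℝ)) (α2 := (893 / 4096 : ℝ)) (c := (12 : ℝ)) (y1 := (14315 / 262144 : ℝ)) (y2 := (2563 / 16384 : ℝ))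
    (A1 := (307260513 / 4194304 : ℝ)) (B1 := (31610383 / 134217728 : ℝ)) (A2 := (1952143 / 4194304 : ℝ)) (B2 := (3848409 / 268435456 : ℝ)) (l := (21855 / 262144 : ℝ)) (u := (23167 / 262144 : ℝ))
    (E := (-126176041 / 4194304 : ℝ)) (F := (-67124397 / 268435456 : ℝ)) (δ := (1 / 1073741824 : ℝ)) (by norm_num) (by norm_num) (by norm_num) (by norm_num) (by norm_num)
    (by norm_num) (by norm_num) (by norm_num) (by norm_num) (by norm_num) (by norm_num) (by norm_num) (by norm_num) (by norm_num) (by norm_num)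
  have e1 : P1C3.l = (21855 / 262144 : ℝ) := rfl
  have e2 : P1C3.u = (23167 / 262144 : ℝ) := rfl
  have e3 : P1C3.a1 = -(307260513 / 4194304 : ℝ) := by norm_num [P1C3]
  have e4 : P1C3.a2 = -(1952143 / 4194304 : ℝ) := by norm_num [P1C3]
  have e5 : P1C3.e = (-126176041 / 4194304 : ℝ) := rfl
  have e6 : P1C3.f = (31610383 / 134217728 : ℝ) + (3848409 / 268435456 : ℝ) + (-67124397 / 268435456 : ℝ) + (1 / 1073741824 : ℝ) := by norm_num [P1C3]
  rw [e1, e2, e3, e4, e5, e6]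
  exact h

lemma rP1C4 : ∃ N : ℝ, Rw4 P.r2 N (coCell (27977 / 1024 : ℝ) (893 / 4096 : ℝ) (12 : ℝ) 0 P1C4) := by
  refine ⟨(3221225472 : ℝ), ⟨Q24, List.mem_cons_of_mem _ (List.mem_cons_of_mem _ (List.mem_cons_of_mem _ (List.mem_cons_of_mem _ (List.mem_cons_of_mem _ (List.mem_cons_of_mem _ (List.mem_cons_of_mem _ (List.mem_cons_of_mem _ (List.mem_cons_of_mem _ (List.mem_cons_of_mem _ (List.mem_cons_of_mem _ (List.mem_cons_of_mem _ (List.mem_cons_of_mem _ (List.mem_cons_of_mem _ (List.mem_cons_of_mem _ (List.mem_cons_of_mem _ (List.mem_cons_of_mem _ (List.mem_cons_of_mem _ (List.mem_cons_of_mem _ (List.mem_cons_of_mem _ (List.mem_cons_of_mem _ (List.mem_cons_of_mem _ (List.mem_cons_of_mem _ (List.mem_cons_of_mem _ (List.mem_cons_self)))))))))))))))))))))))), ?_⟩, by norm_num⟩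
  constructor <;> norm_num [Q24, coCell, P1C4]

lemma lP1C4 : ∀ x1 x2 xc : ℝ, 0 ≤ x1 → x1 ≤ 1 → 0 ≤ x2 → x2 ≤ 1 → P1C4.l ≤ xc → xc ≤ P1C4.u →
    (27977 / 1024 : ℝ) * (1 - (1 - x1) ^ 3) + (893 / 4096 : ℝ) * (1 - (1 - x2) ^ 3) - (12 : ℝ) * (1 - (1 - xc) ^ 3) + (1 / 1073741824 : ℝ)
      ≤ - P1C4.a1 * x1 - P1C4.a2 * x2 + P1C4.e * xc + P1C4.f := by
  have h := cell_lines_delta 3 (α1 := (27977 / 1024 : ℝ)) (α2 := (893 / 4096 : ℝ)) (c := (12 : ℝ)) (y1 := (7587 / 131072 : ℝ)) (y2 := (43051 / 262144 : ℝ))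
    (A1 := (305134213 / 4194304 : ℝ)) (B1 := (70874745 / 268435456 : ℝ)) (A2 := (119765 / 262144 : ℝ)) (B2 := (1054195 / 67108864 : ℝ)) (l := (23167 / 262144 : ℝ)) (u := (24557 / 262144 : ℝ))
    (E := (-62378693 / 2097152 : ℝ)) (F := (-37574159 / 134217728 : ℝ)) (δ := (1 / 1073741824 : ℝ)) (by norm_num) (by norm_num) (by norm_num) (by norm_num) (by norm_num)
    (by norm_num) (by norm_num) (by norm_num) (by norm_num) (by norm_num) (by norm_num) (by norm_num) (by norm_num) (by norm_num) (by norm_num)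
  have e1 : P1C4.l = (23167 / 262144 : ℝ) := rfl
  have e2 : P1C4.u = (24557 / 262144 : ℝ) := rfl
  have e3 : P1C4.a1 = -(305134213 / 4194304 : ℝ) := by norm_num [P1C4]
  have e4 : P1C4.a2 = -(119765 / 262144 : ℝ) := by norm_num [P1C4]
  have e5 : P1C4.e = (-62378693 / 2097152 : ℝ) := rfl
  have e6 : P1C4.f = (70874745 / 268435456 : ℝ) + (1054195 / 67108864 : ℝ) + (-37574159 / 134217728 : ℝ) + (1 / 1073741824 : ℝ) := by norm_num [P1C4]
  rw [e1, e2, e3, e4, e5, e6]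
  exact h

lemma rP1C5 : ∃ N : ℝ, Rw4 P.r2 N (coCell (27977 / 1024 : ℝ) (893 / 4096 : ℝ) (12 : ℝ) 0 P1C5) := by
  refine ⟨(3221225472 : ℝ), ⟨Q25, List.mem_cons_of_mem _ (List.mem_cons_of_mem _ (List.mem_cons_of_mem _ (List.mem_cons_of_mem _ (List.mem_cons_of_mem _ (List.mem_cons_of_mem _ (List.mem_cons_of_mem _ (List.mem_cons_of_mem _ (List.mem_cons_of_mem _ (List.mem_cons_of_mem _ (List.mem_cons_of_mem _ (List.mem_cons_of_mem _ (List.mem_cons_of_mem _ (List.mem_cons_of_mem _ (List.mem_cons_of_mem _ (List.mem_cons_of_mem _ (List.mem_cons_of_mem _ (List.mem_cons_of_mem _ (List.mem_cons_of_mem _ (List.mem_cons_of_mem _ (List.mem_cons_of_mem _ (List.mem_cons_of_mem _ (List.mem_cons_of_mem _ (List.mem_cons_of_mem _ (List.mem_cons_of_mem _ (List.mem_cons_self))))))))))))))))))))))))), ?_⟩, by norm_num⟩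
  constructor <;> norm_num [Q25, coCell, P1C5]

lemma lP1C5 : ∀ x1 x2 xc : ℝ, 0 ≤ x1 → x1 ≤ 1 → 0 ≤ x2 → x2 ≤ 1 → P1C5.l ≤ xc → xc ≤ P1C5.u →
    (27977 / 1024 : ℝ) * (1 - (1 - x1) ^ 3) + (893 / 4096 : ℝ) * (1 - (1 - x2) ^ 3) - (12 : ℝ) * (1 - (1 - xc) ^ 3) + (1 / 1073741824 : ℝ)
      ≤ - P1C5.a1 * x1 - P1C5.a2 * x2 + P1C5.e * xc + P1C5.f := by
  have h := cell_lines_delta 3 (α1 := (27977 / 1024 : ℝ)) (α2 := (893 / 4096 : ℝ)) (c := (12 : ℝ)) (y1 := (16085 / 262144 : ℝ)) (y2 := (45145 / 262144 : ℝ))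
    (A1 := (302887263 / 4194304 : ℝ)) (B1 := (79448501 / 268435456 : ℝ)) (A2 := (1879785 / 4194304 : ℝ)) (B2 := (2304633 / 134217728 : ℝ)) (l := (24557 / 262144 : ℝ)) (u := (13015 / 131072 : ℝ))
    (E := (-61631477 / 2097152 : ℝ)) (F := (-42053989 / 134217728 : ℝ)) (δ := (1 / 1073741824 : ℝ)) (by norm_num) (by norm_num) (by norm_num) (by norm_num) (by norm_num)
    (by norm_num) (by norm_num) (by norm_num) (by norm_num) (by norm_num) (by norm_num) (by norm_num) (by norm_num) (by norm_num) (by norm_num)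
  have e1 : P1C5.l = (24557 / 262144 : ℝ) := rfl
  have e2 : P1C5.u = (13015 / 131072 : ℝ) := rfl
  have e3 : P1C5.a1 = -(302887263 / 4194304 : ℝ) := by norm_num [P1C5]
  have e4 : P1C5.a2 = -(1879785 / 4194304 : ℝ) := by norm_num [P1C5]
  have e5 : P1C5.e = (-61631477 / 2097152 : ℝ) := rfl
  have e6 : P1C5.f = (79448501 / 268435456 : ℝ) + (2304633 / 134217728 : ℝ) + (-42053989 / 134217728 : ℝ) + (1 / 1073741824 : ℝ) := by norm_num [P1C5]
  rw [e1, e2, e3, e4, e5, e6]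
  exact h

lemma rP1C6 : ∃ N : ℝ, Rw4 P.r2 N (coCell (27977 / 1024 : ℝ) (893 / 4096 : ℝ) (12 : ℝ) 0 P1C6) := by
  refine ⟨(3221225472 : ℝ), ⟨Q26, List.mem_cons_of_mem _ (List.mem_cons_of_mem _ (List.mem_cons_of_mem _ (List.mem_cons_of_mem _ (List.mem_cons_of_mem _ (List.mem_cons_of_mem _ (List.mem_cons_of_mem _ (List.mem_cons_of_mem _ (List.mem_cons_of_mem _ (List.mem_cons_of_mem _ (List.mem_cons_of_mem _ (List.mem_cons_of_mem _ (List.mem_cons_of_mem _ (List.mem_cons_of_mem _ (List.mem_cons_of_mem _ (List.mem_cons_of_mem _ (List.mem_cons_of_mem _ (List.mem_cons_of_mem _ (List.mem_cons_of_mem _ (List.mem_cons_of_mem _ (List.mem_cons_of_mem _ (List.mem_cons_of_mem _ (List.mem_cons_of_mem _ (List.mem_cons_of_mem _ (List.mem_cons_of_mem _ (List.mem_cons_of_mem _ (List.mem_cons_self)))))))))))))))))))))))))), ?_⟩, by norm_num⟩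
  constructor <;> norm_num [Q26, coCell, P1C6]

lemma lP1C6 : ∀ x1 x2 xc : ℝ, 0 ≤ x1 → x1 ≤ 1 → 0 ≤ x2 → x2 ≤ 1 → P1C6.l ≤ xc → xc ≤ P1C6.u →
    (27977 / 1024 : ℝ) * (1 - (1 - x1) ^ 3) + (893 / 4096 : ℝ) * (1 - (1 - x2) ^ 3) - (12 : ℝ) * (1 - (1 - xc) ^ 3) + (1 / 1073741824 : ℝ)
      ≤ - P1C6.a1 * x1 - P1C6.a2 * x2 + P1C6.e * xc + P1C6.f := by
  have h := cell_lines_delta 3 (α1 := (27977 / 1024 : ℝ)) (α2 := (893 / 4096 : ℝ)) (c := (12 : ℝ)) (y1 := (8525 / 131072 : ℝ)) (y2 := (23639 / 131072 : ℝ))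
    (A1 := (300516181 / 4194304 : ℝ)) (B1 := (44519431 / 134217728 : ℝ)) (A2 := (460753 / 1048576 : ℝ)) (B2 := (5024115 / 268435456 : ℝ)) (l := (13015 / 131072 : ℝ)) (u := (3449 / 32768 : ℝ))
    (E := (-121688579 / 4194304 : ℝ)) (F := (-23528275 / 67108864 : ℝ)) (δ := (1 / 1073741824 : ℝ)) (by norm_num) (by norm_num) (by norm_num) (by norm_num) (by norm_num)
    (by norm_num) (by norm_num) (by norm_num) (by norm_num) (by norm_num) (by norm_num) (by norm_num) (by norm_num) (by norm_num) (by norm_num)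
  have e1 : P1C6.l = (13015 / 131072 : ℝ) := rfl
  have e2 : P1C6.u = (3449 / 32768 : ℝ) := rfl
  have e3 : P1C6.a1 = -(300516181 / 4194304 : ℝ) := by norm_num [P1C6]
  have e4 : P1C6.a2 = -(460753 / 1048576 : ℝ) := by norm_num [P1C6]
  have e5 : P1C6.e = (-121688579 / 4194304 : ℝ) := rfl
  have e6 : P1C6.f = (44519431 / 134217728 : ℝ) + (5024115 / 268435456 : ℝ) + (-23528275 / 67108864 : ℝ) + (1 / 1073741824 : ℝ) := by norm_num [P1C6]
  rw [e1, e2, e3, e4, e5, e6]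
  exact h

lemma rP1C7 : ∃ N : ℝ, Rw4 P.r2 N (coCell (27977 / 1024 : ℝ) (893 / 4096 : ℝ) (12 : ℝ) 0 P1C7) := by
  refine ⟨(3221225472 : ℝ), ⟨Q27, List.mem_cons_of_mem _ (List.mem_cons_of_mem _ (List.mem_cons_of_mem _ (List.mem_cons_of_mem _ (List.mem_cons_of_mem _ (List.mem_cons_of_mem _ (List.mem_cons_of_mem _ (List.mem_cons_of_mem _ (List.mem_cons_of_mem _ (List.mem_cons_of_mem _ (List.mem_cons_of_mem _ (List.mem_cons_of_mem _ (List.mem_cons_of_mem _ (List.mem_cons_of_mem _ (List.mem_cons_of_mem _ (List.mem_cons_of_mem _ (List.mem_cons_of_mem _ (List.mem_cons_of_mem _ (List.mem_cons_of_mem _ (List.mem_cons_of_mem _ (List.mem_cons_of_mem _ (List.mem_cons_of_mem _ (List.mem_cons_of_mem _ (List.mem_cons_of_mem _ (List.mem_cons_of_mem _ (List.mem_cons_of_mem _ (List.mem_cons_of_mem _ (List.mem_cons_self))))))))))))))))))))))))))), ?_⟩, by norm_num⟩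
  constructor <;> norm_num [Q27, coCell, P1C7]

lemma lP1C7 : ∀ x1 x2 xc : ℝ, 0 ≤ x1 → x1 ≤ 1 → 0 ≤ x2 → x2 ≤ 1 → P1C7.l ≤ xc → xc ≤ P1C7.u →
    (27977 / 1024 : ℝ) * (1 - (1 - x1) ^ 3) + (893 / 4096 : ℝ) * (1 - (1 - x2) ^ 3) - (12 : ℝ) * (1 - (1 - xc) ^ 3) + (1 / 1073741824 : ℝ)
      ≤ - P1C7.a1 * x1 - P1C7.a2 * x2 + P1C7.e * xc + P1C7.f := by
  have h := cell_lines_delta 3 (α1 := (27977 / 1024 : ℝ)) (α2 := (893 / 4096 : ℝ)) (c := (12 : ℝ)) (y1 := (18073 / 262144 : ℝ)) (y2 := (49439 / 262144 : ℝ))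
    (A1 := (149006381 / 2097152 : ℝ)) (B1 := (99771997 / 268435456 : ℝ)) (A2 := (1806127 / 4194304 : ℝ)) (B2 := (2729781 / 134217728 : ℝ)) (l := (3449 / 32768 : ℝ)) (u := (29247 / 262144 : ℝ))
    (E := (-120030843 / 4194304 : ℝ)) (F := (-52640077 / 134217728 : ℝ)) (δ := (1 / 1073741824 : ℝ)) (by norm_num) (by norm_num) (by norm_num) (by norm_num) (by norm_num)
    (by norm_num) (by norm_num) (by norm_num) (by norm_num) (by norm_num) (by norm_num) (by norm_num) (by norm_num) (by norm_num) (by norm_num)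
  have e1 : P1C7.l = (3449 / 32768 : ℝ) := rfl
  have e2 : P1C7.u = (29247 / 262144 : ℝ) := rfl
  have e3 : P1C7.a1 = -(149006381 / 2097152 : ℝ) := by norm_num [P1C7]
  have e4 : P1C7.a2 = -(1806127 / 4194304 : ℝ) := by norm_num [P1C7]
  have e5 : P1C7.e = (-120030843 / 4194304 : ℝ) := rfl
  have e6 : P1C7.f = (99771997 / 268435456 : ℝ) + (2729781 / 134217728 : ℝ) + (-52640077 / 134217728 : ℝ) + (1 / 1073741824 : ℝ) := by norm_num [P1C7]
  rw [e1, e2, e3, e4, e5, e6]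
  exact h

lemma rP1C8 : ∃ N : ℝ, Rw4 P.r2 N (coCell (27977 / 1024 : ℝ) (893 / 4096 : ℝ) (12 : ℝ) 0 P1C8) := by
  refine ⟨(3221225472 : ℝ), ⟨Q28, List.mem_cons_of_mem _ (List.mem_cons_of_mem _ (List.mem_cons_of_mem _ (List.mem_cons_of_mem _ (List.mem_cons_of_mem _ (List.mem_cons_of_mem _ (List.mem_cons_of_mem _ (List.mem_cons_of_mem _ (List.mem_cons_of_mem _ (List.mem_cons_of_mem _ (List.mem_cons_of_mem _ (List.mem_cons_of_mem _ (List.mem_cons_of_mem _ (List.mem_cons_of_mem _ (List.mem_cons_of_mem _ (List.mem_cons_of_mem _ (List.mem_cons_of_mem _ (List.mem_cons_of_mem _ (List.mem_cons_of_mem _ (List.mem_cons_of_mem _ (List.mem_cons_of_mem _ (List.mem_cons_of_mem _ (List.mem_cons_of_mem _ (List.mem_cons_of_mem _ (List.mem_cons_of_mem _ (List.mem_cons_of_mem _ (List.mem_cons_of_mem _ (List.mem_cons_of_mem _ (List.mem_cons_self)))))))))))))))))))))))))))), ?_⟩, by norm_num⟩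
  constructor <;> norm_num [Q28, coCell, P1C8]

lemma lP1C8 : ∀ x1 x2 xc : ℝ, 0 ≤ x1 → x1 ≤ 1 → 0 ≤ x2 → x2 ≤ 1 → P1C8.l ≤ xc → xc ≤ P1C8.u →
    (27977 / 1024 : ℝ) * (1 - (1 - x1) ^ 3) + (893 / 4096 : ℝ) * (1 - (1 - x2) ^ 3) - (12 : ℝ) * (1 - (1 - xc) ^ 3) + (1 / 1073741824 : ℝ)
      ≤ - P1C8.a1 * x1 - P1C8.a2 * x2 + P1C8.e * xc + P1C8.f := by
  have h := cell_lines_delta 3 (α1 := (27977 / 1024 : ℝ)) (α2 := (893 / 4096 : ℝ)) (c := (12 : ℝ)) (y1 := (19157 / 262144 : ℝ)) (y2 := (25805 / 131072 : ℝ))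
    (A1 := (147685747 / 2097152 : ℝ)) (B1 := (27943863 / 67108864 : ℝ)) (A2 := (884723 / 2097152 : ℝ)) (B2 := (2956003 / 134217728 : ℝ)) (l := (29247 / 262144 : ℝ)) (u := (15501 / 131072 : ℝ))
    (E := (-118286071 / 4194304 : ℝ)) (F := (-58869245 / 134217728 : ℝ)) (δ := (1 / 1073741824 : ℝ)) (by norm_num) (by norm_num) (by norm_num) (by norm_num) (by norm_num)
    (by norm_num) (by norm_num) (by norm_num) (by norm_num) (by norm_num) (by norm_num) (by norm_num) (by norm_num) (by norm_num) (by norm_num)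
  have e1 : P1C8.l = (29247 / 262144 : ℝ) := rfl
  have e2 : P1C8.u = (15501 / 131072 : ℝ) := rfl
  have e3 : P1C8.a1 = -(147685747 / 2097152 : ℝ) := by norm_num [P1C8]
  have e4 : P1C8.a2 = -(884723 / 2097152 : ℝ) := by norm_num [P1C8]
  have e5 : P1C8.e = (-118286071 / 4194304 : ℝ) := rfl
  have e6 : P1C8.f = (27943863 / 67108864 : ℝ) + (2956003 / 134217728 : ℝ) + (-58869245 / 134217728 : ℝ) + (1 / 1073741824 : ℝ) := by norm_num [P1C8]
  rw [e1, e2, e3, e4, e5, e6]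
  exact h

lemma rP1C9 : ∃ N : ℝ, Rw4 P.r2 N (coCell (27977 / 1024 : ℝ) (893 / 4096 : ℝ) (12 : ℝ) 0 P1C9) := by
  refine ⟨(3221225472 : ℝ), ⟨Q29, List.mem_cons_of_mem _ (List.mem_cons_of_mem _ (List.mem_cons_of_mem _ (List.mem_cons_of_mem _ (List.mem_cons_of_mem _ (List.mem_cons_of_mem _ (List.mem_cons_of_mem _ (List.mem_cons_of_mem _ (List.mem_cons_of_mem _ (List.mem_cons_of_mem _ (List.mem_cons_of_mem _ (List.mem_cons_of_mem _ (List.mem_cons_of_mem _ (List.mem_cons_of_mem _ (List.mem_cons_of_mem _ (List.mem_cons_of_mem _ (List.mem_cons_of_mem _ (List.mem_cons_of_mem _ (List.mem_cons_of_mem _ (List.mem_cons_of_mem _ (List.mem_cons_of_mem _ (List.mem_cons_of_mem _ (List.mem_cons_of_mem _ (List.mem_cons_of_mem _ (List.mem_cons_of_mem _ (List.mem_cons_of_mem _ (List.mem_cons_of_mem _ (List.mem_cons_of_mem _ (List.mem_cons_of_mem _ (List.mem_cons_self))))))))))))))))))))))))))))), ?_⟩,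 by norm_num⟩
  constructor <;> norm_num [Q29, coCell, P1C9]

lemma lP1C9 : ∀ x1 x2 xc : ℝ, 0 ≤ x1 → x1 ≤ 1 → 0 ≤ x2 → x2 ≤ 1 → P1C9.l ≤ xc → xc ≤ P1C9.u →
    (27977 / 1024 : ℝ) * (1 - (1 - x1) ^ 3) + (893 / 4096 : ℝ) * (1 - (1 - x2) ^ 3) - (12 : ℝ) * (1 - (1 - xc) ^ 3) + (1 / 1073741824 : ℝ)
      ≤ - P1C9.a1 * x1 - P1C9.a2 * x2 + P1C9.e * xc + P1C9.f := by
  have h := cell_lines_delta 3 (α1 := (27977 / 1024 : ℝ)) (α2 := (893 / 4096 : ℝ)) (c := (12 : ℝ)) (y1 := (10153 / 131072 : ℝ)) (y2 := (53771 / 262144 : ℝ))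
    (A1 := (292584683 / 4194304 : ℝ)) (B1 := (125199931 / 268435456 : ℝ)) (A2 := (433327 / 1048576 : ℝ)) (B2 := (3188433 / 134217728 : ℝ)) (l := (15501 / 131072 : ℝ)) (u := (16431 / 131072 : ℝ))
    (E := (-116450361 / 4194304 : ℝ)) (F := (-32908175 / 67108864 : ℝ)) (δ := (1 / 1073741824 : ℝ)) (by norm_num) (by norm_num) (by norm_num) (by norm_num) (by norm_num)
    (by norm_num) (by norm_num) (by norm_num) (by norm_num) (by norm_num) (by norm_num) (by norm_num) (by norm_num) (by norm_num) (by norm_num)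
  have e1 : P1C9.l = (15501 / 131072 : ℝ) := rfl
  have e2 : P1C9.u = (16431 / 131072 : ℝ) := rfl
  have e3 : P1C9.a1 = -(292584683 / 4194304 : ℝ) := by norm_num [P1C9]
  have e4 : P1C9.a2 = -(433327 / 1048576 : ℝ) := by norm_num [P1C9]
  have e5 : P1C9.e = (-116450361 / 4194304 : ℝ) := rfl
  have e6 : P1C9.f = (125199931 / 268435456 : ℝ) + (3188433 / 134217728 : ℝ) + (-32908175 / 67108864 : ℝ) + (1 / 1073741824 : ℝ) := by norm_num [P1C9]
  rw [e1, e2, e3, e4, e5, e6]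
  exact h

lemma rP1C10 : ∃ N : ℝ, Rw4 P.r2 N (coCell (27977 / 1024 : ℝ) (893 / 4096 : ℝ) (12 : ℝ) 0 P1C10) := by
  refine ⟨(3221225472 : ℝ), ⟨Q30, List.mem_cons_of_mem _ (List.mem_cons_of_mem _ (List.mem_cons_of_mem _ (List.mem_cons_of_mem _ (List.mem_cons_of_mem _ (List.mem_cons_of_mem _ (List.mem_cons_of_mem _ (List.mem_cons_of_mem _ (List.mem_cons_of_mem _ (List.mem_cons_of_mem _ (List.mem_cons_of_mem _ (List.mem_cons_of_mem _ (List.mem_cons_of_mem _ (List.mem_cons_of_mem _ (List.mem_cons_of_mem _ (List.mem_cons_of_mem _ (List.mem_cons_of_mem _ (List.mem_cons_of_mem _ (List.mem_cons_of_mem _ (List.mem_cons_of_mem _ (List.mem_cons_of_mem _ (List.mem_cons_of_mem _ (List.mem_cons_of_mem _ (List.mem_cons_of_mem _ (List.mem_cons_of_mem _ (List.mem_cons_of_mem _ (List.mem_cons_of_mem _ (List.mem_cons_of_mem _ (List.mem_cons_of_mem _ (List.mem_cons_of_mem _ (List.mem_cons_self)))))))))))))))))))))))))))))),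 ?_⟩, by norm_num⟩
  constructor <;> norm_num [Q30, coCell, P1C10]

lemma lP1C10 : ∀ x1 x2 xc : ℝ, 0 ≤ x1 → x1 ≤ 1 → 0 ≤ x2 → x2 ≤ 1 → P1C10.l ≤ xc → xc ≤ P1C10.u →
    (27977 / 1024 : ℝ) * (1 - (1 - x1) ^ 3) + (893 / 4096 : ℝ) * (1 - (1 - x2) ^ 3) - (12 : ℝ) * (1 - (1 - xc) ^ 3) + (1 / 1073741824 : ℝ)
      ≤ - P1C10.a1 * x1 - P1C10.a2 * x2 + P1C10.e * xc + P1C10.f := by
  have h := cell_lines_delta 3 (α1 := (27977 / 1024 : ℝ)) (α2 := (893 / 4096 : ℝ)) (c := (12 : ℝ)) (y1 := (21525 / 262144 : ℝ)) (y2 := (13973 / 65536 : ℝ))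
    (A1 := (289642533 / 4194304 : ℝ)) (B1 := (35055783 / 67108864 : ℝ)) (A2 := (1698201 / 4194304 : ℝ)) (B2 := (3423413 / 134217728 : ℝ)) (l := (16431 / 131072 : ℝ)) (u := (17417 / 131072 : ℝ))
    (E := (-114520139 / 4194304 : ℝ)) (F := (-147118773 / 268435456 : ℝ)) (δ := (1 / 1073741824 : ℝ)) (by norm_num) (by norm_num) (by norm_num) (by norm_num) (by norm_num)
    (by norm_num) (by norm_num) (by norm_num) (by norm_num) (by norm_num) (by norm_num) (by norm_num) (by norm_num) (by norm_num) (by norm_num)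
  have e1 : P1C10.l = (16431 / 131072 : ℝ) := rfl
  have e2 : P1C10.u = (17417 / 131072 : ℝ) := rfl
  have e3 : P1C10.a1 = -(289642533 / 4194304 : ℝ) := by norm_num [P1C10]
  have e4 : P1C10.a2 = -(1698201 / 4194304 : ℝ) := by norm_num [P1C10]
  have e5 : P1C10.e = (-114520139 / 4194304 : ℝ) := rfl
  have e6 : P1C10.f = (35055783 / 67108864 : ℝ) + (3423413 / 134217728 : ℝ) + (-147118773 / 268435456 : ℝ) + (1 / 1073741824 : ℝ) := by norm_num [P1C10]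
  rw [e1, e2, e3, e4, e5, e6]
  exact h

lemma rP1C11 : ∃ N : ℝ, Rw4 P.r2 N (coCell (27977 / 1024 : ℝ) (893 / 4096 : ℝ) (12 : ℝ) 0 P1C11) := by
  refine ⟨(3221225472 : ℝ), ⟨Q31, List.mem_cons_of_mem _ (List.mem_cons_of_mem _ (List.mem_cons_of_mem _ (List.mem_cons_of_mem _ (List.mem_cons_of_mem _ (List.mem_cons_of_mem _ (List.mem_cons_of_mem _ (List.mem_cons_of_mem _ (List.mem_cons_of_mem _ (List.mem_cons_of_mem _ (List.mem_cons_of_mem _ (List.mem_cons_of_mem _ (List.mem_cons_of_mem _ (List.mem_cons_of_mem _ (List.mem_cons_of_mem _ (List.mem_cons_of_mem _ (List.mem_cons_of_mem _ (List.mem_cons_of_mem _ (List.mem_cons_of_mem _ (List.mem_cons_of_mem _ (List.mem_cons_of_mem _ (List.mem_cons_of_mem _ (List.mem_cons_of_mem _ (List.mem_cons_of_mem _ (List.mem_cons_of_mem _ (List.mem_cons_of_mem _ (List.mem_cons_of_mem _ (List.mem_cons_of_mem _ (List.mem_cons_of_mem _ (List.mem_cons_of_mem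 _ (List.mem_cons_of_mem _ (List.mem_cons_self))))))))))))))))))))))))))))))), ?_⟩, by norm_num⟩
  constructor <;> norm_num [Q31, coCell, P1C11]

lemma lP1C11 : ∀ x1 x2 xc : ℝ, 0 ≤ x1 → x1 ≤ 1 → 0 ≤ x2 → x2 ≤ 1 → P1C11.l ≤ xc → xc ≤ P1C11.u →
    (27977 / 1024 : ℝ) * (1 - (1 - x1) ^ 3) + (893 / 4096 : ℝ) * (1 - (1 - x2) ^ 3) - (12 : ℝ) * (1 - (1 - xc) ^ 3) + (1 / 1073741824 : ℝ)
      ≤ - P1C11.a1 * x1 - P1C11.a2 * x2 + P1C11.e * xc + P1C11.f := by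
  have h := cell_lines_delta 3 (α1 := (27977 / 1024 : ℝ)) (α2 := (893 / 4096 : ℝ)) (c := (12 : ℝ)) (y1 := (713 / 8192 : ℝ)) (y2 := (53729 / 262144 : ℝ))
    (A1 := (8954463 / 131072 : ℝ)) (B1 := (157000597 / 268435456 : ℝ)) (A2 := (1734007 / 4194304 : ℝ)) (B2 := (397981 / 16777216 : ℝ)) (l := (17417 / 131072 : ℝ)) (u := (9175 / 65536 : ℝ))
    (E := (-3518841 / 131072 : ℝ)) (F := (-163423627 / 268435456 : ℝ)) (δ := (1 / 1073741824 : ℝ)) (by norm_num) (by norm_num) (by norm_num) (by norm_num) (by norm_num)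
    (by norm_num) (by norm_num) (by norm_num) (by norm_num) (by norm_num) (by norm_num) (by norm_num) (by norm_num) (by norm_num) (by norm_num)
  have e1 : P1C11.l = (17417 / 131072 : ℝ) := rfl
  have e2 : P1C11.u = (9175 / 65536 : ℝ) := rfl
  have e3 : P1C11.a1 = -(8954463 / 131072 : ℝ) := by norm_num [P1C11]
  have e4 : P1C11.a2 = -(1734007 / 4194304 : ℝ) := by norm_num [P1C11]
  have e5 : P1C11.e = (-3518841 / 131072 : ℝ) := rfl
  have e6 : P1C11.f = (157000597 / 268435456 : ℝ) + (397981 / 16777216 : ℝ) + (-163423627 / 268435456 : ℝ) + (1 / 1073741824 : ℝ) := by norm_num [P1C11]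
  rw [e1, e2, e3, e4, e5, e6]
  exact h

/-- A link of the chain. -/
lemma link1 {lam : ℝ} (h0 : -(1 / 2) < lam) (h1 : lam < 1) (hB : BoxS lam P 0 HH 0 HH)
    (h : ∃ n, 1 - En 3 lam n mc ≤ (9175 / 65536 : ℝ)) : ∃ n, 1 - En 3 lam n mc ≤ (9175 / 131072 : ℝ) :=
  phase_of_box (by norm_num) h0 h1 hB (27977 / 1024 : ℝ) (893 / 4096 : ℝ) (12 : ℝ) (1 / 1073741824 : ℝ) (9175 / 131072 : ℝ) (9175 / 65536 : ℝ) (by norm_num) cellsP1 hcoverP1
    (forall_cons lP1C0 (forall_cons lP1C1 (forall_cons lP1C2 (forall_cons lP1C3 (forall_cons lP1C4 (forall_cons lP1C5 (forall_cons lP1C6 (forall_cons lP1C7 (forall_cons lP1C8 (forall_cons lP1C9 (forall_cons lP1C10 (forall_cons lP1C11 (forall_nil))))))))))))) (forall_cons rP1C0 (forall_cons rP1C1 (forall_cons rP1C2 (forall_cons rP1C3 (forall_cons rP1C4 (forall_cons rP1C5 (forall_cons rP1C6 (forall_cons rP1C7 (forall_cons rP1C8 (forall_cons rP1C9 (forall_cons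 rP1C10 (forall_cons rP1C11 (forall_nil))))))))))))) h

/-- A chord cell of a link. -/
noncomputable def P2C0 : Cell := ⟨(9175 / 65536 : ℝ), (19451 / 131072 : ℝ), (-142563235 / 2097152 : ℝ), (-637627 / 4194304 : ℝ), (-110588787 / 4194304 : ℝ), (-1460211 / 1073741824 : ℝ)⟩

/-- A chord cell of a link. -/
noncomputable def P2C1 : Cell := ⟨(19451 / 131072 : ℝ), (10309 / 65536 : ℝ), (-70431913 / 1048576 : ℝ), (-74491 / 524288 : ℝ), (-54182109 / 2097152 : ℝ), (-392747 / 1073741824 : ℝ)⟩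

/-- A chord cell of a link. -/
noncomputable def P2C2 : Cell := ⟨(10309 / 65536 : ℝ), (21855 / 131072 : ℝ), (-278065245 / 4194304 : ℝ), (-74491 / 524288 : ℝ), (-106030939 / 4194304 : ℝ), (-286643 / 1073741824 : ℝ)⟩

/-- A chord cell of a link. -/
noncomputable def P2C3 : Cell := ⟨(21855 / 131072 : ℝ), (46333 / 262144 : ℝ), (-274227063 / 4194304 : ℝ), (-595921 / 4194304 : ℝ), (-103585151 / 4194304 : ℝ), (-162639 / 1073741824 : ℝ)⟩

/-- A chord cell of a link. -/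
noncomputable def P2C4 : Cell := ⟨(46333 / 262144 : ℝ), (49113 / 262144 : ℝ), (-67553155 / 1048576 : ℝ), (-297951 / 2097152 : ℝ), (-50511851 / 2097152 : ℝ), (-183591 / 1073741824 : ℝ)⟩

/-- A chord cell of a link. -/
noncomputable def P2C5 : Cell := ⟨(49113 / 262144 : ℝ), (13015 / 65536 : ℝ), (-133005111 / 2097152 : ℝ), (-148977 / 1048576 : ℝ), (-24585919 / 1048576 : ℝ), (-191779 / 1073741824 : ℝ)⟩

/-- A chord cell of a link. -/
noncomputable def P2C6 : Cell := ⟨(13015 / 65536 : ℝ), (55183 / 262144 : ℝ), (-261613529 / 4194304 : ℝ), (-148977 / 1048576 : ℝ), (-95542483 / 4194304 : ℝ), (-150739 / 1073741824 : ℝ)⟩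

/-- A chord cell of a link. -/
noncomputable def P2C7 : Cell := ⟨(55183 / 262144 : ℝ), (29247 / 131072 : ℝ), (-257016873 / 4194304 : ℝ), (-597635 / 4194304 : ℝ), (-92617519 / 4194304 : ℝ), (-184219 / 1073741824 : ℝ)⟩

/-- A chord cell of a link. -/
noncomputable def P2C8 : Cell := ⟨(29247 / 131072 : ℝ), (15501 / 65536 : ℝ), (-252222065 / 4194304 : ℝ), (-148977 / 1048576 : ℝ), (-89566299 / 4194304 : ℝ), (-144151 / 1073741824 : ℝ)⟩

/-- A chord cell of a link. -/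
noncomputable def P2C9 : Cell := ⟨(15501 / 65536 : ℝ), (16431 / 65536 : ℝ), (-247218037 / 4194304 : ℝ), (-148977 / 1048576 : ℝ), (-86387941 / 4194304 : ℝ), (-170175 / 1073741824 : ℝ)⟩

/-- A chord cell of a link. -/
noncomputable def P2C10 : Cell := ⟨(16431 / 65536 : ℝ), (17417 / 65536 : ℝ), (-242003643 / 4194304 : ℝ), (-297951 / 2097152 : ℝ), (-20770379 / 1048576 : ℝ), (-207327 / 1073741824 : ℝ)⟩

/-- A chord cell of a link. -/
noncomputable def P2C11 : Cell := ⟨(17417 / 65536 : ℝ), (9175 / 32768 : ℝ), (-7402015 / 131072 : ℝ), (-148977 / 1048576 : ℝ), (-79833983 / 4194304 : ℝ), (-263567 / 1073741824 : ℝ)⟩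

/-- The chord cells of a link. -/
noncomputable def cellsP2 : List Cell := [P2C0, P2C1, P2C2, P2C3, P2C4, P2C5, P2C6, P2C7, P2C8, P2C9, P2C10, P2C11]

lemma hcoverP2 : ∀ x : ℝ, (9175 / 65536 : ℝ) ≤ x → x ≤ (9175 / 32768 : ℝ) → ∃ D ∈ cellsP2, D.l ≤ x ∧ x ≤ D.u := by
  refine cover_of_chain ?_ (by norm_num [P2C0])
  simp only [ChainP, P2C0, P2C1, P2C2, P2C3, P2C4, P2C5, P2C6, P2C7, P2C8, P2C9, P2C10, P2C11]
  norm_num

lemma rP2C0 : ∃ N : ℝ, Rw4 P.r2 N (coCell (56283 / 2048 : ℝ) (205 / 2048 : ℝ) (12 : ℝ) 0 P2C0) := by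
  refine ⟨(3221225472 : ℝ), ⟨Q32, List.mem_cons_of_mem _ (List.mem_cons_of_mem _ (List.mem_cons_of_mem _ (List.mem_cons_of_mem _ (List.mem_cons_of_mem _ (List.mem_cons_of_mem _ (List.mem_cons_of_mem _ (List.mem_cons_of_mem _ (List.mem_cons_of_mem _ (List.mem_cons_of_mem _ (List.mem_cons_of_mem _ (List.mem_cons_of_mem _ (List.mem_cons_of_mem _ (List.mem_cons_of_mem _ (List.mem_cons_of_mem _ (List.mem_cons_of_mem _ (List.mem_cons_of_mem _ (List.mem_cons_of_mem _ (List.mem_cons_of_mem _ (List.mem_cons_of_mem _ (List.mem_cons_of_mem _ (List.mem_cons_of_mem _ (List.mem_cons_of_mem _ (List.mem_cons_of_mem _ (List.mem_cons_of_mem _ (List.mem_cons_of_mem _ (List.mem_cons_of_mem _ (List.mem_cons_of_mem _ (List.mem_cons_of_mem _ (List.mem_cons_of_mem _ (List.mem_cons_of_mem _ (List.mem_cons_of_mem _ (List.mem_cons_self)))))))))))))))))))))))))))))))), ?_⟩, by norm_num⟩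
  constructor <;> norm_num [Q32, coCell, P2C0]

lemma lP2C0 : ∀ x1 x2 xc : ℝ, 0 ≤ x1 → x1 ≤ 1 → 0 ≤ x2 → x2 ≤ 1 → P2C0.l ≤ xc → xc ≤ P2C0.u →
    (56283 / 2048 : ℝ) * (1 - (1 - x1) ^ 3) + (205 / 2048 : ℝ) * (1 - (1 - x2) ^ 3) - (12 : ℝ) * (1 - (1 - xc) ^ 3) + (1 / 1073741824 : ℝ)
      ≤ - P2C0.a1 * x1 - P2C0.a2 * x2 + P2C0.e * xc + P2C0.f := by
  have h := cell_lines_delta 3 (α1 := (56283 / 2048 : ℝ)) (α2 := (205 / 2048 : ℝ)) (c := (12 : ℝ)) (y1 := (24107 / 262144 : ℝ)) (y2 := (37813 / 131072 : ℝ))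
    (A1 := (142563235 / 2097152 : ℝ)) (B1 := (175686503 / 268435456 : ℝ)) (A2 := (637627 / 4194304 : ℝ)) (B2 := (5418553 / 268435456 : ℝ)) (l := (9175 / 65536 : ℝ)) (u := (19451 / 131072 : ℝ))
    (E := (-110588787 / 4194304 : ℝ)) (F := (-181470109 / 268435456 : ℝ)) (δ := (1 / 1073741824 : ℝ)) (by norm_num) (by norm_num) (by norm_num) (by norm_num) (by norm_num)
    (by norm_num) (by norm_num) (by norm_num) (by norm_num) (by norm_num) (by norm_num) (by norm_num) (by norm_num) (by norm_num) (by norm_num)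
  have e1 : P2C0.l = (9175 / 65536 : ℝ) := rfl
  have e2 : P2C0.u = (19451 / 131072 : ℝ) := rfl
  have e3 : P2C0.a1 = -(142563235 / 2097152 : ℝ) := by norm_num [P2C0]
  have e4 : P2C0.a2 = -(637627 / 4194304 : ℝ) := by norm_num [P2C0]
  have e5 : P2C0.e = (-110588787 / 4194304 : ℝ) := rfl
  have e6 : P2C0.f = (175686503 / 268435456 : ℝ) + (5418553 / 268435456 : ℝ) + (-181470109 / 268435456 : ℝ) + (1 / 1073741824 : ℝ) := by norm_num [P2C0]
  rw [e1, e2, e3, e4, e5, e6]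
  exact h

lemma rP2C1 : ∃ N : ℝ, Rw4 P.r2 N (coCell (56283 / 2048 : ℝ) (205 / 2048 : ℝ) (12 : ℝ) 0 P2C1) := by
  refine ⟨(3221225472 : ℝ), ⟨Q33, List.mem_cons_of_mem _ (List.mem_cons_of_mem _ (List.mem_cons_of_mem _ (List.mem_cons_of_mem _ (List.mem_cons_of_mem _ (List.mem_cons_of_mem _ (List.mem_cons_of_mem _ (List.mem_cons_of_mem _ (List.mem_cons_of_mem _ (List.mem_cons_of_mem _ (List.mem_cons_of_mem _ (List.mem_cons_of_mem _ (List.mem_cons_of_mem _ (List.mem_cons_of_mem _ (List.mem_cons_of_mem _ (List.mem_cons_of_mem _ (List.mem_cons_of_mem _ (List.mem_cons_of_mem _ (List.mem_cons_of_mem _ (List.mem_cons_of_mem _ (List.mem_cons_of_mem _ (List.mem_cons_of_mem _ (List.mem_cons_of_mem _ (List.mem_cons_of_mem _ (List.mem_cons_of_mem _ (List.mem_cons_of_mem _ (List.mem_cons_of_mem _ (List.mem_cons_of_mem _ (List.mem_cons_of_mem _ (List.mem_cons_of_mem _ (List.mem_cons_of_mem _ (List.mem_cons_of_mem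 _ (List.mem_cons_of_mem _ (List.mem_cons_self))))))))))))))))))))))))))))))))), ?_⟩, by norm_num⟩
  constructor <;> norm_num [Q33, coCell, P2C1]

lemma lP2C1 : ∀ x1 x2 xc : ℝ, 0 ≤ x1 → x1 ≤ 1 → 0 ≤ x2 → x2 ≤ 1 → P2C1.l ≤ xc → xc ≤ P2C1.u →
    (56283 / 2048 : ℝ) * (1 - (1 - x1) ^ 3) + (205 / 2048 : ℝ) * (1 - (1 - x2) ^ 3) - (12 : ℝ) * (1 - (1 - xc) ^ 3) + (1 / 1073741824 : ℝ)
      ≤ - P2C1.a1 * x1 - P2C1.a2 * x2 + P2C1.e * xc + P2C1.f := by
  have h := cell_lines_delta 3 (α1 := (56283 / 2048 : ℝ)) (α2 := (205 / 2048 : ℝ)) (c := (12 : ℝ)) (y1 := (12765 / 131072 : ℝ)) (y2 := (20457 / 65536 : ℝ))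
    (A1 := (70431913 / 1048576 : ℝ)) (B1 := (12267503 / 16777216 : ℝ)) (A2 := (74491 / 524288 : ℝ)) (B2 := (777481 / 33554432 : ℝ)) (l := (19451 / 131072 : ℝ)) (u := (10309 / 65536 : ℝ))
    (E := (-54182109 / 2097152 : ℝ)) (F := (-202598083 / 268435456 : ℝ)) (δ := (1 / 1073741824 : ℝ)) (by norm_num) (by norm_num) (by norm_num) (by norm_num) (by norm_num)
    (by norm_num) (by norm_num) (by norm_num) (by norm_num) (by norm_num) (by norm_num) (by norm_num) (by norm_num) (by norm_num) (by norm_num)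
  have e1 : P2C1.l = (19451 / 131072 : ℝ) := rfl
  have e2 : P2C1.u = (10309 / 65536 : ℝ) := rfl
  have e3 : P2C1.a1 = -(70431913 / 1048576 : ℝ) := by norm_num [P2C1]
  have e4 : P2C1.a2 = -(74491 / 524288 : ℝ) := by norm_num [P2C1]
  have e5 : P2C1.e = (-54182109 / 2097152 : ℝ) := rfl
  have e6 : P2C1.f = (12267503 / 16777216 : ℝ) + (777481 / 33554432 : ℝ) + (-202598083 / 268435456 : ℝ) + (1 / 1073741824 : ℝ) := by norm_num [P2C1]
  rw [e1, e2, e3, e4, e5, e6]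
  exact h

lemma rP2C2 : ∃ N : ℝ, Rw4 P.r2 N (coCell (56283 / 2048 : ℝ) (205 / 2048 : ℝ) (12 : ℝ) 0 P2C2) := by
  refine ⟨(3221225472 : ℝ), ⟨Q34, List.mem_cons_of_mem _ (List.mem_cons_of_mem _ (List.mem_cons_of_mem _ (List.mem_cons_of_mem _ (List.mem_cons_of_mem _ (List.mem_cons_of_mem _ (List.mem_cons_of_mem _ (List.mem_cons_of_mem _ (List.mem_cons_of_mem _ (List.mem_cons_of_mem _ (List.mem_cons_of_mem _ (List.mem_cons_of_mem _ (List.mem_cons_of_mem _ (List.mem_cons_of_mem _ (List.mem_cons_of_mem _ (List.mem_cons_of_mem _ (List.mem_cons_of_mem _ (List.mem_cons_of_mem _ (List.mem_cons_of_mem _ (List.mem_cons_of_mem _ (List.mem_cons_of_mem _ (List.mem_cons_of_mem _ (List.mem_cons_of_mem _ (List.mem_cons_of_mem _ (List.mem_cons_of_mem _ (List.mem_cons_of_mem _ (List.mem_cons_of_mem _ (List.mem_cons_of_mem _ (List.mem_cons_of_mem _ (List.mem_cons_of_mem _ (List.mem_cons_of_mem _ (List.mem_cons_of_mem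 _ (List.mem_cons_of_mem _ (List.mem_cons_of_mem _ (List.mem_cons_self)))))))))))))))))))))))))))))))))), ?_⟩, by norm_num⟩
  constructor <;> norm_num [Q34, coCell, P2C2]

lemma lP2C2 : ∀ x1 x2 xc : ℝ, 0 ≤ x1 → x1 ≤ 1 → 0 ≤ x2 → x2 ≤ 1 → P2C2.l ≤ xc → xc ≤ P2C2.u →
    (56283 / 2048 : ℝ) * (1 - (1 - x1) ^ 3) + (205 / 2048 : ℝ) * (1 - (1 - x2) ^ 3) - (12 : ℝ) * (1 - (1 - xc) ^ 3) + (1 / 1073741824 : ℝ)
      ≤ - P2C2.a1 * x1 - P2C2.a2 * x2 + P2C2.e * xc + P2C2.f := by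
  have h := cell_lines_delta 3 (α1 := (56283 / 2048 : ℝ)) (α2 := (205 / 2048 : ℝ)) (c := (12 : ℝ)) (y1 := (27073 / 262144 : ℝ)) (y2 := (20457 / 65536 : ℝ))
    (A1 := (278065245 / 4194304 : ℝ)) (B1 := (219796587 / 268435456 : ℝ)) (A2 := (74491 / 524288 : ℝ)) (B2 := (777481 / 33554432 : ℝ)) (l := (10309 / 65536 : ℝ)) (u := (21855 / 131072 : ℝ))
    (E := (-106030939 / 4194304 : ℝ)) (F := (-7065253 / 8388608 : ℝ)) (δ := (1 / 1073741824 : ℝ)) (by norm_num) (by norm_num) (by norm_num) (by norm_num) (by norm_num)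
    (by norm_num) (by norm_num) (by norm_num) (by norm_num) (by norm_num) (by norm_num) (by norm_num) (by norm_num) (by norm_num) (by norm_num)
  have e1 : P2C2.l = (10309 / 65536 : ℝ) := rfl
  have e2 : P2C2.u = (21855 / 131072 : ℝ) := rfl
  have e3 : P2C2.a1 = -(278065245 / 4194304 : ℝ) := by norm_num [P2C2]
  have e4 : P2C2.a2 = -(74491 / 524288 : ℝ) := by norm_num [P2C2]
  have e5 : P2C2.e = (-106030939 / 4194304 : ℝ) := rfl
  have e6 : P2C2.f = (219796587 / 268435456 : ℝ) + (777481 / 33554432 : ℝ) + (-7065253 / 8388608 : ℝ) + (1 / 1073741824 : ℝ) := by norm_num [P2C2]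
  rw [e1, e2, e3, e4, e5, e6]
  exact h

lemma rP2C3 : ∃ N : ℝ, Rw4 P.r2 N (coCell (56283 / 2048 : ℝ) (205 / 2048 : ℝ) (12 : ℝ) 0 P2C3) := by
  refine ⟨(3221225472 : ℝ), ⟨Q35, List.mem_cons_of_mem _ (List.mem_cons_of_mem _ (List.mem_cons_of_mem _ (List.mem_cons_of_mem _ (List.mem_cons_of_mem _ (List.mem_cons_of_mem _ (List.mem_cons_of_mem _ (List.mem_cons_of_mem _ (List.mem_cons_of_mem _ (List.mem_cons_of_mem _ (List.mem_cons_of_mem _ (List.mem_cons_of_mem _ (List.mem_cons_of_mem _ (List.mem_cons_of_mem _ (List.mem_cons_of_mem _ (List.mem_cons_of_mem _ (List.mem_cons_of_mem _ (List.mem_cons_of_mem _ (List.mem_cons_of_mem _ (List.mem_cons_of_mem _ (List.mem_cons_of_mem _ (List.mem_cons_of_mem _ (List.mem_cons_of_mem _ (List.mem_cons_of_mem _ (List.mem_cons_of_mem _ (List.mem_cons_of_mem _ (List.mem_cons_of_mem _ (List.mem_cons_of_mem _ (List.mem_cons_of_mem _ (List.mem_cons_of_mem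 _ (List.mem_cons_of_mem _ (List.mem_cons_of_mem _ (List.mem_cons_of_mem _ (List.mem_cons_of_mem _ (List.mem_cons_of_mem _ (List.mem_cons_self))))))))))))))))))))))))))))))))))), ?_⟩, by norm_num⟩
  constructor <;> norm_num [Q35, coCell, P2C3]

lemma lP2C3 : ∀ x1 x2 xc : ℝ, 0 ≤ x1 → x1 ≤ 1 → 0 ≤ x2 → x2 ≤ 1 → P2C3.l ≤ xc → xc ≤ P2C3.u →
    (56283 / 2048 : ℝ) * (1 - (1 - x1) ^ 3) + (205 / 2048 : ℝ) * (1 - (1 - x2) ^ 3) - (12 : ℝ) * (1 - (1 - xc) ^ 3) + (1 / 1073741824 : ℝ)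
      ≤ - P2C3.a1 * x1 - P2C3.a2 * x2 + P2C3.e * xc + P2C3.f := by
  have h := cell_lines_delta 3 (α1 := (56283 / 2048 : ℝ)) (α2 := (205 / 2048 : ℝ)) (c := (12 : ℝ)) (y1 := (28701 / 262144 : ℝ)) (y2 := (81829 / 262144 : ℝ))
    (A1 := (274227063 / 4194304 : ℝ)) (B1 := (245927383 / 268435456 : ℝ)) (A2 := (595921 / 4194304 : ℝ)) (B2 := (3110001 / 134217728 : ℝ)) (l := (21855 / 131072 : ℝ)) (u := (46333 / 262144 : ℝ))
    (E := (-103585151 / 4194304 : ℝ)) (F := (-252188045 / 268435456 : ℝ)) (δ := (1 / 1073741824 : ℝ)) (by norm_num) (by norm_num) (by norm_num) (by norm_num) (by norm_num)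
    (by norm_num) (by norm_num) (by norm_num) (by norm_num) (by norm_num) (by norm_num) (by norm_num) (by norm_num) (by norm_num) (by norm_num)
  have e1 : P2C3.l = (21855 / 131072 : ℝ) := rfl
  have e2 : P2C3.u = (46333 / 262144 : ℝ) := rfl
  have e3 : P2C3.a1 = -(274227063 / 4194304 : ℝ) := by norm_num [P2C3]
  have e4 : P2C3.a2 = -(595921 / 4194304 : ℝ) := by norm_num [P2C3]
  have e5 : P2C3.e = (-103585151 / 4194304 : ℝ) := rfl
  have e6 : P2C3.f = (245927383 / 268435456 : ℝ) + (3110001 / 134217728 : ℝ) + (-252188045 / 268435456 : ℝ) + (1 / 1073741824 : ℝ) := by norm_num [P2C3]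
  rw [e1, e2, e3, e4, e5, e6]
  exact h

lemma rP2C4 : ∃ N : ℝ, Rw4 P.r2 N (coCell (56283 / 2048 : ℝ) (205 / 2048 : ℝ) (12 : ℝ) 0 P2C4) := by
  refine ⟨(3221225472 : ℝ), ⟨Q36, List.mem_cons_of_mem _ (List.mem_cons_of_mem _ (List.mem_cons_of_mem _ (List.mem_cons_of_mem _ (List.mem_cons_of_mem _ (List.mem_cons_of_mem _ (List.mem_cons_of_mem _ (List.mem_cons_of_mem _ (List.mem_cons_of_mem _ (List.mem_cons_of_mem _ (List.mem_cons_of_mem _ (List.mem_cons_of_mem _ (List.mem_cons_of_mem _ (List.mem_cons_of_mem _ (List.mem_cons_of_mem _ (List.mem_cons_of_mem _ (List.mem_cons_of_mem _ (List.mem_cons_of_mem _ (List.mem_cons_of_mem _ (List.mem_cons_of_mem _ (List.mem_cons_of_mem _ (List.mem_cons_of_mem _ (List.mem_cons_of_mem _ (List.mem_cons_of_mem _ (List.mem_cons_of_mem _ (List.mem_cons_of_mem _ (List.mem_cons_of_mem _ (List.mem_cons_of_mem _ (List.mem_cons_of_mem _ (List.mem_cons_of_mem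 _ (List.mem_cons_of_mem _ (List.mem_cons_of_mem _ (List.mem_cons_of_mem _ (List.mem_cons_of_mem _ (List.mem_cons_of_mem _ (List.mem_cons_of_mem _ (List.mem_cons_self)))))))))))))))))))))))))))))))))))), ?_⟩, by norm_num⟩
  constructor <;> norm_num [Q36, coCell, P2C4]

lemma lP2C4 : ∀ x1 x2 xc : ℝ, 0 ≤ x1 → x1 ≤ 1 → 0 ≤ x2 → x2 ≤ 1 → P2C4.l ≤ xc → xc ≤ P2C4.u →
    (56283 / 2048 : ℝ) * (1 - (1 - x1) ^ 3) + (205 / 2048 : ℝ) * (1 - (1 - x2) ^ 3) - (12 : ℝ) * (1 - (1 - xc) ^ 3) + (1 / 1073741824 : ℝ)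
      ≤ - P2C4.a1 * x1 - P2C4.a2 * x2 + P2C4.e * xc + P2C4.f := by
  have h := cell_lines_delta 3 (α1 := (56283 / 2048 : ℝ)) (α2 := (205 / 2048 : ℝ)) (c := (12 : ℝ)) (y1 := (1901 / 16384 : ℝ)) (y2 := (10229 / 32768 : ℝ))
    (A1 := (67553155 / 1048576 : ℝ)) (B1 := (137448143 / 134217728 : ℝ)) (A2 := (297951 / 2097152 : ℝ)) (B2 := (6220377 / 268435456 : ℝ)) (l := (46333 / 262144 : ℝ)) (u := (49113 / 262144 : ℝ))
    (E := (-50511851 / 2097152 : ℝ)) (F := (-281162561 / 268435456 : ℝ)) (δ := (1 / 1073741824 : ℝ)) (by norm_num) (by norm_num) (by norm_num) (by norm_num) (by norm_num)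
    (by norm_num) (by norm_num) (by norm_num) (by norm_num) (by norm_num) (by norm_num) (by norm_num) (by norm_num) (by norm_num) (by norm_num)
  have e1 : P2C4.l = (46333 / 262144 : ℝ) := rfl
  have e2 : P2C4.u = (49113 / 262144 : ℝ) := rfl
  have e3 : P2C4.a1 = -(67553155 / 1048576 : ℝ) := by norm_num [P2C4]
  have e4 : P2C4.a2 = -(297951 / 2097152 : ℝ) := by norm_num [P2C4]
  have e5 : P2C4.e = (-50511851 / 2097152 : ℝ) := rfl
  have e6 : P2C4.f = (137448143 / 134217728 : ℝ) + (6220377 / 268435456 : ℝ) + (-281162561 / 268435456 : ℝ) + (1 / 1073741824 : ℝ) := by norm_num [P2C4]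
  rw [e1, e2, e3, e4, e5, e6]
  exact h

lemma rP2C5 : ∃ N : ℝ, Rw4 P.r2 N (coCell (56283 / 2048 : ℝ) (205 / 2048 : ℝ) (12 : ℝ) 0 P2C5) := by
  refine ⟨(3221225472 : ℝ), ⟨Q37, List.mem_cons_of_mem _ (List.mem_cons_of_mem _ (List.mem_cons_of_mem _ (List.mem_cons_of_mem _ (List.mem_cons_of_mem _ (List.mem_cons_of_mem _ (List.mem_cons_of_mem _ (List.mem_cons_of_mem _ (List.mem_cons_of_mem _ (List.mem_cons_of_mem _ (List.mem_cons_of_mem _ (List.mem_cons_of_mem _ (List.mem_cons_of_mem _ (List.mem_cons_of_mem _ (List.mem_cons_of_mem _ (List.mem_cons_of_mem _ (List.mem_cons_of_mem _ (List.mem_cons_of_mem _ (List.mem_cons_of_mem _ (List.mem_cons_of_mem _ (List.mem_cons_of_mem _ (List.mem_cons_of_mem _ (List.mem_cons_of_mem _ (List.mem_cons_of_mem _ (List.mem_cons_of_mem _ (List.mem_cons_of_mem _ (List.mem_cons_of_mem _ (List.mem_cons_of_mem _ (List.mem_cons_of_mem _ (List.mem_cons_of_mem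 _ (List.mem_cons_of_mem _ (List.mem_cons_of_mem _ (List.mem_cons_of_mem _ (List.mem_cons_of_mem _ (List.mem_cons_of_mem _ (List.mem_cons_of_mem _ (List.mem_cons_of_mem _ (List.mem_cons_self))))))))))))))))))))))))))))))))))))), ?_⟩, by norm_num⟩
  constructor <;> norm_num [Q37, coCell, P2C5]

lemma lP2C5 : ∀ x1 x2 xc : ℝ, 0 ≤ x1 → x1 ≤ 1 → 0 ≤ x2 → x2 ≤ 1 → P2C5.l ≤ xc → xc ≤ P2C5.u →
    (56283 / 2048 : ℝ) * (1 - (1 - x1) ^ 3) + (205 / 2048 : ℝ) * (1 - (1 - x2) ^ 3) - (12 : ℝ) * (1 - (1 - xc) ^ 3) + (1 / 1073741824 : ℝ)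
      ≤ - P2C5.a1 * x1 - P2C5.a2 * x2 + P2C5.e * xc + P2C5.f := by
  have h := cell_lines_delta 3 (α1 := (56283 / 2048 : ℝ)) (α2 := (205 / 2048 : ℝ)) (c := (12 : ℝ)) (y1 := (32225 / 262144 : ℝ)) (y2 := (81831 / 262144 : ℝ))
    (A1 := (133005111 / 2097152 : ℝ)) (B1 := (153514579 / 134217728 : ℝ)) (A2 := (148977 / 1048576 : ℝ)) (B2 := (1555063 / 67108864 : ℝ)) (l := (49113 / 262144 : ℝ)) (u := (13015 / 65536 : ℝ))
    (E := (-24585919 / 1048576 : ℝ)) (F := (-313297355 / 268435456 : ℝ)) (δ := (1 / 1073741824 : ℝ)) (by norm_num) (by norm_num) (by norm_num) (by norm_num) (by norm_num)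
    (by norm_num) (by norm_num) (by norm_num) (by norm_num) (by norm_num) (by norm_num) (by norm_num) (by norm_num) (by norm_num) (by norm_num)
  have e1 : P2C5.l = (49113 / 262144 : ℝ) := rfl
  have e2 : P2C5.u = (13015 / 65536 : ℝ) := rfl
  have e3 : P2C5.a1 = -(133005111 / 2097152 : ℝ) := by norm_num [P2C5]
  have e4 : P2C5.a2 = -(148977 / 1048576 : ℝ) := by norm_num [P2C5]
  have e5 : P2C5.e = (-24585919 / 1048576 : ℝ) := rfl
  have e6 : P2C5.f = (153514579 / 134217728 : ℝ) + (1555063 / 67108864 : ℝ) + (-313297355 / 268435456 : ℝ) + (1 / 1073741824 : ℝ) := by norm_num [P2C5]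
  rw [e1, e2, e3, e4, e5, e6]
  exact h

lemma rP2C6 : ∃ N : ℝ, Rw4 P.r2 N (coCell (56283 / 2048 : ℝ) (205 / 2048 : ℝ) (12 : ℝ) 0 P2C6) := by
  refine ⟨(3221225472 : ℝ), ⟨Q38, List.mem_cons_of_mem _ (List.mem_cons_of_mem _ (List.mem_cons_of_mem _ (List.mem_cons_of_mem _ (List.mem_cons_of_mem _ (List.mem_cons_of_mem _ (List.mem_cons_of_mem _ (List.mem_cons_of_mem _ (List.mem_cons_of_mem _ (List.mem_cons_of_mem _ (List.mem_cons_of_mem _ (List.mem_cons_of_mem _ (List.mem_cons_of_mem _ (List.mem_cons_of_mem _ (List.mem_cons_of_mem _ (List.mem_cons_of_mem _ (List.mem_cons_of_mem _ (List.mem_cons_of_mem _ (List.mem_cons_of_mem _ (List.mem_cons_of_mem _ (List.mem_cons_of_mem _ (List.mem_cons_of_mem _ (List.mem_cons_of_mem _ (List.mem_cons_of_mem _ (List.mem_cons_of_mem _ (List.mem_cons_of_mem _ (List.mem_cons_of_mem _ (List.mem_cons_of_mem _ (List.mem_cons_of_mem _ (List.mem_cons_of_mem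 _ (List.mem_cons_of_mem _ (List.mem_cons_of_mem _ (List.mem_cons_of_mem _ (List.mem_cons_of_mem _ (List.mem_cons_of_mem _ (List.mem_cons_of_mem _ (List.mem_cons_of_mem _ (List.mem_cons_of_mem _ (List.mem_cons_self)))))))))))))))))))))))))))))))))))))), ?_⟩, by norm_num⟩
  constructor <;> norm_num [Q38, coCell, P2C6]

lemma lP2C6 : ∀ x1 x2 xc : ℝ, 0 ≤ x1 → x1 ≤ 1 → 0 ≤ x2 → x2 ≤ 1 → P2C6.l ≤ xc → xc ≤ P2C6.u →
    (56283 / 2048 : ℝ) * (1 - (1 - x1) ^ 3) + (205 / 2048 : ℝ) * (1 - (1 - x2) ^ 3) - (12 : ℝ) * (1 - (1 - xc) ^ 3) + (1 / 1073741824 : ℝ)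
      ≤ - P2C6.a1 * x1 - P2C6.a2 * x2 + P2C6.e * xc + P2C6.f := by
  have h := cell_lines_delta 3 (α1 := (56283 / 2048 : ℝ)) (α2 := (205 / 2048 : ℝ)) (c := (12 : ℝ)) (y1 := (34133 / 262144 : ℝ)) (y2 := (81831 / 262144 : ℝ))
    (A1 := (261613529 / 4194304 : ℝ)) (B1 := (42830309 / 33554432 : ℝ)) (A2 := (148977 / 1048576 : ℝ)) (B2 := (1555063 / 67108864 : ℝ)) (l := (13015 / 65536 : ℝ)) (u := (55183 / 262144 : ℝ))
    (E := (-95542483 / 4194304 : ℝ)) (F := (-348900409 / 268435456 : ℝ)) (δ := (1 / 1073741824 : ℝ)) (by norm_num) (by norm_num) (by norm_num) (by norm_num) (by norm_num)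
    (by norm_num) (by norm_num) (by norm_num) (by norm_num) (by norm_num) (by norm_num) (by norm_num) (by norm_num) (by norm_num) (by norm_num)
  have e1 : P2C6.l = (13015 / 65536 : ℝ) := rfl
  have e2 : P2C6.u = (55183 / 262144 : ℝ) := rfl
  have e3 : P2C6.a1 = -(261613529 / 4194304 : ℝ) := by norm_num [P2C6]
  have e4 : P2C6.a2 = -(148977 / 1048576 : ℝ) := by norm_num [P2C6]
  have e5 : P2C6.e = (-95542483 / 4194304 : ℝ) := rfl
  have e6 : P2C6.f = (42830309 / 33554432 : ℝ) + (1555063 / 67108864 : ℝ) + (-348900409 / 268435456 : ℝ) + (1 / 1073741824 : ℝ) := by norm_num [P2C6]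
  rw [e1, e2, e3, e4, e5, e6]
  exact h

lemma rP2C7 : ∃ N : ℝ, Rw4 P.r2 N (coCell (56283 / 2048 : ℝ) (205 / 2048 : ℝ) (12 : ℝ) 0 P2C7) := by
  refine ⟨(3221225472 : ℝ), ⟨Q39, List.mem_cons_of_mem _ (List.mem_cons_of_mem _ (List.mem_cons_of_mem _ (List.mem_cons_of_mem _ (List.mem_cons_of_mem _ (List.mem_cons_of_mem _ (List.mem_cons_of_mem _ (List.mem_cons_of_mem _ (List.mem_cons_of_mem _ (List.mem_cons_of_mem _ (List.mem_cons_of_mem _ (List.mem_cons_of_mem _ (List.mem_cons_of_mem _ (List.mem_cons_of_mem _ (List.mem_cons_of_mem _ (List.mem_cons_of_mem _ (List.mem_cons_of_mem _ (List.mem_cons_of_mem _ (List.mem_cons_of_mem _ (List.mem_cons_of_mem _ (List.mem_cons_of_mem _ (List.mem_cons_of_mem _ (List.mem_cons_of_mem _ (List.mem_cons_of_mem _ (List.mem_cons_of_mem _ (List.mem_cons_of_mem _ (List.mem_cons_of_mem _ (List.mem_cons_of_mem _ (List.mem_cons_of_mem _ (List.mem_cons_of_mem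 _ (List.mem_cons_of_mem _ (List.mem_cons_of_mem _ (List.mem_cons_of_mem _ (List.mem_cons_of_mem _ (List.mem_cons_of_mem _ (List.mem_cons_of_mem _ (List.mem_cons_of_mem _ (List.mem_cons_of_mem _ (List.mem_cons_of_mem _ (List.mem_cons_self))))))))))))))))))))))))))))))))))))))), ?_⟩, by norm_num⟩
  constructor <;> norm_num [Q39, coCell, P2C7]

lemma lP2C7 : ∀ x1 x2 xc : ℝ, 0 ≤ x1 → x1 ≤ 1 → 0 ≤ x2 → x2 ≤ 1 → P2C7.l ≤ xc → xc ≤ P2C7.u →
    (56283 / 2048 : ℝ) * (1 - (1 - x1) ^ 3) + (205 / 2048 : ℝ) * (1 - (1 - x2) ^ 3) - (12 : ℝ) * (1 - (1 - xc) ^ 3) + (1 / 1073741824 : ℝ)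
      ≤ - P2C7.a1 * x1 - P2C7.a2 * x2 + P2C7.e * xc + P2C7.f := by
  have h := cell_lines_delta 3 (α1 := (56283 / 2048 : ℝ)) (α2 := (205 / 2048 : ℝ)) (c := (12 : ℝ)) (y1 := (36145 / 262144 : ℝ)) (y2 := (40785 / 131072 : ℝ))
    (A1 := (257016873 / 4194304 : ℝ)) (B1 := (382074865 / 268435456 : ℝ)) (A2 := (597635 / 4194304 : ℝ)) (B2 := (6185809 / 268435456 : ℝ)) (l := (55183 / 262144 : ℝ)) (u := (29247 / 131072 : ℝ))
    (E := (-92617519 / 4194304 : ℝ)) (F := (-388306729 / 268435456 : ℝ)) (δ := (1 / 1073741824 : ℝ)) (by norm_num) (by norm_num) (by norm_num) (by norm_num) (by norm_num)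
    (by norm_num) (by norm_num) (by norm_num) (by norm_num) (by norm_num) (by norm_num) (by norm_num) (by norm_num) (by norm_num) (by norm_num)
  have e1 : P2C7.l = (55183 / 262144 : ℝ) := rfl
  have e2 : P2C7.u = (29247 / 131072 : ℝ) := rfl
  have e3 : P2C7.a1 = -(257016873 / 4194304 : ℝ) := by norm_num [P2C7]
  have e4 : P2C7.a2 = -(597635 / 4194304 : ℝ) := by norm_num [P2C7]
  have e5 : P2C7.e = (-92617519 / 4194304 : ℝ) := rfl
  have e6 : P2C7.f = (382074865 / 268435456 : ℝ) + (6185809 / 268435456 : ℝ) + (-388306729 / 268435456 : ℝ) + (1 / 1073741824 : ℝ) := by norm_num [P2C7]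
  rw [e1, e2, e3, e4, e5, e6]
  exact h

lemma rP2C8 : ∃ N : ℝ, Rw4 P.r2 N (coCell (56283 / 2048 : ℝ) (205 / 2048 : ℝ) (12 : ℝ) 0 P2C8) := by
  refine ⟨(3221225472 : ℝ), ⟨Q40, List.mem_cons_of_mem _ (List.mem_cons_of_mem _ (List.mem_cons_of_mem _ (List.mem_cons_of_mem _ (List.mem_cons_of_mem _ (List.mem_cons_of_mem _ (List.mem_cons_of_mem _ (List.mem_cons_of_mem _ (List.mem_cons_of_mem _ (List.mem_cons_of_mem _ (List.mem_cons_of_mem _ (List.mem_cons_of_mem _ (List.mem_cons_of_mem _ (List.mem_cons_of_mem _ (List.mem_cons_of_mem _ (List.mem_cons_of_mem _ (List.mem_cons_of_mem _ (List.mem_cons_of_mem _ (List.mem_cons_of_mem _ (List.mem_cons_of_mem _ (List.mem_cons_of_mem _ (List.mem_cons_of_mem _ (List.mem_cons_of_mem _ (List.mem_cons_of_mem _ (List.mem_cons_of_mem _ (List.mem_cons_of_mem _ (List.mem_cons_of_mem _ (List.mem_cons_of_mem _ (List.mem_cons_of_mem _ (List.mem_cons_of_mem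 _ (List.mem_cons_of_mem _ (List.mem_cons_of_mem _ (List.mem_cons_of_mem _ (List.mem_cons_of_mem _ (List.mem_cons_of_mem _ (List.mem_cons_of_mem _ (List.mem_cons_of_mem _ (List.mem_cons_of_mem _ (List.mem_cons_of_mem _ (List.mem_cons_of_mem _ (List.mem_cons_self)))))))))))))))))))))))))))))))))))))))), ?_⟩, by norm_num⟩
  constructor <;> norm_num [Q40, coCell, P2C8]

lemma lP2C8 : ∀ x1 x2 xc : ℝ, 0 ≤ x1 → x1 ≤ 1 → 0 ≤ x2 → x2 ≤ 1 → P2C8.l ≤ xc → xc ≤ P2C8.u →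
    (56283 / 2048 : ℝ) * (1 - (1 - x1) ^ 3) + (205 / 2048 : ℝ) * (1 - (1 - x2) ^ 3) - (12 : ℝ) * (1 - (1 - xc) ^ 3) + (1 / 1073741824 : ℝ)
      ≤ - P2C8.a1 * x1 - P2C8.a2 * x2 + P2C8.e * xc + P2C8.f := by
  have h := cell_lines_delta 3 (α1 := (56283 / 2048 : ℝ)) (α2 := (205 / 2048 : ℝ)) (c := (12 : ℝ)) (y1 := (38263 / 262144 : ℝ)) (y2 := (81831 / 262144 : ℝ))
    (A1 := (252222065 / 4194304 : ℝ)) (B1 := (425624185 / 268435456 : ℝ)) (A2 := (148977 / 1048576 : ℝ)) (B2 := (1555063 / 67108864 : ℝ)) (l := (29247 / 131072 : ℝ)) (u := (15501 / 65536 : ℝ))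
    (E := (-89566299 / 4194304 : ℝ)) (F := (-431880475 / 268435456 : ℝ)) (δ := (1 / 1073741824 : ℝ)) (by norm_num) (by norm_num) (by norm_num) (by norm_num) (by norm_num)
    (by norm_num) (by norm_num) (by norm_num) (by norm_num) (by norm_num) (by norm_num) (by norm_num) (by norm_num) (by norm_num) (by norm_num)
  have e1 : P2C8.l = (29247 / 131072 : ℝ) := rfl
  have e2 : P2C8.u = (15501 / 65536 : ℝ) := rfl
  have e3 : P2C8.a1 = -(252222065 / 4194304 : ℝ) := by norm_num [P2C8]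
  have e4 : P2C8.a2 = -(148977 / 1048576 : ℝ) := by norm_num [P2C8]
  have e5 : P2C8.e = (-89566299 / 4194304 : ℝ) := rfl
  have e6 : P2C8.f = (425624185 / 268435456 : ℝ) + (1555063 / 67108864 : ℝ) + (-431880475 / 268435456 : ℝ) + (1 / 1073741824 : ℝ) := by norm_num [P2C8]
  rw [e1, e2, e3, e4, e5, e6]
  exact h

lemma rP2C9 : ∃ N : ℝ, Rw4 P.r2 N (coCell (56283 / 2048 : ℝ) (205 / 2048 : ℝ) (12 : ℝ) 0 P2C9) := by
  refine ⟨(3221225472 : ℝ), ⟨Q41, List.mem_cons_of_mem _ (List.mem_cons_of_mem _ (List.mem_cons_of_mem _ (List.mem_cons_of_mem _ (List.mem_cons_of_mem _ (List.mem_cons_of_mem _ (List.mem_cons_of_mem _ (List.mem_cons_of_mem _ (List.mem_cons_of_mem _ (List.mem_cons_of_mem _ (List.mem_cons_of_mem _ (List.mem_cons_of_mem _ (List.mem_cons_of_mem _ (List.mem_cons_of_mem _ (List.mem_cons_of_mem _ (List.mem_cons_of_mem _ (List.mem_cons_of_mem _ (List.mem_cons_of_mem _ (List.mem_cons_of_mem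 _ (List.mem_cons_of_mem _ (List.mem_cons_of_mem _ (List.mem_cons_of_mem _ (List.mem_cons_of_mem _ (List.mem_cons_of_mem _ (List.mem_cons_of_mem _ (List.mem_cons_of_mem _ (List.mem_cons_of_mem _ (List.mem_cons_of_mem _ (List.mem_cons_of_mem _ (List.mem_cons_of_mem _ (List.mem_cons_of_mem _ (List.mem_cons_of_mem _ (List.mem_cons_of_mem _ (List.mem_cons_of_mem _ (List.mem_cons_of_mem _ (List.mem_cons_of_mem _ (List.mem_cons_of_mem _ (List.mem_cons_of_mem _ (List.mem_cons_of_mem _ (List.mem_cons_of_mem _ (List.mem_cons_of_mem _ (List.mem_cons_self))))))))))))))))))))))))))))))))))))))))), ?_⟩, by norm_num⟩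
  constructor <;> norm_num [Q41, coCell, P2C9]

lemma lP2C9 : ∀ x1 x2 xc : ℝ, 0 ≤ x1 → x1 ≤ 1 → 0 ≤ x2 → x2 ≤ 1 → P2C9.l ≤ xc → xc ≤ P2C9.u →
    (56283 / 2048 : ℝ) * (1 - (1 - x1) ^ 3) + (205 / 2048 : ℝ) * (1 - (1 - x2) ^ 3) - (12 : ℝ) * (1 - (1 - xc) ^ 3) + (1 / 1073741824 : ℝ)
      ≤ - P2C9.a1 * x1 - P2C9.a2 * x2 + P2C9.e * xc + P2C9.f := by
  have h := cell_lines_delta 3 (α1 := (56283 / 2048 : ℝ)) (α2 := (205 / 2048 : ℝ)) (c := (12 : ℝ)) (y1 := (40495 / 262144 : ℝ)) (y2 := (81831 / 262144 : ℝ))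
    (A1 := (247218037 / 4194304 : ℝ)) (B1 := (473730693 / 268435456 : ℝ)) (A2 := (148977 / 1048576 : ℝ)) (B2 := (1555063 / 67108864 : ℝ)) (l := (15501 / 65536 : ℝ)) (u := (16431 / 65536 : ℝ))
    (E := (-86387941 / 4194304 : ℝ)) (F := (-479993489 / 268435456 : ℝ)) (δ := (1 / 1073741824 : ℝ)) (by norm_num) (by norm_num) (by norm_num) (by norm_num) (by norm_num)
    (by norm_num) (by norm_num) (by norm_num) (by norm_num) (by norm_num) (by norm_num) (by norm_num) (by norm_num) (by norm_num) (by norm_num)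
  have e1 : P2C9.l = (15501 / 65536 : ℝ) := rfl
  have e2 : P2C9.u = (16431 / 65536 : ℝ) := rfl
  have e3 : P2C9.a1 = -(247218037 / 4194304 : ℝ) := by norm_num [P2C9]
  have e4 : P2C9.a2 = -(148977 / 1048576 : ℝ) := by norm_num [P2C9]
  have e5 : P2C9.e = (-86387941 / 4194304 : ℝ) := rfl
  have e6 : P2C9.f = (473730693 / 268435456 : ℝ) + (1555063 / 67108864 : ℝ) + (-479993489 / 268435456 : ℝ) + (1 / 1073741824 : ℝ) := by norm_num [P2C9]
  rw [e1, e2, e3, e4, e5, e6]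
  exact h

lemma rP2C10 : ∃ N : ℝ, Rw4 P.r2 N (coCell (56283 / 2048 : ℝ) (205 / 2048 : ℝ) (12 : ℝ) 0 P2C10) := by
  refine ⟨(3221225472 : ℝ), ⟨Q42, List.mem_cons_of_mem _ (List.mem_cons_of_mem _ (List.mem_cons_of_mem _ (List.mem_cons_of_mem _ (List.mem_cons_of_mem _ (List.mem_cons_of_mem _ (List.mem_cons_of_mem _ (List.mem_cons_of_mem _ (List.mem_cons_of_mem _ (List.mem_cons_of_mem _ (List.mem_cons_of_mem _ (List.mem_cons_of_mem _ (List.mem_cons_of_mem _ (List.mem_cons_of_mem _ (List.mem_cons_of_mem _ (List.mem_cons_of_mem _ (List.mem_cons_of_mem _ (List.mem_cons_of_mem _ (List.mem_cons_of_mem _ (List.mem_cons_of_mem _ (List.mem_cons_of_mem _ (List.mem_cons_of_mem _ (List.mem_cons_of_mem _ (List.mem_cons_of_mem _ (List.mem_cons_of_mem _ (List.mem_cons_of_mem _ (List.mem_cons_of_mem _ (List.mem_cons_of_mem _ (List.mem_cons_of_mem _ (List.mem_cons_of_mem _ (List.mem_cons_of_mem _ (List.mem_cons_of_mem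 _ (List.mem_cons_of_mem _ (List.mem_cons_of_mem _ (List.mem_cons_of_mem _ (List.mem_cons_of_mem _ (List.mem_cons_of_mem _ (List.mem_cons_of_mem _ (List.mem_cons_of_mem _ (List.mem_cons_of_mem _ (List.mem_cons_of_mem _ (List.mem_cons_of_mem _ (List.mem_cons_self)))))))))))))))))))))))))))))))))))))))))), ?_⟩, by norm_num⟩
  constructor <;> norm_num [Q42, coCell, P2C10]

lemma lP2C10 : ∀ x1 x2 xc : ℝ, 0 ≤ x1 → x1 ≤ 1 → 0 ≤ x2 → x2 ≤ 1 → P2C10.l ≤ xc → xc ≤ P2C10.u →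
    (56283 / 2048 : ℝ) * (1 - (1 - x1) ^ 3) + (205 / 2048 : ℝ) * (1 - (1 - x2) ^ 3) - (12 : ℝ) * (1 - (1 - xc) ^ 3) + (1 / 1073741824 : ℝ)
      ≤ - P2C10.a1 * x1 - P2C10.a2 * x2 + P2C10.e * xc + P2C10.f := by
  have h := cell_lines_delta 3 (α1 := (56283 / 2048 : ℝ)) (α2 := (205 / 2048 : ℝ)) (c := (12 : ℝ)) (y1 := (42845 / 262144 : ℝ)) (y2 := (10229 / 32768 : ℝ))
    (A1 := (242003643 / 4194304 : ℝ)) (B1 := (16461745 / 8388608 : ℝ)) (A2 := (297951 / 2097152 : ℝ)) (B2 := (6220377 / 268435456 : ℝ)) (l := (16431 / 65536 : ℝ)) (u := (17417 / 65536 : ℝ))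
    (E := (-20770379 / 1048576 : ℝ)) (F := (-533048049 / 268435456 : ℝ)) (δ := (1 / 1073741824 : ℝ)) (by norm_num) (by norm_num) (by norm_num) (by norm_num) (by norm_num)
    (by norm_num) (by norm_num) (by norm_num) (by norm_num) (by norm_num) (by norm_num) (by norm_num) (by norm_num) (by norm_num) (by norm_num)
  have e1 : P2C10.l = (16431 / 65536 : ℝ) := rfl
  have e2 : P2C10.u = (17417 / 65536 : ℝ) := rfl
  have e3 : P2C10.a1 = -(242003643 / 4194304 : ℝ) := by norm_num [P2C10]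
  have e4 : P2C10.a2 = -(297951 / 2097152 : ℝ) := by norm_num [P2C10]
  have e5 : P2C10.e = (-20770379 / 1048576 : ℝ) := rfl
  have e6 : P2C10.f = (16461745 / 8388608 : ℝ) + (6220377 / 268435456 : ℝ) + (-533048049 / 268435456 : ℝ) + (1 / 1073741824 : ℝ) := by norm_num [P2C10]
  rw [e1, e2, e3, e4, e5, e6]
  exact h

lemma rP2C11 : ∃ N : ℝ, Rw4 P.r2 N (coCell (56283 / 2048 : ℝ) (205 / 2048 : ℝ) (12 : ℝ) 0 P2C11) := by
  refine ⟨(3221225472 : ℝ), ⟨Q43, List.mem_cons_of_mem _ (List.mem_cons_of_mem _ (List.mem_cons_of_mem _ (List.mem_cons_of_mem _ (List.mem_cons_of_mem _ (List.mem_cons_of_mem _ (List.mem_cons_of_mem _ (List.mem_cons_of_mem _ (List.mem_cons_of_mem _ (List.mem_cons_of_mem _ (List.mem_cons_of_mem _ (List.mem_cons_of_mem _ (List.mem_cons_of_mem _ (List.mem_cons_of_mem _ (List.mem_cons_of_mem _ (List.mem_cons_of_mem _ (List.mem_cons_of_mem _ (List.mem_cons_of_mem _ (List.mem_cons_of_mem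 _ (List.mem_cons_of_mem _ (List.mem_cons_of_mem _ (List.mem_cons_of_mem _ (List.mem_cons_of_mem _ (List.mem_cons_of_mem _ (List.mem_cons_of_mem _ (List.mem_cons_of_mem _ (List.mem_cons_of_mem _ (List.mem_cons_of_mem _ (List.mem_cons_of_mem _ (List.mem_cons_of_mem _ (List.mem_cons_of_mem _ (List.mem_cons_of_mem _ (List.mem_cons_of_mem _ (List.mem_cons_of_mem _ (List.mem_cons_of_mem _ (List.mem_cons_of_mem _ (List.mem_cons_of_mem _ (List.mem_cons_of_mem _ (List.mem_cons_of_mem _ (List.mem_cons_of_mem _ (List.mem_cons_of_mem _ (List.mem_cons_of_mem _ (List.mem_cons_of_mem _ (List.mem_cons_self))))))))))))))))))))))))))))))))))))))))))), ?_⟩, by norm_num⟩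
  constructor <;> norm_num [Q43, coCell, P2C11]

lemma lP2C11 : ∀ x1 x2 xc : ℝ, 0 ≤ x1 → x1 ≤ 1 → 0 ≤ x2 → x2 ≤ 1 → P2C11.l ≤ xc → xc ≤ P2C11.u →
    (56283 / 2048 : ℝ) * (1 - (1 - x1) ^ 3) + (205 / 2048 : ℝ) * (1 - (1 - x2) ^ 3) - (12 : ℝ) * (1 - (1 - xc) ^ 3) + (1 / 1073741824 : ℝ)
      ≤ - P2C11.a1 * x1 - P2C11.a2 * x2 + P2C11.e * xc + P2C11.f := by
  have h := cell_lines_delta 3 (α1 := (56283 / 2048 : ℝ)) (α2 := (205 / 2048 : ℝ)) (c := (12 : ℝ)) (y1 := (22593 / 131072 : ℝ)) (y2 := (81831 / 262144 : ℝ))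
    (A1 := (7402015 / 131072 : ℝ)) (B1 := (581998509 / 268435456 : ℝ)) (A2 := (148977 / 1048576 : ℝ)) (B2 := (1555063 / 67108864 : ℝ)) (l := (17417 / 65536 : ℝ)) (u := (9175 / 32768 : ℝ))
    (E := (-79833983 / 4194304 : ℝ)) (F := (-588284653 / 268435456 : ℝ)) (δ := (1 / 1073741824 : ℝ)) (by norm_num) (by norm_num) (by norm_num) (by norm_num) (by norm_num)
    (by norm_num) (by norm_num) (by norm_num) (by norm_num) (by norm_num) (by norm_num) (by norm_num) (by norm_num) (by norm_num) (by norm_num)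
  have e1 : P2C11.l = (17417 / 65536 : ℝ) := rfl
  have e2 : P2C11.u = (9175 / 32768 : ℝ) := rfl
  have e3 : P2C11.a1 = -(7402015 / 131072 : ℝ) := by norm_num [P2C11]
  have e4 : P2C11.a2 = -(148977 / 1048576 : ℝ) := by norm_num [P2C11]
  have e5 : P2C11.e = (-79833983 / 4194304 : ℝ) := rfl
  have e6 : P2C11.f = (581998509 / 268435456 : ℝ) + (1555063 / 67108864 : ℝ) + (-588284653 / 268435456 : ℝ) + (1 / 1073741824 : ℝ) := by norm_num [P2C11]
  rw [e1, e2, e3, e4, e5, e6]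
  exact h

/-- A link of the chain. -/
lemma link2 {lam : ℝ} (h0 : -(1 / 2) < lam) (h1 : lam < 1) (hB : BoxS lam P 0 HH 0 HH)
    (h : ∃ n, 1 - En 3 lam n mc ≤ (9175 / 32768 : ℝ)) : ∃ n, 1 - En 3 lam n mc ≤ (9175 / 65536 : ℝ) :=
  phase_of_box (by norm_num) h0 h1 hB (56283 / 2048 : ℝ) (205 / 2048 : ℝ) (12 : ℝ) (1 / 1073741824 : ℝ) (9175 / 65536 : ℝ) (9175 / 32768 : ℝ) (by norm_num) cellsP2 hcoverP2
    (forall_cons lP2C0 (forall_cons lP2C1 (forall_cons lP2C2 (forall_cons lP2C3 (forall_cons lP2C4 (forall_cons lP2C5 (forall_cons lP2C6 (forall_cons lP2C7 (forall_cons lP2C8 (forall_cons lP2C9 (forall_cons lP2C10 (forall_cons lP2C11 (forall_nil))))))))))))) (forall_cons rP2C0 (forall_cons rP2C1 (forall_cons rP2C2 (forall_cons rP2C3 (forall_cons rP2C4 (forall_cons rP2C5 (forall_cons rP2C6 (forall_cons rP2C7 (forall_cons rP2C8 (forall_cons rP2C9 (forall_cons rP2C10 (forall_cons rP2C11 (forall_nil)))))))))))))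 h

/-- A chord cell of a link. -/
noncomputable def P3C0 : Cell := ⟨(9175 / 32768 : ℝ), (19451 / 65536 : ℝ), (-128683779 / 2097152 : ℝ), (0 : ℝ), (-19115955 / 1048576 : ℝ), (-167239 / 1073741824 : ℝ)⟩

/-- A chord cell of a link. -/
noncomputable def P3C1 : Cell := ⟨(19451 / 65536 : ℝ), (82473 / 262144 : ℝ), (-251285241 / 4194304 : ℝ), (0 : ℝ), (-72790617 / 4194304 : ℝ), (-244823 / 1073741824 : ℝ)⟩

/-- A chord cell of a link. -/
noncomputable def P3C2 : Cell := ⟨(82473 / 262144 : ℝ), (87421 / 262144 : ℝ), (-61244069 / 1048576 : ℝ), (0 : ℝ), (-2156123 / 131072 : ℝ), (-209535 / 1073741824 : ℝ)⟩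

/-- A chord cell of a link. -/
noncomputable def P3C3 : Cell := ⟨(87421 / 262144 : ℝ), (46333 / 131072 : ℝ), (-59611893 / 1048576 : ℝ), (0 : ℝ), (-32542465 / 2097152 : ℝ), (-152455 / 1073741824 : ℝ)⟩

/-- A chord cell of a link. -/
noncomputable def P3C4 : Cell := ⟨(46333 / 131072 : ℝ), (49113 / 131072 : ℝ), (-7240839 / 131072 : ℝ), (0 : ℝ), (-7632971 / 524288 : ℝ), (-167043 / 1073741824 : ℝ)⟩

/-- A chord cell of a link. -/
noncomputable def P3C5 : Cell := ⟨(49113 / 131072 : ℝ), (13015 / 32768 : ℝ), (-224762661 / 4194304 : ℝ), (0 : ℝ), (-56941167 / 4194304 : ℝ), (-193431 / 1073741824 : ℝ)⟩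

/-- A chord cell of a link. -/
noncomputable def P3C6 : Cell := ⟨(13015 / 32768 : ℝ), (110367 / 262144 : ℝ), (-108814405 / 2097152 : ℝ), (0 : ℝ), (-52728699 / 4194304 : ℝ), (-215583 / 1073741824 : ℝ)⟩

/-- A chord cell of a link. -/
noncomputable def P3C7 : Cell := ⟨(110367 / 262144 : ℝ), (116989 / 262144 : ℝ), (-26290499 / 524288 : ℝ), (0 : ℝ), (-48440495 / 4194304 : ℝ), (-279035 / 1073741824 : ℝ)⟩

/-- A chord cell of a link. -/
noncomputable def P3C8 : Cell := ⟨(116989 / 262144 : ℝ), (15501 / 32768 : ℝ), (-101433599 / 2097152 : ℝ), (0 : ℝ), (-44093745 / 4194304 : ℝ), (-141019 / 1073741824 : ℝ)⟩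

/-- A chord cell of a link. -/
noncomputable def P3C9 : Cell := ⟨(15501 / 32768 : ℝ), (131449 / 262144 : ℝ), (-97646091 / 2097152 : ℝ), (0 : ℝ), (-39709293 / 4194304 : ℝ), (-149227 / 1073741824 : ℝ)⟩

/-- A chord cell of a link. -/
noncomputable def P3C10 : Cell := ⟨(131449 / 262144 : ℝ), (17417 / 32768 : ℝ), (-23867455 / 524288 : ℝ), (0 : ℝ), (-17656267 / 2097152 : ℝ), (-247265907 / 1073741824 : ℝ)⟩

/-- A chord cell of a link. -/
noncomputable def P3C11 : Cell := ⟨(17417 / 32768 : ℝ), (144179 / 262144 : ℝ), (-188605633 / 4194304 : ℝ), (0 : ℝ), (-15924533 / 2097152 : ℝ), (-544685111 / 1073741824 : ℝ)⟩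

/-- The chord cells of a link. -/
noncomputable def cellsP3 : List Cell := [P3C0, P3C1, P3C2, P3C3, P3C4, P3C5, P3C6, P3C7, P3C8, P3C9, P3C10, P3C11]

lemma hcoverP3 : ∀ x : ℝ, (9175 / 32768 : ℝ) ≤ x → x ≤ (144179 / 262144 : ℝ) → ∃ D ∈ cellsP3, D.l ≤ x ∧ x ≤ D.u := by
  refine cover_of_chain ?_ (by norm_num [P3C0])
  simp only [ChainP, P3C0, P3C1, P3C2, P3C3, P3C4, P3C5, P3C6, P3C7, P3C8, P3C9, P3C10, P3C11]
  norm_num

lemma rP3C0 : ∃ N : ℝ, Rw4 P.r2 N (coCell (30 : ℝ) (0 : ℝ) (12 : ℝ) 0 P3C0) := by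
  refine ⟨(1073741824 : ℝ), ⟨Q44, List.mem_cons_of_mem _ (List.mem_cons_of_mem _ (List.mem_cons_of_mem _ (List.mem_cons_of_mem _ (List.mem_cons_of_mem _ (List.mem_cons_of_mem _ (List.mem_cons_of_mem _ (List.mem_cons_of_mem _ (List.mem_cons_of_mem _ (List.mem_cons_of_mem _ (List.mem_cons_of_mem _ (List.mem_cons_of_mem _ (List.mem_cons_of_mem _ (List.mem_cons_of_mem _ (List.mem_cons_of_mem _ (List.mem_cons_of_mem _ (List.mem_cons_of_mem _ (List.mem_cons_of_mem _ (List.mem_cons_of_mem _ (List.mem_cons_of_mem _ (List.mem_cons_of_mem _ (List.mem_cons_of_mem _ (List.mem_cons_of_mem _ (List.mem_cons_of_mem _ (List.mem_cons_of_mem _ (List.mem_cons_of_mem _ (List.mem_cons_of_mem _ (List.mem_cons_of_mem _ (List.mem_cons_of_mem _ (List.mem_cons_of_mem _ (List.mem_cons_of_mem _ (List.mem_cons_of_mem _ (List.mem_cons_of_mem _ (List.mem_cons_of_mem _ (List.mem_cons_of_mem _ (List.mem_cons_of_mem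 _ (List.mem_cons_of_mem _ (List.mem_cons_of_mem _ (List.mem_cons_of_mem _ (List.mem_cons_of_mem _ (List.mem_cons_of_mem _ (List.mem_cons_of_mem _ (List.mem_cons_of_mem _ (List.mem_cons_of_mem _ (List.mem_cons_self)))))))))))))))))))))))))))))))))))))))))))), ?_⟩, by norm_num⟩
  constructor <;> norm_num [Q44, coCell, P3C0]

lemma lP3C0 : ∀ x1 x2 xc : ℝ, 0 ≤ x1 → x1 ≤ 1 → 0 ≤ x2 → x2 ≤ 1 → P3C0.l ≤ xc → xc ≤ P3C0.u →
    (30 : ℝ) * (1 - (1 - x1) ^ 3) + (0 : ℝ) * (1 - (1 - x2) ^ 3) - (12 : ℝ) * (1 - (1 - xc) ^ 3) + (1 / 1073741824 : ℝ)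
      ≤ - P3C0.a1 * x1 - P3C0.a2 * x2 + P3C0.e * xc + P3C0.f := by
  have h := cell_lines_delta 3 (α1 := (30 : ℝ)) (α2 := (0 : ℝ)) (c := (12 : ℝ)) (y1 := (22845 / 131072 : ℝ)) (y2 := (2317 / 32768 : ℝ))
    (A1 := (128683779 / 2097152 : ℝ)) (B1 := (162158975 / 67108864 : ℝ)) (A2 := (0 : ℝ)) (B2 := (0 : ℝ)) (l := (9175 / 32768 : ℝ)) (u := (19451 / 65536 : ℝ))
    (E := (-19115955 / 1048576 : ℝ)) (F := (-324338855 / 134217728 : ℝ)) (δ := (1 / 1073741824 : ℝ)) (by norm_num) (by norm_num) (by norm_num) (by norm_num) (by norm_num)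
    (by norm_num) (by norm_num) (by norm_num) (by norm_num) (by norm_num) (by norm_num) (by norm_num) (by norm_num) (by norm_num) (by norm_num)
  have e1 : P3C0.l = (9175 / 32768 : ℝ) := rfl
  have e2 : P3C0.u = (19451 / 65536 : ℝ) := rfl
  have e3 : P3C0.a1 = -(128683779 / 2097152 : ℝ) := by norm_num [P3C0]
  have e4 : P3C0.a2 = -(0 : ℝ) := by norm_num [P3C0]
  have e5 : P3C0.e = (-19115955 / 1048576 : ℝ) := rfl
  have e6 : P3C0.f = (162158975 / 67108864 : ℝ) + (0 : ℝ) + (-324338855 / 134217728 : ℝ) + (1 / 1073741824 : ℝ) := by norm_num [P3C0]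
  rw [e1, e2, e3, e4, e5, e6]
  exact h

lemma rP3C1 : ∃ N : ℝ, Rw4 P.r2 N (coCell (30 : ℝ) (0 : ℝ) (12 : ℝ) 0 P3C1) := by
  refine ⟨(1073741824 : ℝ), ⟨Q45, List.mem_cons_of_mem _ (List.mem_cons_of_mem _ (List.mem_cons_of_mem _ (List.mem_cons_of_mem _ (List.mem_cons_of_mem _ (List.mem_cons_of_mem _ (List.mem_cons_of_mem _ (List.mem_cons_of_mem _ (List.mem_cons_of_mem _ (List.mem_cons_of_mem _ (List.mem_cons_of_mem _ (List.mem_cons_of_mem _ (List.mem_cons_of_mem _ (List.mem_cons_of_mem _ (List.mem_cons_of_mem _ (List.mem_cons_of_mem _ (List.mem_cons_of_mem _ (List.mem_cons_of_mem _ (List.mem_cons_of_mem _ (List.mem_cons_of_mem _ (List.mem_cons_of_mem _ (List.mem_cons_of_mem _ (List.mem_cons_of_mem _ (List.mem_cons_of_mem _ (List.mem_cons_of_mem _ (List.mem_cons_of_mem _ (List.mem_cons_of_mem _ (List.mem_cons_of_mem _ (List.mem_cons_of_mem _ (List.mem_cons_of_mem _ (List.mem_cons_of_mem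 _ (List.mem_cons_of_mem _ (List.mem_cons_of_mem _ (List.mem_cons_of_mem _ (List.mem_cons_of_mem _ (List.mem_cons_of_mem _ (List.mem_cons_of_mem _ (List.mem_cons_of_mem _ (List.mem_cons_of_mem _ (List.mem_cons_of_mem _ (List.mem_cons_of_mem _ (List.mem_cons_of_mem _ (List.mem_cons_of_mem _ (List.mem_cons_of_mem _ (List.mem_cons_of_mem _ (List.mem_cons_self))))))))))))))))))))))))))))))))))))))))))))), ?_⟩, by norm_num⟩
  constructor <;> norm_num [Q45, coCell, P3C1]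

lemma lP3C1 : ∀ x1 x2 xc : ℝ, 0 ≤ x1 → x1 ≤ 1 → 0 ≤ x2 → x2 ≤ 1 → P3C1.l ≤ xc → xc ≤ P3C1.u →
    (30 : ℝ) * (1 - (1 - x1) ^ 3) + (0 : ℝ) * (1 - (1 - x2) ^ 3) - (12 : ℝ) * (1 - (1 - xc) ^ 3) + (1 / 1073741824 : ℝ)
      ≤ - P3C1.a1 * x1 - P3C1.a2 * x2 + P3C1.e * xc + P3C1.f := by
  have h := cell_lines_delta 3 (α1 := (30 : ℝ)) (α2 := (0 : ℝ)) (c := (12 : ℝ)) (y1 := (48263 / 262144 : ℝ)) (y2 := (2477 / 32768 : ℝ))
    (A1 := (251285241 / 4194304 : ℝ)) (B1 := (359194713 / 134217728 : ℝ)) (A2 := (0 : ℝ)) (B2 := (0 : ℝ)) (l := (19451 / 65536 : ℝ)) (u := (82473 / 262144 : ℝ))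
    (E := (-72790617 / 4194304 : ℝ)) (F := (-89806329 / 33554432 : ℝ)) (δ := (1 / 1073741824 : ℝ)) (by norm_num) (by norm_num) (by norm_num) (by norm_num) (by norm_num)
    (by norm_num) (by norm_num) (by norm_num) (by norm_num) (by norm_num) (by norm_num) (by norm_num) (by norm_num) (by norm_num) (by norm_num)
  have e1 : P3C1.l = (19451 / 65536 : ℝ) := rfl
  have e2 : P3C1.u = (82473 / 262144 : ℝ) := rfl
  have e3 : P3C1.a1 = -(251285241 / 4194304 : ℝ) := by norm_num [P3C1]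
  have e4 : P3C1.a2 = -(0 : ℝ) := by norm_num [P3C1]
  have e5 : P3C1.e = (-72790617 / 4194304 : ℝ) := rfl
  have e6 : P3C1.f = (359194713 / 134217728 : ℝ) + (0 : ℝ) + (-89806329 / 33554432 : ℝ) + (1 / 1073741824 : ℝ) := by norm_num [P3C1]
  rw [e1, e2, e3, e4, e5, e6]
  exact h

lemma rP3C2 : ∃ N : ℝ, Rw4 P.r2 N (coCell (30 : ℝ) (0 : ℝ) (12 : ℝ) 0 P3C2) := by
  refine ⟨(3221225472 : ℝ), ⟨Q46, List.mem_cons_of_mem _ (List.mem_cons_of_mem _ (List.mem_cons_of_mem _ (List.mem_cons_of_mem _ (List.mem_cons_of_mem _ (List.mem_cons_of_mem _ (List.mem_cons_of_mem _ (List.mem_cons_of_mem _ (List.mem_cons_of_mem _ (List.mem_cons_of_mem _ (List.mem_cons_of_mem _ (List.mem_cons_of_mem _ (List.mem_cons_of_mem _ (List.mem_cons_of_mem _ (List.mem_cons_of_mem _ (List.mem_cons_of_mem _ (List.mem_cons_of_mem _ (List.mem_cons_of_mem _ (List.mem_cons_of_mem _ (List.mem_cons_of_mem _ (List.mem_cons_of_mem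 _ (List.mem_cons_of_mem _ (List.mem_cons_of_mem _ (List.mem_cons_of_mem _ (List.mem_cons_of_mem _ (List.mem_cons_of_mem _ (List.mem_cons_of_mem _ (List.mem_cons_of_mem _ (List.mem_cons_of_mem _ (List.mem_cons_of_mem _ (List.mem_cons_of_mem _ (List.mem_cons_of_mem _ (List.mem_cons_of_mem _ (List.mem_cons_of_mem _ (List.mem_cons_of_mem _ (List.mem_cons_of_mem _ (List.mem_cons_of_mem _ (List.mem_cons_of_mem _ (List.mem_cons_of_mem _ (List.mem_cons_of_mem _ (List.mem_cons_of_mem _ (List.mem_cons_of_mem _ (List.mem_cons_of_mem _ (List.mem_cons_of_mem _ (List.mem_cons_of_mem _ (List.mem_cons_of_mem _ (List.mem_cons_self)))))))))))))))))))))))))))))))))))))))))))))), ?_⟩, by norm_num⟩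
  constructor <;> norm_num [Q46, coCell, P3C2]

lemma lP3C2 : ∀ x1 x2 xc : ℝ, 0 ≤ x1 → x1 ≤ 1 → 0 ≤ x2 → x2 ≤ 1 → P3C2.l ≤ xc → xc ≤ P3C2.u →
    (30 : ℝ) * (1 - (1 - x1) ^ 3) + (0 : ℝ) * (1 - (1 - x2) ^ 3) - (12 : ℝ) * (1 - (1 - xc) ^ 3) + (1 / 1073741824 : ℝ)
      ≤ - P3C2.a1 * x1 - P3C2.a2 * x2 + P3C2.e * xc + P3C2.f := by
  have h := cell_lines_delta 3 (α1 := (30 : ℝ)) (α2 := (0 : ℝ)) (c := (12 : ℝ)) (y1 := (50965 / 262144 : ℝ)) (y2 := (21199 / 262144 : ℝ))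
    (A1 := (61244069 / 1048576 : ℝ)) (B1 := (794804187 / 268435456 : ℝ)) (A2 := (0 : ℝ)) (B2 := (0 : ℝ)) (l := (82473 / 262144 : ℝ)) (u := (87421 / 262144 : ℝ))
    (E := (-2156123 / 131072 : ℝ)) (F := (-794856571 / 268435456 : ℝ)) (δ := (1 / 1073741824 : ℝ)) (by norm_num) (by norm_num) (by norm_num) (by norm_num) (by norm_num)
    (by norm_num) (by norm_num) (by norm_num) (by norm_num) (by norm_num) (by norm_num) (by norm_num) (by norm_num) (by norm_num) (by norm_num)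
  have e1 : P3C2.l = (82473 / 262144 : ℝ) := rfl
  have e2 : P3C2.u = (87421 / 262144 : ℝ) := rfl
  have e3 : P3C2.a1 = -(61244069 / 1048576 : ℝ) := by norm_num [P3C2]
  have e4 : P3C2.a2 = -(0 : ℝ) := by norm_num [P3C2]
  have e5 : P3C2.e = (-2156123 / 131072 : ℝ) := rfl
  have e6 : P3C2.f = (794804187 / 268435456 : ℝ) + (0 : ℝ) + (-794856571 / 268435456 : ℝ) + (1 / 1073741824 : ℝ) := by norm_num [P3C2]
  rw [e1, e2, e3, e4, e5, e6]
  exact h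

lemma rP3C3 : ∃ N : ℝ, Rw4 P.r2 N (coCell (30 : ℝ) (0 : ℝ) (12 : ℝ) 0 P3C3) := by
  refine ⟨(3221225472 : ℝ), ⟨Q47, List.mem_cons_of_mem _ (List.mem_cons_of_mem _ (List.mem_cons_of_mem _ (List.mem_cons_of_mem _ (List.mem_cons_of_mem _ (List.mem_cons_of_mem _ (List.mem_cons_of_mem _ (List.mem_cons_of_mem _ (List.mem_cons_of_mem _ (List.mem_cons_of_mem _ (List.mem_cons_of_mem _ (List.mem_cons_of_mem _ (List.mem_cons_of_mem _ (List.mem_cons_of_mem _ (List.mem_cons_of_mem _ (List.mem_cons_of_mem _ (List.mem_cons_of_mem _ (List.mem_cons_of_mem _ (List.mem_cons_of_mem _ (List.mem_cons_of_mem _ (List.mem_cons_of_mem _ (List.mem_cons_of_mem _ (List.mem_cons_of_mem _ (List.mem_cons_of_mem _ (List.mem_cons_of_mem _ (List.mem_cons_of_mem _ (List.mem_cons_of_mem _ (List.mem_cons_of_mem _ (List.mem_cons_of_mem _ (List.mem_cons_of_mem _ (List.mem_cons_of_mem _ (List.mem_cons_of_mem _ (List.mem_cons_of_mem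 _ (List.mem_cons_of_mem _ (List.mem_cons_of_mem _ (List.mem_cons_of_mem _ (List.mem_cons_of_mem _ (List.mem_cons_of_mem _ (List.mem_cons_of_mem _ (List.mem_cons_of_mem _ (List.mem_cons_of_mem _ (List.mem_cons_of_mem _ (List.mem_cons_of_mem _ (List.mem_cons_of_mem _ (List.mem_cons_of_mem _ (List.mem_cons_of_mem _ (List.mem_cons_of_mem _ (List.mem_cons_self))))))))))))))))))))))))))))))))))))))))))))))), ?_⟩, by norm_num⟩
  constructor <;> norm_num [Q47, coCell, P3C3]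

lemma lP3C3 : ∀ x1 x2 xc : ℝ, 0 ≤ x1 → x1 ≤ 1 → 0 ≤ x2 → x2 ≤ 1 → P3C3.l ≤ xc → xc ≤ P3C3.u →
    (30 : ℝ) * (1 - (1 - x1) ^ 3) + (0 : ℝ) * (1 - (1 - x2) ^ 3) - (12 : ℝ) * (1 - (1 - xc) ^ 3) + (1 / 1073741824 : ℝ)
      ≤ - P3C3.a1 * x1 - P3C3.a2 * x2 + P3C3.e * xc + P3C3.f := by
  have h := cell_lines_delta 3 (α1 := (30 : ℝ)) (α2 := (0 : ℝ)) (c := (12 : ℝ)) (y1 := (26899 / 131072 : ℝ)) (y2 := (2837 / 32768 : ℝ))
    (A1 := (59611893 / 1048576 : ℝ)) (B1 := (439145563 / 134217728 : ℝ)) (A2 := (0 : ℝ)) (B2 := (0 : ℝ)) (l := (87421 / 262144 : ℝ)) (u := (46333 / 131072 : ℝ))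
    (E := (-32542465 / 2097152 : ℝ)) (F := (-109791155 / 33554432 : ℝ)) (δ := (1 / 1073741824 : ℝ)) (by norm_num) (by norm_num) (by norm_num) (by norm_num) (by norm_num)
    (by norm_num) (by norm_num) (by norm_num) (by norm_num) (by norm_num) (by norm_num) (by norm_num) (by norm_num) (by norm_num) (by norm_num)
  have e1 : P3C3.l = (87421 / 262144 : ℝ) := rfl
  have e2 : P3C3.u = (46333 / 131072 : ℝ) := rfl
  have e3 : P3C3.a1 = -(59611893 / 1048576 : ℝ) := by norm_num [P3C3]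
  have e4 : P3C3.a2 = -(0 : ℝ) := by norm_num [P3C3]
  have e5 : P3C3.e = (-32542465 / 2097152 : ℝ) := rfl
  have e6 : P3C3.f = (439145563 / 134217728 : ℝ) + (0 : ℝ) + (-109791155 / 33554432 : ℝ) + (1 / 1073741824 : ℝ) := by norm_num [P3C3]
  rw [e1, e2, e3, e4, e5, e6]
  exact h

lemma rP3C4 : ∃ N : ℝ, Rw4 P.r2 N (coCell (30 : ℝ) (0 : ℝ) (12 : ℝ) 0 P3C4) := by
  refine ⟨(3221225472 : ℝ), ⟨Q48, List.mem_cons_of_mem _ (List.mem_cons_of_mem _ (List.mem_cons_of_mem _ (List.mem_cons_of_mem _ (List.mem_cons_of_mem _ (List.mem_cons_of_mem _ (List.mem_cons_of_mem _ (List.mem_cons_of_mem _ (List.mem_cons_of_mem _ (List.mem_cons_of_mem _ (List.mem_cons_of_mem _ (List.mem_cons_of_mem _ (List.mem_cons_of_mem _ (List.mem_cons_of_mem _ (List.mem_cons_of_mem _ (List.mem_cons_of_mem _ (List.mem_cons_of_mem _ (List.mem_cons_of_mem _ (List.mem_cons_of_mem _ (List.mem_cons_of_mem _ (List.mem_cons_of_mem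 _ (List.mem_cons_of_mem _ (List.mem_cons_of_mem _ (List.mem_cons_of_mem _ (List.mem_cons_of_mem _ (List.mem_cons_of_mem _ (List.mem_cons_of_mem _ (List.mem_cons_of_mem _ (List.mem_cons_of_mem _ (List.mem_cons_of_mem _ (List.mem_cons_of_mem _ (List.mem_cons_of_mem _ (List.mem_cons_of_mem _ (List.mem_cons_of_mem _ (List.mem_cons_of_mem _ (List.mem_cons_of_mem _ (List.mem_cons_of_mem _ (List.mem_cons_of_mem _ (List.mem_cons_of_mem _ (List.mem_cons_of_mem _ (List.mem_cons_of_mem _ (List.mem_cons_of_mem _ (List.mem_cons_of_mem _ (List.mem_cons_of_mem _ (List.mem_cons_of_mem _ (List.mem_cons_of_mem _ (List.mem_cons_of_mem _ (List.mem_cons_of_mem _ (List.mem_cons_self)))))))))))))))))))))))))))))))))))))))))))))))), ?_⟩, by norm_num⟩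
  constructor <;> norm_num [Q48, coCell, P3C4]

lemma lP3C4 : ∀ x1 x2 xc : ℝ, 0 ≤ x1 → x1 ≤ 1 → 0 ≤ x2 → x2 ≤ 1 → P3C4.l ≤ xc → xc ≤ P3C4.u →
    (30 : ℝ) * (1 - (1 - x1) ^ 3) + (0 : ℝ) * (1 - (1 - x2) ^ 3) - (12 : ℝ) * (1 - (1 - xc) ^ 3) + (1 / 1073741824 : ℝ)
      ≤ - P3C4.a1 * x1 - P3C4.a2 * x2 + P3C4.e * xc + P3C4.f := by
  have h := cell_lines_delta 3 (α1 := (30 : ℝ)) (α2 := (0 : ℝ)) (c := (12 : ℝ)) (y1 := (14191 / 65536 : ℝ)) (y2 := (24319 / 262144 : ℝ))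
    (A1 := (7240839 / 131072 : ℝ)) (B1 := (969260379 / 268435456 : ℝ)) (A2 := (0 : ℝ)) (B2 := (0 : ℝ)) (l := (46333 / 131072 : ℝ)) (u := (49113 / 131072 : ℝ))
    (E := (-7632971 / 524288 : ℝ)) (F := (-242325535 / 67108864 : ℝ)) (δ := (1 / 1073741824 : ℝ)) (by norm_num) (by norm_num) (by norm_num) (by norm_num) (by norm_num)
    (by norm_num) (by norm_num) (by norm_num) (by norm_num) (by norm_num) (by norm_num) (by norm_num) (by norm_num) (by norm_num) (by norm_num)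
  have e1 : P3C4.l = (46333 / 131072 : ℝ) := rfl
  have e2 : P3C4.u = (49113 / 131072 : ℝ) := rfl
  have e3 : P3C4.a1 = -(7240839 / 131072 : ℝ) := by norm_num [P3C4]
  have e4 : P3C4.a2 = -(0 : ℝ) := by norm_num [P3C4]
  have e5 : P3C4.e = (-7632971 / 524288 : ℝ) := rfl
  have e6 : P3C4.f = (969260379 / 268435456 : ℝ) + (0 : ℝ) + (-242325535 / 67108864 : ℝ) + (1 / 1073741824 : ℝ) := by norm_num [P3C4]
  rw [e1, e2, e3, e4, e5, e6]
  exact h

lemma rP3C5 : ∃ N : ℝ, Rw4 P.r2 N (coCell (30 : ℝ) (0 : ℝ) (12 : ℝ) 0 P3C5) := by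
  refine ⟨(1073741824 : ℝ), ⟨Q49, List.mem_cons_of_mem _ (List.mem_cons_of_mem _ (List.mem_cons_of_mem _ (List.mem_cons_of_mem _ (List.mem_cons_of_mem _ (List.mem_cons_of_mem _ (List.mem_cons_of_mem _ (List.mem_cons_of_mem _ (List.mem_cons_of_mem _ (List.mem_cons_of_mem _ (List.mem_cons_of_mem _ (List.mem_cons_of_mem _ (List.mem_cons_of_mem _ (List.mem_cons_of_mem _ (List.mem_cons_of_mem _ (List.mem_cons_of_mem _ (List.mem_cons_of_mem _ (List.mem_cons_of_mem _ (List.mem_cons_of_mem _ (List.mem_cons_of_mem _ (List.mem_cons_of_mem _ (List.mem_cons_of_mem _ (List.mem_cons_of_mem _ (List.mem_cons_of_mem _ (List.mem_cons_of_mem _ (List.mem_cons_of_mem _ (List.mem_cons_of_mem _ (List.mem_cons_of_mem _ (List.mem_cons_of_mem _ (List.mem_cons_of_mem _ (List.mem_cons_of_mem _ (List.mem_cons_of_mem _ (List.mem_cons_of_mem _ (List.mem_cons_of_mem _ (List.mem_cons_of_mem _ (List.mem_cons_of_mem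 _ (List.mem_cons_of_mem _ (List.mem_cons_of_mem _ (List.mem_cons_of_mem _ (List.mem_cons_of_mem _ (List.mem_cons_of_mem _ (List.mem_cons_of_mem _ (List.mem_cons_of_mem _ (List.mem_cons_of_mem _ (List.mem_cons_of_mem _ (List.mem_cons_of_mem _ (List.mem_cons_of_mem _ (List.mem_cons_of_mem _ (List.mem_cons_of_mem _ (List.mem_cons_self))))))))))))))))))))))))))))))))))))))))))))))))), ?_⟩, by norm_num⟩
  constructor <;> norm_num [Q49, coCell, P3C5]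

lemma lP3C5 : ∀ x1 x2 xc : ℝ, 0 ≤ x1 → x1 ≤ 1 → 0 ≤ x2 → x2 ≤ 1 → P3C5.l ≤ xc → xc ≤ P3C5.u →
    (30 : ℝ) * (1 - (1 - x1) ^ 3) + (0 : ℝ) * (1 - (1 - x2) ^ 3) - (12 : ℝ) * (1 - (1 - xc) ^ 3) + (1 / 1073741824 : ℝ)
      ≤ - P3C5.a1 * x1 - P3C5.a2 * x2 + P3C5.e * xc + P3C5.f := by
  have h := cell_lines_delta 3 (α1 := (30 : ℝ)) (α2 := (0 : ℝ)) (c := (12 : ℝ)) (y1 := (59865 / 262144 : ℝ)) (y2 := (26083 / 262144 : ℝ))
    (A1 := (224762661 / 4194304 : ℝ)) (B1 := (267029425 / 67108864 : ℝ)) (A2 := (0 : ℝ)) (B2 := (0 : ℝ)) (l := (49113 / 131072 : ℝ)) (u := (13015 / 32768 : ℝ))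
    (E := (-56941167 / 4194304 : ℝ)) (F := (-534083029 / 134217728 : ℝ)) (δ := (1 / 1073741824 : ℝ)) (by norm_num) (by norm_num) (by norm_num) (by norm_num) (by norm_num)
    (by norm_num) (by norm_num) (by norm_num) (by norm_num) (by norm_num) (by norm_num) (by norm_num) (by norm_num) (by norm_num) (by norm_num)
  have e1 : P3C5.l = (49113 / 131072 : ℝ) := rfl
  have e2 : P3C5.u = (13015 / 32768 : ℝ) := rfl
  have e3 : P3C5.a1 = -(224762661 / 4194304 : ℝ) := by norm_num [P3C5]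
  have e4 : P3C5.a2 = -(0 : ℝ) := by norm_num [P3C5]
  have e5 : P3C5.e = (-56941167 / 4194304 : ℝ) := rfl
  have e6 : P3C5.f = (267029425 / 67108864 : ℝ) + (0 : ℝ) + (-534083029 / 134217728 : ℝ) + (1 / 1073741824 : ℝ) := by norm_num [P3C5]
  rw [e1, e2, e3, e4, e5, e6]
  exact h

lemma rP3C6 : ∃ N : ℝ, Rw4 P.r2 N (coCell (30 : ℝ) (0 : ℝ) (12 : ℝ) 0 P3C6) := by
  refine ⟨(3221225472 : ℝ), ⟨Q50, List.mem_cons_of_mem _ (List.mem_cons_of_mem _ (List.mem_cons_of_mem _ (List.mem_cons_of_mem _ (List.mem_cons_of_mem _ (List.mem_cons_of_mem _ (List.mem_cons_of_mem _ (List.mem_cons_of_mem _ (List.mem_cons_of_mem _ (List.mem_cons_of_mem _ (List.mem_cons_of_mem _ (List.mem_cons_of_mem _ (List.mem_cons_of_mem _ (List.mem_cons_of_mem _ (List.mem_cons_of_mem _ (List.mem_cons_of_mem _ (List.mem_cons_of_mem _ (List.mem_cons_of_mem _ (List.mem_cons_of_mem _ (List.mem_cons_of_mem _ (List.mem_cons_of_mem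 _ (List.mem_cons_of_mem _ (List.mem_cons_of_mem _ (List.mem_cons_of_mem _ (List.mem_cons_of_mem _ (List.mem_cons_of_mem _ (List.mem_cons_of_mem _ (List.mem_cons_of_mem _ (List.mem_cons_of_mem _ (List.mem_cons_of_mem _ (List.mem_cons_of_mem _ (List.mem_cons_of_mem _ (List.mem_cons_of_mem _ (List.mem_cons_of_mem _ (List.mem_cons_of_mem _ (List.mem_cons_of_mem _ (List.mem_cons_of_mem _ (List.mem_cons_of_mem _ (List.mem_cons_of_mem _ (List.mem_cons_of_mem _ (List.mem_cons_of_mem _ (List.mem_cons_of_mem _ (List.mem_cons_of_mem _ (List.mem_cons_of_mem _ (List.mem_cons_of_mem _ (List.mem_cons_of_mem _ (List.mem_cons_of_mem _ (List.mem_cons_of_mem _ (List.mem_cons_of_mem _ (List.mem_cons_of_mem _ (List.mem_cons_self)))))))))))))))))))))))))))))))))))))))))))))))))), ?_⟩, by norm_num⟩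
  constructor <;> norm_num [Q50, coCell, P3C6]

lemma lP3C6 : ∀ x1 x2 xc : ℝ, 0 ≤ x1 → x1 ≤ 1 → 0 ≤ x2 → x2 ≤ 1 → P3C6.l ≤ xc → xc ≤ P3C6.u →
    (30 : ℝ) * (1 - (1 - x1) ^ 3) + (0 : ℝ) * (1 - (1 - x2) ^ 3) - (12 : ℝ) * (1 - (1 - xc) ^ 3) + (1 / 1073741824 : ℝ)
      ≤ - P3C6.a1 * x1 - P3C6.a2 * x2 + P3C6.e * xc + P3C6.f := by
  have h := cell_lines_delta 3 (α1 := (30 : ℝ)) (α2 := (0 : ℝ)) (c := (12 : ℝ)) (y1 := (63101 / 262144 : ℝ)) (y2 := (7001 / 65536 : ℝ))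
    (A1 := (108814405 / 2097152 : ℝ)) (B1 := (1175192769 / 268435456 : ℝ)) (A2 := (0 : ℝ)) (B2 := (0 : ℝ)) (l := (13015 / 32768 : ℝ)) (u := (110367 / 262144 : ℝ))
    (E := (-52728699 / 4194304 : ℝ)) (F := (-1175246665 / 268435456 : ℝ)) (δ := (1 / 1073741824 : ℝ)) (by norm_num) (by norm_num) (by norm_num) (by norm_num) (by norm_num)
    (by norm_num) (by norm_num) (by norm_num) (by norm_num) (by norm_num) (by norm_num) (by norm_num) (by norm_num) (by norm_num) (by norm_num)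
  have e1 : P3C6.l = (13015 / 32768 : ℝ) := rfl
  have e2 : P3C6.u = (110367 / 262144 : ℝ) := rfl
  have e3 : P3C6.a1 = -(108814405 / 2097152 : ℝ) := by norm_num [P3C6]
  have e4 : P3C6.a2 = -(0 : ℝ) := by norm_num [P3C6]
  have e5 : P3C6.e = (-52728699 / 4194304 : ℝ) := rfl
  have e6 : P3C6.f = (1175192769 / 268435456 : ℝ) + (0 : ℝ) + (-1175246665 / 268435456 : ℝ) + (1 / 1073741824 : ℝ) := by norm_num [P3C6]
  rw [e1, e2, e3, e4, e5, e6]
  exact h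

lemma rP3C7 : ∃ N : ℝ, Rw4 P.r2 N (coCell (30 : ℝ) (0 : ℝ) (12 : ℝ) 0 P3C7) := by
  refine ⟨(3221225472 : ℝ), ⟨Q51, List.mem_cons_of_mem _ (List.mem_cons_of_mem _ (List.mem_cons_of_mem _ (List.mem_cons_of_mem _ (List.mem_cons_of_mem _ (List.mem_cons_of_mem _ (List.mem_cons_of_mem _ (List.mem_cons_of_mem _ (List.mem_cons_of_mem _ (List.mem_cons_of_mem _ (List.mem_cons_of_mem _ (List.mem_cons_of_mem _ (List.mem_cons_of_mem _ (List.mem_cons_of_mem _ (List.mem_cons_of_mem _ (List.mem_cons_of_mem _ (List.mem_cons_of_mem _ (List.mem_cons_of_mem _ (List.mem_cons_of_mem _ (List.mem_cons_of_mem _ (List.mem_cons_of_mem _ (List.mem_cons_of_mem _ (List.mem_cons_of_mem _ (List.mem_cons_of_mem _ (List.mem_cons_of_mem _ (List.mem_cons_of_mem _ (List.mem_cons_of_mem _ (List.mem_cons_of_mem _ (List.mem_cons_of_mem _ (List.mem_cons_of_mem _ (List.mem_cons_of_mem _ (List.mem_cons_of_mem _ (List.mem_cons_of_mem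 _ (List.mem_cons_of_mem _ (List.mem_cons_of_mem _ (List.mem_cons_of_mem _ (List.mem_cons_of_mem _ (List.mem_cons_of_mem _ (List.mem_cons_of_mem _ (List.mem_cons_of_mem _ (List.mem_cons_of_mem _ (List.mem_cons_of_mem _ (List.mem_cons_of_mem _ (List.mem_cons_of_mem _ (List.mem_cons_of_mem _ (List.mem_cons_of_mem _ (List.mem_cons_of_mem _ (List.mem_cons_of_mem _ (List.mem_cons_of_mem _ (List.mem_cons_of_mem _ (List.mem_cons_of_mem _ (List.mem_cons_self))))))))))))))))))))))))))))))))))))))))))))))))))), ?_⟩, by norm_num⟩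
  constructor <;> norm_num [Q51, coCell, P3C7]

lemma lP3C7 : ∀ x1 x2 xc : ℝ, 0 ≤ x1 → x1 ≤ 1 → 0 ≤ x2 → x2 ≤ 1 → P3C7.l ≤ xc → xc ≤ P3C7.u →
    (30 : ℝ) * (1 - (1 - x1) ^ 3) + (0 : ℝ) * (1 - (1 - x2) ^ 3) - (12 : ℝ) * (1 - (1 - xc) ^ 3) + (1 / 1073741824 : ℝ)
      ≤ - P3C7.a1 * x1 - P3C7.a2 * x2 + P3C7.e * xc + P3C7.f := by
  have h := cell_lines_delta 3 (α1 := (30 : ℝ)) (α2 := (0 : ℝ)) (c := (12 : ℝ)) (y1 := (33235 / 131072 : ℝ)) (y2 := (30101 / 262144 : ℝ))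
    (A1 := (26290499 / 524288 : ℝ)) (B1 := (161340357 / 33554432 : ℝ)) (A2 := (0 : ℝ)) (B2 := (0 : ℝ)) (l := (110367 / 262144 : ℝ)) (u := (116989 / 262144 : ℝ))
    (E := (-48440495 / 4194304 : ℝ)) (F := (-1290792615 / 268435456 : ℝ)) (δ := (1 / 1073741824 : ℝ)) (by norm_num) (by norm_num) (by norm_num) (by norm_num) (by norm_num)
    (by norm_num) (by norm_num) (by norm_num) (by norm_num) (by norm_num) (by norm_num) (by norm_num) (by norm_num) (by norm_num) (by norm_num)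
  have e1 : P3C7.l = (110367 / 262144 : ℝ) := rfl
  have e2 : P3C7.u = (116989 / 262144 : ℝ) := rfl
  have e3 : P3C7.a1 = -(26290499 / 524288 : ℝ) := by norm_num [P3C7]
  have e4 : P3C7.a2 = -(0 : ℝ) := by norm_num [P3C7]
  have e5 : P3C7.e = (-48440495 / 4194304 : ℝ) := rfl
  have e6 : P3C7.f = (161340357 / 33554432 : ℝ) + (0 : ℝ) + (-1290792615 / 268435456 : ℝ) + (1 / 1073741824 : ℝ) := by norm_num [P3C7]
  rw [e1, e2, e3, e4, e5, e6]
  exact h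

lemma rP3C8 : ∃ N : ℝ, Rw4 P.r2 N (coCell (30 : ℝ) (0 : ℝ) (12 : ℝ) 0 P3C8) := by
  refine ⟨(3221225472 : ℝ), ⟨Q52, List.mem_cons_of_mem _ (List.mem_cons_of_mem _ (List.mem_cons_of_mem _ (List.mem_cons_of_mem _ (List.mem_cons_of_mem _ (List.mem_cons_of_mem _ (List.mem_cons_of_mem _ (List.mem_cons_of_mem _ (List.mem_cons_of_mem _ (List.mem_cons_of_mem _ (List.mem_cons_of_mem _ (List.mem_cons_of_mem _ (List.mem_cons_of_mem _ (List.mem_cons_of_mem _ (List.mem_cons_of_mem _ (List.mem_cons_of_mem _ (List.mem_cons_of_mem _ (List.mem_cons_of_mem _ (List.mem_cons_of_mem _ (List.mem_cons_of_mem _ (List.mem_cons_of_mem _ (List.mem_cons_of_mem _ (List.mem_cons_of_mem _ (List.mem_cons_of_mem _ (List.mem_cons_of_mem _ (List.mem_cons_of_mem _ (List.mem_cons_of_mem _ (List.mem_cons_of_mem _ (List.mem_cons_of_mem _ (List.mem_cons_of_mem _ (List.mem_cons_of_mem _ (List.mem_cons_of_mem _ (List.mem_cons_of_mem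 _ (List.mem_cons_of_mem _ (List.mem_cons_of_mem _ (List.mem_cons_of_mem _ (List.mem_cons_of_mem _ (List.mem_cons_of_mem _ (List.mem_cons_of_mem _ (List.mem_cons_of_mem _ (List.mem_cons_of_mem _ (List.mem_cons_of_mem _ (List.mem_cons_of_mem _ (List.mem_cons_of_mem _ (List.mem_cons_of_mem _ (List.mem_cons_of_mem _ (List.mem_cons_of_mem _ (List.mem_cons_of_mem _ (List.mem_cons_of_mem _ (List.mem_cons_of_mem _ (List.mem_cons_of_mem _ (List.mem_cons_of_mem _ (List.mem_cons_self)))))))))))))))))))))))))))))))))))))))))))))))))))), ?_⟩, by norm_num⟩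
  constructor <;> norm_num [Q52, coCell, P3C8]

lemma lP3C8 : ∀ x1 x2 xc : ℝ, 0 ≤ x1 → x1 ≤ 1 → 0 ≤ x2 → x2 ≤ 1 → P3C8.l ≤ xc → xc ≤ P3C8.u →
    (30 : ℝ) * (1 - (1 - x1) ^ 3) + (0 : ℝ) * (1 - (1 - x2) ^ 3) - (12 : ℝ) * (1 - (1 - xc) ^ 3) + (1 / 1073741824 : ℝ)
      ≤ - P3C8.a1 * x1 - P3C8.a2 * x2 + P3C8.e * xc + P3C8.f := by
  have h := cell_lines_delta 3 (α1 := (30 : ℝ)) (α2 := (0 : ℝ)) (c := (12 : ℝ)) (y1 := (34985 / 131072 : ℝ)) (y2 := (8099 / 65536 : ℝ))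
    (A1 := (101433599 / 2097152 : ℝ)) (B1 := (1414908223 / 268435456 : ℝ)) (A2 := (0 : ℝ)) (B2 := (0 : ℝ)) (l := (116989 / 262144 : ℝ)) (u := (15501 / 32768 : ℝ))
    (E := (-44093745 / 4194304 : ℝ)) (F := (-707471739 / 134217728 : ℝ)) (δ := (1 / 1073741824 : ℝ)) (by norm_num) (by norm_num) (by norm_num) (by norm_num) (by norm_num)
    (by norm_num) (by norm_num) (by norm_num) (by norm_num) (by norm_num) (by norm_num) (by norm_num) (by norm_num) (by norm_num) (by norm_num)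
  have e1 : P3C8.l = (116989 / 262144 : ℝ) := rfl
  have e2 : P3C8.u = (15501 / 32768 : ℝ) := rfl
  have e3 : P3C8.a1 = -(101433599 / 2097152 : ℝ) := by norm_num [P3C8]
  have e4 : P3C8.a2 = -(0 : ℝ) := by norm_num [P3C8]
  have e5 : P3C8.e = (-44093745 / 4194304 : ℝ) := rfl
  have e6 : P3C8.f = (1414908223 / 268435456 : ℝ) + (0 : ℝ) + (-707471739 / 134217728 : ℝ) + (1 / 1073741824 : ℝ) := by norm_num [P3C8]
  rw [e1, e2, e3, e4, e5, e6]
  exact h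

lemma rP3C9 : ∃ N : ℝ, Rw4 P.r2 N (coCell (30 : ℝ) (0 : ℝ) (12 : ℝ) 0 P3C9) := by
  refine ⟨(1073741824 : ℝ), ⟨Q53, List.mem_cons_of_mem _ (List.mem_cons_of_mem _ (List.mem_cons_of_mem _ (List.mem_cons_of_mem _ (List.mem_cons_of_mem _ (List.mem_cons_of_mem _ (List.mem_cons_of_mem _ (List.mem_cons_of_mem _ (List.mem_cons_of_mem _ (List.mem_cons_of_mem _ (List.mem_cons_of_mem _ (List.mem_cons_of_mem _ (List.mem_cons_of_mem _ (List.mem_cons_of_mem _ (List.mem_cons_of_mem _ (List.mem_cons_of_mem _ (List.mem_cons_of_mem _ (List.mem_cons_of_mem _ (List.mem_cons_of_mem _ (List.mem_cons_of_mem _ (List.mem_cons_of_mem _ (List.mem_cons_of_mem _ (List.mem_cons_of_mem _ (List.mem_cons_of_mem _ (List.mem_cons_of_mem _ (List.mem_cons_of_mem _ (List.mem_cons_of_mem _ (List.mem_cons_of_mem _ (List.mem_cons_of_mem _ (List.mem_cons_of_mem _ (List.mem_cons_of_mem _ (List.mem_cons_of_mem _ (List.mem_cons_of_mem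 _ (List.mem_cons_of_mem _ (List.mem_cons_of_mem _ (List.mem_cons_of_mem _ (List.mem_cons_of_mem _ (List.mem_cons_of_mem _ (List.mem_cons_of_mem _ (List.mem_cons_of_mem _ (List.mem_cons_of_mem _ (List.mem_cons_of_mem _ (List.mem_cons_of_mem _ (List.mem_cons_of_mem _ (List.mem_cons_of_mem _ (List.mem_cons_of_mem _ (List.mem_cons_of_mem _ (List.mem_cons_of_mem _ (List.mem_cons_of_mem _ (List.mem_cons_of_mem _ (List.mem_cons_of_mem _ (List.mem_cons_of_mem _ (List.mem_cons_of_mem _ (List.mem_cons_self))))))))))))))))))))))))))))))))))))))))))))))))))))), ?_⟩, by norm_num⟩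
  constructor <;> norm_num [Q53, coCell, P3C9]

lemma lP3C9 : ∀ x1 x2 xc : ℝ, 0 ≤ x1 → x1 ≤ 1 → 0 ≤ x2 → x2 ≤ 1 → P3C9.l ≤ xc → xc ≤ P3C9.u →
    (30 : ℝ) * (1 - (1 - x1) ^ 3) + (0 : ℝ) * (1 - (1 - x2) ^ 3) - (12 : ℝ) * (1 - (1 - xc) ^ 3) + (1 / 1073741824 : ℝ)
      ≤ - P3C9.a1 * x1 - P3C9.a2 * x2 + P3C9.e * xc + P3C9.f := by
  have h := cell_lines_delta 3 (α1 := (30 : ℝ)) (α2 := (0 : ℝ)) (c := (12 : ℝ)) (y1 := (9199 / 32768 : ℝ)) (y2 := (8729 / 65536 : ℝ))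
    (A1 := (97646091 / 2097152 : ℝ)) (B1 := (24181987 / 4194304 : ℝ)) (A2 := (0 : ℝ)) (B2 := (0 : ℝ)) (l := (15501 / 32768 : ℝ)) (u := (131449 / 262144 : ℝ))
    (E := (-39709293 / 4194304 : ℝ)) (F := (-1547684475 / 268435456 : ℝ)) (δ := (1 / 1073741824 : ℝ)) (by norm_num) (by norm_num) (by norm_num) (by norm_num) (by norm_num)
    (by norm_num) (by norm_num) (by norm_num) (by norm_num) (by norm_num) (by norm_num) (by norm_num) (by norm_num) (by norm_num) (by norm_num)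
  have e1 : P3C9.l = (15501 / 32768 : ℝ) := rfl
  have e2 : P3C9.u = (131449 / 262144 : ℝ) := rfl
  have e3 : P3C9.a1 = -(97646091 / 2097152 : ℝ) := by norm_num [P3C9]
  have e4 : P3C9.a2 = -(0 : ℝ) := by norm_num [P3C9]
  have e5 : P3C9.e = (-39709293 / 4194304 : ℝ) := rfl
  have e6 : P3C9.f = (24181987 / 4194304 : ℝ) + (0 : ℝ) + (-1547684475 / 268435456 : ℝ) + (1 / 1073741824 : ℝ) := by norm_num [P3C9]
  rw [e1, e2, e3, e4, e5, e6]
  exact h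

lemma rP3C10 : ∃ N : ℝ, Rw4 P.r2 N (coCell (30 : ℝ) (0 : ℝ) (12 : ℝ) 0 P3C10) := by
  refine ⟨(3221225472 : ℝ), ⟨Q54, List.mem_cons_of_mem _ (List.mem_cons_of_mem _ (List.mem_cons_of_mem _ (List.mem_cons_of_mem _ (List.mem_cons_of_mem _ (List.mem_cons_of_mem _ (List.mem_cons_of_mem _ (List.mem_cons_of_mem _ (List.mem_cons_of_mem _ (List.mem_cons_of_mem _ (List.mem_cons_of_mem _ (List.mem_cons_of_mem _ (List.mem_cons_of_mem _ (List.mem_cons_of_mem _ (List.mem_cons_of_mem _ (List.mem_cons_of_mem _ (List.mem_cons_of_mem _ (List.mem_cons_of_mem _ (List.mem_cons_of_mem _ (List.mem_cons_of_mem _ (List.mem_cons_of_mem _ (List.mem_cons_of_mem _ (List.mem_cons_of_mem _ (List.mem_cons_of_mem _ (List.mem_cons_of_mem _ (List.mem_cons_of_mem _ (List.mem_cons_of_mem _ (List.mem_cons_of_mem _ (List.mem_cons_of_mem _ (List.mem_cons_of_mem _ (List.mem_cons_of_mem _ (List.mem_cons_of_mem _ (List.mem_cons_of_mem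 _ (List.mem_cons_of_mem _ (List.mem_cons_of_mem _ (List.mem_cons_of_mem _ (List.mem_cons_of_mem _ (List.mem_cons_of_mem _ (List.mem_cons_of_mem _ (List.mem_cons_of_mem _ (List.mem_cons_of_mem _ (List.mem_cons_of_mem _ (List.mem_cons_of_mem _ (List.mem_cons_of_mem _ (List.mem_cons_of_mem _ (List.mem_cons_of_mem _ (List.mem_cons_of_mem _ (List.mem_cons_of_mem _ (List.mem_cons_of_mem _ (List.mem_cons_of_mem _ (List.mem_cons_of_mem _ (List.mem_cons_of_mem _ (List.mem_cons_of_mem _ (List.mem_cons_of_mem _ (List.mem_cons_self)))))))))))))))))))))))))))))))))))))))))))))))))))))), ?_⟩, by norm_num⟩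
  constructor <;> norm_num [Q54, coCell, P3C10]

lemma lP3C10 : ∀ x1 x2 xc : ℝ, 0 ≤ x1 → x1 ≤ 1 → 0 ≤ x2 → x2 ≤ 1 → P3C10.l ≤ xc → xc ≤ P3C10.u →
    (30 : ℝ) * (1 - (1 - x1) ^ 3) + (0 : ℝ) * (1 - (1 - x2) ^ 3) - (12 : ℝ) * (1 - (1 - xc) ^ 3) + (1 / 1073741824 : ℝ)
      ≤ - P3C10.a1 * x1 - P3C10.a2 * x2 + P3C10.e * xc + P3C10.f := by
  have h := cell_lines_delta 3 (α1 := (30 : ℝ)) (α2 := (0 : ℝ)) (c := (12 : ℝ)) (y1 := (75705 / 262144 : ℝ)) (y2 := (19473 / 131072 : ℝ))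
    (A1 := (23867455 / 524288 : ℝ)) (B1 := (1626968969 / 268435456 : ℝ)) (A2 := (0 : ℝ)) (B2 := (0 : ℝ)) (l := (131449 / 262144 : ℝ)) (u := (17417 / 32768 : ℝ))
    (E := (-17656267 / 2097152 : ℝ)) (F := (-844392723 / 134217728 : ℝ)) (δ := (1 / 1073741824 : ℝ)) (by norm_num) (by norm_num) (by norm_num) (by norm_num) (by norm_num)
    (by norm_num) (by norm_num) (by norm_num) (by norm_num) (by norm_num) (by norm_num) (by norm_num) (by norm_num) (by norm_num) (by norm_num)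
  have e1 : P3C10.l = (131449 / 262144 : ℝ) := rfl
  have e2 : P3C10.u = (17417 / 32768 : ℝ) := rfl
  have e3 : P3C10.a1 = -(23867455 / 524288 : ℝ) := by norm_num [P3C10]
  have e4 : P3C10.a2 = -(0 : ℝ) := by norm_num [P3C10]
  have e5 : P3C10.e = (-17656267 / 2097152 : ℝ) := rfl
  have e6 : P3C10.f = (1626968969 / 268435456 : ℝ) + (0 : ℝ) + (-844392723 / 134217728 : ℝ) + (1 / 1073741824 : ℝ) := by norm_num [P3C10]
  rw [e1, e2, e3, e4, e5, e6]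
  exact h

lemma rP3C11 : ∃ N : ℝ, Rw4 P.r2 N (coCell (30 : ℝ) (0 : ℝ) (12 : ℝ) 0 P3C11) := by
  refine ⟨(3221225472 : ℝ), ⟨Q55, List.mem_cons_of_mem _ (List.mem_cons_of_mem _ (List.mem_cons_of_mem _ (List.mem_cons_of_mem _ (List.mem_cons_of_mem _ (List.mem_cons_of_mem _ (List.mem_cons_of_mem _ (List.mem_cons_of_mem _ (List.mem_cons_of_mem _ (List.mem_cons_of_mem _ (List.mem_cons_of_mem _ (List.mem_cons_of_mem _ (List.mem_cons_of_mem _ (List.mem_cons_of_mem _ (List.mem_cons_of_mem _ (List.mem_cons_of_mem _ (List.mem_cons_of_mem _ (List.mem_cons_of_mem _ (List.mem_cons_of_mem _ (List.mem_cons_of_mem _ (List.mem_cons_of_mem _ (List.mem_cons_of_mem _ (List.mem_cons_of_mem _ (List.mem_cons_of_mem _ (List.mem_cons_of_mem _ (List.mem_cons_of_mem _ (List.mem_cons_of_mem _ (List.mem_cons_of_mem _ (List.mem_cons_of_mem _ (List.mem_cons_of_mem _ (List.mem_cons_of_mem _ (List.mem_cons_of_mem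 _ (List.mem_cons_of_mem _ (List.mem_cons_of_mem _ (List.mem_cons_of_mem _ (List.mem_cons_of_mem _ (List.mem_cons_of_mem _ (List.mem_cons_of_mem _ (List.mem_cons_of_mem _ (List.mem_cons_of_mem _ (List.mem_cons_of_mem _ (List.mem_cons_of_mem _ (List.mem_cons_of_mem _ (List.mem_cons_of_mem _ (List.mem_cons_of_mem _ (List.mem_cons_of_mem _ (List.mem_cons_of_mem _ (List.mem_cons_of_mem _ (List.mem_cons_of_mem _ (List.mem_cons_of_mem _ (List.mem_cons_of_mem _ (List.mem_cons_of_mem _ (List.mem_cons_of_mem _ (List.mem_cons_of_mem _ (List.mem_cons_of_mem _ (List.mem_cons_self))))))))))))))))))))))))))))))))))))))))))))))))))))))), ?_⟩, by norm_num⟩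
  constructor <;> norm_num [Q55, coCell, P3C11]

lemma lP3C11 : ∀ x1 x2 xc : ℝ, 0 ≤ x1 → x1 ≤ 1 → 0 ≤ x2 → x2 ≤ 1 → P3C11.l ≤ xc → xc ≤ P3C11.u →
    (30 : ℝ) * (1 - (1 - x1) ^ 3) + (0 : ℝ) * (1 - (1 - x2) ^ 3) - (12 : ℝ) * (1 - (1 - xc) ^ 3) + (1 / 1073741824 : ℝ)
      ≤ - P3C11.a1 * x1 - P3C11.a2 * x2 + P3C11.e * xc + P3C11.f := by
  have h := cell_lines_delta 3 (α1 := (30 : ℝ)) (α2 := (0 : ℝ)) (c := (12 : ℝ)) (y1 := (4803 / 16384 : ℝ)) (y2 := (7193 / 65536 : ℝ))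
    (A1 := (188605633 / 4194304 : ℝ)) (B1 := (1670432961 / 268435456 : ℝ)) (A2 := (0 : ℝ)) (B2 := (0 : ℝ)) (l := (17417 / 32768 : ℝ)) (u := (144179 / 262144 : ℝ))
    (E := (-15924533 / 2097152 : ℝ)) (F := (-1806604239 / 268435456 : ℝ)) (δ := (1 / 1073741824 : ℝ)) (by norm_num) (by norm_num) (by norm_num) (by norm_num) (by norm_num)
    (by norm_num) (by norm_num) (by norm_num) (by norm_num) (by norm_num) (by norm_num) (by norm_num) (by norm_num) (by norm_num) (by norm_num)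
  have e1 : P3C11.l = (17417 / 32768 : ℝ) := rfl
  have e2 : P3C11.u = (144179 / 262144 : ℝ) := rfl
  have e3 : P3C11.a1 = -(188605633 / 4194304 : ℝ) := by norm_num [P3C11]
  have e4 : P3C11.a2 = -(0 : ℝ) := by norm_num [P3C11]
  have e5 : P3C11.e = (-15924533 / 2097152 : ℝ) := rfl
  have e6 : P3C11.f = (1670432961 / 268435456 : ℝ) + (0 : ℝ) + (-1806604239 / 268435456 : ℝ) + (1 / 1073741824 : ℝ) := by norm_num [P3C11]
  rw [e1, e2, e3, e4, e5, e6]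
  exact h

/-- A link of the chain. -/
lemma link3 {lam : ℝ} (h0 : -(1 / 2) < lam) (h1 : lam < 1) (hB : BoxS lam P 0 HH 0 HH)
    (h : ∃ n, 1 - En 3 lam n mc ≤ (144179 / 262144 : ℝ)) : ∃ n, 1 - En 3 lam n mc ≤ (9175 / 32768 : ℝ) :=
  phase_of_box (by norm_num) h0 h1 hB (30 : ℝ) (0 : ℝ) (12 : ℝ) (1 / 1073741824 : ℝ) (9175 / 32768 : ℝ) (144179 / 262144 : ℝ) (by norm_num) cellsP3 hcoverP3
    (forall_cons lP3C0 (forall_cons lP3C1 (forall_cons lP3C2 (forall_cons lP3C3 (forall_cons lP3C4 (forall_cons lP3C5 (forall_cons lP3C6 (forall_cons lP3C7 (forall_cons lP3C8 (forall_cons lP3C9 (forall_cons lP3C10 (forall_cons lP3C11 (forall_nil))))))))))))) (forall_cons rP3C0 (forall_cons rP3C1 (forall_cons rP3C2 (forall_cons rP3C3 (forall_cons rP3C4 (forall_cons rP3C5 (forall_cons rP3C6 (forall_cons rP3C7 (forall_cons rP3C8 (forall_cons rP3C9 (forall_cons rP3C10 (forall_cons rP3C11 (forall_nil)))))))))))))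 h

/-- A chord cell of a link. -/
noncomputable def P4C0 : Cell := ⟨(144179 / 262144 : ℝ), (158597 / 262144 : ℝ), (-34397187 / 524288 : ℝ), (0 : ℝ), (-26991683 / 4194304 : ℝ), (-210959 / 1073741824 : ℝ)⟩

/-- A chord cell of a link. -/
noncomputable def P4C1 : Cell := ⟨(158597 / 262144 : ℝ), (649 / 1024 : ℝ), (-264054275 / 4194304 : ℝ), (0 : ℝ), (-10941831 / 2097152 : ℝ), (-1051119 / 1073741824 : ℝ)⟩

/-- The chord cells of a link. -/
noncomputable def cellsP4 : List Cell := [P4C0, P4C1]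

lemma hcoverP4 : ∀ x : ℝ, (144179 / 262144 : ℝ) ≤ x → x ≤ (649 / 1024 : ℝ) → ∃ D ∈ cellsP4, D.l ≤ x ∧ x ≤ D.u := by
  refine cover_of_chain ?_ (by norm_num [P4C0])
  simp only [ChainP, P4C0, P4C1]
  norm_num

lemma rP4C0 : ∃ N : ℝ, Rw4 P.r2 N (coCell (168141 / 4096 : ℝ) (0 : ℝ) (12 : ℝ) 0 P4C0) := by
  refine ⟨(3221225472 : ℝ), ⟨Q56, List.mem_cons_of_mem _ (List.mem_cons_of_mem _ (List.mem_cons_of_mem _ (List.mem_cons_of_mem _ (List.mem_cons_of_mem _ (List.mem_cons_of_mem _ (List.mem_cons_of_mem _ (List.mem_cons_of_mem _ (List.mem_cons_of_mem _ (List.mem_cons_of_mem _ (List.mem_cons_of_mem _ (List.mem_cons_of_mem _ (List.mem_cons_of_mem _ (List.mem_cons_of_mem _ (List.mem_cons_of_mem _ (List.mem_cons_of_mem _ (List.mem_cons_of_mem _ (List.mem_cons_of_mem _ (List.mem_cons_of_mem _ (List.mem_cons_of_mem _ (List.mem_cons_of_mem _ (List.mem_cons_of_mem _ (List.mem_cons_of_mem _ (List.mem_cons_of_mem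 _ (List.mem_cons_of_mem _ (List.mem_cons_of_mem _ (List.mem_cons_of_mem _ (List.mem_cons_of_mem _ (List.mem_cons_of_mem _ (List.mem_cons_of_mem _ (List.mem_cons_of_mem _ (List.mem_cons_of_mem _ (List.mem_cons_of_mem _ (List.mem_cons_of_mem _ (List.mem_cons_of_mem _ (List.mem_cons_of_mem _ (List.mem_cons_of_mem _ (List.mem_cons_of_mem _ (List.mem_cons_of_mem _ (List.mem_cons_of_mem _ (List.mem_cons_of_mem _ (List.mem_cons_of_mem _ (List.mem_cons_of_mem _ (List.mem_cons_of_mem _ (List.mem_cons_of_mem _ (List.mem_cons_of_mem _ (List.mem_cons_of_mem _ (List.mem_cons_of_mem _ (List.mem_cons_of_mem _ (List.mem_cons_of_mem _ (List.mem_cons_of_mem _ (List.mem_cons_of_mem _ (List.mem_cons_of_mem _ (List.mem_cons_of_mem _ (List.mem_cons_of_mem _ (List.mem_cons_of_mem _ (List.mem_cons_self)))))))))))))))))))))))))))))))))))))))))))))))))))))))), ?_⟩, by norm_num⟩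
  constructor <;> norm_num [Q56, coCell, P4C0]

lemma lP4C0 : ∀ x1 x2 xc : ℝ, 0 ≤ x1 → x1 ≤ 1 → 0 ≤ x2 → x2 ≤ 1 → P4C0.l ≤ xc → xc ≤ P4C0.u →
    (168141 / 4096 : ℝ) * (1 - (1 - x1) ^ 3) + (0 : ℝ) * (1 - (1 - x2) ^ 3) - (12 : ℝ) * (1 - (1 - xc) ^ 3) + (1 / 1073741824 : ℝ)
      ≤ - P4C0.a1 * x1 - P4C0.a2 * x2 + P4C0.e * xc + P4C0.f := by
  have h := cell_lines_delta 3 (α1 := (168141 / 4096 : ℝ)) (α2 := (0 : ℝ)) (c := (12 : ℝ)) (y1 := (70807 / 262144 : ℝ)) (y2 := (35525 / 262144 : ℝ))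
    (A1 := (34397187 / 524288 : ℝ)) (B1 := (1977531143 / 268435456 : ℝ)) (A2 := (0 : ℝ)) (B2 := (0 : ℝ)) (l := (144179 / 262144 : ℝ)) (u := (158597 / 262144 : ℝ))
    (E := (-26991683 / 4194304 : ℝ)) (F := (-1977583883 / 268435456 : ℝ)) (δ := (1 / 1073741824 : ℝ)) (by norm_num) (by norm_num) (by norm_num) (by norm_num) (by norm_num)
    (by norm_num) (by norm_num) (by norm_num) (by norm_num) (by norm_num) (by norm_num) (by norm_num) (by norm_num) (by norm_num) (by norm_num)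
  have e1 : P4C0.l = (144179 / 262144 : ℝ) := rfl
  have e2 : P4C0.u = (158597 / 262144 : ℝ) := rfl
  have e3 : P4C0.a1 = -(34397187 / 524288 : ℝ) := by norm_num [P4C0]
  have e4 : P4C0.a2 = -(0 : ℝ) := by norm_num [P4C0]
  have e5 : P4C0.e = (-26991683 / 4194304 : ℝ) := rfl
  have e6 : P4C0.f = (1977531143 / 268435456 : ℝ) + (0 : ℝ) + (-1977583883 / 268435456 : ℝ) + (1 / 1073741824 : ℝ) := by norm_num [P4C0]
  rw [e1, e2, e3, e4, e5, e6]
  exact h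

lemma rP4C1 : ∃ N : ℝ, Rw4 P.r2 N (coCell (168141 / 4096 : ℝ) (0 : ℝ) (12 : ℝ) 0 P4C1) := by
  refine ⟨(3221225472 : ℝ), ⟨Q57, List.mem_cons_of_mem _ (List.mem_cons_of_mem _ (List.mem_cons_of_mem _ (List.mem_cons_of_mem _ (List.mem_cons_of_mem _ (List.mem_cons_of_mem _ (List.mem_cons_of_mem _ (List.mem_cons_of_mem _ (List.mem_cons_of_mem _ (List.mem_cons_of_mem _ (List.mem_cons_of_mem _ (List.mem_cons_of_mem _ (List.mem_cons_of_mem _ (List.mem_cons_of_mem _ (List.mem_cons_of_mem _ (List.mem_cons_of_mem _ (List.mem_cons_of_mem _ (List.mem_cons_of_mem _ (List.mem_cons_of_mem _ (List.mem_cons_of_mem _ (List.mem_cons_of_mem _ (List.mem_cons_of_mem _ (List.mem_cons_of_mem _ (List.mem_cons_of_mem _ (List.mem_cons_of_mem _ (List.mem_cons_of_mem _ (List.mem_cons_of_mem _ (List.mem_cons_of_mem _ (List.mem_cons_of_mem _ (List.mem_cons_of_mem _ (List.mem_cons_of_mem _ (List.mem_cons_of_mem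 _ (List.mem_cons_of_mem _ (List.mem_cons_of_mem _ (List.mem_cons_of_mem _ (List.mem_cons_of_mem _ (List.mem_cons_of_mem _ (List.mem_cons_of_mem _ (List.mem_cons_of_mem _ (List.mem_cons_of_mem _ (List.mem_cons_of_mem _ (List.mem_cons_of_mem _ (List.mem_cons_of_mem _ (List.mem_cons_of_mem _ (List.mem_cons_of_mem _ (List.mem_cons_of_mem _ (List.mem_cons_of_mem _ (List.mem_cons_of_mem _ (List.mem_cons_of_mem _ (List.mem_cons_of_mem _ (List.mem_cons_of_mem _ (List.mem_cons_of_mem _ (List.mem_cons_of_mem _ (List.mem_cons_of_mem _ (List.mem_cons_of_mem _ (List.mem_cons_of_mem _ (List.mem_cons_of_mem _ (List.mem_cons_self))))))))))))))))))))))))))))))))))))))))))))))))))))))))), ?_⟩, by norm_num⟩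
  constructor <;> norm_num [Q57, coCell, P4C1]

lemma lP4C1 : ∀ x1 x2 xc : ℝ, 0 ≤ x1 → x1 ≤ 1 → 0 ≤ x2 → x2 ≤ 1 → P4C1.l ≤ xc → xc ≤ P4C1.u →
    (168141 / 4096 : ℝ) * (1 - (1 - x1) ^ 3) + (0 : ℝ) * (1 - (1 - x2) ^ 3) - (12 : ℝ) * (1 - (1 - xc) ^ 3) + (1 / 1073741824 : ℝ)
      ≤ - P4C1.a1 * x1 - P4C1.a2 * x2 + P4C1.e * xc + P4C1.f := by
  have h := cell_lines_delta 3 (α1 := (168141 / 4096 : ℝ)) (α2 := (0 : ℝ)) (c := (12 : ℝ)) (y1 := (37357 / 131072 : ℝ)) (y2 := (10563 / 65536 : ℝ))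
    (A1 := (264054275 / 4194304 : ℝ)) (B1 := (2175103527 / 268435456 : ℝ)) (A2 := (0 : ℝ)) (B2 := (0 : ℝ)) (l := (158597 / 262144 : ℝ)) (u := (649 / 1024 : ℝ))
    (E := (-10941831 / 2097152 : ℝ)) (F := (-2175366307 / 268435456 : ℝ)) (δ := (1 / 1073741824 : ℝ)) (by norm_num) (by norm_num) (by norm_num) (by norm_num) (by norm_num)
    (by norm_num) (by norm_num) (by norm_num) (by norm_num) (by norm_num) (by norm_num) (by norm_num) (by norm_num) (by norm_num) (by norm_num)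
  have e1 : P4C1.l = (158597 / 262144 : ℝ) := rfl
  have e2 : P4C1.u = (649 / 1024 : ℝ) := rfl
  have e3 : P4C1.a1 = -(264054275 / 4194304 : ℝ) := by norm_num [P4C1]
  have e4 : P4C1.a2 = -(0 : ℝ) := by norm_num [P4C1]
  have e5 : P4C1.e = (-10941831 / 2097152 : ℝ) := rfl
  have e6 : P4C1.f = (2175103527 / 268435456 : ℝ) + (0 : ℝ) + (-2175366307 / 268435456 : ℝ) + (1 / 1073741824 : ℝ) := by norm_num [P4C1]
  rw [e1, e2, e3, e4, e5, e6]
  exact h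

/-- A link of the chain. -/
lemma link4 {lam : ℝ} (h0 : -(1 / 2) < lam) (h1 : lam < 1) (hB : BoxS lam P 0 HH 0 HH)
    (h : ∃ n, 1 - En 3 lam n mc ≤ (649 / 1024 : ℝ)) : ∃ n, 1 - En 3 lam n mc ≤ (144179 / 262144 : ℝ) :=
  phase_of_box (by norm_num) h0 h1 hB (168141 / 4096 : ℝ) (0 : ℝ) (12 : ℝ) (1 / 1073741824 : ℝ) (144179 / 262144 : ℝ) (649 / 1024 : ℝ) (by norm_num) cellsP4 hcoverP4
    (forall_cons lP4C0 (forall_cons lP4C1 (forall_nil))) (forall_cons rP4C0 (forall_cons rP4C1 (forall_nil))) h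

/-- The whole chain. -/
lemma chain {lam : ℝ} (h0 : -(1 / 2) < lam) (h1 : lam < 1) (hB : BoxS lam P 0 HH 0 HH) :
    ∃ n, 1 - En 3 lam n mc ≤ (1 / 32 : ℝ) := (link0 h0 h1 hB (link1 h0 h1 hB (link2 h0 h1 hB (link3 h0 h1 hB (link4 h0 h1 hB (start_of_box h0 h1 hB _ rc3))))))

/-- The hypotheses at the origin. -/
lemma horig : OriginH 3 (-49 / 100 : ℝ) (2331 / 1024 : ℝ) (672327 / 65536 : ℝ) (317191 / 32768 : ℝ) (41 / 128 : ℝ) (1 / 64 : ℝ) (731 / 4096 : ℝ) (3919 / 4096 : ℝ) (1 / 256 : ℝ) 3298534883328 := by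
  refine originH_sub (d := 3) (by norm_num) (by norm_num) (by norm_num) (by norm_num) (by norm_num) (by norm_num) (by norm_num)
    (by norm_num) (by norm_num) (by norm_num) (by norm_num) (by norm_num [S]) (by norm_num) ?_ ?_ ?_
  · rw [hch]
    norm_num [orB1, orB2, orB3, orB4, abs_of_pos, abs_of_neg]
  · norm_num [orB1, orB2, orB3, orB4, abs_of_pos, abs_of_neg]
  · norm_num [abs_of_pos, abs_of_neg]

/-- Nonreconstruction at the eigenvalue. -/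
theorem main : Tendsto (reconError 3 3 (-49 / 100 : ℝ)) atTop (𝓝 0) := by
  have hb2 : (-(1 / 2) : ℝ) < (-49 / 100 : ℝ) := by norm_num
  have h1 : (-49 / 100 : ℝ) < 1 := by norm_num
  have hlam : |(S : ℝ) * (-49 / 100 : ℝ) - ((P.lp : ℝ) - P.ln)| ≤ ((1 : ℕ) : ℝ) := by
    have e1 : P.lp = 0 := rfl
    have e2 : P.ln = 35308221078584688 := rfl
    rw [e1, e2, abs_le]
    constructor <;> norm_num [S]
  obtain ⟨hOa, hON⟩ := horig
  have hB := box hlam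
  refine final_of_boxB (d := 3) (by norm_num) hb2 h1 hB (2331 / 1024 : ℝ) (672327 / 65536 : ℝ) (317191 / 32768 : ℝ) (41 / 128 : ℝ) (731 / 4096 : ℝ) (3919 / 4096 : ℝ) (5243 / 1048576 : ℝ) (491 / 16384 : ℝ) (1 / 64 : ℝ) (1 / 32 : ℝ) cellsL
    (by norm_num) (by norm_num) (by norm_num) (by norm_num) (by norm_num) (by norm_num) (by norm_num) (by norm_num)
    (by norm_num) (by norm_num) (by norm_num) (by norm_num) (by norm_num) hOa hON rTa rTb rc1 rc2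
    (forall_cons rcell0 (forall_cons rcell1 (forall_nil))) hcover (forall_cons lcell0 (forall_cons lcell1 (forall_nil))) (chain hb2 h1 hB)

end Vale.Agent.P154H.Tm.S3
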