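import Vale.Agent.P154H.D.DS4
import Vale.Agent.P154H.Phase
import Vale.Agent.P154H.OriginS

open Filter Topology

set_option maxRecDepth 100000

/-!
Nonreconstruction for `d = 4` at a negative eigenvalue below the Kesten-Stigum bound, by a chain of
potentials along the monotone quantity `1 - En`.
-/

namespace Vale.Agent.P154H.Tm.S4

open Vale.Agent.P154 Vale.Agent.P154H

/-- A chord cell. -/
noncomputable def C0 : Cell := ⟨(5243 / 1048576 : ℝ), (259 / 32768 : ℝ), (-14976005 / 2097152 : ℝ), (-193854553 / 4194304 : ℝ), (-181001581 / 4194304 : ℝ), (-7877 / 268435456 : ℝ)⟩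

/-- A chord cell. -/
noncomputable def C1 : Cell := ⟨(259 / 32768 : ℝ), (3277 / 262144 : ℝ), (-460121 / 65536 : ℝ), (-96066279 / 2097152 : ℝ), (-178960223 / 4194304 : ℝ), (-3891 / 134217728 : ℝ)⟩

/-- A chord cell. -/
noncomputable def C2 : Cell := ⟨(3277 / 262144 : ℝ), (5181 / 262144 : ℝ), (-7324555 / 1048576 : ℝ), (-188828835 / 4194304 : ℝ), (-43941103 / 1048576 : ℝ), (-8495 / 268435456 : ℝ)⟩

/-- A chord cell. -/
noncomputable def C3 : Cell := ⟨(5181 / 262144 : ℝ), (1 / 32 : ℝ), (-28373157 / 4194304 : ℝ), (-5760937 / 131072 : ℝ), (-170791511 / 4194304 : ℝ), (-29659 / 268435456 : ℝ)⟩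

/-- The chord cells. -/
noncomputable def cellsL : List Cell := [C0, C1, C2, C3]

lemma hcover : ∀ x : ℝ, (5243 / 1048576 : ℝ) ≤ x → x ≤ (1 / 32 : ℝ) → ∃ D ∈ cellsL, D.l ≤ x ∧ x ≤ D.u := by
  refine cover_of_chain ?_ (by norm_num [C0])
  simp only [ChainP, C0, C1, C2, C3]
  norm_num

lemma hch : ((Nat.choose 4 2 : ℕ) : ℝ) = 6 := by norm_num [Nat.choose]

lemma rTa : Rw4 P.r1 (196608 : ℝ) (coTa 4 (29637 / 16384 : ℝ) (385281 / 32768 : ℝ) (174145 / 16384 : ℝ) (95 / 256 : ℝ) (123 / 2048 : ℝ)) := by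
  refine ⟨⟨Ra, List.mem_cons_self, ?_⟩, by norm_num⟩
  constructor <;> norm_num [Ra, coTa, hch]

lemma rTb : Rw4 P.r1 (6597069766656 : ℝ) (coTb 4 (29637 / 16384 : ℝ) (385281 / 32768 : ℝ) (174145 / 16384 : ℝ) (95 / 256 : ℝ) (123 / 2048 : ℝ) (529 / 4096 : ℝ) (4091 / 4096 : ℝ) (979 / 16384 : ℝ)) := by
  refine ⟨⟨Rb, List.mem_cons_of_mem _ (List.mem_cons_self), ?_⟩, by norm_num⟩
  constructor <;> norm_num [Rb, coTb, hch]

lemma rc1 : Rw4 P.r2 (67108864 : ℝ) ⟨0, 0, 0, -(29637 / 16384 : ℝ), 0, 0, 0, 0, (174145 / 16384 : ℝ) * (529 / 4096 : ℝ)⟩ := by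
  refine ⟨⟨Q0, List.mem_cons_self, ?_⟩, by norm_num⟩
  constructor <;> norm_num [Q0]

lemma rc2 : Rw4 P.r2 (67108864 : ℝ) ⟨0, 0, 0, 0, -(385281 / 32768 : ℝ), 0, 0, 0, (174145 / 16384 : ℝ) * (4091 / 4096 : ℝ)⟩ := by
  refine ⟨⟨Q1, List.mem_cons_of_mem _ (List.mem_cons_self), ?_⟩, by norm_num⟩
  constructor <;> norm_num [Q1]

lemma rc3 : Rw4 P.r2 (3072 : ℝ) ⟨0, 0, 0, 0, 0, -1, 0, 0, (649 / 1024 : ℝ)⟩ := by
  refine ⟨⟨Q2, List.mem_cons_of_mem _ (List.mem_cons_of_mem _ (List.mem_cons_self)), ?_⟩, by norm_num⟩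
  constructor <;> norm_num [Q2]

lemma rcell0 : ∃ N : ℝ, Rw4 P.r2 N (coCell (29637 / 16384 : ℝ) (385281 / 32768 : ℝ) ((174145 / 16384 : ℝ) + (95 / 256 : ℝ)) (123 / 2048 : ℝ) C0) := by
  refine ⟨(805306368 : ℝ), ⟨Q3, List.mem_cons_of_mem _ (List.mem_cons_of_mem _ (List.mem_cons_of_mem _ (List.mem_cons_self))), ?_⟩, by norm_num⟩
  constructor <;> norm_num [Q3, coCell, C0]

lemma lcell0 : ∀ x1 x2 xc : ℝ, 0 ≤ x1 → x1 ≤ 1 → 0 ≤ x2 → x2 ≤ 1 → C0.l ≤ xc → xc ≤ C0.u →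
    (29637 / 16384 : ℝ) * (1 - (1 - x1) ^ 4) + (385281 / 32768 : ℝ) * (1 - (1 - x2) ^ 4) - ((174145 / 16384 : ℝ) + (95 / 256 : ℝ)) * (1 - (1 - xc) ^ 4)
      ≤ - C0.a1 * x1 - C0.a2 * x2 + C0.e * xc + C0.f := by
  have h := cell_lines 4 (α1 := (29637 / 16384 : ℝ)) (α2 := (385281 / 32768 : ℝ)) (c := (174145 / 16384 : ℝ) + (95 / 256 : ℝ)) (y1 := (573 / 131072 : ℝ)) (y2 := (1519 / 262144 : ℝ))
    (A1 := (14976005 / 2097152 : ℝ)) (B1 := (13839 / 67108864 : ℝ)) (A2 := (193854553 / 4194304 : ℝ)) (B2 := (157737 / 67108864 : ℝ)) (l := (5243 / 1048576 : ℝ)) (u := (259 / 32768 : ℝ))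
    (E := (-181001581 / 4194304 : ℝ)) (F := (-694181 / 268435456 : ℝ)) (by norm_num) (by norm_num) (by norm_num) (by norm_num) (by norm_num)
    (by norm_num) (by norm_num) (by norm_num) (by norm_num) (by norm_num) (by norm_num) (by norm_num) (by norm_num) (by norm_num) (by norm_num)
  have e1 : C0.l = (5243 / 1048576 : ℝ) := rfl
  have e2 : C0.u = (259 / 32768 : ℝ) := rfl
  have e3 : C0.a1 = -(14976005 / 2097152 : ℝ) := by norm_num [C0]
  have e4 : C0.a2 = -(193854553 / 4194304 : ℝ) := by norm_num [C0]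
  have e5 : C0.e = (-181001581 / 4194304 : ℝ) := rfl
  have e6 : C0.f = (13839 / 67108864 : ℝ) + (157737 / 67108864 : ℝ) + (-694181 / 268435456 : ℝ) := by norm_num [C0]
  rw [e1, e2, e3, e4, e5, e6]
  exact h

lemma rcell1 : ∃ N : ℝ, Rw4 P.r2 N (coCell (29637 / 16384 : ℝ) (385281 / 32768 : ℝ) ((174145 / 16384 : ℝ) + (95 / 256 : ℝ)) (123 / 2048 : ℝ) C1) := by
  refine ⟨(402653184 : ℝ), ⟨Q4, List.mem_cons_of_mem _ (List.mem_cons_of_mem _ (List.mem_cons_of_mem _ (List.mem_cons_of_mem _ (List.mem_cons_self)))), ?_⟩, by norm_num⟩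
  constructor <;> norm_num [Q4, coCell, C1]

lemma lcell1 : ∀ x1 x2 xc : ℝ, 0 ≤ x1 → x1 ≤ 1 → 0 ≤ x2 → x2 ≤ 1 → C1.l ≤ xc → xc ≤ C1.u →
    (29637 / 16384 : ℝ) * (1 - (1 - x1) ^ 4) + (385281 / 32768 : ℝ) * (1 - (1 - x2) ^ 4) - ((174145 / 16384 : ℝ) + (95 / 256 : ℝ)) * (1 - (1 - xc) ^ 4)
      ≤ - C1.a1 * x1 - C1.a2 * x2 + C1.e * xc + C1.f := by
  have h := cell_lines 4 (α1 := (29637 / 16384 : ℝ)) (α2 := (385281 / 32768 : ℝ)) (c := (174145 / 16384 : ℝ) + (95 / 256 : ℝ)) (y1 := (2619 / 262144 : ℝ)) (y2 := (2293 / 262144 : ℝ))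
    (A1 := (460121 / 65536 : ℝ)) (B1 := (71737 / 67108864 : ℝ)) (A2 := (96066279 / 2097152 : ℝ)) (B2 := (1432091 / 268435456 : ℝ)) (l := (259 / 32768 : ℝ)) (u := (3277 / 262144 : ℝ))
    (E := (-178960223 / 4194304 : ℝ)) (F := (-1726821 / 268435456 : ℝ)) (by norm_num) (by norm_num) (by norm_num) (by norm_num) (by norm_num)
    (by norm_num) (by norm_num) (by norm_num) (by norm_num) (by norm_num) (by norm_num) (by norm_num) (by norm_num) (by norm_num) (by norm_num)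
  have e1 : C1.l = (259 / 32768 : ℝ) := rfl
  have e2 : C1.u = (3277 / 262144 : ℝ) := rfl
  have e3 : C1.a1 = -(460121 / 65536 : ℝ) := by norm_num [C1]
  have e4 : C1.a2 = -(96066279 / 2097152 : ℝ) := by norm_num [C1]
  have e5 : C1.e = (-178960223 / 4194304 : ℝ) := rfl
  have e6 : C1.f = (71737 / 67108864 : ℝ) + (1432091 / 268435456 : ℝ) + (-1726821 / 268435456 : ℝ) := by norm_num [C1]
  rw [e1, e2, e3, e4, e5, e6]
  exact h

lemma rcell2 : ∃ N : ℝ, Rw4 P.r2 N (coCell (29637 / 16384 : ℝ) (385281 / 32768 : ℝ) ((174145 / 16384 : ℝ) + (95 / 256 : ℝ)) (123 / 2048 : ℝ) C2) := by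
  refine ⟨(805306368 : ℝ), ⟨Q5, List.mem_cons_of_mem _ (List.mem_cons_of_mem _ (List.mem_cons_of_mem _ (List.mem_cons_of_mem _ (List.mem_cons_of_mem _ (List.mem_cons_self))))), ?_⟩, by norm_num⟩
  constructor <;> norm_num [Q5, coCell, C2]

lemma lcell2 : ∀ x1 x2 xc : ℝ, 0 ≤ x1 → x1 ≤ 1 → 0 ≤ x2 → x2 ≤ 1 → C2.l ≤ xc → xc ≤ C2.u →
    (29637 / 16384 : ℝ) * (1 - (1 - x1) ^ 4) + (385281 / 32768 : ℝ) * (1 - (1 - x2) ^ 4) - ((174145 / 16384 : ℝ) + (95 / 256 : ℝ)) * (1 - (1 - xc) ^ 4)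
      ≤ - C2.a1 * x1 - C2.a2 * x2 + C2.e * xc + C2.f := by
  have h := cell_lines 4 (α1 := (29637 / 16384 : ℝ)) (α2 := (385281 / 32768 : ℝ)) (c := (174145 / 16384 : ℝ) + (95 / 256 : ℝ)) (y1 := (3059 / 262144 : ℝ)) (y2 := (3791 / 262144 : ℝ))
    (A1 := (7324555 / 1048576 : ℝ)) (B1 := (390595 / 268435456 : ℝ)) (A2 := (188828835 / 4194304 : ℝ)) (B2 := (485567 / 33554432 : ℝ)) (l := (3277 / 262144 : ℝ)) (u := (5181 / 262144 : ℝ))
    (E := (-43941103 / 1048576 : ℝ)) (F := (-2141813 / 134217728 : ℝ)) (by norm_num) (by norm_num) (by norm_num) (by norm_num) (by norm_num)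
    (by norm_num) (by norm_num) (by norm_num) (by norm_num) (by norm_num) (by norm_num) (by norm_num) (by norm_num) (by norm_num) (by norm_num)
  have e1 : C2.l = (3277 / 262144 : ℝ) := rfl
  have e2 : C2.u = (5181 / 262144 : ℝ) := rfl
  have e3 : C2.a1 = -(7324555 / 1048576 : ℝ) := by norm_num [C2]
  have e4 : C2.a2 = -(188828835 / 4194304 : ℝ) := by norm_num [C2]
  have e5 : C2.e = (-43941103 / 1048576 : ℝ) := rfl
  have e6 : C2.f = (390595 / 268435456 : ℝ) + (485567 / 33554432 : ℝ) + (-2141813 / 134217728 : ℝ) := by norm_num [C2]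
  rw [e1, e2, e3, e4, e5, e6]
  exact h

lemma rcell3 : ∃ N : ℝ, Rw4 P.r2 N (coCell (29637 / 16384 : ℝ) (385281 / 32768 : ℝ) ((174145 / 16384 : ℝ) + (95 / 256 : ℝ)) (123 / 2048 : ℝ) C3) := by
  refine ⟨(805306368 : ℝ), ⟨Q6, List.mem_cons_of_mem _ (List.mem_cons_of_mem _ (List.mem_cons_of_mem _ (List.mem_cons_of_mem _ (List.mem_cons_of_mem _ (List.mem_cons_of_mem _ (List.mem_cons_self)))))), ?_⟩, by norm_num⟩
  constructor <;> norm_num [Q6, coCell, C3]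

lemma lcell3 : ∀ x1 x2 xc : ℝ, 0 ≤ x1 → x1 ≤ 1 → 0 ≤ x2 → x2 ≤ 1 → C3.l ≤ xc → xc ≤ C3.u →
    (29637 / 16384 : ℝ) * (1 - (1 - x1) ^ 4) + (385281 / 32768 : ℝ) * (1 - (1 - x2) ^ 4) - ((174145 / 16384 : ℝ) + (95 / 256 : ℝ)) * (1 - (1 - xc) ^ 4)
      ≤ - C3.a1 * x1 - C3.a2 * x2 + C3.e * xc + C3.f := by
  have h := cell_lines 4 (α1 := (29637 / 16384 : ℝ)) (α2 := (385281 / 32768 : ℝ)) (c := (174145 / 16384 : ℝ) + (95 / 256 : ℝ)) (y1 := (5815 / 262144 : ℝ)) (y2 := (2925 / 131072 : ℝ))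
    (A1 := (28373157 / 4194304 : ℝ)) (B1 := (1391543 / 268435456 : ℝ)) (A2 := (5760937 / 131072 : ℝ)) (B2 := (9152609 / 268435456 : ℝ)) (l := (5181 / 262144 : ℝ)) (u := (1 / 32 : ℝ))
    (E := (-170791511 / 4194304 : ℝ)) (F := (-10573811 / 268435456 : ℝ)) (by norm_num) (by norm_num) (by norm_num) (by norm_num) (by norm_num)
    (by norm_num) (by norm_num) (by norm_num) (by norm_num) (by norm_num) (by norm_num) (by norm_num) (by norm_num) (by norm_num) (by norm_num)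
  have e1 : C3.l = (5181 / 262144 : ℝ) := rfl
  have e2 : C3.u = (1 / 32 : ℝ) := rfl
  have e3 : C3.a1 = -(28373157 / 4194304 : ℝ) := by norm_num [C3]
  have e4 : C3.a2 = -(5760937 / 131072 : ℝ) := by norm_num [C3]
  have e5 : C3.e = (-170791511 / 4194304 : ℝ) := rfl
  have e6 : C3.f = (1391543 / 268435456 : ℝ) + (9152609 / 268435456 : ℝ) + (-10573811 / 268435456 : ℝ) := by norm_num [C3]
  rw [e1, e2, e3, e4, e5, e6]
  exact h

/-- A chord cell of a link. -/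
noncomputable def P0C0 : Cell := ⟨(1 / 32 : ℝ), (8343 / 262144 : ℝ), (-13882659 / 2097152 : ℝ), (-99895423 / 2097152 : ℝ), (-182872719 / 4194304 : ℝ), (-1025991 / 1073741824 : ℝ)⟩

/-- A chord cell of a link. -/
noncomputable def P0C1 : Cell := ⟨(8343 / 262144 : ℝ), (4297 / 131072 : ℝ), (-13882659 / 2097152 : ℝ), (-49789377 / 1048576 : ℝ), (-182438737 / 4194304 : ℝ), (-214463 / 1073741824 : ℝ)⟩

/-- A chord cell of a link. -/
noncomputable def P0C2 : Cell := ⟨(4297 / 131072 : ℝ), (8851 / 262144 : ℝ), (-13881667 / 2097152 : ℝ), (-198516157 / 4194304 : ℝ), (-22736409 / 524288 : ℝ), (-216499 / 1073741824 : ℝ)⟩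

/-- A chord cell of a link. -/
noncomputable def P0C3 : Cell := ⟨(8851 / 262144 : ℝ), (9117 / 262144 : ℝ), (-13896383 / 2097152 : ℝ), (-197820195 / 4194304 : ℝ), (-181328787 / 4194304 : ℝ), (-213575 / 1073741824 : ℝ)⟩

/-- A chord cell of a link. -/
noncomputable def P0C4 : Cell := ⟨(9117 / 262144 : ℝ), (4695 / 131072 : ℝ), (-13885965 / 2097152 : ℝ), (-24647133 / 524288 : ℝ), (-180750309 / 4194304 : ℝ), (-212447 / 1073741824 : ℝ)⟩

/-- A chord cell of a link. -/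
noncomputable def P0C5 : Cell := ⟨(4695 / 131072 : ℝ), (1209 / 32768 : ℝ), (-27762343 / 4194304 : ℝ), (-196505137 / 4194304 : ℝ), (-90077973 / 2097152 : ℝ), (-215419 / 1073741824 : ℝ)⟩

/-- A chord cell of a link. -/
noncomputable def P0C6 : Cell := ⟨(1209 / 32768 : ℝ), (4981 / 131072 : ℝ), (-27762673 / 4194304 : ℝ), (-97902309 / 2097152 : ℝ), (-89772371 / 2097152 : ℝ), (-209723 / 1073741824 : ℝ)⟩

/-- A chord cell of a link. -/
noncomputable def P0C7 : Cell := ⟨(4981 / 131072 : ℝ), (10261 / 262144 : ℝ), (-6940751 / 1048576 : ℝ), (-195089587 / 4194304 : ℝ), (-44729205 / 1048576 : ℝ), (-206743 / 1073741824 : ℝ)⟩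

/-- A chord cell of a link. -/
noncomputable def P0C8 : Cell := ⟨(10261 / 262144 : ℝ), (10569 / 262144 : ℝ), (-6940999 / 1048576 : ℝ), (-97178927 / 2097152 : ℝ), (-89135621 / 2097152 : ℝ), (-204011 / 1073741824 : ℝ)⟩

/-- A chord cell of a link. -/
noncomputable def P0C9 : Cell := ⟨(10569 / 262144 : ℝ), (5443 / 131072 : ℝ), (-27773253 / 4194304 : ℝ), (-96802479 / 2097152 : ℝ), (-177608145 / 4194304 : ℝ), (-234147 / 1073741824 : ℝ)⟩

/-- A chord cell of a link. -/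
noncomputable def P0C10 : Cell := ⟨(5443 / 131072 : ℝ), (11213 / 262144 : ℝ), (-13888445 / 2097152 : ℝ), (-96417831 / 2097152 : ℝ), (-44231653 / 1048576 : ℝ), (-210687 / 1073741824 : ℝ)⟩

/-- A chord cell of a link. -/
noncomputable def P0C11 : Cell := ⟨(11213 / 262144 : ℝ), (11549 / 262144 : ℝ), (-13879849 / 2097152 : ℝ), (-192077555 / 4194304 : ℝ), (-176226795 / 4194304 : ℝ), (-257739 / 1073741824 : ℝ)⟩

/-- A chord cell of a link. -/
noncomputable def P0C12 : Cell := ⟨(11549 / 262144 : ℝ), (11895 / 262144 : ℝ), (-27386219 / 4194304 : ℝ), (-47919387 / 1048576 : ℝ), (-175508851 / 4194304 : ℝ), (-401735 / 1073741824 : ℝ)⟩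

/-- A chord cell of a link. -/
noncomputable def P0C13 : Cell := ⟨(11895 / 262144 : ℝ), (3063 / 65536 : ℝ), (-27220149 / 4194304 : ℝ), (-95507951 / 2097152 : ℝ), (-43692711 / 1048576 : ℝ), (-283831 / 1073741824 : ℝ)⟩

/-- A chord cell of a link. -/
noncomputable def P0C14 : Cell := ⟨(3063 / 65536 : ℝ), (3155 / 65536 : ℝ), (-1697327 / 262144 : ℝ), (-47557121 / 1048576 : ℝ), (-174011913 / 4194304 : ℝ), (-279979 / 1073741824 : ℝ)⟩

/-- A chord cell of a link. -/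
noncomputable def P0C15 : Cell := ⟨(3155 / 65536 : ℝ), (12999 / 262144 : ℝ), (-13561359 / 2097152 : ℝ), (-47347211 / 1048576 : ℝ), (-173232253 / 4194304 : ℝ), (-283011 / 1073741824 : ℝ)⟩

/-- A chord cell of a link. -/
noncomputable def P0C16 : Cell := ⟨(12999 / 262144 : ℝ), (3347 / 65536 : ℝ), (-3386273 / 524288 : ℝ), (-94261155 / 2097152 : ℝ), (-172433105 / 4194304 : ℝ), (-228791 / 1073741824 : ℝ)⟩

/-- A chord cell of a link. -/
noncomputable def P0C17 : Cell := ⟨(3347 / 65536 : ℝ), (6895 / 131072 : ℝ), (-27086607 / 4194304 : ℝ), (-187608881 / 4194304 : ℝ), (-21451575 / 524288 : ℝ), (-219631 / 1073741824 : ℝ)⟩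

/-- A chord cell of a link. -/
noncomputable def P0C18 : Cell := ⟨(6895 / 131072 : ℝ), (3551 / 65536 : ℝ), (-13533063 / 2097152 : ℝ), (-93368283 / 2097152 : ℝ), (-85384447 / 2097152 : ℝ), (-785783 / 1073741824 : ℝ)⟩

/-- A chord cell of a link. -/
noncomputable def P0C19 : Cell := ⟨(3551 / 65536 : ℝ), (7315 / 131072 : ℝ), (-13508377 / 2097152 : ℝ), (-46447721 / 1048576 : ℝ), (-84951633 / 2097152 : ℝ), (-383875 / 1073741824 : ℝ)⟩

/-- A chord cell of a link. -/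
noncomputable def P0C20 : Cell := ⟨(7315 / 131072 : ℝ), (15069 / 262144 : ℝ), (-13490855 / 2097152 : ℝ), (-46217117 / 1048576 : ℝ), (-84507469 / 2097152 : ℝ), (-749843 / 1073741824 : ℝ)⟩

/-- A chord cell of a link. -/
noncomputable def P0C21 : Cell := ⟨(15069 / 262144 : ℝ), (15521 / 262144 : ℝ), (-13448573 / 2097152 : ℝ), (-183911333 / 4194304 : ℝ), (-10506447 / 262144 : ℝ), (-379435 / 1073741824 : ℝ)⟩

/-- A chord cell of a link. -/
noncomputable def P0C22 : Cell := ⟨(15521 / 262144 : ℝ), (15987 / 262144 : ℝ), (-839353 / 131072 : ℝ), (-182917651 / 4194304 : ℝ), (-167167173 / 4194304 : ℝ), (-438383 / 1073741824 : ℝ)⟩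

/-- A chord cell of a link. -/
noncomputable def P0C23 : Cell := ⟨(15987 / 262144 : ℝ), (8233 / 131072 : ℝ), (-26856063 / 4194304 : ℝ), (-181892261 / 4194304 : ℝ), (-41551825 / 1048576 : ℝ), (-839759 / 1073741824 : ℝ)⟩

/-- A chord cell of a link. -/
noncomputable def P0C24 : Cell := ⟨(8233 / 131072 : ℝ), (265 / 4096 : ℝ), (-26720815 / 4194304 : ℝ), (-180932247 / 4194304 : ℝ), (-82611417 / 2097152 : ℝ), (-892235 / 1073741824 : ℝ)⟩

/-- A chord cell of a link. -/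
noncomputable def P0C25 : Cell := ⟨(265 / 4096 : ℝ), (17469 / 262144 : ℝ), (-26642907 / 4194304 : ℝ), (-179949335 / 4194304 : ℝ), (-41053023 / 1048576 : ℝ), (-1808003 / 1073741824 : ℝ)⟩

/-- A chord cell of a link. -/
noncomputable def P0C26 : Cell := ⟨(17469 / 262144 : ℝ), (17993 / 262144 : ℝ), (-26551351 / 4194304 : ℝ), (-178897991 / 4194304 : ℝ), (-163175435 / 4194304 : ℝ), (-1957739 / 1073741824 : ℝ)⟩

/-- A chord cell of a link. -/
noncomputable def P0C27 : Cell := ⟨(17993 / 262144 : ℝ), (9175 / 131072 : ℝ), (-1660643 / 262144 : ℝ), (-22239765 / 524288 : ℝ), (-162294663 / 4194304 : ℝ), (-2049359 / 1073741824 : ℝ)⟩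

/-- The chord cells of a link. -/
noncomputable def cellsP0 : List Cell := [P0C0, P0C1, P0C2, P0C3, P0C4, P0C5, P0C6, P0C7, P0C8, P0C9, P0C10, P0C11, P0C12, P0C13, P0C14, P0C15, P0C16, P0C17, P0C18, P0C19, P0C20, P0C21, P0C22, P0C23, P0C24, P0C25, P0C26, P0C27]

lemma hcoverP0 : ∀ x : ℝ, (1 / 32 : ℝ) ≤ x → x ≤ (9175 / 131072 : ℝ) → ∃ D ∈ cellsP0, D.l ≤ x ∧ x ≤ D.u := by
  refine cover_of_chain ?_ (by norm_num [P0C0])
  simp only [ChainP, P0C0, P0C1, P0C2, P0C3, P0C4, P0C5, P0C6, P0C7, P0C8, P0C9, P0C10, P0C11, P0C12, P0C13, P0C14, P0C15, P0C16, P0C17, P0C18, P0C19, P0C20, P0C21, P0C22, P0C23, P0C24, P0C25, P0C26, P0C27]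
  norm_num

lemma rP0C0 : ∃ N : ℝ, Rw4 P.r2 N (coCell (3817 / 2048 : ℝ) (52837 / 4096 : ℝ) (12 : ℝ) 0 P0C0) := by
  refine ⟨(3221225472 : ℝ), ⟨Q7, List.mem_cons_of_mem _ (List.mem_cons_of_mem _ (List.mem_cons_of_mem _ (List.mem_cons_of_mem _ (List.mem_cons_of_mem _ (List.mem_cons_of_mem _ (List.mem_cons_of_mem _ (List.mem_cons_self))))))), ?_⟩, by norm_num⟩
  constructor <;> norm_num [Q7, coCell, P0C0]

lemma lP0C0 : ∀ x1 x2 xc : ℝ, 0 ≤ x1 → x1 ≤ 1 → 0 ≤ x2 → x2 ≤ 1 → P0C0.l ≤ xc → xc ≤ P0C0.u →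
    (3817 / 2048 : ℝ) * (1 - (1 - x1) ^ 4) + (52837 / 4096 : ℝ) * (1 - (1 - x2) ^ 4) - (12 : ℝ) * (1 - (1 - xc) ^ 4) + (1 / 1073741824 : ℝ)
      ≤ - P0C0.a1 * x1 - P0C0.a2 * x2 + P0C0.e * xc + P0C0.f := by
  have h := cell_lines_delta 4 (α1 := (3817 / 2048 : ℝ)) (α2 := (52837 / 4096 : ℝ)) (c := (12 : ℝ)) (y1 := (10181 / 262144 : ℝ)) (y2 := (3447 / 131072 : ℝ))
    (A1 := (13882659 / 2097152 : ℝ)) (B1 := (4296723 / 268435456 : ℝ)) (A2 := (99895423 / 2097152 : ℝ)) (B2 := (3467575 / 67108864 : ℝ)) (l := (1 / 32 : ℝ)) (u := (8343 / 262144 : ℝ))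
    (E := (-182872719 / 4194304 : ℝ)) (F := (-18423521 / 268435456 : ℝ)) (δ := (1 / 1073741824 : ℝ)) (by norm_num) (by norm_num) (by norm_num) (by norm_num) (by norm_num)
    (by norm_num) (by norm_num) (by norm_num) (by norm_num) (by norm_num) (by norm_num) (by norm_num) (by norm_num) (by norm_num) (by norm_num)
  have e1 : P0C0.l = (1 / 32 : ℝ) := rfl
  have e2 : P0C0.u = (8343 / 262144 : ℝ) := rfl
  have e3 : P0C0.a1 = -(13882659 / 2097152 : ℝ) := by norm_num [P0C0]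
  have e4 : P0C0.a2 = -(99895423 / 2097152 : ℝ) := by norm_num [P0C0]
  have e5 : P0C0.e = (-182872719 / 4194304 : ℝ) := rfl
  have e6 : P0C0.f = (4296723 / 268435456 : ℝ) + (3467575 / 67108864 : ℝ) + (-18423521 / 268435456 : ℝ) + (1 / 1073741824 : ℝ) := by norm_num [P0C0]
  rw [e1, e2, e3, e4, e5, e6]
  exact h

lemma rP0C1 : ∃ N : ℝ, Rw4 P.r2 N (coCell (3817 / 2048 : ℝ) (52837 / 4096 : ℝ) (12 : ℝ) 0 P0C1) := by
  refine ⟨(3221225472 : ℝ), ⟨Q8, List.mem_cons_of_mem _ (List.mem_cons_of_mem _ (List.mem_cons_of_mem _ (List.mem_cons_of_mem _ (List.mem_cons_of_mem _ (List.mem_cons_of_mem _ (List.mem_cons_of_mem _ (List.mem_cons_of_mem _ (List.mem_cons_self)))))))), ?_⟩, by norm_num⟩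
  constructor <;> norm_num [Q8, coCell, P0C1]

lemma lP0C1 : ∀ x1 x2 xc : ℝ, 0 ≤ x1 → x1 ≤ 1 → 0 ≤ x2 → x2 ≤ 1 → P0C1.l ≤ xc → xc ≤ P0C1.u →
    (3817 / 2048 : ℝ) * (1 - (1 - x1) ^ 4) + (52837 / 4096 : ℝ) * (1 - (1 - x2) ^ 4) - (12 : ℝ) * (1 - (1 - xc) ^ 4) + (1 / 1073741824 : ℝ)
      ≤ - P0C1.a1 * x1 - P0C1.a2 * x2 + P0C1.e * xc + P0C1.f := by
  have h := cell_lines_delta 4 (α1 := (3817 / 2048 : ℝ)) (α2 := (52837 / 4096 : ℝ)) (c := (12 : ℝ)) (y1 := (10181 / 262144 : ℝ)) (y2 := (1791 / 65536 : ℝ))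
    (A1 := (13882659 / 2097152 : ℝ)) (B1 := (4296723 / 268435456 : ℝ)) (A2 := (49789377 / 1048576 : ℝ)) (B2 := (14957145 / 268435456 : ℝ)) (l := (8343 / 262144 : ℝ)) (u := (4297 / 131072 : ℝ))
    (E := (-182438737 / 4194304 : ℝ)) (F := (-4826871 / 67108864 : ℝ)) (δ := (1 / 1073741824 : ℝ)) (by norm_num) (by norm_num) (by norm_num) (by norm_num) (by norm_num)
    (by norm_num) (by norm_num) (by norm_num) (by norm_num) (by norm_num) (by norm_num) (by norm_num) (by norm_num) (by norm_num) (by norm_num)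
  have e1 : P0C1.l = (8343 / 262144 : ℝ) := rfl
  have e2 : P0C1.u = (4297 / 131072 : ℝ) := rfl
  have e3 : P0C1.a1 = -(13882659 / 2097152 : ℝ) := by norm_num [P0C1]
  have e4 : P0C1.a2 = -(49789377 / 1048576 : ℝ) := by norm_num [P0C1]
  have e5 : P0C1.e = (-182438737 / 4194304 : ℝ) := rfl
  have e6 : P0C1.f = (4296723 / 268435456 : ℝ) + (14957145 / 268435456 : ℝ) + (-4826871 / 67108864 : ℝ) + (1 / 1073741824 : ℝ) := by norm_num [P0C1]
  rw [e1, e2, e3, e4, e5, e6]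
  exact h

lemma rP0C2 : ∃ N : ℝ, Rw4 P.r2 N (coCell (3817 / 2048 : ℝ) (52837 / 4096 : ℝ) (12 : ℝ) 0 P0C2) := by
  refine ⟨(3221225472 : ℝ), ⟨Q9, List.mem_cons_of_mem _ (List.mem_cons_of_mem _ (List.mem_cons_of_mem _ (List.mem_cons_of_mem _ (List.mem_cons_of_mem _ (List.mem_cons_of_mem _ (List.mem_cons_of_mem _ (List.mem_cons_of_mem _ (List.mem_cons_of_mem _ (List.mem_cons_self))))))))), ?_⟩, by norm_num⟩
  constructor <;> norm_num [Q9, coCell, P0C2]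

lemma lP0C2 : ∀ x1 x2 xc : ℝ, 0 ≤ x1 → x1 ≤ 1 → 0 ≤ x2 → x2 ≤ 1 → P0C2.l ≤ xc → xc ≤ P0C2.u →
    (3817 / 2048 : ℝ) * (1 - (1 - x1) ^ 4) + (52837 / 4096 : ℝ) * (1 - (1 - x2) ^ 4) - (12 : ℝ) * (1 - (1 - xc) ^ 4) + (1 / 1073741824 : ℝ)
      ≤ - P0C2.a1 * x1 - P0C2.a2 * x2 + P0C2.e * xc + P0C2.f := by
  have h := cell_lines_delta 4 (α1 := (3817 / 2048 : ℝ)) (α2 := (52837 / 4096 : ℝ)) (c := (12 : ℝ)) (y1 := (10187 / 262144 : ℝ)) (y2 := (3719 / 131072 : ℝ))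
    (A1 := (13881667 / 2097152 : ℝ)) (B1 := (2150839 / 134217728 : ℝ)) (A2 := (198516157 / 4194304 : ℝ)) (B2 := (8050171 / 134217728 : ℝ)) (l := (4297 / 131072 : ℝ)) (u := (8851 / 262144 : ℝ))
    (E := (-22736409 / 524288 : ℝ)) (F := (-20456145 / 268435456 : ℝ)) (δ := (1 / 1073741824 : ℝ)) (by norm_num) (by norm_num) (by norm_num) (by norm_num) (by norm_num)
    (by norm_num) (by norm_num) (by norm_num) (by norm_num) (by norm_num) (by norm_num) (by norm_num) (by norm_num) (by norm_num) (by norm_num)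
  have e1 : P0C2.l = (4297 / 131072 : ℝ) := rfl
  have e2 : P0C2.u = (8851 / 262144 : ℝ) := rfl
  have e3 : P0C2.a1 = -(13881667 / 2097152 : ℝ) := by norm_num [P0C2]
  have e4 : P0C2.a2 = -(198516157 / 4194304 : ℝ) := by norm_num [P0C2]
  have e5 : P0C2.e = (-22736409 / 524288 : ℝ) := rfl
  have e6 : P0C2.f = (2150839 / 134217728 : ℝ) + (8050171 / 134217728 : ℝ) + (-20456145 / 268435456 : ℝ) + (1 / 1073741824 : ℝ) := by norm_num [P0C2]
  rw [e1, e2, e3, e4, e5, e6]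
  exact h

lemma rP0C3 : ∃ N : ℝ, Rw4 P.r2 N (coCell (3817 / 2048 : ℝ) (52837 / 4096 : ℝ) (12 : ℝ) 0 P0C3) := by
  refine ⟨(3221225472 : ℝ), ⟨Q10, List.mem_cons_of_mem _ (List.mem_cons_of_mem _ (List.mem_cons_of_mem _ (List.mem_cons_of_mem _ (List.mem_cons_of_mem _ (List.mem_cons_of_mem _ (List.mem_cons_of_mem _ (List.mem_cons_of_mem _ (List.mem_cons_of_mem _ (List.mem_cons_of_mem _ (List.mem_cons_self)))))))))), ?_⟩, by norm_num⟩
  constructor <;> norm_num [Q10, coCell, P0C3]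

lemma lP0C3 : ∀ x1 x2 xc : ℝ, 0 ≤ x1 → x1 ≤ 1 → 0 ≤ x2 → x2 ≤ 1 → P0C3.l ≤ xc → xc ≤ P0C3.u →
    (3817 / 2048 : ℝ) * (1 - (1 - x1) ^ 4) + (52837 / 4096 : ℝ) * (1 - (1 - x2) ^ 4) - (12 : ℝ) * (1 - (1 - xc) ^ 4) + (1 / 1073741824 : ℝ)
      ≤ - P0C3.a1 * x1 - P0C3.a2 * x2 + P0C3.e * xc + P0C3.f := by
  have h := cell_lines_delta 4 (α1 := (3817 / 2048 : ℝ)) (α2 := (52837 / 4096 : ℝ)) (c := (12 : ℝ)) (y1 := (5049 / 131072 : ℝ)) (y2 := (967 / 32768 : ℝ))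
    (A1 := (13896383 / 2097152 : ℝ)) (B1 := (4228777 / 268435456 : ℝ)) (A2 := (197820195 / 4194304 : ℝ)) (B2 := (17389441 / 268435456 : ℝ)) (l := (8851 / 262144 : ℝ)) (u := (9117 / 262144 : ℝ))
    (E := (-181328787 / 4194304 : ℝ)) (F := (-5417903 / 67108864 : ℝ)) (δ := (1 / 1073741824 : ℝ)) (by norm_num) (by norm_num) (by norm_num) (by norm_num) (by norm_num)
    (by norm_num) (by norm_num) (by norm_num) (by norm_num) (by norm_num) (by norm_num) (by norm_num) (by norm_num) (by norm_num) (by norm_num)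
  have e1 : P0C3.l = (8851 / 262144 : ℝ) := rfl
  have e2 : P0C3.u = (9117 / 262144 : ℝ) := rfl
  have e3 : P0C3.a1 = -(13896383 / 2097152 : ℝ) := by norm_num [P0C3]
  have e4 : P0C3.a2 = -(197820195 / 4194304 : ℝ) := by norm_num [P0C3]
  have e5 : P0C3.e = (-181328787 / 4194304 : ℝ) := rfl
  have e6 : P0C3.f = (4228777 / 268435456 : ℝ) + (17389441 / 268435456 : ℝ) + (-5417903 / 67108864 : ℝ) + (1 / 1073741824 : ℝ) := by norm_num [P0C3]
  rw [e1, e2, e3, e4, e5, e6]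
  exact h

lemma rP0C4 : ∃ N : ℝ, Rw4 P.r2 N (coCell (3817 / 2048 : ℝ) (52837 / 4096 : ℝ) (12 : ℝ) 0 P0C4) := by
  refine ⟨(3221225472 : ℝ), ⟨Q11, List.mem_cons_of_mem _ (List.mem_cons_of_mem _ (List.mem_cons_of_mem _ (List.mem_cons_of_mem _ (List.mem_cons_of_mem _ (List.mem_cons_of_mem _ (List.mem_cons_of_mem _ (List.mem_cons_of_mem _ (List.mem_cons_of_mem _ (List.mem_cons_of_mem _ (List.mem_cons_of_mem _ (List.mem_cons_self))))))))))), ?_⟩, by norm_num⟩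
  constructor <;> norm_num [Q11, coCell, P0C4]

lemma lP0C4 : ∀ x1 x2 xc : ℝ, 0 ≤ x1 → x1 ≤ 1 → 0 ≤ x2 → x2 ≤ 1 → P0C4.l ≤ xc → xc ≤ P0C4.u →
    (3817 / 2048 : ℝ) * (1 - (1 - x1) ^ 4) + (52837 / 4096 : ℝ) * (1 - (1 - x2) ^ 4) - (12 : ℝ) * (1 - (1 - xc) ^ 4) + (1 / 1073741824 : ℝ)
      ≤ - P0C4.a1 * x1 - P0C4.a2 * x2 + P0C4.e * xc + P0C4.f := by
  have h := cell_lines_delta 4 (α1 := (3817 / 2048 : ℝ)) (α2 := (52837 / 4096 : ℝ)) (c := (12 : ℝ)) (y1 := (10161 / 262144 : ℝ)) (y2 := (2003 / 65536 : ℝ))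
    (A1 := (13885965 / 2097152 : ℝ)) (B1 := (4280313 / 268435456 : ℝ)) (A2 := (24647133 / 524288 : ℝ)) (B2 := (18625781 / 268435456 : ℝ)) (l := (9117 / 262144 : ℝ)) (u := (4695 / 131072 : ℝ))
    (E := (-180750309 / 4194304 : ℝ)) (F := (-11479603 / 134217728 : ℝ)) (δ := (1 / 1073741824 : ℝ)) (by norm_num) (by norm_num) (by norm_num) (by norm_num) (by norm_num)
    (by norm_num) (by norm_num) (by norm_num) (by norm_num) (by norm_num) (by norm_num) (by norm_num) (by norm_num) (by norm_num) (by norm_num)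
  have e1 : P0C4.l = (9117 / 262144 : ℝ) := rfl
  have e2 : P0C4.u = (4695 / 131072 : ℝ) := rfl
  have e3 : P0C4.a1 = -(13885965 / 2097152 : ℝ) := by norm_num [P0C4]
  have e4 : P0C4.a2 = -(24647133 / 524288 : ℝ) := by norm_num [P0C4]
  have e5 : P0C4.e = (-180750309 / 4194304 : ℝ) := rfl
  have e6 : P0C4.f = (4280313 / 268435456 : ℝ) + (18625781 / 268435456 : ℝ) + (-11479603 / 134217728 : ℝ) + (1 / 1073741824 : ℝ) := by norm_num [P0C4]
  rw [e1, e2, e3, e4, e5, e6]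
  exact h

lemma rP0C5 : ∃ N : ℝ, Rw4 P.r2 N (coCell (3817 / 2048 : ℝ) (52837 / 4096 : ℝ) (12 : ℝ) 0 P0C5) := by
  refine ⟨(3221225472 : ℝ), ⟨Q12, List.mem_cons_of_mem _ (List.mem_cons_of_mem _ (List.mem_cons_of_mem _ (List.mem_cons_of_mem _ (List.mem_cons_of_mem _ (List.mem_cons_of_mem _ (List.mem_cons_of_mem _ (List.mem_cons_of_mem _ (List.mem_cons_of_mem _ (List.mem_cons_of_mem _ (List.mem_cons_of_mem _ (List.mem_cons_of_mem _ (List.mem_cons_self)))))))))))), ?_⟩, by norm_num⟩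
  constructor <;> norm_num [Q12, coCell, P0C5]

lemma lP0C5 : ∀ x1 x2 xc : ℝ, 0 ≤ x1 → x1 ≤ 1 → 0 ≤ x2 → x2 ≤ 1 → P0C5.l ≤ xc → xc ≤ P0C5.u →
    (3817 / 2048 : ℝ) * (1 - (1 - x1) ^ 4) + (52837 / 4096 : ℝ) * (1 - (1 - x2) ^ 4) - (12 : ℝ) * (1 - (1 - xc) ^ 4) + (1 / 1073741824 : ℝ)
      ≤ - P0C5.a1 * x1 - P0C5.a2 * x2 + P0C5.e * xc + P0C5.f := by
  have h := cell_lines_delta 4 (α1 := (3817 / 2048 : ℝ)) (α2 := (52837 / 4096 : ℝ)) (c := (12 : ℝ)) (y1 := (5095 / 131072 : ℝ)) (y2 := (8301 / 262144 : ℝ))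
    (A1 := (27762343 / 4194304 : ℝ)) (B1 := (4304121 / 268435456 : ℝ)) (A2 := (196505137 / 4194304 : ℝ)) (B2 := (4990949 / 67108864 : ℝ)) (l := (4695 / 131072 : ℝ)) (u := (1209 / 32768 : ℝ))
    (E := (-90077973 / 2097152 : ℝ)) (F := (-6080443 / 67108864 : ℝ)) (δ := (1 / 1073741824 : ℝ)) (by norm_num) (by norm_num) (by norm_num) (by norm_num) (by norm_num)
    (by norm_num) (by norm_num) (by norm_num) (by norm_num) (by norm_num) (by norm_num) (by norm_num) (by norm_num) (by norm_num) (by norm_num)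
  have e1 : P0C5.l = (4695 / 131072 : ℝ) := rfl
  have e2 : P0C5.u = (1209 / 32768 : ℝ) := rfl
  have e3 : P0C5.a1 = -(27762343 / 4194304 : ℝ) := by norm_num [P0C5]
  have e4 : P0C5.a2 = -(196505137 / 4194304 : ℝ) := by norm_num [P0C5]
  have e5 : P0C5.e = (-90077973 / 2097152 : ℝ) := rfl
  have e6 : P0C5.f = (4304121 / 268435456 : ℝ) + (4990949 / 67108864 : ℝ) + (-6080443 / 67108864 : ℝ) + (1 / 1073741824 : ℝ) := by norm_num [P0C5]
  rw [e1, e2, e3, e4, e5, e6]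
  exact h

lemma rP0C6 : ∃ N : ℝ, Rw4 P.r2 N (coCell (3817 / 2048 : ℝ) (52837 / 4096 : ℝ) (12 : ℝ) 0 P0C6) := by
  refine ⟨(3221225472 : ℝ), ⟨Q13, List.mem_cons_of_mem _ (List.mem_cons_of_mem _ (List.mem_cons_of_mem _ (List.mem_cons_of_mem _ (List.mem_cons_of_mem _ (List.mem_cons_of_mem _ (List.mem_cons_of_mem _ (List.mem_cons_of_mem _ (List.mem_cons_of_mem _ (List.mem_cons_of_mem _ (List.mem_cons_of_mem _ (List.mem_cons_of_mem _ (List.mem_cons_of_mem _ (List.mem_cons_self))))))))))))), ?_⟩, by norm_num⟩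
  constructor <;> norm_num [Q13, coCell, P0C6]

lemma lP0C6 : ∀ x1 x2 xc : ℝ, 0 ≤ x1 → x1 ≤ 1 → 0 ≤ x2 → x2 ≤ 1 → P0C6.l ≤ xc → xc ≤ P0C6.u →
    (3817 / 2048 : ℝ) * (1 - (1 - x1) ^ 4) + (52837 / 4096 : ℝ) * (1 - (1 - x2) ^ 4) - (12 : ℝ) * (1 - (1 - xc) ^ 4) + (1 / 1073741824 : ℝ)
      ≤ - P0C6.a1 * x1 - P0C6.a2 * x2 + P0C6.e * xc + P0C6.f := by
  have h := cell_lines_delta 4 (α1 := (3817 / 2048 : ℝ)) (α2 := (52837 / 4096 : ℝ)) (c := (12 : ℝ)) (y1 := (10189 / 262144 : ℝ)) (y2 := (8603 / 262144 : ℝ))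
    (A1 := (27762673 / 4194304 : ℝ)) (B1 := (2151657 / 134217728 : ℝ)) (A2 := (97902309 / 2097152 : ℝ)) (B2 := (41815 / 524288 : ℝ)) (l := (1209 / 32768 : ℝ)) (u := (4981 / 131072 : ℝ))
    (E := (-89772371 / 2097152 : ℝ)) (F := (-25765025 / 268435456 : ℝ)) (δ := (1 / 1073741824 : ℝ)) (by norm_num) (by norm_num) (by norm_num) (by norm_num) (by norm_num)
    (by norm_num) (by norm_num) (by norm_num) (by norm_num) (by norm_num) (by norm_num) (by norm_num) (by norm_num) (by norm_num) (by norm_num)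
  have e1 : P0C6.l = (1209 / 32768 : ℝ) := rfl
  have e2 : P0C6.u = (4981 / 131072 : ℝ) := rfl
  have e3 : P0C6.a1 = -(27762673 / 4194304 : ℝ) := by norm_num [P0C6]
  have e4 : P0C6.a2 = -(97902309 / 2097152 : ℝ) := by norm_num [P0C6]
  have e5 : P0C6.e = (-89772371 / 2097152 : ℝ) := rfl
  have e6 : P0C6.f = (2151657 / 134217728 : ℝ) + (41815 / 524288 : ℝ) + (-25765025 / 268435456 : ℝ) + (1 / 1073741824 : ℝ) := by norm_num [P0C6]
  rw [e1, e2, e3, e4, e5, e6]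
  exact h

lemma rP0C7 : ∃ N : ℝ, Rw4 P.r2 N (coCell (3817 / 2048 : ℝ) (52837 / 4096 : ℝ) (12 : ℝ) 0 P0C7) := by
  refine ⟨(3221225472 : ℝ), ⟨Q14, List.mem_cons_of_mem _ (List.mem_cons_of_mem _ (List.mem_cons_of_mem _ (List.mem_cons_of_mem _ (List.mem_cons_of_mem _ (List.mem_cons_of_mem _ (List.mem_cons_of_mem _ (List.mem_cons_of_mem _ (List.mem_cons_of_mem _ (List.mem_cons_of_mem _ (List.mem_cons_of_mem _ (List.mem_cons_of_mem _ (List.mem_cons_of_mem _ (List.mem_cons_of_mem _ (List.mem_cons_self)))))))))))))), ?_⟩, by norm_num⟩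
  constructor <;> norm_num [Q14, coCell, P0C7]

lemma lP0C7 : ∀ x1 x2 xc : ℝ, 0 ≤ x1 → x1 ≤ 1 → 0 ≤ x2 → x2 ≤ 1 → P0C7.l ≤ xc → xc ≤ P0C7.u →
    (3817 / 2048 : ℝ) * (1 - (1 - x1) ^ 4) + (52837 / 4096 : ℝ) * (1 - (1 - x2) ^ 4) - (12 : ℝ) * (1 - (1 - xc) ^ 4) + (1 / 1073741824 : ℝ)
      ≤ - P0C7.a1 * x1 - P0C7.a2 * x2 + P0C7.e * xc + P0C7.f := by
  have h := cell_lines_delta 4 (α1 := (3817 / 2048 : ℝ)) (α2 := (52837 / 4096 : ℝ)) (c := (12 : ℝ)) (y1 := (2547 / 65536 : ℝ)) (y2 := (557 / 16384 : ℝ))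
    (A1 := (6940751 / 1048576 : ℝ)) (B1 := (1075619 / 67108864 : ℝ)) (A2 := (195089587 / 4194304 : ℝ)) (B2 := (11469025 / 134217728 : ℝ)) (l := (4981 / 131072 : ℝ)) (u := (10261 / 262144 : ℝ))
    (E := (-44729205 / 1048576 : ℝ)) (F := (-6823053 / 67108864 : ℝ)) (δ := (1 / 1073741824 : ℝ)) (by norm_num) (by norm_num) (by norm_num) (by norm_num) (by norm_num)
    (by norm_num) (by norm_num) (by norm_num) (by norm_num) (by norm_num) (by norm_num) (by norm_num) (by norm_num) (by norm_num) (by norm_num)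
  have e1 : P0C7.l = (4981 / 131072 : ℝ) := rfl
  have e2 : P0C7.u = (10261 / 262144 : ℝ) := rfl
  have e3 : P0C7.a1 = -(6940751 / 1048576 : ℝ) := by norm_num [P0C7]
  have e4 : P0C7.a2 = -(195089587 / 4194304 : ℝ) := by norm_num [P0C7]
  have e5 : P0C7.e = (-44729205 / 1048576 : ℝ) := rfl
  have e6 : P0C7.f = (1075619 / 67108864 : ℝ) + (11469025 / 134217728 : ℝ) + (-6823053 / 67108864 : ℝ) + (1 / 1073741824 : ℝ) := by norm_num [P0C7]
  rw [e1, e2, e3, e4, e5, e6]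
  exact h

lemma rP0C8 : ∃ N : ℝ, Rw4 P.r2 N (coCell (3817 / 2048 : ℝ) (52837 / 4096 : ℝ) (12 : ℝ) 0 P0C8) := by
  refine ⟨(3221225472 : ℝ), ⟨Q15, List.mem_cons_of_mem _ (List.mem_cons_of_mem _ (List.mem_cons_of_mem _ (List.mem_cons_of_mem _ (List.mem_cons_of_mem _ (List.mem_cons_of_mem _ (List.mem_cons_of_mem _ (List.mem_cons_of_mem _ (List.mem_cons_of_mem _ (List.mem_cons_of_mem _ (List.mem_cons_of_mem _ (List.mem_cons_of_mem _ (List.mem_cons_of_mem _ (List.mem_cons_of_mem _ (List.mem_cons_of_mem _ (List.mem_cons_self))))))))))))))), ?_⟩, by norm_num⟩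
  constructor <;> norm_num [Q15, coCell, P0C8]

lemma lP0C8 : ∀ x1 x2 xc : ℝ, 0 ≤ x1 → x1 ≤ 1 → 0 ≤ x2 → x2 ≤ 1 → P0C8.l ≤ xc → xc ≤ P0C8.u →
    (3817 / 2048 : ℝ) * (1 - (1 - x1) ^ 4) + (52837 / 4096 : ℝ) * (1 - (1 - x2) ^ 4) - (12 : ℝ) * (1 - (1 - xc) ^ 4) + (1 / 1073741824 : ℝ)
      ≤ - P0C8.a1 * x1 - P0C8.a2 * x2 + P0C8.e * xc + P0C8.f := by
  have h := cell_lines_delta 4 (α1 := (3817 / 2048 : ℝ)) (α2 := (52837 / 4096 : ℝ)) (c := (12 : ℝ)) (y1 := (10185 / 262144 : ℝ)) (y2 := (9229 / 262144 : ℝ))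
    (A1 := (6940999 / 1048576 : ℝ)) (B1 := (2150005 / 134217728 : ℝ)) (A2 := (97178927 / 2097152 : ℝ)) (B2 := (12279227 / 134217728 : ℝ)) (l := (10261 / 262144 : ℝ)) (u := (10569 / 262144 : ℝ))
    (E := (-89135621 / 2097152 : ℝ)) (F := (-28909467 / 268435456 : ℝ)) (δ := (1 / 1073741824 : ℝ)) (by norm_num) (by norm_num) (by norm_num) (by norm_num) (by norm_num)
    (by norm_num) (by norm_num) (by norm_num) (by norm_num) (by norm_num) (by norm_num) (by norm_num) (by norm_num) (by norm_num) (by norm_num)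
  have e1 : P0C8.l = (10261 / 262144 : ℝ) := rfl
  have e2 : P0C8.u = (10569 / 262144 : ℝ) := rfl
  have e3 : P0C8.a1 = -(6940999 / 1048576 : ℝ) := by norm_num [P0C8]
  have e4 : P0C8.a2 = -(97178927 / 2097152 : ℝ) := by norm_num [P0C8]
  have e5 : P0C8.e = (-89135621 / 2097152 : ℝ) := rfl
  have e6 : P0C8.f = (2150005 / 134217728 : ℝ) + (12279227 / 134217728 : ℝ) + (-28909467 / 268435456 : ℝ) + (1 / 1073741824 : ℝ) := by norm_num [P0C8]
  rw [e1, e2, e3, e4, e5, e6]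
  exact h

lemma rP0C9 : ∃ N : ℝ, Rw4 P.r2 N (coCell (3817 / 2048 : ℝ) (52837 / 4096 : ℝ) (12 : ℝ) 0 P0C9) := by
  refine ⟨(3221225472 : ℝ), ⟨Q16, List.mem_cons_of_mem _ (List.mem_cons_of_mem _ (List.mem_cons_of_mem _ (List.mem_cons_of_mem _ (List.mem_cons_of_mem _ (List.mem_cons_of_mem _ (List.mem_cons_of_mem _ (List.mem_cons_of_mem _ (List.mem_cons_of_mem _ (List.mem_cons_of_mem _ (List.mem_cons_of_mem _ (List.mem_cons_of_mem _ (List.mem_cons_of_mem _ (List.mem_cons_of_mem _ (List.mem_cons_of_mem _ (List.mem_cons_of_mem _ (List.mem_cons_self)))))))))))))))), ?_⟩, by norm_num⟩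
  constructor <;> norm_num [Q16, coCell, P0C9]

lemma lP0C9 : ∀ x1 x2 xc : ℝ, 0 ≤ x1 → x1 ≤ 1 → 0 ≤ x2 → x2 ≤ 1 → P0C9.l ≤ xc → xc ≤ P0C9.u →
    (3817 / 2048 : ℝ) * (1 - (1 - x1) ^ 4) + (52837 / 4096 : ℝ) * (1 - (1 - x2) ^ 4) - (12 : ℝ) * (1 - (1 - xc) ^ 4) + (1 / 1073741824 : ℝ)
      ≤ - P0C9.a1 * x1 - P0C9.a2 * x2 + P0C9.e * xc + P0C9.f := by
  have h := cell_lines_delta 4 (α1 := (3817 / 2048 : ℝ)) (α2 := (52837 / 4096 : ℝ)) (c := (12 : ℝ)) (y1 := (10157 / 262144 : ℝ)) (y2 := (2389 / 65536 : ℝ))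
    (A1 := (27773253 / 4194304 : ℝ)) (B1 := (4277023 / 268435456 : ℝ)) (A2 := (96802479 / 2097152 : ℝ)) (B2 := (26284911 / 268435456 : ℝ)) (l := (10569 / 262144 : ℝ)) (u := (5443 / 131072 : ℝ))
    (E := (-177608145 / 4194304 : ℝ)) (F := (-30620471 / 268435456 : ℝ)) (δ := (1 / 1073741824 : ℝ)) (by norm_num) (by norm_num) (by norm_num) (by norm_num) (by norm_num)
    (by norm_num) (by norm_num) (by norm_num) (by norm_num) (by norm_num) (by norm_num) (by norm_num) (by norm_num) (by norm_num) (by norm_num)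
  have e1 : P0C9.l = (10569 / 262144 : ℝ) := rfl
  have e2 : P0C9.u = (5443 / 131072 : ℝ) := rfl
  have e3 : P0C9.a1 = -(27773253 / 4194304 : ℝ) := by norm_num [P0C9]
  have e4 : P0C9.a2 = -(96802479 / 2097152 : ℝ) := by norm_num [P0C9]
  have e5 : P0C9.e = (-177608145 / 4194304 : ℝ) := rfl
  have e6 : P0C9.f = (4277023 / 268435456 : ℝ) + (26284911 / 268435456 : ℝ) + (-30620471 / 268435456 : ℝ) + (1 / 1073741824 : ℝ) := by norm_num [P0C9]
  rw [e1, e2, e3, e4, e5, e6]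
  exact h

lemma rP0C10 : ∃ N : ℝ, Rw4 P.r2 N (coCell (3817 / 2048 : ℝ) (52837 / 4096 : ℝ) (12 : ℝ) 0 P0C10) := by
  refine ⟨(3221225472 : ℝ), ⟨Q17, List.mem_cons_of_mem _ (List.mem_cons_of_mem _ (List.mem_cons_of_mem _ (List.mem_cons_of_mem _ (List.mem_cons_of_mem _ (List.mem_cons_of_mem _ (List.mem_cons_of_mem _ (List.mem_cons_of_mem _ (List.mem_cons_of_mem _ (List.mem_cons_of_mem _ (List.mem_cons_of_mem _ (List.mem_cons_of_mem _ (List.mem_cons_of_mem _ (List.mem_cons_of_mem _ (List.mem_cons_of_mem _ (List.mem_cons_of_mem _ (List.mem_cons_of_mem _ (List.mem_cons_self))))))))))))))))), ?_⟩, by norm_num⟩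
  constructor <;> norm_num [Q17, coCell, P0C10]

lemma lP0C10 : ∀ x1 x2 xc : ℝ, 0 ≤ x1 → x1 ≤ 1 → 0 ≤ x2 → x2 ≤ 1 → P0C10.l ≤ xc → xc ≤ P0C10.u →
    (3817 / 2048 : ℝ) * (1 - (1 - x1) ^ 4) + (52837 / 4096 : ℝ) * (1 - (1 - x2) ^ 4) - (12 : ℝ) * (1 - (1 - xc) ^ 4) + (1 / 1073741824 : ℝ)
      ≤ - P0C10.a1 * x1 - P0C10.a2 * x2 + P0C10.e * xc + P0C10.f := by
  have h := cell_lines_delta 4 (α1 := (3817 / 2048 : ℝ)) (α2 := (52837 / 4096 : ℝ)) (c := (12 : ℝ)) (y1 := (5073 / 131072 : ℝ)) (y2 := (9891 / 262144 : ℝ))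
    (A1 := (13888445 / 2097152 : ℝ)) (B1 := (4268011 / 268435456 : ℝ)) (A2 := (96417831 / 2097152 : ℝ)) (B2 := (7027777 / 67108864 : ℝ)) (l := (5443 / 131072 : ℝ)) (u := (11213 / 262144 : ℝ))
    (E := (-44231653 / 1048576 : ℝ)) (F := (-32431791 / 268435456 : ℝ)) (δ := (1 / 1073741824 : ℝ)) (by norm_num) (by norm_num) (by norm_num) (by norm_num) (by norm_num)
    (by norm_num) (by norm_num) (by norm_num) (by norm_num) (by norm_num) (by norm_num) (by norm_num) (by norm_num) (by norm_num) (by norm_num)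
  have e1 : P0C10.l = (5443 / 131072 : ℝ) := rfl
  have e2 : P0C10.u = (11213 / 262144 : ℝ) := rfl
  have e3 : P0C10.a1 = -(13888445 / 2097152 : ℝ) := by norm_num [P0C10]
  have e4 : P0C10.a2 = -(96417831 / 2097152 : ℝ) := by norm_num [P0C10]
  have e5 : P0C10.e = (-44231653 / 1048576 : ℝ) := rfl
  have e6 : P0C10.f = (4268011 / 268435456 : ℝ) + (7027777 / 67108864 : ℝ) + (-32431791 / 268435456 : ℝ) + (1 / 1073741824 : ℝ) := by norm_num [P0C10]
  rw [e1, e2, e3, e4, e5, e6]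
  exact h

lemma rP0C11 : ∃ N : ℝ, Rw4 P.r2 N (coCell (3817 / 2048 : ℝ) (52837 / 4096 : ℝ) (12 : ℝ) 0 P0C11) := by
  refine ⟨(3221225472 : ℝ), ⟨Q18, List.mem_cons_of_mem _ (List.mem_cons_of_mem _ (List.mem_cons_of_mem _ (List.mem_cons_of_mem _ (List.mem_cons_of_mem _ (List.mem_cons_of_mem _ (List.mem_cons_of_mem _ (List.mem_cons_of_mem _ (List.mem_cons_of_mem _ (List.mem_cons_of_mem _ (List.mem_cons_of_mem _ (List.mem_cons_of_mem _ (List.mem_cons_of_mem _ (List.mem_cons_of_mem _ (List.mem_cons_of_mem _ (List.mem_cons_of_mem _ (List.mem_cons_of_mem _ (List.mem_cons_of_mem _ (List.mem_cons_self)))))))))))))))))), ?_⟩, by norm_num⟩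
  constructor <;> norm_num [Q18, coCell, P0C11]

lemma lP0C11 : ∀ x1 x2 xc : ℝ, 0 ≤ x1 → x1 ≤ 1 → 0 ≤ x2 → x2 ≤ 1 → P0C11.l ≤ xc → xc ≤ P0C11.u →
    (3817 / 2048 : ℝ) * (1 - (1 - x1) ^ 4) + (52837 / 4096 : ℝ) * (1 - (1 - x2) ^ 4) - (12 : ℝ) * (1 - (1 - xc) ^ 4) + (1 / 1073741824 : ℝ)
      ≤ - P0C11.a1 * x1 - P0C11.a2 * x2 + P0C11.e * xc + P0C11.f := by
  have h := cell_lines_delta 4 (α1 := (3817 / 2048 : ℝ)) (α2 := (52837 / 4096 : ℝ)) (c := (12 : ℝ)) (y1 := (5099 / 131072 : ℝ)) (y2 := (5111 / 131072 : ℝ))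
    (A1 := (13879849 / 2097152 : ℝ)) (B1 := (2155359 / 134217728 : ℝ)) (A2 := (192077555 / 4194304 : ℝ)) (B2 := (14986211 / 134217728 : ℝ)) (l := (11213 / 262144 : ℝ)) (u := (11549 / 262144 : ℝ))
    (E := (-176226795 / 4194304 : ℝ)) (F := (-34347575 / 268435456 : ℝ)) (δ := (1 / 1073741824 : ℝ)) (by norm_num) (by norm_num) (by norm_num) (by norm_num) (by norm_num)
    (by norm_num) (by norm_num) (by norm_num) (by norm_num) (by norm_num) (by norm_num) (by norm_num) (by norm_num) (by norm_num) (by norm_num)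
  have e1 : P0C11.l = (11213 / 262144 : ℝ) := rfl
  have e2 : P0C11.u = (11549 / 262144 : ℝ) := rfl
  have e3 : P0C11.a1 = -(13879849 / 2097152 : ℝ) := by norm_num [P0C11]
  have e4 : P0C11.a2 = -(192077555 / 4194304 : ℝ) := by norm_num [P0C11]
  have e5 : P0C11.e = (-176226795 / 4194304 : ℝ) := rfl
  have e6 : P0C11.f = (2155359 / 134217728 : ℝ) + (14986211 / 134217728 : ℝ) + (-34347575 / 268435456 : ℝ) + (1 / 1073741824 : ℝ) := by norm_num [P0C11]
  rw [e1, e2, e3, e4, e5, e6]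
  exact h

lemma rP0C12 : ∃ N : ℝ, Rw4 P.r2 N (coCell (3817 / 2048 : ℝ) (52837 / 4096 : ℝ) (12 : ℝ) 0 P0C12) := by
  refine ⟨(3221225472 : ℝ), ⟨Q19, List.mem_cons_of_mem _ (List.mem_cons_of_mem _ (List.mem_cons_of_mem _ (List.mem_cons_of_mem _ (List.mem_cons_of_mem _ (List.mem_cons_of_mem _ (List.mem_cons_of_mem _ (List.mem_cons_of_mem _ (List.mem_cons_of_mem _ (List.mem_cons_of_mem _ (List.mem_cons_of_mem _ (List.mem_cons_of_mem _ (List.mem_cons_of_mem _ (List.mem_cons_of_mem _ (List.mem_cons_of_mem _ (List.mem_cons_of_mem _ (List.mem_cons_of_mem _ (List.mem_cons_of_mem _ (List.mem_cons_of_mem _ (List.mem_cons_self))))))))))))))))))), ?_⟩, by norm_num⟩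
  constructor <;> norm_num [Q19, coCell, P0C12]

lemma lP0C12 : ∀ x1 x2 xc : ℝ, 0 ≤ x1 → x1 ≤ 1 → 0 ≤ x2 → x2 ≤ 1 → P0C12.l ≤ xc → xc ≤ P0C12.u →
    (3817 / 2048 : ℝ) * (1 - (1 - x1) ^ 4) + (52837 / 4096 : ℝ) * (1 - (1 - x2) ^ 4) - (12 : ℝ) * (1 - (1 - xc) ^ 4) + (1 / 1073741824 : ℝ)
      ≤ - P0C12.a1 * x1 - P0C12.a2 * x2 + P0C12.e * xc + P0C12.f := by
  have h := cell_lines_delta 4 (α1 := (3817 / 2048 : ℝ)) (α2 := (52837 / 4096 : ℝ)) (c := (12 : ℝ)) (y1 := (11333 / 262144 : ℝ)) (y2 := (10397 / 262144 : ℝ))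
    (A1 := (27386219 / 4194304 : ℝ)) (B1 := (5292239 / 268435456 : ℝ)) (A2 := (47919387 / 1048576 : ℝ)) (B2 := (15489601 / 134217728 : ℝ)) (l := (11549 / 262144 : ℝ)) (u := (11895 / 262144 : ℝ))
    (E := (-175508851 / 4194304 : ℝ)) (F := (-36371875 / 268435456 : ℝ)) (δ := (1 / 1073741824 : ℝ)) (by norm_num) (by norm_num) (by norm_num) (by norm_num) (by norm_num)
    (by norm_num) (by norm_num) (by norm_num) (by norm_num) (by norm_num) (by norm_num) (by norm_num) (by norm_num) (by norm_num) (by norm_num)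
  have e1 : P0C12.l = (11549 / 262144 : ℝ) := rfl
  have e2 : P0C12.u = (11895 / 262144 : ℝ) := rfl
  have e3 : P0C12.a1 = -(27386219 / 4194304 : ℝ) := by norm_num [P0C12]
  have e4 : P0C12.a2 = -(47919387 / 1048576 : ℝ) := by norm_num [P0C12]
  have e5 : P0C12.e = (-175508851 / 4194304 : ℝ) := rfl
  have e6 : P0C12.f = (5292239 / 268435456 : ℝ) + (15489601 / 134217728 : ℝ) + (-36371875 / 268435456 : ℝ) + (1 / 1073741824 : ℝ) := by norm_num [P0C12]
  rw [e1, e2, e3, e4, e5, e6]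
  exact h

lemma rP0C13 : ∃ N : ℝ, Rw4 P.r2 N (coCell (3817 / 2048 : ℝ) (52837 / 4096 : ℝ) (12 : ℝ) 0 P0C13) := by
  refine ⟨(3221225472 : ℝ), ⟨Q20, List.mem_cons_of_mem _ (List.mem_cons_of_mem _ (List.mem_cons_of_mem _ (List.mem_cons_of_mem _ (List.mem_cons_of_mem _ (List.mem_cons_of_mem _ (List.mem_cons_of_mem _ (List.mem_cons_of_mem _ (List.mem_cons_of_mem _ (List.mem_cons_of_mem _ (List.mem_cons_of_mem _ (List.mem_cons_of_mem _ (List.mem_cons_of_mem _ (List.mem_cons_of_mem _ (List.mem_cons_of_mem _ (List.mem_cons_of_mem _ (List.mem_cons_of_mem _ (List.mem_cons_of_mem _ (List.mem_cons_of_mem _ (List.mem_cons_of_mem _ (List.mem_cons_self)))))))))))))))))))), ?_⟩, by norm_num⟩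
  constructor <;> norm_num [Q20, coCell, P0C13]

lemma lP0C13 : ∀ x1 x2 xc : ℝ, 0 ≤ x1 → x1 ≤ 1 → 0 ≤ x2 → x2 ≤ 1 → P0C13.l ≤ xc → xc ≤ P0C13.u →
    (3817 / 2048 : ℝ) * (1 - (1 - x1) ^ 4) + (52837 / 4096 : ℝ) * (1 - (1 - x2) ^ 4) - (12 : ℝ) * (1 - (1 - xc) ^ 4) + (1 / 1073741824 : ℝ)
      ≤ - P0C13.a1 * x1 - P0C13.a2 * x2 + P0C13.e * xc + P0C13.f := by
  have h := cell_lines_delta 4 (α1 := (3817 / 2048 : ℝ)) (α2 := (52837 / 4096 : ℝ)) (c := (12 : ℝ)) (y1 := (11841 / 262144 : ℝ)) (y2 := (10687 / 262144 : ℝ))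
    (A1 := (27220149 / 4194304 : ℝ)) (B1 := (1440509 / 67108864 : ℝ)) (A2 := (95507951 / 2097152 : ℝ)) (B2 := (8170523 / 67108864 : ℝ)) (l := (11895 / 262144 : ℝ)) (u := (3063 / 65536 : ℝ))
    (E := (-43692711 / 1048576 : ℝ)) (F := (-19257543 / 134217728 : ℝ)) (δ := (1 / 1073741824 : ℝ)) (by norm_num) (by norm_num) (by norm_num) (by norm_num) (by norm_num)
    (by norm_num) (by norm_num) (by norm_num) (by norm_num) (by norm_num) (by norm_num) (by norm_num) (by norm_num) (by norm_num) (by norm_num)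
  have e1 : P0C13.l = (11895 / 262144 : ℝ) := rfl
  have e2 : P0C13.u = (3063 / 65536 : ℝ) := rfl
  have e3 : P0C13.a1 = -(27220149 / 4194304 : ℝ) := by norm_num [P0C13]
  have e4 : P0C13.a2 = -(95507951 / 2097152 : ℝ) := by norm_num [P0C13]
  have e5 : P0C13.e = (-43692711 / 1048576 : ℝ) := rfl
  have e6 : P0C13.f = (1440509 / 67108864 : ℝ) + (8170523 / 67108864 : ℝ) + (-19257543 / 134217728 : ℝ) + (1 / 1073741824 : ℝ) := by norm_num [P0C13]
  rw [e1, e2, e3, e4, e5, e6]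
  exact h

lemma rP0C14 : ∃ N : ℝ, Rw4 P.r2 N (coCell (3817 / 2048 : ℝ) (52837 / 4096 : ℝ) (12 : ℝ) 0 P0C14) := by
  refine ⟨(3221225472 : ℝ), ⟨Q21, List.mem_cons_of_mem _ (List.mem_cons_of_mem _ (List.mem_cons_of_mem _ (List.mem_cons_of_mem _ (List.mem_cons_of_mem _ (List.mem_cons_of_mem _ (List.mem_cons_of_mem _ (List.mem_cons_of_mem _ (List.mem_cons_of_mem _ (List.mem_cons_of_mem _ (List.mem_cons_of_mem _ (List.mem_cons_of_mem _ (List.mem_cons_of_mem _ (List.mem_cons_of_mem _ (List.mem_cons_of_mem _ (List.mem_cons_of_mem _ (List.mem_cons_of_mem _ (List.mem_cons_of_mem _ (List.mem_cons_of_mem _ (List.mem_cons_of_mem _ (List.mem_cons_of_mem _ (List.mem_cons_self))))))))))))))))))))), ?_⟩, by norm_num⟩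
  constructor <;> norm_num [Q21, coCell, P0C14]

lemma lP0C14 : ∀ x1 x2 xc : ℝ, 0 ≤ x1 → x1 ≤ 1 → 0 ≤ x2 → x2 ≤ 1 → P0C14.l ≤ xc → xc ≤ P0C14.u →
    (3817 / 2048 : ℝ) * (1 - (1 - x1) ^ 4) + (52837 / 4096 : ℝ) * (1 - (1 - x2) ^ 4) - (12 : ℝ) * (1 - (1 - xc) ^ 4) + (1 / 1073741824 : ℝ)
      ≤ - P0C14.a1 * x1 - P0C14.a2 * x2 + P0C14.e * xc + P0C14.f := by
  have h := cell_lines_delta 4 (α1 := (3817 / 2048 : ℝ)) (α2 := (52837 / 4096 : ℝ)) (c := (12 : ℝ)) (y1 := (6017 / 131072 : ℝ)) (y2 := (11033 / 262144 : ℝ))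
    (A1 := (1697327 / 262144 : ℝ)) (B1 := (2972701 / 134217728 : ℝ)) (A2 := (47557121 / 1048576 : ℝ)) (B2 := (8692453 / 67108864 : ℝ)) (l := (3063 / 65536 : ℝ)) (u := (3155 / 65536 : ℝ))
    (E := (-174011913 / 4194304 : ℝ)) (F := (-40785209 / 268435456 : ℝ)) (δ := (1 / 1073741824 : ℝ)) (by norm_num) (by norm_num) (by norm_num) (by norm_num) (by norm_num)
    (by norm_num) (by norm_num) (by norm_num) (by norm_num) (by norm_num) (by norm_num) (by norm_num) (by norm_num) (by norm_num) (by norm_num)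
  have e1 : P0C14.l = (3063 / 65536 : ℝ) := rfl
  have e2 : P0C14.u = (3155 / 65536 : ℝ) := rfl
  have e3 : P0C14.a1 = -(1697327 / 262144 : ℝ) := by norm_num [P0C14]
  have e4 : P0C14.a2 = -(47557121 / 1048576 : ℝ) := by norm_num [P0C14]
  have e5 : P0C14.e = (-174011913 / 4194304 : ℝ) := rfl
  have e6 : P0C14.f = (2972701 / 134217728 : ℝ) + (8692453 / 67108864 : ℝ) + (-40785209 / 268435456 : ℝ) + (1 / 1073741824 : ℝ) := by norm_num [P0C14]
  rw [e1, e2, e3, e4, e5, e6]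
  exact h

lemma rP0C15 : ∃ N : ℝ, Rw4 P.r2 N (coCell (3817 / 2048 : ℝ) (52837 / 4096 : ℝ) (12 : ℝ) 0 P0C15) := by
  refine ⟨(3221225472 : ℝ), ⟨Q22, List.mem_cons_of_mem _ (List.mem_cons_of_mem _ (List.mem_cons_of_mem _ (List.mem_cons_of_mem _ (List.mem_cons_of_mem _ (List.mem_cons_of_mem _ (List.mem_cons_of_mem _ (List.mem_cons_of_mem _ (List.mem_cons_of_mem _ (List.mem_cons_of_mem _ (List.mem_cons_of_mem _ (List.mem_cons_of_mem _ (List.mem_cons_of_mem _ (List.mem_cons_of_mem _ (List.mem_cons_of_mem _ (List.mem_cons_of_mem _ (List.mem_cons_of_mem _ (List.mem_cons_of_mem _ (List.mem_cons_of_mem _ (List.mem_cons_of_mem _ (List.mem_cons_of_mem _ (List.mem_cons_of_mem _ (List.mem_cons_self)))))))))))))))))))))), ?_⟩, by norm_num⟩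
  constructor <;> norm_num [Q22, coCell, P0C15]

lemma lP0C15 : ∀ x1 x2 xc : ℝ, 0 ≤ x1 → x1 ≤ 1 → 0 ≤ x2 → x2 ≤ 1 → P0C15.l ≤ xc → xc ≤ P0C15.u →
    (3817 / 2048 : ℝ) * (1 - (1 - x1) ^ 4) + (52837 / 4096 : ℝ) * (1 - (1 - x2) ^ 4) - (12 : ℝ) * (1 - (1 - xc) ^ 4) + (1 / 1073741824 : ℝ)
      ≤ - P0C15.a1 * x1 - P0C15.a2 * x2 + P0C15.e * xc + P0C15.f := by
  have h := cell_lines_delta 4 (α1 := (3817 / 2048 : ℝ)) (α2 := (52837 / 4096 : ℝ)) (c := (12 : ℝ)) (y1 := (3035 / 65536 : ℝ)) (y2 := (11403 / 262144 : ℝ))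
    (A1 := (13561359 / 2097152 : ℝ)) (B1 := (6047239 / 268435456 : ℝ)) (A2 := (47347211 / 1048576 : ℝ)) (B2 := (2316837 / 16777216 : ℝ)) (l := (3155 / 65536 : ℝ)) (u := (12999 / 262144 : ℝ))
    (E := (-173232253 / 4194304 : ℝ)) (F := (-5398423 / 33554432 : ℝ)) (δ := (1 / 1073741824 : ℝ)) (by norm_num) (by norm_num) (by norm_num) (by norm_num) (by norm_num)
    (by norm_num) (by norm_num) (by norm_num) (by norm_num) (by norm_num) (by norm_num) (by norm_num) (by norm_num) (by norm_num) (by norm_num)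
  have e1 : P0C15.l = (3155 / 65536 : ℝ) := rfl
  have e2 : P0C15.u = (12999 / 262144 : ℝ) := rfl
  have e3 : P0C15.a1 = -(13561359 / 2097152 : ℝ) := by norm_num [P0C15]
  have e4 : P0C15.a2 = -(47347211 / 1048576 : ℝ) := by norm_num [P0C15]
  have e5 : P0C15.e = (-173232253 / 4194304 : ℝ) := rfl
  have e6 : P0C15.f = (6047239 / 268435456 : ℝ) + (2316837 / 16777216 : ℝ) + (-5398423 / 33554432 : ℝ) + (1 / 1073741824 : ℝ) := by norm_num [P0C15]
  rw [e1, e2, e3, e4, e5, e6]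
  exact h

lemma rP0C16 : ∃ N : ℝ, Rw4 P.r2 N (coCell (3817 / 2048 : ℝ) (52837 / 4096 : ℝ) (12 : ℝ) 0 P0C16) := by
  refine ⟨(3221225472 : ℝ), ⟨Q23, List.mem_cons_of_mem _ (List.mem_cons_of_mem _ (List.mem_cons_of_mem _ (List.mem_cons_of_mem _ (List.mem_cons_of_mem _ (List.mem_cons_of_mem _ (List.mem_cons_of_mem _ (List.mem_cons_of_mem _ (List.mem_cons_of_mem _ (List.mem_cons_of_mem _ (List.mem_cons_of_mem _ (List.mem_cons_of_mem _ (List.mem_cons_of_mem _ (List.mem_cons_of_mem _ (List.mem_cons_of_mem _ (List.mem_cons_of_mem _ (List.mem_cons_of_mem _ (List.mem_cons_of_mem _ (List.mem_cons_of_mem _ (List.mem_cons_of_mem _ (List.mem_cons_of_mem _ (List.mem_cons_of_mem _ (List.mem_cons_of_mem _ (List.mem_cons_self))))))))))))))))))))))), ?_⟩, by norm_num⟩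
  constructor <;> norm_num [Q23, coCell, P0C16]

lemma lP0C16 : ∀ x1 x2 xc : ℝ, 0 ≤ x1 → x1 ≤ 1 → 0 ≤ x2 → x2 ≤ 1 → P0C16.l ≤ xc → xc ≤ P0C16.u →
    (3817 / 2048 : ℝ) * (1 - (1 - x1) ^ 4) + (52837 / 4096 : ℝ) * (1 - (1 - x2) ^ 4) - (12 : ℝ) * (1 - (1 - xc) ^ 4) + (1 / 1073741824 : ℝ)
      ≤ - P0C16.a1 * x1 - P0C16.a2 * x2 + P0C16.e * xc + P0C16.f := by
  have h := cell_lines_delta 4 (α1 := (3817 / 2048 : ℝ)) (α2 := (52837 / 4096 : ℝ)) (c := (12 : ℝ)) (y1 := (765 / 16384 : ℝ)) (y2 := (5893 / 131072 : ℝ))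
    (A1 := (3386273 / 524288 : ℝ)) (B1 := (384005 / 16777216 : ℝ)) (A2 := (94261155 / 2097152 : ℝ)) (B2 := (39522269 / 268435456 : ℝ)) (l := (12999 / 262144 : ℝ)) (u := (3347 / 65536 : ℝ))
    (E := (-172433105 / 4194304 : ℝ)) (F := (-45723547 / 268435456 : ℝ)) (δ := (1 / 1073741824 : ℝ)) (by norm_num) (by norm_num) (by norm_num) (by norm_num) (by norm_num)
    (by norm_num) (by norm_num) (by norm_num) (by norm_num) (by norm_num) (by norm_num) (by norm_num) (by norm_num) (by norm_num) (by norm_num)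
  have e1 : P0C16.l = (12999 / 262144 : ℝ) := rfl
  have e2 : P0C16.u = (3347 / 65536 : ℝ) := rfl
  have e3 : P0C16.a1 = -(3386273 / 524288 : ℝ) := by norm_num [P0C16]
  have e4 : P0C16.a2 = -(94261155 / 2097152 : ℝ) := by norm_num [P0C16]
  have e5 : P0C16.e = (-172433105 / 4194304 : ℝ) := rfl
  have e6 : P0C16.f = (384005 / 16777216 : ℝ) + (39522269 / 268435456 : ℝ) + (-45723547 / 268435456 : ℝ) + (1 / 1073741824 : ℝ) := by norm_num [P0C16]
  rw [e1, e2, e3, e4, e5, e6]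
  exact h

lemma rP0C17 : ∃ N : ℝ, Rw4 P.r2 N (coCell (3817 / 2048 : ℝ) (52837 / 4096 : ℝ) (12 : ℝ) 0 P0C17) := by
  refine ⟨(3221225472 : ℝ), ⟨Q24, List.mem_cons_of_mem _ (List.mem_cons_of_mem _ (List.mem_cons_of_mem _ (List.mem_cons_of_mem _ (List.mem_cons_of_mem _ (List.mem_cons_of_mem _ (List.mem_cons_of_mem _ (List.mem_cons_of_mem _ (List.mem_cons_of_mem _ (List.mem_cons_of_mem _ (List.mem_cons_of_mem _ (List.mem_cons_of_mem _ (List.mem_cons_of_mem _ (List.mem_cons_of_mem _ (List.mem_cons_of_mem _ (List.mem_cons_of_mem _ (List.mem_cons_of_mem _ (List.mem_cons_of_mem _ (List.mem_cons_of_mem _ (List.mem_cons_of_mem _ (List.mem_cons_of_mem _ (List.mem_cons_of_mem _ (List.mem_cons_of_mem _ (List.mem_cons_of_mem _ (List.mem_cons_self)))))))))))))))))))))))), ?_⟩, by norm_num⟩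
  constructor <;> norm_num [Q24, coCell, P0C17]

lemma lP0C17 : ∀ x1 x2 xc : ℝ, 0 ≤ x1 → x1 ≤ 1 → 0 ≤ x2 → x2 ≤ 1 → P0C17.l ≤ xc → xc ≤ P0C17.u →
    (3817 / 2048 : ℝ) * (1 - (1 - x1) ^ 4) + (52837 / 4096 : ℝ) * (1 - (1 - x2) ^ 4) - (12 : ℝ) * (1 - (1 - xc) ^ 4) + (1 / 1073741824 : ℝ)
      ≤ - P0C17.a1 * x1 - P0C17.a2 * x2 + P0C17.e * xc + P0C17.f := by
  have h := cell_lines_delta 4 (α1 := (3817 / 2048 : ℝ)) (α2 := (52837 / 4096 : ℝ)) (c := (12 : ℝ)) (y1 := (12251 / 262144 : ℝ)) (y2 := (12191 / 262144 : ℝ))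
    (A1 := (27086607 / 4194304 : ℝ)) (B1 := (3077383 / 134217728 : ℝ)) (A2 := (187608881 / 4194304 : ℝ)) (B2 := (42195739 / 268435456 : ℝ)) (l := (3347 / 65536 : ℝ)) (u := (6895 / 131072 : ℝ))
    (E := (-21451575 / 524288 : ℝ)) (F := (-48405413 / 268435456 : ℝ)) (δ := (1 / 1073741824 : ℝ)) (by norm_num) (by norm_num) (by norm_num) (by norm_num) (by norm_num)
    (by norm_num) (by norm_num) (by norm_num) (by norm_num) (by norm_num) (by norm_num) (by norm_num) (by norm_num) (by norm_num) (by norm_num)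
  have e1 : P0C17.l = (3347 / 65536 : ℝ) := rfl
  have e2 : P0C17.u = (6895 / 131072 : ℝ) := rfl
  have e3 : P0C17.a1 = -(27086607 / 4194304 : ℝ) := by norm_num [P0C17]
  have e4 : P0C17.a2 = -(187608881 / 4194304 : ℝ) := by norm_num [P0C17]
  have e5 : P0C17.e = (-21451575 / 524288 : ℝ) := rfl
  have e6 : P0C17.f = (3077383 / 134217728 : ℝ) + (42195739 / 268435456 : ℝ) + (-48405413 / 268435456 : ℝ) + (1 / 1073741824 : ℝ) := by norm_num [P0C17]
  rw [e1, e2, e3, e4, e5, e6]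
  exact h

lemma rP0C18 : ∃ N : ℝ, Rw4 P.r2 N (coCell (3817 / 2048 : ℝ) (52837 / 4096 : ℝ) (12 : ℝ) 0 P0C18) := by
  refine ⟨(3221225472 : ℝ), ⟨Q25, List.mem_cons_of_mem _ (List.mem_cons_of_mem _ (List.mem_cons_of_mem _ (List.mem_cons_of_mem _ (List.mem_cons_of_mem _ (List.mem_cons_of_mem _ (List.mem_cons_of_mem _ (List.mem_cons_of_mem _ (List.mem_cons_of_mem _ (List.mem_cons_of_mem _ (List.mem_cons_of_mem _ (List.mem_cons_of_mem _ (List.mem_cons_of_mem _ (List.mem_cons_of_mem _ (List.mem_cons_of_mem _ (List.mem_cons_of_mem _ (List.mem_cons_of_mem _ (List.mem_cons_of_mem _ (List.mem_cons_of_mem _ (List.mem_cons_of_mem _ (List.mem_cons_of_mem _ (List.mem_cons_of_mem _ (List.mem_cons_of_mem _ (List.mem_cons_of_mem _ (List.mem_cons_of_mem _ (List.mem_cons_self))))))))))))))))))))))))), ?_⟩, by norm_num⟩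
  constructor <;> norm_num [Q25, coCell, P0C18]

lemma lP0C18 : ∀ x1 x2 xc : ℝ, 0 ≤ x1 → x1 ≤ 1 → 0 ≤ x2 → x2 ≤ 1 → P0C18.l ≤ xc → xc ≤ P0C18.u →
    (3817 / 2048 : ℝ) * (1 - (1 - x1) ^ 4) + (52837 / 4096 : ℝ) * (1 - (1 - x2) ^ 4) - (12 : ℝ) * (1 - (1 - xc) ^ 4) + (1 / 1073741824 : ℝ)
      ≤ - P0C18.a1 * x1 - P0C18.a2 * x2 + P0C18.e * xc + P0C18.f := by
  have h := cell_lines_delta 4 (α1 := (3817 / 2048 : ℝ)) (α2 := (52837 / 4096 : ℝ)) (c := (12 : ℝ)) (y1 := (6157 / 131072 : ℝ)) (y2 := (12579 / 262144 : ℝ))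
    (A1 := (13533063 / 2097152 : ℝ)) (B1 := (6216177 / 268435456 : ℝ)) (A2 := (93368283 / 2097152 : ℝ)) (B2 := (22416647 / 134217728 : ℝ)) (l := (6895 / 131072 : ℝ)) (u := (3551 / 65536 : ℝ))
    (E := (-85384447 / 2097152 : ℝ)) (F := (-51245917 / 268435456 : ℝ)) (δ := (1 / 1073741824 : ℝ)) (by norm_num) (by norm_num) (by norm_num) (by norm_num) (by norm_num)
    (by norm_num) (by norm_num) (by norm_num) (by norm_num) (by norm_num) (by norm_num) (by norm_num) (by norm_num) (by norm_num) (by norm_num)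
  have e1 : P0C18.l = (6895 / 131072 : ℝ) := rfl
  have e2 : P0C18.u = (3551 / 65536 : ℝ) := rfl
  have e3 : P0C18.a1 = -(13533063 / 2097152 : ℝ) := by norm_num [P0C18]
  have e4 : P0C18.a2 = -(93368283 / 2097152 : ℝ) := by norm_num [P0C18]
  have e5 : P0C18.e = (-85384447 / 2097152 : ℝ) := rfl
  have e6 : P0C18.f = (6216177 / 268435456 : ℝ) + (22416647 / 134217728 : ℝ) + (-51245917 / 268435456 : ℝ) + (1 / 1073741824 : ℝ) := by norm_num [P0C18]
  rw [e1, e2, e3, e4, e5, e6]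
  exact h

lemma rP0C19 : ∃ N : ℝ, Rw4 P.r2 N (coCell (3817 / 2048 : ℝ) (52837 / 4096 : ℝ) (12 : ℝ) 0 P0C19) := by
  refine ⟨(3221225472 : ℝ), ⟨Q26, List.mem_cons_of_mem _ (List.mem_cons_of_mem _ (List.mem_cons_of_mem _ (List.mem_cons_of_mem _ (List.mem_cons_of_mem _ (List.mem_cons_of_mem _ (List.mem_cons_of_mem _ (List.mem_cons_of_mem _ (List.mem_cons_of_mem _ (List.mem_cons_of_mem _ (List.mem_cons_of_mem _ (List.mem_cons_of_mem _ (List.mem_cons_of_mem _ (List.mem_cons_of_mem _ (List.mem_cons_of_mem _ (List.mem_cons_of_mem _ (List.mem_cons_of_mem _ (List.mem_cons_of_mem _ (List.mem_cons_of_mem _ (List.mem_cons_of_mem _ (List.mem_cons_of_mem _ (List.mem_cons_of_mem _ (List.mem_cons_of_mem _ (List.mem_cons_of_mem _ (List.mem_cons_of_mem _ (List.mem_cons_of_mem _ (List.mem_cons_self)))))))))))))))))))))))))), ?_⟩, by norm_num⟩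
  constructor <;> norm_num [Q26, coCell, P0C19]

lemma lP0C19 : ∀ x1 x2 xc : ℝ, 0 ≤ x1 → x1 ≤ 1 → 0 ≤ x2 → x2 ≤ 1 → P0C19.l ≤ xc → xc ≤ P0C19.u →
    (3817 / 2048 : ℝ) * (1 - (1 - x1) ^ 4) + (52837 / 4096 : ℝ) * (1 - (1 - x2) ^ 4) - (12 : ℝ) * (1 - (1 - xc) ^ 4) + (1 / 1073741824 : ℝ)
      ≤ - P0C19.a1 * x1 - P0C19.a2 * x2 + P0C19.e * xc + P0C19.f := by
  have h := cell_lines_delta 4 (α1 := (3817 / 2048 : ℝ)) (α2 := (52837 / 4096 : ℝ)) (c := (12 : ℝ)) (y1 := (6233 / 131072 : ℝ)) (y2 := (13001 / 262144 : ℝ))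
    (A1 := (13508377 / 2097152 : ℝ)) (B1 := (6365513 / 268435456 : ℝ)) (A2 := (46447721 / 1048576 : ℝ)) (B2 := (47786237 / 268435456 : ℝ)) (l := (3551 / 65536 : ℝ)) (u := (7315 / 131072 : ℝ))
    (E := (-84951633 / 2097152 : ℝ)) (F := (-54247719 / 268435456 : ℝ)) (δ := (1 / 1073741824 : ℝ)) (by norm_num) (by norm_num) (by norm_num) (by norm_num) (by norm_num)
    (by norm_num) (by norm_num) (by norm_num) (by norm_num) (by norm_num) (by norm_num) (by norm_num) (by norm_num) (by norm_num) (by norm_num)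
  have e1 : P0C19.l = (3551 / 65536 : ℝ) := rfl
  have e2 : P0C19.u = (7315 / 131072 : ℝ) := rfl
  have e3 : P0C19.a1 = -(13508377 / 2097152 : ℝ) := by norm_num [P0C19]
  have e4 : P0C19.a2 = -(46447721 / 1048576 : ℝ) := by norm_num [P0C19]
  have e5 : P0C19.e = (-84951633 / 2097152 : ℝ) := rfl
  have e6 : P0C19.f = (6365513 / 268435456 : ℝ) + (47786237 / 268435456 : ℝ) + (-54247719 / 268435456 : ℝ) + (1 / 1073741824 : ℝ) := by norm_num [P0C19]
  rw [e1, e2, e3, e4, e5, e6]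
  exact h

lemma rP0C20 : ∃ N : ℝ, Rw4 P.r2 N (coCell (3817 / 2048 : ℝ) (52837 / 4096 : ℝ) (12 : ℝ) 0 P0C20) := by
  refine ⟨(3221225472 : ℝ), ⟨Q27, List.mem_cons_of_mem _ (List.mem_cons_of_mem _ (List.mem_cons_of_mem _ (List.mem_cons_of_mem _ (List.mem_cons_of_mem _ (List.mem_cons_of_mem _ (List.mem_cons_of_mem _ (List.mem_cons_of_mem _ (List.mem_cons_of_mem _ (List.mem_cons_of_mem _ (List.mem_cons_of_mem _ (List.mem_cons_of_mem _ (List.mem_cons_of_mem _ (List.mem_cons_of_mem _ (List.mem_cons_of_mem _ (List.mem_cons_of_mem _ (List.mem_cons_of_mem _ (List.mem_cons_of_mem _ (List.mem_cons_of_mem _ (List.mem_cons_of_mem _ (List.mem_cons_of_mem _ (List.mem_cons_of_mem _ (List.mem_cons_of_mem _ (List.mem_cons_of_mem _ (List.mem_cons_of_mem _ (List.mem_cons_of_mem _ (List.mem_cons_of_mem _ (List.mem_cons_self))))))))))))))))))))))))))), ?_⟩, by norm_num⟩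
  constructor <;> norm_num [Q27, coCell, P0C20]

lemma lP0C20 : ∀ x1 x2 xc : ℝ, 0 ≤ x1 → x1 ≤ 1 → 0 ≤ x2 → x2 ≤ 1 → P0C20.l ≤ xc → xc ≤ P0C20.u →
    (3817 / 2048 : ℝ) * (1 - (1 - x1) ^ 4) + (52837 / 4096 : ℝ) * (1 - (1 - x2) ^ 4) - (12 : ℝ) * (1 - (1 - xc) ^ 4) + (1 / 1073741824 : ℝ)
      ≤ - P0C20.a1 * x1 - P0C20.a2 * x2 + P0C20.e * xc + P0C20.f := by
  have h := cell_lines_delta 4 (α1 := (3817 / 2048 : ℝ)) (α2 := (52837 / 4096 : ℝ)) (c := (12 : ℝ)) (y1 := (6287 / 131072 : ℝ)) (y2 := (6707 / 131072 : ℝ))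
    (A1 := (13490855 / 2097152 : ℝ)) (B1 := (6472647 / 268435456 : ℝ)) (A2 := (46217117 / 1048576 : ℝ)) (B2 := (50760521 / 268435456 : ℝ)) (l := (7315 / 131072 : ℝ)) (u := (15069 / 262144 : ℝ))
    (E := (-84507469 / 2097152 : ℝ)) (F := (-57420629 / 268435456 : ℝ)) (δ := (1 / 1073741824 : ℝ)) (by norm_num) (by norm_num) (by norm_num) (by norm_num) (by norm_num)
    (by norm_num) (by norm_num) (by norm_num) (by norm_num) (by norm_num) (by norm_num) (by norm_num) (by norm_num) (by norm_num) (by norm_num)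
  have e1 : P0C20.l = (7315 / 131072 : ℝ) := rfl
  have e2 : P0C20.u = (15069 / 262144 : ℝ) := rfl
  have e3 : P0C20.a1 = -(13490855 / 2097152 : ℝ) := by norm_num [P0C20]
  have e4 : P0C20.a2 = -(46217117 / 1048576 : ℝ) := by norm_num [P0C20]
  have e5 : P0C20.e = (-84507469 / 2097152 : ℝ) := rfl
  have e6 : P0C20.f = (6472647 / 268435456 : ℝ) + (50760521 / 268435456 : ℝ) + (-57420629 / 268435456 : ℝ) + (1 / 1073741824 : ℝ) := by norm_num [P0C20]
  rw [e1, e2, e3, e4, e5, e6]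
  exact h

lemma rP0C21 : ∃ N : ℝ, Rw4 P.r2 N (coCell (3817 / 2048 : ℝ) (52837 / 4096 : ℝ) (12 : ℝ) 0 P0C21) := by
  refine ⟨(3221225472 : ℝ), ⟨Q28, List.mem_cons_of_mem _ (List.mem_cons_of_mem _ (List.mem_cons_of_mem _ (List.mem_cons_of_mem _ (List.mem_cons_of_mem _ (List.mem_cons_of_mem _ (List.mem_cons_of_mem _ (List.mem_cons_of_mem _ (List.mem_cons_of_mem _ (List.mem_cons_of_mem _ (List.mem_cons_of_mem _ (List.mem_cons_of_mem _ (List.mem_cons_of_mem _ (List.mem_cons_of_mem _ (List.mem_cons_of_mem _ (List.mem_cons_of_mem _ (List.mem_cons_of_mem _ (List.mem_cons_of_mem _ (List.mem_cons_of_mem _ (List.mem_cons_of_mem _ (List.mem_cons_of_mem _ (List.mem_cons_of_mem _ (List.mem_cons_of_mem _ (List.mem_cons_of_mem _ (List.mem_cons_of_mem _ (List.mem_cons_of_mem _ (List.mem_cons_of_mem _ (List.mem_cons_of_mem _ (List.mem_cons_self)))))))))))))))))))))))))))), ?_⟩, by norm_num⟩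
  constructor <;> norm_num [Q28, coCell, P0C21]

lemma lP0C21 : ∀ x1 x2 xc : ℝ, 0 ≤ x1 → x1 ≤ 1 → 0 ≤ x2 → x2 ≤ 1 → P0C21.l ≤ xc → xc ≤ P0C21.u →
    (3817 / 2048 : ℝ) * (1 - (1 - x1) ^ 4) + (52837 / 4096 : ℝ) * (1 - (1 - x2) ^ 4) - (12 : ℝ) * (1 - (1 - xc) ^ 4) + (1 / 1073741824 : ℝ)
      ≤ - P0C21.a1 * x1 - P0C21.a2 * x2 + P0C21.e * xc + P0C21.f := by
  have h := cell_lines_delta 4 (α1 := (3817 / 2048 : ℝ)) (α2 := (52837 / 4096 : ℝ)) (c := (12 : ℝ)) (y1 := (12835 / 262144 : ℝ)) (y2 := (3461 / 65536 : ℝ))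
    (A1 := (13448573 / 2097152 : ℝ)) (B1 := (1683737 / 67108864 : ℝ)) (A2 := (183911333 / 4194304 : ℝ)) (B2 := (26972621 / 134217728 : ℝ)) (l := (15069 / 262144 : ℝ)) (u := (15521 / 262144 : ℝ))
    (E := (-10506447 / 262144 : ℝ)) (F := (-60775049 / 268435456 : ℝ)) (δ := (1 / 1073741824 : ℝ)) (by norm_num) (by norm_num) (by norm_num) (by norm_num) (by norm_num)
    (by norm_num) (by norm_num) (by norm_num) (by norm_num) (by norm_num) (by norm_num) (by norm_num) (by norm_num) (by norm_num) (by norm_num)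
  have e1 : P0C21.l = (15069 / 262144 : ℝ) := rfl
  have e2 : P0C21.u = (15521 / 262144 : ℝ) := rfl
  have e3 : P0C21.a1 = -(13448573 / 2097152 : ℝ) := by norm_num [P0C21]
  have e4 : P0C21.a2 = -(183911333 / 4194304 : ℝ) := by norm_num [P0C21]
  have e5 : P0C21.e = (-10506447 / 262144 : ℝ) := rfl
  have e6 : P0C21.f = (1683737 / 67108864 : ℝ) + (26972621 / 134217728 : ℝ) + (-60775049 / 268435456 : ℝ) + (1 / 1073741824 : ℝ) := by norm_num [P0C21]
  rw [e1, e2, e3, e4, e5, e6]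
  exact h

lemma rP0C22 : ∃ N : ℝ, Rw4 P.r2 N (coCell (3817 / 2048 : ℝ) (52837 / 4096 : ℝ) (12 : ℝ) 0 P0C22) := by
  refine ⟨(3221225472 : ℝ), ⟨Q29, List.mem_cons_of_mem _ (List.mem_cons_of_mem _ (List.mem_cons_of_mem _ (List.mem_cons_of_mem _ (List.mem_cons_of_mem _ (List.mem_cons_of_mem _ (List.mem_cons_of_mem _ (List.mem_cons_of_mem _ (List.mem_cons_of_mem _ (List.mem_cons_of_mem _ (List.mem_cons_of_mem _ (List.mem_cons_of_mem _ (List.mem_cons_of_mem _ (List.mem_cons_of_mem _ (List.mem_cons_of_mem _ (List.mem_cons_of_mem _ (List.mem_cons_of_mem _ (List.mem_cons_of_mem _ (List.mem_cons_of_mem _ (List.mem_cons_of_mem _ (List.mem_cons_of_mem _ (List.mem_cons_of_mem _ (List.mem_cons_of_mem _ (List.mem_cons_of_mem _ (List.mem_cons_of_mem _ (List.mem_cons_of_mem _ (List.mem_cons_of_mem _ (List.mem_cons_of_mem _ (List.mem_cons_of_mem _ (List.mem_cons_self))))))))))))))))))))))))))))), ?_⟩, by norm_num⟩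
  constructor <;> norm_num [Q29, coCell, P0C22]

lemma lP0C22 : ∀ x1 x2 xc : ℝ, 0 ≤ x1 → x1 ≤ 1 → 0 ≤ x2 → x2 ≤ 1 → P0C22.l ≤ xc → xc ≤ P0C22.u →
    (3817 / 2048 : ℝ) * (1 - (1 - x1) ^ 4) + (52837 / 4096 : ℝ) * (1 - (1 - x2) ^ 4) - (12 : ℝ) * (1 - (1 - xc) ^ 4) + (1 / 1073741824 : ℝ)
      ≤ - P0C22.a1 * x1 - P0C22.a2 * x2 + P0C22.e * xc + P0C22.f := by
  have h := cell_lines_delta 4 (α1 := (3817 / 2048 : ℝ)) (α2 := (52837 / 4096 : ℝ)) (c := (12 : ℝ)) (y1 := (1619 / 32768 : ℝ)) (y2 := (3573 / 65536 : ℝ))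
    (A1 := (839353 / 131072 : ℝ)) (B1 := (6854065 / 268435456 : ℝ)) (A2 := (182917651 / 4194304 : ℝ)) (B2 := (57358099 / 268435456 : ℝ)) (l := (15521 / 262144 : ℝ)) (u := (15987 / 262144 : ℝ))
    (E := (-167167173 / 4194304 : ℝ)) (F := (-2010055 / 8388608 : ℝ)) (δ := (1 / 1073741824 : ℝ)) (by norm_num) (by norm_num) (by norm_num) (by norm_num) (by norm_num)
    (by norm_num) (by norm_num) (by norm_num) (by norm_num) (by norm_num) (by norm_num) (by norm_num) (by norm_num) (by norm_num) (by norm_num)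
  have e1 : P0C22.l = (15521 / 262144 : ℝ) := rfl
  have e2 : P0C22.u = (15987 / 262144 : ℝ) := rfl
  have e3 : P0C22.a1 = -(839353 / 131072 : ℝ) := by norm_num [P0C22]
  have e4 : P0C22.a2 = -(182917651 / 4194304 : ℝ) := by norm_num [P0C22]
  have e5 : P0C22.e = (-167167173 / 4194304 : ℝ) := rfl
  have e6 : P0C22.f = (6854065 / 268435456 : ℝ) + (57358099 / 268435456 : ℝ) + (-2010055 / 8388608 : ℝ) + (1 / 1073741824 : ℝ) := by norm_num [P0C22]
  rw [e1, e2, e3, e4, e5, e6]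
  exact h

lemma rP0C23 : ∃ N : ℝ, Rw4 P.r2 N (coCell (3817 / 2048 : ℝ) (52837 / 4096 : ℝ) (12 : ℝ) 0 P0C23) := by
  refine ⟨(3221225472 : ℝ), ⟨Q30, List.mem_cons_of_mem _ (List.mem_cons_of_mem _ (List.mem_cons_of_mem _ (List.mem_cons_of_mem _ (List.mem_cons_of_mem _ (List.mem_cons_of_mem _ (List.mem_cons_of_mem _ (List.mem_cons_of_mem _ (List.mem_cons_of_mem _ (List.mem_cons_of_mem _ (List.mem_cons_of_mem _ (List.mem_cons_of_mem _ (List.mem_cons_of_mem _ (List.mem_cons_of_mem _ (List.mem_cons_of_mem _ (List.mem_cons_of_mem _ (List.mem_cons_of_mem _ (List.mem_cons_of_mem _ (List.mem_cons_of_mem _ (List.mem_cons_of_mem _ (List.mem_cons_of_mem _ (List.mem_cons_of_mem _ (List.mem_cons_of_mem _ (List.mem_cons_of_mem _ (List.mem_cons_of_mem _ (List.mem_cons_of_mem _ (List.mem_cons_of_mem _ (List.mem_cons_of_mem _ (List.mem_cons_of_mem _ (List.mem_cons_of_mem _ (List.mem_cons_self)))))))))))))))))))))))))))))),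 ?_⟩, by norm_num⟩
  constructor <;> norm_num [Q30, coCell, P0C23]

lemma lP0C23 : ∀ x1 x2 xc : ℝ, 0 ≤ x1 → x1 ≤ 1 → 0 ≤ x2 → x2 ≤ 1 → P0C23.l ≤ xc → xc ≤ P0C23.u →
    (3817 / 2048 : ℝ) * (1 - (1 - x1) ^ 4) + (52837 / 4096 : ℝ) * (1 - (1 - x2) ^ 4) - (12 : ℝ) * (1 - (1 - xc) ^ 4) + (1 / 1073741824 : ℝ)
      ≤ - P0C23.a1 * x1 - P0C23.a2 * x2 + P0C23.e * xc + P0C23.f := by
  have h := cell_lines_delta 4 (α1 := (3817 / 2048 : ℝ)) (α2 := (52837 / 4096 : ℝ)) (c := (12 : ℝ)) (y1 := (6481 / 131072 : ℝ)) (y2 := (3689 / 65536 : ℝ))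
    (A1 := (26856063 / 4194304 : ℝ)) (B1 := (3432147 / 134217728 : ℝ)) (A2 := (181892261 / 4194304 : ℝ)) (B2 := (953031 / 4194304 : ℝ)) (l := (15987 / 262144 : ℝ)) (u := (8233 / 131072 : ℝ))
    (E := (-41551825 / 1048576 : ℝ)) (F := (-34034109 / 134217728 : ℝ)) (δ := (1 / 1073741824 : ℝ)) (by norm_num) (by norm_num) (by norm_num) (by norm_num) (by norm_num)
    (by norm_num) (by norm_num) (by norm_num) (by norm_num) (by norm_num) (by norm_num) (by norm_num) (by norm_num) (by norm_num) (by norm_num)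
  have e1 : P0C23.l = (15987 / 262144 : ℝ) := rfl
  have e2 : P0C23.u = (8233 / 131072 : ℝ) := rfl
  have e3 : P0C23.a1 = -(26856063 / 4194304 : ℝ) := by norm_num [P0C23]
  have e4 : P0C23.a2 = -(181892261 / 4194304 : ℝ) := by norm_num [P0C23]
  have e5 : P0C23.e = (-41551825 / 1048576 : ℝ) := rfl
  have e6 : P0C23.f = (3432147 / 134217728 : ℝ) + (953031 / 4194304 : ℝ) + (-34034109 / 134217728 : ℝ) + (1 / 1073741824 : ℝ) := by norm_num [P0C23]
  rw [e1, e2, e3, e4, e5, e6]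
  exact h

lemma rP0C24 : ∃ N : ℝ, Rw4 P.r2 N (coCell (3817 / 2048 : ℝ) (52837 / 4096 : ℝ) (12 : ℝ) 0 P0C24) := by
  refine ⟨(3221225472 : ℝ), ⟨Q31, List.mem_cons_of_mem _ (List.mem_cons_of_mem _ (List.mem_cons_of_mem _ (List.mem_cons_of_mem _ (List.mem_cons_of_mem _ (List.mem_cons_of_mem _ (List.mem_cons_of_mem _ (List.mem_cons_of_mem _ (List.mem_cons_of_mem _ (List.mem_cons_of_mem _ (List.mem_cons_of_mem _ (List.mem_cons_of_mem _ (List.mem_cons_of_mem _ (List.mem_cons_of_mem _ (List.mem_cons_of_mem _ (List.mem_cons_of_mem _ (List.mem_cons_of_mem _ (List.mem_cons_of_mem _ (List.mem_cons_of_mem _ (List.mem_cons_of_mem _ (List.mem_cons_of_mem _ (List.mem_cons_of_mem _ (List.mem_cons_of_mem _ (List.mem_cons_of_mem _ (List.mem_cons_of_mem _ (List.mem_cons_of_mem _ (List.mem_cons_of_mem _ (List.mem_cons_of_mem _ (List.mem_cons_of_mem _ (List.mem_cons_of_mem _ (List.mem_cons_of_mem _ (List.mem_cons_self))))))))))))))))))))))))))))))),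 ?_⟩, by norm_num⟩
  constructor <;> norm_num [Q31, coCell, P0C24]

lemma lP0C24 : ∀ x1 x2 xc : ℝ, 0 ≤ x1 → x1 ≤ 1 → 0 ≤ x2 → x2 ≤ 1 → P0C24.l ≤ xc → xc ≤ P0C24.u →
    (3817 / 2048 : ℝ) * (1 - (1 - x1) ^ 4) + (52837 / 4096 : ℝ) * (1 - (1 - x2) ^ 4) - (12 : ℝ) * (1 - (1 - xc) ^ 4) + (1 / 1073741824 : ℝ)
      ≤ - P0C24.a1 * x1 - P0C24.a2 * x2 + P0C24.e * xc + P0C24.f := by
  have h := cell_lines_delta 4 (α1 := (3817 / 2048 : ℝ)) (α2 := (52837 / 4096 : ℝ)) (c := (12 : ℝ)) (y1 := (13381 / 262144 : ℝ)) (y2 := (1899 / 32768 : ℝ))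
    (A1 := (26720815 / 4194304 : ℝ)) (B1 := (3649603 / 134217728 : ℝ)) (A2 := (180932247 / 4194304 : ℝ)) (B2 := (64503525 / 268435456 : ℝ)) (l := (8233 / 131072 : ℝ)) (u := (265 / 4096 : ℝ))
    (E := (-82611417 / 2097152 : ℝ)) (F := (-36012895 / 134217728 : ℝ)) (δ := (1 / 1073741824 : ℝ)) (by norm_num) (by norm_num) (by norm_num) (by norm_num) (by norm_num)
    (by norm_num) (by norm_num) (by norm_num) (by norm_num) (by norm_num) (by norm_num) (by norm_num) (by norm_num) (by norm_num) (by norm_num)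
  have e1 : P0C24.l = (8233 / 131072 : ℝ) := rfl
  have e2 : P0C24.u = (265 / 4096 : ℝ) := rfl
  have e3 : P0C24.a1 = -(26720815 / 4194304 : ℝ) := by norm_num [P0C24]
  have e4 : P0C24.a2 = -(180932247 / 4194304 : ℝ) := by norm_num [P0C24]
  have e5 : P0C24.e = (-82611417 / 2097152 : ℝ) := rfl
  have e6 : P0C24.f = (3649603 / 134217728 : ℝ) + (64503525 / 268435456 : ℝ) + (-36012895 / 134217728 : ℝ) + (1 / 1073741824 : ℝ) := by norm_num [P0C24]
  rw [e1, e2, e3, e4, e5, e6]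
  exact h

lemma rP0C25 : ∃ N : ℝ, Rw4 P.r2 N (coCell (3817 / 2048 : ℝ) (52837 / 4096 : ℝ) (12 : ℝ) 0 P0C25) := by
  refine ⟨(3221225472 : ℝ), ⟨Q32, List.mem_cons_of_mem _ (List.mem_cons_of_mem _ (List.mem_cons_of_mem _ (List.mem_cons_of_mem _ (List.mem_cons_of_mem _ (List.mem_cons_of_mem _ (List.mem_cons_of_mem _ (List.mem_cons_of_mem _ (List.mem_cons_of_mem _ (List.mem_cons_of_mem _ (List.mem_cons_of_mem _ (List.mem_cons_of_mem _ (List.mem_cons_of_mem _ (List.mem_cons_of_mem _ (List.mem_cons_of_mem _ (List.mem_cons_of_mem _ (List.mem_cons_of_mem _ (List.mem_cons_of_mem _ (List.mem_cons_of_mem _ (List.mem_cons_of_mem _ (List.mem_cons_of_mem _ (List.mem_cons_of_mem _ (List.mem_cons_of_mem _ (List.mem_cons_of_mem _ (List.mem_cons_of_mem _ (List.mem_cons_of_mem _ (List.mem_cons_of_mem _ (List.mem_cons_of_mem _ (List.mem_cons_of_mem _ (List.mem_cons_of_mem _ (List.mem_cons_of_mem _ (List.mem_cons_of_mem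 _ (List.mem_cons_self)))))))))))))))))))))))))))))))), ?_⟩, by norm_num⟩
  constructor <;> norm_num [Q32, coCell, P0C25]

lemma lP0C25 : ∀ x1 x2 xc : ℝ, 0 ≤ x1 → x1 ≤ 1 → 0 ≤ x2 → x2 ≤ 1 → P0C25.l ≤ xc → xc ≤ P0C25.u →
    (3817 / 2048 : ℝ) * (1 - (1 - x1) ^ 4) + (52837 / 4096 : ℝ) * (1 - (1 - x2) ^ 4) - (12 : ℝ) * (1 - (1 - xc) ^ 4) + (1 / 1073741824 : ℝ)
      ≤ - P0C25.a1 * x1 - P0C25.a2 * x2 + P0C25.e * xc + P0C25.f := by
  have h := cell_lines_delta 4 (α1 := (3817 / 2048 : ℝ)) (α2 := (52837 / 4096 : ℝ)) (c := (12 : ℝ)) (y1 := (13623 / 262144 : ℝ)) (y2 := (1955 / 32768 : ℝ))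
    (A1 := (26642907 / 4194304 : ℝ)) (B1 := (7556043 / 268435456 : ℝ)) (A2 := (179949335 / 4194304 : ℝ)) (B2 := (34101425 / 134217728 : ℝ)) (l := (265 / 4096 : ℝ)) (u := (17469 / 262144 : ℝ))
    (E := (-41053023 / 1048576 : ℝ)) (F := (-38105447 / 134217728 : ℝ)) (δ := (1 / 1073741824 : ℝ)) (by norm_num) (by norm_num) (by norm_num) (by norm_num) (by norm_num)
    (by norm_num) (by norm_num) (by norm_num) (by norm_num) (by norm_num) (by norm_num) (by norm_num) (by norm_num) (by norm_num) (by norm_num)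
  have e1 : P0C25.l = (265 / 4096 : ℝ) := rfl
  have e2 : P0C25.u = (17469 / 262144 : ℝ) := rfl
  have e3 : P0C25.a1 = -(26642907 / 4194304 : ℝ) := by norm_num [P0C25]
  have e4 : P0C25.a2 = -(179949335 / 4194304 : ℝ) := by norm_num [P0C25]
  have e5 : P0C25.e = (-41053023 / 1048576 : ℝ) := rfl
  have e6 : P0C25.f = (7556043 / 268435456 : ℝ) + (34101425 / 134217728 : ℝ) + (-38105447 / 134217728 : ℝ) + (1 / 1073741824 : ℝ) := by norm_num [P0C25]
  rw [e1, e2, e3, e4, e5, e6]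
  exact h

lemma rP0C26 : ∃ N : ℝ, Rw4 P.r2 N (coCell (3817 / 2048 : ℝ) (52837 / 4096 : ℝ) (12 : ℝ) 0 P0C26) := by
  refine ⟨(3221225472 : ℝ), ⟨Q33, List.mem_cons_of_mem _ (List.mem_cons_of_mem _ (List.mem_cons_of_mem _ (List.mem_cons_of_mem _ (List.mem_cons_of_mem _ (List.mem_cons_of_mem _ (List.mem_cons_of_mem _ (List.mem_cons_of_mem _ (List.mem_cons_of_mem _ (List.mem_cons_of_mem _ (List.mem_cons_of_mem _ (List.mem_cons_of_mem _ (List.mem_cons_of_mem _ (List.mem_cons_of_mem _ (List.mem_cons_of_mem _ (List.mem_cons_of_mem _ (List.mem_cons_of_mem _ (List.mem_cons_of_mem _ (List.mem_cons_of_mem _ (List.mem_cons_of_mem _ (List.mem_cons_of_mem _ (List.mem_cons_of_mem _ (List.mem_cons_of_mem _ (List.mem_cons_of_mem _ (List.mem_cons_of_mem _ (List.mem_cons_of_mem _ (List.mem_cons_of_mem _ (List.mem_cons_of_mem _ (List.mem_cons_of_mem _ (List.mem_cons_of_mem _ (List.mem_cons_of_mem _ (List.mem_cons_of_mem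 _ (List.mem_cons_of_mem _ (List.mem_cons_self))))))))))))))))))))))))))))))))), ?_⟩, by norm_num⟩
  constructor <;> norm_num [Q33, coCell, P0C26]

lemma lP0C26 : ∀ x1 x2 xc : ℝ, 0 ≤ x1 → x1 ≤ 1 → 0 ≤ x2 → x2 ≤ 1 → P0C26.l ≤ xc → xc ≤ P0C26.u →
    (3817 / 2048 : ℝ) * (1 - (1 - x1) ^ 4) + (52837 / 4096 : ℝ) * (1 - (1 - x2) ^ 4) - (12 : ℝ) * (1 - (1 - xc) ^ 4) + (1 / 1073741824 : ℝ)
      ≤ - P0C26.a1 * x1 - P0C26.a2 * x2 + P0C26.e * xc + P0C26.f := by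
  have h := cell_lines_delta 4 (α1 := (3817 / 2048 : ℝ)) (α2 := (52837 / 4096 : ℝ)) (c := (12 : ℝ)) (y1 := (3477 / 65536 : ℝ)) (y2 := (16121 / 262144 : ℝ))
    (A1 := (26551351 / 4194304 : ℝ)) (B1 := (7863739 / 268435456 : ℝ)) (A2 := (178897991 / 4194304 : ℝ)) (B2 := (36139475 / 134217728 : ℝ)) (l := (17469 / 262144 : ℝ)) (u := (17993 / 262144 : ℝ))
    (E := (-163175435 / 4194304 : ℝ)) (F := (-20158031 / 67108864 : ℝ)) (δ := (1 / 1073741824 : ℝ)) (by norm_num) (by norm_num) (by norm_num) (by norm_num) (by norm_num)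
    (by norm_num) (by norm_num) (by norm_num) (by norm_num) (by norm_num) (by norm_num) (by norm_num) (by norm_num) (by norm_num) (by norm_num)
  have e1 : P0C26.l = (17469 / 262144 : ℝ) := rfl
  have e2 : P0C26.u = (17993 / 262144 : ℝ) := rfl
  have e3 : P0C26.a1 = -(26551351 / 4194304 : ℝ) := by norm_num [P0C26]
  have e4 : P0C26.a2 = -(178897991 / 4194304 : ℝ) := by norm_num [P0C26]
  have e5 : P0C26.e = (-163175435 / 4194304 : ℝ) := rfl
  have e6 : P0C26.f = (7863739 / 268435456 : ℝ) + (36139475 / 134217728 : ℝ) + (-20158031 / 67108864 : ℝ) + (1 / 1073741824 : ℝ) := by norm_num [P0C26]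
  rw [e1, e2, e3, e4, e5, e6]
  exact h

lemma rP0C27 : ∃ N : ℝ, Rw4 P.r2 N (coCell (3817 / 2048 : ℝ) (52837 / 4096 : ℝ) (12 : ℝ) 0 P0C27) := by
  refine ⟨(3221225472 : ℝ), ⟨Q34, List.mem_cons_of_mem _ (List.mem_cons_of_mem _ (List.mem_cons_of_mem _ (List.mem_cons_of_mem _ (List.mem_cons_of_mem _ (List.mem_cons_of_mem _ (List.mem_cons_of_mem _ (List.mem_cons_of_mem _ (List.mem_cons_of_mem _ (List.mem_cons_of_mem _ (List.mem_cons_of_mem _ (List.mem_cons_of_mem _ (List.mem_cons_of_mem _ (List.mem_cons_of_mem _ (List.mem_cons_of_mem _ (List.mem_cons_of_mem _ (List.mem_cons_of_mem _ (List.mem_cons_of_mem _ (List.mem_cons_of_mem _ (List.mem_cons_of_mem _ (List.mem_cons_of_mem _ (List.mem_cons_of_mem _ (List.mem_cons_of_mem _ (List.mem_cons_of_mem _ (List.mem_cons_of_mem _ (List.mem_cons_of_mem _ (List.mem_cons_of_mem _ (List.mem_cons_of_mem _ (List.mem_cons_of_mem _ (List.mem_cons_of_mem _ (List.mem_cons_of_mem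 _ (List.mem_cons_of_mem _ (List.mem_cons_of_mem _ (List.mem_cons_of_mem _ (List.mem_cons_self)))))))))))))))))))))))))))))))))), ?_⟩, by norm_num⟩
  constructor <;> norm_num [Q34, coCell, P0C27]

lemma lP0C27 : ∀ x1 x2 xc : ℝ, 0 ≤ x1 → x1 ≤ 1 → 0 ≤ x2 → x2 ≤ 1 → P0C27.l ≤ xc → xc ≤ P0C27.u →
    (3817 / 2048 : ℝ) * (1 - (1 - x1) ^ 4) + (52837 / 4096 : ℝ) * (1 - (1 - x2) ^ 4) - (12 : ℝ) * (1 - (1 - xc) ^ 4) + (1 / 1073741824 : ℝ)
      ≤ - P0C27.a1 * x1 - P0C27.a2 * x2 + P0C27.e * xc + P0C27.f := by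
  have h := cell_lines_delta 4 (α1 := (3817 / 2048 : ℝ)) (α2 := (52837 / 4096 : ℝ)) (c := (12 : ℝ)) (y1 := (13849 / 262144 : ℝ)) (y2 := (16571 / 262144 : ℝ))
    (A1 := (1660643 / 262144 : ℝ)) (B1 := (1949887 / 67108864 : ℝ)) (A2 := (22239765 / 524288 : ℝ)) (B2 := (76189311 / 268435456 : ℝ)) (l := (17993 / 262144 : ℝ)) (u := (9175 / 131072 : ℝ))
    (E := (-162294663 / 4194304 : ℝ)) (F := (-84501199 / 268435456 : ℝ)) (δ := (1 / 1073741824 : ℝ)) (by norm_num) (by norm_num) (by norm_num) (by norm_num) (by norm_num)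
    (by norm_num) (by norm_num) (by norm_num) (by norm_num) (by norm_num) (by norm_num) (by norm_num) (by norm_num) (by norm_num) (by norm_num)
  have e1 : P0C27.l = (17993 / 262144 : ℝ) := rfl
  have e2 : P0C27.u = (9175 / 131072 : ℝ) := rfl
  have e3 : P0C27.a1 = -(1660643 / 262144 : ℝ) := by norm_num [P0C27]
  have e4 : P0C27.a2 = -(22239765 / 524288 : ℝ) := by norm_num [P0C27]
  have e5 : P0C27.e = (-162294663 / 4194304 : ℝ) := rfl
  have e6 : P0C27.f = (1949887 / 67108864 : ℝ) + (76189311 / 268435456 : ℝ) + (-84501199 / 268435456 : ℝ) + (1 / 1073741824 : ℝ) := by norm_num [P0C27]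
  rw [e1, e2, e3, e4, e5, e6]
  exact h

/-- A link of the chain. -/
lemma link0 {lam : ℝ} (h0 : -(1 / 2) < lam) (h1 : lam < 1) (hB : BoxS lam P 0 HH 0 HH)
    (h : ∃ n, 1 - En 4 lam n mc ≤ (9175 / 131072 : ℝ)) : ∃ n, 1 - En 4 lam n mc ≤ (1 / 32 : ℝ) :=
  phase_of_box (by norm_num) h0 h1 hB (3817 / 2048 : ℝ) (52837 / 4096 : ℝ) (12 : ℝ) (1 / 1073741824 : ℝ) (1 / 32 : ℝ) (9175 / 131072 : ℝ) (by norm_num) cellsP0 hcoverP0
    (forall_cons lP0C0 (forall_cons lP0C1 (forall_cons lP0C2 (forall_cons lP0C3 (forall_cons lP0C4 (forall_cons lP0C5 (forall_cons lP0C6 (forall_cons lP0C7 (forall_cons lP0C8 (forall_cons lP0C9 (forall_cons lP0C10 (forall_cons lP0C11 (forall_cons lP0C12 (forall_cons lP0C13 (forall_cons lP0C14 (forall_cons lP0C15 (forall_cons lP0C16 (forall_cons lP0C17 (forall_cons lP0C18 (forall_cons lP0C19 (forall_cons lP0C20 (forall_cons lP0C21 (forall_cons lP0C22 (forall_cons lP0C23 (forall_cons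 lP0C24 (forall_cons lP0C25 (forall_cons lP0C26 (forall_cons lP0C27 (forall_nil))))))))))))))))))))))))))))) (forall_cons rP0C0 (forall_cons rP0C1 (forall_cons rP0C2 (forall_cons rP0C3 (forall_cons rP0C4 (forall_cons rP0C5 (forall_cons rP0C6 (forall_cons rP0C7 (forall_cons rP0C8 (forall_cons rP0C9 (forall_cons rP0C10 (forall_cons rP0C11 (forall_cons rP0C12 (forall_cons rP0C13 (forall_cons rP0C14 (forall_cons rP0C15 (forall_cons rP0C16 (forall_cons rP0C17 (forall_cons rP0C18 (forall_cons rP0C19 (forall_cons rP0C20 (forall_cons rP0C21 (forall_cons rP0C22 (forall_cons rP0C23 (forall_cons rP0C24 (forall_cons rP0C25 (forall_cons rP0C26 (forall_cons rP0C27 (forall_nil))))))))))))))))))))))))))))) h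

/-- A chord cell of a link. -/
noncomputable def P1C0 : Cell := ⟨(9175 / 131072 : ℝ), (18901 / 262144 : ℝ), (-30165503 / 4194304 : ℝ), (-176167667 / 4194304 : ℝ), (-80695221 / 2097152 : ℝ), (-19267411 / 1073741824 : ℝ)⟩

/-- A chord cell of a link. -/
noncomputable def P1C1 : Cell := ⟨(18901 / 262144 : ℝ), (4867 / 65536 : ℝ), (-7493545 / 1048576 : ℝ), (-87510369 / 2097152 : ℝ), (-160281583 / 4194304 : ℝ), (-18336399 / 1073741824 : ℝ)⟩

/-- A chord cell of a link. -/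
noncomputable def P1C2 : Cell := ⟨(4867 / 65536 : ℝ), (5013 / 65536 : ℝ), (-30981655 / 4194304 : ℝ), (-172688925 / 4194304 : ℝ), (-4973291 / 131072 : ℝ), (-19203659 / 1073741824 : ℝ)⟩

/-- A chord cell of a link. -/
noncomputable def P1C3 : Cell := ⟨(5013 / 65536 : ℝ), (20653 / 262144 : ℝ), (-15335703 / 2097152 : ℝ), (-171590873 / 4194304 : ℝ), (-157981101 / 4194304 : ℝ), (-18046439 / 1073741824 : ℝ)⟩

/-- A chord cell of a link. -/
noncomputable def P1C4 : Cell := ⟨(20653 / 262144 : ℝ), (21273 / 262144 : ℝ), (-30362489 / 4194304 : ℝ), (-170466015 / 4194304 : ℝ), (-39196869 / 1048576 : ℝ), (-16899283 / 1073741824 : ℝ)⟩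

/-- A chord cell of a link. -/
noncomputable def P1C5 : Cell := ⟨(21273 / 262144 : ℝ), (21911 / 262144 : ℝ), (-15027085 / 2097152 : ℝ), (-169310577 / 4194304 : ℝ), (-9722749 / 262144 : ℝ), (-15702379 / 1073741824 : ℝ)⟩

/-- A chord cell of a link. -/
noncomputable def P1C6 : Cell := ⟨(21911 / 262144 : ℝ), (2821 / 32768 : ℝ), (-29746105 / 4194304 : ℝ), (-168127111 / 4194304 : ℝ), (-154311173 / 4194304 : ℝ), (-14491715 / 1073741824 : ℝ)⟩

/-- A chord cell of a link. -/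
noncomputable def P1C7 : Cell := ⟨(2821 / 32768 : ℝ), (23245 / 262144 : ℝ), (-14718797 / 2097152 : ℝ), (-166914003 / 4194304 : ℝ), (-76513843 / 2097152 : ℝ), (-13260967 / 1073741824 : ℝ)⟩

/-- A chord cell of a link. -/
noncomputable def P1C8 : Cell := ⟨(23245 / 262144 : ℝ), (23943 / 262144 : ℝ), (-7347889 / 1048576 : ℝ), (-165422805 / 4194304 : ℝ), (-75856111 / 2097152 : ℝ), (-12418551 / 1073741824 : ℝ)⟩

/-- A chord cell of a link. -/
noncomputable def P1C9 : Cell := ⟨(23943 / 262144 : ℝ), (24661 / 262144 : ℝ), (-14674243 / 2097152 : ℝ), (-163901683 / 4194304 : ℝ), (-150365433 / 4194304 : ℝ), (-11574683 / 1073741824 : ℝ)⟩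

/-- A chord cell of a link. -/
noncomputable def P1C10 : Cell := ⟨(24661 / 262144 : ℝ), (25401 / 262144 : ℝ), (-29447465 / 4194304 : ℝ), (-10139471 / 262144 : ℝ), (-148987053 / 4194304 : ℝ), (-10950715 / 1073741824 : ℝ)⟩

/-- A chord cell of a link. -/
noncomputable def P1C11 : Cell := ⟨(25401 / 262144 : ℝ), (13107 / 131072 : ℝ), (-14738729 / 2097152 : ℝ), (-160568743 / 4194304 : ℝ), (-147528205 / 4194304 : ℝ), (-10745715 / 1073741824 : ℝ)⟩

/-- The chord cells of a link. -/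
noncomputable def cellsP1 : List Cell := [P1C0, P1C1, P1C2, P1C3, P1C4, P1C5, P1C6, P1C7, P1C8, P1C9, P1C10, P1C11]

lemma hcoverP1 : ∀ x : ℝ, (9175 / 131072 : ℝ) ≤ x → x ≤ (13107 / 131072 : ℝ) → ∃ D ∈ cellsP1, D.l ≤ x ∧ x ≤ D.u := by
  refine cover_of_chain ?_ (by norm_num [P1C0])
  simp only [ChainP, P1C0, P1C1, P1C2, P1C3, P1C4, P1C5, P1C6, P1C7, P1C8, P1C9, P1C10, P1C11]
  norm_num

lemma rP1C0 : ∃ N : ℝ, Rw4 P.r2 N (coCell (9183 / 4096 : ℝ) (3235 / 256 : ℝ) (12 : ℝ) 0 P1C0) := by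
  refine ⟨(3221225472 : ℝ), ⟨Q35, List.mem_cons_of_mem _ (List.mem_cons_of_mem _ (List.mem_cons_of_mem _ (List.mem_cons_of_mem _ (List.mem_cons_of_mem _ (List.mem_cons_of_mem _ (List.mem_cons_of_mem _ (List.mem_cons_of_mem _ (List.mem_cons_of_mem _ (List.mem_cons_of_mem _ (List.mem_cons_of_mem _ (List.mem_cons_of_mem _ (List.mem_cons_of_mem _ (List.mem_cons_of_mem _ (List.mem_cons_of_mem _ (List.mem_cons_of_mem _ (List.mem_cons_of_mem _ (List.mem_cons_of_mem _ (List.mem_cons_of_mem _ (List.mem_cons_of_mem _ (List.mem_cons_of_mem _ (List.mem_cons_of_mem _ (List.mem_cons_of_mem _ (List.mem_cons_of_mem _ (List.mem_cons_of_mem _ (List.mem_cons_of_mem _ (List.mem_cons_of_mem _ (List.mem_cons_of_mem _ (List.mem_cons_of_mem _ (List.mem_cons_of_mem _ (List.mem_cons_of_mem _ (List.mem_cons_of_mem _ (List.mem_cons_of_mem _ (List.mem_cons_of_mem _ (List.mem_cons_of_mem _ (List.mem_cons_self))))))))))))))))))))))))))))))))))),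 ?_⟩, by norm_num⟩
  constructor <;> norm_num [Q35, coCell, P1C0]

lemma lP1C0 : ∀ x1 x2 xc : ℝ, 0 ≤ x1 → x1 ≤ 1 → 0 ≤ x2 → x2 ≤ 1 → P1C0.l ≤ xc → xc ≤ P1C0.u →
    (9183 / 4096 : ℝ) * (1 - (1 - x1) ^ 4) + (3235 / 256 : ℝ) * (1 - (1 - x2) ^ 4) - (12 : ℝ) * (1 - (1 - xc) ^ 4) + (1 / 1073741824 : ℝ)
      ≤ - P1C0.a1 * x1 - P1C0.a2 * x2 + P1C0.e * xc + P1C0.f := by
  have h := cell_lines_delta 4 (α1 := (9183 / 4096 : ℝ)) (α2 := (3235 / 256 : ℝ)) (c := (12 : ℝ)) (y1 := (9295 / 131072 : ℝ)) (y2 := (15693 / 262144 : ℝ))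
    (A1 := (30165503 / 4194304 : ℝ)) (B1 := (16487767 / 268435456 : ℝ)) (A2 := (176167667 / 4194304 : ℝ)) (B2 := (4202967 / 16777216 : ℝ)) (l := (9175 / 131072 : ℝ)) (u := (18901 / 262144 : ℝ))
    (E := (-80695221 / 2097152 : ℝ)) (F := (-22138023 / 67108864 : ℝ)) (δ := (1 / 1073741824 : ℝ)) (by norm_num) (by norm_num) (by norm_num) (by norm_num) (by norm_num)
    (by norm_num) (by norm_num) (by norm_num) (by norm_num) (by norm_num) (by norm_num) (by norm_num) (by norm_num) (by norm_num) (by norm_num)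
  have e1 : P1C0.l = (9175 / 131072 : ℝ) := rfl
  have e2 : P1C0.u = (18901 / 262144 : ℝ) := rfl
  have e3 : P1C0.a1 = -(30165503 / 4194304 : ℝ) := by norm_num [P1C0]
  have e4 : P1C0.a2 = -(176167667 / 4194304 : ℝ) := by norm_num [P1C0]
  have e5 : P1C0.e = (-80695221 / 2097152 : ℝ) := rfl
  have e6 : P1C0.f = (16487767 / 268435456 : ℝ) + (4202967 / 16777216 : ℝ) + (-22138023 / 67108864 : ℝ) + (1 / 1073741824 : ℝ) := by norm_num [P1C0]
  rw [e1, e2, e3, e4, e5, e6]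
  exact h

lemma rP1C1 : ∃ N : ℝ, Rw4 P.r2 N (coCell (9183 / 4096 : ℝ) (3235 / 256 : ℝ) (12 : ℝ) 0 P1C1) := by
  refine ⟨(3221225472 : ℝ), ⟨Q36, List.mem_cons_of_mem _ (List.mem_cons_of_mem _ (List.mem_cons_of_mem _ (List.mem_cons_of_mem _ (List.mem_cons_of_mem _ (List.mem_cons_of_mem _ (List.mem_cons_of_mem _ (List.mem_cons_of_mem _ (List.mem_cons_of_mem _ (List.mem_cons_of_mem _ (List.mem_cons_of_mem _ (List.mem_cons_of_mem _ (List.mem_cons_of_mem _ (List.mem_cons_of_mem _ (List.mem_cons_of_mem _ (List.mem_cons_of_mem _ (List.mem_cons_of_mem _ (List.mem_cons_of_mem _ (List.mem_cons_of_mem _ (List.mem_cons_of_mem _ (List.mem_cons_of_mem _ (List.mem_cons_of_mem _ (List.mem_cons_of_mem _ (List.mem_cons_of_mem _ (List.mem_cons_of_mem _ (List.mem_cons_of_mem _ (List.mem_cons_of_mem _ (List.mem_cons_of_mem _ (List.mem_cons_of_mem _ (List.mem_cons_of_mem _ (List.mem_cons_of_mem _ (List.mem_cons_of_mem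 _ (List.mem_cons_of_mem _ (List.mem_cons_of_mem _ (List.mem_cons_of_mem _ (List.mem_cons_of_mem _ (List.mem_cons_self)))))))))))))))))))))))))))))))))))), ?_⟩, by norm_num⟩
  constructor <;> norm_num [Q36, coCell, P1C1]

lemma lP1C1 : ∀ x1 x2 xc : ℝ, 0 ≤ x1 → x1 ≤ 1 → 0 ≤ x2 → x2 ≤ 1 → P1C1.l ≤ xc → xc ≤ P1C1.u →
    (9183 / 4096 : ℝ) * (1 - (1 - x1) ^ 4) + (3235 / 256 : ℝ) * (1 - (1 - x2) ^ 4) - (12 : ℝ) * (1 - (1 - xc) ^ 4) + (1 / 1073741824 : ℝ)
      ≤ - P1C1.a1 * x1 - P1C1.a2 * x2 + P1C1.e * xc + P1C1.f := by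
  have h := cell_lines_delta 4 (α1 := (9183 / 4096 : ℝ)) (α2 := (3235 / 256 : ℝ)) (c := (12 : ℝ)) (y1 := (9553 / 131072 : ℝ)) (y2 := (16229 / 262144 : ℝ))
    (A1 := (7493545 / 1048576 : ℝ)) (B1 := (17368155 / 268435456 : ℝ)) (A2 := (87510369 / 2097152 : ℝ)) (B2 := (71716669 / 268435456 : ℝ)) (l := (18901 / 262144 : ℝ)) (u := (4867 / 65536 : ℝ))
    (E := (-160281583 / 4194304 : ℝ)) (F := (-23417231 / 67108864 : ℝ)) (δ := (1 / 1073741824 : ℝ)) (by norm_num) (by norm_num) (by norm_num) (by norm_num) (by norm_num)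
    (by norm_num) (by norm_num) (by norm_num) (by norm_num) (by norm_num) (by norm_num) (by norm_num) (by norm_num) (by norm_num) (by norm_num)
  have e1 : P1C1.l = (18901 / 262144 : ℝ) := rfl
  have e2 : P1C1.u = (4867 / 65536 : ℝ) := rfl
  have e3 : P1C1.a1 = -(7493545 / 1048576 : ℝ) := by norm_num [P1C1]
  have e4 : P1C1.a2 = -(87510369 / 2097152 : ℝ) := by norm_num [P1C1]
  have e5 : P1C1.e = (-160281583 / 4194304 : ℝ) := rfl
  have e6 : P1C1.f = (17368155 / 268435456 : ℝ) + (71716669 / 268435456 : ℝ) + (-23417231 / 67108864 : ℝ) + (1 / 1073741824 : ℝ) := by norm_num [P1C1]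
  rw [e1, e2, e3, e4, e5, e6]
  exact h

lemma rP1C2 : ∃ N : ℝ, Rw4 P.r2 N (coCell (9183 / 4096 : ℝ) (3235 / 256 : ℝ) (12 : ℝ) 0 P1C2) := by
  refine ⟨(3221225472 : ℝ), ⟨Q37, List.mem_cons_of_mem _ (List.mem_cons_of_mem _ (List.mem_cons_of_mem _ (List.mem_cons_of_mem _ (List.mem_cons_of_mem _ (List.mem_cons_of_mem _ (List.mem_cons_of_mem _ (List.mem_cons_of_mem _ (List.mem_cons_of_mem _ (List.mem_cons_of_mem _ (List.mem_cons_of_mem _ (List.mem_cons_of_mem _ (List.mem_cons_of_mem _ (List.mem_cons_of_mem _ (List.mem_cons_of_mem _ (List.mem_cons_of_mem _ (List.mem_cons_of_mem _ (List.mem_cons_of_mem _ (List.mem_cons_of_mem _ (List.mem_cons_of_mem _ (List.mem_cons_of_mem _ (List.mem_cons_of_mem _ (List.mem_cons_of_mem _ (List.mem_cons_of_mem _ (List.mem_cons_of_mem _ (List.mem_cons_of_mem _ (List.mem_cons_of_mem _ (List.mem_cons_of_mem _ (List.mem_cons_of_mem _ (List.mem_cons_of_mem _ (List.mem_cons_of_mem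 _ (List.mem_cons_of_mem _ (List.mem_cons_of_mem _ (List.mem_cons_of_mem _ (List.mem_cons_of_mem _ (List.mem_cons_of_mem _ (List.mem_cons_of_mem _ (List.mem_cons_self))))))))))))))))))))))))))))))))))))), ?_⟩, by norm_num⟩
  constructor <;> norm_num [Q37, coCell, P1C2]

lemma lP1C2 : ∀ x1 x2 xc : ℝ, 0 ≤ x1 → x1 ≤ 1 → 0 ≤ x2 → x2 ≤ 1 → P1C2.l ≤ xc → xc ≤ P1C2.u →
    (9183 / 4096 : ℝ) * (1 - (1 - x1) ^ 4) + (3235 / 256 : ℝ) * (1 - (1 - x2) ^ 4) - (12 : ℝ) * (1 - (1 - xc) ^ 4) + (1 / 1073741824 : ℝ)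
      ≤ - P1C2.a1 * x1 - P1C2.a2 * x2 + P1C2.e * xc + P1C2.f := by
  have h := cell_lines_delta 4 (α1 := (9183 / 4096 : ℝ)) (α2 := (3235 / 256 : ℝ)) (c := (12 : ℝ)) (y1 := (16413 / 262144 : ℝ)) (y2 := (8663 / 131072 : ℝ))
    (A1 := (30981655 / 4194304 : ℝ)) (B1 := (13001133 / 268435456 : ℝ)) (A2 := (172688925 / 4194304 : ℝ)) (B2 := (20316873 / 67108864 : ℝ)) (l := (4867 / 65536 : ℝ)) (u := (5013 / 65536 : ℝ))
    (E := (-4973291 / 131072 : ℝ)) (F := (-24767385 / 67108864 : ℝ)) (δ := (1 / 1073741824 : ℝ)) (by norm_num) (by norm_num) (by norm_num) (by norm_num) (by norm_num)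
    (by norm_num) (by norm_num) (by norm_num) (by norm_num) (by norm_num) (by norm_num) (by norm_num) (by norm_num) (by norm_num) (by norm_num)
  have e1 : P1C2.l = (4867 / 65536 : ℝ) := rfl
  have e2 : P1C2.u = (5013 / 65536 : ℝ) := rfl
  have e3 : P1C2.a1 = -(30981655 / 4194304 : ℝ) := by norm_num [P1C2]
  have e4 : P1C2.a2 = -(172688925 / 4194304 : ℝ) := by norm_num [P1C2]
  have e5 : P1C2.e = (-4973291 / 131072 : ℝ) := rfl
  have e6 : P1C2.f = (13001133 / 268435456 : ℝ) + (20316873 / 67108864 : ℝ) + (-24767385 / 67108864 : ℝ) + (1 / 1073741824 : ℝ) := by norm_num [P1C2]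
  rw [e1, e2, e3, e4, e5, e6]
  exact h

lemma rP1C3 : ∃ N : ℝ, Rw4 P.r2 N (coCell (9183 / 4096 : ℝ) (3235 / 256 : ℝ) (12 : ℝ) 0 P1C3) := by
  refine ⟨(3221225472 : ℝ), ⟨Q38, List.mem_cons_of_mem _ (List.mem_cons_of_mem _ (List.mem_cons_of_mem _ (List.mem_cons_of_mem _ (List.mem_cons_of_mem _ (List.mem_cons_of_mem _ (List.mem_cons_of_mem _ (List.mem_cons_of_mem _ (List.mem_cons_of_mem _ (List.mem_cons_of_mem _ (List.mem_cons_of_mem _ (List.mem_cons_of_mem _ (List.mem_cons_of_mem _ (List.mem_cons_of_mem _ (List.mem_cons_of_mem _ (List.mem_cons_of_mem _ (List.mem_cons_of_mem _ (List.mem_cons_of_mem _ (List.mem_cons_of_mem _ (List.mem_cons_of_mem _ (List.mem_cons_of_mem _ (List.mem_cons_of_mem _ (List.mem_cons_of_mem _ (List.mem_cons_of_mem _ (List.mem_cons_of_mem _ (List.mem_cons_of_mem _ (List.mem_cons_of_mem _ (List.mem_cons_of_mem _ (List.mem_cons_of_mem _ (List.mem_cons_of_mem _ (List.mem_cons_of_mem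 _ (List.mem_cons_of_mem _ (List.mem_cons_of_mem _ (List.mem_cons_of_mem _ (List.mem_cons_of_mem _ (List.mem_cons_of_mem _ (List.mem_cons_of_mem _ (List.mem_cons_of_mem _ (List.mem_cons_self)))))))))))))))))))))))))))))))))))))), ?_⟩, by norm_num⟩
  constructor <;> norm_num [Q38, coCell, P1C3]

lemma lP1C3 : ∀ x1 x2 xc : ℝ, 0 ≤ x1 → x1 ≤ 1 → 0 ≤ x2 → x2 ≤ 1 → P1C3.l ≤ xc → xc ≤ P1C3.u →
    (9183 / 4096 : ℝ) * (1 - (1 - x1) ^ 4) + (3235 / 256 : ℝ) * (1 - (1 - x2) ^ 4) - (12 : ℝ) * (1 - (1 - xc) ^ 4) + (1 / 1073741824 : ℝ)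
      ≤ - P1C3.a1 * x1 - P1C3.a2 * x2 + P1C3.e * xc + P1C3.f := by
  have h := cell_lines_delta 4 (α1 := (9183 / 4096 : ℝ)) (α2 := (3235 / 256 : ℝ)) (c := (12 : ℝ)) (y1 := (4309 / 65536 : ℝ)) (y2 := (8923 / 131072 : ℝ))
    (A1 := (15335703 / 2097152 : ℝ)) (B1 := (3568865 / 67108864 : ℝ)) (A2 := (171590873 / 4194304 : ℝ)) (B2 := (42990937 / 134217728 : ℝ)) (l := (5013 / 65536 : ℝ)) (u := (20653 / 262144 : ℝ))
    (E := (-157981101 / 4194304 : ℝ)) (F := (-6548059 / 16777216 : ℝ)) (δ := (1 / 1073741824 : ℝ)) (by norm_num) (by norm_num) (by norm_num) (by norm_num) (by norm_num)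
    (by norm_num) (by norm_num) (by norm_num) (by norm_num) (by norm_num) (by norm_num) (by norm_num) (by norm_num) (by norm_num) (by norm_num)
  have e1 : P1C3.l = (5013 / 65536 : ℝ) := rfl
  have e2 : P1C3.u = (20653 / 262144 : ℝ) := rfl
  have e3 : P1C3.a1 = -(15335703 / 2097152 : ℝ) := by norm_num [P1C3]
  have e4 : P1C3.a2 = -(171590873 / 4194304 : ℝ) := by norm_num [P1C3]
  have e5 : P1C3.e = (-157981101 / 4194304 : ℝ) := rfl
  have e6 : P1C3.f = (3568865 / 67108864 : ℝ) + (42990937 / 134217728 : ℝ) + (-6548059 / 16777216 : ℝ) + (1 / 1073741824 : ℝ) := by norm_num [P1C3]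
  rw [e1, e2, e3, e4, e5, e6]
  exact h

lemma rP1C4 : ∃ N : ℝ, Rw4 P.r2 N (coCell (9183 / 4096 : ℝ) (3235 / 256 : ℝ) (12 : ℝ) 0 P1C4) := by
  refine ⟨(3221225472 : ℝ), ⟨Q39, List.mem_cons_of_mem _ (List.mem_cons_of_mem _ (List.mem_cons_of_mem _ (List.mem_cons_of_mem _ (List.mem_cons_of_mem _ (List.mem_cons_of_mem _ (List.mem_cons_of_mem _ (List.mem_cons_of_mem _ (List.mem_cons_of_mem _ (List.mem_cons_of_mem _ (List.mem_cons_of_mem _ (List.mem_cons_of_mem _ (List.mem_cons_of_mem _ (List.mem_cons_of_mem _ (List.mem_cons_of_mem _ (List.mem_cons_of_mem _ (List.mem_cons_of_mem _ (List.mem_cons_of_mem _ (List.mem_cons_of_mem _ (List.mem_cons_of_mem _ (List.mem_cons_of_mem _ (List.mem_cons_of_mem _ (List.mem_cons_of_mem _ (List.mem_cons_of_mem _ (List.mem_cons_of_mem _ (List.mem_cons_of_mem _ (List.mem_cons_of_mem _ (List.mem_cons_of_mem _ (List.mem_cons_of_mem _ (List.mem_cons_of_mem _ (List.mem_cons_of_mem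 _ (List.mem_cons_of_mem _ (List.mem_cons_of_mem _ (List.mem_cons_of_mem _ (List.mem_cons_of_mem _ (List.mem_cons_of_mem _ (List.mem_cons_of_mem _ (List.mem_cons_of_mem _ (List.mem_cons_of_mem _ (List.mem_cons_self))))))))))))))))))))))))))))))))))))))), ?_⟩, by norm_num⟩
  constructor <;> norm_num [Q39, coCell, P1C4]

lemma lP1C4 : ∀ x1 x2 xc : ℝ, 0 ≤ x1 → x1 ≤ 1 → 0 ≤ x2 → x2 ≤ 1 → P1C4.l ≤ xc → xc ≤ P1C4.u →
    (9183 / 4096 : ℝ) * (1 - (1 - x1) ^ 4) + (3235 / 256 : ℝ) * (1 - (1 - x2) ^ 4) - (12 : ℝ) * (1 - (1 - xc) ^ 4) + (1 / 1073741824 : ℝ)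
      ≤ - P1C4.a1 * x1 - P1C4.a2 * x2 + P1C4.e * xc + P1C4.f := by
  have h := cell_lines_delta 4 (α1 := (9183 / 4096 : ℝ)) (α2 := (3235 / 256 : ℝ)) (c := (12 : ℝ)) (y1 := (18061 / 262144 : ℝ)) (y2 := (18381 / 262144 : ℝ))
    (A1 := (30362489 / 4194304 : ℝ)) (B1 := (15606461 / 268435456 : ℝ)) (A2 := (170466015 / 4194304 : ℝ)) (B2 := (90956201 / 268435456 : ℝ)) (l := (20653 / 262144 : ℝ)) (u := (21273 / 262144 : ℝ))
    (E := (-39196869 / 1048576 : ℝ)) (F := (-110787483 / 268435456 : ℝ)) (δ := (1 / 1073741824 : ℝ)) (by norm_num) (by norm_num) (by norm_num) (by norm_num) (by norm_num)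
    (by norm_num) (by norm_num) (by norm_num) (by norm_num) (by norm_num) (by norm_num) (by norm_num) (by norm_num) (by norm_num) (by norm_num)
  have e1 : P1C4.l = (20653 / 262144 : ℝ) := rfl
  have e2 : P1C4.u = (21273 / 262144 : ℝ) := rfl
  have e3 : P1C4.a1 = -(30362489 / 4194304 : ℝ) := by norm_num [P1C4]
  have e4 : P1C4.a2 = -(170466015 / 4194304 : ℝ) := by norm_num [P1C4]
  have e5 : P1C4.e = (-39196869 / 1048576 : ℝ) := rfl
  have e6 : P1C4.f = (15606461 / 268435456 : ℝ) + (90956201 / 268435456 : ℝ) + (-110787483 / 268435456 : ℝ) + (1 / 1073741824 : ℝ) := by norm_num [P1C4]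
  rw [e1, e2, e3, e4, e5, e6]
  exact h

lemma rP1C5 : ∃ N : ℝ, Rw4 P.r2 N (coCell (9183 / 4096 : ℝ) (3235 / 256 : ℝ) (12 : ℝ) 0 P1C5) := by
  refine ⟨(3221225472 : ℝ), ⟨Q40, List.mem_cons_of_mem _ (List.mem_cons_of_mem _ (List.mem_cons_of_mem _ (List.mem_cons_of_mem _ (List.mem_cons_of_mem _ (List.mem_cons_of_mem _ (List.mem_cons_of_mem _ (List.mem_cons_of_mem _ (List.mem_cons_of_mem _ (List.mem_cons_of_mem _ (List.mem_cons_of_mem _ (List.mem_cons_of_mem _ (List.mem_cons_of_mem _ (List.mem_cons_of_mem _ (List.mem_cons_of_mem _ (List.mem_cons_of_mem _ (List.mem_cons_of_mem _ (List.mem_cons_of_mem _ (List.mem_cons_of_mem _ (List.mem_cons_of_mem _ (List.mem_cons_of_mem _ (List.mem_cons_of_mem _ (List.mem_cons_of_mem _ (List.mem_cons_of_mem _ (List.mem_cons_of_mem _ (List.mem_cons_of_mem _ (List.mem_cons_of_mem _ (List.mem_cons_of_mem _ (List.mem_cons_of_mem _ (List.mem_cons_of_mem _ (List.mem_cons_of_mem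 _ (List.mem_cons_of_mem _ (List.mem_cons_of_mem _ (List.mem_cons_of_mem _ (List.mem_cons_of_mem _ (List.mem_cons_of_mem _ (List.mem_cons_of_mem _ (List.mem_cons_of_mem _ (List.mem_cons_of_mem _ (List.mem_cons_of_mem _ (List.mem_cons_self)))))))))))))))))))))))))))))))))))))))), ?_⟩, by norm_num⟩
  constructor <;> norm_num [Q40, coCell, P1C5]

lemma lP1C5 : ∀ x1 x2 xc : ℝ, 0 ≤ x1 → x1 ≤ 1 → 0 ≤ x2 → x2 ≤ 1 → P1C5.l ≤ xc → xc ≤ P1C5.u →
    (9183 / 4096 : ℝ) * (1 - (1 - x1) ^ 4) + (3235 / 256 : ℝ) * (1 - (1 - x2) ^ 4) - (12 : ℝ) * (1 - (1 - xc) ^ 4) + (1 / 1073741824 : ℝ)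
      ≤ - P1C5.a1 * x1 - P1C5.a2 * x2 + P1C5.e * xc + P1C5.f := by
  have h := cell_lines_delta 4 (α1 := (9183 / 4096 : ℝ)) (α2 := (3235 / 256 : ℝ)) (c := (12 : ℝ)) (y1 := (9445 / 131072 : ℝ)) (y2 := (18933 / 262144 : ℝ))
    (A1 := (15027085 / 2097152 : ℝ)) (B1 := (8498567 / 134217728 : ℝ)) (A2 := (169310577 / 4194304 : ℝ)) (B2 := (96219087 / 268435456 : ℝ)) (l := (21273 / 262144 : ℝ)) (u := (21911 / 262144 : ℝ))
    (E := (-9722749 / 262144 : ℝ)) (F := (-14642727 / 33554432 : ℝ)) (δ := (1 / 1073741824 : ℝ)) (by norm_num) (by norm_num) (by norm_num) (by norm_num) (by norm_num)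
    (by norm_num) (by norm_num) (by norm_num) (by norm_num) (by norm_num) (by norm_num) (by norm_num) (by norm_num) (by norm_num) (by norm_num)
  have e1 : P1C5.l = (21273 / 262144 : ℝ) := rfl
  have e2 : P1C5.u = (21911 / 262144 : ℝ) := rfl
  have e3 : P1C5.a1 = -(15027085 / 2097152 : ℝ) := by norm_num [P1C5]
  have e4 : P1C5.a2 = -(169310577 / 4194304 : ℝ) := by norm_num [P1C5]
  have e5 : P1C5.e = (-9722749 / 262144 : ℝ) := rfl
  have e6 : P1C5.f = (8498567 / 134217728 : ℝ) + (96219087 / 268435456 : ℝ) + (-14642727 / 33554432 : ℝ) + (1 / 1073741824 : ℝ) := by norm_num [P1C5]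
  rw [e1, e2, e3, e4, e5, e6]
  exact h

lemma rP1C6 : ∃ N : ℝ, Rw4 P.r2 N (coCell (9183 / 4096 : ℝ) (3235 / 256 : ℝ) (12 : ℝ) 0 P1C6) := by
  refine ⟨(3221225472 : ℝ), ⟨Q41, List.mem_cons_of_mem _ (List.mem_cons_of_mem _ (List.mem_cons_of_mem _ (List.mem_cons_of_mem _ (List.mem_cons_of_mem _ (List.mem_cons_of_mem _ (List.mem_cons_of_mem _ (List.mem_cons_of_mem _ (List.mem_cons_of_mem _ (List.mem_cons_of_mem _ (List.mem_cons_of_mem _ (List.mem_cons_of_mem _ (List.mem_cons_of_mem _ (List.mem_cons_of_mem _ (List.mem_cons_of_mem _ (List.mem_cons_of_mem _ (List.mem_cons_of_mem _ (List.mem_cons_of_mem _ (List.mem_cons_of_mem _ (List.mem_cons_of_mem _ (List.mem_cons_of_mem _ (List.mem_cons_of_mem _ (List.mem_cons_of_mem _ (List.mem_cons_of_mem _ (List.mem_cons_of_mem _ (List.mem_cons_of_mem _ (List.mem_cons_of_mem _ (List.mem_cons_of_mem _ (List.mem_cons_of_mem _ (List.mem_cons_of_mem _ (List.mem_cons_of_mem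 _ (List.mem_cons_of_mem _ (List.mem_cons_of_mem _ (List.mem_cons_of_mem _ (List.mem_cons_of_mem _ (List.mem_cons_of_mem _ (List.mem_cons_of_mem _ (List.mem_cons_of_mem _ (List.mem_cons_of_mem _ (List.mem_cons_of_mem _ (List.mem_cons_of_mem _ (List.mem_cons_self))))))))))))))))))))))))))))))))))))))))), ?_⟩, by norm_num⟩
  constructor <;> norm_num [Q41, coCell, P1C6]

lemma lP1C6 : ∀ x1 x2 xc : ℝ, 0 ≤ x1 → x1 ≤ 1 → 0 ≤ x2 → x2 ≤ 1 → P1C6.l ≤ xc → xc ≤ P1C6.u →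
    (9183 / 4096 : ℝ) * (1 - (1 - x1) ^ 4) + (3235 / 256 : ℝ) * (1 - (1 - x2) ^ 4) - (12 : ℝ) * (1 - (1 - xc) ^ 4) + (1 / 1073741824 : ℝ)
      ≤ - P1C6.a1 * x1 - P1C6.a2 * x2 + P1C6.e * xc + P1C6.f := by
  have h := cell_lines_delta 4 (α1 := (9183 / 4096 : ℝ)) (α2 := (3235 / 256 : ℝ)) (c := (12 : ℝ)) (y1 := (4931 / 65536 : ℝ)) (y2 := (19501 / 262144 : ℝ))
    (A1 := (29746105 / 4194304 : ℝ)) (B1 := (9224601 / 134217728 : ℝ)) (A2 := (168127111 / 4194304 : ℝ)) (B2 := (25442857 / 67108864 : ℝ)) (l := (21911 / 262144 : ℝ)) (u := (2821 / 32768 : ℝ))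
    (E := (-154311173 / 4194304 : ℝ)) (F := (-123843559 / 268435456 : ℝ)) (δ := (1 / 1073741824 : ℝ)) (by norm_num) (by norm_num) (by norm_num) (by norm_num) (by norm_num)
    (by norm_num) (by norm_num) (by norm_num) (by norm_num) (by norm_num) (by norm_num) (by norm_num) (by norm_num) (by norm_num) (by norm_num)
  have e1 : P1C6.l = (21911 / 262144 : ℝ) := rfl
  have e2 : P1C6.u = (2821 / 32768 : ℝ) := rfl
  have e3 : P1C6.a1 = -(29746105 / 4194304 : ℝ) := by norm_num [P1C6]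
  have e4 : P1C6.a2 = -(168127111 / 4194304 : ℝ) := by norm_num [P1C6]
  have e5 : P1C6.e = (-154311173 / 4194304 : ℝ) := rfl
  have e6 : P1C6.f = (9224601 / 134217728 : ℝ) + (25442857 / 67108864 : ℝ) + (-123843559 / 268435456 : ℝ) + (1 / 1073741824 : ℝ) := by norm_num [P1C6]
  rw [e1, e2, e3, e4, e5, e6]
  exact h

lemma rP1C7 : ∃ N : ℝ, Rw4 P.r2 N (coCell (9183 / 4096 : ℝ) (3235 / 256 : ℝ) (12 : ℝ) 0 P1C7) := by
  refine ⟨(3221225472 : ℝ), ⟨Q42, List.mem_cons_of_mem _ (List.mem_cons_of_mem _ (List.mem_cons_of_mem _ (List.mem_cons_of_mem _ (List.mem_cons_of_mem _ (List.mem_cons_of_mem _ (List.mem_cons_of_mem _ (List.mem_cons_of_mem _ (List.mem_cons_of_mem _ (List.mem_cons_of_mem _ (List.mem_cons_of_mem _ (List.mem_cons_of_mem _ (List.mem_cons_of_mem _ (List.mem_cons_of_mem _ (List.mem_cons_of_mem _ (List.mem_cons_of_mem _ (List.mem_cons_of_mem _ (List.mem_cons_of_mem _ (List.mem_cons_of_mem _ (List.mem_cons_of_mem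 _ (List.mem_cons_of_mem _ (List.mem_cons_of_mem _ (List.mem_cons_of_mem _ (List.mem_cons_of_mem _ (List.mem_cons_of_mem _ (List.mem_cons_of_mem _ (List.mem_cons_of_mem _ (List.mem_cons_of_mem _ (List.mem_cons_of_mem _ (List.mem_cons_of_mem _ (List.mem_cons_of_mem _ (List.mem_cons_of_mem _ (List.mem_cons_of_mem _ (List.mem_cons_of_mem _ (List.mem_cons_of_mem _ (List.mem_cons_of_mem _ (List.mem_cons_of_mem _ (List.mem_cons_of_mem _ (List.mem_cons_of_mem _ (List.mem_cons_of_mem _ (List.mem_cons_of_mem _ (List.mem_cons_of_mem _ (List.mem_cons_self)))))))))))))))))))))))))))))))))))))))))), ?_⟩, by norm_num⟩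
  constructor <;> norm_num [Q42, coCell, P1C7]

lemma lP1C7 : ∀ x1 x2 xc : ℝ, 0 ≤ x1 → x1 ≤ 1 → 0 ≤ x2 → x2 ≤ 1 → P1C7.l ≤ xc → xc ≤ P1C7.u →
    (9183 / 4096 : ℝ) * (1 - (1 - x1) ^ 4) + (3235 / 256 : ℝ) * (1 - (1 - x2) ^ 4) - (12 : ℝ) * (1 - (1 - xc) ^ 4) + (1 / 1073741824 : ℝ)
      ≤ - P1C7.a1 * x1 - P1C7.a2 * x2 + P1C7.e * xc + P1C7.f := by
  have h := cell_lines_delta 4 (α1 := (9183 / 4096 : ℝ)) (α2 := (3235 / 256 : ℝ)) (c := (12 : ℝ)) (y1 := (20565 / 262144 : ℝ)) (y2 := (10043 / 131072 : ℝ))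
    (A1 := (14718797 / 2097152 : ℝ)) (B1 := (19966451 / 268435456 : ℝ)) (A2 := (166914003 / 4194304 : ℝ)) (B2 := (107633579 / 268435456 : ℝ)) (l := (2821 / 32768 : ℝ)) (u := (23245 / 262144 : ℝ))
    (E := (-76513843 / 2097152 : ℝ)) (F := (-16364409 / 33554432 : ℝ)) (δ := (1 / 1073741824 : ℝ)) (by norm_num) (by norm_num) (by norm_num) (by norm_num) (by norm_num)
    (by norm_num) (by norm_num) (by norm_num) (by norm_num) (by norm_num) (by norm_num) (by norm_num) (by norm_num) (by norm_num) (by norm_num)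
  have e1 : P1C7.l = (2821 / 32768 : ℝ) := rfl
  have e2 : P1C7.u = (23245 / 262144 : ℝ) := rfl
  have e3 : P1C7.a1 = -(14718797 / 2097152 : ℝ) := by norm_num [P1C7]
  have e4 : P1C7.a2 = -(166914003 / 4194304 : ℝ) := by norm_num [P1C7]
  have e5 : P1C7.e = (-76513843 / 2097152 : ℝ) := rfl
  have e6 : P1C7.f = (19966451 / 268435456 : ℝ) + (107633579 / 268435456 : ℝ) + (-16364409 / 33554432 : ℝ) + (1 / 1073741824 : ℝ) := by norm_num [P1C7]
  rw [e1, e2, e3, e4, e5, e6]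
  exact h

lemma rP1C8 : ∃ N : ℝ, Rw4 P.r2 N (coCell (9183 / 4096 : ℝ) (3235 / 256 : ℝ) (12 : ℝ) 0 P1C8) := by
  refine ⟨(3221225472 : ℝ), ⟨Q43, List.mem_cons_of_mem _ (List.mem_cons_of_mem _ (List.mem_cons_of_mem _ (List.mem_cons_of_mem _ (List.mem_cons_of_mem _ (List.mem_cons_of_mem _ (List.mem_cons_of_mem _ (List.mem_cons_of_mem _ (List.mem_cons_of_mem _ (List.mem_cons_of_mem _ (List.mem_cons_of_mem _ (List.mem_cons_of_mem _ (List.mem_cons_of_mem _ (List.mem_cons_of_mem _ (List.mem_cons_of_mem _ (List.mem_cons_of_mem _ (List.mem_cons_of_mem _ (List.mem_cons_of_mem _ (List.mem_cons_of_mem _ (List.mem_cons_of_mem _ (List.mem_cons_of_mem _ (List.mem_cons_of_mem _ (List.mem_cons_of_mem _ (List.mem_cons_of_mem _ (List.mem_cons_of_mem _ (List.mem_cons_of_mem _ (List.mem_cons_of_mem _ (List.mem_cons_of_mem _ (List.mem_cons_of_mem _ (List.mem_cons_of_mem _ (List.mem_cons_of_mem _ (List.mem_cons_of_mem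 _ (List.mem_cons_of_mem _ (List.mem_cons_of_mem _ (List.mem_cons_of_mem _ (List.mem_cons_of_mem _ (List.mem_cons_of_mem _ (List.mem_cons_of_mem _ (List.mem_cons_of_mem _ (List.mem_cons_of_mem _ (List.mem_cons_of_mem _ (List.mem_cons_of_mem _ (List.mem_cons_of_mem _ (List.mem_cons_self))))))))))))))))))))))))))))))))))))))))))), ?_⟩, by norm_num⟩
  constructor <;> norm_num [Q43, coCell, P1C8]

lemma lP1C8 : ∀ x1 x2 xc : ℝ, 0 ≤ x1 → x1 ≤ 1 → 0 ≤ x2 → x2 ≤ 1 → P1C8.l ≤ xc → xc ≤ P1C8.u →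
    (9183 / 4096 : ℝ) * (1 - (1 - x1) ^ 4) + (3235 / 256 : ℝ) * (1 - (1 - x2) ^ 4) - (12 : ℝ) * (1 - (1 - xc) ^ 4) + (1 / 1073741824 : ℝ)
      ≤ - P1C8.a1 * x1 - P1C8.a2 * x2 + P1C8.e * xc + P1C8.f := by
  have h := cell_lines_delta 4 (α1 := (9183 / 4096 : ℝ)) (α2 := (3235 / 256 : ℝ)) (c := (12 : ℝ)) (y1 := (20691 / 262144 : ℝ)) (y2 := (20809 / 262144 : ℝ))
    (A1 := (7347889 / 1048576 : ℝ)) (B1 := (20198323 / 268435456 : ℝ)) (A2 := (165422805 / 4194304 : ℝ)) (B2 := (115077633 / 268435456 : ℝ)) (l := (23245 / 262144 : ℝ)) (u := (23943 / 262144 : ℝ))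
    (E := (-75856111 / 2097152 : ℝ)) (F := (-69190297 / 134217728 : ℝ)) (δ := (1 / 1073741824 : ℝ)) (by norm_num) (by norm_num) (by norm_num) (by norm_num) (by norm_num)
    (by norm_num) (by norm_num) (by norm_num) (by norm_num) (by norm_num) (by norm_num) (by norm_num) (by norm_num) (by norm_num) (by norm_num)
  have e1 : P1C8.l = (23245 / 262144 : ℝ) := rfl
  have e2 : P1C8.u = (23943 / 262144 : ℝ) := rfl
  have e3 : P1C8.a1 = -(7347889 / 1048576 : ℝ) := by norm_num [P1C8]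
  have e4 : P1C8.a2 = -(165422805 / 4194304 : ℝ) := by norm_num [P1C8]
  have e5 : P1C8.e = (-75856111 / 2097152 : ℝ) := rfl
  have e6 : P1C8.f = (20198323 / 268435456 : ℝ) + (115077633 / 268435456 : ℝ) + (-69190297 / 134217728 : ℝ) + (1 / 1073741824 : ℝ) := by norm_num [P1C8]
  rw [e1, e2, e3, e4, e5, e6]
  exact h

lemma rP1C9 : ∃ N : ℝ, Rw4 P.r2 N (coCell (9183 / 4096 : ℝ) (3235 / 256 : ℝ) (12 : ℝ) 0 P1C9) := by
  refine ⟨(3221225472 : ℝ), ⟨Q44, List.mem_cons_of_mem _ (List.mem_cons_of_mem _ (List.mem_cons_of_mem _ (List.mem_cons_of_mem _ (List.mem_cons_of_mem _ (List.mem_cons_of_mem _ (List.mem_cons_of_mem _ (List.mem_cons_of_mem _ (List.mem_cons_of_mem _ (List.mem_cons_of_mem _ (List.mem_cons_of_mem _ (List.mem_cons_of_mem _ (List.mem_cons_of_mem _ (List.mem_cons_of_mem _ (List.mem_cons_of_mem _ (List.mem_cons_of_mem _ (List.mem_cons_of_mem _ (List.mem_cons_of_mem _ (List.mem_cons_of_mem _ (List.mem_cons_of_mem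 _ (List.mem_cons_of_mem _ (List.mem_cons_of_mem _ (List.mem_cons_of_mem _ (List.mem_cons_of_mem _ (List.mem_cons_of_mem _ (List.mem_cons_of_mem _ (List.mem_cons_of_mem _ (List.mem_cons_of_mem _ (List.mem_cons_of_mem _ (List.mem_cons_of_mem _ (List.mem_cons_of_mem _ (List.mem_cons_of_mem _ (List.mem_cons_of_mem _ (List.mem_cons_of_mem _ (List.mem_cons_of_mem _ (List.mem_cons_of_mem _ (List.mem_cons_of_mem _ (List.mem_cons_of_mem _ (List.mem_cons_of_mem _ (List.mem_cons_of_mem _ (List.mem_cons_of_mem _ (List.mem_cons_of_mem _ (List.mem_cons_of_mem _ (List.mem_cons_of_mem _ (List.mem_cons_self)))))))))))))))))))))))))))))))))))))))))))), ?_⟩, by norm_num⟩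
  constructor <;> norm_num [Q44, coCell, P1C9]

lemma lP1C9 : ∀ x1 x2 xc : ℝ, 0 ≤ x1 → x1 ≤ 1 → 0 ≤ x2 → x2 ≤ 1 → P1C9.l ≤ xc → xc ≤ P1C9.u →
    (9183 / 4096 : ℝ) * (1 - (1 - x1) ^ 4) + (3235 / 256 : ℝ) * (1 - (1 - x2) ^ 4) - (12 : ℝ) * (1 - (1 - xc) ^ 4) + (1 / 1073741824 : ℝ)
      ≤ - P1C9.a1 * x1 - P1C9.a2 * x2 + P1C9.e * xc + P1C9.f := by
  have h := cell_lines_delta 4 (α1 := (9183 / 4096 : ℝ)) (α2 := (3235 / 256 : ℝ)) (c := (12 : ℝ)) (y1 := (20809 / 262144 : ℝ)) (y2 := (21551 / 262144 : ℝ))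
    (A1 := (14674243 / 2097152 : ℝ)) (B1 := (5104123 / 67108864 : ℝ)) (A2 := (163901683 / 4194304 : ℝ)) (B2 := (122943031 / 268435456 : ℝ)) (l := (23943 / 262144 : ℝ)) (u := (24661 / 262144 : ℝ))
    (E := (-150365433 / 4194304 : ℝ)) (F := (-73126597 / 134217728 : ℝ)) (δ := (1 / 1073741824 : ℝ)) (by norm_num) (by norm_num) (by norm_num) (by norm_num) (by norm_num)
    (by norm_num) (by norm_num) (by norm_num) (by norm_num) (by norm_num) (by norm_num) (by norm_num) (by norm_num) (by norm_num) (by norm_num)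
  have e1 : P1C9.l = (23943 / 262144 : ℝ) := rfl
  have e2 : P1C9.u = (24661 / 262144 : ℝ) := rfl
  have e3 : P1C9.a1 = -(14674243 / 2097152 : ℝ) := by norm_num [P1C9]
  have e4 : P1C9.a2 = -(163901683 / 4194304 : ℝ) := by norm_num [P1C9]
  have e5 : P1C9.e = (-150365433 / 4194304 : ℝ) := rfl
  have e6 : P1C9.f = (5104123 / 67108864 : ℝ) + (122943031 / 268435456 : ℝ) + (-73126597 / 134217728 : ℝ) + (1 / 1073741824 : ℝ) := by norm_num [P1C9]
  rw [e1, e2, e3, e4, e5, e6]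
  exact h

lemma rP1C10 : ∃ N : ℝ, Rw4 P.r2 N (coCell (9183 / 4096 : ℝ) (3235 / 256 : ℝ) (12 : ℝ) 0 P1C10) := by
  refine ⟨(3221225472 : ℝ), ⟨Q45, List.mem_cons_of_mem _ (List.mem_cons_of_mem _ (List.mem_cons_of_mem _ (List.mem_cons_of_mem _ (List.mem_cons_of_mem _ (List.mem_cons_of_mem _ (List.mem_cons_of_mem _ (List.mem_cons_of_mem _ (List.mem_cons_of_mem _ (List.mem_cons_of_mem _ (List.mem_cons_of_mem _ (List.mem_cons_of_mem _ (List.mem_cons_of_mem _ (List.mem_cons_of_mem _ (List.mem_cons_of_mem _ (List.mem_cons_of_mem _ (List.mem_cons_of_mem _ (List.mem_cons_of_mem _ (List.mem_cons_of_mem _ (List.mem_cons_of_mem _ (List.mem_cons_of_mem _ (List.mem_cons_of_mem _ (List.mem_cons_of_mem _ (List.mem_cons_of_mem _ (List.mem_cons_of_mem _ (List.mem_cons_of_mem _ (List.mem_cons_of_mem _ (List.mem_cons_of_mem _ (List.mem_cons_of_mem _ (List.mem_cons_of_mem _ (List.mem_cons_of_mem _ (List.mem_cons_of_mem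 _ (List.mem_cons_of_mem _ (List.mem_cons_of_mem _ (List.mem_cons_of_mem _ (List.mem_cons_of_mem _ (List.mem_cons_of_mem _ (List.mem_cons_of_mem _ (List.mem_cons_of_mem _ (List.mem_cons_of_mem _ (List.mem_cons_of_mem _ (List.mem_cons_of_mem _ (List.mem_cons_of_mem _ (List.mem_cons_of_mem _ (List.mem_cons_of_mem _ (List.mem_cons_self))))))))))))))))))))))))))))))))))))))))))))), ?_⟩, by norm_num⟩
  constructor <;> norm_num [Q45, coCell, P1C10]

lemma lP1C10 : ∀ x1 x2 xc : ℝ, 0 ≤ x1 → x1 ≤ 1 → 0 ≤ x2 → x2 ≤ 1 → P1C10.l ≤ xc → xc ≤ P1C10.u →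
    (9183 / 4096 : ℝ) * (1 - (1 - x1) ^ 4) + (3235 / 256 : ℝ) * (1 - (1 - x2) ^ 4) - (12 : ℝ) * (1 - (1 - xc) ^ 4) + (1 / 1073741824 : ℝ)
      ≤ - P1C10.a1 * x1 - P1C10.a2 * x2 + P1C10.e * xc + P1C10.f := by
  have h := cell_lines_delta 4 (α1 := (9183 / 4096 : ℝ)) (α2 := (3235 / 256 : ℝ)) (c := (12 : ℝ)) (y1 := (10269 / 131072 : ℝ)) (y2 := (22371 / 262144 : ℝ))
    (A1 := (29447465 / 4194304 : ℝ)) (B1 := (9958461 / 134217728 : ℝ)) (A2 := (10139471 / 262144 : ℝ)) (B2 := (131897477 / 268435456 : ℝ)) (l := (24661 / 262144 : ℝ)) (u := (25401 / 262144 : ℝ))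
    (E := (-148987053 / 4194304 : ℝ)) (F := (-77276039 / 134217728 : ℝ)) (δ := (1 / 1073741824 : ℝ)) (by norm_num) (by norm_num) (by norm_num) (by norm_num) (by norm_num)
    (by norm_num) (by norm_num) (by norm_num) (by norm_num) (by norm_num) (by norm_num) (by norm_num) (by norm_num) (by norm_num) (by norm_num)
  have e1 : P1C10.l = (24661 / 262144 : ℝ) := rfl
  have e2 : P1C10.u = (25401 / 262144 : ℝ) := rfl
  have e3 : P1C10.a1 = -(29447465 / 4194304 : ℝ) := by norm_num [P1C10]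
  have e4 : P1C10.a2 = -(10139471 / 262144 : ℝ) := by norm_num [P1C10]
  have e5 : P1C10.e = (-148987053 / 4194304 : ℝ) := rfl
  have e6 : P1C10.f = (9958461 / 134217728 : ℝ) + (131897477 / 268435456 : ℝ) + (-77276039 / 134217728 : ℝ) + (1 / 1073741824 : ℝ) := by norm_num [P1C10]
  rw [e1, e2, e3, e4, e5, e6]
  exact h

lemma rP1C11 : ∃ N : ℝ, Rw4 P.r2 N (coCell (9183 / 4096 : ℝ) (3235 / 256 : ℝ) (12 : ℝ) 0 P1C11) := by
  refine ⟨(3221225472 : ℝ), ⟨Q46, List.mem_cons_of_mem _ (List.mem_cons_of_mem _ (List.mem_cons_of_mem _ (List.mem_cons_of_mem _ (List.mem_cons_of_mem _ (List.mem_cons_of_mem _ (List.mem_cons_of_mem _ (List.mem_cons_of_mem _ (List.mem_cons_of_mem _ (List.mem_cons_of_mem _ (List.mem_cons_of_mem _ (List.mem_cons_of_mem _ (List.mem_cons_of_mem _ (List.mem_cons_of_mem _ (List.mem_cons_of_mem _ (List.mem_cons_of_mem _ (List.mem_cons_of_mem _ (List.mem_cons_of_mem _ (List.mem_cons_of_mem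 _ (List.mem_cons_of_mem _ (List.mem_cons_of_mem _ (List.mem_cons_of_mem _ (List.mem_cons_of_mem _ (List.mem_cons_of_mem _ (List.mem_cons_of_mem _ (List.mem_cons_of_mem _ (List.mem_cons_of_mem _ (List.mem_cons_of_mem _ (List.mem_cons_of_mem _ (List.mem_cons_of_mem _ (List.mem_cons_of_mem _ (List.mem_cons_of_mem _ (List.mem_cons_of_mem _ (List.mem_cons_of_mem _ (List.mem_cons_of_mem _ (List.mem_cons_of_mem _ (List.mem_cons_of_mem _ (List.mem_cons_of_mem _ (List.mem_cons_of_mem _ (List.mem_cons_of_mem _ (List.mem_cons_of_mem _ (List.mem_cons_of_mem _ (List.mem_cons_of_mem _ (List.mem_cons_of_mem _ (List.mem_cons_of_mem _ (List.mem_cons_of_mem _ (List.mem_cons_self)))))))))))))))))))))))))))))))))))))))))))))), ?_⟩, by norm_num⟩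
  constructor <;> norm_num [Q46, coCell, P1C11]

lemma lP1C11 : ∀ x1 x2 xc : ℝ, 0 ≤ x1 → x1 ≤ 1 → 0 ≤ x2 → x2 ≤ 1 → P1C11.l ≤ xc → xc ≤ P1C11.u →
    (9183 / 4096 : ℝ) * (1 - (1 - x1) ^ 4) + (3235 / 256 : ℝ) * (1 - (1 - x2) ^ 4) - (12 : ℝ) * (1 - (1 - xc) ^ 4) + (1 / 1073741824 : ℝ)
      ≤ - P1C11.a1 * x1 - P1C11.a2 * x2 + P1C11.e * xc + P1C11.f := by
  have h := cell_lines_delta 4 (α1 := (9183 / 4096 : ℝ)) (α2 := (3235 / 256 : ℝ)) (c := (12 : ℝ)) (y1 := (2557 / 32768 : ℝ)) (y2 := (23193 / 262144 : ℝ))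
    (A1 := (14738729 / 2097152 : ℝ)) (B1 := (19766835 / 268435456 : ℝ)) (A2 := (160568743 / 4194304 : ℝ)) (B2 := (70572869 / 134217728 : ℝ)) (l := (25401 / 262144 : ℝ)) (u := (13107 / 131072 : ℝ))
    (E := (-147528205 / 4194304 : ℝ)) (F := (-81799501 / 134217728 : ℝ)) (δ := (1 / 1073741824 : ℝ)) (by norm_num) (by norm_num) (by norm_num) (by norm_num) (by norm_num)
    (by norm_num) (by norm_num) (by norm_num) (by norm_num) (by norm_num) (by norm_num) (by norm_num) (by norm_num) (by norm_num) (by norm_num)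
  have e1 : P1C11.l = (25401 / 262144 : ℝ) := rfl
  have e2 : P1C11.u = (13107 / 131072 : ℝ) := rfl
  have e3 : P1C11.a1 = -(14738729 / 2097152 : ℝ) := by norm_num [P1C11]
  have e4 : P1C11.a2 = -(160568743 / 4194304 : ℝ) := by norm_num [P1C11]
  have e5 : P1C11.e = (-147528205 / 4194304 : ℝ) := rfl
  have e6 : P1C11.f = (19766835 / 268435456 : ℝ) + (70572869 / 134217728 : ℝ) + (-81799501 / 134217728 : ℝ) + (1 / 1073741824 : ℝ) := by norm_num [P1C11]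
  rw [e1, e2, e3, e4, e5, e6]
  exact h

/-- A link of the chain. -/
lemma link1 {lam : ℝ} (h0 : -(1 / 2) < lam) (h1 : lam < 1) (hB : BoxS lam P 0 HH 0 HH)
    (h : ∃ n, 1 - En 4 lam n mc ≤ (13107 / 131072 : ℝ)) : ∃ n, 1 - En 4 lam n mc ≤ (9175 / 131072 : ℝ) :=
  phase_of_box (by norm_num) h0 h1 hB (9183 / 4096 : ℝ) (3235 / 256 : ℝ) (12 : ℝ) (1 / 1073741824 : ℝ) (9175 / 131072 : ℝ) (13107 / 131072 : ℝ) (by norm_num) cellsP1 hcoverP1
    (forall_cons lP1C0 (forall_cons lP1C1 (forall_cons lP1C2 (forall_cons lP1C3 (forall_cons lP1C4 (forall_cons lP1C5 (forall_cons lP1C6 (forall_cons lP1C7 (forall_cons lP1C8 (forall_cons lP1C9 (forall_cons lP1C10 (forall_cons lP1C11 (forall_nil))))))))))))) (forall_cons rP1C0 (forall_cons rP1C1 (forall_cons rP1C2 (forall_cons rP1C3 (forall_cons rP1C4 (forall_cons rP1C5 (forall_cons rP1C6 (forall_cons rP1C7 (forall_cons rP1C8 (forall_cons rP1C9 (forall_cons rP1C10 (forall_cons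 rP1C11 (forall_nil))))))))))))) h

/-- A chord cell of a link. -/
noncomputable def P2C0 : Cell := ⟨(13107 / 131072 : ℝ), (27001 / 262144 : ℝ), (-42241319 / 4194304 : ℝ), (-38342283 / 1048576 : ℝ), (-18254387 / 524288 : ℝ), (-40951783 / 1073741824 : ℝ)⟩

/-- A chord cell of a link. -/
noncomputable def P2C1 : Cell := ⟨(27001 / 262144 : ℝ), (27811 / 262144 : ℝ), (-41726085 / 4194304 : ℝ), (-152089421 / 4194304 : ℝ), (-144554917 / 4194304 : ℝ), (-39494907 / 1073741824 : ℝ)⟩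

/-- A chord cell of a link. -/
noncomputable def P2C2 : Cell := ⟨(27811 / 262144 : ℝ), (28645 / 262144 : ℝ), (-20604391 / 2097152 : ℝ), (-75390405 / 2097152 : ℝ), (-35760415 / 1048576 : ℝ), (-38058171 / 1073741824 : ℝ)⟩

/-- A chord cell of a link. -/
noncomputable def P2C3 : Cell := ⟨(28645 / 262144 : ℝ), (29505 / 262144 : ℝ), (-21471915 / 2097152 : ℝ), (-147289957 / 4194304 : ℝ), (-35373367 / 1048576 : ℝ), (-38496375 / 1073741824 : ℝ)⟩

/-- A chord cell of a link. -/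
noncomputable def P2C4 : Cell := ⟨(29505 / 262144 : ℝ), (15195 / 131072 : ℝ), (-42446887 / 4194304 : ℝ), (-145866171 / 4194304 : ℝ), (-34977597 / 1048576 : ℝ), (-36991679 / 1073741824 : ℝ)⟩

/-- A chord cell of a link. -/
noncomputable def P2C5 : Cell := ⟨(15195 / 131072 : ℝ), (31301 / 262144 : ℝ), (-20974515 / 2097152 : ℝ), (-144409203 / 4194304 : ℝ), (-69146709 / 2097152 : ℝ), (-35443935 / 1073741824 : ℝ)⟩

/-- A chord cell of a link. -/
noncomputable def P2C6 : Cell := ⟨(31301 / 262144 : ℝ), (2015 / 16384 : ℝ), (-20724915 / 2097152 : ℝ), (-142919873 / 4194304 : ℝ), (-136640909 / 4194304 : ℝ), (-33925307 / 1073741824 : ℝ)⟩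

/-- A chord cell of a link. -/
noncomputable def P2C7 : Cell := ⟨(2015 / 16384 : ℝ), (4151 / 32768 : ℝ), (-40948357 / 4194304 : ℝ), (-35348847 / 1048576 : ℝ), (-16868915 / 524288 : ℝ), (-32399347 / 1073741824 : ℝ)⟩

/-- A chord cell of a link. -/
noncomputable def P2C8 : Cell := ⟨(4151 / 32768 : ℝ), (8551 / 65536 : ℝ), (-40444229 / 4194304 : ℝ), (-69918343 / 2097152 : ℝ), (-66612923 / 2097152 : ℝ), (-30855627 / 1073741824 : ℝ)⟩

/-- A chord cell of a link. -/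
noncomputable def P2C9 : Cell := ⟨(8551 / 65536 : ℝ), (17615 / 131072 : ℝ), (-40298233 / 4194304 : ℝ), (-34481591 / 1048576 : ℝ), (-131464851 / 4194304 : ℝ), (-29646607 / 1073741824 : ℝ)⟩

/-- A chord cell of a link. -/
noncomputable def P2C10 : Cell := ⟨(17615 / 131072 : ℝ), (36287 / 262144 : ℝ), (-40249303 / 4194304 : ℝ), (-33976073 / 1048576 : ℝ), (-64833515 / 2097152 : ℝ), (-28598767 / 1073741824 : ℝ)⟩

/-- A chord cell of a link. -/
noncomputable def P2C11 : Cell := ⟨(36287 / 262144 : ℝ), (9175 / 65536 : ℝ), (-40230257 / 4194304 : ℝ), (-134474129 / 4194304 : ℝ), (-64203787 / 2097152 : ℝ), (-27798111 / 1073741824 : ℝ)⟩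

/-- The chord cells of a link. -/
noncomputable def cellsP2 : List Cell := [P2C0, P2C1, P2C2, P2C3, P2C4, P2C5, P2C6, P2C7, P2C8, P2C9, P2C10, P2C11]

lemma hcoverP2 : ∀ x : ℝ, (13107 / 131072 : ℝ) ≤ x → x ≤ (9175 / 65536 : ℝ) → ∃ D ∈ cellsP2, D.l ≤ x ∧ x ≤ D.u := by
  refine cover_of_chain ?_ (by norm_num [P2C0])
  simp only [ChainP, P2C0, P2C1, P2C2, P2C3, P2C4, P2C5, P2C6, P2C7, P2C8, P2C9, P2C10, P2C11]
  norm_num

lemma rP2C0 : ∃ N : ℝ, Rw4 P.r2 N (coCell (6861 / 2048 : ℝ) (24439 / 2048 : ℝ) (12 : ℝ) 0 P2C0) := by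
  refine ⟨(3221225472 : ℝ), ⟨Q47, List.mem_cons_of_mem _ (List.mem_cons_of_mem _ (List.mem_cons_of_mem _ (List.mem_cons_of_mem _ (List.mem_cons_of_mem _ (List.mem_cons_of_mem _ (List.mem_cons_of_mem _ (List.mem_cons_of_mem _ (List.mem_cons_of_mem _ (List.mem_cons_of_mem _ (List.mem_cons_of_mem _ (List.mem_cons_of_mem _ (List.mem_cons_of_mem _ (List.mem_cons_of_mem _ (List.mem_cons_of_mem _ (List.mem_cons_of_mem _ (List.mem_cons_of_mem _ (List.mem_cons_of_mem _ (List.mem_cons_of_mem _ (List.mem_cons_of_mem _ (List.mem_cons_of_mem _ (List.mem_cons_of_mem _ (List.mem_cons_of_mem _ (List.mem_cons_of_mem _ (List.mem_cons_of_mem _ (List.mem_cons_of_mem _ (List.mem_cons_of_mem _ (List.mem_cons_of_mem _ (List.mem_cons_of_mem _ (List.mem_cons_of_mem _ (List.mem_cons_of_mem _ (List.mem_cons_of_mem _ (List.mem_cons_of_mem _ (List.mem_cons_of_mem _ (List.mem_cons_of_mem _ (List.mem_cons_of_mem _ (List.mem_cons_of_mem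 _ (List.mem_cons_of_mem _ (List.mem_cons_of_mem _ (List.mem_cons_of_mem _ (List.mem_cons_of_mem _ (List.mem_cons_of_mem _ (List.mem_cons_of_mem _ (List.mem_cons_of_mem _ (List.mem_cons_of_mem _ (List.mem_cons_of_mem _ (List.mem_cons_of_mem _ (List.mem_cons_self))))))))))))))))))))))))))))))))))))))))))))))), ?_⟩, by norm_num⟩
  constructor <;> norm_num [Q47, coCell, P2C0]

lemma lP2C0 : ∀ x1 x2 xc : ℝ, 0 ≤ x1 → x1 ≤ 1 → 0 ≤ x2 → x2 ≤ 1 → P2C0.l ≤ xc → xc ≤ P2C0.u →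
    (6861 / 2048 : ℝ) * (1 - (1 - x1) ^ 4) + (24439 / 2048 : ℝ) * (1 - (1 - x2) ^ 4) - (12 : ℝ) * (1 - (1 - xc) ^ 4) + (1 / 1073741824 : ℝ)
      ≤ - P2C0.a1 * x1 - P2C0.a2 * x2 + P2C0.e * xc + P2C0.f := by
  have h := cell_lines_delta 4 (α1 := (6861 / 2048 : ℝ)) (α2 := (24439 / 2048 : ℝ)) (c := (12 : ℝ)) (y1 := (11903 / 131072 : ℝ)) (y2 := (11141 / 131072 : ℝ))
    (A1 := (42241319 / 4194304 : ℝ)) (B1 := (39293611 / 268435456 : ℝ)) (A2 := (38342283 / 1048576 : ℝ)) (B2 := (30905799 / 67108864 : ℝ)) (l := (13107 / 131072 : ℝ)) (u := (27001 / 262144 : ℝ))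
    (E := (-18254387 / 524288 : ℝ)) (F := (-173154753 / 268435456 : ℝ)) (δ := (1 / 1073741824 : ℝ)) (by norm_num) (by norm_num) (by norm_num) (by norm_num) (by norm_num)
    (by norm_num) (by norm_num) (by norm_num) (by norm_num) (by norm_num) (by norm_num) (by norm_num) (by norm_num) (by norm_num) (by norm_num)
  have e1 : P2C0.l = (13107 / 131072 : ℝ) := rfl
  have e2 : P2C0.u = (27001 / 262144 : ℝ) := rfl
  have e3 : P2C0.a1 = -(42241319 / 4194304 : ℝ) := by norm_num [P2C0]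
  have e4 : P2C0.a2 = -(38342283 / 1048576 : ℝ) := by norm_num [P2C0]
  have e5 : P2C0.e = (-18254387 / 524288 : ℝ) := rfl
  have e6 : P2C0.f = (39293611 / 268435456 : ℝ) + (30905799 / 67108864 : ℝ) + (-173154753 / 268435456 : ℝ) + (1 / 1073741824 : ℝ) := by norm_num [P2C0]
  rw [e1, e2, e3, e4, e5, e6]
  exact h

lemma rP2C1 : ∃ N : ℝ, Rw4 P.r2 N (coCell (6861 / 2048 : ℝ) (24439 / 2048 : ℝ) (12 : ℝ) 0 P2C1) := by
  refine ⟨(3221225472 : ℝ), ⟨Q48, List.mem_cons_of_mem _ (List.mem_cons_of_mem _ (List.mem_cons_of_mem _ (List.mem_cons_of_mem _ (List.mem_cons_of_mem _ (List.mem_cons_of_mem _ (List.mem_cons_of_mem _ (List.mem_cons_of_mem _ (List.mem_cons_of_mem _ (List.mem_cons_of_mem _ (List.mem_cons_of_mem _ (List.mem_cons_of_mem _ (List.mem_cons_of_mem _ (List.mem_cons_of_mem _ (List.mem_cons_of_mem _ (List.mem_cons_of_mem _ (List.mem_cons_of_mem _ (List.mem_cons_of_mem _ (List.mem_cons_of_mem _ (List.mem_cons_of_mem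 _ (List.mem_cons_of_mem _ (List.mem_cons_of_mem _ (List.mem_cons_of_mem _ (List.mem_cons_of_mem _ (List.mem_cons_of_mem _ (List.mem_cons_of_mem _ (List.mem_cons_of_mem _ (List.mem_cons_of_mem _ (List.mem_cons_of_mem _ (List.mem_cons_of_mem _ (List.mem_cons_of_mem _ (List.mem_cons_of_mem _ (List.mem_cons_of_mem _ (List.mem_cons_of_mem _ (List.mem_cons_of_mem _ (List.mem_cons_of_mem _ (List.mem_cons_of_mem _ (List.mem_cons_of_mem _ (List.mem_cons_of_mem _ (List.mem_cons_of_mem _ (List.mem_cons_of_mem _ (List.mem_cons_of_mem _ (List.mem_cons_of_mem _ (List.mem_cons_of_mem _ (List.mem_cons_of_mem _ (List.mem_cons_of_mem _ (List.mem_cons_of_mem _ (List.mem_cons_of_mem _ (List.mem_cons_self)))))))))))))))))))))))))))))))))))))))))))))))), ?_⟩, by norm_num⟩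
  constructor <;> norm_num [Q48, coCell, P2C1]

lemma lP2C1 : ∀ x1 x2 xc : ℝ, 0 ≤ x1 → x1 ≤ 1 → 0 ≤ x2 → x2 ≤ 1 → P2C1.l ≤ xc → xc ≤ P2C1.u →
    (6861 / 2048 : ℝ) * (1 - (1 - x1) ^ 4) + (24439 / 2048 : ℝ) * (1 - (1 - x2) ^ 4) - (12 : ℝ) * (1 - (1 - xc) ^ 4) + (1 / 1073741824 : ℝ)
      ≤ - P2C1.a1 * x1 - P2C1.a2 * x2 + P2C1.e * xc + P2C1.f := by
  have h := cell_lines_delta 4 (α1 := (6861 / 2048 : ℝ)) (α2 := (24439 / 2048 : ℝ)) (c := (12 : ℝ)) (y1 := (24779 / 262144 : ℝ)) (y2 := (22951 / 262144 : ℝ))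
    (A1 := (41726085 / 4194304 : ℝ)) (B1 := (42349289 / 268435456 : ℝ)) (A2 := (152089421 / 4194304 : ℝ)) (B2 := (65344569 / 134217728 : ℝ)) (l := (27001 / 262144 : ℝ)) (u := (27811 / 262144 : ℝ))
    (E := (-144554917 / 4194304 : ℝ)) (F := (-91456077 / 134217728 : ℝ)) (δ := (1 / 1073741824 : ℝ)) (by norm_num) (by norm_num) (by norm_num) (by norm_num) (by norm_num)
    (by norm_num) (by norm_num) (by norm_num) (by norm_num) (by norm_num) (by norm_num) (by norm_num) (by norm_num) (by norm_num) (by norm_num)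
  have e1 : P2C1.l = (27001 / 262144 : ℝ) := rfl
  have e2 : P2C1.u = (27811 / 262144 : ℝ) := rfl
  have e3 : P2C1.a1 = -(41726085 / 4194304 : ℝ) := by norm_num [P2C1]
  have e4 : P2C1.a2 = -(152089421 / 4194304 : ℝ) := by norm_num [P2C1]
  have e5 : P2C1.e = (-144554917 / 4194304 : ℝ) := rfl
  have e6 : P2C1.f = (42349289 / 268435456 : ℝ) + (65344569 / 134217728 : ℝ) + (-91456077 / 134217728 : ℝ) + (1 / 1073741824 : ℝ) := by norm_num [P2C1]
  rw [e1, e2, e3, e4, e5, e6]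
  exact h

lemma rP2C2 : ∃ N : ℝ, Rw4 P.r2 N (coCell (6861 / 2048 : ℝ) (24439 / 2048 : ℝ) (12 : ℝ) 0 P2C2) := by
  refine ⟨(3221225472 : ℝ), ⟨Q49, List.mem_cons_of_mem _ (List.mem_cons_of_mem _ (List.mem_cons_of_mem _ (List.mem_cons_of_mem _ (List.mem_cons_of_mem _ (List.mem_cons_of_mem _ (List.mem_cons_of_mem _ (List.mem_cons_of_mem _ (List.mem_cons_of_mem _ (List.mem_cons_of_mem _ (List.mem_cons_of_mem _ (List.mem_cons_of_mem _ (List.mem_cons_of_mem _ (List.mem_cons_of_mem _ (List.mem_cons_of_mem _ (List.mem_cons_of_mem _ (List.mem_cons_of_mem _ (List.mem_cons_of_mem _ (List.mem_cons_of_mem _ (List.mem_cons_of_mem _ (List.mem_cons_of_mem _ (List.mem_cons_of_mem _ (List.mem_cons_of_mem _ (List.mem_cons_of_mem _ (List.mem_cons_of_mem _ (List.mem_cons_of_mem _ (List.mem_cons_of_mem _ (List.mem_cons_of_mem _ (List.mem_cons_of_mem _ (List.mem_cons_of_mem _ (List.mem_cons_of_mem _ (List.mem_cons_of_mem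 _ (List.mem_cons_of_mem _ (List.mem_cons_of_mem _ (List.mem_cons_of_mem _ (List.mem_cons_of_mem _ (List.mem_cons_of_mem _ (List.mem_cons_of_mem _ (List.mem_cons_of_mem _ (List.mem_cons_of_mem _ (List.mem_cons_of_mem _ (List.mem_cons_of_mem _ (List.mem_cons_of_mem _ (List.mem_cons_of_mem _ (List.mem_cons_of_mem _ (List.mem_cons_of_mem _ (List.mem_cons_of_mem _ (List.mem_cons_of_mem _ (List.mem_cons_of_mem _ (List.mem_cons_self))))))))))))))))))))))))))))))))))))))))))))))))), ?_⟩, by norm_num⟩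
  constructor <;> norm_num [Q49, coCell, P2C2]

lemma lP2C2 : ∀ x1 x2 xc : ℝ, 0 ≤ x1 → x1 ≤ 1 → 0 ≤ x2 → x2 ≤ 1 → P2C2.l ≤ xc → xc ≤ P2C2.u →
    (6861 / 2048 : ℝ) * (1 - (1 - x1) ^ 4) + (24439 / 2048 : ℝ) * (1 - (1 - x2) ^ 4) - (12 : ℝ) * (1 - (1 - xc) ^ 4) + (1 / 1073741824 : ℝ)
      ≤ - P2C2.a1 * x1 - P2C2.a2 * x2 + P2C2.e * xc + P2C2.f := by
  have h := cell_lines_delta 4 (α1 := (6861 / 2048 : ℝ)) (α2 := (24439 / 2048 : ℝ)) (c := (12 : ℝ)) (y1 := (6441 / 65536 : ℝ)) (y2 := (23639 / 262144 : ℝ))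
    (A1 := (20604391 / 2097152 : ℝ)) (B1 := (45540859 / 268435456 : ℝ)) (A2 := (75390405 / 2097152 : ℝ)) (B2 := (138131457 / 268435456 : ℝ)) (l := (27811 / 262144 : ℝ)) (u := (28645 / 262144 : ℝ))
    (E := (-35760415 / 1048576 : ℝ)) (F := (-193186859 / 268435456 : ℝ)) (δ := (1 / 1073741824 : ℝ)) (by norm_num) (by norm_num) (by norm_num) (by norm_num) (by norm_num)
    (by norm_num) (by norm_num) (by norm_num) (by norm_num) (by norm_num) (by norm_num) (by norm_num) (by norm_num) (by norm_num) (by norm_num)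
  have e1 : P2C2.l = (27811 / 262144 : ℝ) := rfl
  have e2 : P2C2.u = (28645 / 262144 : ℝ) := rfl
  have e3 : P2C2.a1 = -(20604391 / 2097152 : ℝ) := by norm_num [P2C2]
  have e4 : P2C2.a2 = -(75390405 / 2097152 : ℝ) := by norm_num [P2C2]
  have e5 : P2C2.e = (-35760415 / 1048576 : ℝ) := rfl
  have e6 : P2C2.f = (45540859 / 268435456 : ℝ) + (138131457 / 268435456 : ℝ) + (-193186859 / 268435456 : ℝ) + (1 / 1073741824 : ℝ) := by norm_num [P2C2]
  rw [e1, e2, e3, e4, e5, e6]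
  exact h

lemma rP2C3 : ∃ N : ℝ, Rw4 P.r2 N (coCell (6861 / 2048 : ℝ) (24439 / 2048 : ℝ) (12 : ℝ) 0 P2C3) := by
  refine ⟨(3221225472 : ℝ), ⟨Q50, List.mem_cons_of_mem _ (List.mem_cons_of_mem _ (List.mem_cons_of_mem _ (List.mem_cons_of_mem _ (List.mem_cons_of_mem _ (List.mem_cons_of_mem _ (List.mem_cons_of_mem _ (List.mem_cons_of_mem _ (List.mem_cons_of_mem _ (List.mem_cons_of_mem _ (List.mem_cons_of_mem _ (List.mem_cons_of_mem _ (List.mem_cons_of_mem _ (List.mem_cons_of_mem _ (List.mem_cons_of_mem _ (List.mem_cons_of_mem _ (List.mem_cons_of_mem _ (List.mem_cons_of_mem _ (List.mem_cons_of_mem _ (List.mem_cons_of_mem _ (List.mem_cons_of_mem _ (List.mem_cons_of_mem _ (List.mem_cons_of_mem _ (List.mem_cons_of_mem _ (List.mem_cons_of_mem _ (List.mem_cons_of_mem _ (List.mem_cons_of_mem _ (List.mem_cons_of_mem _ (List.mem_cons_of_mem _ (List.mem_cons_of_mem _ (List.mem_cons_of_mem _ (List.mem_cons_of_mem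 _ (List.mem_cons_of_mem _ (List.mem_cons_of_mem _ (List.mem_cons_of_mem _ (List.mem_cons_of_mem _ (List.mem_cons_of_mem _ (List.mem_cons_of_mem _ (List.mem_cons_of_mem _ (List.mem_cons_of_mem _ (List.mem_cons_of_mem _ (List.mem_cons_of_mem _ (List.mem_cons_of_mem _ (List.mem_cons_of_mem _ (List.mem_cons_of_mem _ (List.mem_cons_of_mem _ (List.mem_cons_of_mem _ (List.mem_cons_of_mem _ (List.mem_cons_of_mem _ (List.mem_cons_of_mem _ (List.mem_cons_self)))))))))))))))))))))))))))))))))))))))))))))))))), ?_⟩, by norm_num⟩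
  constructor <;> norm_num [Q50, coCell, P2C3]

lemma lP2C3 : ∀ x1 x2 xc : ℝ, 0 ≤ x1 → x1 ≤ 1 → 0 ≤ x2 → x2 ≤ 1 → P2C3.l ≤ xc → xc ≤ P2C3.u →
    (6861 / 2048 : ℝ) * (1 - (1 - x1) ^ 4) + (24439 / 2048 : ℝ) * (1 - (1 - x2) ^ 4) - (12 : ℝ) * (1 - (1 - xc) ^ 4) + (1 / 1073741824 : ℝ)
      ≤ - P2C3.a1 * x1 - P2C3.a2 * x2 + P2C3.e * xc + P2C3.f := by
  have h := cell_lines_delta 4 (α1 := (6861 / 2048 : ℝ)) (α2 := (24439 / 2048 : ℝ)) (c := (12 : ℝ)) (y1 := (5623 / 65536 : ℝ)) (y2 := (12747 / 131072 : ℝ))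
    (A1 := (21471915 / 2097152 : ℝ)) (B1 := (8830875 / 67108864 : ℝ)) (A2 := (147289957 / 4194304 : ℝ)) (B2 := (159066403 / 268435456 : ℝ)) (l := (28645 / 262144 : ℝ)) (u := (29505 / 262144 : ℝ))
    (E := (-35373367 / 1048576 : ℝ)) (F := (-204013997 / 268435456 : ℝ)) (δ := (1 / 1073741824 : ℝ)) (by norm_num) (by norm_num) (by norm_num) (by norm_num) (by norm_num)
    (by norm_num) (by norm_num) (by norm_num) (by norm_num) (by norm_num) (by norm_num) (by norm_num) (by norm_num) (by norm_num) (by norm_num)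
  have e1 : P2C3.l = (28645 / 262144 : ℝ) := rfl
  have e2 : P2C3.u = (29505 / 262144 : ℝ) := rfl
  have e3 : P2C3.a1 = -(21471915 / 2097152 : ℝ) := by norm_num [P2C3]
  have e4 : P2C3.a2 = -(147289957 / 4194304 : ℝ) := by norm_num [P2C3]
  have e5 : P2C3.e = (-35373367 / 1048576 : ℝ) := rfl
  have e6 : P2C3.f = (8830875 / 67108864 : ℝ) + (159066403 / 268435456 : ℝ) + (-204013997 / 268435456 : ℝ) + (1 / 1073741824 : ℝ) := by norm_num [P2C3]
  rw [e1, e2, e3, e4, e5, e6]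
  exact h

lemma rP2C4 : ∃ N : ℝ, Rw4 P.r2 N (coCell (6861 / 2048 : ℝ) (24439 / 2048 : ℝ) (12 : ℝ) 0 P2C4) := by
  refine ⟨(3221225472 : ℝ), ⟨Q51, List.mem_cons_of_mem _ (List.mem_cons_of_mem _ (List.mem_cons_of_mem _ (List.mem_cons_of_mem _ (List.mem_cons_of_mem _ (List.mem_cons_of_mem _ (List.mem_cons_of_mem _ (List.mem_cons_of_mem _ (List.mem_cons_of_mem _ (List.mem_cons_of_mem _ (List.mem_cons_of_mem _ (List.mem_cons_of_mem _ (List.mem_cons_of_mem _ (List.mem_cons_of_mem _ (List.mem_cons_of_mem _ (List.mem_cons_of_mem _ (List.mem_cons_of_mem _ (List.mem_cons_of_mem _ (List.mem_cons_of_mem _ (List.mem_cons_of_mem _ (List.mem_cons_of_mem _ (List.mem_cons_of_mem _ (List.mem_cons_of_mem _ (List.mem_cons_of_mem _ (List.mem_cons_of_mem _ (List.mem_cons_of_mem _ (List.mem_cons_of_mem _ (List.mem_cons_of_mem _ (List.mem_cons_of_mem _ (List.mem_cons_of_mem _ (List.mem_cons_of_mem _ (List.mem_cons_of_mem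 _ (List.mem_cons_of_mem _ (List.mem_cons_of_mem _ (List.mem_cons_of_mem _ (List.mem_cons_of_mem _ (List.mem_cons_of_mem _ (List.mem_cons_of_mem _ (List.mem_cons_of_mem _ (List.mem_cons_of_mem _ (List.mem_cons_of_mem _ (List.mem_cons_of_mem _ (List.mem_cons_of_mem _ (List.mem_cons_of_mem _ (List.mem_cons_of_mem _ (List.mem_cons_of_mem _ (List.mem_cons_of_mem _ (List.mem_cons_of_mem _ (List.mem_cons_of_mem _ (List.mem_cons_of_mem _ (List.mem_cons_of_mem _ (List.mem_cons_self))))))))))))))))))))))))))))))))))))))))))))))))))), ?_⟩, by norm_num⟩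
  constructor <;> norm_num [Q51, coCell, P2C4]

lemma lP2C4 : ∀ x1 x2 xc : ℝ, 0 ≤ x1 → x1 ≤ 1 → 0 ≤ x2 → x2 ≤ 1 → P2C4.l ≤ xc → xc ≤ P2C4.u →
    (6861 / 2048 : ℝ) * (1 - (1 - x1) ^ 4) + (24439 / 2048 : ℝ) * (1 - (1 - x2) ^ 4) - (12 : ℝ) * (1 - (1 - xc) ^ 4) + (1 / 1073741824 : ℝ)
      ≤ - P2C4.a1 * x1 - P2C4.a2 * x2 + P2C4.e * xc + P2C4.f := by
  have h := cell_lines_delta 4 (α1 := (6861 / 2048 : ℝ)) (α2 := (24439 / 2048 : ℝ)) (c := (12 : ℝ)) (y1 := (5855 / 65536 : ℝ)) (y2 := (26259 / 262144 : ℝ))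
    (A1 := (42446887 / 4194304 : ℝ)) (B1 := (9527135 / 67108864 : ℝ)) (A2 := (145866171 / 4194304 : ℝ)) (B2 := (168061047 / 268435456 : ℝ)) (l := (29505 / 262144 : ℝ)) (u := (15195 / 131072 : ℝ))
    (E := (-34977597 / 1048576 : ℝ)) (F := (-215417507 / 268435456 : ℝ)) (δ := (1 / 1073741824 : ℝ)) (by norm_num) (by norm_num) (by norm_num) (by norm_num) (by norm_num)
    (by norm_num) (by norm_num) (by norm_num) (by norm_num) (by norm_num) (by norm_num) (by norm_num) (by norm_num) (by norm_num) (by norm_num)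
  have e1 : P2C4.l = (29505 / 262144 : ℝ) := rfl
  have e2 : P2C4.u = (15195 / 131072 : ℝ) := rfl
  have e3 : P2C4.a1 = -(42446887 / 4194304 : ℝ) := by norm_num [P2C4]
  have e4 : P2C4.a2 = -(145866171 / 4194304 : ℝ) := by norm_num [P2C4]
  have e5 : P2C4.e = (-34977597 / 1048576 : ℝ) := rfl
  have e6 : P2C4.f = (9527135 / 67108864 : ℝ) + (168061047 / 268435456 : ℝ) + (-215417507 / 268435456 : ℝ) + (1 / 1073741824 : ℝ) := by norm_num [P2C4]
  rw [e1, e2, e3, e4, e5, e6]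
  exact h

lemma rP2C5 : ∃ N : ℝ, Rw4 P.r2 N (coCell (6861 / 2048 : ℝ) (24439 / 2048 : ℝ) (12 : ℝ) 0 P2C5) := by
  refine ⟨(3221225472 : ℝ), ⟨Q52, List.mem_cons_of_mem _ (List.mem_cons_of_mem _ (List.mem_cons_of_mem _ (List.mem_cons_of_mem _ (List.mem_cons_of_mem _ (List.mem_cons_of_mem _ (List.mem_cons_of_mem _ (List.mem_cons_of_mem _ (List.mem_cons_of_mem _ (List.mem_cons_of_mem _ (List.mem_cons_of_mem _ (List.mem_cons_of_mem _ (List.mem_cons_of_mem _ (List.mem_cons_of_mem _ (List.mem_cons_of_mem _ (List.mem_cons_of_mem _ (List.mem_cons_of_mem _ (List.mem_cons_of_mem _ (List.mem_cons_of_mem _ (List.mem_cons_of_mem _ (List.mem_cons_of_mem _ (List.mem_cons_of_mem _ (List.mem_cons_of_mem _ (List.mem_cons_of_mem _ (List.mem_cons_of_mem _ (List.mem_cons_of_mem _ (List.mem_cons_of_mem _ (List.mem_cons_of_mem _ (List.mem_cons_of_mem _ (List.mem_cons_of_mem _ (List.mem_cons_of_mem _ (List.mem_cons_of_mem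 _ (List.mem_cons_of_mem _ (List.mem_cons_of_mem _ (List.mem_cons_of_mem _ (List.mem_cons_of_mem _ (List.mem_cons_of_mem _ (List.mem_cons_of_mem _ (List.mem_cons_of_mem _ (List.mem_cons_of_mem _ (List.mem_cons_of_mem _ (List.mem_cons_of_mem _ (List.mem_cons_of_mem _ (List.mem_cons_of_mem _ (List.mem_cons_of_mem _ (List.mem_cons_of_mem _ (List.mem_cons_of_mem _ (List.mem_cons_of_mem _ (List.mem_cons_of_mem _ (List.mem_cons_of_mem _ (List.mem_cons_of_mem _ (List.mem_cons_of_mem _ (List.mem_cons_self)))))))))))))))))))))))))))))))))))))))))))))))))))), ?_⟩, by norm_num⟩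
  constructor <;> norm_num [Q52, coCell, P2C5]

lemma lP2C5 : ∀ x1 x2 xc : ℝ, 0 ≤ x1 → x1 ≤ 1 → 0 ≤ x2 → x2 ≤ 1 → P2C5.l ≤ xc → xc ≤ P2C5.u →
    (6861 / 2048 : ℝ) * (1 - (1 - x1) ^ 4) + (24439 / 2048 : ℝ) * (1 - (1 - x2) ^ 4) - (12 : ℝ) * (1 - (1 - xc) ^ 4) + (1 / 1073741824 : ℝ)
      ≤ - P2C5.a1 * x1 - P2C5.a2 * x2 + P2C5.e * xc + P2C5.f := by
  have h := cell_lines_delta 4 (α1 := (6861 / 2048 : ℝ)) (α2 := (24439 / 2048 : ℝ)) (c := (12 : ℝ)) (y1 := (24357 / 262144 : ℝ)) (y2 := (27047 / 262144 : ℝ))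
    (A1 := (20974515 / 2097152 : ℝ)) (B1 := (41012043 / 268435456 : ℝ)) (A2 := (144409203 / 4194304 : ℝ)) (B2 := (88770741 / 134217728 : ℝ)) (l := (15195 / 131072 : ℝ)) (u := (31301 / 262144 : ℝ))
    (E := (-69146709 / 2097152 : ℝ)) (F := (-227414509 / 268435456 : ℝ)) (δ := (1 / 1073741824 : ℝ)) (by norm_num) (by norm_num) (by norm_num) (by norm_num) (by norm_num)
    (by norm_num) (by norm_num) (by norm_num) (by norm_num) (by norm_num) (by norm_num) (by norm_num) (by norm_num) (by norm_num) (by norm_num)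
  have e1 : P2C5.l = (15195 / 131072 : ℝ) := rfl
  have e2 : P2C5.u = (31301 / 262144 : ℝ) := rfl
  have e3 : P2C5.a1 = -(20974515 / 2097152 : ℝ) := by norm_num [P2C5]
  have e4 : P2C5.a2 = -(144409203 / 4194304 : ℝ) := by norm_num [P2C5]
  have e5 : P2C5.e = (-69146709 / 2097152 : ℝ) := rfl
  have e6 : P2C5.f = (41012043 / 268435456 : ℝ) + (88770741 / 134217728 : ℝ) + (-227414509 / 268435456 : ℝ) + (1 / 1073741824 : ℝ) := by norm_num [P2C5]
  rw [e1, e2, e3, e4, e5, e6]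
  exact h

lemma rP2C6 : ∃ N : ℝ, Rw4 P.r2 N (coCell (6861 / 2048 : ℝ) (24439 / 2048 : ℝ) (12 : ℝ) 0 P2C6) := by
  refine ⟨(3221225472 : ℝ), ⟨Q53, List.mem_cons_of_mem _ (List.mem_cons_of_mem _ (List.mem_cons_of_mem _ (List.mem_cons_of_mem _ (List.mem_cons_of_mem _ (List.mem_cons_of_mem _ (List.mem_cons_of_mem _ (List.mem_cons_of_mem _ (List.mem_cons_of_mem _ (List.mem_cons_of_mem _ (List.mem_cons_of_mem _ (List.mem_cons_of_mem _ (List.mem_cons_of_mem _ (List.mem_cons_of_mem _ (List.mem_cons_of_mem _ (List.mem_cons_of_mem _ (List.mem_cons_of_mem _ (List.mem_cons_of_mem _ (List.mem_cons_of_mem _ (List.mem_cons_of_mem _ (List.mem_cons_of_mem _ (List.mem_cons_of_mem _ (List.mem_cons_of_mem _ (List.mem_cons_of_mem _ (List.mem_cons_of_mem _ (List.mem_cons_of_mem _ (List.mem_cons_of_mem _ (List.mem_cons_of_mem _ (List.mem_cons_of_mem _ (List.mem_cons_of_mem _ (List.mem_cons_of_mem _ (List.mem_cons_of_mem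 _ (List.mem_cons_of_mem _ (List.mem_cons_of_mem _ (List.mem_cons_of_mem _ (List.mem_cons_of_mem _ (List.mem_cons_of_mem _ (List.mem_cons_of_mem _ (List.mem_cons_of_mem _ (List.mem_cons_of_mem _ (List.mem_cons_of_mem _ (List.mem_cons_of_mem _ (List.mem_cons_of_mem _ (List.mem_cons_of_mem _ (List.mem_cons_of_mem _ (List.mem_cons_of_mem _ (List.mem_cons_of_mem _ (List.mem_cons_of_mem _ (List.mem_cons_of_mem _ (List.mem_cons_of_mem _ (List.mem_cons_of_mem _ (List.mem_cons_of_mem _ (List.mem_cons_of_mem _ (List.mem_cons_self))))))))))))))))))))))))))))))))))))))))))))))))))))), ?_⟩, by norm_num⟩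
  constructor <;> norm_num [Q53, coCell, P2C6]

lemma lP2C6 : ∀ x1 x2 xc : ℝ, 0 ≤ x1 → x1 ≤ 1 → 0 ≤ x2 → x2 ≤ 1 → P2C6.l ≤ xc → xc ≤ P2C6.u →
    (6861 / 2048 : ℝ) * (1 - (1 - x1) ^ 4) + (24439 / 2048 : ℝ) * (1 - (1 - x2) ^ 4) - (12 : ℝ) * (1 - (1 - xc) ^ 4) + (1 / 1073741824 : ℝ)
      ≤ - P2C6.a1 * x1 - P2C6.a2 * x2 + P2C6.e * xc + P2C6.f := by
  have h := cell_lines_delta 4 (α1 := (6861 / 2048 : ℝ)) (α2 := (24439 / 2048 : ℝ)) (c := (12 : ℝ)) (y1 := (3163 / 32768 : ℝ)) (y2 := (13929 / 131072 : ℝ))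
    (A1 := (20724915 / 2097152 : ℝ)) (B1 := (44038185 / 268435456 : ℝ)) (A2 := (142919873 / 4194304 : ℝ)) (B2 := (187523215 / 268435456 : ℝ)) (l := (31301 / 262144 : ℝ)) (u := (2015 / 16384 : ℝ))
    (E := (-136640909 / 4194304 : ℝ)) (F := (-240042727 / 268435456 : ℝ)) (δ := (1 / 1073741824 : ℝ)) (by norm_num) (by norm_num) (by norm_num) (by norm_num) (by norm_num)
    (by norm_num) (by norm_num) (by norm_num) (by norm_num) (by norm_num) (by norm_num) (by norm_num) (by norm_num) (by norm_num) (by norm_num)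
  have e1 : P2C6.l = (31301 / 262144 : ℝ) := rfl
  have e2 : P2C6.u = (2015 / 16384 : ℝ) := rfl
  have e3 : P2C6.a1 = -(20724915 / 2097152 : ℝ) := by norm_num [P2C6]
  have e4 : P2C6.a2 = -(142919873 / 4194304 : ℝ) := by norm_num [P2C6]
  have e5 : P2C6.e = (-136640909 / 4194304 : ℝ) := rfl
  have e6 : P2C6.f = (44038185 / 268435456 : ℝ) + (187523215 / 268435456 : ℝ) + (-240042727 / 268435456 : ℝ) + (1 / 1073741824 : ℝ) := by norm_num [P2C6]
  rw [e1, e2, e3, e4, e5, e6]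
  exact h

lemma rP2C7 : ∃ N : ℝ, Rw4 P.r2 N (coCell (6861 / 2048 : ℝ) (24439 / 2048 : ℝ) (12 : ℝ) 0 P2C7) := by
  refine ⟨(3221225472 : ℝ), ⟨Q54, List.mem_cons_of_mem _ (List.mem_cons_of_mem _ (List.mem_cons_of_mem _ (List.mem_cons_of_mem _ (List.mem_cons_of_mem _ (List.mem_cons_of_mem _ (List.mem_cons_of_mem _ (List.mem_cons_of_mem _ (List.mem_cons_of_mem _ (List.mem_cons_of_mem _ (List.mem_cons_of_mem _ (List.mem_cons_of_mem _ (List.mem_cons_of_mem _ (List.mem_cons_of_mem _ (List.mem_cons_of_mem _ (List.mem_cons_of_mem _ (List.mem_cons_of_mem _ (List.mem_cons_of_mem _ (List.mem_cons_of_mem _ (List.mem_cons_of_mem _ (List.mem_cons_of_mem _ (List.mem_cons_of_mem _ (List.mem_cons_of_mem _ (List.mem_cons_of_mem _ (List.mem_cons_of_mem _ (List.mem_cons_of_mem _ (List.mem_cons_of_mem _ (List.mem_cons_of_mem _ (List.mem_cons_of_mem _ (List.mem_cons_of_mem _ (List.mem_cons_of_mem _ (List.mem_cons_of_mem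 _ (List.mem_cons_of_mem _ (List.mem_cons_of_mem _ (List.mem_cons_of_mem _ (List.mem_cons_of_mem _ (List.mem_cons_of_mem _ (List.mem_cons_of_mem _ (List.mem_cons_of_mem _ (List.mem_cons_of_mem _ (List.mem_cons_of_mem _ (List.mem_cons_of_mem _ (List.mem_cons_of_mem _ (List.mem_cons_of_mem _ (List.mem_cons_of_mem _ (List.mem_cons_of_mem _ (List.mem_cons_of_mem _ (List.mem_cons_of_mem _ (List.mem_cons_of_mem _ (List.mem_cons_of_mem _ (List.mem_cons_of_mem _ (List.mem_cons_of_mem _ (List.mem_cons_of_mem _ (List.mem_cons_of_mem _ (List.mem_cons_self)))))))))))))))))))))))))))))))))))))))))))))))))))))), ?_⟩, by norm_num⟩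
  constructor <;> norm_num [Q54, coCell, P2C7]

lemma lP2C7 : ∀ x1 x2 xc : ℝ, 0 ≤ x1 → x1 ≤ 1 → 0 ≤ x2 → x2 ≤ 1 → P2C7.l ≤ xc → xc ≤ P2C7.u →
    (6861 / 2048 : ℝ) * (1 - (1 - x1) ^ 4) + (24439 / 2048 : ℝ) * (1 - (1 - x2) ^ 4) - (12 : ℝ) * (1 - (1 - xc) ^ 4) + (1 / 1073741824 : ℝ)
      ≤ - P2C7.a1 * x1 - P2C7.a2 * x2 + P2C7.e * xc + P2C7.f := by
  have h := cell_lines_delta 4 (α1 := (6861 / 2048 : ℝ)) (α2 := (24439 / 2048 : ℝ)) (c := (12 : ℝ)) (y1 := (26263 / 262144 : ℝ)) (y2 := (14347 / 131072 : ℝ))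
    (A1 := (40948357 / 4194304 : ℝ)) (B1 := (5899347 / 33554432 : ℝ)) (A2 := (35348847 / 1048576 : ℝ)) (B2 := (49511757 / 67108864 : ℝ)) (l := (2015 / 16384 : ℝ)) (u := (4151 / 32768 : ℝ))
    (E := (-16868915 / 524288 : ℝ)) (F := (-253341641 / 268435456 : ℝ)) (δ := (1 / 1073741824 : ℝ)) (by norm_num) (by norm_num) (by norm_num) (by norm_num) (by norm_num)
    (by norm_num) (by norm_num) (by norm_num) (by norm_num) (by norm_num) (by norm_num) (by norm_num) (by norm_num) (by norm_num) (by norm_num)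
  have e1 : P2C7.l = (2015 / 16384 : ℝ) := rfl
  have e2 : P2C7.u = (4151 / 32768 : ℝ) := rfl
  have e3 : P2C7.a1 = -(40948357 / 4194304 : ℝ) := by norm_num [P2C7]
  have e4 : P2C7.a2 = -(35348847 / 1048576 : ℝ) := by norm_num [P2C7]
  have e5 : P2C7.e = (-16868915 / 524288 : ℝ) := rfl
  have e6 : P2C7.f = (5899347 / 33554432 : ℝ) + (49511757 / 67108864 : ℝ) + (-253341641 / 268435456 : ℝ) + (1 / 1073741824 : ℝ) := by norm_num [P2C7]
  rw [e1, e2, e3, e4, e5, e6]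
  exact h

lemma rP2C8 : ∃ N : ℝ, Rw4 P.r2 N (coCell (6861 / 2048 : ℝ) (24439 / 2048 : ℝ) (12 : ℝ) 0 P2C8) := by
  refine ⟨(3221225472 : ℝ), ⟨Q55, List.mem_cons_of_mem _ (List.mem_cons_of_mem _ (List.mem_cons_of_mem _ (List.mem_cons_of_mem _ (List.mem_cons_of_mem _ (List.mem_cons_of_mem _ (List.mem_cons_of_mem _ (List.mem_cons_of_mem _ (List.mem_cons_of_mem _ (List.mem_cons_of_mem _ (List.mem_cons_of_mem _ (List.mem_cons_of_mem _ (List.mem_cons_of_mem _ (List.mem_cons_of_mem _ (List.mem_cons_of_mem _ (List.mem_cons_of_mem _ (List.mem_cons_of_mem _ (List.mem_cons_of_mem _ (List.mem_cons_of_mem _ (List.mem_cons_of_mem _ (List.mem_cons_of_mem _ (List.mem_cons_of_mem _ (List.mem_cons_of_mem _ (List.mem_cons_of_mem _ (List.mem_cons_of_mem _ (List.mem_cons_of_mem _ (List.mem_cons_of_mem _ (List.mem_cons_of_mem _ (List.mem_cons_of_mem _ (List.mem_cons_of_mem _ (List.mem_cons_of_mem _ (List.mem_cons_of_mem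 _ (List.mem_cons_of_mem _ (List.mem_cons_of_mem _ (List.mem_cons_of_mem _ (List.mem_cons_of_mem _ (List.mem_cons_of_mem _ (List.mem_cons_of_mem _ (List.mem_cons_of_mem _ (List.mem_cons_of_mem _ (List.mem_cons_of_mem _ (List.mem_cons_of_mem _ (List.mem_cons_of_mem _ (List.mem_cons_of_mem _ (List.mem_cons_of_mem _ (List.mem_cons_of_mem _ (List.mem_cons_of_mem _ (List.mem_cons_of_mem _ (List.mem_cons_of_mem _ (List.mem_cons_of_mem _ (List.mem_cons_of_mem _ (List.mem_cons_of_mem _ (List.mem_cons_of_mem _ (List.mem_cons_of_mem _ (List.mem_cons_of_mem _ (List.mem_cons_self))))))))))))))))))))))))))))))))))))))))))))))))))))))), ?_⟩, by norm_num⟩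
  constructor <;> norm_num [Q55, coCell, P2C8]

lemma lP2C8 : ∀ x1 x2 xc : ℝ, 0 ≤ x1 → x1 ≤ 1 → 0 ≤ x2 → x2 ≤ 1 → P2C8.l ≤ xc → xc ≤ P2C8.u →
    (6861 / 2048 : ℝ) * (1 - (1 - x1) ^ 4) + (24439 / 2048 : ℝ) * (1 - (1 - x2) ^ 4) - (12 : ℝ) * (1 - (1 - xc) ^ 4) + (1 / 1073741824 : ℝ)
      ≤ - P2C8.a1 * x1 - P2C8.a2 * x2 + P2C8.e * xc + P2C8.f := by
  have h := cell_lines_delta 4 (α1 := (6861 / 2048 : ℝ)) (α2 := (24439 / 2048 : ℝ)) (c := (12 : ℝ)) (y1 := (27235 / 262144 : ℝ)) (y2 := (29555 / 262144 : ℝ))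
    (A1 := (40444229 / 4194304 : ℝ)) (B1 := (25243467 / 134217728 : ℝ)) (A2 := (69918343 / 2097152 : ℝ)) (B2 := (209129945 / 268435456 : ℝ)) (l := (4151 / 32768 : ℝ)) (u := (8551 / 65536 : ℝ))
    (E := (-66612923 / 2097152 : ℝ)) (F := (-133665393 / 134217728 : ℝ)) (δ := (1 / 1073741824 : ℝ)) (by norm_num) (by norm_num) (by norm_num) (by norm_num) (by norm_num)
    (by norm_num) (by norm_num) (by norm_num) (by norm_num) (by norm_num) (by norm_num) (by norm_num) (by norm_num) (by norm_num) (by norm_num)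
  have e1 : P2C8.l = (4151 / 32768 : ℝ) := rfl
  have e2 : P2C8.u = (8551 / 65536 : ℝ) := rfl
  have e3 : P2C8.a1 = -(40444229 / 4194304 : ℝ) := by norm_num [P2C8]
  have e4 : P2C8.a2 = -(69918343 / 2097152 : ℝ) := by norm_num [P2C8]
  have e5 : P2C8.e = (-66612923 / 2097152 : ℝ) := rfl
  have e6 : P2C8.f = (25243467 / 134217728 : ℝ) + (209129945 / 268435456 : ℝ) + (-133665393 / 134217728 : ℝ) + (1 / 1073741824 : ℝ) := by norm_num [P2C8]
  rw [e1, e2, e3, e4, e5, e6]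
  exact h

lemma rP2C9 : ∃ N : ℝ, Rw4 P.r2 N (coCell (6861 / 2048 : ℝ) (24439 / 2048 : ℝ) (12 : ℝ) 0 P2C9) := by
  refine ⟨(3221225472 : ℝ), ⟨Q56, List.mem_cons_of_mem _ (List.mem_cons_of_mem _ (List.mem_cons_of_mem _ (List.mem_cons_of_mem _ (List.mem_cons_of_mem _ (List.mem_cons_of_mem _ (List.mem_cons_of_mem _ (List.mem_cons_of_mem _ (List.mem_cons_of_mem _ (List.mem_cons_of_mem _ (List.mem_cons_of_mem _ (List.mem_cons_of_mem _ (List.mem_cons_of_mem _ (List.mem_cons_of_mem _ (List.mem_cons_of_mem _ (List.mem_cons_of_mem _ (List.mem_cons_of_mem _ (List.mem_cons_of_mem _ (List.mem_cons_of_mem _ (List.mem_cons_of_mem _ (List.mem_cons_of_mem _ (List.mem_cons_of_mem _ (List.mem_cons_of_mem _ (List.mem_cons_of_mem _ (List.mem_cons_of_mem _ (List.mem_cons_of_mem _ (List.mem_cons_of_mem _ (List.mem_cons_of_mem _ (List.mem_cons_of_mem _ (List.mem_cons_of_mem _ (List.mem_cons_of_mem _ (List.mem_cons_of_mem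 _ (List.mem_cons_of_mem _ (List.mem_cons_of_mem _ (List.mem_cons_of_mem _ (List.mem_cons_of_mem _ (List.mem_cons_of_mem _ (List.mem_cons_of_mem _ (List.mem_cons_of_mem _ (List.mem_cons_of_mem _ (List.mem_cons_of_mem _ (List.mem_cons_of_mem _ (List.mem_cons_of_mem _ (List.mem_cons_of_mem _ (List.mem_cons_of_mem _ (List.mem_cons_of_mem _ (List.mem_cons_of_mem _ (List.mem_cons_of_mem _ (List.mem_cons_of_mem _ (List.mem_cons_of_mem _ (List.mem_cons_of_mem _ (List.mem_cons_of_mem _ (List.mem_cons_of_mem _ (List.mem_cons_of_mem _ (List.mem_cons_of_mem _ (List.mem_cons_of_mem _ (List.mem_cons_self)))))))))))))))))))))))))))))))))))))))))))))))))))))))), ?_⟩, by norm_num⟩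
  constructor <;> norm_num [Q56, coCell, P2C9]

lemma lP2C9 : ∀ x1 x2 xc : ℝ, 0 ≤ x1 → x1 ≤ 1 → 0 ≤ x2 → x2 ≤ 1 → P2C9.l ≤ xc → xc ≤ P2C9.u →
    (6861 / 2048 : ℝ) * (1 - (1 - x1) ^ 4) + (24439 / 2048 : ℝ) * (1 - (1 - x2) ^ 4) - (12 : ℝ) * (1 - (1 - xc) ^ 4) + (1 / 1073741824 : ℝ)
      ≤ - P2C9.a1 * x1 - P2C9.a2 * x2 + P2C9.e * xc + P2C9.f := by
  have h := cell_lines_delta 4 (α1 := (6861 / 2048 : ℝ)) (α2 := (24439 / 2048 : ℝ)) (c := (12 : ℝ)) (y1 := (13759 / 131072 : ℝ)) (y2 := (30619 / 262144 : ℝ))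
    (A1 := (40298233 / 4194304 : ℝ)) (B1 := (51462721 / 268435456 : ℝ)) (A2 := (34481591 / 1048576 : ℝ)) (B2 := (223161753 / 268435456 : ℝ)) (l := (8551 / 65536 : ℝ)) (u := (17615 / 131072 : ℝ))
    (E := (-131464851 / 4194304 : ℝ)) (F := (-141018063 / 134217728 : ℝ)) (δ := (1 / 1073741824 : ℝ)) (by norm_num) (by norm_num) (by norm_num) (by norm_num) (by norm_num)
    (by norm_num) (by norm_num) (by norm_num) (by norm_num) (by norm_num) (by norm_num) (by norm_num) (by norm_num) (by norm_num) (by norm_num)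
  have e1 : P2C9.l = (8551 / 65536 : ℝ) := rfl
  have e2 : P2C9.u = (17615 / 131072 : ℝ) := rfl
  have e3 : P2C9.a1 = -(40298233 / 4194304 : ℝ) := by norm_num [P2C9]
  have e4 : P2C9.a2 = -(34481591 / 1048576 : ℝ) := by norm_num [P2C9]
  have e5 : P2C9.e = (-131464851 / 4194304 : ℝ) := rfl
  have e6 : P2C9.f = (51462721 / 268435456 : ℝ) + (223161753 / 268435456 : ℝ) + (-141018063 / 134217728 : ℝ) + (1 / 1073741824 : ℝ) := by norm_num [P2C9]
  rw [e1, e2, e3, e4, e5, e6]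
  exact h

lemma rP2C10 : ∃ N : ℝ, Rw4 P.r2 N (coCell (6861 / 2048 : ℝ) (24439 / 2048 : ℝ) (12 : ℝ) 0 P2C10) := by
  refine ⟨(3221225472 : ℝ), ⟨Q57, List.mem_cons_of_mem _ (List.mem_cons_of_mem _ (List.mem_cons_of_mem _ (List.mem_cons_of_mem _ (List.mem_cons_of_mem _ (List.mem_cons_of_mem _ (List.mem_cons_of_mem _ (List.mem_cons_of_mem _ (List.mem_cons_of_mem _ (List.mem_cons_of_mem _ (List.mem_cons_of_mem _ (List.mem_cons_of_mem _ (List.mem_cons_of_mem _ (List.mem_cons_of_mem _ (List.mem_cons_of_mem _ (List.mem_cons_of_mem _ (List.mem_cons_of_mem _ (List.mem_cons_of_mem _ (List.mem_cons_of_mem _ (List.mem_cons_of_mem _ (List.mem_cons_of_mem _ (List.mem_cons_of_mem _ (List.mem_cons_of_mem _ (List.mem_cons_of_mem _ (List.mem_cons_of_mem _ (List.mem_cons_of_mem _ (List.mem_cons_of_mem _ (List.mem_cons_of_mem _ (List.mem_cons_of_mem _ (List.mem_cons_of_mem _ (List.mem_cons_of_mem _ (List.mem_cons_of_mem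 _ (List.mem_cons_of_mem _ (List.mem_cons_of_mem _ (List.mem_cons_of_mem _ (List.mem_cons_of_mem _ (List.mem_cons_of_mem _ (List.mem_cons_of_mem _ (List.mem_cons_of_mem _ (List.mem_cons_of_mem _ (List.mem_cons_of_mem _ (List.mem_cons_of_mem _ (List.mem_cons_of_mem _ (List.mem_cons_of_mem _ (List.mem_cons_of_mem _ (List.mem_cons_of_mem _ (List.mem_cons_of_mem _ (List.mem_cons_of_mem _ (List.mem_cons_of_mem _ (List.mem_cons_of_mem _ (List.mem_cons_of_mem _ (List.mem_cons_of_mem _ (List.mem_cons_of_mem _ (List.mem_cons_of_mem _ (List.mem_cons_of_mem _ (List.mem_cons_of_mem _ (List.mem_cons_of_mem _ (List.mem_cons_self))))))))))))))))))))))))))))))))))))))))))))))))))))))))), ?_⟩, by norm_num⟩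
  constructor <;> norm_num [Q57, coCell, P2C10]

lemma lP2C10 : ∀ x1 x2 xc : ℝ, 0 ≤ x1 → x1 ≤ 1 → 0 ≤ x2 → x2 ≤ 1 → P2C10.l ≤ xc → xc ≤ P2C10.u →
    (6861 / 2048 : ℝ) * (1 - (1 - x1) ^ 4) + (24439 / 2048 : ℝ) * (1 - (1 - x2) ^ 4) - (12 : ℝ) * (1 - (1 - xc) ^ 4) + (1 / 1073741824 : ℝ)
      ≤ - P2C10.a1 * x1 - P2C10.a2 * x2 + P2C10.e * xc + P2C10.f := by
  have h := cell_lines_delta 4 (α1 := (6861 / 2048 : ℝ)) (α2 := (24439 / 2048 : ℝ)) (c := (12 : ℝ)) (y1 := (27613 / 262144 : ℝ)) (y2 := (7939 / 65536 : ℝ))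
    (A1 := (40249303 / 4194304 : ℝ)) (B1 := (51791995 / 268435456 : ℝ)) (A2 := (33976073 / 1048576 : ℝ)) (B2 := (238557631 / 268435456 : ℝ)) (l := (17615 / 131072 : ℝ)) (u := (36287 / 262144 : ℝ))
    (E := (-64833515 / 2097152 : ℝ)) (F := (-148749659 / 134217728 : ℝ)) (δ := (1 / 1073741824 : ℝ)) (by norm_num) (by norm_num) (by norm_num) (by norm_num) (by norm_num)
    (by norm_num) (by norm_num) (by norm_num) (by norm_num) (by norm_num) (by norm_num) (by norm_num) (by norm_num) (by norm_num) (by norm_num)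
  have e1 : P2C10.l = (17615 / 131072 : ℝ) := rfl
  have e2 : P2C10.u = (36287 / 262144 : ℝ) := rfl
  have e3 : P2C10.a1 = -(40249303 / 4194304 : ℝ) := by norm_num [P2C10]
  have e4 : P2C10.a2 = -(33976073 / 1048576 : ℝ) := by norm_num [P2C10]
  have e5 : P2C10.e = (-64833515 / 2097152 : ℝ) := rfl
  have e6 : P2C10.f = (51791995 / 268435456 : ℝ) + (238557631 / 268435456 : ℝ) + (-148749659 / 134217728 : ℝ) + (1 / 1073741824 : ℝ) := by norm_num [P2C10]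
  rw [e1, e2, e3, e4, e5, e6]
  exact h

lemma rP2C11 : ∃ N : ℝ, Rw4 P.r2 N (coCell (6861 / 2048 : ℝ) (24439 / 2048 : ℝ) (12 : ℝ) 0 P2C11) := by
  refine ⟨(3221225472 : ℝ), ⟨Q58, List.mem_cons_of_mem _ (List.mem_cons_of_mem _ (List.mem_cons_of_mem _ (List.mem_cons_of_mem _ (List.mem_cons_of_mem _ (List.mem_cons_of_mem _ (List.mem_cons_of_mem _ (List.mem_cons_of_mem _ (List.mem_cons_of_mem _ (List.mem_cons_of_mem _ (List.mem_cons_of_mem _ (List.mem_cons_of_mem _ (List.mem_cons_of_mem _ (List.mem_cons_of_mem _ (List.mem_cons_of_mem _ (List.mem_cons_of_mem _ (List.mem_cons_of_mem _ (List.mem_cons_of_mem _ (List.mem_cons_of_mem _ (List.mem_cons_of_mem _ (List.mem_cons_of_mem _ (List.mem_cons_of_mem _ (List.mem_cons_of_mem _ (List.mem_cons_of_mem _ (List.mem_cons_of_mem _ (List.mem_cons_of_mem _ (List.mem_cons_of_mem _ (List.mem_cons_of_mem _ (List.mem_cons_of_mem _ (List.mem_cons_of_mem _ (List.mem_cons_of_mem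 _ (List.mem_cons_of_mem _ (List.mem_cons_of_mem _ (List.mem_cons_of_mem _ (List.mem_cons_of_mem _ (List.mem_cons_of_mem _ (List.mem_cons_of_mem _ (List.mem_cons_of_mem _ (List.mem_cons_of_mem _ (List.mem_cons_of_mem _ (List.mem_cons_of_mem _ (List.mem_cons_of_mem _ (List.mem_cons_of_mem _ (List.mem_cons_of_mem _ (List.mem_cons_of_mem _ (List.mem_cons_of_mem _ (List.mem_cons_of_mem _ (List.mem_cons_of_mem _ (List.mem_cons_of_mem _ (List.mem_cons_of_mem _ (List.mem_cons_of_mem _ (List.mem_cons_of_mem _ (List.mem_cons_of_mem _ (List.mem_cons_of_mem _ (List.mem_cons_of_mem _ (List.mem_cons_of_mem _ (List.mem_cons_of_mem _ (List.mem_cons_of_mem _ (List.mem_cons_self)))))))))))))))))))))))))))))))))))))))))))))))))))))))))), ?_⟩, by norm_num⟩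
  constructor <;> norm_num [Q58, coCell, P2C11]

lemma lP2C11 : ∀ x1 x2 xc : ℝ, 0 ≤ x1 → x1 ≤ 1 → 0 ≤ x2 → x2 ≤ 1 → P2C11.l ≤ xc → xc ≤ P2C11.u →
    (6861 / 2048 : ℝ) * (1 - (1 - x1) ^ 4) + (24439 / 2048 : ℝ) * (1 - (1 - x2) ^ 4) - (12 : ℝ) * (1 - (1 - xc) ^ 4) + (1 / 1073741824 : ℝ)
      ≤ - P2C11.a1 * x1 - P2C11.a2 * x2 + P2C11.e * xc + P2C11.f := by
  have h := cell_lines_delta 4 (α1 := (6861 / 2048 : ℝ)) (α2 := (24439 / 2048 : ℝ)) (c := (12 : ℝ)) (y1 := (13825 / 131072 : ℝ)) (y2 := (32567 / 262144 : ℝ))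
    (A1 := (40230257 / 4194304 : ℝ)) (B1 := (25960241 / 134217728 : ℝ)) (A2 := (134474129 / 4194304 : ℝ)) (B2 := (124893497 / 134217728 : ℝ)) (l := (36287 / 262144 : ℝ)) (u := (9175 / 65536 : ℝ))
    (E := (-64203787 / 2097152 : ℝ)) (F := (-77164251 / 67108864 : ℝ)) (δ := (1 / 1073741824 : ℝ)) (by norm_num) (by norm_num) (by norm_num) (by norm_num) (by norm_num)
    (by norm_num) (by norm_num) (by norm_num) (by norm_num) (by norm_num) (by norm_num) (by norm_num) (by norm_num) (by norm_num) (by norm_num)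
  have e1 : P2C11.l = (36287 / 262144 : ℝ) := rfl
  have e2 : P2C11.u = (9175 / 65536 : ℝ) := rfl
  have e3 : P2C11.a1 = -(40230257 / 4194304 : ℝ) := by norm_num [P2C11]
  have e4 : P2C11.a2 = -(134474129 / 4194304 : ℝ) := by norm_num [P2C11]
  have e5 : P2C11.e = (-64203787 / 2097152 : ℝ) := rfl
  have e6 : P2C11.f = (25960241 / 134217728 : ℝ) + (124893497 / 134217728 : ℝ) + (-77164251 / 67108864 : ℝ) + (1 / 1073741824 : ℝ) := by norm_num [P2C11]
  rw [e1, e2, e3, e4, e5, e6]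
  exact h

/-- A link of the chain. -/
lemma link2 {lam : ℝ} (h0 : -(1 / 2) < lam) (h1 : lam < 1) (hB : BoxS lam P 0 HH 0 HH)
    (h : ∃ n, 1 - En 4 lam n mc ≤ (9175 / 65536 : ℝ)) : ∃ n, 1 - En 4 lam n mc ≤ (13107 / 131072 : ℝ) :=
  phase_of_box (by norm_num) h0 h1 hB (6861 / 2048 : ℝ) (24439 / 2048 : ℝ) (12 : ℝ) (1 / 1073741824 : ℝ) (13107 / 131072 : ℝ) (9175 / 65536 : ℝ) (by norm_num) cellsP2 hcoverP2
    (forall_cons lP2C0 (forall_cons lP2C1 (forall_cons lP2C2 (forall_cons lP2C3 (forall_cons lP2C4 (forall_cons lP2C5 (forall_cons lP2C6 (forall_cons lP2C7 (forall_cons lP2C8 (forall_cons lP2C9 (forall_cons lP2C10 (forall_cons lP2C11 (forall_nil))))))))))))) (forall_cons rP2C0 (forall_cons rP2C1 (forall_cons rP2C2 (forall_cons rP2C3 (forall_cons rP2C4 (forall_cons rP2C5 (forall_cons rP2C6 (forall_cons rP2C7 (forall_cons rP2C8 (forall_cons rP2C9 (forall_cons rP2C10 (forall_cons rP2C11 (forall_nil)))))))))))))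 h

/-- A chord cell of a link. -/
noncomputable def P3C0 : Cell := ⟨(9175 / 65536 : ℝ), (37801 / 262144 : ℝ), (-31287611 / 2097152 : ℝ), (-122064979 / 4194304 : ℝ), (-127120235 / 4194304 : ℝ), (-74504871 / 1073741824 : ℝ)⟩

/-- A chord cell of a link. -/
noncomputable def P3C1 : Cell := ⟨(37801 / 262144 : ℝ), (38935 / 262144 : ℝ), (-61734051 / 4194304 : ℝ), (-60264931 / 2097152 : ℝ), (-125234701 / 4194304 : ℝ), (-72257067 / 1073741824 : ℝ)⟩

/-- A chord cell of a link. -/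
noncomputable def P3C2 : Cell := ⟨(38935 / 262144 : ℝ), (40103 / 262144 : ℝ), (-30460003 / 2097152 : ℝ), (-118941779 / 4194304 : ℝ), (-123312233 / 4194304 : ℝ), (-70136175 / 1073741824 : ℝ)⟩

/-- A chord cell of a link. -/
noncomputable def P3C3 : Cell := ⟨(40103 / 262144 : ℝ), (20653 / 131072 : ℝ), (-60109273 / 4194304 : ℝ), (-14664163 / 524288 : ℝ), (-7584551 / 262144 : ℝ), (-67945983 / 1073741824 : ℝ)⟩

/-- A chord cell of a link. -/
noncomputable def P3C4 : Cell := ⟨(20653 / 131072 : ℝ), (21273 / 131072 : ℝ), (-59372641 / 4194304 : ℝ), (-115590463 / 4194304 : ℝ), (-119355727 / 4194304 : ℝ), (-65905287 / 1073741824 : ℝ)⟩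

/-- A chord cell of a link. -/
noncomputable def P3C5 : Cell := ⟨(21273 / 131072 : ℝ), (21911 / 131072 : ℝ), (-58459205 / 4194304 : ℝ), (-113971449 / 4194304 : ℝ), (-117321989 / 4194304 : ℝ), (-63621227 / 1073741824 : ℝ)⟩

/-- A chord cell of a link. -/
noncomputable def P3C6 : Cell := ⟨(21911 / 131072 : ℝ), (45137 / 262144 : ℝ), (-59703145 / 4194304 : ℝ), (-110669749 / 4194304 : ℝ), (-115251915 / 4194304 : ℝ), (-64135163 / 1073741824 : ℝ)⟩

/-- A chord cell of a link. -/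
noncomputable def P3C7 : Cell := ⟨(45137 / 262144 : ℝ), (46491 / 262144 : ℝ), (-55542447 / 4194304 : ℝ), (-6972413 / 262144 : ℝ), (-56572567 / 2097152 : ℝ), (-58138367 / 1073741824 : ℝ)⟩

/-- A chord cell of a link. -/
noncomputable def P3C8 : Cell := ⟨(46491 / 262144 : ℝ), (47885 / 262144 : ℝ), (-54669559 / 4194304 : ℝ), (-27450867 / 1048576 : ℝ), (-111002985 / 4194304 : ℝ), (-55895855 / 1073741824 : ℝ)⟩

/-- A chord cell of a link. -/
noncomputable def P3C9 : Cell := ⟨(47885 / 262144 : ℝ), (24661 / 131072 : ℝ), (-27379929 / 2097152 : ℝ), (-107176157 / 4194304 : ℝ), (-108824595 / 4194304 : ℝ), (-54468183 / 1073741824 : ℝ)⟩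

/-- A chord cell of a link. -/
noncomputable def P3C10 : Cell := ⟨(24661 / 131072 : ℝ), (25401 / 131072 : ℝ), (-54547377 / 4194304 : ℝ), (-104795661 / 4194304 : ℝ), (-106610037 / 4194304 : ℝ), (-52991387 / 1073741824 : ℝ)⟩

/-- A chord cell of a link. -/
noncomputable def P3C11 : Cell := ⟨(25401 / 131072 : ℝ), (52429 / 262144 : ℝ), (-27258067 / 2097152 : ℝ), (-102164113 / 4194304 : ℝ), (-104284689 / 4194304 : ℝ), (-51654535 / 1073741824 : ℝ)⟩

/-- The chord cells of a link. -/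
noncomputable def cellsP3 : List Cell := [P3C0, P3C1, P3C2, P3C3, P3C4, P3C5, P3C6, P3C7, P3C8, P3C9, P3C10, P3C11]

lemma hcoverP3 : ∀ x : ℝ, (9175 / 65536 : ℝ) ≤ x → x ≤ (52429 / 262144 : ℝ) → ∃ D ∈ cellsP3, D.l ≤ x ∧ x ≤ D.u := by
  refine cover_of_chain ?_ (by norm_num [P3C0])
  simp only [ChainP, P3C0, P3C1, P3C2, P3C3, P3C4, P3C5, P3C6, P3C7, P3C8, P3C9, P3C10, P3C11]
  norm_num

lemma rP3C0 : ∃ N : ℝ, Rw4 P.r2 N (coCell (5253 / 1024 : ℝ) (2777 / 256 : ℝ) (12 : ℝ) 0 P3C0) := by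
  refine ⟨(3221225472 : ℝ), ⟨Q59, List.mem_cons_of_mem _ (List.mem_cons_of_mem _ (List.mem_cons_of_mem _ (List.mem_cons_of_mem _ (List.mem_cons_of_mem _ (List.mem_cons_of_mem _ (List.mem_cons_of_mem _ (List.mem_cons_of_mem _ (List.mem_cons_of_mem _ (List.mem_cons_of_mem _ (List.mem_cons_of_mem _ (List.mem_cons_of_mem _ (List.mem_cons_of_mem _ (List.mem_cons_of_mem _ (List.mem_cons_of_mem _ (List.mem_cons_of_mem _ (List.mem_cons_of_mem _ (List.mem_cons_of_mem _ (List.mem_cons_of_mem _ (List.mem_cons_of_mem _ (List.mem_cons_of_mem _ (List.mem_cons_of_mem _ (List.mem_cons_of_mem _ (List.mem_cons_of_mem _ (List.mem_cons_of_mem _ (List.mem_cons_of_mem _ (List.mem_cons_of_mem _ (List.mem_cons_of_mem _ (List.mem_cons_of_mem _ (List.mem_cons_of_mem _ (List.mem_cons_of_mem _ (List.mem_cons_of_mem _ (List.mem_cons_of_mem _ (List.mem_cons_of_mem _ (List.mem_cons_of_mem _ (List.mem_cons_of_mem _ (List.mem_cons_of_mem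 _ (List.mem_cons_of_mem _ (List.mem_cons_of_mem _ (List.mem_cons_of_mem _ (List.mem_cons_of_mem _ (List.mem_cons_of_mem _ (List.mem_cons_of_mem _ (List.mem_cons_of_mem _ (List.mem_cons_of_mem _ (List.mem_cons_of_mem _ (List.mem_cons_of_mem _ (List.mem_cons_of_mem _ (List.mem_cons_of_mem _ (List.mem_cons_of_mem _ (List.mem_cons_of_mem _ (List.mem_cons_of_mem _ (List.mem_cons_of_mem _ (List.mem_cons_of_mem _ (List.mem_cons_of_mem _ (List.mem_cons_of_mem _ (List.mem_cons_of_mem _ (List.mem_cons_of_mem _ (List.mem_cons_of_mem _ (List.mem_cons_self))))))))))))))))))))))))))))))))))))))))))))))))))))))))))), ?_⟩, by norm_num⟩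
  constructor <;> norm_num [Q59, coCell, P3C0]

lemma lP3C0 : ∀ x1 x2 xc : ℝ, 0 ≤ x1 → x1 ≤ 1 → 0 ≤ x2 → x2 ≤ 1 → P3C0.l ≤ xc → xc ≤ P3C0.u →
    (5253 / 1024 : ℝ) * (1 - (1 - x1) ^ 4) + (2777 / 256 : ℝ) * (1 - (1 - x2) ^ 4) - (12 : ℝ) * (1 - (1 - xc) ^ 4) + (1 / 1073741824 : ℝ)
      ≤ - P3C0.a1 * x1 - P3C0.a2 * x2 + P3C0.e * xc + P3C0.f := by
  have h := cell_lines_delta 4 (α1 := (5253 / 1024 : ℝ)) (α2 := (2777 / 256 : ℝ)) (c := (12 : ℝ)) (y1 := (26423 / 262144 : ℝ)) (y2 := (16339 / 131072 : ℝ))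
    (A1 := (31287611 / 2097152 : ℝ)) (B1 := (73087705 / 268435456 : ℝ)) (A2 := (122064979 / 4194304 : ℝ)) (B2 := (57119397 / 67108864 : ℝ)) (l := (9175 / 65536 : ℝ)) (u := (37801 / 262144 : ℝ))
    (E := (-127120235 / 4194304 : ℝ)) (F := (-320191511 / 268435456 : ℝ)) (δ := (1 / 1073741824 : ℝ)) (by norm_num) (by norm_num) (by norm_num) (by norm_num) (by norm_num)
    (by norm_num) (by norm_num) (by norm_num) (by norm_num) (by norm_num) (by norm_num) (by norm_num) (by norm_num) (by norm_num) (by norm_num)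
  have e1 : P3C0.l = (9175 / 65536 : ℝ) := rfl
  have e2 : P3C0.u = (37801 / 262144 : ℝ) := rfl
  have e3 : P3C0.a1 = -(31287611 / 2097152 : ℝ) := by norm_num [P3C0]
  have e4 : P3C0.a2 = -(122064979 / 4194304 : ℝ) := by norm_num [P3C0]
  have e5 : P3C0.e = (-127120235 / 4194304 : ℝ) := rfl
  have e6 : P3C0.f = (73087705 / 268435456 : ℝ) + (57119397 / 67108864 : ℝ) + (-320191511 / 268435456 : ℝ) + (1 / 1073741824 : ℝ) := by norm_num [P3C0]
  rw [e1, e2, e3, e4, e5, e6]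
  exact h

lemma rP3C1 : ∃ N : ℝ, Rw4 P.r2 N (coCell (5253 / 1024 : ℝ) (2777 / 256 : ℝ) (12 : ℝ) 0 P3C1) := by
  refine ⟨(3221225472 : ℝ), ⟨Q60, List.mem_cons_of_mem _ (List.mem_cons_of_mem _ (List.mem_cons_of_mem _ (List.mem_cons_of_mem _ (List.mem_cons_of_mem _ (List.mem_cons_of_mem _ (List.mem_cons_of_mem _ (List.mem_cons_of_mem _ (List.mem_cons_of_mem _ (List.mem_cons_of_mem _ (List.mem_cons_of_mem _ (List.mem_cons_of_mem _ (List.mem_cons_of_mem _ (List.mem_cons_of_mem _ (List.mem_cons_of_mem _ (List.mem_cons_of_mem _ (List.mem_cons_of_mem _ (List.mem_cons_of_mem _ (List.mem_cons_of_mem _ (List.mem_cons_of_mem _ (List.mem_cons_of_mem _ (List.mem_cons_of_mem _ (List.mem_cons_of_mem _ (List.mem_cons_of_mem _ (List.mem_cons_of_mem _ (List.mem_cons_of_mem _ (List.mem_cons_of_mem _ (List.mem_cons_of_mem _ (List.mem_cons_of_mem _ (List.mem_cons_of_mem _ (List.mem_cons_of_mem _ (List.mem_cons_of_mem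 _ (List.mem_cons_of_mem _ (List.mem_cons_of_mem _ (List.mem_cons_of_mem _ (List.mem_cons_of_mem _ (List.mem_cons_of_mem _ (List.mem_cons_of_mem _ (List.mem_cons_of_mem _ (List.mem_cons_of_mem _ (List.mem_cons_of_mem _ (List.mem_cons_of_mem _ (List.mem_cons_of_mem _ (List.mem_cons_of_mem _ (List.mem_cons_of_mem _ (List.mem_cons_of_mem _ (List.mem_cons_of_mem _ (List.mem_cons_of_mem _ (List.mem_cons_of_mem _ (List.mem_cons_of_mem _ (List.mem_cons_of_mem _ (List.mem_cons_of_mem _ (List.mem_cons_of_mem _ (List.mem_cons_of_mem _ (List.mem_cons_of_mem _ (List.mem_cons_of_mem _ (List.mem_cons_of_mem _ (List.mem_cons_of_mem _ (List.mem_cons_of_mem _ (List.mem_cons_of_mem _ (List.mem_cons_self)))))))))))))))))))))))))))))))))))))))))))))))))))))))))))), ?_⟩, by norm_num⟩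
  constructor <;> norm_num [Q60, coCell, P3C1]

lemma lP3C1 : ∀ x1 x2 xc : ℝ, 0 ≤ x1 → x1 ≤ 1 → 0 ≤ x2 → x2 ≤ 1 → P3C1.l ≤ xc → xc ≤ P3C1.u →
    (5253 / 1024 : ℝ) * (1 - (1 - x1) ^ 4) + (2777 / 256 : ℝ) * (1 - (1 - x2) ^ 4) - (12 : ℝ) * (1 - (1 - xc) ^ 4) + (1 / 1073741824 : ℝ)
      ≤ - P3C1.a1 * x1 - P3C1.a2 * x2 + P3C1.e * xc + P3C1.f := by
  have h := cell_lines_delta 4 (α1 := (5253 / 1024 : ℝ)) (α2 := (2777 / 256 : ℝ)) (c := (12 : ℝ)) (y1 := (6871 / 65536 : ℝ)) (y2 := (8411 / 65536 : ℝ))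
    (A1 := (61734051 / 4194304 : ℝ)) (B1 := (78622823 / 268435456 : ℝ)) (A2 := (60264931 / 2097152 : ℝ)) (B2 := (240905561 / 268435456 : ℝ)) (l := (37801 / 262144 : ℝ)) (u := (38935 / 262144 : ℝ))
    (E := (-125234701 / 4194304 : ℝ)) (F := (-337592651 / 268435456 : ℝ)) (δ := (1 / 1073741824 : ℝ)) (by norm_num) (by norm_num) (by norm_num) (by norm_num) (by norm_num)
    (by norm_num) (by norm_num) (by norm_num) (by norm_num) (by norm_num) (by norm_num) (by norm_num) (by norm_num) (by norm_num) (by norm_num)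
  have e1 : P3C1.l = (37801 / 262144 : ℝ) := rfl
  have e2 : P3C1.u = (38935 / 262144 : ℝ) := rfl
  have e3 : P3C1.a1 = -(61734051 / 4194304 : ℝ) := by norm_num [P3C1]
  have e4 : P3C1.a2 = -(60264931 / 2097152 : ℝ) := by norm_num [P3C1]
  have e5 : P3C1.e = (-125234701 / 4194304 : ℝ) := rfl
  have e6 : P3C1.f = (78622823 / 268435456 : ℝ) + (240905561 / 268435456 : ℝ) + (-337592651 / 268435456 : ℝ) + (1 / 1073741824 : ℝ) := by norm_num [P3C1]
  rw [e1, e2, e3, e4, e5, e6]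
  exact h

lemma rP3C2 : ∃ N : ℝ, Rw4 P.r2 N (coCell (5253 / 1024 : ℝ) (2777 / 256 : ℝ) (12 : ℝ) 0 P3C2) := by
  refine ⟨(3221225472 : ℝ), ⟨Q61, List.mem_cons_of_mem _ (List.mem_cons_of_mem _ (List.mem_cons_of_mem _ (List.mem_cons_of_mem _ (List.mem_cons_of_mem _ (List.mem_cons_of_mem _ (List.mem_cons_of_mem _ (List.mem_cons_of_mem _ (List.mem_cons_of_mem _ (List.mem_cons_of_mem _ (List.mem_cons_of_mem _ (List.mem_cons_of_mem _ (List.mem_cons_of_mem _ (List.mem_cons_of_mem _ (List.mem_cons_of_mem _ (List.mem_cons_of_mem _ (List.mem_cons_of_mem _ (List.mem_cons_of_mem _ (List.mem_cons_of_mem _ (List.mem_cons_of_mem _ (List.mem_cons_of_mem _ (List.mem_cons_of_mem _ (List.mem_cons_of_mem _ (List.mem_cons_of_mem _ (List.mem_cons_of_mem _ (List.mem_cons_of_mem _ (List.mem_cons_of_mem _ (List.mem_cons_of_mem _ (List.mem_cons_of_mem _ (List.mem_cons_of_mem _ (List.mem_cons_of_mem _ (List.mem_cons_of_mem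 _ (List.mem_cons_of_mem _ (List.mem_cons_of_mem _ (List.mem_cons_of_mem _ (List.mem_cons_of_mem _ (List.mem_cons_of_mem _ (List.mem_cons_of_mem _ (List.mem_cons_of_mem _ (List.mem_cons_of_mem _ (List.mem_cons_of_mem _ (List.mem_cons_of_mem _ (List.mem_cons_of_mem _ (List.mem_cons_of_mem _ (List.mem_cons_of_mem _ (List.mem_cons_of_mem _ (List.mem_cons_of_mem _ (List.mem_cons_of_mem _ (List.mem_cons_of_mem _ (List.mem_cons_of_mem _ (List.mem_cons_of_mem _ (List.mem_cons_of_mem _ (List.mem_cons_of_mem _ (List.mem_cons_of_mem _ (List.mem_cons_of_mem _ (List.mem_cons_of_mem _ (List.mem_cons_of_mem _ (List.mem_cons_of_mem _ (List.mem_cons_of_mem _ (List.mem_cons_of_mem _ (List.mem_cons_of_mem _ (List.mem_cons_self))))))))))))))))))))))))))))))))))))))))))))))))))))))))))))), ?_⟩, by norm_num⟩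
  constructor <;> norm_num [Q61, coCell, P3C2]

lemma lP3C2 : ∀ x1 x2 xc : ℝ, 0 ≤ x1 → x1 ≤ 1 → 0 ≤ x2 → x2 ≤ 1 → P3C2.l ≤ xc → xc ≤ P3C2.u →
    (5253 / 1024 : ℝ) * (1 - (1 - x1) ^ 4) + (2777 / 256 : ℝ) * (1 - (1 - x2) ^ 4) - (12 : ℝ) * (1 - (1 - xc) ^ 4) + (1 / 1073741824 : ℝ)
      ≤ - P3C2.a1 * x1 - P3C2.a2 * x2 + P3C2.e * xc + P3C2.f := by
  have h := cell_lines_delta 4 (α1 := (5253 / 1024 : ℝ)) (α2 := (2777 / 256 : ℝ)) (c := (12 : ℝ)) (y1 := (3565 / 32768 : ℝ)) (y2 := (8663 / 65536 : ℝ))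
    (A1 := (30460003 / 2097152 : ℝ)) (B1 := (84187851 / 268435456 : ℝ)) (A2 := (118941779 / 4194304 : ℝ)) (B2 := (127072499 / 134217728 : ℝ)) (l := (38935 / 262144 : ℝ)) (u := (40103 / 262144 : ℝ))
    (E := (-123312233 / 4194304 : ℝ)) (F := (-355866893 / 268435456 : ℝ)) (δ := (1 / 1073741824 : ℝ)) (by norm_num) (by norm_num) (by norm_num) (by norm_num) (by norm_num)
    (by norm_num) (by norm_num) (by norm_num) (by norm_num) (by norm_num) (by norm_num) (by norm_num) (by norm_num) (by norm_num) (by norm_num)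
  have e1 : P3C2.l = (38935 / 262144 : ℝ) := rfl
  have e2 : P3C2.u = (40103 / 262144 : ℝ) := rfl
  have e3 : P3C2.a1 = -(30460003 / 2097152 : ℝ) := by norm_num [P3C2]
  have e4 : P3C2.a2 = -(118941779 / 4194304 : ℝ) := by norm_num [P3C2]
  have e5 : P3C2.e = (-123312233 / 4194304 : ℝ) := rfl
  have e6 : P3C2.f = (84187851 / 268435456 : ℝ) + (127072499 / 134217728 : ℝ) + (-355866893 / 268435456 : ℝ) + (1 / 1073741824 : ℝ) := by norm_num [P3C2]
  rw [e1, e2, e3, e4, e5, e6]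
  exact h

lemma rP3C3 : ∃ N : ℝ, Rw4 P.r2 N (coCell (5253 / 1024 : ℝ) (2777 / 256 : ℝ) (12 : ℝ) 0 P3C3) := by
  refine ⟨(3221225472 : ℝ), ⟨Q62, List.mem_cons_of_mem _ (List.mem_cons_of_mem _ (List.mem_cons_of_mem _ (List.mem_cons_of_mem _ (List.mem_cons_of_mem _ (List.mem_cons_of_mem _ (List.mem_cons_of_mem _ (List.mem_cons_of_mem _ (List.mem_cons_of_mem _ (List.mem_cons_of_mem _ (List.mem_cons_of_mem _ (List.mem_cons_of_mem _ (List.mem_cons_of_mem _ (List.mem_cons_of_mem _ (List.mem_cons_of_mem _ (List.mem_cons_of_mem _ (List.mem_cons_of_mem _ (List.mem_cons_of_mem _ (List.mem_cons_of_mem _ (List.mem_cons_of_mem _ (List.mem_cons_of_mem _ (List.mem_cons_of_mem _ (List.mem_cons_of_mem _ (List.mem_cons_of_mem _ (List.mem_cons_of_mem _ (List.mem_cons_of_mem _ (List.mem_cons_of_mem _ (List.mem_cons_of_mem _ (List.mem_cons_of_mem _ (List.mem_cons_of_mem _ (List.mem_cons_of_mem _ (List.mem_cons_of_mem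 _ (List.mem_cons_of_mem _ (List.mem_cons_of_mem _ (List.mem_cons_of_mem _ (List.mem_cons_of_mem _ (List.mem_cons_of_mem _ (List.mem_cons_of_mem _ (List.mem_cons_of_mem _ (List.mem_cons_of_mem _ (List.mem_cons_of_mem _ (List.mem_cons_of_mem _ (List.mem_cons_of_mem _ (List.mem_cons_of_mem _ (List.mem_cons_of_mem _ (List.mem_cons_of_mem _ (List.mem_cons_of_mem _ (List.mem_cons_of_mem _ (List.mem_cons_of_mem _ (List.mem_cons_of_mem _ (List.mem_cons_of_mem _ (List.mem_cons_of_mem _ (List.mem_cons_of_mem _ (List.mem_cons_of_mem _ (List.mem_cons_of_mem _ (List.mem_cons_of_mem _ (List.mem_cons_of_mem _ (List.mem_cons_of_mem _ (List.mem_cons_of_mem _ (List.mem_cons_of_mem _ (List.mem_cons_of_mem _ (List.mem_cons_of_mem _ (List.mem_cons_self)))))))))))))))))))))))))))))))))))))))))))))))))))))))))))))), ?_⟩, by norm_num⟩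
  constructor <;> norm_num [Q62, coCell, P3C3]

lemma lP3C3 : ∀ x1 x2 xc : ℝ, 0 ≤ x1 → x1 ≤ 1 → 0 ≤ x2 → x2 ≤ 1 → P3C3.l ≤ xc → xc ≤ P3C3.u →
    (5253 / 1024 : ℝ) * (1 - (1 - x1) ^ 4) + (2777 / 256 : ℝ) * (1 - (1 - x2) ^ 4) - (12 : ℝ) * (1 - (1 - xc) ^ 4) + (1 / 1073741824 : ℝ)
      ≤ - P3C3.a1 * x1 - P3C3.a2 * x2 + P3C3.e * xc + P3C3.f := by
  have h := cell_lines_delta 4 (α1 := (5253 / 1024 : ℝ)) (α2 := (2777 / 256 : ℝ)) (c := (12 : ℝ)) (y1 := (29561 / 262144 : ℝ)) (y2 := (35695 / 262144 : ℝ))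
    (A1 := (60109273 / 4194304 : ℝ)) (B1 := (89935765 / 268435456 : ℝ)) (A2 := (14664163 / 524288 : ℝ)) (B2 := (67032209 / 67108864 : ℝ)) (l := (40103 / 262144 : ℝ)) (u := (20653 / 131072 : ℝ))
    (E := (-7584551 / 262144 : ℝ)) (F := (-375051097 / 268435456 : ℝ)) (δ := (1 / 1073741824 : ℝ)) (by norm_num) (by norm_num) (by norm_num) (by norm_num) (by norm_num)
    (by norm_num) (by norm_num) (by norm_num) (by norm_num) (by norm_num) (by norm_num) (by norm_num) (by norm_num) (by norm_num) (by norm_num)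
  have e1 : P3C3.l = (40103 / 262144 : ℝ) := rfl
  have e2 : P3C3.u = (20653 / 131072 : ℝ) := rfl
  have e3 : P3C3.a1 = -(60109273 / 4194304 : ℝ) := by norm_num [P3C3]
  have e4 : P3C3.a2 = -(14664163 / 524288 : ℝ) := by norm_num [P3C3]
  have e5 : P3C3.e = (-7584551 / 262144 : ℝ) := rfl
  have e6 : P3C3.f = (89935765 / 268435456 : ℝ) + (67032209 / 67108864 : ℝ) + (-375051097 / 268435456 : ℝ) + (1 / 1073741824 : ℝ) := by norm_num [P3C3]
  rw [e1, e2, e3, e4, e5, e6]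
  exact h

lemma rP3C4 : ∃ N : ℝ, Rw4 P.r2 N (coCell (5253 / 1024 : ℝ) (2777 / 256 : ℝ) (12 : ℝ) 0 P3C4) := by
  refine ⟨(3221225472 : ℝ), ⟨Q63, List.mem_cons_of_mem _ (List.mem_cons_of_mem _ (List.mem_cons_of_mem _ (List.mem_cons_of_mem _ (List.mem_cons_of_mem _ (List.mem_cons_of_mem _ (List.mem_cons_of_mem _ (List.mem_cons_of_mem _ (List.mem_cons_of_mem _ (List.mem_cons_of_mem _ (List.mem_cons_of_mem _ (List.mem_cons_of_mem _ (List.mem_cons_of_mem _ (List.mem_cons_of_mem _ (List.mem_cons_of_mem _ (List.mem_cons_of_mem _ (List.mem_cons_of_mem _ (List.mem_cons_of_mem _ (List.mem_cons_of_mem _ (List.mem_cons_of_mem _ (List.mem_cons_of_mem _ (List.mem_cons_of_mem _ (List.mem_cons_of_mem _ (List.mem_cons_of_mem _ (List.mem_cons_of_mem _ (List.mem_cons_of_mem _ (List.mem_cons_of_mem _ (List.mem_cons_of_mem _ (List.mem_cons_of_mem _ (List.mem_cons_of_mem _ (List.mem_cons_of_mem _ (List.mem_cons_of_mem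 _ (List.mem_cons_of_mem _ (List.mem_cons_of_mem _ (List.mem_cons_of_mem _ (List.mem_cons_of_mem _ (List.mem_cons_of_mem _ (List.mem_cons_of_mem _ (List.mem_cons_of_mem _ (List.mem_cons_of_mem _ (List.mem_cons_of_mem _ (List.mem_cons_of_mem _ (List.mem_cons_of_mem _ (List.mem_cons_of_mem _ (List.mem_cons_of_mem _ (List.mem_cons_of_mem _ (List.mem_cons_of_mem _ (List.mem_cons_of_mem _ (List.mem_cons_of_mem _ (List.mem_cons_of_mem _ (List.mem_cons_of_mem _ (List.mem_cons_of_mem _ (List.mem_cons_of_mem _ (List.mem_cons_of_mem _ (List.mem_cons_of_mem _ (List.mem_cons_of_mem _ (List.mem_cons_of_mem _ (List.mem_cons_of_mem _ (List.mem_cons_of_mem _ (List.mem_cons_of_mem _ (List.mem_cons_of_mem _ (List.mem_cons_of_mem _ (List.mem_cons_of_mem _ (List.mem_cons_self))))))))))))))))))))))))))))))))))))))))))))))))))))))))))))))), ?_⟩, by norm_num⟩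
  constructor <;> norm_num [Q63, coCell, P3C4]

lemma lP3C4 : ∀ x1 x2 xc : ℝ, 0 ≤ x1 → x1 ≤ 1 → 0 ≤ x2 → x2 ≤ 1 → P3C4.l ≤ xc → xc ≤ P3C4.u →
    (5253 / 1024 : ℝ) * (1 - (1 - x1) ^ 4) + (2777 / 256 : ℝ) * (1 - (1 - x2) ^ 4) - (12 : ℝ) * (1 - (1 - xc) ^ 4) + (1 / 1073741824 : ℝ)
      ≤ - P3C4.a1 * x1 - P3C4.a2 * x2 + P3C4.e * xc + P3C4.f := by
  have h := cell_lines_delta 4 (α1 := (5253 / 1024 : ℝ)) (α2 := (2777 / 256 : ℝ)) (c := (12 : ℝ)) (y1 := (30515 / 262144 : ℝ)) (y2 := (36809 / 262144 : ℝ))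
    (A1 := (59372641 / 4194304 : ℝ)) (B1 := (95337739 / 268435456 : ℝ)) (A2 := (115590463 / 4194304 : ℝ)) (B2 := (283376625 / 268435456 : ℝ)) (l := (20653 / 131072 : ℝ)) (u := (21273 / 131072 : ℝ))
    (E := (-119355727 / 4194304 : ℝ)) (F := (-197595343 / 134217728 : ℝ)) (δ := (1 / 1073741824 : ℝ)) (by norm_num) (by norm_num) (by norm_num) (by norm_num) (by norm_num)
    (by norm_num) (by norm_num) (by norm_num) (by norm_num) (by norm_num) (by norm_num) (by norm_num) (by norm_num) (by norm_num) (by norm_num)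
  have e1 : P3C4.l = (20653 / 131072 : ℝ) := rfl
  have e2 : P3C4.u = (21273 / 131072 : ℝ) := rfl
  have e3 : P3C4.a1 = -(59372641 / 4194304 : ℝ) := by norm_num [P3C4]
  have e4 : P3C4.a2 = -(115590463 / 4194304 : ℝ) := by norm_num [P3C4]
  have e5 : P3C4.e = (-119355727 / 4194304 : ℝ) := rfl
  have e6 : P3C4.f = (95337739 / 268435456 : ℝ) + (283376625 / 268435456 : ℝ) + (-197595343 / 134217728 : ℝ) + (1 / 1073741824 : ℝ) := by norm_num [P3C4]
  rw [e1, e2, e3, e4, e5, e6]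
  exact h

lemma rP3C5 : ∃ N : ℝ, Rw4 P.r2 N (coCell (5253 / 1024 : ℝ) (2777 / 256 : ℝ) (12 : ℝ) 0 P3C5) := by
  refine ⟨(3221225472 : ℝ), ⟨Q64, List.mem_cons_of_mem _ (List.mem_cons_of_mem _ (List.mem_cons_of_mem _ (List.mem_cons_of_mem _ (List.mem_cons_of_mem _ (List.mem_cons_of_mem _ (List.mem_cons_of_mem _ (List.mem_cons_of_mem _ (List.mem_cons_of_mem _ (List.mem_cons_of_mem _ (List.mem_cons_of_mem _ (List.mem_cons_of_mem _ (List.mem_cons_of_mem _ (List.mem_cons_of_mem _ (List.mem_cons_of_mem _ (List.mem_cons_of_mem _ (List.mem_cons_of_mem _ (List.mem_cons_of_mem _ (List.mem_cons_of_mem _ (List.mem_cons_of_mem _ (List.mem_cons_of_mem _ (List.mem_cons_of_mem _ (List.mem_cons_of_mem _ (List.mem_cons_of_mem _ (List.mem_cons_of_mem _ (List.mem_cons_of_mem _ (List.mem_cons_of_mem _ (List.mem_cons_of_mem _ (List.mem_cons_of_mem _ (List.mem_cons_of_mem _ (List.mem_cons_of_mem _ (List.mem_cons_of_mem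 _ (List.mem_cons_of_mem _ (List.mem_cons_of_mem _ (List.mem_cons_of_mem _ (List.mem_cons_of_mem _ (List.mem_cons_of_mem _ (List.mem_cons_of_mem _ (List.mem_cons_of_mem _ (List.mem_cons_of_mem _ (List.mem_cons_of_mem _ (List.mem_cons_of_mem _ (List.mem_cons_of_mem _ (List.mem_cons_of_mem _ (List.mem_cons_of_mem _ (List.mem_cons_of_mem _ (List.mem_cons_of_mem _ (List.mem_cons_of_mem _ (List.mem_cons_of_mem _ (List.mem_cons_of_mem _ (List.mem_cons_of_mem _ (List.mem_cons_of_mem _ (List.mem_cons_of_mem _ (List.mem_cons_of_mem _ (List.mem_cons_of_mem _ (List.mem_cons_of_mem _ (List.mem_cons_of_mem _ (List.mem_cons_of_mem _ (List.mem_cons_of_mem _ (List.mem_cons_of_mem _ (List.mem_cons_of_mem _ (List.mem_cons_of_mem _ (List.mem_cons_of_mem _ (List.mem_cons_of_mem _ (List.mem_cons_self)))))))))))))))))))))))))))))))))))))))))))))))))))))))))))))))), ?_⟩, by norm_num⟩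
  constructor <;> norm_num [Q64, coCell, P3C5]

lemma lP3C5 : ∀ x1 x2 xc : ℝ, 0 ≤ x1 → x1 ≤ 1 → 0 ≤ x2 → x2 ≤ 1 → P3C5.l ≤ xc → xc ≤ P3C5.u →
    (5253 / 1024 : ℝ) * (1 - (1 - x1) ^ 4) + (2777 / 256 : ℝ) * (1 - (1 - x2) ^ 4) - (12 : ℝ) * (1 - (1 - xc) ^ 4) + (1 / 1073741824 : ℝ)
      ≤ - P3C5.a1 * x1 - P3C5.a2 * x2 + P3C5.e * xc + P3C5.f := by
  have h := cell_lines_delta 4 (α1 := (5253 / 1024 : ℝ)) (α2 := (2777 / 256 : ℝ)) (c := (12 : ℝ)) (y1 := (31709 / 262144 : ℝ)) (y2 := (18933 / 131072 : ℝ))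
    (A1 := (58459205 / 4194304 : ℝ)) (B1 := (102275673 / 268435456 : ℝ)) (A2 := (113971449 / 4194304 : ℝ)) (B2 := (298134563 / 268435456 : ℝ)) (l := (21273 / 131072 : ℝ)) (u := (21911 / 131072 : ℝ))
    (E := (-117321989 / 4194304 : ℝ)) (F := (-416315543 / 268435456 : ℝ)) (δ := (1 / 1073741824 : ℝ)) (by norm_num) (by norm_num) (by norm_num) (by norm_num) (by norm_num)
    (by norm_num) (by norm_num) (by norm_num) (by norm_num) (by norm_num) (by norm_num) (by norm_num) (by norm_num) (by norm_num) (by norm_num)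
  have e1 : P3C5.l = (21273 / 131072 : ℝ) := rfl
  have e2 : P3C5.u = (21911 / 131072 : ℝ) := rfl
  have e3 : P3C5.a1 = -(58459205 / 4194304 : ℝ) := by norm_num [P3C5]
  have e4 : P3C5.a2 = -(113971449 / 4194304 : ℝ) := by norm_num [P3C5]
  have e5 : P3C5.e = (-117321989 / 4194304 : ℝ) := rfl
  have e6 : P3C5.f = (102275673 / 268435456 : ℝ) + (298134563 / 268435456 : ℝ) + (-416315543 / 268435456 : ℝ) + (1 / 1073741824 : ℝ) := by norm_num [P3C5]
  rw [e1, e2, e3, e4, e5, e6]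
  exact h

lemma rP3C6 : ∃ N : ℝ, Rw4 P.r2 N (coCell (5253 / 1024 : ℝ) (2777 / 256 : ℝ) (12 : ℝ) 0 P3C6) := by
  refine ⟨(3221225472 : ℝ), ⟨Q65, List.mem_cons_of_mem _ (List.mem_cons_of_mem _ (List.mem_cons_of_mem _ (List.mem_cons_of_mem _ (List.mem_cons_of_mem _ (List.mem_cons_of_mem _ (List.mem_cons_of_mem _ (List.mem_cons_of_mem _ (List.mem_cons_of_mem _ (List.mem_cons_of_mem _ (List.mem_cons_of_mem _ (List.mem_cons_of_mem _ (List.mem_cons_of_mem _ (List.mem_cons_of_mem _ (List.mem_cons_of_mem _ (List.mem_cons_of_mem _ (List.mem_cons_of_mem _ (List.mem_cons_of_mem _ (List.mem_cons_of_mem _ (List.mem_cons_of_mem _ (List.mem_cons_of_mem _ (List.mem_cons_of_mem _ (List.mem_cons_of_mem _ (List.mem_cons_of_mem _ (List.mem_cons_of_mem _ (List.mem_cons_of_mem _ (List.mem_cons_of_mem _ (List.mem_cons_of_mem _ (List.mem_cons_of_mem _ (List.mem_cons_of_mem _ (List.mem_cons_of_mem _ (List.mem_cons_of_mem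 _ (List.mem_cons_of_mem _ (List.mem_cons_of_mem _ (List.mem_cons_of_mem _ (List.mem_cons_of_mem _ (List.mem_cons_of_mem _ (List.mem_cons_of_mem _ (List.mem_cons_of_mem _ (List.mem_cons_of_mem _ (List.mem_cons_of_mem _ (List.mem_cons_of_mem _ (List.mem_cons_of_mem _ (List.mem_cons_of_mem _ (List.mem_cons_of_mem _ (List.mem_cons_of_mem _ (List.mem_cons_of_mem _ (List.mem_cons_of_mem _ (List.mem_cons_of_mem _ (List.mem_cons_of_mem _ (List.mem_cons_of_mem _ (List.mem_cons_of_mem _ (List.mem_cons_of_mem _ (List.mem_cons_of_mem _ (List.mem_cons_of_mem _ (List.mem_cons_of_mem _ (List.mem_cons_of_mem _ (List.mem_cons_of_mem _ (List.mem_cons_of_mem _ (List.mem_cons_of_mem _ (List.mem_cons_of_mem _ (List.mem_cons_of_mem _ (List.mem_cons_of_mem _ (List.mem_cons_of_mem _ (List.mem_cons_of_mem _ (List.mem_cons_self))))))))))))))))))))))))))))))))))))))))))))))))))))))))))))))))), ?_⟩, by norm_num⟩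
  constructor <;> norm_num [Q65, coCell, P3C6]

lemma lP3C6 : ∀ x1 x2 xc : ℝ, 0 ≤ x1 → x1 ≤ 1 → 0 ≤ x2 → x2 ≤ 1 → P3C6.l ≤ xc → xc ≤ P3C6.u →
    (5253 / 1024 : ℝ) * (1 - (1 - x1) ^ 4) + (2777 / 256 : ℝ) * (1 - (1 - x2) ^ 4) - (12 : ℝ) * (1 - (1 - xc) ^ 4) + (1 / 1073741824 : ℝ)
      ≤ - P3C6.a1 * x1 - P3C6.a2 * x2 + P3C6.e * xc + P3C6.f := by
  have h := cell_lines_delta 4 (α1 := (5253 / 1024 : ℝ)) (α2 := (2777 / 256 : ℝ)) (c := (12 : ℝ)) (y1 := (15043 / 131072 : ℝ)) (y2 := (40053 / 262144 : ℝ))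
    (A1 := (59703145 / 4194304 : ℝ)) (B1 := (92892793 / 268435456 : ℝ)) (A2 := (110669749 / 4194304 : ℝ)) (B2 := (329536123 / 268435456 : ℝ)) (l := (21911 / 131072 : ℝ)) (u := (45137 / 262144 : ℝ))
    (E := (-115251915 / 4194304 : ℝ)) (F := (-438462707 / 268435456 : ℝ)) (δ := (1 / 1073741824 : ℝ)) (by norm_num) (by norm_num) (by norm_num) (by norm_num) (by norm_num)
    (by norm_num) (by norm_num) (by norm_num) (by norm_num) (by norm_num) (by norm_num) (by norm_num) (by norm_num) (by norm_num) (by norm_num)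
  have e1 : P3C6.l = (21911 / 131072 : ℝ) := rfl
  have e2 : P3C6.u = (45137 / 262144 : ℝ) := rfl
  have e3 : P3C6.a1 = -(59703145 / 4194304 : ℝ) := by norm_num [P3C6]
  have e4 : P3C6.a2 = -(110669749 / 4194304 : ℝ) := by norm_num [P3C6]
  have e5 : P3C6.e = (-115251915 / 4194304 : ℝ) := rfl
  have e6 : P3C6.f = (92892793 / 268435456 : ℝ) + (329536123 / 268435456 : ℝ) + (-438462707 / 268435456 : ℝ) + (1 / 1073741824 : ℝ) := by norm_num [P3C6]
  rw [e1, e2, e3, e4, e5, e6]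
  exact h

lemma rP3C7 : ∃ N : ℝ, Rw4 P.r2 N (coCell (5253 / 1024 : ℝ) (2777 / 256 : ℝ) (12 : ℝ) 0 P3C7) := by
  refine ⟨(3221225472 : ℝ), ⟨Q66, List.mem_cons_of_mem _ (List.mem_cons_of_mem _ (List.mem_cons_of_mem _ (List.mem_cons_of_mem _ (List.mem_cons_of_mem _ (List.mem_cons_of_mem _ (List.mem_cons_of_mem _ (List.mem_cons_of_mem _ (List.mem_cons_of_mem _ (List.mem_cons_of_mem _ (List.mem_cons_of_mem _ (List.mem_cons_of_mem _ (List.mem_cons_of_mem _ (List.mem_cons_of_mem _ (List.mem_cons_of_mem _ (List.mem_cons_of_mem _ (List.mem_cons_of_mem _ (List.mem_cons_of_mem _ (List.mem_cons_of_mem _ (List.mem_cons_of_mem _ (List.mem_cons_of_mem _ (List.mem_cons_of_mem _ (List.mem_cons_of_mem _ (List.mem_cons_of_mem _ (List.mem_cons_of_mem _ (List.mem_cons_of_mem _ (List.mem_cons_of_mem _ (List.mem_cons_of_mem _ (List.mem_cons_of_mem _ (List.mem_cons_of_mem _ (List.mem_cons_of_mem _ (List.mem_cons_of_mem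 _ (List.mem_cons_of_mem _ (List.mem_cons_of_mem _ (List.mem_cons_of_mem _ (List.mem_cons_of_mem _ (List.mem_cons_of_mem _ (List.mem_cons_of_mem _ (List.mem_cons_of_mem _ (List.mem_cons_of_mem _ (List.mem_cons_of_mem _ (List.mem_cons_of_mem _ (List.mem_cons_of_mem _ (List.mem_cons_of_mem _ (List.mem_cons_of_mem _ (List.mem_cons_of_mem _ (List.mem_cons_of_mem _ (List.mem_cons_of_mem _ (List.mem_cons_of_mem _ (List.mem_cons_of_mem _ (List.mem_cons_of_mem _ (List.mem_cons_of_mem _ (List.mem_cons_of_mem _ (List.mem_cons_of_mem _ (List.mem_cons_of_mem _ (List.mem_cons_of_mem _ (List.mem_cons_of_mem _ (List.mem_cons_of_mem _ (List.mem_cons_of_mem _ (List.mem_cons_of_mem _ (List.mem_cons_of_mem _ (List.mem_cons_of_mem _ (List.mem_cons_of_mem _ (List.mem_cons_of_mem _ (List.mem_cons_of_mem _ (List.mem_cons_of_mem _ (List.mem_cons_self)))))))))))))))))))))))))))))))))))))))))))))))))))))))))))))))))), ?_⟩,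 by norm_num⟩
  constructor <;> norm_num [Q66, coCell, P3C7]

lemma lP3C7 : ∀ x1 x2 xc : ℝ, 0 ≤ x1 → x1 ≤ 1 → 0 ≤ x2 → x2 ≤ 1 → P3C7.l ≤ xc → xc ≤ P3C7.u →
    (5253 / 1024 : ℝ) * (1 - (1 - x1) ^ 4) + (2777 / 256 : ℝ) * (1 - (1 - x2) ^ 4) - (12 : ℝ) * (1 - (1 - xc) ^ 4) + (1 / 1073741824 : ℝ)
      ≤ - P3C7.a1 * x1 - P3C7.a2 * x2 + P3C7.e * xc + P3C7.f := by
  have h := cell_lines_delta 4 (α1 := (5253 / 1024 : ℝ)) (α2 := (2777 / 256 : ℝ)) (c := (12 : ℝ)) (y1 := (35607 / 262144 : ℝ)) (y2 := (9865 / 65536 : ℝ))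
    (A1 := (55542447 / 4194304 : ℝ)) (B1 := (31558903 / 67108864 : ℝ)) (A2 := (6972413 / 262144 : ℝ)) (B2 := (80227189 / 67108864 : ℝ)) (l := (45137 / 262144 : ℝ)) (u := (46491 / 262144 : ℝ))
    (E := (-56572567 / 2097152 : ℝ)) (F := (-28854935 / 16777216 : ℝ)) (δ := (1 / 1073741824 : ℝ)) (by norm_num) (by norm_num) (by norm_num) (by norm_num) (by norm_num)
    (by norm_num) (by norm_num) (by norm_num) (by norm_num) (by norm_num) (by norm_num) (by norm_num) (by norm_num) (by norm_num) (by norm_num)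
  have e1 : P3C7.l = (45137 / 262144 : ℝ) := rfl
  have e2 : P3C7.u = (46491 / 262144 : ℝ) := rfl
  have e3 : P3C7.a1 = -(55542447 / 4194304 : ℝ) := by norm_num [P3C7]
  have e4 : P3C7.a2 = -(6972413 / 262144 : ℝ) := by norm_num [P3C7]
  have e5 : P3C7.e = (-56572567 / 2097152 : ℝ) := rfl
  have e6 : P3C7.f = (31558903 / 67108864 : ℝ) + (80227189 / 67108864 : ℝ) + (-28854935 / 16777216 : ℝ) + (1 / 1073741824 : ℝ) := by norm_num [P3C7]
  rw [e1, e2, e3, e4, e5, e6]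
  exact h

lemma rP3C8 : ∃ N : ℝ, Rw4 P.r2 N (coCell (5253 / 1024 : ℝ) (2777 / 256 : ℝ) (12 : ℝ) 0 P3C8) := by
  refine ⟨(3221225472 : ℝ), ⟨Q67, List.mem_cons_of_mem _ (List.mem_cons_of_mem _ (List.mem_cons_of_mem _ (List.mem_cons_of_mem _ (List.mem_cons_of_mem _ (List.mem_cons_of_mem _ (List.mem_cons_of_mem _ (List.mem_cons_of_mem _ (List.mem_cons_of_mem _ (List.mem_cons_of_mem _ (List.mem_cons_of_mem _ (List.mem_cons_of_mem _ (List.mem_cons_of_mem _ (List.mem_cons_of_mem _ (List.mem_cons_of_mem _ (List.mem_cons_of_mem _ (List.mem_cons_of_mem _ (List.mem_cons_of_mem _ (List.mem_cons_of_mem _ (List.mem_cons_of_mem _ (List.mem_cons_of_mem _ (List.mem_cons_of_mem _ (List.mem_cons_of_mem _ (List.mem_cons_of_mem _ (List.mem_cons_of_mem _ (List.mem_cons_of_mem _ (List.mem_cons_of_mem _ (List.mem_cons_of_mem _ (List.mem_cons_of_mem _ (List.mem_cons_of_mem _ (List.mem_cons_of_mem _ (List.mem_cons_of_mem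 _ (List.mem_cons_of_mem _ (List.mem_cons_of_mem _ (List.mem_cons_of_mem _ (List.mem_cons_of_mem _ (List.mem_cons_of_mem _ (List.mem_cons_of_mem _ (List.mem_cons_of_mem _ (List.mem_cons_of_mem _ (List.mem_cons_of_mem _ (List.mem_cons_of_mem _ (List.mem_cons_of_mem _ (List.mem_cons_of_mem _ (List.mem_cons_of_mem _ (List.mem_cons_of_mem _ (List.mem_cons_of_mem _ (List.mem_cons_of_mem _ (List.mem_cons_of_mem _ (List.mem_cons_of_mem _ (List.mem_cons_of_mem _ (List.mem_cons_of_mem _ (List.mem_cons_of_mem _ (List.mem_cons_of_mem _ (List.mem_cons_of_mem _ (List.mem_cons_of_mem _ (List.mem_cons_of_mem _ (List.mem_cons_of_mem _ (List.mem_cons_of_mem _ (List.mem_cons_of_mem _ (List.mem_cons_of_mem _ (List.mem_cons_of_mem _ (List.mem_cons_of_mem _ (List.mem_cons_of_mem _ (List.mem_cons_of_mem _ (List.mem_cons_of_mem _ (List.mem_cons_of_mem _ (List.mem_cons_self))))))))))))))))))))))))))))))))))))))))))))))))))))))))))))))))))),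 ?_⟩, by norm_num⟩
  constructor <;> norm_num [Q67, coCell, P3C8]

lemma lP3C8 : ∀ x1 x2 xc : ℝ, 0 ≤ x1 → x1 ≤ 1 → 0 ≤ x2 → x2 ≤ 1 → P3C8.l ≤ xc → xc ≤ P3C8.u →
    (5253 / 1024 : ℝ) * (1 - (1 - x1) ^ 4) + (2777 / 256 : ℝ) * (1 - (1 - x2) ^ 4) - (12 : ℝ) * (1 - (1 - xc) ^ 4) + (1 / 1073741824 : ℝ)
      ≤ - P3C8.a1 * x1 - P3C8.a2 * x2 + P3C8.e * xc + P3C8.f := by
  have h := cell_lines_delta 4 (α1 := (5253 / 1024 : ℝ)) (α2 := (2777 / 256 : ℝ)) (c := (12 : ℝ)) (y1 := (575 / 4096 : ℝ)) (y2 := (20317 / 131072 : ℝ))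
    (A1 := (54669559 / 4194304 : ℝ)) (B1 := (33487657 / 67108864 : ℝ)) (A2 := (27450867 / 1048576 : ℝ)) (B2 := (84517123 / 67108864 : ℝ)) (l := (46491 / 262144 : ℝ)) (u := (47885 / 262144 : ℝ))
    (E := (-111002985 / 4194304 : ℝ)) (F := (-121498271 / 67108864 : ℝ)) (δ := (1 / 1073741824 : ℝ)) (by norm_num) (by norm_num) (by norm_num) (by norm_num) (by norm_num)
    (by norm_num) (by norm_num) (by norm_num) (by norm_num) (by norm_num) (by norm_num) (by norm_num) (by norm_num) (by norm_num) (by norm_num)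
  have e1 : P3C8.l = (46491 / 262144 : ℝ) := rfl
  have e2 : P3C8.u = (47885 / 262144 : ℝ) := rfl
  have e3 : P3C8.a1 = -(54669559 / 4194304 : ℝ) := by norm_num [P3C8]
  have e4 : P3C8.a2 = -(27450867 / 1048576 : ℝ) := by norm_num [P3C8]
  have e5 : P3C8.e = (-111002985 / 4194304 : ℝ) := rfl
  have e6 : P3C8.f = (33487657 / 67108864 : ℝ) + (84517123 / 67108864 : ℝ) + (-121498271 / 67108864 : ℝ) + (1 / 1073741824 : ℝ) := by norm_num [P3C8]
  rw [e1, e2, e3, e4, e5, e6]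
  exact h

lemma rP3C9 : ∃ N : ℝ, Rw4 P.r2 N (coCell (5253 / 1024 : ℝ) (2777 / 256 : ℝ) (12 : ℝ) 0 P3C9) := by
  refine ⟨(3221225472 : ℝ), ⟨Q68, List.mem_cons_of_mem _ (List.mem_cons_of_mem _ (List.mem_cons_of_mem _ (List.mem_cons_of_mem _ (List.mem_cons_of_mem _ (List.mem_cons_of_mem _ (List.mem_cons_of_mem _ (List.mem_cons_of_mem _ (List.mem_cons_of_mem _ (List.mem_cons_of_mem _ (List.mem_cons_of_mem _ (List.mem_cons_of_mem _ (List.mem_cons_of_mem _ (List.mem_cons_of_mem _ (List.mem_cons_of_mem _ (List.mem_cons_of_mem _ (List.mem_cons_of_mem _ (List.mem_cons_of_mem _ (List.mem_cons_of_mem _ (List.mem_cons_of_mem _ (List.mem_cons_of_mem _ (List.mem_cons_of_mem _ (List.mem_cons_of_mem _ (List.mem_cons_of_mem _ (List.mem_cons_of_mem _ (List.mem_cons_of_mem _ (List.mem_cons_of_mem _ (List.mem_cons_of_mem _ (List.mem_cons_of_mem _ (List.mem_cons_of_mem _ (List.mem_cons_of_mem _ (List.mem_cons_of_mem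 _ (List.mem_cons_of_mem _ (List.mem_cons_of_mem _ (List.mem_cons_of_mem _ (List.mem_cons_of_mem _ (List.mem_cons_of_mem _ (List.mem_cons_of_mem _ (List.mem_cons_of_mem _ (List.mem_cons_of_mem _ (List.mem_cons_of_mem _ (List.mem_cons_of_mem _ (List.mem_cons_of_mem _ (List.mem_cons_of_mem _ (List.mem_cons_of_mem _ (List.mem_cons_of_mem _ (List.mem_cons_of_mem _ (List.mem_cons_of_mem _ (List.mem_cons_of_mem _ (List.mem_cons_of_mem _ (List.mem_cons_of_mem _ (List.mem_cons_of_mem _ (List.mem_cons_of_mem _ (List.mem_cons_of_mem _ (List.mem_cons_of_mem _ (List.mem_cons_of_mem _ (List.mem_cons_of_mem _ (List.mem_cons_of_mem _ (List.mem_cons_of_mem _ (List.mem_cons_of_mem _ (List.mem_cons_of_mem _ (List.mem_cons_of_mem _ (List.mem_cons_of_mem _ (List.mem_cons_of_mem _ (List.mem_cons_of_mem _ (List.mem_cons_of_mem _ (List.mem_cons_of_mem _ (List.mem_cons_of_mem _ (List.mem_cons_self)))))))))))))))))))))))))))))))))))))))))))))))))))))))))))))))))))),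 ?_⟩, by norm_num⟩
  constructor <;> norm_num [Q68, coCell, P3C9]

lemma lP3C9 : ∀ x1 x2 xc : ℝ, 0 ≤ x1 → x1 ≤ 1 → 0 ≤ x2 → x2 ≤ 1 → P3C9.l ≤ xc → xc ≤ P3C9.u →
    (5253 / 1024 : ℝ) * (1 - (1 - x1) ^ 4) + (2777 / 256 : ℝ) * (1 - (1 - x2) ^ 4) - (12 : ℝ) * (1 - (1 - xc) ^ 4) + (1 / 1073741824 : ℝ)
      ≤ - P3C9.a1 * x1 - P3C9.a2 * x2 + P3C9.e * xc + P3C9.f := by
  have h := cell_lines_delta 4 (α1 := (5253 / 1024 : ℝ)) (α2 := (2777 / 256 : ℝ)) (c := (12 : ℝ)) (y1 := (9169 / 65536 : ℝ)) (y2 := (42415 / 262144 : ℝ))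
    (A1 := (27379929 / 2097152 : ℝ)) (B1 := (16642589 / 33554432 : ℝ)) (A2 := (107176157 / 4194304 : ℝ)) (B2 := (364702173 / 268435456 : ℝ)) (l := (47885 / 262144 : ℝ)) (u := (24661 / 131072 : ℝ))
    (E := (-108824595 / 4194304 : ℝ)) (F := (-511459931 / 268435456 : ℝ)) (δ := (1 / 1073741824 : ℝ)) (by norm_num) (by norm_num) (by norm_num) (by norm_num) (by norm_num)
    (by norm_num) (by norm_num) (by norm_num) (by norm_num) (by norm_num) (by norm_num) (by norm_num) (by norm_num) (by norm_num) (by norm_num)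
  have e1 : P3C9.l = (47885 / 262144 : ℝ) := rfl
  have e2 : P3C9.u = (24661 / 131072 : ℝ) := rfl
  have e3 : P3C9.a1 = -(27379929 / 2097152 : ℝ) := by norm_num [P3C9]
  have e4 : P3C9.a2 = -(107176157 / 4194304 : ℝ) := by norm_num [P3C9]
  have e5 : P3C9.e = (-108824595 / 4194304 : ℝ) := rfl
  have e6 : P3C9.f = (16642589 / 33554432 : ℝ) + (364702173 / 268435456 : ℝ) + (-511459931 / 268435456 : ℝ) + (1 / 1073741824 : ℝ) := by norm_num [P3C9]
  rw [e1, e2, e3, e4, e5, e6]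
  exact h

lemma rP3C10 : ∃ N : ℝ, Rw4 P.r2 N (coCell (5253 / 1024 : ℝ) (2777 / 256 : ℝ) (12 : ℝ) 0 P3C10) := by
  refine ⟨(3221225472 : ℝ), ⟨Q69, List.mem_cons_of_mem _ (List.mem_cons_of_mem _ (List.mem_cons_of_mem _ (List.mem_cons_of_mem _ (List.mem_cons_of_mem _ (List.mem_cons_of_mem _ (List.mem_cons_of_mem _ (List.mem_cons_of_mem _ (List.mem_cons_of_mem _ (List.mem_cons_of_mem _ (List.mem_cons_of_mem _ (List.mem_cons_of_mem _ (List.mem_cons_of_mem _ (List.mem_cons_of_mem _ (List.mem_cons_of_mem _ (List.mem_cons_of_mem _ (List.mem_cons_of_mem _ (List.mem_cons_of_mem _ (List.mem_cons_of_mem _ (List.mem_cons_of_mem _ (List.mem_cons_of_mem _ (List.mem_cons_of_mem _ (List.mem_cons_of_mem _ (List.mem_cons_of_mem _ (List.mem_cons_of_mem _ (List.mem_cons_of_mem _ (List.mem_cons_of_mem _ (List.mem_cons_of_mem _ (List.mem_cons_of_mem _ (List.mem_cons_of_mem _ (List.mem_cons_of_mem _ (List.mem_cons_of_mem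 _ (List.mem_cons_of_mem _ (List.mem_cons_of_mem _ (List.mem_cons_of_mem _ (List.mem_cons_of_mem _ (List.mem_cons_of_mem _ (List.mem_cons_of_mem _ (List.mem_cons_of_mem _ (List.mem_cons_of_mem _ (List.mem_cons_of_mem _ (List.mem_cons_of_mem _ (List.mem_cons_of_mem _ (List.mem_cons_of_mem _ (List.mem_cons_of_mem _ (List.mem_cons_of_mem _ (List.mem_cons_of_mem _ (List.mem_cons_of_mem _ (List.mem_cons_of_mem _ (List.mem_cons_of_mem _ (List.mem_cons_of_mem _ (List.mem_cons_of_mem _ (List.mem_cons_of_mem _ (List.mem_cons_of_mem _ (List.mem_cons_of_mem _ (List.mem_cons_of_mem _ (List.mem_cons_of_mem _ (List.mem_cons_of_mem _ (List.mem_cons_of_mem _ (List.mem_cons_of_mem _ (List.mem_cons_of_mem _ (List.mem_cons_of_mem _ (List.mem_cons_of_mem _ (List.mem_cons_of_mem _ (List.mem_cons_of_mem _ (List.mem_cons_of_mem _ (List.mem_cons_of_mem _ (List.mem_cons_of_mem _ (List.mem_cons_of_mem _ (List.mem_cons_self))))))))))))))))))))))))))))))))))))))))))))))))))))))))))))))))))))),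 ?_⟩, by norm_num⟩
  constructor <;> norm_num [Q69, coCell, P3C10]

lemma lP3C10 : ∀ x1 x2 xc : ℝ, 0 ≤ x1 → x1 ≤ 1 → 0 ≤ x2 → x2 ≤ 1 → P3C10.l ≤ xc → xc ≤ P3C10.u →
    (5253 / 1024 : ℝ) * (1 - (1 - x1) ^ 4) + (2777 / 256 : ℝ) * (1 - (1 - x2) ^ 4) - (12 : ℝ) * (1 - (1 - xc) ^ 4) + (1 / 1073741824 : ℝ)
      ≤ - P3C10.a1 * x1 - P3C10.a2 * x2 + P3C10.e * xc + P3C10.f := by
  have h := cell_lines_delta 4 (α1 := (5253 / 1024 : ℝ)) (α2 := (2777 / 256 : ℝ)) (c := (12 : ℝ)) (y1 := (4621 / 32768 : ℝ)) (y2 := (22027 / 131072 : ℝ))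
    (A1 := (54547377 / 4194304 : ℝ)) (B1 := (135050877 / 268435456 : ℝ)) (A2 := (104795661 / 4194304 : ℝ)) (B2 := (48728477 / 33554432 : ℝ)) (l := (24661 / 131072 : ℝ)) (u := (25401 / 131072 : ℝ))
    (E := (-106610037 / 4194304 : ℝ)) (F := (-134531635 / 67108864 : ℝ)) (δ := (1 / 1073741824 : ℝ)) (by norm_num) (by norm_num) (by norm_num) (by norm_num) (by norm_num)
    (by norm_num) (by norm_num) (by norm_num) (by norm_num) (by norm_num) (by norm_num) (by norm_num) (by norm_num) (by norm_num) (by norm_num)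
  have e1 : P3C10.l = (24661 / 131072 : ℝ) := rfl
  have e2 : P3C10.u = (25401 / 131072 : ℝ) := rfl
  have e3 : P3C10.a1 = -(54547377 / 4194304 : ℝ) := by norm_num [P3C10]
  have e4 : P3C10.a2 = -(104795661 / 4194304 : ℝ) := by norm_num [P3C10]
  have e5 : P3C10.e = (-106610037 / 4194304 : ℝ) := rfl
  have e6 : P3C10.f = (135050877 / 268435456 : ℝ) + (48728477 / 33554432 : ℝ) + (-134531635 / 67108864 : ℝ) + (1 / 1073741824 : ℝ) := by norm_num [P3C10]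
  rw [e1, e2, e3, e4, e5, e6]
  exact h

lemma rP3C11 : ∃ N : ℝ, Rw4 P.r2 N (coCell (5253 / 1024 : ℝ) (2777 / 256 : ℝ) (12 : ℝ) 0 P3C11) := by
  refine ⟨(3221225472 : ℝ), ⟨Q70, List.mem_cons_of_mem _ (List.mem_cons_of_mem _ (List.mem_cons_of_mem _ (List.mem_cons_of_mem _ (List.mem_cons_of_mem _ (List.mem_cons_of_mem _ (List.mem_cons_of_mem _ (List.mem_cons_of_mem _ (List.mem_cons_of_mem _ (List.mem_cons_of_mem _ (List.mem_cons_of_mem _ (List.mem_cons_of_mem _ (List.mem_cons_of_mem _ (List.mem_cons_of_mem _ (List.mem_cons_of_mem _ (List.mem_cons_of_mem _ (List.mem_cons_of_mem _ (List.mem_cons_of_mem _ (List.mem_cons_of_mem _ (List.mem_cons_of_mem _ (List.mem_cons_of_mem _ (List.mem_cons_of_mem _ (List.mem_cons_of_mem _ (List.mem_cons_of_mem _ (List.mem_cons_of_mem _ (List.mem_cons_of_mem _ (List.mem_cons_of_mem _ (List.mem_cons_of_mem _ (List.mem_cons_of_mem _ (List.mem_cons_of_mem _ (List.mem_cons_of_mem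 _ (List.mem_cons_of_mem _ (List.mem_cons_of_mem _ (List.mem_cons_of_mem _ (List.mem_cons_of_mem _ (List.mem_cons_of_mem _ (List.mem_cons_of_mem _ (List.mem_cons_of_mem _ (List.mem_cons_of_mem _ (List.mem_cons_of_mem _ (List.mem_cons_of_mem _ (List.mem_cons_of_mem _ (List.mem_cons_of_mem _ (List.mem_cons_of_mem _ (List.mem_cons_of_mem _ (List.mem_cons_of_mem _ (List.mem_cons_of_mem _ (List.mem_cons_of_mem _ (List.mem_cons_of_mem _ (List.mem_cons_of_mem _ (List.mem_cons_of_mem _ (List.mem_cons_of_mem _ (List.mem_cons_of_mem _ (List.mem_cons_of_mem _ (List.mem_cons_of_mem _ (List.mem_cons_of_mem _ (List.mem_cons_of_mem _ (List.mem_cons_of_mem _ (List.mem_cons_of_mem _ (List.mem_cons_of_mem _ (List.mem_cons_of_mem _ (List.mem_cons_of_mem _ (List.mem_cons_of_mem _ (List.mem_cons_of_mem _ (List.mem_cons_of_mem _ (List.mem_cons_of_mem _ (List.mem_cons_of_mem _ (List.mem_cons_of_mem _ (List.mem_cons_of_mem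 _ (List.mem_cons_of_mem _ (List.mem_cons_self)))))))))))))))))))))))))))))))))))))))))))))))))))))))))))))))))))))), ?_⟩, by norm_num⟩
  constructor <;> norm_num [Q70, coCell, P3C11]

lemma lP3C11 : ∀ x1 x2 xc : ℝ, 0 ≤ x1 → x1 ≤ 1 → 0 ≤ x2 → x2 ≤ 1 → P3C11.l ≤ xc → xc ≤ P3C11.u →
    (5253 / 1024 : ℝ) * (1 - (1 - x1) ^ 4) + (2777 / 256 : ℝ) * (1 - (1 - x2) ^ 4) - (12 : ℝ) * (1 - (1 - xc) ^ 4) + (1 / 1073741824 : ℝ)
      ≤ - P3C11.a1 * x1 - P3C11.a2 * x2 + P3C11.e * xc + P3C11.f := by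
  have h := cell_lines_delta 4 (α1 := (5253 / 1024 : ℝ)) (α2 := (2777 / 256 : ℝ)) (c := (12 : ℝ)) (y1 := (37011 / 262144 : ℝ)) (y2 := (45895 / 262144 : ℝ))
    (A1 := (27258067 / 2097152 : ℝ)) (B1 := (135333001 / 268435456 : ℝ)) (A2 := (102164113 / 4194304 : ℝ)) (B2 := (418720805 / 268435456 : ℝ)) (l := (25401 / 131072 : ℝ)) (u := (52429 / 262144 : ℝ))
    (E := (-104284689 / 4194304 : ℝ)) (F := (-35435465 / 16777216 : ℝ)) (δ := (1 / 1073741824 : ℝ)) (by norm_num) (by norm_num) (by norm_num) (by norm_num) (by norm_num)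
    (by norm_num) (by norm_num) (by norm_num) (by norm_num) (by norm_num) (by norm_num) (by norm_num) (by norm_num) (by norm_num) (by norm_num)
  have e1 : P3C11.l = (25401 / 131072 : ℝ) := rfl
  have e2 : P3C11.u = (52429 / 262144 : ℝ) := rfl
  have e3 : P3C11.a1 = -(27258067 / 2097152 : ℝ) := by norm_num [P3C11]
  have e4 : P3C11.a2 = -(102164113 / 4194304 : ℝ) := by norm_num [P3C11]
  have e5 : P3C11.e = (-104284689 / 4194304 : ℝ) := rfl
  have e6 : P3C11.f = (135333001 / 268435456 : ℝ) + (418720805 / 268435456 : ℝ) + (-35435465 / 16777216 : ℝ) + (1 / 1073741824 : ℝ) := by norm_num [P3C11]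
  rw [e1, e2, e3, e4, e5, e6]
  exact h

/-- A link of the chain. -/
lemma link3 {lam : ℝ} (h0 : -(1 / 2) < lam) (h1 : lam < 1) (hB : BoxS lam P 0 HH 0 HH)
    (h : ∃ n, 1 - En 4 lam n mc ≤ (52429 / 262144 : ℝ)) : ∃ n, 1 - En 4 lam n mc ≤ (9175 / 65536 : ℝ) :=
  phase_of_box (by norm_num) h0 h1 hB (5253 / 1024 : ℝ) (2777 / 256 : ℝ) (12 : ℝ) (1 / 1073741824 : ℝ) (9175 / 65536 : ℝ) (52429 / 262144 : ℝ) (by norm_num) cellsP3 hcoverP3
    (forall_cons lP3C0 (forall_cons lP3C1 (forall_cons lP3C2 (forall_cons lP3C3 (forall_cons lP3C4 (forall_cons lP3C5 (forall_cons lP3C6 (forall_cons lP3C7 (forall_cons lP3C8 (forall_cons lP3C9 (forall_cons lP3C10 (forall_cons lP3C11 (forall_nil))))))))))))) (forall_cons rP3C0 (forall_cons rP3C1 (forall_cons rP3C2 (forall_cons rP3C3 (forall_cons rP3C4 (forall_cons rP3C5 (forall_cons rP3C6 (forall_cons rP3C7 (forall_cons rP3C8 (forall_cons rP3C9 (forall_cons rP3C10 (forall_cons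 rP3C11 (forall_nil))))))))))))) h

/-- A chord cell of a link. -/
noncomputable def P4C0 : Cell := ⟨(52429 / 262144 : ℝ), (27001 / 131072 : ℝ), (-61815419 / 4194304 : ℝ), (-48303373 / 2097152 : ℝ), (-101924969 / 4194304 : ℝ), (-114055979 / 1073741824 : ℝ)⟩

/-- A chord cell of a link. -/
noncomputable def P4C1 : Cell := ⟨(27001 / 131072 : ℝ), (27811 / 131072 : ℝ), (-30375277 / 2097152 : ℝ), (-47378019 / 2097152 : ℝ), (-24901587 / 1048576 : ℝ), (-111293071 / 1073741824 : ℝ)⟩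

/-- A chord cell of a link. -/
noncomputable def P4C2 : Cell := ⟨(27811 / 131072 : ℝ), (28645 / 131072 : ℝ), (-29952147 / 2097152 : ℝ), (-92705037 / 4194304 : ℝ), (-97255771 / 4194304 : ℝ), (-108782307 / 1073741824 : ℝ)⟩

/-- A chord cell of a link. -/
noncomputable def P4C3 : Cell := ⟨(28645 / 131072 : ℝ), (59009 / 262144 : ℝ), (-59034765 / 4194304 : ℝ), (-22660319 / 1048576 : ℝ), (-94873399 / 4194304 : ℝ), (-106315943 / 1073741824 : ℝ)⟩

/-- A chord cell of a link. -/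
noncomputable def P4C4 : Cell := ⟨(59009 / 262144 : ℝ), (60779 / 262144 : ℝ), (-29066279 / 2097152 : ℝ), (-11071283 / 524288 : ℝ), (-92460297 / 4194304 : ℝ), (-103768527 / 1073741824 : ℝ)⟩

/-- A chord cell of a link. -/
noncomputable def P4C5 : Cell := ⟨(60779 / 262144 : ℝ), (62603 / 262144 : ℝ), (-56692669 / 4194304 : ℝ), (-43440835 / 2097152 : ℝ), (-1406527 / 65536 : ℝ), (-100532563 / 1073741824 : ℝ)⟩

/-- A chord cell of a link. -/
noncomputable def P4C6 : Cell := ⟨(62603 / 262144 : ℝ), (64481 / 262144 : ℝ), (-3521125 / 262144 : ℝ), (-84429827 / 4194304 : ℝ), (-87547135 / 4194304 : ℝ), (-104115403 / 1073741824 : ℝ)⟩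

/-- A chord cell of a link. -/
noncomputable def P4C7 : Cell := ⟨(64481 / 262144 : ℝ), (66415 / 262144 : ℝ), (-27688113 / 2097152 : ℝ), (-82277023 / 4194304 : ℝ), (-85050811 / 4194304 : ℝ), (-99360271 / 1073741824 : ℝ)⟩

/-- A chord cell of a link. -/
noncomputable def P4C8 : Cell := ⟨(66415 / 262144 : ℝ), (8551 / 32768 : ℝ), (-27119369 / 2097152 : ℝ), (-80228887 / 4194304 : ℝ), (-41264641 / 2097152 : ℝ), (-94155843 / 1073741824 : ℝ)⟩

/-- A chord cell of a link. -/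
noncomputable def P4C9 : Cell := ⟨(8551 / 32768 : ℝ), (17615 / 65536 : ℝ), (-13280723 / 1048576 : ℝ), (-78164765 / 4194304 : ℝ), (-19996153 / 1048576 : ℝ), (-90344215 / 1073741824 : ℝ)⟩

/-- A chord cell of a link. -/
noncomputable def P4C10 : Cell := ⟨(17615 / 65536 : ℝ), (36287 / 131072 : ℝ), (-52019519 / 4194304 : ℝ), (-76083545 / 4194304 : ℝ), (-77419073 / 4194304 : ℝ), (-87422643 / 1073741824 : ℝ)⟩

/-- A chord cell of a link. -/
noncomputable def P4C11 : Cell := ⟨(36287 / 131072 : ℝ), (9175 / 32768 : ℝ), (-25694897 / 2097152 : ℝ), (-18631895 / 1048576 : ℝ), (-75639857 / 4194304 : ℝ), (-85548011 / 1073741824 : ℝ)⟩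

/-- The chord cells of a link. -/
noncomputable def cellsP4 : List Cell := [P4C0, P4C1, P4C2, P4C3, P4C4, P4C5, P4C6, P4C7, P4C8, P4C9, P4C10, P4C11]

lemma hcoverP4 : ∀ x : ℝ, (52429 / 262144 : ℝ) ≤ x → x ≤ (9175 / 32768 : ℝ) → ∃ D ∈ cellsP4, D.l ≤ x ∧ x ≤ D.u := by
  refine cover_of_chain ?_ (by norm_num [P4C0])
  simp only [ChainP, P4C0, P4C1, P4C2, P4C3, P4C4, P4C5, P4C6, P4C7, P4C8, P4C9, P4C10, P4C11]
  norm_num

lemma rP4C0 : ∃ N : ℝ, Rw4 P.r2 N (coCell (23839 / 4096 : ℝ) (42547 / 4096 : ℝ) (12 : ℝ) 0 P4C0) := by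
  refine ⟨(3221225472 : ℝ), ⟨Q71, List.mem_cons_of_mem _ (List.mem_cons_of_mem _ (List.mem_cons_of_mem _ (List.mem_cons_of_mem _ (List.mem_cons_of_mem _ (List.mem_cons_of_mem _ (List.mem_cons_of_mem _ (List.mem_cons_of_mem _ (List.mem_cons_of_mem _ (List.mem_cons_of_mem _ (List.mem_cons_of_mem _ (List.mem_cons_of_mem _ (List.mem_cons_of_mem _ (List.mem_cons_of_mem _ (List.mem_cons_of_mem _ (List.mem_cons_of_mem _ (List.mem_cons_of_mem _ (List.mem_cons_of_mem _ (List.mem_cons_of_mem _ (List.mem_cons_of_mem _ (List.mem_cons_of_mem _ (List.mem_cons_of_mem _ (List.mem_cons_of_mem _ (List.mem_cons_of_mem _ (List.mem_cons_of_mem _ (List.mem_cons_of_mem _ (List.mem_cons_of_mem _ (List.mem_cons_of_mem _ (List.mem_cons_of_mem _ (List.mem_cons_of_mem _ (List.mem_cons_of_mem _ (List.mem_cons_of_mem _ (List.mem_cons_of_mem _ (List.mem_cons_of_mem _ (List.mem_cons_of_mem _ (List.mem_cons_of_mem _ (List.mem_cons_of_mem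 _ (List.mem_cons_of_mem _ (List.mem_cons_of_mem _ (List.mem_cons_of_mem _ (List.mem_cons_of_mem _ (List.mem_cons_of_mem _ (List.mem_cons_of_mem _ (List.mem_cons_of_mem _ (List.mem_cons_of_mem _ (List.mem_cons_of_mem _ (List.mem_cons_of_mem _ (List.mem_cons_of_mem _ (List.mem_cons_of_mem _ (List.mem_cons_of_mem _ (List.mem_cons_of_mem _ (List.mem_cons_of_mem _ (List.mem_cons_of_mem _ (List.mem_cons_of_mem _ (List.mem_cons_of_mem _ (List.mem_cons_of_mem _ (List.mem_cons_of_mem _ (List.mem_cons_of_mem _ (List.mem_cons_of_mem _ (List.mem_cons_of_mem _ (List.mem_cons_of_mem _ (List.mem_cons_of_mem _ (List.mem_cons_of_mem _ (List.mem_cons_of_mem _ (List.mem_cons_of_mem _ (List.mem_cons_of_mem _ (List.mem_cons_of_mem _ (List.mem_cons_of_mem _ (List.mem_cons_of_mem _ (List.mem_cons_of_mem _ (List.mem_cons_of_mem _ (List.mem_cons_self))))))))))))))))))))))))))))))))))))))))))))))))))))))))))))))))))))))),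 ?_⟩, by norm_num⟩
  constructor <;> norm_num [Q71, coCell, P4C0]

lemma lP4C0 : ∀ x1 x2 xc : ℝ, 0 ≤ x1 → x1 ≤ 1 → 0 ≤ x2 → x2 ≤ 1 → P4C0.l ≤ xc → xc ≤ P4C0.u →
    (23839 / 4096 : ℝ) * (1 - (1 - x1) ^ 4) + (42547 / 4096 : ℝ) * (1 - (1 - x2) ^ 4) - (12 : ℝ) * (1 - (1 - xc) ^ 4) + (1 / 1073741824 : ℝ)
      ≤ - P4C0.a1 * x1 - P4C0.a2 * x2 + P4C0.e * xc + P4C0.f := by
  have h := cell_lines_delta 4 (α1 := (23839 / 4096 : ℝ)) (α2 := (42547 / 4096 : ℝ)) (c := (12 : ℝ)) (y1 := (18527 / 131072 : ℝ)) (y2 := (2925 / 16384 : ℝ))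
    (A1 := (61815419 / 4194304 : ℝ)) (B1 := (153861373 / 268435456 : ℝ)) (A2 := (48303373 / 2097152 : ℝ)) (B2 := (414796603 / 268435456 : ℝ)) (l := (52429 / 262144 : ℝ)) (u := (27001 / 131072 : ℝ))
    (E := (-101924969 / 4194304 : ℝ)) (F := (-597171971 / 268435456 : ℝ)) (δ := (1 / 1073741824 : ℝ)) (by norm_num) (by norm_num) (by norm_num) (by norm_num) (by norm_num)
    (by norm_num) (by norm_num) (by norm_num) (by norm_num) (by norm_num) (by norm_num) (by norm_num) (by norm_num) (by norm_num) (by norm_num)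
  have e1 : P4C0.l = (52429 / 262144 : ℝ) := rfl
  have e2 : P4C0.u = (27001 / 131072 : ℝ) := rfl
  have e3 : P4C0.a1 = -(61815419 / 4194304 : ℝ) := by norm_num [P4C0]
  have e4 : P4C0.a2 = -(48303373 / 2097152 : ℝ) := by norm_num [P4C0]
  have e5 : P4C0.e = (-101924969 / 4194304 : ℝ) := rfl
  have e6 : P4C0.f = (153861373 / 268435456 : ℝ) + (414796603 / 268435456 : ℝ) + (-597171971 / 268435456 : ℝ) + (1 / 1073741824 : ℝ) := by norm_num [P4C0]
  rw [e1, e2, e3, e4, e5, e6]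
  exact h

lemma rP4C1 : ∃ N : ℝ, Rw4 P.r2 N (coCell (23839 / 4096 : ℝ) (42547 / 4096 : ℝ) (12 : ℝ) 0 P4C1) := by
  refine ⟨(3221225472 : ℝ), ⟨Q72, List.mem_cons_of_mem _ (List.mem_cons_of_mem _ (List.mem_cons_of_mem _ (List.mem_cons_of_mem _ (List.mem_cons_of_mem _ (List.mem_cons_of_mem _ (List.mem_cons_of_mem _ (List.mem_cons_of_mem _ (List.mem_cons_of_mem _ (List.mem_cons_of_mem _ (List.mem_cons_of_mem _ (List.mem_cons_of_mem _ (List.mem_cons_of_mem _ (List.mem_cons_of_mem _ (List.mem_cons_of_mem _ (List.mem_cons_of_mem _ (List.mem_cons_of_mem _ (List.mem_cons_of_mem _ (List.mem_cons_of_mem _ (List.mem_cons_of_mem _ (List.mem_cons_of_mem _ (List.mem_cons_of_mem _ (List.mem_cons_of_mem _ (List.mem_cons_of_mem _ (List.mem_cons_of_mem _ (List.mem_cons_of_mem _ (List.mem_cons_of_mem _ (List.mem_cons_of_mem _ (List.mem_cons_of_mem _ (List.mem_cons_of_mem _ (List.mem_cons_of_mem _ (List.mem_cons_of_mem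 _ (List.mem_cons_of_mem _ (List.mem_cons_of_mem _ (List.mem_cons_of_mem _ (List.mem_cons_of_mem _ (List.mem_cons_of_mem _ (List.mem_cons_of_mem _ (List.mem_cons_of_mem _ (List.mem_cons_of_mem _ (List.mem_cons_of_mem _ (List.mem_cons_of_mem _ (List.mem_cons_of_mem _ (List.mem_cons_of_mem _ (List.mem_cons_of_mem _ (List.mem_cons_of_mem _ (List.mem_cons_of_mem _ (List.mem_cons_of_mem _ (List.mem_cons_of_mem _ (List.mem_cons_of_mem _ (List.mem_cons_of_mem _ (List.mem_cons_of_mem _ (List.mem_cons_of_mem _ (List.mem_cons_of_mem _ (List.mem_cons_of_mem _ (List.mem_cons_of_mem _ (List.mem_cons_of_mem _ (List.mem_cons_of_mem _ (List.mem_cons_of_mem _ (List.mem_cons_of_mem _ (List.mem_cons_of_mem _ (List.mem_cons_of_mem _ (List.mem_cons_of_mem _ (List.mem_cons_of_mem _ (List.mem_cons_of_mem _ (List.mem_cons_of_mem _ (List.mem_cons_of_mem _ (List.mem_cons_of_mem _ (List.mem_cons_of_mem _ (List.mem_cons_of_mem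 _ (List.mem_cons_of_mem _ (List.mem_cons_of_mem _ (List.mem_cons_self)))))))))))))))))))))))))))))))))))))))))))))))))))))))))))))))))))))))), ?_⟩, by norm_num⟩
  constructor <;> norm_num [Q72, coCell, P4C1]

lemma lP4C1 : ∀ x1 x2 xc : ℝ, 0 ≤ x1 → x1 ≤ 1 → 0 ≤ x2 → x2 ≤ 1 → P4C1.l ≤ xc → xc ≤ P4C1.u →
    (23839 / 4096 : ℝ) * (1 - (1 - x1) ^ 4) + (42547 / 4096 : ℝ) * (1 - (1 - x2) ^ 4) - (12 : ℝ) * (1 - (1 - xc) ^ 4) + (1 / 1073741824 : ℝ)
      ≤ - P4C1.a1 * x1 - P4C1.a2 * x2 + P4C1.e * xc + P4C1.f := by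
  have h := cell_lines_delta 4 (α1 := (23839 / 4096 : ℝ)) (α2 := (42547 / 4096 : ℝ)) (c := (12 : ℝ)) (y1 := (19177 / 131072 : ℝ)) (y2 := (6023 / 32768 : ℝ))
    (A1 := (30375277 / 2097152 : ℝ)) (B1 := (163663211 / 268435456 : ℝ)) (A2 := (47378019 / 2097152 : ℝ)) (B2 := (218127191 / 134217728 : ℝ)) (l := (27001 / 131072 : ℝ)) (u := (27811 / 131072 : ℝ))
    (E := (-24901587 / 1048576 : ℝ)) (F := (-627740861 / 268435456 : ℝ)) (δ := (1 / 1073741824 : ℝ)) (by norm_num) (by norm_num) (by norm_num) (by norm_num) (by norm_num)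
    (by norm_num) (by norm_num) (by norm_num) (by norm_num) (by norm_num) (by norm_num) (by norm_num) (by norm_num) (by norm_num) (by norm_num)
  have e1 : P4C1.l = (27001 / 131072 : ℝ) := rfl
  have e2 : P4C1.u = (27811 / 131072 : ℝ) := rfl
  have e3 : P4C1.a1 = -(30375277 / 2097152 : ℝ) := by norm_num [P4C1]
  have e4 : P4C1.a2 = -(47378019 / 2097152 : ℝ) := by norm_num [P4C1]
  have e5 : P4C1.e = (-24901587 / 1048576 : ℝ) := rfl
  have e6 : P4C1.f = (163663211 / 268435456 : ℝ) + (218127191 / 134217728 : ℝ) + (-627740861 / 268435456 : ℝ) + (1 / 1073741824 : ℝ) := by norm_num [P4C1]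
  rw [e1, e2, e3, e4, e5, e6]
  exact h

lemma rP4C2 : ∃ N : ℝ, Rw4 P.r2 N (coCell (23839 / 4096 : ℝ) (42547 / 4096 : ℝ) (12 : ℝ) 0 P4C2) := by
  refine ⟨(3221225472 : ℝ), ⟨Q73, List.mem_cons_of_mem _ (List.mem_cons_of_mem _ (List.mem_cons_of_mem _ (List.mem_cons_of_mem _ (List.mem_cons_of_mem _ (List.mem_cons_of_mem _ (List.mem_cons_of_mem _ (List.mem_cons_of_mem _ (List.mem_cons_of_mem _ (List.mem_cons_of_mem _ (List.mem_cons_of_mem _ (List.mem_cons_of_mem _ (List.mem_cons_of_mem _ (List.mem_cons_of_mem _ (List.mem_cons_of_mem _ (List.mem_cons_of_mem _ (List.mem_cons_of_mem _ (List.mem_cons_of_mem _ (List.mem_cons_of_mem _ (List.mem_cons_of_mem _ (List.mem_cons_of_mem _ (List.mem_cons_of_mem _ (List.mem_cons_of_mem _ (List.mem_cons_of_mem _ (List.mem_cons_of_mem _ (List.mem_cons_of_mem _ (List.mem_cons_of_mem _ (List.mem_cons_of_mem _ (List.mem_cons_of_mem _ (List.mem_cons_of_mem _ (List.mem_cons_of_mem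 _ (List.mem_cons_of_mem _ (List.mem_cons_of_mem _ (List.mem_cons_of_mem _ (List.mem_cons_of_mem _ (List.mem_cons_of_mem _ (List.mem_cons_of_mem _ (List.mem_cons_of_mem _ (List.mem_cons_of_mem _ (List.mem_cons_of_mem _ (List.mem_cons_of_mem _ (List.mem_cons_of_mem _ (List.mem_cons_of_mem _ (List.mem_cons_of_mem _ (List.mem_cons_of_mem _ (List.mem_cons_of_mem _ (List.mem_cons_of_mem _ (List.mem_cons_of_mem _ (List.mem_cons_of_mem _ (List.mem_cons_of_mem _ (List.mem_cons_of_mem _ (List.mem_cons_of_mem _ (List.mem_cons_of_mem _ (List.mem_cons_of_mem _ (List.mem_cons_of_mem _ (List.mem_cons_of_mem _ (List.mem_cons_of_mem _ (List.mem_cons_of_mem _ (List.mem_cons_of_mem _ (List.mem_cons_of_mem _ (List.mem_cons_of_mem _ (List.mem_cons_of_mem _ (List.mem_cons_of_mem _ (List.mem_cons_of_mem _ (List.mem_cons_of_mem _ (List.mem_cons_of_mem _ (List.mem_cons_of_mem _ (List.mem_cons_of_mem _ (List.mem_cons_of_mem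 _ (List.mem_cons_of_mem _ (List.mem_cons_of_mem _ (List.mem_cons_of_mem _ (List.mem_cons_of_mem _ (List.mem_cons_self))))))))))))))))))))))))))))))))))))))))))))))))))))))))))))))))))))))))), ?_⟩, by norm_num⟩
  constructor <;> norm_num [Q73, coCell, P4C2]

lemma lP4C2 : ∀ x1 x2 xc : ℝ, 0 ≤ x1 → x1 ≤ 1 → 0 ≤ x2 → x2 ≤ 1 → P4C2.l ≤ xc → xc ≤ P4C2.u →
    (23839 / 4096 : ℝ) * (1 - (1 - x1) ^ 4) + (42547 / 4096 : ℝ) * (1 - (1 - x2) ^ 4) - (12 : ℝ) * (1 - (1 - xc) ^ 4) + (1 / 1073741824 : ℝ)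
      ≤ - P4C2.a1 * x1 - P4C2.a2 * x2 + P4C2.e * xc + P4C2.f := by
  have h := cell_lines_delta 4 (α1 := (23839 / 4096 : ℝ)) (α2 := (42547 / 4096 : ℝ)) (c := (12 : ℝ)) (y1 := (19699 / 131072 : ℝ)) (y2 := (49739 / 262144 : ℝ))
    (A1 := (29952147 / 2097152 : ℝ)) (B1 := (171695085 / 268435456 : ℝ)) (A2 := (92705037 / 4194304 : ℝ)) (B2 := (230385035 / 134217728 : ℝ)) (l := (27811 / 131072 : ℝ)) (u := (28645 / 131072 : ℝ))
    (E := (-97255771 / 4194304 : ℝ)) (F := (-164915183 / 67108864 : ℝ)) (δ := (1 / 1073741824 : ℝ)) (by norm_num) (by norm_num) (by norm_num) (by norm_num) (by norm_num)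
    (by norm_num) (by norm_num) (by norm_num) (by norm_num) (by norm_num) (by norm_num) (by norm_num) (by norm_num) (by norm_num) (by norm_num)
  have e1 : P4C2.l = (27811 / 131072 : ℝ) := rfl
  have e2 : P4C2.u = (28645 / 131072 : ℝ) := rfl
  have e3 : P4C2.a1 = -(29952147 / 2097152 : ℝ) := by norm_num [P4C2]
  have e4 : P4C2.a2 = -(92705037 / 4194304 : ℝ) := by norm_num [P4C2]
  have e5 : P4C2.e = (-97255771 / 4194304 : ℝ) := rfl
  have e6 : P4C2.f = (171695085 / 268435456 : ℝ) + (230385035 / 134217728 : ℝ) + (-164915183 / 67108864 : ℝ) + (1 / 1073741824 : ℝ) := by norm_num [P4C2]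
  rw [e1, e2, e3, e4, e5, e6]
  exact h

lemma rP4C3 : ∃ N : ℝ, Rw4 P.r2 N (coCell (23839 / 4096 : ℝ) (42547 / 4096 : ℝ) (12 : ℝ) 0 P4C3) := by
  refine ⟨(3221225472 : ℝ), ⟨Q74, List.mem_cons_of_mem _ (List.mem_cons_of_mem _ (List.mem_cons_of_mem _ (List.mem_cons_of_mem _ (List.mem_cons_of_mem _ (List.mem_cons_of_mem _ (List.mem_cons_of_mem _ (List.mem_cons_of_mem _ (List.mem_cons_of_mem _ (List.mem_cons_of_mem _ (List.mem_cons_of_mem _ (List.mem_cons_of_mem _ (List.mem_cons_of_mem _ (List.mem_cons_of_mem _ (List.mem_cons_of_mem _ (List.mem_cons_of_mem _ (List.mem_cons_of_mem _ (List.mem_cons_of_mem _ (List.mem_cons_of_mem _ (List.mem_cons_of_mem _ (List.mem_cons_of_mem _ (List.mem_cons_of_mem _ (List.mem_cons_of_mem _ (List.mem_cons_of_mem _ (List.mem_cons_of_mem _ (List.mem_cons_of_mem _ (List.mem_cons_of_mem _ (List.mem_cons_of_mem _ (List.mem_cons_of_mem _ (List.mem_cons_of_mem _ (List.mem_cons_of_mem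 _ (List.mem_cons_of_mem _ (List.mem_cons_of_mem _ (List.mem_cons_of_mem _ (List.mem_cons_of_mem _ (List.mem_cons_of_mem _ (List.mem_cons_of_mem _ (List.mem_cons_of_mem _ (List.mem_cons_of_mem _ (List.mem_cons_of_mem _ (List.mem_cons_of_mem _ (List.mem_cons_of_mem _ (List.mem_cons_of_mem _ (List.mem_cons_of_mem _ (List.mem_cons_of_mem _ (List.mem_cons_of_mem _ (List.mem_cons_of_mem _ (List.mem_cons_of_mem _ (List.mem_cons_of_mem _ (List.mem_cons_of_mem _ (List.mem_cons_of_mem _ (List.mem_cons_of_mem _ (List.mem_cons_of_mem _ (List.mem_cons_of_mem _ (List.mem_cons_of_mem _ (List.mem_cons_of_mem _ (List.mem_cons_of_mem _ (List.mem_cons_of_mem _ (List.mem_cons_of_mem _ (List.mem_cons_of_mem _ (List.mem_cons_of_mem _ (List.mem_cons_of_mem _ (List.mem_cons_of_mem _ (List.mem_cons_of_mem _ (List.mem_cons_of_mem _ (List.mem_cons_of_mem _ (List.mem_cons_of_mem _ (List.mem_cons_of_mem _ (List.mem_cons_of_mem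 _ (List.mem_cons_of_mem _ (List.mem_cons_of_mem _ (List.mem_cons_of_mem _ (List.mem_cons_of_mem _ (List.mem_cons_of_mem _ (List.mem_cons_self)))))))))))))))))))))))))))))))))))))))))))))))))))))))))))))))))))))))))), ?_⟩, by norm_num⟩
  constructor <;> norm_num [Q74, coCell, P4C3]

lemma lP4C3 : ∀ x1 x2 xc : ℝ, 0 ≤ x1 → x1 ≤ 1 → 0 ≤ x2 → x2 ≤ 1 → P4C3.l ≤ xc → xc ≤ P4C3.u →
    (23839 / 4096 : ℝ) * (1 - (1 - x1) ^ 4) + (42547 / 4096 : ℝ) * (1 - (1 - x2) ^ 4) - (12 : ℝ) * (1 - (1 - xc) ^ 4) + (1 / 1073741824 : ℝ)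
      ≤ - P4C3.a1 * x1 - P4C3.a2 * x2 + P4C3.e * xc + P4C3.f := by
  have h := cell_lines_delta 4 (α1 := (23839 / 4096 : ℝ)) (α2 := (42547 / 4096 : ℝ)) (c := (12 : ℝ)) (y1 := (40481 / 262144 : ℝ)) (y2 := (51327 / 262144 : ℝ))
    (A1 := (59034765 / 4194304 : ℝ)) (B1 := (180173529 / 268435456 : ℝ)) (A2 := (22660319 / 1048576 : ℝ)) (B2 := (486230017 / 268435456 : ℝ)) (l := (28645 / 131072 : ℝ)) (u := (59009 / 262144 : ℝ))
    (E := (-94873399 / 4194304 : ℝ)) (F := (-173245633 / 67108864 : ℝ)) (δ := (1 / 1073741824 : ℝ)) (by norm_num) (by norm_num) (by norm_num) (by norm_num) (by norm_num)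
    (by norm_num) (by norm_num) (by norm_num) (by norm_num) (by norm_num) (by norm_num) (by norm_num) (by norm_num) (by norm_num) (by norm_num)
  have e1 : P4C3.l = (28645 / 131072 : ℝ) := rfl
  have e2 : P4C3.u = (59009 / 262144 : ℝ) := rfl
  have e3 : P4C3.a1 = -(59034765 / 4194304 : ℝ) := by norm_num [P4C3]
  have e4 : P4C3.a2 = -(22660319 / 1048576 : ℝ) := by norm_num [P4C3]
  have e5 : P4C3.e = (-94873399 / 4194304 : ℝ) := rfl
  have e6 : P4C3.f = (180173529 / 268435456 : ℝ) + (486230017 / 268435456 : ℝ) + (-173245633 / 67108864 : ℝ) + (1 / 1073741824 : ℝ) := by norm_num [P4C3]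
  rw [e1, e2, e3, e4, e5, e6]
  exact h

lemma rP4C4 : ∃ N : ℝ, Rw4 P.r2 N (coCell (23839 / 4096 : ℝ) (42547 / 4096 : ℝ) (12 : ℝ) 0 P4C4) := by
  refine ⟨(3221225472 : ℝ), ⟨Q75, List.mem_cons_of_mem _ (List.mem_cons_of_mem _ (List.mem_cons_of_mem _ (List.mem_cons_of_mem _ (List.mem_cons_of_mem _ (List.mem_cons_of_mem _ (List.mem_cons_of_mem _ (List.mem_cons_of_mem _ (List.mem_cons_of_mem _ (List.mem_cons_of_mem _ (List.mem_cons_of_mem _ (List.mem_cons_of_mem _ (List.mem_cons_of_mem _ (List.mem_cons_of_mem _ (List.mem_cons_of_mem _ (List.mem_cons_of_mem _ (List.mem_cons_of_mem _ (List.mem_cons_of_mem _ (List.mem_cons_of_mem _ (List.mem_cons_of_mem _ (List.mem_cons_of_mem _ (List.mem_cons_of_mem _ (List.mem_cons_of_mem _ (List.mem_cons_of_mem _ (List.mem_cons_of_mem _ (List.mem_cons_of_mem _ (List.mem_cons_of_mem _ (List.mem_cons_of_mem _ (List.mem_cons_of_mem _ (List.mem_cons_of_mem _ (List.mem_cons_of_mem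 _ (List.mem_cons_of_mem _ (List.mem_cons_of_mem _ (List.mem_cons_of_mem _ (List.mem_cons_of_mem _ (List.mem_cons_of_mem _ (List.mem_cons_of_mem _ (List.mem_cons_of_mem _ (List.mem_cons_of_mem _ (List.mem_cons_of_mem _ (List.mem_cons_of_mem _ (List.mem_cons_of_mem _ (List.mem_cons_of_mem _ (List.mem_cons_of_mem _ (List.mem_cons_of_mem _ (List.mem_cons_of_mem _ (List.mem_cons_of_mem _ (List.mem_cons_of_mem _ (List.mem_cons_of_mem _ (List.mem_cons_of_mem _ (List.mem_cons_of_mem _ (List.mem_cons_of_mem _ (List.mem_cons_of_mem _ (List.mem_cons_of_mem _ (List.mem_cons_of_mem _ (List.mem_cons_of_mem _ (List.mem_cons_of_mem _ (List.mem_cons_of_mem _ (List.mem_cons_of_mem _ (List.mem_cons_of_mem _ (List.mem_cons_of_mem _ (List.mem_cons_of_mem _ (List.mem_cons_of_mem _ (List.mem_cons_of_mem _ (List.mem_cons_of_mem _ (List.mem_cons_of_mem _ (List.mem_cons_of_mem _ (List.mem_cons_of_mem _ (List.mem_cons_of_mem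 _ (List.mem_cons_of_mem _ (List.mem_cons_of_mem _ (List.mem_cons_of_mem _ (List.mem_cons_of_mem _ (List.mem_cons_of_mem _ (List.mem_cons_of_mem _ (List.mem_cons_self))))))))))))))))))))))))))))))))))))))))))))))))))))))))))))))))))))))))))), ?_⟩, by norm_num⟩
  constructor <;> norm_num [Q75, coCell, P4C4]

lemma lP4C4 : ∀ x1 x2 xc : ℝ, 0 ≤ x1 → x1 ≤ 1 → 0 ≤ x2 → x2 ≤ 1 → P4C4.l ≤ xc → xc ≤ P4C4.u →
    (23839 / 4096 : ℝ) * (1 - (1 - x1) ^ 4) + (42547 / 4096 : ℝ) * (1 - (1 - x2) ^ 4) - (12 : ℝ) * (1 - (1 - xc) ^ 4) + (1 / 1073741824 : ℝ)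
      ≤ - P4C4.a1 * x1 - P4C4.a2 * x2 + P4C4.e * xc + P4C4.f := by
  have h := cell_lines_delta 4 (α1 := (23839 / 4096 : ℝ)) (α2 := (42547 / 4096 : ℝ)) (c := (12 : ℝ)) (y1 := (2601 / 16384 : ℝ)) (y2 := (52945 / 262144 : ℝ))
    (A1 := (29066279 / 2097152 : ℝ)) (B1 := (189214877 / 268435456 : ℝ)) (A2 := (11071283 / 524288 : ℝ)) (B2 := (512589863 / 268435456 : ℝ)) (l := (59009 / 262144 : ℝ)) (u := (60779 / 262144 : ℝ))
    (E := (-92460297 / 4194304 : ℝ)) (F := (-90968359 / 33554432 : ℝ)) (δ := (1 / 1073741824 : ℝ)) (by norm_num) (by norm_num) (by norm_num) (by norm_num) (by norm_num)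
    (by norm_num) (by norm_num) (by norm_num) (by norm_num) (by norm_num) (by norm_num) (by norm_num) (by norm_num) (by norm_num) (by norm_num)
  have e1 : P4C4.l = (59009 / 262144 : ℝ) := rfl
  have e2 : P4C4.u = (60779 / 262144 : ℝ) := rfl
  have e3 : P4C4.a1 = -(29066279 / 2097152 : ℝ) := by norm_num [P4C4]
  have e4 : P4C4.a2 = -(11071283 / 524288 : ℝ) := by norm_num [P4C4]
  have e5 : P4C4.e = (-92460297 / 4194304 : ℝ) := rfl
  have e6 : P4C4.f = (189214877 / 268435456 : ℝ) + (512589863 / 268435456 : ℝ) + (-90968359 / 33554432 : ℝ) + (1 / 1073741824 : ℝ) := by norm_num [P4C4]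
  rw [e1, e2, e3, e4, e5, e6]
  exact h

lemma rP4C5 : ∃ N : ℝ, Rw4 P.r2 N (coCell (23839 / 4096 : ℝ) (42547 / 4096 : ℝ) (12 : ℝ) 0 P4C5) := by
  refine ⟨(3221225472 : ℝ), ⟨Q76, List.mem_cons_of_mem _ (List.mem_cons_of_mem _ (List.mem_cons_of_mem _ (List.mem_cons_of_mem _ (List.mem_cons_of_mem _ (List.mem_cons_of_mem _ (List.mem_cons_of_mem _ (List.mem_cons_of_mem _ (List.mem_cons_of_mem _ (List.mem_cons_of_mem _ (List.mem_cons_of_mem _ (List.mem_cons_of_mem _ (List.mem_cons_of_mem _ (List.mem_cons_of_mem _ (List.mem_cons_of_mem _ (List.mem_cons_of_mem _ (List.mem_cons_of_mem _ (List.mem_cons_of_mem _ (List.mem_cons_of_mem _ (List.mem_cons_of_mem _ (List.mem_cons_of_mem _ (List.mem_cons_of_mem _ (List.mem_cons_of_mem _ (List.mem_cons_of_mem _ (List.mem_cons_of_mem _ (List.mem_cons_of_mem _ (List.mem_cons_of_mem _ (List.mem_cons_of_mem _ (List.mem_cons_of_mem _ (List.mem_cons_of_mem _ (List.mem_cons_of_mem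 _ (List.mem_cons_of_mem _ (List.mem_cons_of_mem _ (List.mem_cons_of_mem _ (List.mem_cons_of_mem _ (List.mem_cons_of_mem _ (List.mem_cons_of_mem _ (List.mem_cons_of_mem _ (List.mem_cons_of_mem _ (List.mem_cons_of_mem _ (List.mem_cons_of_mem _ (List.mem_cons_of_mem _ (List.mem_cons_of_mem _ (List.mem_cons_of_mem _ (List.mem_cons_of_mem _ (List.mem_cons_of_mem _ (List.mem_cons_of_mem _ (List.mem_cons_of_mem _ (List.mem_cons_of_mem _ (List.mem_cons_of_mem _ (List.mem_cons_of_mem _ (List.mem_cons_of_mem _ (List.mem_cons_of_mem _ (List.mem_cons_of_mem _ (List.mem_cons_of_mem _ (List.mem_cons_of_mem _ (List.mem_cons_of_mem _ (List.mem_cons_of_mem _ (List.mem_cons_of_mem _ (List.mem_cons_of_mem _ (List.mem_cons_of_mem _ (List.mem_cons_of_mem _ (List.mem_cons_of_mem _ (List.mem_cons_of_mem _ (List.mem_cons_of_mem _ (List.mem_cons_of_mem _ (List.mem_cons_of_mem _ (List.mem_cons_of_mem _ (List.mem_cons_of_mem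 _ (List.mem_cons_of_mem _ (List.mem_cons_of_mem _ (List.mem_cons_of_mem _ (List.mem_cons_of_mem _ (List.mem_cons_of_mem _ (List.mem_cons_of_mem _ (List.mem_cons_of_mem _ (List.mem_cons_self)))))))))))))))))))))))))))))))))))))))))))))))))))))))))))))))))))))))))))), ?_⟩, by norm_num⟩
  constructor <;> norm_num [Q76, coCell, P4C5]

lemma lP4C5 : ∀ x1 x2 xc : ℝ, 0 ≤ x1 → x1 ≤ 1 → 0 ≤ x2 → x2 ≤ 1 → P4C5.l ≤ xc → xc ≤ P4C5.u →
    (23839 / 4096 : ℝ) * (1 - (1 - x1) ^ 4) + (42547 / 4096 : ℝ) * (1 - (1 - x2) ^ 4) - (12 : ℝ) * (1 - (1 - xc) ^ 4) + (1 / 1073741824 : ℝ)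
      ≤ - P4C5.a1 * x1 - P4C5.a2 * x2 + P4C5.e * xc + P4C5.f := by
  have h := cell_lines_delta 4 (α1 := (23839 / 4096 : ℝ)) (α2 := (42547 / 4096 : ℝ)) (c := (12 : ℝ)) (y1 := (10863 / 65536 : ℝ)) (y2 := (54283 / 262144 : ℝ))
    (A1 := (56692669 / 4194304 : ℝ)) (B1 := (12760387 / 16777216 : ℝ)) (A2 := (43440835 / 2097152 : ℝ)) (B2 := (133672975 / 67108864 : ℝ)) (l := (60779 / 262144 : ℝ)) (u := (62603 / 262144 : ℝ))
    (E := (-1406527 / 65536 : ℝ)) (F := (-763991233 / 268435456 : ℝ)) (δ := (1 / 1073741824 : ℝ)) (by norm_num) (by norm_num) (by norm_num) (by norm_num) (by norm_num)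
    (by norm_num) (by norm_num) (by norm_num) (by norm_num) (by norm_num) (by norm_num) (by norm_num) (by norm_num) (by norm_num) (by norm_num)
  have e1 : P4C5.l = (60779 / 262144 : ℝ) := rfl
  have e2 : P4C5.u = (62603 / 262144 : ℝ) := rfl
  have e3 : P4C5.a1 = -(56692669 / 4194304 : ℝ) := by norm_num [P4C5]
  have e4 : P4C5.a2 = -(43440835 / 2097152 : ℝ) := by norm_num [P4C5]
  have e5 : P4C5.e = (-1406527 / 65536 : ℝ) := rfl
  have e6 : P4C5.f = (12760387 / 16777216 : ℝ) + (133672975 / 67108864 : ℝ) + (-763991233 / 268435456 : ℝ) + (1 / 1073741824 : ℝ) := by norm_num [P4C5]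
  rw [e1, e2, e3, e4, e5, e6]
  exact h

lemma rP4C6 : ∃ N : ℝ, Rw4 P.r2 N (coCell (23839 / 4096 : ℝ) (42547 / 4096 : ℝ) (12 : ℝ) 0 P4C6) := by
  refine ⟨(3221225472 : ℝ), ⟨Q77, List.mem_cons_of_mem _ (List.mem_cons_of_mem _ (List.mem_cons_of_mem _ (List.mem_cons_of_mem _ (List.mem_cons_of_mem _ (List.mem_cons_of_mem _ (List.mem_cons_of_mem _ (List.mem_cons_of_mem _ (List.mem_cons_of_mem _ (List.mem_cons_of_mem _ (List.mem_cons_of_mem _ (List.mem_cons_of_mem _ (List.mem_cons_of_mem _ (List.mem_cons_of_mem _ (List.mem_cons_of_mem _ (List.mem_cons_of_mem _ (List.mem_cons_of_mem _ (List.mem_cons_of_mem _ (List.mem_cons_of_mem _ (List.mem_cons_of_mem _ (List.mem_cons_of_mem _ (List.mem_cons_of_mem _ (List.mem_cons_of_mem _ (List.mem_cons_of_mem _ (List.mem_cons_of_mem _ (List.mem_cons_of_mem _ (List.mem_cons_of_mem _ (List.mem_cons_of_mem _ (List.mem_cons_of_mem _ (List.mem_cons_of_mem _ (List.mem_cons_of_mem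 _ (List.mem_cons_of_mem _ (List.mem_cons_of_mem _ (List.mem_cons_of_mem _ (List.mem_cons_of_mem _ (List.mem_cons_of_mem _ (List.mem_cons_of_mem _ (List.mem_cons_of_mem _ (List.mem_cons_of_mem _ (List.mem_cons_of_mem _ (List.mem_cons_of_mem _ (List.mem_cons_of_mem _ (List.mem_cons_of_mem _ (List.mem_cons_of_mem _ (List.mem_cons_of_mem _ (List.mem_cons_of_mem _ (List.mem_cons_of_mem _ (List.mem_cons_of_mem _ (List.mem_cons_of_mem _ (List.mem_cons_of_mem _ (List.mem_cons_of_mem _ (List.mem_cons_of_mem _ (List.mem_cons_of_mem _ (List.mem_cons_of_mem _ (List.mem_cons_of_mem _ (List.mem_cons_of_mem _ (List.mem_cons_of_mem _ (List.mem_cons_of_mem _ (List.mem_cons_of_mem _ (List.mem_cons_of_mem _ (List.mem_cons_of_mem _ (List.mem_cons_of_mem _ (List.mem_cons_of_mem _ (List.mem_cons_of_mem _ (List.mem_cons_of_mem _ (List.mem_cons_of_mem _ (List.mem_cons_of_mem _ (List.mem_cons_of_mem _ (List.mem_cons_of_mem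 _ (List.mem_cons_of_mem _ (List.mem_cons_of_mem _ (List.mem_cons_of_mem _ (List.mem_cons_of_mem _ (List.mem_cons_of_mem _ (List.mem_cons_of_mem _ (List.mem_cons_of_mem _ (List.mem_cons_of_mem _ (List.mem_cons_self))))))))))))))))))))))))))))))))))))))))))))))))))))))))))))))))))))))))))))), ?_⟩, by norm_num⟩
  constructor <;> norm_num [Q77, coCell, P4C6]

lemma lP4C6 : ∀ x1 x2 xc : ℝ, 0 ≤ x1 → x1 ≤ 1 → 0 ≤ x2 → x2 ≤ 1 → P4C6.l ≤ xc → xc ≤ P4C6.u →
    (23839 / 4096 : ℝ) * (1 - (1 - x1) ^ 4) + (42547 / 4096 : ℝ) * (1 - (1 - x2) ^ 4) - (12 : ℝ) * (1 - (1 - xc) ^ 4) + (1 / 1073741824 : ℝ)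
      ≤ - P4C6.a1 * x1 - P4C6.a2 * x2 + P4C6.e * xc + P4C6.f := by
  have h := cell_lines_delta 4 (α1 := (23839 / 4096 : ℝ)) (α2 := (42547 / 4096 : ℝ)) (c := (12 : ℝ)) (y1 := (43909 / 262144 : ℝ)) (y2 := (56257 / 262144 : ℝ))
    (A1 := (3521125 / 262144 : ℝ)) (B1 := (207948425 / 268435456 : ℝ)) (A2 := (84429827 / 4194304 : ℝ)) (B2 := (567774341 / 268435456 : ℝ)) (l := (62603 / 262144 : ℝ)) (u := (64481 / 262144 : ℝ))
    (E := (-87547135 / 4194304 : ℝ)) (F := (-801751617 / 268435456 : ℝ)) (δ := (1 / 1073741824 : ℝ)) (by norm_num) (by norm_num) (by norm_num) (by norm_num) (by norm_num)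
    (by norm_num) (by norm_num) (by norm_num) (by norm_num) (by norm_num) (by norm_num) (by norm_num) (by norm_num) (by norm_num) (by norm_num)
  have e1 : P4C6.l = (62603 / 262144 : ℝ) := rfl
  have e2 : P4C6.u = (64481 / 262144 : ℝ) := rfl
  have e3 : P4C6.a1 = -(3521125 / 262144 : ℝ) := by norm_num [P4C6]
  have e4 : P4C6.a2 = -(84429827 / 4194304 : ℝ) := by norm_num [P4C6]
  have e5 : P4C6.e = (-87547135 / 4194304 : ℝ) := rfl
  have e6 : P4C6.f = (207948425 / 268435456 : ℝ) + (567774341 / 268435456 : ℝ) + (-801751617 / 268435456 : ℝ) + (1 / 1073741824 : ℝ) := by norm_num [P4C6]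
  rw [e1, e2, e3, e4, e5, e6]
  exact h

lemma rP4C7 : ∃ N : ℝ, Rw4 P.r2 N (coCell (23839 / 4096 : ℝ) (42547 / 4096 : ℝ) (12 : ℝ) 0 P4C7) := by
  refine ⟨(3221225472 : ℝ), ⟨Q78, List.mem_cons_of_mem _ (List.mem_cons_of_mem _ (List.mem_cons_of_mem _ (List.mem_cons_of_mem _ (List.mem_cons_of_mem _ (List.mem_cons_of_mem _ (List.mem_cons_of_mem _ (List.mem_cons_of_mem _ (List.mem_cons_of_mem _ (List.mem_cons_of_mem _ (List.mem_cons_of_mem _ (List.mem_cons_of_mem _ (List.mem_cons_of_mem _ (List.mem_cons_of_mem _ (List.mem_cons_of_mem _ (List.mem_cons_of_mem _ (List.mem_cons_of_mem _ (List.mem_cons_of_mem _ (List.mem_cons_of_mem _ (List.mem_cons_of_mem _ (List.mem_cons_of_mem _ (List.mem_cons_of_mem _ (List.mem_cons_of_mem _ (List.mem_cons_of_mem _ (List.mem_cons_of_mem _ (List.mem_cons_of_mem _ (List.mem_cons_of_mem _ (List.mem_cons_of_mem _ (List.mem_cons_of_mem _ (List.mem_cons_of_mem _ (List.mem_cons_of_mem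 _ (List.mem_cons_of_mem _ (List.mem_cons_of_mem _ (List.mem_cons_of_mem _ (List.mem_cons_of_mem _ (List.mem_cons_of_mem _ (List.mem_cons_of_mem _ (List.mem_cons_of_mem _ (List.mem_cons_of_mem _ (List.mem_cons_of_mem _ (List.mem_cons_of_mem _ (List.mem_cons_of_mem _ (List.mem_cons_of_mem _ (List.mem_cons_of_mem _ (List.mem_cons_of_mem _ (List.mem_cons_of_mem _ (List.mem_cons_of_mem _ (List.mem_cons_of_mem _ (List.mem_cons_of_mem _ (List.mem_cons_of_mem _ (List.mem_cons_of_mem _ (List.mem_cons_of_mem _ (List.mem_cons_of_mem _ (List.mem_cons_of_mem _ (List.mem_cons_of_mem _ (List.mem_cons_of_mem _ (List.mem_cons_of_mem _ (List.mem_cons_of_mem _ (List.mem_cons_of_mem _ (List.mem_cons_of_mem _ (List.mem_cons_of_mem _ (List.mem_cons_of_mem _ (List.mem_cons_of_mem _ (List.mem_cons_of_mem _ (List.mem_cons_of_mem _ (List.mem_cons_of_mem _ (List.mem_cons_of_mem _ (List.mem_cons_of_mem _ (List.mem_cons_of_mem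 _ (List.mem_cons_of_mem _ (List.mem_cons_of_mem _ (List.mem_cons_of_mem _ (List.mem_cons_of_mem _ (List.mem_cons_of_mem _ (List.mem_cons_of_mem _ (List.mem_cons_of_mem _ (List.mem_cons_of_mem _ (List.mem_cons_of_mem _ (List.mem_cons_self)))))))))))))))))))))))))))))))))))))))))))))))))))))))))))))))))))))))))))))), ?_⟩, by norm_num⟩
  constructor <;> norm_num [Q78, coCell, P4C7]

lemma lP4C7 : ∀ x1 x2 xc : ℝ, 0 ≤ x1 → x1 ≤ 1 → 0 ≤ x2 → x2 ≤ 1 → P4C7.l ≤ xc → xc ≤ P4C7.u →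
    (23839 / 4096 : ℝ) * (1 - (1 - x1) ^ 4) + (42547 / 4096 : ℝ) * (1 - (1 - x2) ^ 4) - (12 : ℝ) * (1 - (1 - xc) ^ 4) + (1 / 1073741824 : ℝ)
      ≤ - P4C7.a1 * x1 - P4C7.a2 * x2 + P4C7.e * xc + P4C7.f := by
  have h := cell_lines_delta 4 (α1 := (23839 / 4096 : ℝ)) (α2 := (42547 / 4096 : ℝ)) (c := (12 : ℝ)) (y1 := (22579 / 131072 : ℝ)) (y2 := (29011 / 131072 : ℝ))
    (A1 := (27688113 / 2097152 : ℝ)) (B1 := (1706289 / 2097152 : ℝ)) (A2 := (82277023 / 4194304 : ℝ)) (B2 := (298902383 / 134217728 : ℝ)) (l := (64481 / 262144 : ℝ)) (u := (66415 / 262144 : ℝ))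
    (E := (-85050811 / 4194304 : ℝ)) (F := (-420524913 / 134217728 : ℝ)) (δ := (1 / 1073741824 : ℝ)) (by norm_num) (by norm_num) (by norm_num) (by norm_num) (by norm_num)
    (by norm_num) (by norm_num) (by norm_num) (by norm_num) (by norm_num) (by norm_num) (by norm_num) (by norm_num) (by norm_num) (by norm_num)
  have e1 : P4C7.l = (64481 / 262144 : ℝ) := rfl
  have e2 : P4C7.u = (66415 / 262144 : ℝ) := rfl
  have e3 : P4C7.a1 = -(27688113 / 2097152 : ℝ) := by norm_num [P4C7]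
  have e4 : P4C7.a2 = -(82277023 / 4194304 : ℝ) := by norm_num [P4C7]
  have e5 : P4C7.e = (-85050811 / 4194304 : ℝ) := rfl
  have e6 : P4C7.f = (1706289 / 2097152 : ℝ) + (298902383 / 134217728 : ℝ) + (-420524913 / 134217728 : ℝ) + (1 / 1073741824 : ℝ) := by norm_num [P4C7]
  rw [e1, e2, e3, e4, e5, e6]
  exact h

lemma rP4C8 : ∃ N : ℝ, Rw4 P.r2 N (coCell (23839 / 4096 : ℝ) (42547 / 4096 : ℝ) (12 : ℝ) 0 P4C8) := by
  refine ⟨(3221225472 : ℝ), ⟨Q79, List.mem_cons_of_mem _ (List.mem_cons_of_mem _ (List.mem_cons_of_mem _ (List.mem_cons_of_mem _ (List.mem_cons_of_mem _ (List.mem_cons_of_mem _ (List.mem_cons_of_mem _ (List.mem_cons_of_mem _ (List.mem_cons_of_mem _ (List.mem_cons_of_mem _ (List.mem_cons_of_mem _ (List.mem_cons_of_mem _ (List.mem_cons_of_mem _ (List.mem_cons_of_mem _ (List.mem_cons_of_mem _ (List.mem_cons_of_mem _ (List.mem_cons_of_mem _ (List.mem_cons_of_mem _ (List.mem_cons_of_mem _ (List.mem_cons_of_mem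 _ (List.mem_cons_of_mem _ (List.mem_cons_of_mem _ (List.mem_cons_of_mem _ (List.mem_cons_of_mem _ (List.mem_cons_of_mem _ (List.mem_cons_of_mem _ (List.mem_cons_of_mem _ (List.mem_cons_of_mem _ (List.mem_cons_of_mem _ (List.mem_cons_of_mem _ (List.mem_cons_of_mem _ (List.mem_cons_of_mem _ (List.mem_cons_of_mem _ (List.mem_cons_of_mem _ (List.mem_cons_of_mem _ (List.mem_cons_of_mem _ (List.mem_cons_of_mem _ (List.mem_cons_of_mem _ (List.mem_cons_of_mem _ (List.mem_cons_of_mem _ (List.mem_cons_of_mem _ (List.mem_cons_of_mem _ (List.mem_cons_of_mem _ (List.mem_cons_of_mem _ (List.mem_cons_of_mem _ (List.mem_cons_of_mem _ (List.mem_cons_of_mem _ (List.mem_cons_of_mem _ (List.mem_cons_of_mem _ (List.mem_cons_of_mem _ (List.mem_cons_of_mem _ (List.mem_cons_of_mem _ (List.mem_cons_of_mem _ (List.mem_cons_of_mem _ (List.mem_cons_of_mem _ (List.mem_cons_of_mem _ (List.mem_cons_of_mem _ (List.mem_cons_of_mem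 _ (List.mem_cons_of_mem _ (List.mem_cons_of_mem _ (List.mem_cons_of_mem _ (List.mem_cons_of_mem _ (List.mem_cons_of_mem _ (List.mem_cons_of_mem _ (List.mem_cons_of_mem _ (List.mem_cons_of_mem _ (List.mem_cons_of_mem _ (List.mem_cons_of_mem _ (List.mem_cons_of_mem _ (List.mem_cons_of_mem _ (List.mem_cons_of_mem _ (List.mem_cons_of_mem _ (List.mem_cons_of_mem _ (List.mem_cons_of_mem _ (List.mem_cons_of_mem _ (List.mem_cons_of_mem _ (List.mem_cons_of_mem _ (List.mem_cons_of_mem _ (List.mem_cons_of_mem _ (List.mem_cons_self))))))))))))))))))))))))))))))))))))))))))))))))))))))))))))))))))))))))))))))), ?_⟩, by norm_num⟩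
  constructor <;> norm_num [Q79, coCell, P4C8]

lemma lP4C8 : ∀ x1 x2 xc : ℝ, 0 ≤ x1 → x1 ≤ 1 → 0 ≤ x2 → x2 ≤ 1 → P4C8.l ≤ xc → xc ≤ P4C8.u →
    (23839 / 4096 : ℝ) * (1 - (1 - x1) ^ 4) + (42547 / 4096 : ℝ) * (1 - (1 - x2) ^ 4) - (12 : ℝ) * (1 - (1 - xc) ^ 4) + (1 / 1073741824 : ℝ)
      ≤ - P4C8.a1 * x1 - P4C8.a2 * x2 + P4C8.e * xc + P4C8.f := by
  have h := cell_lines_delta 4 (α1 := (23839 / 4096 : ℝ)) (α2 := (42547 / 4096 : ℝ)) (c := (12 : ℝ)) (y1 := (23327 / 131072 : ℝ)) (y2 := (29865 / 131072 : ℝ))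
    (A1 := (27119369 / 2097152 : ℝ)) (B1 := (231152931 / 268435456 : ℝ)) (A2 := (80228887 / 4194304 : ℝ)) (B2 := (313621759 / 134217728 : ℝ)) (l := (66415 / 262144 : ℝ)) (u := (8551 / 32768 : ℝ))
    (E := (-41264641 / 2097152 : ℝ)) (F := (-440967705 / 134217728 : ℝ)) (δ := (1 / 1073741824 : ℝ)) (by norm_num) (by norm_num) (by norm_num) (by norm_num) (by norm_num)
    (by norm_num) (by norm_num) (by norm_num) (by norm_num) (by norm_num) (by norm_num) (by norm_num) (by norm_num) (by norm_num) (by norm_num)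
  have e1 : P4C8.l = (66415 / 262144 : ℝ) := rfl
  have e2 : P4C8.u = (8551 / 32768 : ℝ) := rfl
  have e3 : P4C8.a1 = -(27119369 / 2097152 : ℝ) := by norm_num [P4C8]
  have e4 : P4C8.a2 = -(80228887 / 4194304 : ℝ) := by norm_num [P4C8]
  have e5 : P4C8.e = (-41264641 / 2097152 : ℝ) := rfl
  have e6 : P4C8.f = (231152931 / 268435456 : ℝ) + (313621759 / 134217728 : ℝ) + (-440967705 / 134217728 : ℝ) + (1 / 1073741824 : ℝ) := by norm_num [P4C8]
  rw [e1, e2, e3, e4, e5, e6]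
  exact h

lemma rP4C9 : ∃ N : ℝ, Rw4 P.r2 N (coCell (23839 / 4096 : ℝ) (42547 / 4096 : ℝ) (12 : ℝ) 0 P4C9) := by
  refine ⟨(3221225472 : ℝ), ⟨Q80, List.mem_cons_of_mem _ (List.mem_cons_of_mem _ (List.mem_cons_of_mem _ (List.mem_cons_of_mem _ (List.mem_cons_of_mem _ (List.mem_cons_of_mem _ (List.mem_cons_of_mem _ (List.mem_cons_of_mem _ (List.mem_cons_of_mem _ (List.mem_cons_of_mem _ (List.mem_cons_of_mem _ (List.mem_cons_of_mem _ (List.mem_cons_of_mem _ (List.mem_cons_of_mem _ (List.mem_cons_of_mem _ (List.mem_cons_of_mem _ (List.mem_cons_of_mem _ (List.mem_cons_of_mem _ (List.mem_cons_of_mem _ (List.mem_cons_of_mem _ (List.mem_cons_of_mem _ (List.mem_cons_of_mem _ (List.mem_cons_of_mem _ (List.mem_cons_of_mem _ (List.mem_cons_of_mem _ (List.mem_cons_of_mem _ (List.mem_cons_of_mem _ (List.mem_cons_of_mem _ (List.mem_cons_of_mem _ (List.mem_cons_of_mem _ (List.mem_cons_of_mem _ (List.mem_cons_of_mem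 _ (List.mem_cons_of_mem _ (List.mem_cons_of_mem _ (List.mem_cons_of_mem _ (List.mem_cons_of_mem _ (List.mem_cons_of_mem _ (List.mem_cons_of_mem _ (List.mem_cons_of_mem _ (List.mem_cons_of_mem _ (List.mem_cons_of_mem _ (List.mem_cons_of_mem _ (List.mem_cons_of_mem _ (List.mem_cons_of_mem _ (List.mem_cons_of_mem _ (List.mem_cons_of_mem _ (List.mem_cons_of_mem _ (List.mem_cons_of_mem _ (List.mem_cons_of_mem _ (List.mem_cons_of_mem _ (List.mem_cons_of_mem _ (List.mem_cons_of_mem _ (List.mem_cons_of_mem _ (List.mem_cons_of_mem _ (List.mem_cons_of_mem _ (List.mem_cons_of_mem _ (List.mem_cons_of_mem _ (List.mem_cons_of_mem _ (List.mem_cons_of_mem _ (List.mem_cons_of_mem _ (List.mem_cons_of_mem _ (List.mem_cons_of_mem _ (List.mem_cons_of_mem _ (List.mem_cons_of_mem _ (List.mem_cons_of_mem _ (List.mem_cons_of_mem _ (List.mem_cons_of_mem _ (List.mem_cons_of_mem _ (List.mem_cons_of_mem _ (List.mem_cons_of_mem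 _ (List.mem_cons_of_mem _ (List.mem_cons_of_mem _ (List.mem_cons_of_mem _ (List.mem_cons_of_mem _ (List.mem_cons_of_mem _ (List.mem_cons_of_mem _ (List.mem_cons_of_mem _ (List.mem_cons_of_mem _ (List.mem_cons_of_mem _ (List.mem_cons_of_mem _ (List.mem_cons_self)))))))))))))))))))))))))))))))))))))))))))))))))))))))))))))))))))))))))))))))), ?_⟩, by norm_num⟩
  constructor <;> norm_num [Q80, coCell, P4C9]

lemma lP4C9 : ∀ x1 x2 xc : ℝ, 0 ≤ x1 → x1 ≤ 1 → 0 ≤ x2 → x2 ≤ 1 → P4C9.l ≤ xc → xc ≤ P4C9.u →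
    (23839 / 4096 : ℝ) * (1 - (1 - x1) ^ 4) + (42547 / 4096 : ℝ) * (1 - (1 - x2) ^ 4) - (12 : ℝ) * (1 - (1 - xc) ^ 4) + (1 / 1073741824 : ℝ)
      ≤ - P4C9.a1 * x1 - P4C9.a2 * x2 + P4C9.e * xc + P4C9.f := by
  have h := cell_lines_delta 4 (α1 := (23839 / 4096 : ℝ)) (α2 := (42547 / 4096 : ℝ)) (c := (12 : ℝ)) (y1 := (24071 / 131072 : ℝ)) (y2 := (61481 / 262144 : ℝ))
    (A1 := (13280723 / 1048576 : ℝ)) (B1 := (244064779 / 268435456 : ℝ)) (A2 := (78164765 / 4194304 : ℝ)) (B2 := (657783547 / 268435456 : ℝ)) (l := (8551 / 32768 : ℝ)) (u := (17615 / 65536 : ℝ))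
    (E := (-19996153 / 1048576 : ℝ)) (F := (-231108595 / 67108864 : ℝ)) (δ := (1 / 1073741824 : ℝ)) (by norm_num) (by norm_num) (by norm_num) (by norm_num) (by norm_num)
    (by norm_num) (by norm_num) (by norm_num) (by norm_num) (by norm_num) (by norm_num) (by norm_num) (by norm_num) (by norm_num) (by norm_num)
  have e1 : P4C9.l = (8551 / 32768 : ℝ) := rfl
  have e2 : P4C9.u = (17615 / 65536 : ℝ) := rfl
  have e3 : P4C9.a1 = -(13280723 / 1048576 : ℝ) := by norm_num [P4C9]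
  have e4 : P4C9.a2 = -(78164765 / 4194304 : ℝ) := by norm_num [P4C9]
  have e5 : P4C9.e = (-19996153 / 1048576 : ℝ) := rfl
  have e6 : P4C9.f = (244064779 / 268435456 : ℝ) + (657783547 / 268435456 : ℝ) + (-231108595 / 67108864 : ℝ) + (1 / 1073741824 : ℝ) := by norm_num [P4C9]
  rw [e1, e2, e3, e4, e5, e6]
  exact h

lemma rP4C10 : ∃ N : ℝ, Rw4 P.r2 N (coCell (23839 / 4096 : ℝ) (42547 / 4096 : ℝ) (12 : ℝ) 0 P4C10) := by
  refine ⟨(3221225472 : ℝ), ⟨Q81, List.mem_cons_of_mem _ (List.mem_cons_of_mem _ (List.mem_cons_of_mem _ (List.mem_cons_of_mem _ (List.mem_cons_of_mem _ (List.mem_cons_of_mem _ (List.mem_cons_of_mem _ (List.mem_cons_of_mem _ (List.mem_cons_of_mem _ (List.mem_cons_of_mem _ (List.mem_cons_of_mem _ (List.mem_cons_of_mem _ (List.mem_cons_of_mem _ (List.mem_cons_of_mem _ (List.mem_cons_of_mem _ (List.mem_cons_of_mem _ (List.mem_cons_of_mem _ (List.mem_cons_of_mem _ (List.mem_cons_of_mem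 _ (List.mem_cons_of_mem _ (List.mem_cons_of_mem _ (List.mem_cons_of_mem _ (List.mem_cons_of_mem _ (List.mem_cons_of_mem _ (List.mem_cons_of_mem _ (List.mem_cons_of_mem _ (List.mem_cons_of_mem _ (List.mem_cons_of_mem _ (List.mem_cons_of_mem _ (List.mem_cons_of_mem _ (List.mem_cons_of_mem _ (List.mem_cons_of_mem _ (List.mem_cons_of_mem _ (List.mem_cons_of_mem _ (List.mem_cons_of_mem _ (List.mem_cons_of_mem _ (List.mem_cons_of_mem _ (List.mem_cons_of_mem _ (List.mem_cons_of_mem _ (List.mem_cons_of_mem _ (List.mem_cons_of_mem _ (List.mem_cons_of_mem _ (List.mem_cons_of_mem _ (List.mem_cons_of_mem _ (List.mem_cons_of_mem _ (List.mem_cons_of_mem _ (List.mem_cons_of_mem _ (List.mem_cons_of_mem _ (List.mem_cons_of_mem _ (List.mem_cons_of_mem _ (List.mem_cons_of_mem _ (List.mem_cons_of_mem _ (List.mem_cons_of_mem _ (List.mem_cons_of_mem _ (List.mem_cons_of_mem _ (List.mem_cons_of_mem _ (List.mem_cons_of_mem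 _ (List.mem_cons_of_mem _ (List.mem_cons_of_mem _ (List.mem_cons_of_mem _ (List.mem_cons_of_mem _ (List.mem_cons_of_mem _ (List.mem_cons_of_mem _ (List.mem_cons_of_mem _ (List.mem_cons_of_mem _ (List.mem_cons_of_mem _ (List.mem_cons_of_mem _ (List.mem_cons_of_mem _ (List.mem_cons_of_mem _ (List.mem_cons_of_mem _ (List.mem_cons_of_mem _ (List.mem_cons_of_mem _ (List.mem_cons_of_mem _ (List.mem_cons_of_mem _ (List.mem_cons_of_mem _ (List.mem_cons_of_mem _ (List.mem_cons_of_mem _ (List.mem_cons_of_mem _ (List.mem_cons_of_mem _ (List.mem_cons_of_mem _ (List.mem_cons_of_mem _ (List.mem_cons_self))))))))))))))))))))))))))))))))))))))))))))))))))))))))))))))))))))))))))))))))), ?_⟩, by norm_num⟩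
  constructor <;> norm_num [Q81, coCell, P4C10]

lemma lP4C10 : ∀ x1 x2 xc : ℝ, 0 ≤ x1 → x1 ≤ 1 → 0 ≤ x2 → x2 ≤ 1 → P4C10.l ≤ xc → xc ≤ P4C10.u →
    (23839 / 4096 : ℝ) * (1 - (1 - x1) ^ 4) + (42547 / 4096 : ℝ) * (1 - (1 - x2) ^ 4) - (12 : ℝ) * (1 - (1 - xc) ^ 4) + (1 / 1073741824 : ℝ)
      ≤ - P4C10.a1 * x1 - P4C10.a2 * x2 + P4C10.e * xc + P4C10.f := by
  have h := cell_lines_delta 4 (α1 := (23839 / 4096 : ℝ)) (α2 := (42547 / 4096 : ℝ)) (c := (12 : ℝ)) (y1 := (24817 / 131072 : ℝ)) (y2 := (31639 / 131072 : ℝ))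
    (A1 := (52019519 / 4194304 : ℝ)) (B1 := (257233659 / 268435456 : ℝ)) (A2 := (76083545 / 4194304 : ℝ)) (B2 := (689477843 / 268435456 : ℝ)) (l := (17615 / 65536 : ℝ)) (u := (36287 / 131072 : ℝ))
    (E := (-77419073 / 4194304 : ℝ)) (F := (-968567163 / 268435456 : ℝ)) (δ := (1 / 1073741824 : ℝ)) (by norm_num) (by norm_num) (by norm_num) (by norm_num) (by norm_num)
    (by norm_num) (by norm_num) (by norm_num) (by norm_num) (by norm_num) (by norm_num) (by norm_num) (by norm_num) (by norm_num) (by norm_num)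
  have e1 : P4C10.l = (17615 / 65536 : ℝ) := rfl
  have e2 : P4C10.u = (36287 / 131072 : ℝ) := rfl
  have e3 : P4C10.a1 = -(52019519 / 4194304 : ℝ) := by norm_num [P4C10]
  have e4 : P4C10.a2 = -(76083545 / 4194304 : ℝ) := by norm_num [P4C10]
  have e5 : P4C10.e = (-77419073 / 4194304 : ℝ) := rfl
  have e6 : P4C10.f = (257233659 / 268435456 : ℝ) + (689477843 / 268435456 : ℝ) + (-968567163 / 268435456 : ℝ) + (1 / 1073741824 : ℝ) := by norm_num [P4C10]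
  rw [e1, e2, e3, e4, e5, e6]
  exact h

lemma rP4C11 : ∃ N : ℝ, Rw4 P.r2 N (coCell (23839 / 4096 : ℝ) (42547 / 4096 : ℝ) (12 : ℝ) 0 P4C11) := by
  refine ⟨(3221225472 : ℝ), ⟨Q82, List.mem_cons_of_mem _ (List.mem_cons_of_mem _ (List.mem_cons_of_mem _ (List.mem_cons_of_mem _ (List.mem_cons_of_mem _ (List.mem_cons_of_mem _ (List.mem_cons_of_mem _ (List.mem_cons_of_mem _ (List.mem_cons_of_mem _ (List.mem_cons_of_mem _ (List.mem_cons_of_mem _ (List.mem_cons_of_mem _ (List.mem_cons_of_mem _ (List.mem_cons_of_mem _ (List.mem_cons_of_mem _ (List.mem_cons_of_mem _ (List.mem_cons_of_mem _ (List.mem_cons_of_mem _ (List.mem_cons_of_mem _ (List.mem_cons_of_mem _ (List.mem_cons_of_mem _ (List.mem_cons_of_mem _ (List.mem_cons_of_mem _ (List.mem_cons_of_mem _ (List.mem_cons_of_mem _ (List.mem_cons_of_mem _ (List.mem_cons_of_mem _ (List.mem_cons_of_mem _ (List.mem_cons_of_mem _ (List.mem_cons_of_mem _ (List.mem_cons_of_mem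 _ (List.mem_cons_of_mem _ (List.mem_cons_of_mem _ (List.mem_cons_of_mem _ (List.mem_cons_of_mem _ (List.mem_cons_of_mem _ (List.mem_cons_of_mem _ (List.mem_cons_of_mem _ (List.mem_cons_of_mem _ (List.mem_cons_of_mem _ (List.mem_cons_of_mem _ (List.mem_cons_of_mem _ (List.mem_cons_of_mem _ (List.mem_cons_of_mem _ (List.mem_cons_of_mem _ (List.mem_cons_of_mem _ (List.mem_cons_of_mem _ (List.mem_cons_of_mem _ (List.mem_cons_of_mem _ (List.mem_cons_of_mem _ (List.mem_cons_of_mem _ (List.mem_cons_of_mem _ (List.mem_cons_of_mem _ (List.mem_cons_of_mem _ (List.mem_cons_of_mem _ (List.mem_cons_of_mem _ (List.mem_cons_of_mem _ (List.mem_cons_of_mem _ (List.mem_cons_of_mem _ (List.mem_cons_of_mem _ (List.mem_cons_of_mem _ (List.mem_cons_of_mem _ (List.mem_cons_of_mem _ (List.mem_cons_of_mem _ (List.mem_cons_of_mem _ (List.mem_cons_of_mem _ (List.mem_cons_of_mem _ (List.mem_cons_of_mem _ (List.mem_cons_of_mem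 _ (List.mem_cons_of_mem _ (List.mem_cons_of_mem _ (List.mem_cons_of_mem _ (List.mem_cons_of_mem _ (List.mem_cons_of_mem _ (List.mem_cons_of_mem _ (List.mem_cons_of_mem _ (List.mem_cons_of_mem _ (List.mem_cons_of_mem _ (List.mem_cons_of_mem _ (List.mem_cons_of_mem _ (List.mem_cons_of_mem _ (List.mem_cons_of_mem _ (List.mem_cons_self)))))))))))))))))))))))))))))))))))))))))))))))))))))))))))))))))))))))))))))))))), ?_⟩, by norm_num⟩
  constructor <;> norm_num [Q82, coCell, P4C11]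

lemma lP4C11 : ∀ x1 x2 xc : ℝ, 0 ≤ x1 → x1 ≤ 1 → 0 ≤ x2 → x2 ≤ 1 → P4C11.l ≤ xc → xc ≤ P4C11.u →
    (23839 / 4096 : ℝ) * (1 - (1 - x1) ^ 4) + (42547 / 4096 : ℝ) * (1 - (1 - x2) ^ 4) - (12 : ℝ) * (1 - (1 - xc) ^ 4) + (1 / 1073741824 : ℝ)
      ≤ - P4C11.a1 * x1 - P4C11.a2 * x2 + P4C11.e * xc + P4C11.f := by
  have h := cell_lines_delta 4 (α1 := (23839 / 4096 : ℝ)) (α2 := (42547 / 4096 : ℝ)) (c := (12 : ℝ)) (y1 := (50495 / 262144 : ℝ)) (y2 := (64643 / 262144 : ℝ))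
    (A1 := (25694897 / 2097152 : ℝ)) (B1 := (66232641 / 67108864 : ℝ)) (A2 := (18631895 / 1048576 : ℝ)) (B2 := (713774211 / 268435456 : ℝ)) (l := (36287 / 131072 : ℝ)) (u := (9175 / 32768 : ℝ))
    (E := (-75639857 / 4194304 : ℝ)) (F := (-500045889 / 134217728 : ℝ)) (δ := (1 / 1073741824 : ℝ)) (by norm_num) (by norm_num) (by norm_num) (by norm_num) (by norm_num)
    (by norm_num) (by norm_num) (by norm_num) (by norm_num) (by norm_num) (by norm_num) (by norm_num) (by norm_num) (by norm_num) (by norm_num)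
  have e1 : P4C11.l = (36287 / 131072 : ℝ) := rfl
  have e2 : P4C11.u = (9175 / 32768 : ℝ) := rfl
  have e3 : P4C11.a1 = -(25694897 / 2097152 : ℝ) := by norm_num [P4C11]
  have e4 : P4C11.a2 = -(18631895 / 1048576 : ℝ) := by norm_num [P4C11]
  have e5 : P4C11.e = (-75639857 / 4194304 : ℝ) := rfl
  have e6 : P4C11.f = (66232641 / 67108864 : ℝ) + (713774211 / 268435456 : ℝ) + (-500045889 / 134217728 : ℝ) + (1 / 1073741824 : ℝ) := by norm_num [P4C11]
  rw [e1, e2, e3, e4, e5, e6]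
  exact h

/-- A link of the chain. -/
lemma link4 {lam : ℝ} (h0 : -(1 / 2) < lam) (h1 : lam < 1) (hB : BoxS lam P 0 HH 0 HH)
    (h : ∃ n, 1 - En 4 lam n mc ≤ (9175 / 32768 : ℝ)) : ∃ n, 1 - En 4 lam n mc ≤ (52429 / 262144 : ℝ) :=
  phase_of_box (by norm_num) h0 h1 hB (23839 / 4096 : ℝ) (42547 / 4096 : ℝ) (12 : ℝ) (1 / 1073741824 : ℝ) (52429 / 262144 : ℝ) (9175 / 32768 : ℝ) (by norm_num) cellsP4 hcoverP4
    (forall_cons lP4C0 (forall_cons lP4C1 (forall_cons lP4C2 (forall_cons lP4C3 (forall_cons lP4C4 (forall_cons lP4C5 (forall_cons lP4C6 (forall_cons lP4C7 (forall_cons lP4C8 (forall_cons lP4C9 (forall_cons lP4C10 (forall_cons lP4C11 (forall_nil))))))))))))) (forall_cons rP4C0 (forall_cons rP4C1 (forall_cons rP4C2 (forall_cons rP4C3 (forall_cons rP4C4 (forall_cons rP4C5 (forall_cons rP4C6 (forall_cons rP4C7 (forall_cons rP4C8 (forall_cons rP4C9 (forall_cons rP4C10 (forall_cons rP4C11 (forall_nil)))))))))))))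 h

/-- A chord cell of a link. -/
noncomputable def P5C0 : Cell := ⟨(9175 / 32768 : ℝ), (4771 / 16384 : ℝ), (-74688287 / 4194304 : ℝ), (-31498053 / 2097152 : ℝ), (-73409867 / 4194304 : ℝ), (-228522751 / 1073741824 : ℝ)⟩

/-- A chord cell of a link. -/
noncomputable def P5C1 : Cell := ⟨(4771 / 16384 : ℝ), (39695 / 131072 : ℝ), (-72849245 / 4194304 : ℝ), (-60321693 / 4194304 : ℝ), (-17486097 / 1048576 : ℝ), (-222540703 / 1073741824 : ℝ)⟩

/-- A chord cell of a link. -/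
noncomputable def P5C2 : Cell := ⟨(39695 / 131072 : ℝ), (82565 / 262144 : ℝ), (-17663983 / 1048576 : ℝ), (-14475169 / 1048576 : ℝ), (-33229087 / 2097152 : ℝ), (-216863491 / 1073741824 : ℝ)⟩

/-- A chord cell of a link. -/
noncomputable def P5C3 : Cell := ⟨(82565 / 262144 : ℝ), (21467 / 65536 : ℝ), (-8515953 / 524288 : ℝ), (-55714809 / 4194304 : ℝ), (-62957579 / 4194304 : ℝ), (-210738583 / 1073741824 : ℝ)⟩

/-- A chord cell of a link. -/
noncomputable def P5C4 : Cell := ⟨(21467 / 65536 : ℝ), (89303 / 262144 : ℝ), (-65168199 / 4194304 : ℝ), (-53852009 / 4194304 : ℝ), (-7431157 / 524288 : ℝ), (-203971899 / 1073741824 : ℝ)⟩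

/-- A chord cell of a link. -/
noncomputable def P5C5 : Cell := ⟨(89303 / 262144 : ℝ), (92875 / 262144 : ℝ), (-64347679 / 4194304 : ℝ), (-6297071 / 524288 : ℝ), (-55941749 / 4194304 : ℝ), (-200306495 / 1073741824 : ℝ)⟩

/-- A chord cell of a link. -/
noncomputable def P5C6 : Cell := ⟨(92875 / 262144 : ℝ), (48295 / 131072 : ℝ), (-62228513 / 4194304 : ℝ), (-6033035 / 524288 : ℝ), (-52443383 / 4194304 : ℝ), (-225212527 / 1073741824 : ℝ)⟩

/-- A chord cell of a link. -/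
noncomputable def P5C7 : Cell := ⟨(48295 / 131072 : ℝ), (100453 / 262144 : ℝ), (-30519293 / 2097152 : ℝ), (-45788039 / 4194304 : ℝ), (-12240833 / 1048576 : ℝ), (-278857739 / 1073741824 : ℝ)⟩

/-- A chord cell of a link. -/
noncomputable def P5C8 : Cell := ⟨(100453 / 262144 : ℝ), (52429 / 131072 : ℝ), (-906469 / 65536 : ℝ), (-43568763 / 4194304 : ℝ), (-708553 / 65536 : ℝ), (-254042527 / 1073741824 : ℝ)⟩

/-- The chord cells of a link. -/
noncomputable def cellsP5 : List Cell := [P5C0, P5C1, P5C2, P5C3, P5C4, P5C5, P5C6, P5C7, P5C8]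

lemma hcoverP5 : ∀ x : ℝ, (9175 / 32768 : ℝ) ≤ x → x ≤ (52429 / 131072 : ℝ) → ∃ D ∈ cellsP5, D.l ≤ x ∧ x ≤ D.u := by
  refine cover_of_chain ?_ (by norm_num [P5C0])
  simp only [ChainP, P5C0, P5C1, P5C2, P5C3, P5C4, P5C5, P5C6, P5C7, P5C8]
  norm_num

lemma rP5C0 : ∃ N : ℝ, Rw4 P.r2 N (coCell (34211 / 4096 : ℝ) (2263 / 256 : ℝ) (12 : ℝ) 0 P5C0) := by
  refine ⟨(3221225472 : ℝ), ⟨Q83, List.mem_cons_of_mem _ (List.mem_cons_of_mem _ (List.mem_cons_of_mem _ (List.mem_cons_of_mem _ (List.mem_cons_of_mem _ (List.mem_cons_of_mem _ (List.mem_cons_of_mem _ (List.mem_cons_of_mem _ (List.mem_cons_of_mem _ (List.mem_cons_of_mem _ (List.mem_cons_of_mem _ (List.mem_cons_of_mem _ (List.mem_cons_of_mem _ (List.mem_cons_of_mem _ (List.mem_cons_of_mem _ (List.mem_cons_of_mem _ (List.mem_cons_of_mem _ (List.mem_cons_of_mem _ (List.mem_cons_of_mem _ (List.mem_cons_of_mem _ (List.mem_cons_of_mem _ (List.mem_cons_of_mem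 _ (List.mem_cons_of_mem _ (List.mem_cons_of_mem _ (List.mem_cons_of_mem _ (List.mem_cons_of_mem _ (List.mem_cons_of_mem _ (List.mem_cons_of_mem _ (List.mem_cons_of_mem _ (List.mem_cons_of_mem _ (List.mem_cons_of_mem _ (List.mem_cons_of_mem _ (List.mem_cons_of_mem _ (List.mem_cons_of_mem _ (List.mem_cons_of_mem _ (List.mem_cons_of_mem _ (List.mem_cons_of_mem _ (List.mem_cons_of_mem _ (List.mem_cons_of_mem _ (List.mem_cons_of_mem _ (List.mem_cons_of_mem _ (List.mem_cons_of_mem _ (List.mem_cons_of_mem _ (List.mem_cons_of_mem _ (List.mem_cons_of_mem _ (List.mem_cons_of_mem _ (List.mem_cons_of_mem _ (List.mem_cons_of_mem _ (List.mem_cons_of_mem _ (List.mem_cons_of_mem _ (List.mem_cons_of_mem _ (List.mem_cons_of_mem _ (List.mem_cons_of_mem _ (List.mem_cons_of_mem _ (List.mem_cons_of_mem _ (List.mem_cons_of_mem _ (List.mem_cons_of_mem _ (List.mem_cons_of_mem _ (List.mem_cons_of_mem _ (List.mem_cons_of_mem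 _ (List.mem_cons_of_mem _ (List.mem_cons_of_mem _ (List.mem_cons_of_mem _ (List.mem_cons_of_mem _ (List.mem_cons_of_mem _ (List.mem_cons_of_mem _ (List.mem_cons_of_mem _ (List.mem_cons_of_mem _ (List.mem_cons_of_mem _ (List.mem_cons_of_mem _ (List.mem_cons_of_mem _ (List.mem_cons_of_mem _ (List.mem_cons_of_mem _ (List.mem_cons_of_mem _ (List.mem_cons_of_mem _ (List.mem_cons_of_mem _ (List.mem_cons_of_mem _ (List.mem_cons_of_mem _ (List.mem_cons_of_mem _ (List.mem_cons_of_mem _ (List.mem_cons_of_mem _ (List.mem_cons_of_mem _ (List.mem_cons_of_mem _ (List.mem_cons_self))))))))))))))))))))))))))))))))))))))))))))))))))))))))))))))))))))))))))))))))))), ?_⟩, by norm_num⟩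
  constructor <;> norm_num [Q83, coCell, P5C0]

lemma lP5C0 : ∀ x1 x2 xc : ℝ, 0 ≤ x1 → x1 ≤ 1 → 0 ≤ x2 → x2 ≤ 1 → P5C0.l ≤ xc → xc ≤ P5C0.u →
    (34211 / 4096 : ℝ) * (1 - (1 - x1) ^ 4) + (2263 / 256 : ℝ) * (1 - (1 - x2) ^ 4) - (12 : ℝ) * (1 - (1 - xc) ^ 4) + (1 / 1073741824 : ℝ)
      ≤ - P5C0.a1 * x1 - P5C0.a2 * x2 + P5C0.e * xc + P5C0.f := by
  have h := cell_lines_delta 4 (α1 := (34211 / 4096 : ℝ)) (α2 := (2263 / 256 : ℝ)) (c := (12 : ℝ)) (y1 := (775 / 4096 : ℝ)) (y2 := (1017 / 4096 : ℝ))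
    (A1 := (74688287 / 4194304 : ℝ)) (B1 := (184359077 / 134217728 : ℝ)) (A2 := (31498053 / 2097152 : ℝ)) (B2 := (307102091 / 134217728 : ℝ)) (l := (9175 / 32768 : ℝ)) (u := (4771 / 16384 : ℝ))
    (E := (-73409867 / 4194304 : ℝ)) (F := (-32501657 / 8388608 : ℝ)) (δ := (1 / 1073741824 : ℝ)) (by norm_num) (by norm_num) (by norm_num) (by norm_num) (by norm_num)
    (by norm_num) (by norm_num) (by norm_num) (by norm_num) (by norm_num) (by norm_num) (by norm_num) (by norm_num) (by norm_num) (by norm_num)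
  have e1 : P5C0.l = (9175 / 32768 : ℝ) := rfl
  have e2 : P5C0.u = (4771 / 16384 : ℝ) := rfl
  have e3 : P5C0.a1 = -(74688287 / 4194304 : ℝ) := by norm_num [P5C0]
  have e4 : P5C0.a2 = -(31498053 / 2097152 : ℝ) := by norm_num [P5C0]
  have e5 : P5C0.e = (-73409867 / 4194304 : ℝ) := rfl
  have e6 : P5C0.f = (184359077 / 134217728 : ℝ) + (307102091 / 134217728 : ℝ) + (-32501657 / 8388608 : ℝ) + (1 / 1073741824 : ℝ) := by norm_num [P5C0]
  rw [e1, e2, e3, e4, e5, e6]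
  exact h

lemma rP5C1 : ∃ N : ℝ, Rw4 P.r2 N (coCell (34211 / 4096 : ℝ) (2263 / 256 : ℝ) (12 : ℝ) 0 P5C1) := by
  refine ⟨(3221225472 : ℝ), ⟨Q84, List.mem_cons_of_mem _ (List.mem_cons_of_mem _ (List.mem_cons_of_mem _ (List.mem_cons_of_mem _ (List.mem_cons_of_mem _ (List.mem_cons_of_mem _ (List.mem_cons_of_mem _ (List.mem_cons_of_mem _ (List.mem_cons_of_mem _ (List.mem_cons_of_mem _ (List.mem_cons_of_mem _ (List.mem_cons_of_mem _ (List.mem_cons_of_mem _ (List.mem_cons_of_mem _ (List.mem_cons_of_mem _ (List.mem_cons_of_mem _ (List.mem_cons_of_mem _ (List.mem_cons_of_mem _ (List.mem_cons_of_mem _ (List.mem_cons_of_mem _ (List.mem_cons_of_mem _ (List.mem_cons_of_mem _ (List.mem_cons_of_mem _ (List.mem_cons_of_mem _ (List.mem_cons_of_mem _ (List.mem_cons_of_mem _ (List.mem_cons_of_mem _ (List.mem_cons_of_mem _ (List.mem_cons_of_mem _ (List.mem_cons_of_mem _ (List.mem_cons_of_mem _ (List.mem_cons_of_mem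 _ (List.mem_cons_of_mem _ (List.mem_cons_of_mem _ (List.mem_cons_of_mem _ (List.mem_cons_of_mem _ (List.mem_cons_of_mem _ (List.mem_cons_of_mem _ (List.mem_cons_of_mem _ (List.mem_cons_of_mem _ (List.mem_cons_of_mem _ (List.mem_cons_of_mem _ (List.mem_cons_of_mem _ (List.mem_cons_of_mem _ (List.mem_cons_of_mem _ (List.mem_cons_of_mem _ (List.mem_cons_of_mem _ (List.mem_cons_of_mem _ (List.mem_cons_of_mem _ (List.mem_cons_of_mem _ (List.mem_cons_of_mem _ (List.mem_cons_of_mem _ (List.mem_cons_of_mem _ (List.mem_cons_of_mem _ (List.mem_cons_of_mem _ (List.mem_cons_of_mem _ (List.mem_cons_of_mem _ (List.mem_cons_of_mem _ (List.mem_cons_of_mem _ (List.mem_cons_of_mem _ (List.mem_cons_of_mem _ (List.mem_cons_of_mem _ (List.mem_cons_of_mem _ (List.mem_cons_of_mem _ (List.mem_cons_of_mem _ (List.mem_cons_of_mem _ (List.mem_cons_of_mem _ (List.mem_cons_of_mem _ (List.mem_cons_of_mem _ (List.mem_cons_of_mem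 _ (List.mem_cons_of_mem _ (List.mem_cons_of_mem _ (List.mem_cons_of_mem _ (List.mem_cons_of_mem _ (List.mem_cons_of_mem _ (List.mem_cons_of_mem _ (List.mem_cons_of_mem _ (List.mem_cons_of_mem _ (List.mem_cons_of_mem _ (List.mem_cons_of_mem _ (List.mem_cons_of_mem _ (List.mem_cons_of_mem _ (List.mem_cons_of_mem _ (List.mem_cons_of_mem _ (List.mem_cons_self)))))))))))))))))))))))))))))))))))))))))))))))))))))))))))))))))))))))))))))))))))), ?_⟩, by norm_num⟩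
  constructor <;> norm_num [Q84, coCell, P5C1]

lemma lP5C1 : ∀ x1 x2 xc : ℝ, 0 ≤ x1 → x1 ≤ 1 → 0 ≤ x2 → x2 ≤ 1 → P5C1.l ≤ xc → xc ≤ P5C1.u →
    (34211 / 4096 : ℝ) * (1 - (1 - x1) ^ 4) + (2263 / 256 : ℝ) * (1 - (1 - x2) ^ 4) - (12 : ℝ) * (1 - (1 - xc) ^ 4) + (1 / 1073741824 : ℝ)
      ≤ - P5C1.a1 * x1 - P5C1.a2 * x2 + P5C1.e * xc + P5C1.f := by
  have h := cell_lines_delta 4 (α1 := (34211 / 4096 : ℝ)) (α2 := (2263 / 256 : ℝ)) (c := (12 : ℝ)) (y1 := (51359 / 262144 : ℝ)) (y2 := (67917 / 262144 : ℝ))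
    (A1 := (72849245 / 4194304 : ℝ)) (B1 := (391381603 / 268435456 : ℝ)) (A2 := (60321693 / 4194304 : ℝ)) (B2 := (657621403 / 268435456 : ℝ)) (l := (4771 / 16384 : ℝ)) (u := (39695 / 131072 : ℝ))
    (E := (-17486097 / 1048576 : ℝ)) (F := (-552319091 / 134217728 : ℝ)) (δ := (1 / 1073741824 : ℝ)) (by norm_num) (by norm_num) (by norm_num) (by norm_num) (by norm_num)
    (by norm_num) (by norm_num) (by norm_num) (by norm_num) (by norm_num) (by norm_num) (by norm_num) (by norm_num) (by norm_num) (by norm_num)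
  have e1 : P5C1.l = (4771 / 16384 : ℝ) := rfl
  have e2 : P5C1.u = (39695 / 131072 : ℝ) := rfl
  have e3 : P5C1.a1 = -(72849245 / 4194304 : ℝ) := by norm_num [P5C1]
  have e4 : P5C1.a2 = -(60321693 / 4194304 : ℝ) := by norm_num [P5C1]
  have e5 : P5C1.e = (-17486097 / 1048576 : ℝ) := rfl
  have e6 : P5C1.f = (391381603 / 268435456 : ℝ) + (657621403 / 268435456 : ℝ) + (-552319091 / 134217728 : ℝ) + (1 / 1073741824 : ℝ) := by norm_num [P5C1]
  rw [e1, e2, e3, e4, e5, e6]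
  exact h

lemma rP5C2 : ∃ N : ℝ, Rw4 P.r2 N (coCell (34211 / 4096 : ℝ) (2263 / 256 : ℝ) (12 : ℝ) 0 P5C2) := by
  refine ⟨(3221225472 : ℝ), ⟨Q85, List.mem_cons_of_mem _ (List.mem_cons_of_mem _ (List.mem_cons_of_mem _ (List.mem_cons_of_mem _ (List.mem_cons_of_mem _ (List.mem_cons_of_mem _ (List.mem_cons_of_mem _ (List.mem_cons_of_mem _ (List.mem_cons_of_mem _ (List.mem_cons_of_mem _ (List.mem_cons_of_mem _ (List.mem_cons_of_mem _ (List.mem_cons_of_mem _ (List.mem_cons_of_mem _ (List.mem_cons_of_mem _ (List.mem_cons_of_mem _ (List.mem_cons_of_mem _ (List.mem_cons_of_mem _ (List.mem_cons_of_mem _ (List.mem_cons_of_mem _ (List.mem_cons_of_mem _ (List.mem_cons_of_mem _ (List.mem_cons_of_mem _ (List.mem_cons_of_mem _ (List.mem_cons_of_mem _ (List.mem_cons_of_mem _ (List.mem_cons_of_mem _ (List.mem_cons_of_mem _ (List.mem_cons_of_mem _ (List.mem_cons_of_mem _ (List.mem_cons_of_mem _ (List.mem_cons_of_mem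 _ (List.mem_cons_of_mem _ (List.mem_cons_of_mem _ (List.mem_cons_of_mem _ (List.mem_cons_of_mem _ (List.mem_cons_of_mem _ (List.mem_cons_of_mem _ (List.mem_cons_of_mem _ (List.mem_cons_of_mem _ (List.mem_cons_of_mem _ (List.mem_cons_of_mem _ (List.mem_cons_of_mem _ (List.mem_cons_of_mem _ (List.mem_cons_of_mem _ (List.mem_cons_of_mem _ (List.mem_cons_of_mem _ (List.mem_cons_of_mem _ (List.mem_cons_of_mem _ (List.mem_cons_of_mem _ (List.mem_cons_of_mem _ (List.mem_cons_of_mem _ (List.mem_cons_of_mem _ (List.mem_cons_of_mem _ (List.mem_cons_of_mem _ (List.mem_cons_of_mem _ (List.mem_cons_of_mem _ (List.mem_cons_of_mem _ (List.mem_cons_of_mem _ (List.mem_cons_of_mem _ (List.mem_cons_of_mem _ (List.mem_cons_of_mem _ (List.mem_cons_of_mem _ (List.mem_cons_of_mem _ (List.mem_cons_of_mem _ (List.mem_cons_of_mem _ (List.mem_cons_of_mem _ (List.mem_cons_of_mem _ (List.mem_cons_of_mem _ (List.mem_cons_of_mem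 _ (List.mem_cons_of_mem _ (List.mem_cons_of_mem _ (List.mem_cons_of_mem _ (List.mem_cons_of_mem _ (List.mem_cons_of_mem _ (List.mem_cons_of_mem _ (List.mem_cons_of_mem _ (List.mem_cons_of_mem _ (List.mem_cons_of_mem _ (List.mem_cons_of_mem _ (List.mem_cons_of_mem _ (List.mem_cons_of_mem _ (List.mem_cons_of_mem _ (List.mem_cons_of_mem _ (List.mem_cons_of_mem _ (List.mem_cons_self))))))))))))))))))))))))))))))))))))))))))))))))))))))))))))))))))))))))))))))))))))), ?_⟩, by norm_num⟩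
  constructor <;> norm_num [Q85, coCell, P5C2]

lemma lP5C2 : ∀ x1 x2 xc : ℝ, 0 ≤ x1 → x1 ≤ 1 → 0 ≤ x2 → x2 ≤ 1 → P5C2.l ≤ xc → xc ≤ P5C2.u →
    (34211 / 4096 : ℝ) * (1 - (1 - x1) ^ 4) + (2263 / 256 : ℝ) * (1 - (1 - x2) ^ 4) - (12 : ℝ) * (1 - (1 - xc) ^ 4) + (1 / 1073741824 : ℝ)
      ≤ - P5C2.a1 * x1 - P5C2.a2 * x2 + P5C2.e * xc + P5C2.f := by
  have h := cell_lines_delta 4 (α1 := (34211 / 4096 : ℝ)) (α2 := (2263 / 256 : ℝ)) (c := (12 : ℝ)) (y1 := (6687 / 32768 : ℝ)) (y2 := (70551 / 262144 : ℝ))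
    (A1 := (17663983 / 1048576 : ℝ)) (B1 := (419453351 / 268435456 : ℝ)) (A2 := (14475169 / 1048576 : ℝ)) (B2 := (43658743 / 16777216 : ℝ)) (l := (39695 / 131072 : ℝ)) (u := (82565 / 262144 : ℝ))
    (E := (-33229087 / 2097152 : ℝ)) (F := (-146526139 / 33554432 : ℝ)) (δ := (1 / 1073741824 : ℝ)) (by norm_num) (by norm_num) (by norm_num) (by norm_num) (by norm_num)
    (by norm_num) (by norm_num) (by norm_num) (by norm_num) (by norm_num) (by norm_num) (by norm_num) (by norm_num) (by norm_num) (by norm_num)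
  have e1 : P5C2.l = (39695 / 131072 : ℝ) := rfl
  have e2 : P5C2.u = (82565 / 262144 : ℝ) := rfl
  have e3 : P5C2.a1 = -(17663983 / 1048576 : ℝ) := by norm_num [P5C2]
  have e4 : P5C2.a2 = -(14475169 / 1048576 : ℝ) := by norm_num [P5C2]
  have e5 : P5C2.e = (-33229087 / 2097152 : ℝ) := rfl
  have e6 : P5C2.f = (419453351 / 268435456 : ℝ) + (43658743 / 16777216 : ℝ) + (-146526139 / 33554432 : ℝ) + (1 / 1073741824 : ℝ) := by norm_num [P5C2]
  rw [e1, e2, e3, e4, e5, e6]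
  exact h

lemma rP5C3 : ∃ N : ℝ, Rw4 P.r2 N (coCell (34211 / 4096 : ℝ) (2263 / 256 : ℝ) (12 : ℝ) 0 P5C3) := by
  refine ⟨(3221225472 : ℝ), ⟨Q86, List.mem_cons_of_mem _ (List.mem_cons_of_mem _ (List.mem_cons_of_mem _ (List.mem_cons_of_mem _ (List.mem_cons_of_mem _ (List.mem_cons_of_mem _ (List.mem_cons_of_mem _ (List.mem_cons_of_mem _ (List.mem_cons_of_mem _ (List.mem_cons_of_mem _ (List.mem_cons_of_mem _ (List.mem_cons_of_mem _ (List.mem_cons_of_mem _ (List.mem_cons_of_mem _ (List.mem_cons_of_mem _ (List.mem_cons_of_mem _ (List.mem_cons_of_mem _ (List.mem_cons_of_mem _ (List.mem_cons_of_mem _ (List.mem_cons_of_mem _ (List.mem_cons_of_mem _ (List.mem_cons_of_mem _ (List.mem_cons_of_mem _ (List.mem_cons_of_mem _ (List.mem_cons_of_mem _ (List.mem_cons_of_mem _ (List.mem_cons_of_mem _ (List.mem_cons_of_mem _ (List.mem_cons_of_mem _ (List.mem_cons_of_mem _ (List.mem_cons_of_mem _ (List.mem_cons_of_mem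 _ (List.mem_cons_of_mem _ (List.mem_cons_of_mem _ (List.mem_cons_of_mem _ (List.mem_cons_of_mem _ (List.mem_cons_of_mem _ (List.mem_cons_of_mem _ (List.mem_cons_of_mem _ (List.mem_cons_of_mem _ (List.mem_cons_of_mem _ (List.mem_cons_of_mem _ (List.mem_cons_of_mem _ (List.mem_cons_of_mem _ (List.mem_cons_of_mem _ (List.mem_cons_of_mem _ (List.mem_cons_of_mem _ (List.mem_cons_of_mem _ (List.mem_cons_of_mem _ (List.mem_cons_of_mem _ (List.mem_cons_of_mem _ (List.mem_cons_of_mem _ (List.mem_cons_of_mem _ (List.mem_cons_of_mem _ (List.mem_cons_of_mem _ (List.mem_cons_of_mem _ (List.mem_cons_of_mem _ (List.mem_cons_of_mem _ (List.mem_cons_of_mem _ (List.mem_cons_of_mem _ (List.mem_cons_of_mem _ (List.mem_cons_of_mem _ (List.mem_cons_of_mem _ (List.mem_cons_of_mem _ (List.mem_cons_of_mem _ (List.mem_cons_of_mem _ (List.mem_cons_of_mem _ (List.mem_cons_of_mem _ (List.mem_cons_of_mem _ (List.mem_cons_of_mem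 _ (List.mem_cons_of_mem _ (List.mem_cons_of_mem _ (List.mem_cons_of_mem _ (List.mem_cons_of_mem _ (List.mem_cons_of_mem _ (List.mem_cons_of_mem _ (List.mem_cons_of_mem _ (List.mem_cons_of_mem _ (List.mem_cons_of_mem _ (List.mem_cons_of_mem _ (List.mem_cons_of_mem _ (List.mem_cons_of_mem _ (List.mem_cons_of_mem _ (List.mem_cons_of_mem _ (List.mem_cons_of_mem _ (List.mem_cons_of_mem _ (List.mem_cons_self)))))))))))))))))))))))))))))))))))))))))))))))))))))))))))))))))))))))))))))))))))))), ?_⟩, by norm_num⟩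
  constructor <;> norm_num [Q86, coCell, P5C3]

lemma lP5C3 : ∀ x1 x2 xc : ℝ, 0 ≤ x1 → x1 ≤ 1 → 0 ≤ x2 → x2 ≤ 1 → P5C3.l ≤ xc → xc ≤ P5C3.u →
    (34211 / 4096 : ℝ) * (1 - (1 - x1) ^ 4) + (2263 / 256 : ℝ) * (1 - (1 - x2) ^ 4) - (12 : ℝ) * (1 - (1 - xc) ^ 4) + (1 / 1073741824 : ℝ)
      ≤ - P5C3.a1 * x1 - P5C3.a2 * x2 + P5C3.e * xc + P5C3.f := by
  have h := cell_lines_delta 4 (α1 := (34211 / 4096 : ℝ)) (α2 := (2263 / 256 : ℝ)) (c := (12 : ℝ)) (y1 := (56015 / 262144 : ℝ)) (y2 := (72993 / 262144 : ℝ))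
    (A1 := (8515953 / 524288 : ℝ)) (B1 := (14164023 / 8388608 : ℝ)) (A2 := (55714809 / 4194304 : ℝ)) (B2 := (736838871 / 268435456 : ℝ)) (l := (82565 / 262144 : ℝ)) (u := (21467 / 65536 : ℝ))
    (E := (-62957579 / 4194304 : ℝ)) (F := (-1242772253 / 268435456 : ℝ)) (δ := (1 / 1073741824 : ℝ)) (by norm_num) (by norm_num) (by norm_num) (by norm_num) (by norm_num)
    (by norm_num) (by norm_num) (by norm_num) (by norm_num) (by norm_num) (by norm_num) (by norm_num) (by norm_num) (by norm_num) (by norm_num)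
  have e1 : P5C3.l = (82565 / 262144 : ℝ) := rfl
  have e2 : P5C3.u = (21467 / 65536 : ℝ) := rfl
  have e3 : P5C3.a1 = -(8515953 / 524288 : ℝ) := by norm_num [P5C3]
  have e4 : P5C3.a2 = -(55714809 / 4194304 : ℝ) := by norm_num [P5C3]
  have e5 : P5C3.e = (-62957579 / 4194304 : ℝ) := rfl
  have e6 : P5C3.f = (14164023 / 8388608 : ℝ) + (736838871 / 268435456 : ℝ) + (-1242772253 / 268435456 : ℝ) + (1 / 1073741824 : ℝ) := by norm_num [P5C3]
  rw [e1, e2, e3, e4, e5, e6]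
  exact h

lemma rP5C4 : ∃ N : ℝ, Rw4 P.r2 N (coCell (34211 / 4096 : ℝ) (2263 / 256 : ℝ) (12 : ℝ) 0 P5C4) := by
  refine ⟨(3221225472 : ℝ), ⟨Q87, List.mem_cons_of_mem _ (List.mem_cons_of_mem _ (List.mem_cons_of_mem _ (List.mem_cons_of_mem _ (List.mem_cons_of_mem _ (List.mem_cons_of_mem _ (List.mem_cons_of_mem _ (List.mem_cons_of_mem _ (List.mem_cons_of_mem _ (List.mem_cons_of_mem _ (List.mem_cons_of_mem _ (List.mem_cons_of_mem _ (List.mem_cons_of_mem _ (List.mem_cons_of_mem _ (List.mem_cons_of_mem _ (List.mem_cons_of_mem _ (List.mem_cons_of_mem _ (List.mem_cons_of_mem _ (List.mem_cons_of_mem _ (List.mem_cons_of_mem _ (List.mem_cons_of_mem _ (List.mem_cons_of_mem _ (List.mem_cons_of_mem _ (List.mem_cons_of_mem _ (List.mem_cons_of_mem _ (List.mem_cons_of_mem _ (List.mem_cons_of_mem _ (List.mem_cons_of_mem _ (List.mem_cons_of_mem _ (List.mem_cons_of_mem _ (List.mem_cons_of_mem _ (List.mem_cons_of_mem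 _ (List.mem_cons_of_mem _ (List.mem_cons_of_mem _ (List.mem_cons_of_mem _ (List.mem_cons_of_mem _ (List.mem_cons_of_mem _ (List.mem_cons_of_mem _ (List.mem_cons_of_mem _ (List.mem_cons_of_mem _ (List.mem_cons_of_mem _ (List.mem_cons_of_mem _ (List.mem_cons_of_mem _ (List.mem_cons_of_mem _ (List.mem_cons_of_mem _ (List.mem_cons_of_mem _ (List.mem_cons_of_mem _ (List.mem_cons_of_mem _ (List.mem_cons_of_mem _ (List.mem_cons_of_mem _ (List.mem_cons_of_mem _ (List.mem_cons_of_mem _ (List.mem_cons_of_mem _ (List.mem_cons_of_mem _ (List.mem_cons_of_mem _ (List.mem_cons_of_mem _ (List.mem_cons_of_mem _ (List.mem_cons_of_mem _ (List.mem_cons_of_mem _ (List.mem_cons_of_mem _ (List.mem_cons_of_mem _ (List.mem_cons_of_mem _ (List.mem_cons_of_mem _ (List.mem_cons_of_mem _ (List.mem_cons_of_mem _ (List.mem_cons_of_mem _ (List.mem_cons_of_mem _ (List.mem_cons_of_mem _ (List.mem_cons_of_mem _ (List.mem_cons_of_mem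 _ (List.mem_cons_of_mem _ (List.mem_cons_of_mem _ (List.mem_cons_of_mem _ (List.mem_cons_of_mem _ (List.mem_cons_of_mem _ (List.mem_cons_of_mem _ (List.mem_cons_of_mem _ (List.mem_cons_of_mem _ (List.mem_cons_of_mem _ (List.mem_cons_of_mem _ (List.mem_cons_of_mem _ (List.mem_cons_of_mem _ (List.mem_cons_of_mem _ (List.mem_cons_of_mem _ (List.mem_cons_of_mem _ (List.mem_cons_of_mem _ (List.mem_cons_of_mem _ (List.mem_cons_self))))))))))))))))))))))))))))))))))))))))))))))))))))))))))))))))))))))))))))))))))))))), ?_⟩, by norm_num⟩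
  constructor <;> norm_num [Q87, coCell, P5C4]

lemma lP5C4 : ∀ x1 x2 xc : ℝ, 0 ≤ x1 → x1 ≤ 1 → 0 ≤ x2 → x2 ≤ 1 → P5C4.l ≤ xc → xc ≤ P5C4.u →
    (34211 / 4096 : ℝ) * (1 - (1 - x1) ^ 4) + (2263 / 256 : ℝ) * (1 - (1 - x2) ^ 4) - (12 : ℝ) * (1 - (1 - xc) ^ 4) + (1 / 1073741824 : ℝ)
      ≤ - P5C4.a1 * x1 - P5C4.a2 * x2 + P5C4.e * xc + P5C4.f := by
  have h := cell_lines_delta 4 (α1 := (34211 / 4096 : ℝ)) (α2 := (2263 / 256 : ℝ)) (c := (12 : ℝ)) (y1 := (14761 / 65536 : ℝ)) (y2 := (75125 / 262144 : ℝ))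
    (A1 := (65168199 / 4194304 : ℝ)) (B1 := (494809325 / 268435456 : ℝ)) (A2 := (53852009 / 4194304 : ℝ)) (B2 := (385258985 / 134217728 : ℝ)) (l := (21467 / 65536 : ℝ)) (u := (89303 / 262144 : ℝ))
    (E := (-7431157 / 524288 : ℝ)) (F := (-658160135 / 134217728 : ℝ)) (δ := (1 / 1073741824 : ℝ)) (by norm_num) (by norm_num) (by norm_num) (by norm_num) (by norm_num)
    (by norm_num) (by norm_num) (by norm_num) (by norm_num) (by norm_num) (by norm_num) (by norm_num) (by norm_num) (by norm_num) (by norm_num)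
  have e1 : P5C4.l = (21467 / 65536 : ℝ) := rfl
  have e2 : P5C4.u = (89303 / 262144 : ℝ) := rfl
  have e3 : P5C4.a1 = -(65168199 / 4194304 : ℝ) := by norm_num [P5C4]
  have e4 : P5C4.a2 = -(53852009 / 4194304 : ℝ) := by norm_num [P5C4]
  have e5 : P5C4.e = (-7431157 / 524288 : ℝ) := rfl
  have e6 : P5C4.f = (494809325 / 268435456 : ℝ) + (385258985 / 134217728 : ℝ) + (-658160135 / 134217728 : ℝ) + (1 / 1073741824 : ℝ) := by norm_num [P5C4]
  rw [e1, e2, e3, e4, e5, e6]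
  exact h

lemma rP5C5 : ∃ N : ℝ, Rw4 P.r2 N (coCell (34211 / 4096 : ℝ) (2263 / 256 : ℝ) (12 : ℝ) 0 P5C5) := by
  refine ⟨(3221225472 : ℝ), ⟨Q88, List.mem_cons_of_mem _ (List.mem_cons_of_mem _ (List.mem_cons_of_mem _ (List.mem_cons_of_mem _ (List.mem_cons_of_mem _ (List.mem_cons_of_mem _ (List.mem_cons_of_mem _ (List.mem_cons_of_mem _ (List.mem_cons_of_mem _ (List.mem_cons_of_mem _ (List.mem_cons_of_mem _ (List.mem_cons_of_mem _ (List.mem_cons_of_mem _ (List.mem_cons_of_mem _ (List.mem_cons_of_mem _ (List.mem_cons_of_mem _ (List.mem_cons_of_mem _ (List.mem_cons_of_mem _ (List.mem_cons_of_mem _ (List.mem_cons_of_mem _ (List.mem_cons_of_mem _ (List.mem_cons_of_mem _ (List.mem_cons_of_mem _ (List.mem_cons_of_mem _ (List.mem_cons_of_mem _ (List.mem_cons_of_mem _ (List.mem_cons_of_mem _ (List.mem_cons_of_mem _ (List.mem_cons_of_mem _ (List.mem_cons_of_mem _ (List.mem_cons_of_mem _ (List.mem_cons_of_mem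 _ (List.mem_cons_of_mem _ (List.mem_cons_of_mem _ (List.mem_cons_of_mem _ (List.mem_cons_of_mem _ (List.mem_cons_of_mem _ (List.mem_cons_of_mem _ (List.mem_cons_of_mem _ (List.mem_cons_of_mem _ (List.mem_cons_of_mem _ (List.mem_cons_of_mem _ (List.mem_cons_of_mem _ (List.mem_cons_of_mem _ (List.mem_cons_of_mem _ (List.mem_cons_of_mem _ (List.mem_cons_of_mem _ (List.mem_cons_of_mem _ (List.mem_cons_of_mem _ (List.mem_cons_of_mem _ (List.mem_cons_of_mem _ (List.mem_cons_of_mem _ (List.mem_cons_of_mem _ (List.mem_cons_of_mem _ (List.mem_cons_of_mem _ (List.mem_cons_of_mem _ (List.mem_cons_of_mem _ (List.mem_cons_of_mem _ (List.mem_cons_of_mem _ (List.mem_cons_of_mem _ (List.mem_cons_of_mem _ (List.mem_cons_of_mem _ (List.mem_cons_of_mem _ (List.mem_cons_of_mem _ (List.mem_cons_of_mem _ (List.mem_cons_of_mem _ (List.mem_cons_of_mem _ (List.mem_cons_of_mem _ (List.mem_cons_of_mem _ (List.mem_cons_of_mem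 _ (List.mem_cons_of_mem _ (List.mem_cons_of_mem _ (List.mem_cons_of_mem _ (List.mem_cons_of_mem _ (List.mem_cons_of_mem _ (List.mem_cons_of_mem _ (List.mem_cons_of_mem _ (List.mem_cons_of_mem _ (List.mem_cons_of_mem _ (List.mem_cons_of_mem _ (List.mem_cons_of_mem _ (List.mem_cons_of_mem _ (List.mem_cons_of_mem _ (List.mem_cons_of_mem _ (List.mem_cons_of_mem _ (List.mem_cons_of_mem _ (List.mem_cons_of_mem _ (List.mem_cons_of_mem _ (List.mem_cons_self)))))))))))))))))))))))))))))))))))))))))))))))))))))))))))))))))))))))))))))))))))))))), ?_⟩, by norm_num⟩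
  constructor <;> norm_num [Q88, coCell, P5C5]

lemma lP5C5 : ∀ x1 x2 xc : ℝ, 0 ≤ x1 → x1 ≤ 1 → 0 ≤ x2 → x2 ≤ 1 → P5C5.l ≤ xc → xc ≤ P5C5.u →
    (34211 / 4096 : ℝ) * (1 - (1 - x1) ^ 4) + (2263 / 256 : ℝ) * (1 - (1 - x2) ^ 4) - (12 : ℝ) * (1 - (1 - xc) ^ 4) + (1 / 1073741824 : ℝ)
      ≤ - P5C5.a1 * x1 - P5C5.a2 * x2 + P5C5.e * xc + P5C5.f := by
  have h := cell_lines_delta 4 (α1 := (34211 / 4096 : ℝ)) (α2 := (2263 / 256 : ℝ)) (c := (12 : ℝ)) (y1 := (14975 / 65536 : ℝ)) (y2 := (39619 / 131072 : ℝ))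
    (A1 := (64347679 / 4194304 : ℝ)) (B1 := (506722775 / 268435456 : ℝ)) (A2 := (6297071 / 524288 : ℝ)) (B2 := (417996629 / 134217728 : ℝ)) (l := (89303 / 262144 : ℝ)) (u := (92875 / 262144 : ℝ))
    (E := (-55941749 / 4194304 : ℝ)) (F := (-1392792657 / 268435456 : ℝ)) (δ := (1 / 1073741824 : ℝ)) (by norm_num) (by norm_num) (by norm_num) (by norm_num) (by norm_num)
    (by norm_num) (by norm_num) (by norm_num) (by norm_num) (by norm_num) (by norm_num) (by norm_num) (by norm_num) (by norm_num) (by norm_num)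
  have e1 : P5C5.l = (89303 / 262144 : ℝ) := rfl
  have e2 : P5C5.u = (92875 / 262144 : ℝ) := rfl
  have e3 : P5C5.a1 = -(64347679 / 4194304 : ℝ) := by norm_num [P5C5]
  have e4 : P5C5.a2 = -(6297071 / 524288 : ℝ) := by norm_num [P5C5]
  have e5 : P5C5.e = (-55941749 / 4194304 : ℝ) := rfl
  have e6 : P5C5.f = (506722775 / 268435456 : ℝ) + (417996629 / 134217728 : ℝ) + (-1392792657 / 268435456 : ℝ) + (1 / 1073741824 : ℝ) := by norm_num [P5C5]
  rw [e1, e2, e3, e4, e5, e6]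
  exact h

lemma rP5C6 : ∃ N : ℝ, Rw4 P.r2 N (coCell (34211 / 4096 : ℝ) (2263 / 256 : ℝ) (12 : ℝ) 0 P5C6) := by
  refine ⟨(3221225472 : ℝ), ⟨Q89, List.mem_cons_of_mem _ (List.mem_cons_of_mem _ (List.mem_cons_of_mem _ (List.mem_cons_of_mem _ (List.mem_cons_of_mem _ (List.mem_cons_of_mem _ (List.mem_cons_of_mem _ (List.mem_cons_of_mem _ (List.mem_cons_of_mem _ (List.mem_cons_of_mem _ (List.mem_cons_of_mem _ (List.mem_cons_of_mem _ (List.mem_cons_of_mem _ (List.mem_cons_of_mem _ (List.mem_cons_of_mem _ (List.mem_cons_of_mem _ (List.mem_cons_of_mem _ (List.mem_cons_of_mem _ (List.mem_cons_of_mem _ (List.mem_cons_of_mem _ (List.mem_cons_of_mem _ (List.mem_cons_of_mem _ (List.mem_cons_of_mem _ (List.mem_cons_of_mem _ (List.mem_cons_of_mem _ (List.mem_cons_of_mem _ (List.mem_cons_of_mem _ (List.mem_cons_of_mem _ (List.mem_cons_of_mem _ (List.mem_cons_of_mem _ (List.mem_cons_of_mem _ (List.mem_cons_of_mem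 _ (List.mem_cons_of_mem _ (List.mem_cons_of_mem _ (List.mem_cons_of_mem _ (List.mem_cons_of_mem _ (List.mem_cons_of_mem _ (List.mem_cons_of_mem _ (List.mem_cons_of_mem _ (List.mem_cons_of_mem _ (List.mem_cons_of_mem _ (List.mem_cons_of_mem _ (List.mem_cons_of_mem _ (List.mem_cons_of_mem _ (List.mem_cons_of_mem _ (List.mem_cons_of_mem _ (List.mem_cons_of_mem _ (List.mem_cons_of_mem _ (List.mem_cons_of_mem _ (List.mem_cons_of_mem _ (List.mem_cons_of_mem _ (List.mem_cons_of_mem _ (List.mem_cons_of_mem _ (List.mem_cons_of_mem _ (List.mem_cons_of_mem _ (List.mem_cons_of_mem _ (List.mem_cons_of_mem _ (List.mem_cons_of_mem _ (List.mem_cons_of_mem _ (List.mem_cons_of_mem _ (List.mem_cons_of_mem _ (List.mem_cons_of_mem _ (List.mem_cons_of_mem _ (List.mem_cons_of_mem _ (List.mem_cons_of_mem _ (List.mem_cons_of_mem _ (List.mem_cons_of_mem _ (List.mem_cons_of_mem _ (List.mem_cons_of_mem _ (List.mem_cons_of_mem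 _ (List.mem_cons_of_mem _ (List.mem_cons_of_mem _ (List.mem_cons_of_mem _ (List.mem_cons_of_mem _ (List.mem_cons_of_mem _ (List.mem_cons_of_mem _ (List.mem_cons_of_mem _ (List.mem_cons_of_mem _ (List.mem_cons_of_mem _ (List.mem_cons_of_mem _ (List.mem_cons_of_mem _ (List.mem_cons_of_mem _ (List.mem_cons_of_mem _ (List.mem_cons_of_mem _ (List.mem_cons_of_mem _ (List.mem_cons_of_mem _ (List.mem_cons_of_mem _ (List.mem_cons_of_mem _ (List.mem_cons_of_mem _ (List.mem_cons_self))))))))))))))))))))))))))))))))))))))))))))))))))))))))))))))))))))))))))))))))))))))))), ?_⟩, by norm_num⟩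
  constructor <;> norm_num [Q89, coCell, P5C6]

lemma lP5C6 : ∀ x1 x2 xc : ℝ, 0 ≤ x1 → x1 ≤ 1 → 0 ≤ x2 → x2 ≤ 1 → P5C6.l ≤ xc → xc ≤ P5C6.u →
    (34211 / 4096 : ℝ) * (1 - (1 - x1) ^ 4) + (2263 / 256 : ℝ) * (1 - (1 - x2) ^ 4) - (12 : ℝ) * (1 - (1 - xc) ^ 4) + (1 / 1073741824 : ℝ)
      ≤ - P5C6.a1 * x1 - P5C6.a2 * x2 + P5C6.e * xc + P5C6.f := by
  have h := cell_lines_delta 4 (α1 := (34211 / 4096 : ℝ)) (α2 := (2263 / 256 : ℝ)) (c := (12 : ℝ)) (y1 := (62145 / 262144 : ℝ)) (y2 := (81831 / 262144 : ℝ))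
    (A1 := (62228513 / 4194304 : ℝ)) (B1 := (33643255 / 16777216 : ℝ)) (A2 := (6033035 / 524288 : ℝ)) (B2 := (877521357 / 268435456 : ℝ)) (l := (92875 / 262144 : ℝ)) (u := (48295 / 131072 : ℝ))
    (E := (-52443383 / 4194304 : ℝ)) (F := (-1472116569 / 268435456 : ℝ)) (δ := (1 / 1073741824 : ℝ)) (by norm_num) (by norm_num) (by norm_num) (by norm_num) (by norm_num)
    (by norm_num) (by norm_num) (by norm_num) (by norm_num) (by norm_num) (by norm_num) (by norm_num) (by norm_num) (by norm_num) (by norm_num)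
  have e1 : P5C6.l = (92875 / 262144 : ℝ) := rfl
  have e2 : P5C6.u = (48295 / 131072 : ℝ) := rfl
  have e3 : P5C6.a1 = -(62228513 / 4194304 : ℝ) := by norm_num [P5C6]
  have e4 : P5C6.a2 = -(6033035 / 524288 : ℝ) := by norm_num [P5C6]
  have e5 : P5C6.e = (-52443383 / 4194304 : ℝ) := rfl
  have e6 : P5C6.f = (33643255 / 16777216 : ℝ) + (877521357 / 268435456 : ℝ) + (-1472116569 / 268435456 : ℝ) + (1 / 1073741824 : ℝ) := by norm_num [P5C6]
  rw [e1, e2, e3, e4, e5, e6]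
  exact h

lemma rP5C7 : ∃ N : ℝ, Rw4 P.r2 N (coCell (34211 / 4096 : ℝ) (2263 / 256 : ℝ) (12 : ℝ) 0 P5C7) := by
  refine ⟨(3221225472 : ℝ), ⟨Q90, List.mem_cons_of_mem _ (List.mem_cons_of_mem _ (List.mem_cons_of_mem _ (List.mem_cons_of_mem _ (List.mem_cons_of_mem _ (List.mem_cons_of_mem _ (List.mem_cons_of_mem _ (List.mem_cons_of_mem _ (List.mem_cons_of_mem _ (List.mem_cons_of_mem _ (List.mem_cons_of_mem _ (List.mem_cons_of_mem _ (List.mem_cons_of_mem _ (List.mem_cons_of_mem _ (List.mem_cons_of_mem _ (List.mem_cons_of_mem _ (List.mem_cons_of_mem _ (List.mem_cons_of_mem _ (List.mem_cons_of_mem _ (List.mem_cons_of_mem _ (List.mem_cons_of_mem _ (List.mem_cons_of_mem _ (List.mem_cons_of_mem _ (List.mem_cons_of_mem _ (List.mem_cons_of_mem _ (List.mem_cons_of_mem _ (List.mem_cons_of_mem _ (List.mem_cons_of_mem _ (List.mem_cons_of_mem _ (List.mem_cons_of_mem _ (List.mem_cons_of_mem _ (List.mem_cons_of_mem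 _ (List.mem_cons_of_mem _ (List.mem_cons_of_mem _ (List.mem_cons_of_mem _ (List.mem_cons_of_mem _ (List.mem_cons_of_mem _ (List.mem_cons_of_mem _ (List.mem_cons_of_mem _ (List.mem_cons_of_mem _ (List.mem_cons_of_mem _ (List.mem_cons_of_mem _ (List.mem_cons_of_mem _ (List.mem_cons_of_mem _ (List.mem_cons_of_mem _ (List.mem_cons_of_mem _ (List.mem_cons_of_mem _ (List.mem_cons_of_mem _ (List.mem_cons_of_mem _ (List.mem_cons_of_mem _ (List.mem_cons_of_mem _ (List.mem_cons_of_mem _ (List.mem_cons_of_mem _ (List.mem_cons_of_mem _ (List.mem_cons_of_mem _ (List.mem_cons_of_mem _ (List.mem_cons_of_mem _ (List.mem_cons_of_mem _ (List.mem_cons_of_mem _ (List.mem_cons_of_mem _ (List.mem_cons_of_mem _ (List.mem_cons_of_mem _ (List.mem_cons_of_mem _ (List.mem_cons_of_mem _ (List.mem_cons_of_mem _ (List.mem_cons_of_mem _ (List.mem_cons_of_mem _ (List.mem_cons_of_mem _ (List.mem_cons_of_mem _ (List.mem_cons_of_mem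 _ (List.mem_cons_of_mem _ (List.mem_cons_of_mem _ (List.mem_cons_of_mem _ (List.mem_cons_of_mem _ (List.mem_cons_of_mem _ (List.mem_cons_of_mem _ (List.mem_cons_of_mem _ (List.mem_cons_of_mem _ (List.mem_cons_of_mem _ (List.mem_cons_of_mem _ (List.mem_cons_of_mem _ (List.mem_cons_of_mem _ (List.mem_cons_of_mem _ (List.mem_cons_of_mem _ (List.mem_cons_of_mem _ (List.mem_cons_of_mem _ (List.mem_cons_of_mem _ (List.mem_cons_of_mem _ (List.mem_cons_of_mem _ (List.mem_cons_of_mem _ (List.mem_cons_self)))))))))))))))))))))))))))))))))))))))))))))))))))))))))))))))))))))))))))))))))))))))))), ?_⟩, by norm_num⟩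
  constructor <;> norm_num [Q90, coCell, P5C7]

lemma lP5C7 : ∀ x1 x2 xc : ℝ, 0 ≤ x1 → x1 ≤ 1 → 0 ≤ x2 → x2 ≤ 1 → P5C7.l ≤ xc → xc ≤ P5C7.u →
    (34211 / 4096 : ℝ) * (1 - (1 - x1) ^ 4) + (2263 / 256 : ℝ) * (1 - (1 - x2) ^ 4) - (12 : ℝ) * (1 - (1 - xc) ^ 4) + (1 / 1073741824 : ℝ)
      ≤ - P5C7.a1 * x1 - P5C7.a2 * x2 + P5C7.e * xc + P5C7.f := by
  have h := cell_lines_delta 4 (α1 := (34211 / 4096 : ℝ)) (α2 := (2263 / 256 : ℝ)) (c := (12 : ℝ)) (y1 := (15857 / 65536 : ℝ)) (y2 := (84969 / 262144 : ℝ))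
    (A1 := (30519293 / 2097152 : ℝ)) (B1 := (278265881 / 134217728 : ℝ)) (A2 := (45788039 / 4194304 : ℝ)) (B2 := (57995959 / 16777216 : ℝ)) (l := (48295 / 131072 : ℝ)) (u := (100453 / 262144 : ℝ))
    (E := (-12240833 / 1048576 : ℝ)) (F := (-1554181541 / 268435456 : ℝ)) (δ := (1 / 1073741824 : ℝ)) (by norm_num) (by norm_num) (by norm_num) (by norm_num) (by norm_num)
    (by norm_num) (by norm_num) (by norm_num) (by norm_num) (by norm_num) (by norm_num) (by norm_num) (by norm_num) (by norm_num) (by norm_num)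
  have e1 : P5C7.l = (48295 / 131072 : ℝ) := rfl
  have e2 : P5C7.u = (100453 / 262144 : ℝ) := rfl
  have e3 : P5C7.a1 = -(30519293 / 2097152 : ℝ) := by norm_num [P5C7]
  have e4 : P5C7.a2 = -(45788039 / 4194304 : ℝ) := by norm_num [P5C7]
  have e5 : P5C7.e = (-12240833 / 1048576 : ℝ) := rfl
  have e6 : P5C7.f = (278265881 / 134217728 : ℝ) + (57995959 / 16777216 : ℝ) + (-1554181541 / 268435456 : ℝ) + (1 / 1073741824 : ℝ) := by norm_num [P5C7]
  rw [e1, e2, e3, e4, e5, e6]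
  exact h

lemma rP5C8 : ∃ N : ℝ, Rw4 P.r2 N (coCell (34211 / 4096 : ℝ) (2263 / 256 : ℝ) (12 : ℝ) 0 P5C8) := by
  refine ⟨(3221225472 : ℝ), ⟨Q91, List.mem_cons_of_mem _ (List.mem_cons_of_mem _ (List.mem_cons_of_mem _ (List.mem_cons_of_mem _ (List.mem_cons_of_mem _ (List.mem_cons_of_mem _ (List.mem_cons_of_mem _ (List.mem_cons_of_mem _ (List.mem_cons_of_mem _ (List.mem_cons_of_mem _ (List.mem_cons_of_mem _ (List.mem_cons_of_mem _ (List.mem_cons_of_mem _ (List.mem_cons_of_mem _ (List.mem_cons_of_mem _ (List.mem_cons_of_mem _ (List.mem_cons_of_mem _ (List.mem_cons_of_mem _ (List.mem_cons_of_mem _ (List.mem_cons_of_mem _ (List.mem_cons_of_mem _ (List.mem_cons_of_mem _ (List.mem_cons_of_mem _ (List.mem_cons_of_mem _ (List.mem_cons_of_mem _ (List.mem_cons_of_mem _ (List.mem_cons_of_mem _ (List.mem_cons_of_mem _ (List.mem_cons_of_mem _ (List.mem_cons_of_mem _ (List.mem_cons_of_mem _ (List.mem_cons_of_mem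 _ (List.mem_cons_of_mem _ (List.mem_cons_of_mem _ (List.mem_cons_of_mem _ (List.mem_cons_of_mem _ (List.mem_cons_of_mem _ (List.mem_cons_of_mem _ (List.mem_cons_of_mem _ (List.mem_cons_of_mem _ (List.mem_cons_of_mem _ (List.mem_cons_of_mem _ (List.mem_cons_of_mem _ (List.mem_cons_of_mem _ (List.mem_cons_of_mem _ (List.mem_cons_of_mem _ (List.mem_cons_of_mem _ (List.mem_cons_of_mem _ (List.mem_cons_of_mem _ (List.mem_cons_of_mem _ (List.mem_cons_of_mem _ (List.mem_cons_of_mem _ (List.mem_cons_of_mem _ (List.mem_cons_of_mem _ (List.mem_cons_of_mem _ (List.mem_cons_of_mem _ (List.mem_cons_of_mem _ (List.mem_cons_of_mem _ (List.mem_cons_of_mem _ (List.mem_cons_of_mem _ (List.mem_cons_of_mem _ (List.mem_cons_of_mem _ (List.mem_cons_of_mem _ (List.mem_cons_of_mem _ (List.mem_cons_of_mem _ (List.mem_cons_of_mem _ (List.mem_cons_of_mem _ (List.mem_cons_of_mem _ (List.mem_cons_of_mem _ (List.mem_cons_of_mem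 _ (List.mem_cons_of_mem _ (List.mem_cons_of_mem _ (List.mem_cons_of_mem _ (List.mem_cons_of_mem _ (List.mem_cons_of_mem _ (List.mem_cons_of_mem _ (List.mem_cons_of_mem _ (List.mem_cons_of_mem _ (List.mem_cons_of_mem _ (List.mem_cons_of_mem _ (List.mem_cons_of_mem _ (List.mem_cons_of_mem _ (List.mem_cons_of_mem _ (List.mem_cons_of_mem _ (List.mem_cons_of_mem _ (List.mem_cons_of_mem _ (List.mem_cons_of_mem _ (List.mem_cons_of_mem _ (List.mem_cons_of_mem _ (List.mem_cons_of_mem _ (List.mem_cons_of_mem _ (List.mem_cons_self))))))))))))))))))))))))))))))))))))))))))))))))))))))))))))))))))))))))))))))))))))))))))), ?_⟩, by norm_num⟩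
  constructor <;> norm_num [Q91, coCell, P5C8]

lemma lP5C8 : ∀ x1 x2 xc : ℝ, 0 ≤ x1 → x1 ≤ 1 → 0 ≤ x2 → x2 ≤ 1 → P5C8.l ≤ xc → xc ≤ P5C8.u →
    (34211 / 4096 : ℝ) * (1 - (1 - x1) ^ 4) + (2263 / 256 : ℝ) * (1 - (1 - x2) ^ 4) - (12 : ℝ) * (1 - (1 - xc) ^ 4) + (1 / 1073741824 : ℝ)
      ≤ - P5C8.a1 * x1 - P5C8.a2 * x2 + P5C8.e * xc + P5C8.f := by
  have h := cell_lines_delta 4 (α1 := (34211 / 4096 : ℝ)) (α2 := (2263 / 256 : ℝ)) (c := (12 : ℝ)) (y1 := (33383 / 131072 : ℝ)) (y2 := (87879 / 262144 : ℝ))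
    (A1 := (906469 / 65536 : ℝ)) (B1 := (302296875 / 134217728 : ℝ)) (A2 := (43568763 / 4194304 : ℝ)) (B2 := (974756851 / 268435456 : ℝ)) (l := (100453 / 262144 : ℝ)) (u := (52429 / 131072 : ℝ))
    (E := (-708553 / 65536 : ℝ)) (F := (-1642861233 / 268435456 : ℝ)) (δ := (1 / 1073741824 : ℝ)) (by norm_num) (by norm_num) (by norm_num) (by norm_num) (by norm_num)
    (by norm_num) (by norm_num) (by norm_num) (by norm_num) (by norm_num) (by norm_num) (by norm_num) (by norm_num) (by norm_num) (by norm_num)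
  have e1 : P5C8.l = (100453 / 262144 : ℝ) := rfl
  have e2 : P5C8.u = (52429 / 131072 : ℝ) := rfl
  have e3 : P5C8.a1 = -(906469 / 65536 : ℝ) := by norm_num [P5C8]
  have e4 : P5C8.a2 = -(43568763 / 4194304 : ℝ) := by norm_num [P5C8]
  have e5 : P5C8.e = (-708553 / 65536 : ℝ) := rfl
  have e6 : P5C8.f = (302296875 / 134217728 : ℝ) + (974756851 / 268435456 : ℝ) + (-1642861233 / 268435456 : ℝ) + (1 / 1073741824 : ℝ) := by norm_num [P5C8]
  rw [e1, e2, e3, e4, e5, e6]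
  exact h

/-- A link of the chain. -/
lemma link5 {lam : ℝ} (h0 : -(1 / 2) < lam) (h1 : lam < 1) (hB : BoxS lam P 0 HH 0 HH)
    (h : ∃ n, 1 - En 4 lam n mc ≤ (52429 / 131072 : ℝ)) : ∃ n, 1 - En 4 lam n mc ≤ (9175 / 32768 : ℝ) :=
  phase_of_box (by norm_num) h0 h1 hB (34211 / 4096 : ℝ) (2263 / 256 : ℝ) (12 : ℝ) (1 / 1073741824 : ℝ) (9175 / 32768 : ℝ) (52429 / 131072 : ℝ) (by norm_num) cellsP5 hcoverP5
    (forall_cons lP5C0 (forall_cons lP5C1 (forall_cons lP5C2 (forall_cons lP5C3 (forall_cons lP5C4 (forall_cons lP5C5 (forall_cons lP5C6 (forall_cons lP5C7 (forall_cons lP5C8 (forall_nil)))))))))) (forall_cons rP5C0 (forall_cons rP5C1 (forall_cons rP5C2 (forall_cons rP5C3 (forall_cons rP5C4 (forall_cons rP5C5 (forall_cons rP5C6 (forall_cons rP5C7 (forall_cons rP5C8 (forall_nil)))))))))) h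

/-- A chord cell of a link. -/
noncomputable def P6C0 : Cell := ⟨(52429 / 131072 : ℝ), (27263 / 65536 : ℝ), (-77275769 / 4194304 : ℝ), (-34375399 / 4194304 : ℝ), (-20888799 / 2097152 : ℝ), (-505229375 / 1073741824 : ℝ)⟩

/-- A chord cell of a link. -/
noncomputable def P6C1 : Cell := ⟨(27263 / 65536 : ℝ), (56707 / 131072 : ℝ), (-19012113 / 1048576 : ℝ), (-31127215 / 4194304 : ℝ), (-38418001 / 4194304 : ℝ), (-493642819 / 1073741824 : ℝ)⟩

/-- A chord cell of a link. -/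
noncomputable def P6C2 : Cell := ⟨(56707 / 131072 : ℝ), (117951 / 262144 : ℝ), (-35936159 / 2097152 : ℝ), (-1875679 / 262144 : ℝ), (-35120119 / 4194304 : ℝ), (-467579383 / 1073741824 : ℝ)⟩

/-- A chord cell of a link. -/
noncomputable def P6C3 : Cell := ⟨(117951 / 262144 : ℝ), (122669 / 262144 : ℝ), (-34801643 / 2097152 : ℝ), (-6916755 / 1048576 : ℝ), (-31896465 / 4194304 : ℝ), (-452328351 / 1073741824 : ℝ)⟩

/-- A chord cell of a link. -/
noncomputable def P6C4 : Cell := ⟨(122669 / 262144 : ℝ), (127575 / 262144 : ℝ), (-1051253 / 65536 : ℝ), (-25982245 / 4194304 : ℝ), (-14380085 / 2097152 : ℝ), (-489354375 / 1073741824 : ℝ)⟩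

/-- A chord cell of a link. -/
noncomputable def P6C5 : Cell := ⟨(127575 / 262144 : ℝ), (66339 / 131072 : ℝ), (-66359587 / 4194304 : ℝ), (-25301149 / 4194304 : ℝ), (-25723975 / 4194304 : ℝ), (-729145467 / 1073741824 : ℝ)⟩

/-- A chord cell of a link. -/
noncomputable def P6C6 : Cell := ⟨(66339 / 131072 : ℝ), (137985 / 262144 : ℝ), (-32115443 / 2097152 : ℝ), (-23039703 / 4194304 : ℝ), (-22801199 / 4194304 : ℝ), (-708118631 / 1073741824 : ℝ)⟩

/-- A chord cell of a link. -/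
noncomputable def P6C7 : Cell := ⟨(137985 / 262144 : ℝ), (144179 / 262144 : ℝ), (-61511591 / 4194304 : ℝ), (-11010871 / 2097152 : ℝ), (-4960541 / 1048576 : ℝ), (-782275851 / 1073741824 : ℝ)⟩

/-- The chord cells of a link. -/
noncomputable def cellsP6 : List Cell := [P6C0, P6C1, P6C2, P6C3, P6C4, P6C5, P6C6, P6C7]

lemma hcoverP6 : ∀ x : ℝ, (52429 / 131072 : ℝ) ≤ x → x ≤ (144179 / 262144 : ℝ) → ∃ D ∈ cellsP6, D.l ≤ x ∧ x ≤ D.u := by
  refine cover_of_chain ?_ (by norm_num [P6C0])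
  simp only [ChainP, P6C0, P6C1, P6C2, P6C3, P6C4, P6C5, P6C6, P6C7]
  norm_num

lemma rP6C0 : ∃ N : ℝ, Rw4 P.r2 N (coCell (46351 / 4096 : ℝ) (28529 / 4096 : ℝ) (12 : ℝ) 0 P6C0) := by
  refine ⟨(3221225472 : ℝ), ⟨Q92, List.mem_cons_of_mem _ (List.mem_cons_of_mem _ (List.mem_cons_of_mem _ (List.mem_cons_of_mem _ (List.mem_cons_of_mem _ (List.mem_cons_of_mem _ (List.mem_cons_of_mem _ (List.mem_cons_of_mem _ (List.mem_cons_of_mem _ (List.mem_cons_of_mem _ (List.mem_cons_of_mem _ (List.mem_cons_of_mem _ (List.mem_cons_of_mem _ (List.mem_cons_of_mem _ (List.mem_cons_of_mem _ (List.mem_cons_of_mem _ (List.mem_cons_of_mem _ (List.mem_cons_of_mem _ (List.mem_cons_of_mem _ (List.mem_cons_of_mem _ (List.mem_cons_of_mem _ (List.mem_cons_of_mem _ (List.mem_cons_of_mem _ (List.mem_cons_of_mem _ (List.mem_cons_of_mem _ (List.mem_cons_of_mem _ (List.mem_cons_of_mem _ (List.mem_cons_of_mem _ (List.mem_cons_of_mem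 _ (List.mem_cons_of_mem _ (List.mem_cons_of_mem _ (List.mem_cons_of_mem _ (List.mem_cons_of_mem _ (List.mem_cons_of_mem _ (List.mem_cons_of_mem _ (List.mem_cons_of_mem _ (List.mem_cons_of_mem _ (List.mem_cons_of_mem _ (List.mem_cons_of_mem _ (List.mem_cons_of_mem _ (List.mem_cons_of_mem _ (List.mem_cons_of_mem _ (List.mem_cons_of_mem _ (List.mem_cons_of_mem _ (List.mem_cons_of_mem _ (List.mem_cons_of_mem _ (List.mem_cons_of_mem _ (List.mem_cons_of_mem _ (List.mem_cons_of_mem _ (List.mem_cons_of_mem _ (List.mem_cons_of_mem _ (List.mem_cons_of_mem _ (List.mem_cons_of_mem _ (List.mem_cons_of_mem _ (List.mem_cons_of_mem _ (List.mem_cons_of_mem _ (List.mem_cons_of_mem _ (List.mem_cons_of_mem _ (List.mem_cons_of_mem _ (List.mem_cons_of_mem _ (List.mem_cons_of_mem _ (List.mem_cons_of_mem _ (List.mem_cons_of_mem _ (List.mem_cons_of_mem _ (List.mem_cons_of_mem _ (List.mem_cons_of_mem _ (List.mem_cons_of_mem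 _ (List.mem_cons_of_mem _ (List.mem_cons_of_mem _ (List.mem_cons_of_mem _ (List.mem_cons_of_mem _ (List.mem_cons_of_mem _ (List.mem_cons_of_mem _ (List.mem_cons_of_mem _ (List.mem_cons_of_mem _ (List.mem_cons_of_mem _ (List.mem_cons_of_mem _ (List.mem_cons_of_mem _ (List.mem_cons_of_mem _ (List.mem_cons_of_mem _ (List.mem_cons_of_mem _ (List.mem_cons_of_mem _ (List.mem_cons_of_mem _ (List.mem_cons_of_mem _ (List.mem_cons_of_mem _ (List.mem_cons_of_mem _ (List.mem_cons_of_mem _ (List.mem_cons_of_mem _ (List.mem_cons_of_mem _ (List.mem_cons_of_mem _ (List.mem_cons_of_mem _ (List.mem_cons_of_mem _ (List.mem_cons_self)))))))))))))))))))))))))))))))))))))))))))))))))))))))))))))))))))))))))))))))))))))))))))), ?_⟩, by norm_num⟩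
  constructor <;> norm_num [Q92, coCell, P6C0]

lemma lP6C0 : ∀ x1 x2 xc : ℝ, 0 ≤ x1 → x1 ≤ 1 → 0 ≤ x2 → x2 ≤ 1 → P6C0.l ≤ xc → xc ≤ P6C0.u →
    (46351 / 4096 : ℝ) * (1 - (1 - x1) ^ 4) + (28529 / 4096 : ℝ) * (1 - (1 - x2) ^ 4) - (12 : ℝ) * (1 - (1 - xc) ^ 4) + (1 / 1073741824 : ℝ)
      ≤ - P6C0.a1 * x1 - P6C0.a2 * x2 + P6C0.e * xc + P6C0.f := by
  have h := cell_lines_delta 4 (α1 := (46351 / 4096 : ℝ)) (α2 := (28529 / 4096 : ℝ)) (c := (12 : ℝ)) (y1 := (33935 / 131072 : ℝ)) (y2 := (10975 / 32768 : ℝ))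
    (A1 := (77275769 / 4194304 : ℝ)) (B1 := (840912409 / 268435456 : ℝ)) (A2 := (34375399 / 4194304 : ℝ)) (B2 := (767028555 / 268435456 : ℝ)) (l := (52429 / 131072 : ℝ)) (u := (27263 / 65536 : ℝ))
    (E := (-20888799 / 2097152 : ℝ)) (F := (-433562077 / 67108864 : ℝ)) (δ := (1 / 1073741824 : ℝ)) (by norm_num) (by norm_num) (by norm_num) (by norm_num) (by norm_num)
    (by norm_num) (by norm_num) (by norm_num) (by norm_num) (by norm_num) (by norm_num) (by norm_num) (by norm_num) (by norm_num) (by norm_num)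
  have e1 : P6C0.l = (52429 / 131072 : ℝ) := rfl
  have e2 : P6C0.u = (27263 / 65536 : ℝ) := rfl
  have e3 : P6C0.a1 = -(77275769 / 4194304 : ℝ) := by norm_num [P6C0]
  have e4 : P6C0.a2 = -(34375399 / 4194304 : ℝ) := by norm_num [P6C0]
  have e5 : P6C0.e = (-20888799 / 2097152 : ℝ) := rfl
  have e6 : P6C0.f = (840912409 / 268435456 : ℝ) + (767028555 / 268435456 : ℝ) + (-433562077 / 67108864 : ℝ) + (1 / 1073741824 : ℝ) := by norm_num [P6C0]
  rw [e1, e2, e3, e4, e5, e6]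
  exact h

lemma rP6C1 : ∃ N : ℝ, Rw4 P.r2 N (coCell (46351 / 4096 : ℝ) (28529 / 4096 : ℝ) (12 : ℝ) 0 P6C1) := by
  refine ⟨(3221225472 : ℝ), ⟨Q93, List.mem_cons_of_mem _ (List.mem_cons_of_mem _ (List.mem_cons_of_mem _ (List.mem_cons_of_mem _ (List.mem_cons_of_mem _ (List.mem_cons_of_mem _ (List.mem_cons_of_mem _ (List.mem_cons_of_mem _ (List.mem_cons_of_mem _ (List.mem_cons_of_mem _ (List.mem_cons_of_mem _ (List.mem_cons_of_mem _ (List.mem_cons_of_mem _ (List.mem_cons_of_mem _ (List.mem_cons_of_mem _ (List.mem_cons_of_mem _ (List.mem_cons_of_mem _ (List.mem_cons_of_mem _ (List.mem_cons_of_mem _ (List.mem_cons_of_mem _ (List.mem_cons_of_mem _ (List.mem_cons_of_mem _ (List.mem_cons_of_mem _ (List.mem_cons_of_mem _ (List.mem_cons_of_mem _ (List.mem_cons_of_mem _ (List.mem_cons_of_mem _ (List.mem_cons_of_mem _ (List.mem_cons_of_mem _ (List.mem_cons_of_mem _ (List.mem_cons_of_mem _ (List.mem_cons_of_mem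 _ (List.mem_cons_of_mem _ (List.mem_cons_of_mem _ (List.mem_cons_of_mem _ (List.mem_cons_of_mem _ (List.mem_cons_of_mem _ (List.mem_cons_of_mem _ (List.mem_cons_of_mem _ (List.mem_cons_of_mem _ (List.mem_cons_of_mem _ (List.mem_cons_of_mem _ (List.mem_cons_of_mem _ (List.mem_cons_of_mem _ (List.mem_cons_of_mem _ (List.mem_cons_of_mem _ (List.mem_cons_of_mem _ (List.mem_cons_of_mem _ (List.mem_cons_of_mem _ (List.mem_cons_of_mem _ (List.mem_cons_of_mem _ (List.mem_cons_of_mem _ (List.mem_cons_of_mem _ (List.mem_cons_of_mem _ (List.mem_cons_of_mem _ (List.mem_cons_of_mem _ (List.mem_cons_of_mem _ (List.mem_cons_of_mem _ (List.mem_cons_of_mem _ (List.mem_cons_of_mem _ (List.mem_cons_of_mem _ (List.mem_cons_of_mem _ (List.mem_cons_of_mem _ (List.mem_cons_of_mem _ (List.mem_cons_of_mem _ (List.mem_cons_of_mem _ (List.mem_cons_of_mem _ (List.mem_cons_of_mem _ (List.mem_cons_of_mem _ (List.mem_cons_of_mem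 _ (List.mem_cons_of_mem _ (List.mem_cons_of_mem _ (List.mem_cons_of_mem _ (List.mem_cons_of_mem _ (List.mem_cons_of_mem _ (List.mem_cons_of_mem _ (List.mem_cons_of_mem _ (List.mem_cons_of_mem _ (List.mem_cons_of_mem _ (List.mem_cons_of_mem _ (List.mem_cons_of_mem _ (List.mem_cons_of_mem _ (List.mem_cons_of_mem _ (List.mem_cons_of_mem _ (List.mem_cons_of_mem _ (List.mem_cons_of_mem _ (List.mem_cons_of_mem _ (List.mem_cons_of_mem _ (List.mem_cons_of_mem _ (List.mem_cons_of_mem _ (List.mem_cons_of_mem _ (List.mem_cons_of_mem _ (List.mem_cons_of_mem _ (List.mem_cons_self))))))))))))))))))))))))))))))))))))))))))))))))))))))))))))))))))))))))))))))))))))))))))))), ?_⟩, by norm_num⟩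
  constructor <;> norm_num [Q93, coCell, P6C1]

lemma lP6C1 : ∀ x1 x2 xc : ℝ, 0 ≤ x1 → x1 ≤ 1 → 0 ≤ x2 → x2 ≤ 1 → P6C1.l ≤ xc → xc ≤ P6C1.u →
    (46351 / 4096 : ℝ) * (1 - (1 - x1) ^ 4) + (28529 / 4096 : ℝ) * (1 - (1 - x2) ^ 4) - (12 : ℝ) * (1 - (1 - xc) ^ 4) + (1 / 1073741824 : ℝ)
      ≤ - P6C1.a1 * x1 - P6C1.a2 * x2 + P6C1.e * xc + P6C1.f := by
  have h := cell_lines_delta 4 (α1 := (46351 / 4096 : ℝ)) (α2 := (28529 / 4096 : ℝ)) (c := (12 : ℝ)) (y1 := (8613 / 32768 : ℝ)) (y2 := (46737 / 131072 : ℝ))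
    (A1 := (19012113 / 1048576 : ℝ)) (B1 := (861403467 / 268435456 : ℝ)) (A2 := (31127215 / 4194304 : ℝ)) (B2 := (419440063 / 134217728 : ℝ)) (l := (27263 / 65536 : ℝ)) (u := (56707 / 131072 : ℝ))
    (E := (-38418001 / 4194304 : ℝ)) (F := (-911847149 / 134217728 : ℝ)) (δ := (1 / 1073741824 : ℝ)) (by norm_num) (by norm_num) (by norm_num) (by norm_num) (by norm_num)
    (by norm_num) (by norm_num) (by norm_num) (by norm_num) (by norm_num) (by norm_num) (by norm_num) (by norm_num) (by norm_num) (by norm_num)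
  have e1 : P6C1.l = (27263 / 65536 : ℝ) := rfl
  have e2 : P6C1.u = (56707 / 131072 : ℝ) := rfl
  have e3 : P6C1.a1 = -(19012113 / 1048576 : ℝ) := by norm_num [P6C1]
  have e4 : P6C1.a2 = -(31127215 / 4194304 : ℝ) := by norm_num [P6C1]
  have e5 : P6C1.e = (-38418001 / 4194304 : ℝ) := rfl
  have e6 : P6C1.f = (861403467 / 268435456 : ℝ) + (419440063 / 134217728 : ℝ) + (-911847149 / 134217728 : ℝ) + (1 / 1073741824 : ℝ) := by norm_num [P6C1]
  rw [e1, e2, e3, e4, e5, e6]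
  exact h

lemma rP6C2 : ∃ N : ℝ, Rw4 P.r2 N (coCell (46351 / 4096 : ℝ) (28529 / 4096 : ℝ) (12 : ℝ) 0 P6C2) := by
  refine ⟨(3221225472 : ℝ), ⟨Q94, List.mem_cons_of_mem _ (List.mem_cons_of_mem _ (List.mem_cons_of_mem _ (List.mem_cons_of_mem _ (List.mem_cons_of_mem _ (List.mem_cons_of_mem _ (List.mem_cons_of_mem _ (List.mem_cons_of_mem _ (List.mem_cons_of_mem _ (List.mem_cons_of_mem _ (List.mem_cons_of_mem _ (List.mem_cons_of_mem _ (List.mem_cons_of_mem _ (List.mem_cons_of_mem _ (List.mem_cons_of_mem _ (List.mem_cons_of_mem _ (List.mem_cons_of_mem _ (List.mem_cons_of_mem _ (List.mem_cons_of_mem _ (List.mem_cons_of_mem _ (List.mem_cons_of_mem _ (List.mem_cons_of_mem _ (List.mem_cons_of_mem _ (List.mem_cons_of_mem _ (List.mem_cons_of_mem _ (List.mem_cons_of_mem _ (List.mem_cons_of_mem _ (List.mem_cons_of_mem _ (List.mem_cons_of_mem _ (List.mem_cons_of_mem _ (List.mem_cons_of_mem _ (List.mem_cons_of_mem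 _ (List.mem_cons_of_mem _ (List.mem_cons_of_mem _ (List.mem_cons_of_mem _ (List.mem_cons_of_mem _ (List.mem_cons_of_mem _ (List.mem_cons_of_mem _ (List.mem_cons_of_mem _ (List.mem_cons_of_mem _ (List.mem_cons_of_mem _ (List.mem_cons_of_mem _ (List.mem_cons_of_mem _ (List.mem_cons_of_mem _ (List.mem_cons_of_mem _ (List.mem_cons_of_mem _ (List.mem_cons_of_mem _ (List.mem_cons_of_mem _ (List.mem_cons_of_mem _ (List.mem_cons_of_mem _ (List.mem_cons_of_mem _ (List.mem_cons_of_mem _ (List.mem_cons_of_mem _ (List.mem_cons_of_mem _ (List.mem_cons_of_mem _ (List.mem_cons_of_mem _ (List.mem_cons_of_mem _ (List.mem_cons_of_mem _ (List.mem_cons_of_mem _ (List.mem_cons_of_mem _ (List.mem_cons_of_mem _ (List.mem_cons_of_mem _ (List.mem_cons_of_mem _ (List.mem_cons_of_mem _ (List.mem_cons_of_mem _ (List.mem_cons_of_mem _ (List.mem_cons_of_mem _ (List.mem_cons_of_mem _ (List.mem_cons_of_mem _ (List.mem_cons_of_mem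 _ (List.mem_cons_of_mem _ (List.mem_cons_of_mem _ (List.mem_cons_of_mem _ (List.mem_cons_of_mem _ (List.mem_cons_of_mem _ (List.mem_cons_of_mem _ (List.mem_cons_of_mem _ (List.mem_cons_of_mem _ (List.mem_cons_of_mem _ (List.mem_cons_of_mem _ (List.mem_cons_of_mem _ (List.mem_cons_of_mem _ (List.mem_cons_of_mem _ (List.mem_cons_of_mem _ (List.mem_cons_of_mem _ (List.mem_cons_of_mem _ (List.mem_cons_of_mem _ (List.mem_cons_of_mem _ (List.mem_cons_of_mem _ (List.mem_cons_of_mem _ (List.mem_cons_of_mem _ (List.mem_cons_of_mem _ (List.mem_cons_of_mem _ (List.mem_cons_of_mem _ (List.mem_cons_self)))))))))))))))))))))))))))))))))))))))))))))))))))))))))))))))))))))))))))))))))))))))))))))), ?_⟩, by norm_num⟩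
  constructor <;> norm_num [Q94, coCell, P6C2]

lemma lP6C2 : ∀ x1 x2 xc : ℝ, 0 ≤ x1 → x1 ≤ 1 → 0 ≤ x2 → x2 ≤ 1 → P6C2.l ≤ xc → xc ≤ P6C2.u →
    (46351 / 4096 : ℝ) * (1 - (1 - x1) ^ 4) + (28529 / 4096 : ℝ) * (1 - (1 - x2) ^ 4) - (12 : ℝ) * (1 - (1 - xc) ^ 4) + (1 / 1073741824 : ℝ)
      ≤ - P6C2.a1 * x1 - P6C2.a2 * x2 + P6C2.e * xc + P6C2.f := by
  have h := cell_lines_delta 4 (α1 := (46351 / 4096 : ℝ)) (α2 := (28529 / 4096 : ℝ)) (c := (12 : ℝ)) (y1 := (18127 / 65536 : ℝ)) (y2 := (95515 / 262144 : ℝ))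
    (A1 := (35936159 / 2097152 : ℝ)) (B1 := (933481231 / 268435456 : ℝ)) (A2 := (1875679 / 262144 : ℝ)) (B2 := (108079145 / 33554432 : ℝ)) (l := (56707 / 131072 : ℝ)) (u := (117951 / 262144 : ℝ))
    (E := (-35120119 / 4194304 : ℝ)) (F := (-1915009237 / 268435456 : ℝ)) (δ := (1 / 1073741824 : ℝ)) (by norm_num) (by norm_num) (by norm_num) (by norm_num) (by norm_num)
    (by norm_num) (by norm_num) (by norm_num) (by norm_num) (by norm_num) (by norm_num) (by norm_num) (by norm_num) (by norm_num) (by norm_num)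
  have e1 : P6C2.l = (56707 / 131072 : ℝ) := rfl
  have e2 : P6C2.u = (117951 / 262144 : ℝ) := rfl
  have e3 : P6C2.a1 = -(35936159 / 2097152 : ℝ) := by norm_num [P6C2]
  have e4 : P6C2.a2 = -(1875679 / 262144 : ℝ) := by norm_num [P6C2]
  have e5 : P6C2.e = (-35120119 / 4194304 : ℝ) := rfl
  have e6 : P6C2.f = (933481231 / 268435456 : ℝ) + (108079145 / 33554432 : ℝ) + (-1915009237 / 268435456 : ℝ) + (1 / 1073741824 : ℝ) := by norm_num [P6C2]
  rw [e1, e2, e3, e4, e5, e6]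
  exact h

lemma rP6C3 : ∃ N : ℝ, Rw4 P.r2 N (coCell (46351 / 4096 : ℝ) (28529 / 4096 : ℝ) (12 : ℝ) 0 P6C3) := by
  refine ⟨(3221225472 : ℝ), ⟨Q95, List.mem_cons_of_mem _ (List.mem_cons_of_mem _ (List.mem_cons_of_mem _ (List.mem_cons_of_mem _ (List.mem_cons_of_mem _ (List.mem_cons_of_mem _ (List.mem_cons_of_mem _ (List.mem_cons_of_mem _ (List.mem_cons_of_mem _ (List.mem_cons_of_mem _ (List.mem_cons_of_mem _ (List.mem_cons_of_mem _ (List.mem_cons_of_mem _ (List.mem_cons_of_mem _ (List.mem_cons_of_mem _ (List.mem_cons_of_mem _ (List.mem_cons_of_mem _ (List.mem_cons_of_mem _ (List.mem_cons_of_mem _ (List.mem_cons_of_mem _ (List.mem_cons_of_mem _ (List.mem_cons_of_mem _ (List.mem_cons_of_mem _ (List.mem_cons_of_mem _ (List.mem_cons_of_mem _ (List.mem_cons_of_mem _ (List.mem_cons_of_mem _ (List.mem_cons_of_mem _ (List.mem_cons_of_mem _ (List.mem_cons_of_mem _ (List.mem_cons_of_mem _ (List.mem_cons_of_mem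 _ (List.mem_cons_of_mem _ (List.mem_cons_of_mem _ (List.mem_cons_of_mem _ (List.mem_cons_of_mem _ (List.mem_cons_of_mem _ (List.mem_cons_of_mem _ (List.mem_cons_of_mem _ (List.mem_cons_of_mem _ (List.mem_cons_of_mem _ (List.mem_cons_of_mem _ (List.mem_cons_of_mem _ (List.mem_cons_of_mem _ (List.mem_cons_of_mem _ (List.mem_cons_of_mem _ (List.mem_cons_of_mem _ (List.mem_cons_of_mem _ (List.mem_cons_of_mem _ (List.mem_cons_of_mem _ (List.mem_cons_of_mem _ (List.mem_cons_of_mem _ (List.mem_cons_of_mem _ (List.mem_cons_of_mem _ (List.mem_cons_of_mem _ (List.mem_cons_of_mem _ (List.mem_cons_of_mem _ (List.mem_cons_of_mem _ (List.mem_cons_of_mem _ (List.mem_cons_of_mem _ (List.mem_cons_of_mem _ (List.mem_cons_of_mem _ (List.mem_cons_of_mem _ (List.mem_cons_of_mem _ (List.mem_cons_of_mem _ (List.mem_cons_of_mem _ (List.mem_cons_of_mem _ (List.mem_cons_of_mem _ (List.mem_cons_of_mem _ (List.mem_cons_of_mem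 _ (List.mem_cons_of_mem _ (List.mem_cons_of_mem _ (List.mem_cons_of_mem _ (List.mem_cons_of_mem _ (List.mem_cons_of_mem _ (List.mem_cons_of_mem _ (List.mem_cons_of_mem _ (List.mem_cons_of_mem _ (List.mem_cons_of_mem _ (List.mem_cons_of_mem _ (List.mem_cons_of_mem _ (List.mem_cons_of_mem _ (List.mem_cons_of_mem _ (List.mem_cons_of_mem _ (List.mem_cons_of_mem _ (List.mem_cons_of_mem _ (List.mem_cons_of_mem _ (List.mem_cons_of_mem _ (List.mem_cons_of_mem _ (List.mem_cons_of_mem _ (List.mem_cons_of_mem _ (List.mem_cons_of_mem _ (List.mem_cons_of_mem _ (List.mem_cons_of_mem _ (List.mem_cons_of_mem _ (List.mem_cons_self))))))))))))))))))))))))))))))))))))))))))))))))))))))))))))))))))))))))))))))))))))))))))))))), ?_⟩, by norm_num⟩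
  constructor <;> norm_num [Q95, coCell, P6C3]

lemma lP6C3 : ∀ x1 x2 xc : ℝ, 0 ≤ x1 → x1 ≤ 1 → 0 ≤ x2 → x2 ≤ 1 → P6C3.l ≤ xc → xc ≤ P6C3.u →
    (46351 / 4096 : ℝ) * (1 - (1 - x1) ^ 4) + (28529 / 4096 : ℝ) * (1 - (1 - x2) ^ 4) - (12 : ℝ) * (1 - (1 - xc) ^ 4) + (1 / 1073741824 : ℝ)
      ≤ - P6C3.a1 * x1 - P6C3.a2 * x2 + P6C3.e * xc + P6C3.f := by
  have h := cell_lines_delta 4 (α1 := (46351 / 4096 : ℝ)) (α2 := (28529 / 4096 : ℝ)) (c := (12 : ℝ)) (y1 := (74525 / 262144 : ℝ)) (y2 := (99971 / 262144 : ℝ))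
    (A1 := (34801643 / 2097152 : ℝ)) (B1 := (974204651 / 268435456 : ℝ)) (A2 := (6916755 / 1048576 : ℝ)) (B2 := (920552873 / 268435456 : ℝ)) (l := (117951 / 262144 : ℝ)) (u := (122669 / 262144 : ℝ))
    (E := (-31896465 / 4194304 : ℝ)) (F := (-501959903 / 67108864 : ℝ)) (δ := (1 / 1073741824 : ℝ)) (by norm_num) (by norm_num) (by norm_num) (by norm_num) (by norm_num)
    (by norm_num) (by norm_num) (by norm_num) (by norm_num) (by norm_num) (by norm_num) (by norm_num) (by norm_num) (by norm_num) (by norm_num)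
  have e1 : P6C3.l = (117951 / 262144 : ℝ) := rfl
  have e2 : P6C3.u = (122669 / 262144 : ℝ) := rfl
  have e3 : P6C3.a1 = -(34801643 / 2097152 : ℝ) := by norm_num [P6C3]
  have e4 : P6C3.a2 = -(6916755 / 1048576 : ℝ) := by norm_num [P6C3]
  have e5 : P6C3.e = (-31896465 / 4194304 : ℝ) := rfl
  have e6 : P6C3.f = (974204651 / 268435456 : ℝ) + (920552873 / 268435456 : ℝ) + (-501959903 / 67108864 : ℝ) + (1 / 1073741824 : ℝ) := by norm_num [P6C3]
  rw [e1, e2, e3, e4, e5, e6]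
  exact h

lemma rP6C4 : ∃ N : ℝ, Rw4 P.r2 N (coCell (46351 / 4096 : ℝ) (28529 / 4096 : ℝ) (12 : ℝ) 0 P6C4) := by
  refine ⟨(3221225472 : ℝ), ⟨Q96, List.mem_cons_of_mem _ (List.mem_cons_of_mem _ (List.mem_cons_of_mem _ (List.mem_cons_of_mem _ (List.mem_cons_of_mem _ (List.mem_cons_of_mem _ (List.mem_cons_of_mem _ (List.mem_cons_of_mem _ (List.mem_cons_of_mem _ (List.mem_cons_of_mem _ (List.mem_cons_of_mem _ (List.mem_cons_of_mem _ (List.mem_cons_of_mem _ (List.mem_cons_of_mem _ (List.mem_cons_of_mem _ (List.mem_cons_of_mem _ (List.mem_cons_of_mem _ (List.mem_cons_of_mem _ (List.mem_cons_of_mem _ (List.mem_cons_of_mem _ (List.mem_cons_of_mem _ (List.mem_cons_of_mem _ (List.mem_cons_of_mem _ (List.mem_cons_of_mem _ (List.mem_cons_of_mem _ (List.mem_cons_of_mem _ (List.mem_cons_of_mem _ (List.mem_cons_of_mem _ (List.mem_cons_of_mem _ (List.mem_cons_of_mem _ (List.mem_cons_of_mem _ (List.mem_cons_of_mem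 _ (List.mem_cons_of_mem _ (List.mem_cons_of_mem _ (List.mem_cons_of_mem _ (List.mem_cons_of_mem _ (List.mem_cons_of_mem _ (List.mem_cons_of_mem _ (List.mem_cons_of_mem _ (List.mem_cons_of_mem _ (List.mem_cons_of_mem _ (List.mem_cons_of_mem _ (List.mem_cons_of_mem _ (List.mem_cons_of_mem _ (List.mem_cons_of_mem _ (List.mem_cons_of_mem _ (List.mem_cons_of_mem _ (List.mem_cons_of_mem _ (List.mem_cons_of_mem _ (List.mem_cons_of_mem _ (List.mem_cons_of_mem _ (List.mem_cons_of_mem _ (List.mem_cons_of_mem _ (List.mem_cons_of_mem _ (List.mem_cons_of_mem _ (List.mem_cons_of_mem _ (List.mem_cons_of_mem _ (List.mem_cons_of_mem _ (List.mem_cons_of_mem _ (List.mem_cons_of_mem _ (List.mem_cons_of_mem _ (List.mem_cons_of_mem _ (List.mem_cons_of_mem _ (List.mem_cons_of_mem _ (List.mem_cons_of_mem _ (List.mem_cons_of_mem _ (List.mem_cons_of_mem _ (List.mem_cons_of_mem _ (List.mem_cons_of_mem _ (List.mem_cons_of_mem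 _ (List.mem_cons_of_mem _ (List.mem_cons_of_mem _ (List.mem_cons_of_mem _ (List.mem_cons_of_mem _ (List.mem_cons_of_mem _ (List.mem_cons_of_mem _ (List.mem_cons_of_mem _ (List.mem_cons_of_mem _ (List.mem_cons_of_mem _ (List.mem_cons_of_mem _ (List.mem_cons_of_mem _ (List.mem_cons_of_mem _ (List.mem_cons_of_mem _ (List.mem_cons_of_mem _ (List.mem_cons_of_mem _ (List.mem_cons_of_mem _ (List.mem_cons_of_mem _ (List.mem_cons_of_mem _ (List.mem_cons_of_mem _ (List.mem_cons_of_mem _ (List.mem_cons_of_mem _ (List.mem_cons_of_mem _ (List.mem_cons_of_mem _ (List.mem_cons_of_mem _ (List.mem_cons_of_mem _ (List.mem_cons_of_mem _ (List.mem_cons_self)))))))))))))))))))))))))))))))))))))))))))))))))))))))))))))))))))))))))))))))))))))))))))))))), ?_⟩, by norm_num⟩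
  constructor <;> norm_num [Q96, coCell, P6C4]

lemma lP6C4 : ∀ x1 x2 xc : ℝ, 0 ≤ x1 → x1 ≤ 1 → 0 ≤ x2 → x2 ≤ 1 → P6C4.l ≤ xc → xc ≤ P6C4.u →
    (46351 / 4096 : ℝ) * (1 - (1 - x1) ^ 4) + (28529 / 4096 : ℝ) * (1 - (1 - x2) ^ 4) - (12 : ℝ) * (1 - (1 - xc) ^ 4) + (1 / 1073741824 : ℝ)
      ≤ - P6C4.a1 * x1 - P6C4.a2 * x2 + P6C4.e * xc + P6C4.f := by
  have h := cell_lines_delta 4 (α1 := (46351 / 4096 : ℝ)) (α2 := (28529 / 4096 : ℝ)) (c := (12 : ℝ)) (y1 := (19159 / 65536 : ℝ)) (y2 := (25833 / 65536 : ℝ))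
    (A1 := (1051253 / 65536 : ℝ)) (B1 := (1017068751 / 268435456 : ℝ)) (A2 := (25982245 / 4194304 : ℝ)) (B2 := (481179777 / 134217728 : ℝ)) (l := (122669 / 262144 : ℝ)) (u := (127575 / 262144 : ℝ))
    (E := (-14380085 / 2097152 : ℝ)) (F := (-2101766899 / 268435456 : ℝ)) (δ := (1 / 1073741824 : ℝ)) (by norm_num) (by norm_num) (by norm_num) (by norm_num) (by norm_num)
    (by norm_num) (by norm_num) (by norm_num) (by norm_num) (by norm_num) (by norm_num) (by norm_num) (by norm_num) (by norm_num) (by norm_num)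
  have e1 : P6C4.l = (122669 / 262144 : ℝ) := rfl
  have e2 : P6C4.u = (127575 / 262144 : ℝ) := rfl
  have e3 : P6C4.a1 = -(1051253 / 65536 : ℝ) := by norm_num [P6C4]
  have e4 : P6C4.a2 = -(25982245 / 4194304 : ℝ) := by norm_num [P6C4]
  have e5 : P6C4.e = (-14380085 / 2097152 : ℝ) := rfl
  have e6 : P6C4.f = (1017068751 / 268435456 : ℝ) + (481179777 / 134217728 : ℝ) + (-2101766899 / 268435456 : ℝ) + (1 / 1073741824 : ℝ) := by norm_num [P6C4]
  rw [e1, e2, e3, e4, e5, e6]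
  exact h

lemma rP6C5 : ∃ N : ℝ, Rw4 P.r2 N (coCell (46351 / 4096 : ℝ) (28529 / 4096 : ℝ) (12 : ℝ) 0 P6C5) := by
  refine ⟨(3221225472 : ℝ), ⟨Q97, List.mem_cons_of_mem _ (List.mem_cons_of_mem _ (List.mem_cons_of_mem _ (List.mem_cons_of_mem _ (List.mem_cons_of_mem _ (List.mem_cons_of_mem _ (List.mem_cons_of_mem _ (List.mem_cons_of_mem _ (List.mem_cons_of_mem _ (List.mem_cons_of_mem _ (List.mem_cons_of_mem _ (List.mem_cons_of_mem _ (List.mem_cons_of_mem _ (List.mem_cons_of_mem _ (List.mem_cons_of_mem _ (List.mem_cons_of_mem _ (List.mem_cons_of_mem _ (List.mem_cons_of_mem _ (List.mem_cons_of_mem _ (List.mem_cons_of_mem _ (List.mem_cons_of_mem _ (List.mem_cons_of_mem _ (List.mem_cons_of_mem _ (List.mem_cons_of_mem _ (List.mem_cons_of_mem _ (List.mem_cons_of_mem _ (List.mem_cons_of_mem _ (List.mem_cons_of_mem _ (List.mem_cons_of_mem _ (List.mem_cons_of_mem _ (List.mem_cons_of_mem _ (List.mem_cons_of_mem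 _ (List.mem_cons_of_mem _ (List.mem_cons_of_mem _ (List.mem_cons_of_mem _ (List.mem_cons_of_mem _ (List.mem_cons_of_mem _ (List.mem_cons_of_mem _ (List.mem_cons_of_mem _ (List.mem_cons_of_mem _ (List.mem_cons_of_mem _ (List.mem_cons_of_mem _ (List.mem_cons_of_mem _ (List.mem_cons_of_mem _ (List.mem_cons_of_mem _ (List.mem_cons_of_mem _ (List.mem_cons_of_mem _ (List.mem_cons_of_mem _ (List.mem_cons_of_mem _ (List.mem_cons_of_mem _ (List.mem_cons_of_mem _ (List.mem_cons_of_mem _ (List.mem_cons_of_mem _ (List.mem_cons_of_mem _ (List.mem_cons_of_mem _ (List.mem_cons_of_mem _ (List.mem_cons_of_mem _ (List.mem_cons_of_mem _ (List.mem_cons_of_mem _ (List.mem_cons_of_mem _ (List.mem_cons_of_mem _ (List.mem_cons_of_mem _ (List.mem_cons_of_mem _ (List.mem_cons_of_mem _ (List.mem_cons_of_mem _ (List.mem_cons_of_mem _ (List.mem_cons_of_mem _ (List.mem_cons_of_mem _ (List.mem_cons_of_mem _ (List.mem_cons_of_mem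 _ (List.mem_cons_of_mem _ (List.mem_cons_of_mem _ (List.mem_cons_of_mem _ (List.mem_cons_of_mem _ (List.mem_cons_of_mem _ (List.mem_cons_of_mem _ (List.mem_cons_of_mem _ (List.mem_cons_of_mem _ (List.mem_cons_of_mem _ (List.mem_cons_of_mem _ (List.mem_cons_of_mem _ (List.mem_cons_of_mem _ (List.mem_cons_of_mem _ (List.mem_cons_of_mem _ (List.mem_cons_of_mem _ (List.mem_cons_of_mem _ (List.mem_cons_of_mem _ (List.mem_cons_of_mem _ (List.mem_cons_of_mem _ (List.mem_cons_of_mem _ (List.mem_cons_of_mem _ (List.mem_cons_of_mem _ (List.mem_cons_of_mem _ (List.mem_cons_of_mem _ (List.mem_cons_of_mem _ (List.mem_cons_of_mem _ (List.mem_cons_of_mem _ (List.mem_cons_self))))))))))))))))))))))))))))))))))))))))))))))))))))))))))))))))))))))))))))))))))))))))))))))))), ?_⟩, by norm_num⟩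
  constructor <;> norm_num [Q97, coCell, P6C5]

lemma lP6C5 : ∀ x1 x2 xc : ℝ, 0 ≤ x1 → x1 ≤ 1 → 0 ≤ x2 → x2 ≤ 1 → P6C5.l ≤ xc → xc ≤ P6C5.u →
    (46351 / 4096 : ℝ) * (1 - (1 - x1) ^ 4) + (28529 / 4096 : ℝ) * (1 - (1 - x2) ^ 4) - (12 : ℝ) * (1 - (1 - xc) ^ 4) + (1 / 1073741824 : ℝ)
      ≤ - P6C5.a1 * x1 - P6C5.a2 * x2 + P6C5.e * xc + P6C5.f := by
  have h := cell_lines_delta 4 (α1 := (46351 / 4096 : ℝ)) (α2 := (28529 / 4096 : ℝ)) (c := (12 : ℝ)) (y1 := (38743 / 131072 : ℝ)) (y2 := (26183 / 65536 : ℝ))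
    (A1 := (66359587 / 4194304 : ℝ)) (B1 := (1034388609 / 268435456 : ℝ)) (A2 := (25301149 / 4194304 : ℝ)) (B2 := (489828991 / 134217728 : ℝ)) (l := (127575 / 262144 : ℝ)) (u := (66339 / 131072 : ℝ))
    (E := (-25723975 / 4194304 : ℝ)) (F := (-1098166479 / 134217728 : ℝ)) (δ := (1 / 1073741824 : ℝ)) (by norm_num) (by norm_num) (by norm_num) (by norm_num) (by norm_num)
    (by norm_num) (by norm_num) (by norm_num) (by norm_num) (by norm_num) (by norm_num) (by norm_num) (by norm_num) (by norm_num) (by norm_num)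
  have e1 : P6C5.l = (127575 / 262144 : ℝ) := rfl
  have e2 : P6C5.u = (66339 / 131072 : ℝ) := rfl
  have e3 : P6C5.a1 = -(66359587 / 4194304 : ℝ) := by norm_num [P6C5]
  have e4 : P6C5.a2 = -(25301149 / 4194304 : ℝ) := by norm_num [P6C5]
  have e5 : P6C5.e = (-25723975 / 4194304 : ℝ) := rfl
  have e6 : P6C5.f = (1034388609 / 268435456 : ℝ) + (489828991 / 134217728 : ℝ) + (-1098166479 / 134217728 : ℝ) + (1 / 1073741824 : ℝ) := by norm_num [P6C5]
  rw [e1, e2, e3, e4, e5, e6]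
  exact h

lemma rP6C6 : ∃ N : ℝ, Rw4 P.r2 N (coCell (46351 / 4096 : ℝ) (28529 / 4096 : ℝ) (12 : ℝ) 0 P6C6) := by
  refine ⟨(3221225472 : ℝ), ⟨Q98, List.mem_cons_of_mem _ (List.mem_cons_of_mem _ (List.mem_cons_of_mem _ (List.mem_cons_of_mem _ (List.mem_cons_of_mem _ (List.mem_cons_of_mem _ (List.mem_cons_of_mem _ (List.mem_cons_of_mem _ (List.mem_cons_of_mem _ (List.mem_cons_of_mem _ (List.mem_cons_of_mem _ (List.mem_cons_of_mem _ (List.mem_cons_of_mem _ (List.mem_cons_of_mem _ (List.mem_cons_of_mem _ (List.mem_cons_of_mem _ (List.mem_cons_of_mem _ (List.mem_cons_of_mem _ (List.mem_cons_of_mem _ (List.mem_cons_of_mem _ (List.mem_cons_of_mem _ (List.mem_cons_of_mem _ (List.mem_cons_of_mem _ (List.mem_cons_of_mem _ (List.mem_cons_of_mem _ (List.mem_cons_of_mem _ (List.mem_cons_of_mem _ (List.mem_cons_of_mem _ (List.mem_cons_of_mem _ (List.mem_cons_of_mem _ (List.mem_cons_of_mem _ (List.mem_cons_of_mem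 _ (List.mem_cons_of_mem _ (List.mem_cons_of_mem _ (List.mem_cons_of_mem _ (List.mem_cons_of_mem _ (List.mem_cons_of_mem _ (List.mem_cons_of_mem _ (List.mem_cons_of_mem _ (List.mem_cons_of_mem _ (List.mem_cons_of_mem _ (List.mem_cons_of_mem _ (List.mem_cons_of_mem _ (List.mem_cons_of_mem _ (List.mem_cons_of_mem _ (List.mem_cons_of_mem _ (List.mem_cons_of_mem _ (List.mem_cons_of_mem _ (List.mem_cons_of_mem _ (List.mem_cons_of_mem _ (List.mem_cons_of_mem _ (List.mem_cons_of_mem _ (List.mem_cons_of_mem _ (List.mem_cons_of_mem _ (List.mem_cons_of_mem _ (List.mem_cons_of_mem _ (List.mem_cons_of_mem _ (List.mem_cons_of_mem _ (List.mem_cons_of_mem _ (List.mem_cons_of_mem _ (List.mem_cons_of_mem _ (List.mem_cons_of_mem _ (List.mem_cons_of_mem _ (List.mem_cons_of_mem _ (List.mem_cons_of_mem _ (List.mem_cons_of_mem _ (List.mem_cons_of_mem _ (List.mem_cons_of_mem _ (List.mem_cons_of_mem _ (List.mem_cons_of_mem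 _ (List.mem_cons_of_mem _ (List.mem_cons_of_mem _ (List.mem_cons_of_mem _ (List.mem_cons_of_mem _ (List.mem_cons_of_mem _ (List.mem_cons_of_mem _ (List.mem_cons_of_mem _ (List.mem_cons_of_mem _ (List.mem_cons_of_mem _ (List.mem_cons_of_mem _ (List.mem_cons_of_mem _ (List.mem_cons_of_mem _ (List.mem_cons_of_mem _ (List.mem_cons_of_mem _ (List.mem_cons_of_mem _ (List.mem_cons_of_mem _ (List.mem_cons_of_mem _ (List.mem_cons_of_mem _ (List.mem_cons_of_mem _ (List.mem_cons_of_mem _ (List.mem_cons_of_mem _ (List.mem_cons_of_mem _ (List.mem_cons_of_mem _ (List.mem_cons_of_mem _ (List.mem_cons_of_mem _ (List.mem_cons_of_mem _ (List.mem_cons_of_mem _ (List.mem_cons_of_mem _ (List.mem_cons_self)))))))))))))))))))))))))))))))))))))))))))))))))))))))))))))))))))))))))))))))))))))))))))))))))), ?_⟩, by norm_num⟩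
  constructor <;> norm_num [Q98, coCell, P6C6]

lemma lP6C6 : ∀ x1 x2 xc : ℝ, 0 ≤ x1 → x1 ≤ 1 → 0 ≤ x2 → x2 ≤ 1 → P6C6.l ≤ xc → xc ≤ P6C6.u →
    (46351 / 4096 : ℝ) * (1 - (1 - x1) ^ 4) + (28529 / 4096 : ℝ) * (1 - (1 - x2) ^ 4) - (12 : ℝ) * (1 - (1 - xc) ^ 4) + (1 / 1073741824 : ℝ)
      ≤ - P6C6.a1 * x1 - P6C6.a2 * x2 + P6C6.e * xc + P6C6.f := by
  have h := cell_lines_delta 4 (α1 := (46351 / 4096 : ℝ)) (α2 := (28529 / 4096 : ℝ)) (c := (12 : ℝ)) (y1 := (39741 / 131072 : ℝ)) (y2 := (109569 / 262144 : ℝ))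
    (A1 := (32115443 / 2097152 : ℝ)) (B1 := (1075175069 / 268435456 : ℝ)) (A2 := (23039703 / 4194304 : ℝ)) (B2 := (519401527 / 134217728 : ℝ)) (l := (66339 / 131072 : ℝ)) (u := (137985 / 262144 : ℝ))
    (E := (-22801199 / 4194304 : ℝ)) (F := (-2291007781 / 268435456 : ℝ)) (δ := (1 / 1073741824 : ℝ)) (by norm_num) (by norm_num) (by norm_num) (by norm_num) (by norm_num)
    (by norm_num) (by norm_num) (by norm_num) (by norm_num) (by norm_num) (by norm_num) (by norm_num) (by norm_num) (by norm_num) (by norm_num)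
  have e1 : P6C6.l = (66339 / 131072 : ℝ) := rfl
  have e2 : P6C6.u = (137985 / 262144 : ℝ) := rfl
  have e3 : P6C6.a1 = -(32115443 / 2097152 : ℝ) := by norm_num [P6C6]
  have e4 : P6C6.a2 = -(23039703 / 4194304 : ℝ) := by norm_num [P6C6]
  have e5 : P6C6.e = (-22801199 / 4194304 : ℝ) := rfl
  have e6 : P6C6.f = (1075175069 / 268435456 : ℝ) + (519401527 / 134217728 : ℝ) + (-2291007781 / 268435456 : ℝ) + (1 / 1073741824 : ℝ) := by norm_num [P6C6]
  rw [e1, e2, e3, e4, e5, e6]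
  exact h

lemma rP6C7 : ∃ N : ℝ, Rw4 P.r2 N (coCell (46351 / 4096 : ℝ) (28529 / 4096 : ℝ) (12 : ℝ) 0 P6C7) := by
  refine ⟨(3221225472 : ℝ), ⟨Q99, List.mem_cons_of_mem _ (List.mem_cons_of_mem _ (List.mem_cons_of_mem _ (List.mem_cons_of_mem _ (List.mem_cons_of_mem _ (List.mem_cons_of_mem _ (List.mem_cons_of_mem _ (List.mem_cons_of_mem _ (List.mem_cons_of_mem _ (List.mem_cons_of_mem _ (List.mem_cons_of_mem _ (List.mem_cons_of_mem _ (List.mem_cons_of_mem _ (List.mem_cons_of_mem _ (List.mem_cons_of_mem _ (List.mem_cons_of_mem _ (List.mem_cons_of_mem _ (List.mem_cons_of_mem _ (List.mem_cons_of_mem _ (List.mem_cons_of_mem _ (List.mem_cons_of_mem _ (List.mem_cons_of_mem _ (List.mem_cons_of_mem _ (List.mem_cons_of_mem _ (List.mem_cons_of_mem _ (List.mem_cons_of_mem _ (List.mem_cons_of_mem _ (List.mem_cons_of_mem _ (List.mem_cons_of_mem _ (List.mem_cons_of_mem _ (List.mem_cons_of_mem _ (List.mem_cons_of_mem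 _ (List.mem_cons_of_mem _ (List.mem_cons_of_mem _ (List.mem_cons_of_mem _ (List.mem_cons_of_mem _ (List.mem_cons_of_mem _ (List.mem_cons_of_mem _ (List.mem_cons_of_mem _ (List.mem_cons_of_mem _ (List.mem_cons_of_mem _ (List.mem_cons_of_mem _ (List.mem_cons_of_mem _ (List.mem_cons_of_mem _ (List.mem_cons_of_mem _ (List.mem_cons_of_mem _ (List.mem_cons_of_mem _ (List.mem_cons_of_mem _ (List.mem_cons_of_mem _ (List.mem_cons_of_mem _ (List.mem_cons_of_mem _ (List.mem_cons_of_mem _ (List.mem_cons_of_mem _ (List.mem_cons_of_mem _ (List.mem_cons_of_mem _ (List.mem_cons_of_mem _ (List.mem_cons_of_mem _ (List.mem_cons_of_mem _ (List.mem_cons_of_mem _ (List.mem_cons_of_mem _ (List.mem_cons_of_mem _ (List.mem_cons_of_mem _ (List.mem_cons_of_mem _ (List.mem_cons_of_mem _ (List.mem_cons_of_mem _ (List.mem_cons_of_mem _ (List.mem_cons_of_mem _ (List.mem_cons_of_mem _ (List.mem_cons_of_mem _ (List.mem_cons_of_mem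 _ (List.mem_cons_of_mem _ (List.mem_cons_of_mem _ (List.mem_cons_of_mem _ (List.mem_cons_of_mem _ (List.mem_cons_of_mem _ (List.mem_cons_of_mem _ (List.mem_cons_of_mem _ (List.mem_cons_of_mem _ (List.mem_cons_of_mem _ (List.mem_cons_of_mem _ (List.mem_cons_of_mem _ (List.mem_cons_of_mem _ (List.mem_cons_of_mem _ (List.mem_cons_of_mem _ (List.mem_cons_of_mem _ (List.mem_cons_of_mem _ (List.mem_cons_of_mem _ (List.mem_cons_of_mem _ (List.mem_cons_of_mem _ (List.mem_cons_of_mem _ (List.mem_cons_of_mem _ (List.mem_cons_of_mem _ (List.mem_cons_of_mem _ (List.mem_cons_of_mem _ (List.mem_cons_of_mem _ (List.mem_cons_of_mem _ (List.mem_cons_of_mem _ (List.mem_cons_of_mem _ (List.mem_cons_of_mem _ (List.mem_cons_self))))))))))))))))))))))))))))))))))))))))))))))))))))))))))))))))))))))))))))))))))))))))))))))))))), ?_⟩, by norm_num⟩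
  constructor <;> norm_num [Q99, coCell, P6C7]

lemma lP6C7 : ∀ x1 x2 xc : ℝ, 0 ≤ x1 → x1 ≤ 1 → 0 ≤ x2 → x2 ≤ 1 → P6C7.l ≤ xc → xc ≤ P6C7.u →
    (46351 / 4096 : ℝ) * (1 - (1 - x1) ^ 4) + (28529 / 4096 : ℝ) * (1 - (1 - x2) ^ 4) - (12 : ℝ) * (1 - (1 - xc) ^ 4) + (1 / 1073741824 : ℝ)
      ≤ - P6C7.a1 * x1 - P6C7.a2 * x2 + P6C7.e * xc + P6C7.f := by
  have h := cell_lines_delta 4 (α1 := (46351 / 4096 : ℝ)) (α2 := (28529 / 4096 : ℝ)) (c := (12 : ℝ)) (y1 := (82097 / 262144 : ℝ)) (y2 := (55925 / 131072 : ℝ))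
    (A1 := (61511591 / 4194304 : ℝ)) (B1 := (282201563 / 67108864 : ℝ)) (A2 := (11010871 / 2097152 : ℝ)) (B2 := (266578945 / 67108864 : ℝ)) (l := (137985 / 262144 : ℝ)) (u := (144179 / 262144 : ℝ))
    (E := (-4960541 / 1048576 : ℝ)) (F := (-2390690995 / 268435456 : ℝ)) (δ := (1 / 1073741824 : ℝ)) (by norm_num) (by norm_num) (by norm_num) (by norm_num) (by norm_num)
    (by norm_num) (by norm_num) (by norm_num) (by norm_num) (by norm_num) (by norm_num) (by norm_num) (by norm_num) (by norm_num) (by norm_num)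
  have e1 : P6C7.l = (137985 / 262144 : ℝ) := rfl
  have e2 : P6C7.u = (144179 / 262144 : ℝ) := rfl
  have e3 : P6C7.a1 = -(61511591 / 4194304 : ℝ) := by norm_num [P6C7]
  have e4 : P6C7.a2 = -(11010871 / 2097152 : ℝ) := by norm_num [P6C7]
  have e5 : P6C7.e = (-4960541 / 1048576 : ℝ) := rfl
  have e6 : P6C7.f = (282201563 / 67108864 : ℝ) + (266578945 / 67108864 : ℝ) + (-2390690995 / 268435456 : ℝ) + (1 / 1073741824 : ℝ) := by norm_num [P6C7]
  rw [e1, e2, e3, e4, e5, e6]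
  exact h

/-- A link of the chain. -/
lemma link6 {lam : ℝ} (h0 : -(1 / 2) < lam) (h1 : lam < 1) (hB : BoxS lam P 0 HH 0 HH)
    (h : ∃ n, 1 - En 4 lam n mc ≤ (144179 / 262144 : ℝ)) : ∃ n, 1 - En 4 lam n mc ≤ (52429 / 131072 : ℝ) :=
  phase_of_box (by norm_num) h0 h1 hB (46351 / 4096 : ℝ) (28529 / 4096 : ℝ) (12 : ℝ) (1 / 1073741824 : ℝ) (52429 / 131072 : ℝ) (144179 / 262144 : ℝ) (by norm_num) cellsP6 hcoverP6
    (forall_cons lP6C0 (forall_cons lP6C1 (forall_cons lP6C2 (forall_cons lP6C3 (forall_cons lP6C4 (forall_cons lP6C5 (forall_cons lP6C6 (forall_cons lP6C7 (forall_nil))))))))) (forall_cons rP6C0 (forall_cons rP6C1 (forall_cons rP6C2 (forall_cons rP6C3 (forall_cons rP6C4 (forall_cons rP6C5 (forall_cons rP6C6 (forall_cons rP6C7 (forall_nil))))))))) h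

/-- A chord cell of a link. -/
noncomputable def P7C0 : Cell := ⟨(144179 / 262144 : ℝ), (37847 / 65536 : ℝ), (-161159249 / 4194304 : ℝ), (0 : ℝ), (-8365863 / 2097152 : ℝ), (-744411243 / 1073741824 : ℝ)⟩

/-- A chord cell of a link. -/
noncomputable def P7C1 : Cell := ⟨(37847 / 65536 : ℝ), (79479 / 131072 : ℝ), (-156736009 / 4194304 : ℝ), (0 : ℝ), (-1712115 / 524288 : ℝ), (-864433507 / 1073741824 : ℝ)⟩

/-- A chord cell of a link. -/
noncomputable def P7C2 : Cell := ⟨(79479 / 131072 : ℝ), (649 / 1024 : ℝ), (-150748307 / 4194304 : ℝ), (0 : ℝ), (-11054337 / 4194304 : ℝ), (-817750623 / 1073741824 : ℝ)⟩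

/-- The chord cells of a link. -/
noncomputable def cellsP7 : List Cell := [P7C0, P7C1, P7C2]

lemma hcoverP7 : ∀ x : ℝ, (144179 / 262144 : ℝ) ≤ x → x ≤ (649 / 1024 : ℝ) → ∃ D ∈ cellsP7, D.l ≤ x ∧ x ≤ D.u := by
  refine cover_of_chain ?_ (by norm_num [P7C0])
  simp only [ChainP, P7C0, P7C1, P7C2]
  norm_num

lemma rP7C0 : ∃ N : ℝ, Rw4 P.r2 N (coCell (54263 / 2048 : ℝ) (0 : ℝ) (12 : ℝ) 0 P7C0) := by
  refine ⟨(3221225472 : ℝ), ⟨Q100, List.mem_cons_of_mem _ (List.mem_cons_of_mem _ (List.mem_cons_of_mem _ (List.mem_cons_of_mem _ (List.mem_cons_of_mem _ (List.mem_cons_of_mem _ (List.mem_cons_of_mem _ (List.mem_cons_of_mem _ (List.mem_cons_of_mem _ (List.mem_cons_of_mem _ (List.mem_cons_of_mem _ (List.mem_cons_of_mem _ (List.mem_cons_of_mem _ (List.mem_cons_of_mem _ (List.mem_cons_of_mem _ (List.mem_cons_of_mem _ (List.mem_cons_of_mem _ (List.mem_cons_of_mem _ (List.mem_cons_of_mem _ (List.mem_cons_of_mem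 _ (List.mem_cons_of_mem _ (List.mem_cons_of_mem _ (List.mem_cons_of_mem _ (List.mem_cons_of_mem _ (List.mem_cons_of_mem _ (List.mem_cons_of_mem _ (List.mem_cons_of_mem _ (List.mem_cons_of_mem _ (List.mem_cons_of_mem _ (List.mem_cons_of_mem _ (List.mem_cons_of_mem _ (List.mem_cons_of_mem _ (List.mem_cons_of_mem _ (List.mem_cons_of_mem _ (List.mem_cons_of_mem _ (List.mem_cons_of_mem _ (List.mem_cons_of_mem _ (List.mem_cons_of_mem _ (List.mem_cons_of_mem _ (List.mem_cons_of_mem _ (List.mem_cons_of_mem _ (List.mem_cons_of_mem _ (List.mem_cons_of_mem _ (List.mem_cons_of_mem _ (List.mem_cons_of_mem _ (List.mem_cons_of_mem _ (List.mem_cons_of_mem _ (List.mem_cons_of_mem _ (List.mem_cons_of_mem _ (List.mem_cons_of_mem _ (List.mem_cons_of_mem _ (List.mem_cons_of_mem _ (List.mem_cons_of_mem _ (List.mem_cons_of_mem _ (List.mem_cons_of_mem _ (List.mem_cons_of_mem _ (List.mem_cons_of_mem _ (List.mem_cons_of_mem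 _ (List.mem_cons_of_mem _ (List.mem_cons_of_mem _ (List.mem_cons_of_mem _ (List.mem_cons_of_mem _ (List.mem_cons_of_mem _ (List.mem_cons_of_mem _ (List.mem_cons_of_mem _ (List.mem_cons_of_mem _ (List.mem_cons_of_mem _ (List.mem_cons_of_mem _ (List.mem_cons_of_mem _ (List.mem_cons_of_mem _ (List.mem_cons_of_mem _ (List.mem_cons_of_mem _ (List.mem_cons_of_mem _ (List.mem_cons_of_mem _ (List.mem_cons_of_mem _ (List.mem_cons_of_mem _ (List.mem_cons_of_mem _ (List.mem_cons_of_mem _ (List.mem_cons_of_mem _ (List.mem_cons_of_mem _ (List.mem_cons_of_mem _ (List.mem_cons_of_mem _ (List.mem_cons_of_mem _ (List.mem_cons_of_mem _ (List.mem_cons_of_mem _ (List.mem_cons_of_mem _ (List.mem_cons_of_mem _ (List.mem_cons_of_mem _ (List.mem_cons_of_mem _ (List.mem_cons_of_mem _ (List.mem_cons_of_mem _ (List.mem_cons_of_mem _ (List.mem_cons_of_mem _ (List.mem_cons_of_mem _ (List.mem_cons_of_mem _ (List.mem_cons_of_mem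 _ (List.mem_cons_of_mem _ (List.mem_cons_of_mem _ (List.mem_cons_of_mem _ (List.mem_cons_of_mem _ (List.mem_cons_self)))))))))))))))))))))))))))))))))))))))))))))))))))))))))))))))))))))))))))))))))))))))))))))))))))), ?_⟩, by norm_num⟩
  constructor <;> norm_num [Q100, coCell, P7C0]

lemma lP7C0 : ∀ x1 x2 xc : ℝ, 0 ≤ x1 → x1 ≤ 1 → 0 ≤ x2 → x2 ≤ 1 → P7C0.l ≤ xc → xc ≤ P7C0.u →
    (54263 / 2048 : ℝ) * (1 - (1 - x1) ^ 4) + (0 : ℝ) * (1 - (1 - x2) ^ 4) - (12 : ℝ) * (1 - (1 - xc) ^ 4) + (1 / 1073741824 : ℝ)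
      ≤ - P7C0.a1 * x1 - P7C0.a2 * x2 + P7C0.e * xc + P7C0.f := by
  have h := cell_lines_delta 4 (α1 := (54263 / 2048 : ℝ)) (α2 := (0 : ℝ)) (c := (12 : ℝ)) (y1 := (37611 / 131072 : ℝ)) (y2 := (35975 / 262144 : ℝ))
    (A1 := (161159249 / 4194304 : ℝ)) (B1 := (2314075449 / 268435456 : ℝ)) (A2 := (0 : ℝ)) (B2 := (0 : ℝ)) (l := (144179 / 262144 : ℝ)) (u := (37847 / 65536 : ℝ))
    (E := (-8365863 / 2097152 : ℝ)) (F := (-625044565 / 67108864 : ℝ)) (δ := (1 / 1073741824 : ℝ)) (by norm_num) (by norm_num) (by norm_num) (by norm_num) (by norm_num)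
    (by norm_num) (by norm_num) (by norm_num) (by norm_num) (by norm_num) (by norm_num) (by norm_num) (by norm_num) (by norm_num) (by norm_num)
  have e1 : P7C0.l = (144179 / 262144 : ℝ) := rfl
  have e2 : P7C0.u = (37847 / 65536 : ℝ) := rfl
  have e3 : P7C0.a1 = -(161159249 / 4194304 : ℝ) := by norm_num [P7C0]
  have e4 : P7C0.a2 = -(0 : ℝ) := by norm_num [P7C0]
  have e5 : P7C0.e = (-8365863 / 2097152 : ℝ) := rfl
  have e6 : P7C0.f = (2314075449 / 268435456 : ℝ) + (0 : ℝ) + (-625044565 / 67108864 : ℝ) + (1 / 1073741824 : ℝ) := by norm_num [P7C0]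
  rw [e1, e2, e3, e4, e5, e6]
  exact h

lemma rP7C1 : ∃ N : ℝ, Rw4 P.r2 N (coCell (54263 / 2048 : ℝ) (0 : ℝ) (12 : ℝ) 0 P7C1) := by
  refine ⟨(3221225472 : ℝ), ⟨Q101, List.mem_cons_of_mem _ (List.mem_cons_of_mem _ (List.mem_cons_of_mem _ (List.mem_cons_of_mem _ (List.mem_cons_of_mem _ (List.mem_cons_of_mem _ (List.mem_cons_of_mem _ (List.mem_cons_of_mem _ (List.mem_cons_of_mem _ (List.mem_cons_of_mem _ (List.mem_cons_of_mem _ (List.mem_cons_of_mem _ (List.mem_cons_of_mem _ (List.mem_cons_of_mem _ (List.mem_cons_of_mem _ (List.mem_cons_of_mem _ (List.mem_cons_of_mem _ (List.mem_cons_of_mem _ (List.mem_cons_of_mem _ (List.mem_cons_of_mem _ (List.mem_cons_of_mem _ (List.mem_cons_of_mem _ (List.mem_cons_of_mem _ (List.mem_cons_of_mem _ (List.mem_cons_of_mem _ (List.mem_cons_of_mem _ (List.mem_cons_of_mem _ (List.mem_cons_of_mem _ (List.mem_cons_of_mem _ (List.mem_cons_of_mem _ (List.mem_cons_of_mem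 _ (List.mem_cons_of_mem _ (List.mem_cons_of_mem _ (List.mem_cons_of_mem _ (List.mem_cons_of_mem _ (List.mem_cons_of_mem _ (List.mem_cons_of_mem _ (List.mem_cons_of_mem _ (List.mem_cons_of_mem _ (List.mem_cons_of_mem _ (List.mem_cons_of_mem _ (List.mem_cons_of_mem _ (List.mem_cons_of_mem _ (List.mem_cons_of_mem _ (List.mem_cons_of_mem _ (List.mem_cons_of_mem _ (List.mem_cons_of_mem _ (List.mem_cons_of_mem _ (List.mem_cons_of_mem _ (List.mem_cons_of_mem _ (List.mem_cons_of_mem _ (List.mem_cons_of_mem _ (List.mem_cons_of_mem _ (List.mem_cons_of_mem _ (List.mem_cons_of_mem _ (List.mem_cons_of_mem _ (List.mem_cons_of_mem _ (List.mem_cons_of_mem _ (List.mem_cons_of_mem _ (List.mem_cons_of_mem _ (List.mem_cons_of_mem _ (List.mem_cons_of_mem _ (List.mem_cons_of_mem _ (List.mem_cons_of_mem _ (List.mem_cons_of_mem _ (List.mem_cons_of_mem _ (List.mem_cons_of_mem _ (List.mem_cons_of_mem _ (List.mem_cons_of_mem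 _ (List.mem_cons_of_mem _ (List.mem_cons_of_mem _ (List.mem_cons_of_mem _ (List.mem_cons_of_mem _ (List.mem_cons_of_mem _ (List.mem_cons_of_mem _ (List.mem_cons_of_mem _ (List.mem_cons_of_mem _ (List.mem_cons_of_mem _ (List.mem_cons_of_mem _ (List.mem_cons_of_mem _ (List.mem_cons_of_mem _ (List.mem_cons_of_mem _ (List.mem_cons_of_mem _ (List.mem_cons_of_mem _ (List.mem_cons_of_mem _ (List.mem_cons_of_mem _ (List.mem_cons_of_mem _ (List.mem_cons_of_mem _ (List.mem_cons_of_mem _ (List.mem_cons_of_mem _ (List.mem_cons_of_mem _ (List.mem_cons_of_mem _ (List.mem_cons_of_mem _ (List.mem_cons_of_mem _ (List.mem_cons_of_mem _ (List.mem_cons_of_mem _ (List.mem_cons_of_mem _ (List.mem_cons_of_mem _ (List.mem_cons_of_mem _ (List.mem_cons_of_mem _ (List.mem_cons_of_mem _ (List.mem_cons_self))))))))))))))))))))))))))))))))))))))))))))))))))))))))))))))))))))))))))))))))))))))))))))))))))))), ?_⟩, by norm_num⟩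
  constructor <;> norm_num [Q101, coCell, P7C1]

lemma lP7C1 : ∀ x1 x2 xc : ℝ, 0 ≤ x1 → x1 ≤ 1 → 0 ≤ x2 → x2 ≤ 1 → P7C1.l ≤ xc → xc ≤ P7C1.u →
    (54263 / 2048 : ℝ) * (1 - (1 - x1) ^ 4) + (0 : ℝ) * (1 - (1 - x2) ^ 4) - (12 : ℝ) * (1 - (1 - xc) ^ 4) + (1 / 1073741824 : ℝ)
      ≤ - P7C1.a1 * x1 - P7C1.a2 * x2 + P7C1.e * xc + P7C1.f := by
  have h := cell_lines_delta 4 (α1 := (54263 / 2048 : ℝ)) (α2 := (0 : ℝ)) (c := (12 : ℝ)) (y1 := (19237 / 65536 : ℝ)) (y2 := (37965 / 262144 : ℝ))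
    (A1 := (156736009 / 4194304 : ℝ)) (B1 := (1198118097 / 134217728 : ℝ)) (A2 := (0 : ℝ)) (B2 := (0 : ℝ)) (l := (37847 / 65536 : ℝ)) (u := (79479 / 131072 : ℝ))
    (E := (-1712115 / 524288 : ℝ)) (F := (-2612344571 / 268435456 : ℝ)) (δ := (1 / 1073741824 : ℝ)) (by norm_num) (by norm_num) (by norm_num) (by norm_num) (by norm_num)
    (by norm_num) (by norm_num) (by norm_num) (by norm_num) (by norm_num) (by norm_num) (by norm_num) (by norm_num) (by norm_num) (by norm_num)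
  have e1 : P7C1.l = (37847 / 65536 : ℝ) := rfl
  have e2 : P7C1.u = (79479 / 131072 : ℝ) := rfl
  have e3 : P7C1.a1 = -(156736009 / 4194304 : ℝ) := by norm_num [P7C1]
  have e4 : P7C1.a2 = -(0 : ℝ) := by norm_num [P7C1]
  have e5 : P7C1.e = (-1712115 / 524288 : ℝ) := rfl
  have e6 : P7C1.f = (1198118097 / 134217728 : ℝ) + (0 : ℝ) + (-2612344571 / 268435456 : ℝ) + (1 / 1073741824 : ℝ) := by norm_num [P7C1]
  rw [e1, e2, e3, e4, e5, e6]
  exact h

lemma rP7C2 : ∃ N : ℝ, Rw4 P.r2 N (coCell (54263 / 2048 : ℝ) (0 : ℝ) (12 : ℝ) 0 P7C2) := by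
  refine ⟨(3221225472 : ℝ), ⟨Q102, List.mem_cons_of_mem _ (List.mem_cons_of_mem _ (List.mem_cons_of_mem _ (List.mem_cons_of_mem _ (List.mem_cons_of_mem _ (List.mem_cons_of_mem _ (List.mem_cons_of_mem _ (List.mem_cons_of_mem _ (List.mem_cons_of_mem _ (List.mem_cons_of_mem _ (List.mem_cons_of_mem _ (List.mem_cons_of_mem _ (List.mem_cons_of_mem _ (List.mem_cons_of_mem _ (List.mem_cons_of_mem _ (List.mem_cons_of_mem _ (List.mem_cons_of_mem _ (List.mem_cons_of_mem _ (List.mem_cons_of_mem _ (List.mem_cons_of_mem _ (List.mem_cons_of_mem _ (List.mem_cons_of_mem _ (List.mem_cons_of_mem _ (List.mem_cons_of_mem _ (List.mem_cons_of_mem _ (List.mem_cons_of_mem _ (List.mem_cons_of_mem _ (List.mem_cons_of_mem _ (List.mem_cons_of_mem _ (List.mem_cons_of_mem _ (List.mem_cons_of_mem _ (List.mem_cons_of_mem _ (List.mem_cons_of_mem _ (List.mem_cons_of_mem _ (List.mem_cons_of_mem _ (List.mem_cons_of_mem _ (List.mem_cons_of_mem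 _ (List.mem_cons_of_mem _ (List.mem_cons_of_mem _ (List.mem_cons_of_mem _ (List.mem_cons_of_mem _ (List.mem_cons_of_mem _ (List.mem_cons_of_mem _ (List.mem_cons_of_mem _ (List.mem_cons_of_mem _ (List.mem_cons_of_mem _ (List.mem_cons_of_mem _ (List.mem_cons_of_mem _ (List.mem_cons_of_mem _ (List.mem_cons_of_mem _ (List.mem_cons_of_mem _ (List.mem_cons_of_mem _ (List.mem_cons_of_mem _ (List.mem_cons_of_mem _ (List.mem_cons_of_mem _ (List.mem_cons_of_mem _ (List.mem_cons_of_mem _ (List.mem_cons_of_mem _ (List.mem_cons_of_mem _ (List.mem_cons_of_mem _ (List.mem_cons_of_mem _ (List.mem_cons_of_mem _ (List.mem_cons_of_mem _ (List.mem_cons_of_mem _ (List.mem_cons_of_mem _ (List.mem_cons_of_mem _ (List.mem_cons_of_mem _ (List.mem_cons_of_mem _ (List.mem_cons_of_mem _ (List.mem_cons_of_mem _ (List.mem_cons_of_mem _ (List.mem_cons_of_mem _ (List.mem_cons_of_mem _ (List.mem_cons_of_mem _ (List.mem_cons_of_mem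 _ (List.mem_cons_of_mem _ (List.mem_cons_of_mem _ (List.mem_cons_of_mem _ (List.mem_cons_of_mem _ (List.mem_cons_of_mem _ (List.mem_cons_of_mem _ (List.mem_cons_of_mem _ (List.mem_cons_of_mem _ (List.mem_cons_of_mem _ (List.mem_cons_of_mem _ (List.mem_cons_of_mem _ (List.mem_cons_of_mem _ (List.mem_cons_of_mem _ (List.mem_cons_of_mem _ (List.mem_cons_of_mem _ (List.mem_cons_of_mem _ (List.mem_cons_of_mem _ (List.mem_cons_of_mem _ (List.mem_cons_of_mem _ (List.mem_cons_of_mem _ (List.mem_cons_of_mem _ (List.mem_cons_of_mem _ (List.mem_cons_of_mem _ (List.mem_cons_of_mem _ (List.mem_cons_of_mem _ (List.mem_cons_of_mem _ (List.mem_cons_of_mem _ (List.mem_cons_self)))))))))))))))))))))))))))))))))))))))))))))))))))))))))))))))))))))))))))))))))))))))))))))))))))))), ?_⟩, by norm_num⟩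
  constructor <;> norm_num [Q102, coCell, P7C2]

lemma lP7C2 : ∀ x1 x2 xc : ℝ, 0 ≤ x1 → x1 ≤ 1 → 0 ≤ x2 → x2 ≤ 1 → P7C2.l ≤ xc → xc ≤ P7C2.u →
    (54263 / 2048 : ℝ) * (1 - (1 - x1) ^ 4) + (0 : ℝ) * (1 - (1 - x2) ^ 4) - (12 : ℝ) * (1 - (1 - xc) ^ 4) + (1 / 1073741824 : ℝ)
      ≤ - P7C2.a1 * x1 - P7C2.a2 * x2 + P7C2.e * xc + P7C2.f := by
  have h := cell_lines_delta 4 (α1 := (54263 / 2048 : ℝ)) (α2 := (0 : ℝ)) (c := (12 : ℝ)) (y1 := (79337 / 262144 : ℝ)) (y2 := (36591 / 262144 : ℝ))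
    (A1 := (150748307 / 4194304 : ℝ)) (B1 := (627615139 / 67108864 : ℝ)) (A2 := (0 : ℝ)) (B2 := (0 : ℝ)) (l := (79479 / 131072 : ℝ)) (u := (649 / 1024 : ℝ))
    (E := (-11054337 / 4194304 : ℝ)) (F := (-678724553 / 67108864 : ℝ)) (δ := (1 / 1073741824 : ℝ)) (by norm_num) (by norm_num) (by norm_num) (by norm_num) (by norm_num)
    (by norm_num) (by norm_num) (by norm_num) (by norm_num) (by norm_num) (by norm_num) (by norm_num) (by norm_num) (by norm_num) (by norm_num)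
  have e1 : P7C2.l = (79479 / 131072 : ℝ) := rfl
  have e2 : P7C2.u = (649 / 1024 : ℝ) := rfl
  have e3 : P7C2.a1 = -(150748307 / 4194304 : ℝ) := by norm_num [P7C2]
  have e4 : P7C2.a2 = -(0 : ℝ) := by norm_num [P7C2]
  have e5 : P7C2.e = (-11054337 / 4194304 : ℝ) := rfl
  have e6 : P7C2.f = (627615139 / 67108864 : ℝ) + (0 : ℝ) + (-678724553 / 67108864 : ℝ) + (1 / 1073741824 : ℝ) := by norm_num [P7C2]
  rw [e1, e2, e3, e4, e5, e6]
  exact h

/-- A link of the chain. -/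
lemma link7 {lam : ℝ} (h0 : -(1 / 2) < lam) (h1 : lam < 1) (hB : BoxS lam P 0 HH 0 HH)
    (h : ∃ n, 1 - En 4 lam n mc ≤ (649 / 1024 : ℝ)) : ∃ n, 1 - En 4 lam n mc ≤ (144179 / 262144 : ℝ) :=
  phase_of_box (by norm_num) h0 h1 hB (54263 / 2048 : ℝ) (0 : ℝ) (12 : ℝ) (1 / 1073741824 : ℝ) (144179 / 262144 : ℝ) (649 / 1024 : ℝ) (by norm_num) cellsP7 hcoverP7
    (forall_cons lP7C0 (forall_cons lP7C1 (forall_cons lP7C2 (forall_nil)))) (forall_cons rP7C0 (forall_cons rP7C1 (forall_cons rP7C2 (forall_nil)))) h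

/-- The whole chain. -/
lemma chain {lam : ℝ} (h0 : -(1 / 2) < lam) (h1 : lam < 1) (hB : BoxS lam P 0 HH 0 HH) :
    ∃ n, 1 - En 4 lam n mc ≤ (1 / 32 : ℝ) := (link0 h0 h1 hB (link1 h0 h1 hB (link2 h0 h1 hB (link3 h0 h1 hB (link4 h0 h1 hB (link5 h0 h1 hB (link6 h0 h1 hB (link7 h0 h1 hB (start_of_box h0 h1 hB _ rc3)))))))))

/-- The hypotheses at the origin. -/
lemma horig : OriginH 4 (-49 / 100 : ℝ) (29637 / 16384 : ℝ) (385281 / 32768 : ℝ) (174145 / 16384 : ℝ) (95 / 256 : ℝ) (123 / 2048 : ℝ) (529 / 4096 : ℝ) (4091 / 4096 : ℝ) (1 / 256 : ℝ) 3298534883328 := by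
  refine originH_sub (d := 4) (by norm_num) (by norm_num) (by norm_num) (by norm_num) (by norm_num) (by norm_num) (by norm_num)
    (by norm_num) (by norm_num) (by norm_num) (by norm_num) (by norm_num [S]) (by norm_num) ?_ ?_ ?_
  · rw [hch]
    norm_num [orB1, orB2, orB3, orB4, abs_of_pos, abs_of_neg]
  · norm_num [orB1, orB2, orB3, orB4, abs_of_pos, abs_of_neg]
  · norm_num [abs_of_pos, abs_of_neg]

/-- Nonreconstruction at the eigenvalue. -/
theorem main : Tendsto (reconError 3 4 (-49 / 100 : ℝ)) atTop (𝓝 0) := by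
  have hb2 : (-(1 / 2) : ℝ) < (-49 / 100 : ℝ) := by norm_num
  have h1 : (-49 / 100 : ℝ) < 1 := by norm_num
  have hlam : |(S : ℝ) * (-49 / 100 : ℝ) - ((P.lp : ℝ) - P.ln)| ≤ ((1 : ℕ) : ℝ) := by
    have e1 : P.lp = 0 := rfl
    have e2 : P.ln = 35308221078584688 := rfl
    rw [e1, e2, abs_le]
    constructor <;> norm_num [S]
  obtain ⟨hOa, hON⟩ := horig
  have hB := box hlam
  refine final_of_boxB (d := 4) (by norm_num) hb2 h1 hB (29637 / 16384 : ℝ) (385281 / 32768 : ℝ) (174145 / 16384 : ℝ) (95 / 256 : ℝ) (529 / 4096 : ℝ) (4091 / 4096 : ℝ) (5243 / 1048576 : ℝ) (979 / 16384 : ℝ) (123 / 2048 : ℝ) (1 / 32 : ℝ) cellsL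
    (by norm_num) (by norm_num) (by norm_num) (by norm_num) (by norm_num) (by norm_num) (by norm_num) (by norm_num)
    (by norm_num) (by norm_num) (by norm_num) (by norm_num) (by norm_num) hOa hON rTa rTb rc1 rc2
    (forall_cons rcell0 (forall_cons rcell1 (forall_cons rcell2 (forall_cons rcell3 (forall_nil))))) hcover (forall_cons lcell0 (forall_cons lcell1 (forall_cons lcell2 (forall_cons lcell3 (forall_nil))))) (chain hb2 h1 hB)

end Vale.Agent.P154H.Tm.S4
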